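import Vale.Agent.P263.GB.SMod
import Vale.Agent.P263.E.Simp
import Mathlib.Algebra.Module.ZMod

/-!
# P263, block G2-0: the carrier

* `E.SS` (720's `E/Simp.lean`) : simplicial sets; `free R X : SMod R` the simplicial module of
  finitely supported `R`-chains, `freeMap`.
* `Cx R` : chain complexes (degrees `≥ 0`), `Cx.Hom`, `SMod.cx`, `HZ C n` (`H_n(C) = 0`,
  elementwise), `cone f`, `RZ0 f n := HZ (cone f) n` (relative homology in degree `n` vanishes).
-/

namespace Vale.Agent.P263.GB

open Vale.Agent.P263.S Vale.Agent.P263.E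

variable {R : Type} [CommRing R]

/-! ### the free simplicial module on a simplicial set -/

/-- the simplicial module of finitely supported chains of a simplicial set -/
noncomputable def free (R : Type) [CommRing R] (X : SS) : SMod R where
  obj p := X.obj p →₀ R
  map f := Finsupp.lmapDomain R R (X.map f)
  map_id {p} x := by
    have : (X.map (OrderHom.id : Op p p)) = _root_.id := funext fun x => X.map_id x
    rw [Finsupp.lmapDomain_apply, this, Finsupp.mapDomain_id]
  map_comp f g x := by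
    have : X.map (f.comp g) = X.map g ∘ X.map f := funext fun x => X.map_comp f g x
    simp only [Finsupp.lmapDomain_apply]
    rw [this, Finsupp.mapDomain_comp]

@[simp] theorem free_map_single (X : SS) {p q : ℕ} (f : Op p q) (x : X.obj q) (r : R) :
    (free R X).map f (Finsupp.single x r) = Finsupp.single (X.map f x) r :=
  Finsupp.mapDomain_single

/-- functoriality of `free` -/
noncomputable def freeMap (R : Type) [CommRing R] {X Y : SS} (f : SS.Map X Y) :
    SMod.Hom (free R X) (free R Y) where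
  app _ := Finsupp.lmapDomain R R f.app
  nat {p q} α x := by
    have h : ∀ y : X.obj q →₀ R, Finsupp.mapDomain f.app (Finsupp.mapDomain (X.map α) y) =
        Finsupp.mapDomain (Y.map α) (Finsupp.mapDomain f.app y) := by
      intro y
      rw [← Finsupp.mapDomain_comp, ← Finsupp.mapDomain_comp]
      congr 1
      funext z
      exact f.nat α z
    exact h x

@[simp] theorem freeMap_single {X Y : SS} (f : SS.Map X Y) {p : ℕ} (x : X.obj p) (r : R) :
    (freeMap R f).app p (Finsupp.single x r) = Finsupp.single (f.app x) r :=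
  Finsupp.mapDomain_single

/-! ### chain complexes -/

/-- Chain complexes of `R`-modules in degrees `≥ 0`. -/
structure Cx (R : Type) [CommRing R] where
  /-- the chains -/
  C : ℕ → Type
  [grp : ∀ n, AddCommGroup (C n)]
  [mod : ∀ n, Module R (C n)]
  /-- the boundary -/
  d : ∀ n, C (n + 1) →ₗ[R] C n
  dd : ∀ n (x : C (n + 2)), d n (d (n + 1) x) = 0

attribute [instance] Cx.grp Cx.mod

namespace Cx

/-- `x` is a cycle (in degree `0` everything is a cycle) -/
def Cyc (A : Cx R) : ∀ n, A.C n → Prop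
  | 0, _ => True
  | n + 1, x => A.d n x = 0

@[simp] theorem cyc_zero (A : Cx R) (x : A.C 0) : A.Cyc 0 x := trivial

@[simp] theorem cyc_succ (A : Cx R) (n : ℕ) (x : A.C (n + 1)) : A.Cyc (n + 1) x ↔ A.d n x = 0 :=
  Iff.rfl

theorem cyc_d (A : Cx R) (n : ℕ) (x : A.C (n + 1)) : A.Cyc n (A.d n x) := by
  cases n with
  | zero => trivial
  | succ n => exact A.dd n x

theorem cyc_add (A : Cx R) {n : ℕ} {x y : A.C n} (hx : A.Cyc n x) (hy : A.Cyc n y) :
    A.Cyc n (x + y) := by
  cases n with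
  | zero => trivial
  | succ n => rw [cyc_succ] at *; rw [map_add, hx, hy, add_zero]

theorem cyc_sub (A : Cx R) {n : ℕ} {x y : A.C n} (hx : A.Cyc n x) (hy : A.Cyc n y) :
    A.Cyc n (x - y) := by
  cases n with
  | zero => trivial
  | succ n => rw [cyc_succ] at *; rw [map_sub, hx, hy, sub_zero]

/-- `H_n(A) = 0`, elementwise -/
def HZ (A : Cx R) (n : ℕ) : Prop := ∀ x : A.C n, A.Cyc n x → ∃ y, A.d n y = x

/-- Chain maps. -/
@[ext] structure Hom (A B : Cx R) where
  /-- the components -/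
  app : ∀ n, A.C n →ₗ[R] B.C n
  comm : ∀ n (x : A.C (n + 1)), app n (A.d n x) = B.d n (app (n + 1) x)

namespace Hom

variable {A B D : Cx R}

/-- the identity -/
def id (A : Cx R) : Hom A A := ⟨fun _ => LinearMap.id, fun _ _ => rfl⟩

/-- the composite `g ∘ f` -/
def comp (g : Hom B D) (f : Hom A B) : Hom A D :=
  ⟨fun n => (g.app n).comp (f.app n), fun n x => by
    simp only [LinearMap.comp_apply]; rw [f.comm, g.comm]⟩

@[simp] theorem comp_app (g : Hom B D) (f : Hom A B) (n : ℕ) (x : A.C n) :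
    (g.comp f).app n x = g.app n (f.app n x) := rfl

@[simp] theorem id_app (n : ℕ) (x : A.C n) : (id A).app n x = x := rfl

theorem cyc (f : Hom A B) {n : ℕ} {x : A.C n} (hx : A.Cyc n x) : B.Cyc n (f.app n x) := by
  cases n with
  | zero => trivial
  | succ n => rw [cyc_succ] at *; rw [← f.comm, hx, map_zero]

end Hom

end Cx

/-- the chain complex of a simplicial module (all faces, unnormalised) -/
def SMod.cx (A : SMod R) : Cx R := ⟨A.obj, A.d, A.d_d⟩

/-- the chain map of a map of simplicial modules -/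
def SMod.Hom.cx {A B : SMod R} (f : SMod.Hom A B) : Cx.Hom A.cx B.cx := ⟨f.app, f.app_d⟩

@[simp] theorem SMod.Hom.cx_app {A B : SMod R} (f : SMod.Hom A B) (n : ℕ) (x : A.obj n) :
    f.cx.app n x = f.app n x := rfl

/-! ### mapping cones -/

/-- the chains of the mapping cone of a map `A → B` : `B_n ⊕ A_{n-1}` -/
def coneC (A B : Cx R) : ℕ → Type
  | 0 => B.C 0
  | n + 1 => B.C (n + 1) × A.C n

instance coneGrp (A B : Cx R) : ∀ n, AddCommGroup (coneC A B n)
  | 0 => inferInstanceAs (AddCommGroup (B.C 0))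
  | n + 1 => inferInstanceAs (AddCommGroup (B.C (n + 1) × A.C n))

instance coneMod (A B : Cx R) : ∀ n, Module R (coneC A B n)
  | 0 => inferInstanceAs (Module R (B.C 0))
  | n + 1 => inferInstanceAs (Module R (B.C (n + 1) × A.C n))

/-- the boundary of the mapping cone: `d (b, a) = (d b + f a, - d a)` -/
def coneD {A B : Cx R} (f : Cx.Hom A B) : ∀ n, coneC A B (n + 1) →ₗ[R] coneC A B n
  | 0 => (LinearMap.coprod (B.d 0) (f.app 0) : B.C 1 × A.C 0 →ₗ[R] B.C 0)
  | n + 1 => (LinearMap.prod (LinearMap.coprod (B.d (n + 1)) (f.app (n + 1)))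
      (-(A.d n ∘ₗ LinearMap.snd R _ _)) : B.C (n + 2) × A.C (n + 1) →ₗ[R] B.C (n + 1) × A.C n)

@[simp] theorem coneD_zero {A B : Cx R} (f : Cx.Hom A B) (b : B.C 1) (a : A.C 0) :
    coneD f 0 (b, a) = (B.d 0 b + f.app 0 a : B.C 0) := rfl

@[simp] theorem coneD_succ {A B : Cx R} (f : Cx.Hom A B) (n : ℕ) (b : B.C (n + 2))
    (a : A.C (n + 1)) :
    coneD f (n + 1) (b, a) = ((B.d (n + 1) b + f.app (n + 1) a, -(A.d n a)) :
      B.C (n + 1) × A.C n) := rfl

/-- the mapping cone -/
def cone {A B : Cx R} (f : Cx.Hom A B) : Cx R where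
  C := coneC A B
  d := coneD f
  dd n x := by
    cases n with
    | zero =>
      obtain ⟨b, a⟩ := x
      show coneD f 0 (B.d 1 b + f.app 1 a, -(A.d 0 a)) = 0
      show (B.d 0 (B.d 1 b + f.app 1 a) + f.app 0 (-(A.d 0 a)) : B.C 0) = 0
      rw [map_add, B.dd, map_neg, f.comm]
      simp
    | succ n =>
      obtain ⟨b, a⟩ := x
      show ((B.d (n + 1) (B.d (n + 2) b + f.app (n + 2) a) + f.app (n + 1) (-(A.d (n + 1) a)),
        -(A.d n (-(A.d (n + 1) a)))) : B.C (n + 1) × A.C n) = 0
      rw [map_add, B.dd, map_neg, map_neg, f.comm, A.dd]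
      simp

/-- the relative homology of `f` in degree `n` vanishes -/
def RZ0 {A B : Cx R} (f : Cx.Hom A B) (n : ℕ) : Prop := (cone f).HZ n

/-- the cone of a map, on elements: degree `0` -/
theorem rz0_zero {A B : Cx R} (f : Cx.Hom A B) :
    RZ0 f 0 ↔ ∀ b : B.C 0, ∃ (b' : B.C 1) (a : A.C 0), B.d 0 b' + f.app 0 a = b := by
  constructor
  · intro h b
    obtain ⟨⟨b', a⟩, h'⟩ := h b trivial
    exact ⟨b', a, h'⟩
  · intro h b _
    obtain ⟨b', a, h'⟩ := h b
    exact ⟨(b', a), h'⟩

/-- the cone of a map, on elements: degree `n + 1` -/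
theorem rz0_succ {A B : Cx R} (f : Cx.Hom A B) (n : ℕ) :
    RZ0 f (n + 1) ↔ ∀ (b : B.C (n + 1)) (a : A.C n), A.Cyc n a → B.d n b + f.app n a = 0 →
      ∃ (b' : B.C (n + 2)) (a' : A.C (n + 1)),
        B.d (n + 1) b' + f.app (n + 1) a' = b ∧ -(A.d n a') = a := by
  have key : ∀ (b : B.C (n + 1)) (a : A.C n), (cone f).Cyc (n + 1) (b, a) ↔
      A.Cyc n a ∧ B.d n b + f.app n a = 0 := by
    intro b a
    cases n with
    | zero =>
      show (B.d 0 b + f.app 0 a = 0) ↔ _
      simp
    | succ n =>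
      show ((B.d (n + 1) b + f.app (n + 1) a, -(A.d n a)) : B.C (n + 1) × A.C n) = 0 ↔ _
      rw [Prod.mk_eq_zero, neg_eq_zero, Cx.cyc_succ]
      exact and_comm
  constructor
  · intro h b a ha hb
    obtain ⟨⟨b', a'⟩, h'⟩ := h (b, a) ((key b a).2 ⟨ha, hb⟩)
    exact ⟨b', a', congrArg Prod.fst h', congrArg Prod.snd h'⟩
  · rintro h ⟨b, a⟩ hx
    obtain ⟨ha, hb⟩ := (key b a).1 hx
    obtain ⟨b', a', h1, h2⟩ := h b a ha hb
    exact ⟨(b', a'), Prod.ext h1 h2⟩

end Vale.Agent.P263.GB
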