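import Vale.Agent.P263.GB.Base

/-!
# P263, block G2: functors on finite pointed sets, the simplicial circle, and the construction `B`

A finite pointed set is `K₊` with `K : Type` finite; pointed maps `K₊ → L₊` are functions
`K → Option L`.

* `circ θ : Fin q → Option (Fin p)` for `θ : Op p q` : the simplicial circle `S¹ = Δ¹/∂`,
  `S¹_q = {1..q}₊` (the `q`-simplex `i : Fin q` is the map `[q] → [1]`, `a ↦ (i < a)`).
* `Gam` : functors from finite pointed sets to simplicial sets; `Gam.Hom`; `Gam.Pt` (value at the
  empty set is a point).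
* `G.B` : the diagonal of `k ↦ G (S¹_k ∧ K₊)`.
-/

namespace Vale.Agent.P263.GB

open Vale.Agent.P263.S Vale.Agent.P263.E

/-! ### the circle -/

section circ

variable {p q r : ℕ}

open Classical in
/-- the operators of the simplicial circle -/
noncomputable def circ (θ : Op p q) (i : Fin q) : Option (Fin p) :=
  if h : ∃ j : Fin p, ∀ a : Fin (p + 1), (θ a).1 ≤ i.1 ↔ a.1 ≤ j.1 then some h.choose else none

theorem circ_eq_some {θ : Op p q} {i : Fin q} {j : Fin p} :
    circ θ i = some j ↔ ∀ a : Fin (p + 1), (θ a).1 ≤ i.1 ↔ a.1 ≤ j.1 := by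
  classical
  unfold circ
  constructor
  · intro h
    split_ifs at h with h'
    · cases h
      exact h'.choose_spec
  · intro h
    have h' : ∃ j : Fin p, ∀ a : Fin (p + 1), (θ a).1 ≤ i.1 ↔ a.1 ≤ j.1 := ⟨j, h⟩
    rw [dif_pos h']
    congr 1
    have h1 := h'.choose_spec
    have e1 := (h (Fin.castSucc h'.choose)).1 ((h1 (Fin.castSucc h'.choose)).2 le_rfl)
    have e2 := (h1 (Fin.castSucc j)).1 ((h (Fin.castSucc j)).2 le_rfl)
    exact Fin.ext (le_antisymm e1 e2)

theorem circ_exists {θ : Op p q} {i : Fin q} (h0 : (θ 0).1 ≤ i.1) (h1 : i.1 < (θ (Fin.last p)).1) :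
    ∃ j, circ θ i = some j := by
  classical
  have hne : ∃ n, ∃ h : n < p + 1, i.1 < (θ ⟨n, h⟩).1 := ⟨p, Nat.lt_succ_self p, h1⟩
  have hs := Nat.find_spec hne
  have hm := fun m => Nat.find_min hne (m := m)
  set n := Nat.find hne
  obtain ⟨hn, hlt⟩ := hs
  have hn0 : n ≠ 0 := by
    intro h
    have : (⟨n, hn⟩ : Fin (p + 1)) = 0 := Fin.ext h
    rw [this] at hlt
    omega
  refine ⟨⟨n - 1, by omega⟩, circ_eq_some.2 fun a => ?_⟩
  constructor
  · intro ha
    show a.1 ≤ n - 1
    by_contra hc
    have : (⟨n, hn⟩ : Fin (p + 1)) ≤ a := by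
      rw [Fin.le_def]; show n ≤ a.1; omega
    have := Fin.le_def.1 (θ.monotone this)
    omega
  · intro ha
    have ha' : a.1 ≤ n - 1 := ha
    have := hm a.1 (by omega)
    by_contra hc
    exact this ⟨a.2, by simpa using hc⟩

theorem circ_eq_none {θ : Op p q} {i : Fin q} :
    circ θ i = none ↔ i.1 < (θ 0).1 ∨ (θ (Fin.last p)).1 ≤ i.1 := by
  constructor
  · intro h
    by_contra hc
    push Not at hc
    obtain ⟨j, hj⟩ := circ_exists hc.1 hc.2
    rw [hj] at h
    exact Option.some_ne_none _ h
  · intro h
    cases hc : circ θ i with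
    | none => rfl
    | some j =>
      exfalso
      rw [circ_eq_some] at hc
      have h0 := (hc 0).2 (Nat.zero_le _)
      have h1 := (hc (Fin.last p))
      rw [Fin.val_last] at h1
      have := j.2
      rcases h with h | h
      · omega
      · have := h1.1 h; omega

@[simp] theorem circ_id (i : Fin p) : circ (OrderHom.id : Op p p) i = some i :=
  circ_eq_some.2 fun _ => Iff.rfl

theorem circ_comp (θ : Op q r) (φ : Op p q) (i : Fin r) :
    circ (θ.comp φ) i = (circ θ i).bind (circ φ) := by
  apply Option.ext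
  intro k
  rw [Option.bind_eq_some_iff]
  show circ (θ.comp φ) i = some k ↔ ∃ j, circ θ i = some j ∧ circ φ j = some k
  constructor
  · intro h
    rw [circ_eq_some] at h
    have h0 : (θ 0).1 ≤ i.1 :=
      (Fin.le_def.1 (θ.monotone (Fin.zero_le (φ 0)))).trans ((h 0).2 (Nat.zero_le _))
    have h1 : i.1 < (θ (Fin.last q)).1 := by
      by_contra hc
      push Not at hc
      have h2 := (h (Fin.last p)).1 ((Fin.le_def.1 (θ.monotone (Fin.le_last (φ (Fin.last p))))).trans
        hc)
      rw [Fin.val_last] at h2
      have := k.2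
      omega
    obtain ⟨j, hj⟩ := circ_exists h0 h1
    refine ⟨j, hj, circ_eq_some.2 fun a => ?_⟩
    rw [circ_eq_some] at hj
    exact (hj (φ a)).symm.trans (h a)
  · rintro ⟨j, hj, hk⟩
    rw [circ_eq_some] at *
    exact fun a => (hj (φ a)).trans (hk a)

/-- the circle smashed with `K₊` -/
noncomputable def circK (K : Type) (θ : Op p q) (x : Fin q × K) : Option (Fin p × K) :=
  (circ θ x.1).map fun j => (j, x.2)

theorem circK_id (K : Type) : circK K (OrderHom.id : Op p p) = some := by
  funext x
  simp [circK]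

theorem circK_comp (K : Type) (θ : Op q r) (φ : Op p q) :
    circK K (θ.comp φ) = fun x => (circK K θ x).bind (circK K φ) := by
  funext x
  simp only [circK, circ_comp]
  cases circ θ x.1 with
  | none => rfl
  | some j => rfl

/-- relabelling in the second factor -/
def sndK {K L : Type} (A : Type) (f : K → Option L) (x : A × K) : Option (A × L) :=
  (f x.2).map fun l => (x.1, l)

theorem sndK_some (A K : Type) : sndK A (some : K → Option K) = some := rfl

theorem sndK_bind {K L M : Type} (A : Type) (f : K → Option L) (g : L → Option M) :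
    sndK A (fun k => (f k).bind g) = fun x => (sndK A f x).bind (sndK A g) := by
  funext x
  simp only [sndK]
  cases f x.2 with
  | none => rfl
  | some j => rfl

theorem sndK_circK {K L : Type} (f : K → Option L) (θ : Op p q) :
    (fun x => (circK K θ x).bind (sndK (Fin p) f)) =
      fun x => (sndK (Fin q) f x).bind (circK L θ) := by
  funext x
  simp only [sndK, circK]
  cases h1 : circ θ x.1 <;> cases h2 : f x.2 <;> simp [sndK, circK, h1, h2]

end circ

/-! ### functors on finite pointed sets -/

/-- A functor from finite pointed sets to simplicial sets. -/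
structure Gam where
  /-- the values -/
  obj : (K : Type) → [Finite K] → SS
  /-- functoriality -/
  map : ∀ {K L : Type} [Finite K] [Finite L], (K → Option L) → SS.Map (obj K) (obj L)
  map_some : ∀ {K : Type} [Finite K] {p : ℕ} (x : (obj K).obj p),
    (map (some : K → Option K)).app x = x
  map_bind : ∀ {K L M : Type} [Finite K] [Finite L] [Finite M] (f : K → Option L)
    (g : L → Option M) {p : ℕ} (x : (obj K).obj p),
    (map (fun k => (f k).bind g)).app x = (map g).app ((map f).app x)

namespace Gam

/-- Natural transformations. -/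
structure Hom (G H : Gam) where
  /-- the components -/
  app : (K : Type) → [Finite K] → SS.Map (G.obj K) (H.obj K)
  nat : ∀ {K L : Type} [Finite K] [Finite L] (f : K → Option L) {p : ℕ} (x : (G.obj K).obj p),
    (app L).app ((G.map f).app x) = (H.map f).app ((app K).app x)

namespace Hom

/-- the identity -/
def id (G : Gam) : Hom G G := ⟨fun K => SS.Map.id (G.obj K), fun _ _ _ => rfl⟩

/-- the composite -/
def comp {G H J : Gam} (b : Hom H J) (a : Hom G H) : Hom G J :=
  ⟨fun K => (b.app K).comp (a.app K), fun f p x => by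
    rw [SS.Map.comp_app, SS.Map.comp_app, a.nat, b.nat]⟩

end Hom

/-- the value at the empty set is a point -/
structure Pt (G : Gam) : Prop where
  sub : ∀ (K : Type) [Finite K] [IsEmpty K] (p : ℕ), Subsingleton ((G.obj K).obj p)
  ne : ∀ (K : Type) [Finite K] [IsEmpty K] (p : ℕ), Nonempty ((G.obj K).obj p)

/-- `a` induces an isomorphism on homology in degrees `< r` and a surjection in degree `r`, at
every finite set (relative homology vanishes in degrees `≤ r`, `RZ G H a r`) -/
def Hom.RZ (R : Type) [CommRing R] {G H : Gam} (a : Hom G H) (t : ℕ) : Prop :=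
  ∀ (K : Type) [Finite K], RZ0 (freeMap R (a.app K)).cx t

/-- the constant functor at a point -/
def pt : Gam where
  obj _ := SS.pt
  map _ := SS.Map.id _
  map_some _ := rfl
  map_bind _ _ _ _ := rfl

/-- the map to the point -/
def toPt (G : Gam) : Hom G pt := ⟨fun K => SS.toPt (G.obj K), fun _ _ _ => rfl⟩

/-- `B G (K₊) = diag (k ↦ G (S¹_k ∧ K₊))` -/
noncomputable def B (G : Gam) : Gam where
  obj K := {
    obj := fun p => (G.obj (Fin p × K)).obj p
    map := fun {p q} θ x => (G.map (circK K θ)).app ((G.obj (Fin q × K)).map θ x)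
    map_id := fun {p} x => by
      rw [SS.map_id, circK_id, G.map_some]
    map_comp := fun {p q r} θ φ x => by
      rw [circK_comp, G.map_bind, SS.map_comp, SS.Map.nat] }
  map {K L} _ _ f := {
    app := fun {p} x => (G.map (sndK (Fin p) f)).app x
    nat := fun {p q} θ x => by
      show (G.map (sndK (Fin p) f)).app ((G.map (circK K θ)).app ((G.obj (Fin q × K)).map θ x)) =
        (G.map (circK L θ)).app ((G.obj (Fin q × L)).map θ ((G.map (sndK (Fin q) f)).app x))
      rw [← SS.Map.nat, ← G.map_bind, ← G.map_bind, sndK_circK] }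
  map_some {K} _ p x := by
    show (G.map (sndK (Fin p) some)).app x = x
    rw [sndK_some, G.map_some]
  map_bind {K L M} _ _ _ f g p x := by
    show (G.map (sndK (Fin p) _)).app x = _
    rw [sndK_bind, G.map_bind]

theorem B_map_apply (G : Gam) (K : Type) [Finite K] {p q : ℕ} (θ : Op p q)
    (x : (G.B.obj K).obj q) :
    (G.B.obj K).map θ x = (G.map (circK K θ)).app ((G.obj (Fin q × K)).map θ x) := rfl

theorem B_app (G : Gam) {K L : Type} [Finite K] [Finite L] (f : K → Option L) {p : ℕ}
    (x : (G.B.obj K).obj p) : (G.B.map f).app x = (G.map (sndK (Fin p) f)).app x := rfl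

/-- functoriality of `B` -/
noncomputable def Hom.B {G H : Gam} (a : Hom G H) : Hom G.B H.B where
  app K := {
    app := fun {p} x => (a.app (Fin p × K)).app x
    nat := fun {_ q} θ x => (a.nat (circK K θ) ((G.obj (Fin q × K)).map θ x)).trans
      (congrArg (H.map (circK K θ)).app ((a.app (Fin q × K)).nat θ x)) }
  nat {K L} _ _ f p x := a.nat (sndK (Fin p) f) x

@[simp] theorem Hom.B_app {G H : Gam} (a : Hom G H) (K : Type) [Finite K] {p : ℕ}
    (x : (G.B.obj K).obj p) : (a.B.app K).app x = (a.app (Fin p × K)).app x := rfl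

theorem Pt.B {G : Gam} (h : G.Pt) : G.B.Pt where
  sub K _ _ p := h.sub (Fin p × K) p
  ne K _ _ p := h.ne (Fin p × K) p

/-- iterated `B` -/
noncomputable def BN (G : Gam) : ℕ → Gam
  | 0 => G
  | n + 1 => (BN G n).B

/-- iterated `B` on natural transformations -/
noncomputable def Hom.BN {G H : Gam} (a : Hom G H) : (n : ℕ) → Hom (G.BN n) (H.BN n)
  | 0 => a
  | n + 1 => (Hom.BN a n).B

theorem Pt.BN {G : Gam} (h : G.Pt) : ∀ n, (G.BN n).Pt
  | 0 => h
  | n + 1 => (Pt.BN h n).B

/-- after one `B` there is a single vertex -/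
theorem Pt.B_zero_sub {G : Gam} (h : G.Pt) (K : Type) [Finite K] :
    Subsingleton ((G.B.obj K).obj 0) := h.sub (Fin 0 × K) 0

theorem Pt.B_zero_ne {G : Gam} (h : G.Pt) (K : Type) [Finite K] :
    Nonempty ((G.B.obj K).obj 0) := h.ne (Fin 0 × K) 0

end Gam

end Vale.Agent.P263.GB
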