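import Vale.Agent.P263.S.Core
import Vale.Agent.P263.S.Htpy
import Mathlib.Data.Finsupp.SMul
import Mathlib.LinearAlgebra.Finsupp.LSum

/-!
# P263, block G2: simplicial modules and their chain complexes

`SMod R` : simplicial `R`-modules, hand-rolled (contravariant twin of `S.CosMod`).
`A.d p : A.obj (p + 1) →ₗ[R] A.obj p` is the alternating sum of all faces (not normalised).
`SS` : simplicial sets (hand-rolled), `SS.free R X` : the free simplicial module.
-/

namespace Vale.Agent.P263.GB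

open Vale.Agent.P263.S

/-- Simplicial modules over `R`. -/
structure SMod (R : Type) [CommRing R] where
  /-- the modules -/
  obj : ℕ → Type
  [grp : ∀ p, AddCommGroup (obj p)]
  [mod : ∀ p, Module R (obj p)]
  /-- the action of the monotone maps `[p] → [q]` -/
  map : ∀ {p q : ℕ}, Op p q → obj q →ₗ[R] obj p
  map_id : ∀ {p : ℕ} (x : obj p), map (OrderHom.id : Op p p) x = x
  map_comp : ∀ {p q r : ℕ} (f : Op q r) (g : Op p q) (x : obj r),
    map (f.comp g) x = map g (map f x)

attribute [instance] SMod.grp SMod.mod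

variable {R : Type} [CommRing R]

namespace SMod

/-- the boundary -/
def d (A : SMod R) (p : ℕ) : A.obj (p + 1) →ₗ[R] A.obj p :=
  ∑ i ∈ Finset.range (p + 2), ((-1 : ℤ) ^ i) • A.map (dl p i)

theorem d_apply (A : SMod R) (p : ℕ) (x : A.obj (p + 1)) :
    A.d p x = ∑ i ∈ Finset.range (p + 2), sn i (A.map (dl p i) x) := by
  simp [d, sn, LinearMap.sum_apply]

theorem d_d (A : SMod R) (p : ℕ) (x : A.obj (p + 2)) : A.d p (A.d (p + 1) x) = 0 := by
  rw [d_apply]
  have e : ∀ j ∈ Finset.range (p + 2), sn j (A.map (dl p j) (A.d (p + 1) x)) =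
      ∑ i ∈ Finset.range (p + 3), sn (i + j) (A.map ((dl (p + 1) i).comp (dl p j)) x) := by
    intro j _
    rw [d_apply, map_sum, sn_sum]
    refine Finset.sum_congr rfl fun i _ => ?_
    rw [CosMod.sn_lin, sn_sn, A.map_comp, add_comm j i]
  rw [Finset.sum_congr rfl e, Finset.sum_comm]
  exact CosMod.dd_sum (p + 1) (fun i j => A.map ((dl (p + 1) i).comp (dl p j)) x)
    fun i j hij _ => by rw [dl_dl hij]

/-- Maps of simplicial modules. -/
@[ext] structure Hom (A B : SMod R) where
  /-- the components -/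
  app : ∀ p, A.obj p →ₗ[R] B.obj p
  nat : ∀ {p q : ℕ} (f : Op p q) (x : A.obj q), app p (A.map f x) = B.map f (app q x)

namespace Hom

variable {A B C : SMod R}

/-- the identity -/
def id (A : SMod R) : Hom A A := ⟨fun _ => LinearMap.id, fun _ _ => rfl⟩

/-- the composite `g ∘ f` -/
def comp (g : Hom B C) (f : Hom A B) : Hom A C :=
  ⟨fun p => (g.app p).comp (f.app p), fun a x => by
    simp only [LinearMap.comp_apply]; rw [f.nat, g.nat]⟩

theorem app_d (f : Hom A B) (p : ℕ) (x : A.obj (p + 1)) :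
    f.app p (A.d p x) = B.d p (f.app (p + 1) x) := by
  rw [SMod.d_apply, SMod.d_apply, map_sum]
  refine Finset.sum_congr rfl fun i _ => ?_
  rw [CosMod.sn_lin, f.nat]

end Hom

/-- A simplicial homotopy from `A` to `B`, indexed by the maps `[p] → [1]`. -/
structure Prism (A B : SMod R) where
  /-- the family of maps -/
  h : ∀ p, Op p 1 → A.obj p →ₗ[R] B.obj p
  nat : ∀ {p q : ℕ} (α : Op p q) (θ : Op q 1) (x : A.obj q),
    h p (θ.comp α) (A.map α x) = B.map α (h q θ x)

namespace Prism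

variable {A B : SMod R} (P : Prism A B)

/-- the chain homotopy of a prism -/
def k (p : ℕ) : A.obj p →ₗ[R] B.obj (p + 1) :=
  ∑ i ∈ Finset.range (p + 1),
    ((-1 : ℤ) ^ i) • (P.h (p + 1) (th (p + 1) (i + 1))).comp (A.map (sg p i))

theorem k_apply (p : ℕ) (x : A.obj p) :
    P.k p x = ∑ i ∈ Finset.range (p + 1),
      sn i (P.h (p + 1) (th (p + 1) (i + 1)) (A.map (sg p i) x)) := by
  simp [k, sn, LinearMap.sum_apply]

theorem d_k (p : ℕ) (x : A.obj p) :
    B.d p (P.k p x) = ∑ i ∈ Finset.range (p + 1), ∑ j ∈ Finset.range (p + 2),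
      sn (i + j) (P.h p ((th (p + 1) (i + 1)).comp (dl p j))
        (A.map ((sg p i).comp (dl p j)) x)) := by
  rw [k_apply, map_sum]
  refine Finset.sum_congr rfl fun i _ => ?_
  rw [B.d_apply]
  refine Finset.sum_congr rfl fun j _ => ?_
  rw [CosMod.sn_lin, sn_sn, A.map_comp, P.nat, add_comm j i]

/-- **The prism lemma** (positive degrees). -/
theorem d_k_add_k_d (p : ℕ) (x : A.obj (p + 1)) :
    B.d (p + 1) (P.k (p + 1) x) + P.k p (A.d p x) =
      P.h (p + 1) (c1 (p + 1)) x - P.h (p + 1) (c0 (p + 1)) x := by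
  have e2 : P.k p (A.d p x) = ∑ i ∈ Finset.range (p + 1), ∑ j ∈ Finset.range (p + 2),
      sn (i + j) (P.h (p + 1) (th (p + 1) (i + 1)) (A.map ((dl p j).comp (sg p i)) x)) := by
    rw [k_apply]
    refine Finset.sum_congr rfl fun i _ => ?_
    rw [A.d_apply, map_sum, map_sum, sn_sum]
    refine Finset.sum_congr rfl fun j _ => ?_
    rw [CosMod.sn_lin, CosMod.sn_lin, sn_sn, A.map_comp]
  rw [d_k, prism_sum (p + 1)
    (fun i j => P.h (p + 1) ((th (p + 1 + 1) (i + 1)).comp (dl (p + 1) j))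
      (A.map ((sg (p + 1) i).comp (dl (p + 1) j)) x))
    (fun i j => P.h (p + 1) (th (p + 1) (i + 1)) (A.map ((dl p j).comp (sg p i)) x))
    (fun i => P.h (p + 1) (th (p + 1) i) x), e2]
  · show _ - _ - _ + _ = _
    rw [sub_add_cancel]
  · intro i j hi hj
    rw [sg_dl_lt (by omega) (by omega), th_dl_le (by omega), Nat.add_sub_cancel]
  · intro i hi
    rw [sg_dl_self hi, th_dl_le le_rfl, A.map_id]
  · intro i hi
    rw [sg_dl_succ hi, th_dl_gt le_rfl, A.map_id]
  · intro i j hi hij hj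
    rw [sg_dl_gt (by omega) (by omega), th_dl_gt (by omega), Nat.add_sub_cancel]

/-- **The prism lemma** in degree `0`. -/
theorem d_k_zero (x : A.obj 0) :
    B.d 0 (P.k 0 x) = P.h 0 (c1 0) x - P.h 0 (c0 0) x := by
  have e : ∀ j, (sg 0 0).comp (dl 0 j) = OrderHom.id := by
    intro j
    apply OrderHom.ext
    funext y
    exact Subsingleton.elim (α := Fin 1) _ _
  have e1 : (th 1 1).comp (dl 0 0) = c1 0 := eq_c1 fun y => by
    show th 1 1 (dl 0 0 y) = 1
    rw [th_val, dl_val]
    simp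
  have e2 : (th 1 1).comp (dl 0 1) = c0 0 := eq_c0 fun y => by
    show th 1 1 (dl 0 1 y) = 0
    rw [th_val, dl_val]
    have := y.2
    simp
  rw [d_k]
  simp only [zero_add, Finset.sum_range_succ, Finset.sum_range_zero, e, e1, e2, A.map_id]
  rw [show sn 0 (P.h 0 (c1 0) x) = P.h 0 (c1 0) x by simp [sn],
    show sn 1 (P.h 0 (c0 0) x) = - P.h 0 (c0 0) x by simp [sn], sub_eq_add_neg]

end Prism

end SMod

end Vale.Agent.P263.GB
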