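import Vale.Agent.P263.GB.Base

/-!
# P263, block G2: double complexes (columns `c s : Cx R`, horizontal chain maps `δ s`)

Total chains are *mixed families* `w : ∀ s n, (D.c s).C n`; the total boundary is
`D.bd w s n = d (w s (n + 1)) + (-1) ^ n δ (w (s + 1) n)`, and `D.TZ N` says that the homology of the
total complex vanishes in degree `N` (only the entries with `s + n = N` matter): no casts.

* `DC.tz_of_cols` : all columns acyclic in the degrees `n` with `s + n = N` ⟹ `TZ N`.
* `DC.Hom`, `coneDC f`, `DC.Hom.tz_left`, `DC.Hom.tz_right`.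
* `DC.tr` (transpose), `DC.tr_tz`.
* `DC.const`, `const_tz`.
-/

namespace Vale.Agent.P263.GB

open Vale.Agent.P263.S Vale.Agent.P263.E

variable {R : Type} [CommRing R]

/-! ### maps of mapping cones -/

/-- the map of cones given by a strictly commutative square -/
def coneMap {A B A' B' : Cx R} (f : Cx.Hom A B) (f' : Cx.Hom A' B') (α : Cx.Hom A A')
    (β : Cx.Hom B B') (h : ∀ n x, β.app n (f.app n x) = f'.app n (α.app n x)) :
    Cx.Hom (cone f) (cone f') where
  app n := match n with
    | 0 => (β.app 0 : B.C 0 →ₗ[R] B'.C 0)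
    | n + 1 => (LinearMap.prodMap (β.app (n + 1)) (α.app n) :
        B.C (n + 1) × A.C n →ₗ[R] B'.C (n + 1) × A'.C n)
  comm n x := by
    cases n with
    | zero =>
      obtain ⟨b, a⟩ := x
      show (β.app 0 (B.d 0 b + f.app 0 a) : B'.C 0) = B'.d 0 (β.app 1 b) + f'.app 0 (α.app 0 a)
      rw [map_add, β.comm, h]
    | succ n =>
      obtain ⟨b, a⟩ := x
      show ((β.app (n + 1) (B.d (n + 1) b + f.app (n + 1) a), α.app n (-(A.d n a))) :
        B'.C (n + 1) × A'.C n) = (B'.d (n + 1) (β.app (n + 2) b) +
          f'.app (n + 1) (α.app (n + 1) a), -(A'.d n (α.app (n + 1) a)))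
      rw [map_add, β.comm, h, map_neg, α.comm]

/-! ### double complexes -/

/-- Double complexes. -/
structure DC (R : Type) [CommRing R] where
  /-- the columns -/
  c : ℕ → Cx R
  /-- the horizontal maps -/
  δ : ∀ s, Cx.Hom (c (s + 1)) (c s)
  δδ : ∀ s n (x : (c (s + 2)).C n), (δ s).app n ((δ (s + 1)).app n x) = 0

namespace DC

/-- mixed families -/
abbrev Fam (D : DC R) : Type := ∀ s n, (D.c s).C n

/-- the total boundary -/
def bd (D : DC R) (w : D.Fam) : D.Fam := fun s n =>
  (D.c s).d n (w s (n + 1)) + sn n ((D.δ s).app n (w (s + 1) n))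

theorem bd_apply (D : DC R) (w : D.Fam) (s n : ℕ) :
    D.bd w s n = (D.c s).d n (w s (n + 1)) + sn n ((D.δ s).app n (w (s + 1) n)) := rfl

theorem d_sn (A : Cx R) (n k : ℕ) (x : A.C (n + 1)) : A.d n (sn k x) = sn k (A.d n x) := by
  simp [sn]

theorem app_sn {A B : Cx R} (f : Cx.Hom A B) (n k : ℕ) (x : A.C n) :
    f.app n (sn k x) = sn k (f.app n x) := by
  simp [sn]

theorem bd_bd (D : DC R) (w : D.Fam) (s n : ℕ) : D.bd (D.bd w) s n = 0 := by
  rw [bd_apply, bd_apply, bd_apply, map_add, map_add, (D.c s).dd, d_sn, ← (D.δ s).comm,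
    app_sn, D.δδ, sn_zero_val, add_zero, zero_add, sn_succ]
  exact neg_add_cancel _

/-- the homology of the total complex vanishes in degree `N` -/
def TZ (D : DC R) (N : ℕ) : Prop :=
  ∀ w : D.Fam, (∀ s n, s + n + 1 = N → D.bd w s n = 0) → ∃ W : D.Fam, ∀ s n, s + n = N →
    D.bd W s n = w s n

/-- **The column lemma.** -/
theorem tz_of_cols (D : DC R) (N : ℕ) (h : ∀ s n, s + n = N → (D.c s).HZ n) : D.TZ N := by
  intro w hw
  suffices H : ∀ m, ∃ W : D.Fam, ∀ s n, s + n = N → n < m → D.bd W s n = w s n by
    obtain ⟨W, hW⟩ := H (N + 1)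
    exact ⟨W, fun s n hn => hW s n hn (by omega)⟩
  intro m
  induction m with
  | zero => exact ⟨fun _ _ => 0, fun s n _ h => absurd h (Nat.not_lt_zero _)⟩
  | succ m ih =>
    obtain ⟨W, hW⟩ := ih
    by_cases hm : m ≤ N
    · obtain ⟨s, rfl⟩ : ∃ s, N = s + m := ⟨N - m, by omega⟩
      have hz := h s m rfl (w s m - sn m ((D.δ s).app m (W (s + 1) m))) (by
        cases m with
        | zero => trivial
        | succ m =>
          show (D.c s).d m (w s (m + 1) - sn (m + 1) ((D.δ s).app (m + 1) (W (s + 1) (m + 1)))) = 0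
          have h1 : D.bd w s m = 0 := hw s m (by omega)
          have h2 : D.bd W (s + 1) m = w (s + 1) m := hW (s + 1) m (by omega) (by omega)
          rw [bd_apply] at h1
          rw [map_sub, d_sn, ← (D.δ s).comm]
          have h3 : (D.c (s + 1)).d m (W (s + 1) (m + 1)) =
              w (s + 1) m - sn m ((D.δ (s + 1)).app m (W (s + 2) m)) := by
            rw [← h2, bd_apply, add_sub_cancel_right]
          rw [h3, map_sub, app_sn, D.δδ, sn_zero_val, sub_zero, sn_succ, sub_neg_eq_add]
          exact h1)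
      obtain ⟨y, hy⟩ := hz
      classical
      refine ⟨Function.update W s (Function.update (W s) (m + 1) y), fun s' n hn hlt => ?_⟩
      rw [bd_apply]
      rcases Nat.lt_or_ge n m with hlt' | hge
      · have e1 : Function.update W s (Function.update (W s) (m + 1) y) s' (n + 1) = W s' (n + 1) := by
          by_cases hs : s' = s
          · subst hs
            rw [Function.update_self, Function.update_of_ne (by omega)]
          · rw [Function.update_of_ne hs]
        have e2 : Function.update W s (Function.update (W s) (m + 1) y) (s' + 1) n =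
            W (s' + 1) n := by
          by_cases hs : s' + 1 = s
          · subst hs
            rw [Function.update_self, Function.update_of_ne (by omega)]
          · rw [Function.update_of_ne hs]
        rw [e1, e2]
        exact hW s' n hn hlt'
      · obtain rfl : n = m := by omega
        obtain rfl : s' = s := by omega
        have e1 : Function.update W s' (Function.update (W s') (n + 1) y) s' (n + 1) = y := by
          rw [Function.update_self, Function.update_self]
        have e2 : Function.update W s' (Function.update (W s') (n + 1) y) (s' + 1) n =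
            W (s' + 1) n := by
          rw [Function.update_of_ne (by omega)]
        rw [e1, e2, hy]
        exact sub_add_cancel _ _
    · exact ⟨W, fun s n hn hlt => hW s n hn (by omega)⟩

/-- maps of double complexes -/
structure Hom (L D : DC R) where
  /-- the maps of the columns -/
  f : ∀ s, Cx.Hom (L.c s) (D.c s)
  comm : ∀ s n (x : (L.c (s + 1)).C n),
    (f s).app n ((L.δ s).app n x) = (D.δ s).app n ((f (s + 1)).app n x)

namespace Hom

variable {L D : DC R} (F : Hom L D)

/-- the map on families -/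
def fam (w : L.Fam) : D.Fam := fun s n => (F.f s).app n (w s n)

theorem fam_apply (w : L.Fam) (s n : ℕ) : F.fam w s n = (F.f s).app n (w s n) := rfl

theorem bd_fam (w : L.Fam) (s n : ℕ) : D.bd (F.fam w) s n = F.fam (L.bd w) s n := by
  rw [bd_apply, fam_apply, fam_apply, fam_apply, bd_apply, map_add, (F.f s).comm, app_sn,
    F.comm]

/-- the mapping cone of a map of double complexes -/
def cone : DC R where
  c s := GB.cone (F.f s)
  δ s := coneMap (F.f (s + 1)) (F.f s) (L.δ s) (D.δ s) fun n x => (F.comm s n x).symm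
  δδ s n x := by
    cases n with
    | zero => exact D.δδ s 0 x
    | succ n =>
      obtain ⟨b, a⟩ := x
      exact Prod.ext (D.δδ s (n + 1) b) (L.δδ s n a)

/-- the family of the cone given by two families -/
def pack (W : D.Fam) (V : L.Fam) : F.cone.Fam := fun s n => match n with
  | 0 => (W s 0 : (D.c s).C 0)
  | n + 1 => ((W s (n + 1), V s n) : (D.c s).C (n + 1) × (L.c s).C n)

/-- the first component of a family of the cone -/
def fst (X : F.cone.Fam) : D.Fam := fun s n => match n with
  | 0 => (X s 0 : (D.c s).C 0)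
  | n + 1 => (show (D.c s).C (n + 1) × (L.c s).C n from X s (n + 1)).1

/-- the second component of a family of the cone -/
def snd (X : F.cone.Fam) : L.Fam := fun s n =>
  (show (D.c s).C (n + 1) × (L.c s).C n from X s (n + 1)).2

theorem pack_fst_snd (X : F.cone.Fam) : F.pack (F.fst X) (F.snd X) = X := by
  funext s n
  cases n with
  | zero => rfl
  | succ n => rfl

theorem bd_pack (W : D.Fam) (V : L.Fam) :
    F.cone.bd (F.pack W V) =
      F.pack (fun s n => D.bd W s n + F.fam V s n) (fun s n => -(L.bd V s n)) := by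
  funext s n
  cases n with
  | zero =>
    show ((D.c s).d 0 (W s 1) + (F.f s).app 0 (V s 0) : (D.c s).C 0) +
      sn 0 ((D.δ s).app 0 (W (s + 1) 0)) = D.bd W s 0 + F.fam V s 0
    rw [bd_apply, fam_apply]
    abel
  | succ n =>
    have e : ∀ (x : (D.c s).C (n + 1)) (y : (L.c s).C n),
        sn (n + 1) ((x, y) : (D.c s).C (n + 1) × (L.c s).C n) = (sn (n + 1) x, sn (n + 1) y) :=
      fun _ _ => rfl
    show ((D.c s).d (n + 1) (W s (n + 2)) + (F.f s).app (n + 1) (V s (n + 1)),
        -((L.c s).d n (V s (n + 1)))) + sn (n + 1)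
        (((D.δ s).app (n + 1) (W (s + 1) (n + 1)), (L.δ s).app n (V (s + 1) n)) :
          (D.c s).C (n + 1) × (L.c s).C n) =
      ((D.bd W s (n + 1) + F.fam V s (n + 1), -(L.bd V s n)) : (D.c s).C (n + 1) × (L.c s).C n)
    rw [e, Prod.mk_add_mk, bd_apply, fam_apply, bd_apply, sn_succ n ((L.δ s).app n _)]
    refine Prod.ext ?_ ?_
    · show _ + _ + _ = _ + _ + _
      abel
    · show _ + _ = _
      rw [neg_add]

theorem pack_zero_iff {W : D.Fam} {V : L.Fam} {N : ℕ} :
    (∀ s n, s + n = N → F.pack W V s n = 0) ↔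
      (∀ s n, s + n = N → W s n = 0) ∧ (∀ s n, s + n + 1 = N → V s n = 0) := by
  constructor
  · intro h
    constructor
    · intro s n hn
      cases n with
      | zero => exact h s 0 hn
      | succ n => exact congrArg Prod.fst (h s (n + 1) hn)
    · intro s n hn
      exact congrArg Prod.snd (h s (n + 1) (by omega))
  · rintro ⟨h1, h2⟩ s n hn
    cases n with
    | zero => exact h1 s 0 hn
    | succ n => exact Prod.ext (h1 s (n + 1) hn) (h2 s n (by omega))

theorem pack_eq_iff {W W' : D.Fam} {V V' : L.Fam} {N : ℕ} :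
    (∀ s n, s + n = N → F.pack W V s n = F.pack W' V' s n) ↔
      (∀ s n, s + n = N → W s n = W' s n) ∧ (∀ s n, s + n + 1 = N → V s n = V' s n) := by
  constructor
  · intro h
    constructor
    · intro s n hn
      cases n with
      | zero => exact h s 0 hn
      | succ n => exact congrArg Prod.fst (h s (n + 1) hn)
    · intro s n hn
      exact congrArg Prod.snd (h s (n + 1) (by omega))
  · rintro ⟨h1, h2⟩ s n hn
    cases n with
    | zero => exact h1 s 0 hn
    | succ n => exact Prod.ext (h1 s (n + 1) hn) (h2 s n (by omega))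

/-- relative total homology zero in degree `N + 1`, target zero in degree `N` ⟹ source zero in
degree `N`. -/
theorem tz_left {N : ℕ} (h : F.cone.TZ (N + 1)) (hD : D.TZ N) : L.TZ N := by
  intro v hv
  obtain ⟨W, hW⟩ := hD (F.fam v) fun s n hn => by
    rw [bd_fam, fam_apply, hv s n hn, map_zero]
  obtain ⟨X, hX⟩ := h (F.pack (fun s n => -(W s n)) v) (by
    intro s n hn
    rw [bd_pack]
    refine F.pack_zero_iff.2 ⟨?_, ?_⟩ s n (Nat.succ_injective hn)
    · intro s n hn
      have : D.bd (fun s n => -(W s n)) s n = -(D.bd W s n) := by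
        rw [bd_apply, bd_apply, map_neg, map_neg, neg_add]
        simp [sn]
      rw [this, hW s n hn, neg_add_cancel]
    · intro s n hn
      show -(L.bd v s n) = 0
      rw [hv s n hn, neg_zero])
  rw [← F.pack_fst_snd X, bd_pack] at hX
  obtain ⟨-, h2⟩ := F.pack_eq_iff.1 hX
  refine ⟨fun s n => -(F.snd X s n), fun s n hn => ?_⟩
  have : L.bd (fun s n => -(F.snd X s n)) s n = -(L.bd (F.snd X) s n) := by
    rw [bd_apply, bd_apply, map_neg, map_neg, neg_add]
    simp [sn]
  rw [this]
  exact h2 s n (by omega)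

/-- relative total homology zero in degree `N`, source zero in degree `N` ⟹ target zero in
degree `N`. -/
theorem tz_right {N : ℕ} (h : F.cone.TZ N) (hL : L.TZ N) : D.TZ N := by
  intro w hw
  obtain ⟨X, hX⟩ := h (F.pack w (fun _ _ => 0)) (by
    intro s n hn
    rw [bd_pack]
    subst hn
    refine F.pack_zero_iff.2 ⟨?_, ?_⟩ s n rfl
    · intro s' n' hn'
      have : F.fam (fun _ _ => 0) s' n' = 0 := by rw [fam_apply, map_zero]
      rw [this, add_zero]
      exact hw s' n' (by omega)
    · intro s' n' _
      show -(L.bd (fun _ _ => 0) s' n') = 0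
      rw [bd_apply, map_zero, map_zero, sn_zero_val, add_zero, neg_zero])
  rw [← F.pack_fst_snd X, bd_pack] at hX
  obtain ⟨h1, h2⟩ := F.pack_eq_iff.1 hX
  obtain ⟨U, hU⟩ := hL (F.snd X) fun s n hn => by
    have := h2 s n hn
    exact neg_eq_zero.1 this
  refine ⟨fun s n => F.fst X s n + F.fam U s n, fun s n hn => ?_⟩
  have e : D.bd (fun s n => F.fst X s n + F.fam U s n) s n =
      D.bd (F.fst X) s n + D.bd (F.fam U) s n := by
    rw [bd_apply, bd_apply, bd_apply, map_add, map_add, sn_add]
    abel
  rw [e, bd_fam, fam_apply, hU s n hn]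
  exact h1 s n hn

end Hom

/-! ### the transpose -/

/-- the `n`-th row -/
def row (D : DC R) (n : ℕ) : Cx R where
  C s := (D.c s).C n
  d s := (D.δ s).app n
  dd s x := D.δδ s n x

/-- the transposed double complex -/
def tr (D : DC R) : DC R where
  c n := D.row n
  δ n := ⟨fun s => (D.c s).d n, fun s x => ((D.δ s).comm n x).symm⟩
  δδ n s x := (D.c s).dd n x

/-- the transposed family -/
def trF (D : DC R) (w : D.Fam) : D.tr.Fam := fun n s => (sn (n * s) (w s n) : (D.c s).C n)

/-- the transposed family -/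
def trF' (D : DC R) (w : D.tr.Fam) : D.Fam := fun s n => (sn (n * s) (w n s) : (D.c s).C n)

theorem sn_invol {M : Type*} [AddCommGroup M] (k : ℕ) (x : M) : sn k (sn k x) = x := by
  rw [sn_sn, sn_double]

theorem trF_trF' (D : DC R) (w : D.tr.Fam) : D.trF (D.trF' w) = w := by
  funext n s
  exact sn_invol (M := (D.c s).C n) _ _

theorem bd_trF (D : DC R) (w : D.Fam) (n s : ℕ) :
    D.tr.bd (D.trF w) n s = D.trF (D.bd w) n s := by
  show (D.δ s).app n (sn (n * (s + 1)) (w (s + 1) n)) +
      sn s ((D.c s).d n (sn ((n + 1) * s) (w s (n + 1)))) =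
    sn (n * s) ((D.c s).d n (w s (n + 1)) + sn n ((D.δ s).app n (w (s + 1) n)))
  rw [app_sn, d_sn, sn_sn, sn_add, sn_sn, add_comm]
  congr 1
  rw [show s + (n + 1) * s = (s + s) + n * s by ring, ← sn_sn, sn_double]

theorem tr_tz {D : DC R} {N : ℕ} : D.tr.TZ N ↔ D.TZ N := by
  constructor
  · intro h w hw
    obtain ⟨W, hW⟩ := h (D.trF w) (fun n s hn => by
      rw [bd_trF]
      show sn (n * s) (D.bd w s n) = 0
      rw [hw s n (by omega), sn_zero_val])
    refine ⟨D.trF' W, fun s n hn => ?_⟩
    have h1 := hW n s (by omega)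
    rw [← D.trF_trF' W, bd_trF] at h1
    have h2 : sn (n * s) (D.bd (D.trF' W) s n) = sn (n * s) (w s n) := h1
    have h3 := congrArg (sn (n * s)) h2
    rwa [sn_sn, sn_double, sn_sn, sn_double] at h3
  · intro h w hw
    obtain ⟨W, hW⟩ := h (D.trF' w) (fun s n hn => by
      have h1 : D.tr.bd w n s = 0 := hw n s (by omega)
      rw [← D.trF_trF' w, bd_trF] at h1
      have h2 : sn (n * s) (D.bd (D.trF' w) s n) = 0 := h1
      have h3 := congrArg (sn (n * s)) h2
      rwa [sn_sn, sn_double, sn_zero_val] at h3)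
    refine ⟨D.trF W, fun n s hn => ?_⟩
    rw [bd_trF]
    show sn (n * s) (D.bd W s n) = w n s
    rw [hW s n (by omega)]
    exact sn_invol (M := (D.c s).C n) _ _

/-- the transposed map -/
def Hom.tr {L D : DC R} (F : Hom L D) : Hom L.tr D.tr where
  f n := ⟨fun s => (F.f s).app n, fun s x => F.comm s n x⟩
  comm n s x := (F.f s).comm n x

/-- the map of rows -/
def Hom.row {L D : DC R} (F : Hom L D) (n : ℕ) : Cx.Hom (L.row n) (D.row n) := F.tr.f n

/-- **Comparison by columns**, from the target to the source. -/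
theorem Hom.tz_left_of_cols {L D : DC R} (F : Hom L D) {N : ℕ}
    (h : ∀ s n, s + n = N + 1 → RZ0 (F.f s) n) (hD : D.TZ N) : L.TZ N :=
  F.tz_left (F.cone.tz_of_cols (N + 1) h) hD

/-- **Comparison by columns**, from the source to the target. -/
theorem Hom.tz_right_of_cols {L D : DC R} (F : Hom L D) {N : ℕ}
    (h : ∀ s n, s + n = N → RZ0 (F.f s) n) (hL : L.TZ N) : D.TZ N :=
  F.tz_right (F.cone.tz_of_cols N h) hL

/-- **Comparison by rows**, from the target to the source. -/
theorem Hom.tz_left_of_rows {L D : DC R} (F : Hom L D) {N : ℕ}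
    (h : ∀ s n, s + n = N + 1 → RZ0 (F.row n) s) (hD : D.TZ N) : L.TZ N :=
  tr_tz.1 (F.tr.tz_left_of_cols (fun n s hn => h s n (by omega)) (tr_tz.2 hD))

/-- **Comparison by rows**, from the source to the target. -/
theorem Hom.tz_right_of_rows {L D : DC R} (F : Hom L D) {N : ℕ}
    (h : ∀ s n, s + n = N → RZ0 (F.row n) s) (hL : L.TZ N) : D.TZ N :=
  tr_tz.1 (F.tr.tz_right_of_cols (fun n s hn => h s n (by omega)) (tr_tz.2 hL))

end DC

end Vale.Agent.P263.GB
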