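import Vale.Agent.P263.GB.Low
import Vale.Agent.P263.GB.DCx

/-!
# P263, block GB: tools for mapping cones

* `coneMap` : a commutative square induces a map of mapping cones; functoriality;
* for composites `A → B → C`: `comp_exact`, `comp_lift`, `comp_left` (the long exact sequence of
  `cone f → cone (g f) → cone g`, elementwise) and the vanishing versions `rz0_comp`,
  `rz0_right`, `rz0_left`;
* `rz0_surj`, `surj_lift` : the cone of a surjection and its kernel; `rz0_retract`;
* `rz0_box` : if `H_i(cone f) = 0` for `i < r` then `H_i(cone (f □ Y)) = 0` for `i < r`;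
* `low_cone`, `low_cone_conn` : generators of `H_r(cone (f □ Y))`.
-/

namespace Vale.Agent.P263.GB

open Vale.Agent.P263.S Vale.Agent.P263.E

variable {R : Type} [CommRing R]

/-! ### elements of cones -/

section elements

variable {A B : Cx R} (f : Cx.Hom A B)

theorem cone_cyc_succ (n : ℕ) (b : B.C (n + 1)) (a : A.C n) :
    (cone f).Cyc (n + 1) (b, a) ↔ A.Cyc n a ∧ B.d n b + f.app n a = 0 := by
  cases n with
  | zero =>
    change (B.d 0 b + f.app 0 a = 0) ↔ _
    simp
  | succ n =>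
    change ((B.d (n + 1) b + f.app (n + 1) a, -(A.d n a)) : B.C (n + 1) × A.C n) = 0 ↔ _
    rw [Prod.mk_eq_zero, neg_eq_zero, Cx.cyc_succ]
    exact and_comm

theorem cone_d_zero (b : B.C 1) (a : A.C 0) :
    (cone f).d 0 (b, a) = (B.d 0 b + f.app 0 a : B.C 0) := rfl

theorem cone_d_succ (n : ℕ) (b : B.C (n + 2)) (a : A.C (n + 1)) :
    (cone f).d (n + 1) (b, a) =
      ((B.d (n + 1) b + f.app (n + 1) a, -(A.d n a)) : B.C (n + 1) × A.C n) := rfl

end elements

/-- a boundary differs from a cycle by a cycle -/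
theorem Cx.cyc_sub_d (A : Cx R) {n : ℕ} {x : A.C n} (hx : A.Cyc n x) (y : A.C (n + 1)) :
    A.Cyc n (x - A.d n y) := A.cyc_sub hx (A.cyc_d n y)

theorem Cx.cyc_zero' (A : Cx R) (n : ℕ) : A.Cyc n 0 := by
  cases n with
  | zero => trivial
  | succ n => exact map_zero _

/-- homology vanishing passes to retracts -/
theorem Cx.HZ.of_retract {A B : Cx R} (φ : Cx.Hom A B) (ψ : Cx.Hom B A) {n : ℕ}
    (h : ∀ x, φ.app n (ψ.app n x) = x) (hA : A.HZ n) : B.HZ n := by
  intro x hx
  obtain ⟨y, hy⟩ := hA (ψ.app n x) (ψ.cyc hx)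
  exact ⟨φ.app (n + 1) y, by rw [← φ.comm, hy, h]⟩

/-! ### maps of cones -/

section coneMap

variable {A B A' B' : Cx R} (f : Cx.Hom A B) (f' : Cx.Hom A' B') (u : Cx.Hom A A')
  (v : Cx.Hom B B')

@[simp] theorem coneMap_zero (h : ∀ n x, v.app n (f.app n x) = f'.app n (u.app n x))
    (b : B.C 0) : (coneMap f f' u v h).app 0 b = v.app 0 b := rfl

@[simp] theorem coneMap_succ (h : ∀ n x, v.app n (f.app n x) = f'.app n (u.app n x)) (n : ℕ)
    (b : B.C (n + 1)) (a : A.C n) :
    (coneMap f f' u v h).app (n + 1) (b, a) = (v.app (n + 1) b, u.app n a) := rfl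

end coneMap

/-! ### composites -/

section comp

variable {A B C : Cx R} (f : Cx.Hom A B) (g : Cx.Hom B C)

/-- `cone f → cone (g f)` -/
def coneIn : Cx.Hom (cone f) (cone (g.comp f)) :=
  coneMap f (g.comp f) (Cx.Hom.id A) g fun _ _ => rfl

/-- `cone (g f) → cone g` -/
def coneOut : Cx.Hom (cone (g.comp f)) (cone g) :=
  coneMap (g.comp f) g f (Cx.Hom.id C) fun _ _ => rfl

@[simp] theorem coneIn_zero (b : B.C 0) : (coneIn f g).app 0 b = g.app 0 b := rfl

@[simp] theorem coneIn_succ (n : ℕ) (b : B.C (n + 1)) (a : A.C n) :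
    (coneIn f g).app (n + 1) (b, a) = (g.app (n + 1) b, a) := rfl

@[simp] theorem coneOut_zero (c : C.C 0) : (coneOut f g).app 0 c = c := rfl

@[simp] theorem coneOut_succ (n : ℕ) (c : C.C (n + 1)) (a : A.C n) :
    (coneOut f g).app (n + 1) (c, a) = (c, f.app n a) := rfl

/-- exactness at `H_n(cone (g f))` -/
theorem comp_exact (n : ℕ) (z : (cone (g.comp f)).C n) (hz : (cone (g.comp f)).Cyc n z)
    (y : (cone g).C (n + 1)) (hy : (cone g).d n y = (coneOut f g).app n z) :
    ∃ (w : (cone (g.comp f)).C (n + 1)) (x : (cone f).C n), (cone f).Cyc n x ∧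
      (cone (g.comp f)).d n w + (coneIn f g).app n x = z := by
  obtain ⟨c', b'⟩ := y
  cases n with
  | zero =>
    refine ⟨(c', 0), b', trivial, ?_⟩
    have h1 : C.d 0 c' + g.app 0 b' = z := hy
    change C.d 0 c' + (g.comp f).app 0 0 + g.app 0 b' = z
    rw [map_zero, add_zero, h1]
  | succ n =>
    obtain ⟨c, a⟩ := z
    have h1 : ((C.d (n + 1) c' + g.app (n + 1) b', -(B.d n b')) : C.C (n + 1) × B.C n) =
      (c, f.app n a) := hy
    rw [Prod.mk.injEq] at h1
    rw [cone_cyc_succ] at hz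
    refine ⟨(c', 0), (b', a), ?_, ?_⟩
    · rw [cone_cyc_succ]
      exact ⟨hz.1, by rw [← h1.2]; abel⟩
    · change ((C.d (n + 1) c' + (g.comp f).app (n + 1) 0, -(A.d n 0)) : C.C (n + 1) × A.C n) +
        (g.app (n + 1) b', a) = (c, a)
      rw [map_zero, map_zero, Prod.mk_add_mk, add_zero, neg_zero, zero_add, h1.1]

/-- exactness at `H_n(cone g)`, when `H_{n-1}(cone f) = 0`: cycles lift -/
theorem comp_lift (n : ℕ) (hf : ∀ m, m + 1 = n → RZ0 f m) (z : (cone g).C n)
    (hz : (cone g).Cyc n z) :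
    ∃ (w : (cone g).C (n + 1)) (x : (cone (g.comp f)).C n), (cone (g.comp f)).Cyc n x ∧
      (cone g).d n w + (coneOut f g).app n x = z := by
  cases n with
  | zero => exact ⟨0, z, trivial, by rw [map_zero, zero_add]; rfl⟩
  | succ n =>
    obtain ⟨c, b⟩ := z
    rw [cone_cyc_succ] at hz
    -- `b` is a boundary plus the image of a cycle
    obtain ⟨b', a', ha', hb⟩ : ∃ (b' : B.C (n + 1)) (a' : A.C n), A.Cyc n a' ∧
        B.d n b' + f.app n a' = b := by
      cases n with
      | zero =>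
        obtain ⟨⟨b', a'⟩, h⟩ := hf 0 rfl b trivial
        exact ⟨b', a', trivial, h⟩
      | succ n =>
        obtain ⟨⟨b', a'⟩, h⟩ := hf (n + 1) rfl (b, 0) (by
          rw [cone_cyc_succ]
          exact ⟨A.cyc_zero' n, by rw [map_zero, add_zero]; exact hz.1⟩)
        have h' : ((B.d (n + 1) b' + f.app (n + 1) a', -(A.d n a')) : B.C (n + 1) × A.C n) =
          (b, 0) := h
        rw [Prod.mk.injEq] at h'
        exact ⟨b', a', neg_eq_zero.1 h'.2, h'.1⟩
    refine ⟨(0, -b'), (c + g.app (n + 1) b', a'), ?_, ?_⟩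
    · rw [cone_cyc_succ]
      refine ⟨ha', ?_⟩
      rw [Cx.Hom.comp_app, map_add, ← g.comm, add_assoc, ← map_add, hb]
      exact hz.2
    · change ((C.d (n + 1) 0 + g.app (n + 1) (-b'), -(B.d n (-b'))) : C.C (n + 1) × B.C n) +
        (c + g.app (n + 1) b', f.app n a') = (c, b)
      rw [map_zero, map_neg, map_neg, Prod.mk_add_mk, ← hb]
      congr 1 <;> abel

/-- exactness at `H_n(cone f)`: if the image in `cone (g f)` is a boundary, and
`H_{n+1}(cone g) = 0`, the element is a boundary -/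
theorem comp_left (n : ℕ) (hg : RZ0 g (n + 1)) (z : (cone f).C n) (hz : (cone f).Cyc n z)
    (y : (cone (g.comp f)).C (n + 1)) (hy : (cone (g.comp f)).d n y = (coneIn f g).app n z) :
    ∃ w, (cone f).d n w = z := by
  obtain ⟨x, y⟩ := y
  cases n with
  | zero =>
    have key : ∀ (z : B.C 0), C.d 0 x + g.app 0 (f.app 0 y) = g.app 0 z →
        ∃ (b : B.C 1) (a : A.C 0), B.d 0 b + f.app 0 a = z := by
      intro z h1
      have hc : (cone g).Cyc 1 (-x, z - f.app 0 y) := by
        rw [cone_cyc_succ]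
        refine ⟨trivial, ?_⟩
        rw [map_neg, map_sub, ← h1]
        abel
      obtain ⟨⟨p, q⟩, h2⟩ := hg _ hc
      have h3 : ((C.d 1 p + g.app 1 q, -(B.d 0 q)) : C.C 1 × B.C 0) = (-x, z - f.app 0 y) := h2
      rw [Prod.mk.injEq] at h3
      exact ⟨-q, y, by rw [map_neg, h3.2, sub_add_cancel]⟩
    obtain ⟨b, a, h⟩ := key z hy
    exact ⟨(b, a), h⟩
  | succ n =>
    obtain ⟨b, a⟩ := z
    have h1 : ((C.d (n + 1) x + g.app (n + 1) (f.app (n + 1) y), -(A.d n y)) :
      C.C (n + 1) × A.C n) = (g.app (n + 1) b, a) := hy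
    rw [Prod.mk.injEq] at h1
    rw [cone_cyc_succ] at hz
    have hc : (cone g).Cyc (n + 2) (-x, b - f.app (n + 1) y) := by
      rw [cone_cyc_succ]
      constructor
      · change B.d n (b - f.app (n + 1) y) = 0
        rw [map_sub, ← f.comm]
        have h4 : B.d n b = - f.app n a := eq_neg_of_add_eq_zero_left hz.2
        rw [h4, ← h1.2, map_neg]
        abel
      · rw [map_neg, map_sub, ← h1.1]
        abel
    obtain ⟨⟨p, q⟩, h2⟩ := hg _ hc
    have h3 : ((C.d (n + 2) p + g.app (n + 2) q, -(B.d (n + 1) q)) : C.C (n + 2) × B.C (n + 1)) =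
      (-x, b - f.app (n + 1) y) := h2
    rw [Prod.mk.injEq] at h3
    refine ⟨(-q, y), ?_⟩
    change ((B.d (n + 1) (-q) + f.app (n + 1) y, -(A.d n y)) : B.C (n + 1) × A.C n) = (b, a)
    rw [map_neg, h3.2, h1.2, sub_add_cancel]

/-- two out of three, middle -/
theorem rz0_comp (n : ℕ) (hf : RZ0 f n) (hg : RZ0 g n) : RZ0 (g.comp f) n := by
  intro z hz
  obtain ⟨y, hy⟩ := hg _ ((coneOut f g).cyc hz)
  obtain ⟨w, x, hx, h⟩ := comp_exact f g n z hz y hy
  obtain ⟨v, rfl⟩ := hf x hx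
  exact ⟨w + (coneIn f g).app (n + 1) v, by rw [map_add, ← (coneIn f g).comm]; exact h⟩

/-- two out of three, right -/
theorem rz0_right (n : ℕ) (hgf : RZ0 (g.comp f) n) (hf : ∀ m, m + 1 = n → RZ0 f m) :
    RZ0 g n := by
  intro z hz
  obtain ⟨w, x, hx, rfl⟩ := comp_lift f g n hf z hz
  obtain ⟨v, rfl⟩ := hgf x hx
  exact ⟨w + (coneOut f g).app (n + 1) v, by rw [map_add, ← (coneOut f g).comm]⟩

/-- two out of three, left -/
theorem rz0_left (n : ℕ) (hgf : RZ0 (g.comp f) n) (hg : RZ0 g (n + 1)) : RZ0 f n := by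
  intro z hz
  obtain ⟨y, hy⟩ := hgf _ ((coneIn f g).cyc hz)
  exact comp_left f g n hg z hz y hy

end comp

/-! ### surjections and retractions -/

/-- the source of a map in its mapping cone -/
def coneR {A B : Cx R} (f : Cx.Hom A B) (n : ℕ) : A.C n →ₗ[R] (cone f).C (n + 1) :=
  (LinearMap.inr R (B.C (n + 1)) (A.C n) : A.C n →ₗ[R] B.C (n + 1) × A.C n)

theorem coneR_apply {A B : Cx R} (f : Cx.Hom A B) (n : ℕ) (a : A.C n) :
    coneR f n a = ((0, a) : B.C (n + 1) × A.C n) := rfl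

theorem coneR_cyc {A B : Cx R} (f : Cx.Hom A B) (n : ℕ) (a : A.C n) (h : A.Cyc n a)
    (h0 : f.app n a = 0) : (cone f).Cyc (n + 1) (coneR f n a) :=
  (cone_cyc_succ f n 0 a).2 ⟨h, by rw [map_zero, h0, add_zero]⟩

theorem d_coneR {A B : Cx R} (f : Cx.Hom A B) (n : ℕ) (a : A.C (n + 1))
    (h0 : f.app (n + 1) a = 0) :
    (cone f).d (n + 1) (coneR f (n + 1) a) = - coneR f n (A.d n a) := by
  change ((B.d (n + 1) 0 + f.app (n + 1) a, -(A.d n a)) : B.C (n + 1) × A.C n) =
    -((0, A.d n a) : B.C (n + 1) × A.C n)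
  rw [map_zero, h0, add_zero, Prod.neg_mk, neg_zero]

/-- the cone of a surjection: every cycle is a cycle of the kernel, up to a boundary -/
theorem surj_lift {K S B : Cx R} {j : Cx.Hom K S} {ρ : Cx.Hom S B} (h : Cx.SES j ρ) (n : ℕ)
    (z : (cone ρ).C (n + 1)) (hz : (cone ρ).Cyc (n + 1) z) :
    ∃ (w : (cone ρ).C (n + 2)) (k : K.C n), K.Cyc n k ∧
      (cone ρ).d (n + 1) w + coneR ρ n (j.app n k) = z := by
  obtain ⟨b, s⟩ := z
  rw [cone_cyc_succ] at hz
  obtain ⟨s', rfl⟩ := h.surj (n + 1) b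
  obtain ⟨k, hk⟩ := h.exact n (s + S.d n s') (by
    rw [map_add, ρ.comm, add_comm]; exact hz.2)
  refine ⟨(0, s'), k, ?_, ?_⟩
  · refine j.cyc_of_inj ?_ h.inj
    rw [hk]
    exact S.cyc_add hz.1 (S.cyc_d n s')
  · have e2 : ((B.d (n + 1) 0 + ρ.app (n + 1) s', -(S.d n s')) + (0, j.app n k) :
        B.C (n + 1) × S.C n) = (ρ.app (n + 1) s', s) := by
      rw [map_zero, zero_add, hk, Prod.mk_add_mk]
      congr 1 <;> abel
    exact e2

theorem rz0_surj_zero {S B : Cx R} (ρ : Cx.Hom S B) (h : Function.Surjective (ρ.app 0)) :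
    RZ0 ρ 0 := by
  rw [rz0_zero]
  intro b
  obtain ⟨s, rfl⟩ := h b
  exact ⟨0, s, by rw [map_zero, zero_add]⟩

/-- the cone of a surjection and its kernel -/
theorem rz0_surj {K S B : Cx R} {j : Cx.Hom K S} {ρ : Cx.Hom S B} (h : Cx.SES j ρ) (n : ℕ)
    (hK : K.HZ n) : RZ0 ρ (n + 1) := by
  intro z hz
  obtain ⟨w, k, hk, rfl⟩ := surj_lift h n z hz
  obtain ⟨l, rfl⟩ := hK k hk
  exact ⟨w - coneR ρ (n + 1) (j.app (n + 1) l), by
    rw [map_sub, d_coneR ρ n _ (h.zero _ _), j.comm, sub_neg_eq_add]⟩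

/-- the kernel of a surjection with acyclic cone -/
theorem hz_of_rz0 {K S B : Cx R} {j : Cx.Hom K S} {ρ : Cx.Hom S B} (h : Cx.SES j ρ) (n : ℕ)
    (hρ : RZ0 ρ (n + 1)) : K.HZ n := by
  intro k hk
  obtain ⟨⟨b, s⟩, hy⟩ := hρ _ (coneR_cyc ρ n _ (j.cyc hk) (h.zero _ _))
  have h1 : ((B.d (n + 1) b + ρ.app (n + 1) s, -(S.d n s)) : B.C (n + 1) × S.C n) =
    (0, j.app n k) := hy
  rw [Prod.mk.injEq] at h1
  obtain ⟨t, rfl⟩ := h.surj (n + 2) b
  rw [← ρ.comm, ← map_add] at h1
  obtain ⟨l, hl⟩ := h.exact (n + 1) _ h1.1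
  refine ⟨-l, h.inj n ?_⟩
  rw [j.comm, map_neg, hl, ← h1.2, map_neg, map_add, S.dd, zero_add]

/-- a section of a map with acyclic kernel -/
theorem rz0_retract {A S P : Cx R} (i : Cx.Hom A S) (q : Cx.Hom S A) (j : Cx.Hom P S)
    (hqi : ∀ n x, q.app n (i.app n x) = x) (hqj : ∀ n x, q.app n x = 0 → ∃ y, j.app n y = x)
    (hj : ∀ n, Function.Injective (j.app n)) (hP : ∀ n, P.HZ n) (n : ℕ) : RZ0 i n := by
  have key : ∀ (n : ℕ) (s : S.C n), S.Cyc n (s - i.app n (q.app n s)) → ∃ p, S.d n p =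
      s - i.app n (q.app n s) := by
    intro n s hs
    obtain ⟨y, hy⟩ := hqj n (s - i.app n (q.app n s)) (by rw [map_sub, hqi, sub_self])
    obtain ⟨p, hp⟩ := hP n y (j.cyc_of_inj (by rw [hy]; exact hs) hj)
    exact ⟨j.app (n + 1) p, by rw [← j.comm, hp, hy]⟩
  cases n with
  | zero =>
    rw [rz0_zero]
    intro b
    obtain ⟨p, hp⟩ := key 0 b trivial
    exact ⟨p, q.app 0 b, by rw [hp]; abel⟩
  | succ n =>
    rw [rz0_succ]
    intro b a ha hb
    have h1 : q.app n (S.d n b) + a = 0 := by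
      have := congrArg (q.app n) hb
      rwa [map_add, hqi, map_zero] at this
    have h2 : A.d n (q.app (n + 1) b) = -a := by
      rw [← q.comm]; exact eq_neg_of_add_eq_zero_left h1
    obtain ⟨p, hp⟩ := key (n + 1) b (by
      change S.d n _ = 0
      rw [map_sub, ← i.comm, h2, map_neg, sub_neg_eq_add]
      exact hb)
    exact ⟨p, q.app (n + 1) b, by rw [hp]; abel, by rw [h2, neg_neg]⟩

/-! ### the box product of a map and a simplicial set -/

namespace SMod

/-- the product -/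
def prod (A B : SMod R) : SMod R where
  obj p := A.obj p × B.obj p
  map f := LinearMap.prodMap (A.map f) (B.map f)
  map_id x := by
    change (A.map _ x.1, B.map _ x.2) = x
    rw [A.map_id, B.map_id]
  map_comp f g x := by
    change (A.map _ x.1, B.map _ x.2) = (A.map g (A.map f x.1), B.map g (B.map f x.2))
    rw [A.map_comp, B.map_comp]

theorem prod_map {A B : SMod R} {p q : ℕ} (f : Op p q) (a : A.obj q) (b : B.obj q) :
    (A.prod B).map f (a, b) = (A.map f a, B.map f b) := rfl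

/-- the first inclusion -/
def inlH (A B : SMod R) : Hom A (A.prod B) where
  app p := LinearMap.inl R (A.obj p) (B.obj p)
  nat f x := by
    change ((A.map f x, 0) : A.obj _ × B.obj _) = (A.map f x, B.map f 0)
    rw [map_zero]

/-- the second inclusion -/
def inrH (A B : SMod R) : Hom B (A.prod B) where
  app p := LinearMap.inr R (A.obj p) (B.obj p)
  nat f x := by
    change ((0, B.map f x) : A.obj _ × B.obj _) = (A.map f 0, B.map f x)
    rw [map_zero]

/-- the first projection -/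
def fstH (A B : SMod R) : Hom (A.prod B) A where
  app p := LinearMap.fst R (A.obj p) (B.obj p)
  nat _ _ := rfl

/-- the map out of a product -/
def coprH {A B C : SMod R} (f : Hom A C) (g : Hom B C) : Hom (A.prod B) C where
  app p := LinearMap.coprod (f.app p) (g.app p)
  nat α x := by
    change f.app _ (A.map α x.1) + g.app _ (B.map α x.2) = C.map α (f.app _ x.1 + g.app _ x.2)
    rw [f.nat, g.nat, map_add]

/-- a simplex whose first vertex is a boundary is the end of a path -/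
theorem ev_of_bd (A : SMod R) {p : ℕ} (x : A.obj p) (e : A.obj 1)
    (he : A.d 0 e = A.map (cst 0 p) x) : ∃ y, A.ev.app p y = x := by
  rw [d_zero_eq] at he
  have hc1 : (sg p 0).comp (inc p) = OrderHom.id := by
    apply OrderHom.ext; funext y; apply Fin.ext
    have := y.2
    rw [OrderHom.comp_coe, Function.comp_apply, sg_val, inc_val, OrderHom.id_coe, id_eq]
    split_ifs <;> omega
  have hc2 : (sg p 0).comp (cst 0 (p + 1)) = cst 0 p := by
    apply OrderHom.ext; funext y; apply Fin.ext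
    rw [OrderHom.comp_coe, Function.comp_apply, sg_val, cst_apply, cst_apply]
    simp
  have hs1 : (th (p + 1) 1).comp (inc p) = (inc 0).comp (cst p 0) := by
    apply OrderHom.ext; funext y
    rw [OrderHom.comp_coe, Function.comp_apply, th_val, inc_val, if_neg (by omega)]
    rfl
  have hs2 : (th (p + 1) 1).comp (cst 0 (p + 1)) = cst 0 1 := by
    apply OrderHom.ext; funext y
    rw [OrderHom.comp_coe, Function.comp_apply, th_val, cst_apply, if_pos (by simp)]
    rfl
  have hi1 : ((inc 0).comp (cst 1 0)).comp (inc 0) = inc 0 := by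
    apply OrderHom.ext; funext y; apply Fin.ext
    have := y.2
    simp only [OrderHom.comp_coe, Function.comp_apply, inc_val, cst_apply]
    omega
  have hi2 : ((inc 0).comp (cst 1 0)).comp (cst 0 1) = inc 0 := by
    apply OrderHom.ext; funext y; apply Fin.ext
    have := y.2
    simp only [OrderHom.comp_coe, Function.comp_apply, inc_val, cst_apply]
    omega
  obtain ⟨e', h1, h0⟩ : ∃ e' : A.obj 1, A.map (inc 0) e' = 0 ∧
      A.map (cst 0 1) e' = A.map (cst 0 p) x := by
    refine ⟨A.map ((inc 0).comp (cst 1 0)) e - e, ?_, ?_⟩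
    · rw [map_sub, ← A.map_comp, hi1, sub_self]
    · rw [map_sub, ← A.map_comp, hi2, he]
  refine ⟨⟨A.map (sg p 0) x - A.map (th (p + 1) 1) e', ?_⟩, ?_⟩
  · rw [mem_PO, map_sub, ← A.map_comp, ← A.map_comp, hc2, hs2, h0, sub_self]
  · change A.map (inc p) (A.map (sg p 0) x - A.map (th (p + 1) 1) e') = x
    rw [map_sub, ← A.map_comp, ← A.map_comp, hc1, hs1, A.map_comp, h1, map_zero, A.map_id,
      sub_zero]

/-- the fibration replacing `f` -/
def rho {A B : SMod R} (f : Hom A B) : Hom (A.prod B.Path) B := coprH f B.ev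

theorem rho_apply {A B : SMod R} (f : Hom A B) {p : ℕ} (a : A.obj p) (y : B.Path.obj p) :
    (rho f).app p (a, y) = f.app p a + B.ev.app p y := rfl

/-- `A × PB → B` is onto if `H_0(A) → H_0(B)` is onto -/
theorem rho_surj {A B : SMod R} (f : Hom A B) (h : RZ0 f.cx 0) (p : ℕ) :
    Function.Surjective ((rho f).app p) := by
  intro x
  obtain ⟨e, a, he'⟩ : ∃ (e : B.obj 1) (a : A.obj 0),
      B.d 0 e + f.app 0 a = B.map (cst 0 p) x := (rz0_zero f.cx).1 h (B.map (cst 0 p) x)
  obtain ⟨y, hy⟩ := B.ev_of_bd (x - f.app p (A.map (cst p 0) a)) e (by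
    rw [map_sub, f.nat, ← B.map_comp]
    have : (cst p 0).comp (cst 0 p) = OrderHom.id := cst_zero_zero
    rw [this, B.map_id, ← he', add_sub_cancel_right])
  exact ⟨(A.map (cst p 0) a, y), by rw [rho_apply, hy]; abel⟩

/-- the homotopy fibre -/
abbrev Fib {A B : SMod R} (f : Hom A B) : SMod R := Ker (rho f)

theorem ses_rho {A B : SMod R} (f : Hom A B) (h : RZ0 f.cx 0) : SES (kerI (rho f)) (rho f) :=
  ses_ker _ (rho_surj f h)

theorem rho_comp_inl {A B : SMod R} (f : Hom A B) : (rho f).comp (inlH A B.Path) = f := by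
  ext p x
  change f.app p x + B.ev.app p 0 = f.app p x
  rw [map_zero, add_zero]

/-- the inclusion `A → A × PB` is an equivalence -/
theorem rz0_inl (A B : SMod R) (n : ℕ) : RZ0 (inlH A B.Path).cx n :=
  rz0_retract (inlH A B.Path).cx (fstH A B.Path).cx (inrH A B.Path).cx (fun _ _ => rfl)
    (fun _ x hx => ⟨x.2, Prod.ext hx.symm rfl⟩) (fun _ _ _ h => congrArg Prod.snd h)
    B.Path_hz n

end SMod

open SMod

/-- `Fib f` computes the homology of the cone, one degree up -/
theorem fib_hz {A B : SMod R} (f : SMod.Hom A B) (h0 : RZ0 f.cx 0) (n : ℕ)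
    (h : RZ0 f.cx (n + 1)) : (Fib f).cx.HZ n := by
  refine hz_of_rz0 (ses_rho f h0).cx n ?_
  refine rz0_right (inlH A B.Path).cx (rho f).cx (n + 1) ?_ fun m _ => rz0_inl A B m
  have : (rho f).cx.comp (inlH A B.Path).cx = f.cx := by
    have := congrArg SMod.Hom.cx (rho_comp_inl f)
    exact this
  rw [this]
  exact h

/-- the box product of a map -/
theorem boxL_comp {A B C : SMod R} (g : SMod.Hom B C) (f : SMod.Hom A B) (Y : SS) :
    boxL (g.comp f) Y = (boxL g Y).comp (boxL f Y) := by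
  ext p x
  exact box_hom_ext (fun y v => by
    change (boxL (g.comp f) Y).app p (bx A Y y v) =
      (boxL g Y).app p ((boxL f Y).app p (bx A Y y v))
    rw [boxL_bx, boxL_bx, boxL_bx]
    rfl) x

/-- the boxed inclusion is an equivalence -/
theorem rz0_box_inl (A B : SMod R) (Y : SS) (n : ℕ) :
    RZ0 (boxL (inlH A B.Path) Y).cx n := by
  have hs : SES (inrH A B.Path) (fstH A B.Path) :=
    ⟨fun _ _ _ h => congrArg Prod.snd h, fun _ x hx => ⟨x.2, Prod.ext hx.symm rfl⟩,
      fun _ _ => rfl, fun _ a => ⟨(a, 0), rfl⟩⟩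
  have hb := ses_boxL hs Y
  refine rz0_retract (boxL (inlH A B.Path) Y).cx (boxL (fstH A B.Path) Y).cx
    (boxL (inrH A B.Path) Y).cx (fun p x => ?_) hb.exact hb.inj (hz_box_path B Y) n
  have := boxL_comp (fstH A B.Path) (inlH A B.Path) Y
  have h2 : (boxL ((fstH A B.Path).comp (inlH A B.Path)) Y).app p x = x :=
    box_hom_ext (f := (boxL ((fstH A B.Path).comp (inlH A B.Path)) Y).app p)
      (g := LinearMap.id) (fun y v => boxL_bx _ _ _ _) x
  rw [this] at h2
  exact h2

/-- **(K1, relative)** `H_n(cone (f □ Y)) = 0` for `n < r` if `H_i(cone f) = 0` for `i < r` -/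
theorem rz0_box {A B : SMod R} (f : SMod.Hom A B) (Y : SS) (r : ℕ)
    (h : ∀ i < r, RZ0 f.cx i) (n : ℕ) (hn : n < r) : RZ0 (boxL f Y).cx n := by
  have h0 : RZ0 f.cx 0 := h 0 (by omega)
  have hS := ses_rho f h0
  have hB := ses_boxL hS Y
  have e : (boxL (rho f) Y).cx.comp (boxL (inlH A B.Path) Y).cx = (boxL f Y).cx := by
    have := congrArg SMod.Hom.cx (boxL_comp (rho f) (inlH A B.Path) Y)
    rw [rho_comp_inl] at this
    exact this.symm
  rw [← e]
  refine rz0_comp _ _ n (rz0_box_inl A B Y n) ?_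
  cases n with
  | zero => exact rz0_surj_zero _ (hB.surj 0)
  | succ n =>
    refine rz0_surj hB.cx n ?_
    exact hz_box Y n.succ (Fib f) (fun i hi => fib_hz f h0 i (h (i + 1) (by omega))) n
      (by omega)

end Vale.Agent.P263.GB
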