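import Vale.Agent.P263.GB.Tel
import Vale.Agent.P263.GB.Cone

/-!
# P263, block GB: arrows of simplicial sets

`Arr` : maps of simplicial sets, `Arr.Hom` : strictly commutative squares, `P.C R` : the mapping
cone of the chains, `h.ch R : Cx.Hom (P.C R) (Q.C R)`.

* `Sim R g h` : two maps of arrows which agree on relative cycles up to boundaries; it is an
  equivalence relation, compatible with composition; `Htp.sim` : homotopies of arrows;
* `ch_inj` : a map of arrows which is a homology isomorphism on both ends reflects boundaries;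
* `P.prod Y`, `atY y : P → P.prod Y` for a vertex `y`; `sim_atY` : vertices joined by an edge;
* telescopes: `tl a`, `tlin a i`, `tlMap`, `exists_tlin`.
-/

namespace Vale.Agent.P263.GB

open Vale.Agent.P263.S Vale.Agent.P263.E

variable {R : Type} [CommRing R]

/-! ### prisms on cones -/

theorem Prism_k_nat {A B A' B' : SMod R} (f : SMod.Hom A B) (f' : SMod.Hom A' B')
    (PA : SMod.Prism A A') (PB : SMod.Prism B B')
    (h : ∀ p θ x, f'.app p (PA.h p θ x) = PB.h p θ (f.app p x)) (n : ℕ) (a : A.obj n) :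
    f'.app (n + 1) (PA.k n a) = PB.k n (f.app n a) := by
  rw [SMod.Prism.k_apply, SMod.Prism.k_apply, map_sum]
  refine Finset.sum_congr rfl fun i _ => ?_
  rw [CosMod.sn_lin, h, f.nat]

theorem cone_prism {A B A' B' : SMod R} (f : SMod.Hom A B) (f' : SMod.Hom A' B')
    (PA : SMod.Prism A A') (PB : SMod.Prism B B')
    (h : ∀ p θ x, f'.app p (PA.h p θ x) = PB.h p θ (f.app p x)) (n : ℕ) (b : B.obj (n + 1))
    (a : A.obj n) (ha : A.cx.Cyc n a) (hba : B.d n b + f.app n a = 0) :
    B'.d (n + 1) (PB.k (n + 1) b) + f'.app (n + 1) (-(PA.k n a)) =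
        PB.h (n + 1) (c1 (n + 1)) b - PB.h (n + 1) (c0 (n + 1)) b ∧
      -(A'.d n (-(PA.k n a))) = PA.h n (c1 n) a - PA.h n (c0 n) a := by
  constructor
  · have e := PB.d_k_add_k_d n b
    rw [eq_neg_of_add_eq_zero_left hba, map_neg] at e
    rw [map_neg, Prism_k_nat f f' PA PB h]
    exact e
  · rw [map_neg, neg_neg]
    cases n with
    | zero => exact PA.d_k_zero a
    | succ n =>
      have e := PA.d_k_add_k_d n a
      have ha' : A.d n a = 0 := ha
      rw [ha', map_zero, add_zero] at e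
      exact e

/-! ### arrows -/

/-- maps of simplicial sets -/
structure Arr where
  /-- the source -/
  A : SS
  /-- the target -/
  B : SS
  /-- the map -/
  f : SS.Map A B

namespace Arr

/-- commutative squares -/
@[ext] structure Hom (P Q : Arr) where
  /-- the map of sources -/
  u : SS.Map P.A Q.A
  /-- the map of targets -/
  v : SS.Map P.B Q.B
  comm : ∀ {p : ℕ} (x : P.A.obj p), Q.f.app (u.app x) = v.app (P.f.app x)

variable {P Q W : Arr}

/-- the identity -/
def Hom.id (P : Arr) : Hom P P := ⟨SS.Map.id _, SS.Map.id _, fun _ => rfl⟩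

/-- the composite `g ∘ f` -/
def Hom.comp (g : Hom Q W) (f : Hom P Q) : Hom P W :=
  ⟨g.u.comp f.u, g.v.comp f.v, fun x => by
    rw [SS.Map.comp_app, SS.Map.comp_app, g.comm, f.comm]⟩

theorem Hom.ext' {g h : Hom P Q} (hu : ∀ (p : ℕ) (x : P.A.obj p), g.u.app x = h.u.app x)
    (hv : ∀ (p : ℕ) (x : P.B.obj p), g.v.app x = h.v.app x) : g = h :=
  Hom.ext (SS.Map.ext hu) (SS.Map.ext hv)

/-- the relative chains -/
noncomputable abbrev C (R : Type) [CommRing R] (P : Arr) : Cx R := cone (freeMap R P.f).cx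

/-- the map of relative chains -/
noncomputable def Hom.ch (R : Type) [CommRing R] (h : Hom P Q) : Cx.Hom (P.C R) (Q.C R) :=
  coneMap _ _ (freeMap R h.u).cx (freeMap R h.v).cx fun n x => by
    have key : ∀ x : (free R P.A).obj n, (freeMap R h.v).app n ((freeMap R P.f).app n x) =
        (freeMap R Q.f).app n ((freeMap R h.u).app n x) := by
      intro x
      rw [← freeMap_comp_app, ← freeMap_comp_app]
      exact freeMap_congrA (fun y => (h.comm y).symm) x
    exact key x

theorem ch_zero (h : Hom P Q) (b : (free R P.B).obj 0) :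
    (h.ch R).app 0 b = ((freeMap R h.v).app 0 b : (free R Q.B).obj 0) := rfl

theorem ch_succ (h : Hom P Q) (n : ℕ) (b : (free R P.B).obj (n + 1)) (a : (free R P.A).obj n) :
    (h.ch R).app (n + 1) (b, a) = (((freeMap R h.v).app (n + 1) b, (freeMap R h.u).app n a) :
      (free R Q.B).obj (n + 1) × (free R Q.A).obj n) := rfl

theorem ch_comp (g : Hom Q W) (f : Hom P Q) (n : ℕ) (z : (P.C R).C n) :
    ((g.comp f).ch R).app n z = (g.ch R).app n ((f.ch R).app n z) := by
  cases n with
  | zero => exact freeMap_comp_app g.v f.v z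
  | succ n =>
    obtain ⟨b, a⟩ := z
    exact Prod.ext (freeMap_comp_app g.v f.v b) (freeMap_comp_app g.u f.u a)

theorem ch_id (n : ℕ) (z : (P.C R).C n) : ((Hom.id P).ch R).app n z = z := by
  cases n with
  | zero => exact freeMap_id_app z
  | succ n =>
    obtain ⟨b, a⟩ := z
    exact Prod.ext (freeMap_id_app b) (freeMap_id_app a)

/-! ### similar maps -/

/-- the two maps agree on relative cycles up to boundaries -/
def Sim (R : Type) [CommRing R] (g h : Hom P Q) : Prop :=
  ∀ (n : ℕ) (z : (P.C R).C n), (P.C R).Cyc n z →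
    ∃ w, (Q.C R).d n w = (g.ch R).app n z - (h.ch R).app n z

theorem Sim.refl (g : Hom P Q) : Sim R g g := fun _ _ _ => ⟨0, by rw [map_zero, sub_self]⟩

theorem Sim.symm {g h : Hom P Q} (H : Sim R g h) : Sim R h g := by
  intro n z hz
  obtain ⟨w, hw⟩ := H n z hz
  exact ⟨-w, by rw [map_neg, hw, neg_sub]⟩

theorem Sim.trans {g h k : Hom P Q} (H : Sim R g h) (K : Sim R h k) : Sim R g k := by
  intro n z hz
  obtain ⟨w, hw⟩ := H n z hz
  obtain ⟨v, hv⟩ := K n z hz
  exact ⟨w + v, by rw [map_add, hw, hv]; abel⟩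

theorem Sim.precomp {g h : Hom P Q} (H : Sim R g h) (k : Hom W P) :
    Sim R (g.comp k) (h.comp k) := by
  intro n z hz
  obtain ⟨w, hw⟩ := H n _ ((k.ch R).cyc hz)
  exact ⟨w, by rw [ch_comp, ch_comp, hw]⟩

theorem Sim.postcomp {g h : Hom P Q} (H : Sim R g h) (k : Hom Q W) :
    Sim R (k.comp g) (k.comp h) := by
  intro n z hz
  obtain ⟨w, hw⟩ := H n z hz
  exact ⟨(k.ch R).app (n + 1) w, by rw [ch_comp, ch_comp, ← Cx.Hom.comm, hw, map_sub]⟩

/-- homotopies of arrows -/
structure Htp (P Q : Arr) where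
  /-- the homotopy on the sources -/
  KA : SS.Htp P.A Q.A
  /-- the homotopy on the targets -/
  KB : SS.Htp P.B Q.B
  comm : ∀ (p : ℕ) (θ : Op p 1) (x : P.A.obj p), Q.f.app (KA.h p θ x) = KB.h p θ (P.f.app x)

namespace Htp

variable (K : Htp P Q)

/-- the end at `0` -/
def e0 : Hom P Q := ⟨K.KA.e0, K.KB.e0, fun {p} x => K.comm p (c0 p) x⟩

/-- the end at `1` -/
def e1 : Hom P Q := ⟨K.KA.e1, K.KB.e1, fun {p} x => K.comm p (c1 p) x⟩

theorem sim : Sim R K.e1 K.e0 := by
  have key : ∀ p θ (x : (free R P.A).obj p), (freeMap R Q.f).app p ((prismOf R K.KA).h p θ x) =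
      (prismOf R K.KB).h p θ ((freeMap R P.f).app p x) := by
    intro p θ x
    have h : ∀ x : P.A.obj p →₀ R,
        Finsupp.mapDomain Q.f.app (Finsupp.mapDomain (K.KA.h p θ) x) =
          Finsupp.mapDomain (K.KB.h p θ) (Finsupp.mapDomain P.f.app x) := by
      intro x
      rw [← Finsupp.mapDomain_comp, ← Finsupp.mapDomain_comp]
      congr 1
      funext z
      exact K.comm p θ z
    exact h x
  intro n z hz
  cases n with
  | zero =>
    have h1 : ∀ b : (free R P.B).obj 0, (free R Q.B).d 0 ((prismOf R K.KB).k 0 b) +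
        (freeMap R Q.f).app 0 0 = (freeMap R K.KB.e1).app 0 b - (freeMap R K.KB.e0).app 0 b := by
      intro b
      rw [map_zero, add_zero]
      exact (prismOf R K.KB).d_k_zero b
    exact ⟨(((prismOf R K.KB).k 0 z, 0) : (free R Q.B).obj 1 × (free R Q.A).obj 0), h1 z⟩
  | succ n =>
    obtain ⟨b, a⟩ := z
    obtain ⟨ha, hba⟩ := (cone_cyc_succ (freeMap R P.f).cx n b a).1 hz
    obtain ⟨h1, h2⟩ := cone_prism (freeMap R P.f) (freeMap R Q.f) (prismOf R K.KA)
      (prismOf R K.KB) key n b a ha hba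
    exact ⟨(((prismOf R K.KB).k (n + 1) b, -((prismOf R K.KA).k n a)) :
      (free R Q.B).obj (n + 2) × (free R Q.A).obj (n + 1)), Prod.ext h1 h2⟩

theorem sim' : Sim R K.e0 K.e1 := K.sim.symm

end Htp

/-! ### the five lemma -/

/-- a map of arrows which is a homology isomorphism on both ends reflects boundaries -/
theorem ch_inj (h : Hom P Q) (hu : ∀ m, RZ0 (freeMap R h.u).cx m)
    (hv : ∀ m, RZ0 (freeMap R h.v).cx m) (n : ℕ) (z : (P.C R).C n) (hz : (P.C R).Cyc n z)
    (w' : (Q.C R).C (n + 1)) (hw : (h.ch R).app n z = (Q.C R).d n w') :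
    ∃ w, (P.C R).d n w = z := by
  have hsq : ∀ n (x : (free R P.A).obj n), (freeMap R h.v).app n ((freeMap R P.f).app n x) =
      (freeMap R Q.f).app n ((freeMap R h.u).app n x) := by
    intro n x
    rw [← freeMap_comp_app, ← freeMap_comp_app]
    exact freeMap_congrA (fun y => (h.comm y).symm) x
  cases n with
  | zero =>
    have key : ∀ (z : (free R P.B).obj 0) (b' : (free R Q.B).obj 1) (a' : (free R Q.A).obj 0),
        (freeMap R h.v).app 0 z = (free R Q.B).d 0 b' + (freeMap R Q.f).app 0 a' →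
        ∃ (b : (free R P.B).obj 1) (a : (free R P.A).obj 0),
          (free R P.B).d 0 b + (freeMap R P.f).app 0 a = z := by
      intro z b' a' h1
      obtain ⟨x', a, rfl⟩ := (rz0s_zero _).1 (hu 0) a'
      obtain ⟨_, y, _, h2⟩ := (rz0s_succ _ 0).1 (hv 1)
        (-(b' + (freeMap R Q.f).app 1 x')) (z - (freeMap R P.f).app 0 a) trivial (by
          rw [map_neg, map_add, map_sub, h1, hsq, ← SMod.Hom.app_d, map_add]
          abel)
      exact ⟨-y, a, by rw [map_neg, h2, sub_add_cancel]⟩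
    obtain ⟨b', a'⟩ := w'
    obtain ⟨b, a, hb⟩ := key z b' a' hw
    exact ⟨(b, a), hb⟩
  | succ n =>
    obtain ⟨b, a⟩ := z
    obtain ⟨b', a'⟩ := w'
    obtain ⟨ha, hba⟩ := (cone_cyc_succ (freeMap R P.f).cx n b a).1 hz
    have key : ∀ (b : (free R P.B).obj (n + 1)) (a : (free R P.A).obj n)
        (b' : (free R Q.B).obj (n + 2)) (a' : (free R Q.A).obj (n + 1)),
        (free R P.A).cx.Cyc n a → (free R P.B).d n b + (freeMap R P.f).app n a = 0 →
        (freeMap R h.v).app (n + 1) b = (free R Q.B).d (n + 1) b' +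
          (freeMap R Q.f).app (n + 1) a' →
        (freeMap R h.u).app n a = -((free R Q.A).d n a') →
        ∃ (y : (free R P.B).obj (n + 2)) (x : (free R P.A).obj (n + 1)),
          (free R P.B).d (n + 1) y + (freeMap R P.f).app (n + 1) x = b ∧
            -((free R P.A).d n x) = a := by
      intro b a b' a' ha hba h1 h2
      obtain ⟨x', a'', h3, h4⟩ := (rz0s_succ _ n).1 (hu (n + 1)) a' a ha (by
        rw [h2, add_neg_cancel])
      have hc : (free R P.B).d n (b - (freeMap R P.f).app (n + 1) a'') = 0 := by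
        rw [map_sub, ← SMod.Hom.app_d, ← neg_eq_iff_eq_neg.2 h4.symm] 
        rw [map_neg, sub_neg_eq_add]
        exact hba
      obtain ⟨_, y, _, h5⟩ := (rz0s_succ _ (n + 1)).1 (hv (n + 2))
        (-(b' + (freeMap R Q.f).app (n + 2) x')) (b - (freeMap R P.f).app (n + 1) a'') hc (by
          rw [map_neg, map_add, map_sub, h1, hsq, ← SMod.Hom.app_d, ← h3, map_add]
          abel)
      exact ⟨-y, a'', by rw [map_neg, h5, sub_add_cancel], h4⟩
    obtain ⟨y, x, h1, h2⟩ := key b a b' a' ha hba (congrArg Prod.fst hw) (congrArg Prod.snd hw)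
    exact ⟨(y, x), Prod.ext h1 h2⟩

/-! ### products with a simplicial set -/

/-- the product of an arrow with a simplicial set -/
def prod (P : Arr) (Y : SS) : Arr := ⟨P.A.prod Y, P.B.prod Y, prodMap P.f (SS.Map.id Y)⟩

/-- the map to the product at a vertex -/
def atY (P : Arr) {Y : SS} (y : Y.obj 0) : Hom P (P.prod Y) where
  u := ⟨fun {p} x => (x, dg Y p y), fun f _ => Prod.ext rfl (map_dg Y f y).symm⟩
  v := ⟨fun {p} x => (x, dg Y p y), fun f _ => Prod.ext rfl (map_dg Y f y).symm⟩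
  comm _ := rfl

/-- the homotopy along an edge -/
def edgeH (P : Arr) {Y : SS} (e : Y.obj 1) : Htp P (P.prod Y) where
  KA := ⟨fun _ θ x => (x, Y.map θ e), fun α θ _ => Prod.ext rfl (Y.map_comp θ α e)⟩
  KB := ⟨fun _ θ x => (x, Y.map θ e), fun α θ _ => Prod.ext rfl (Y.map_comp θ α e)⟩
  comm _ _ _ := rfl

theorem map_c1 (Y : SS) (p : ℕ) (e : Y.obj 1) :
    Y.map (c1 p) e = dg Y p (Y.map (dl 0 0) e) := by
  rw [dg, ← Y.map_comp, (show (dl 0 0).comp (cst p 0) = c1 p from eq_c1 fun _ => rfl)]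

theorem map_c0 (Y : SS) (p : ℕ) (e : Y.obj 1) :
    Y.map (c0 p) e = dg Y p (Y.map (dl 0 1) e) := by
  rw [dg, ← Y.map_comp, (show (dl 0 1).comp (cst p 0) = c0 p from eq_c0 fun _ => rfl)]

/-- vertices joined by an edge give the same map on relative homology -/
theorem sim_atY (P : Arr) {Y : SS} (y y' : Y.obj 0) (e : Y.obj 1) (h : Y.map (dl 0 0) e = y)
    (h' : Y.map (dl 0 1) e = y') : Sim R (P.atY y) (P.atY y') := by
  have h1 : (P.edgeH e).e1 = P.atY y := by
    subst h
    exact Hom.ext' (fun p x => Prod.ext rfl (map_c1 Y p e))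
      (fun p x => Prod.ext rfl (map_c1 Y p e))
  have h0 : (P.edgeH e).e0 = P.atY y' := by
    subst h'
    exact Hom.ext' (fun p x => Prod.ext rfl (map_c0 Y p e))
      (fun p x => Prod.ext rfl (map_c0 Y p e))
  rw [← h1, ← h0]
  exact (P.edgeH e).sim

/-! ### telescopes -/

/-- iterates -/
def it (a : Hom P P) (n : ℕ) : Hom P P :=
  ⟨iterMap a.u n, iterMap a.v n, iterMap_comm a.u a.v P.f a.comm n⟩

theorem it_zero (a : Hom P P) : it a 0 = Hom.id P := rfl

theorem it_add (a : Hom P P) (m n : ℕ) : it a (m + n) = (it a m).comp (it a n) :=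
  Hom.ext' (fun _ x => iterMap_add a.u m n x) (fun _ x => iterMap_add a.v m n x)

theorem it_one (a : Hom P P) : it a 1 = a := rfl

theorem it_succ (a : Hom P P) (n : ℕ) : it a (n + 1) = (it a n).comp a :=
  Hom.ext' (fun _ _ => rfl) (fun _ _ => rfl)

theorem it_succ' (a : Hom P P) (n : ℕ) : it a (n + 1) = a.comp (it a n) := by
  rw [Nat.add_comm, it_add, it_one]

/-- the telescope of an endomorphism of an arrow -/
def tl (a : Hom P P) : Arr := ⟨tel a.u, tel a.v, telMap a.u a.v P.f a.comm⟩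

/-- the legs -/
def tlin (a : Hom P P) (i : ℕ) : Hom P (tl a) := ⟨tin a.u i, tin a.v i, fun _ => rfl⟩

theorem tlin_it (a : Hom P P) (i n : ℕ) : (tlin a (i + n)).comp (it a n) = tlin a i :=
  Hom.ext' (fun _ x => tin_iter a.u i n x) (fun _ x => tin_iter a.v i n x)

/-- functoriality of the telescope -/
def tlMap (a : Hom P P) (b : Hom Q Q) (h : Hom P Q) (hc : h.comp a = b.comp h) :
    Hom (tl a) (tl b) where
  u := telMap a.u b.u h.u fun {p} x =>
    congrArg (fun k : Hom P Q => (k.u.app x : Q.A.obj p)) hc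
  v := telMap a.v b.v h.v fun {p} x =>
    congrArg (fun k : Hom P Q => (k.v.app x : Q.B.obj p)) hc
  comm {p} z := by
    obtain ⟨i, x, rfl⟩ := exists_tin a.u z
    exact congrArg (tin b.v i).app (h.comm x)

theorem tlMap_tlin (a : Hom P P) (b : Hom Q Q) (h : Hom P Q) (hc : h.comp a = b.comp h) (i : ℕ) :
    (tlMap a b h hc).comp (tlin a i) = (tlin b i).comp h := rfl

/-- every relative cycle of the telescope comes from a relative cycle of a stage -/
theorem exists_tlin (a : Hom P P) (n : ℕ) (z : ((tl a).C R).C n) (hz : ((tl a).C R).Cyc n z) :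
    ∃ (i : ℕ) (z₀ : (P.C R).C n), (P.C R).Cyc n z₀ ∧ ((tlin a i).ch R).app n z₀ = z := by
  cases n with
  | zero =>
    obtain ⟨i, c, hc⟩ := exists_chain a.v z
    exact ⟨i, c, trivial, hc⟩
  | succ n =>
    obtain ⟨u, v⟩ := z
    obtain ⟨hv, huv⟩ := (cone_cyc_succ (freeMap R (tl a).f).cx n u v).1 hz
    obtain ⟨i, u₀, v₀, h1, h2, h3, h4⟩ := exists_relCyc a.u a.v P.f a.comm u v hv huv
    exact ⟨i, (u₀, v₀), (cone_cyc_succ (freeMap R P.f).cx n u₀ v₀).2 ⟨h1, h2⟩, Prod.ext h3 h4⟩

end Arr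

end Vale.Agent.P263.GB
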