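import Vale.Agent.P263.GB.Cur

/-!
# P263, block GB: the lowest relative homology of a product of maps of simplicial sets

* `csq f f' u v h` : the map of cones of a commutative square of simplicial sets;
* `axL X y : X → X × Y`, `axR x Y : Y → X × Y` : the axes;
* `low_pm_id` : `H_i(cone f) = 0` for `i < r` ⟹ every `r`-cycle of `cone (f × id_Y)` is
  homologous to a finite sum of `r`-cycles of `cone f` on the axes at vertices of `Y`;
* `low_pm_id_conn` (`Y` connected), `low_id_pm`, `low_id_pm_conn` (the other factor);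
* `low_pm` : `f : X → X'`, `g : Y → Y'`, `X'` and `Y` connected, `H_i = 0` for `i < r` for both ⟹
  every `r`-cycle of `cone (f × g)` is homologous to a sum of two `r`-cycles on the axes.
-/

namespace Vale.Agent.P263.GB

open Vale.Agent.P263.S Vale.Agent.P263.E

variable {R : Type} [CommRing R]

/-! ### squares of simplicial sets -/

section csq

variable {A B A' B' A'' B'' : SS}

theorem freeMap_sq (f : SS.Map A B) (f' : SS.Map A' B') (u : SS.Map A A') (v : SS.Map B B')
    (h : ∀ p (x : A.obj p), v.app (f.app x) = f'.app (u.app x)) (p : ℕ) (x : (free R A).obj p) :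
    (freeMap R v).app p ((freeMap R f).app p x) = (freeMap R f').app p ((freeMap R u).app p x) :=
  (Gam.freeMap_comp_of f v (f'.comp u) (fun x => (h p x).symm) x).symm.trans
    (Gam.freeMap_comp_of u f' (f'.comp u) (fun _ => rfl) x)

/-- the map of cones of a commutative square of simplicial sets -/
noncomputable def csq (R : Type) [CommRing R] (f : SS.Map A B) (f' : SS.Map A' B')
    (u : SS.Map A A') (v : SS.Map B B') (h : ∀ p (x : A.obj p), v.app (f.app x) =
      f'.app (u.app x)) : Cx.Hom (cone (freeMap R f).cx) (cone (freeMap R f').cx) :=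
  coneMap (freeMap R f).cx (freeMap R f').cx (freeMap R u).cx (freeMap R v).cx
    (freeMap_sq f f' u v h)

theorem csq_comp (f : SS.Map A B) (f' : SS.Map A' B') (f'' : SS.Map A'' B'')
    (u : SS.Map A A') (v : SS.Map B B') (h : ∀ p (x : A.obj p), v.app (f.app x) =
      f'.app (u.app x)) (u' : SS.Map A' A'') (v' : SS.Map B' B'')
    (h' : ∀ p (x : A'.obj p), v'.app (f'.app x) = f''.app (u'.app x))
    (k : ∀ p (x : A.obj p), (v'.comp v).app (f.app x) = f''.app ((u'.comp u).app x))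
    (n : ℕ) (z : (cone (freeMap R f).cx).C n) :
    (csq R f' f'' u' v' h').app n ((csq R f f' u v h).app n z) =
      (csq R f f'' (u'.comp u) (v'.comp v) k).app n z := by
  cases n with
  | zero => exact (freeMap_comp_app v' v z).symm
  | succ n =>
    obtain ⟨b, a⟩ := z
    exact Prod.ext (freeMap_comp_app v' v b).symm (freeMap_comp_app u' u a).symm

theorem csq_congr (f : SS.Map A B) (f' : SS.Map A' B') {u u' : SS.Map A A'} {v v' : SS.Map B B'}
    (hu : u = u') (hv : v = v') (h : ∀ p (x : A.obj p), v.app (f.app x) = f'.app (u.app x))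
    (h' : ∀ p (x : A.obj p), v'.app (f.app x) = f'.app (u'.app x)) (n : ℕ)
    (z : (cone (freeMap R f).cx).C n) :
    (csq R f f' u v h).app n z = (csq R f f' u' v' h').app n z := by
  subst hu hv
  rfl

theorem csq_id (f : SS.Map A B) (h : ∀ p (x : A.obj p), (SS.Map.id B).app (f.app x) =
      f.app ((SS.Map.id A).app x)) (n : ℕ) (z : (cone (freeMap R f).cx).C n) :
    (csq R f f (SS.Map.id A) (SS.Map.id B) h).app n z = z := by
  cases n with
  | zero => exact freeMap_id_app _
  | succ n =>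
    obtain ⟨b, a⟩ := z
    exact Prod.ext (freeMap_id_app _) (freeMap_id_app _)

end csq

/-! ### the axes -/

/-- the axis `X → X × Y` at a vertex of `Y` -/
def axL (X : SS) {Y : SS} (y : Y.obj 0) : SS.Map X (X.prod Y) where
  app {p} x := mkP x (dg Y p y)
  nat α x := by
    change mkP (X.map α x) (dg Y _ y) = (X.map α x, Y.map α (dg Y _ y))
    rw [map_dg]
    rfl

/-- the axis `Y → X × Y` at a vertex of `X` -/
def axR {X : SS} (x : X.obj 0) (Y : SS) : SS.Map Y (X.prod Y) where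
  app {p} y := mkP (dg X p x) y
  nat α y := by
    change mkP (dg X _ x) (Y.map α y) = (X.map α (dg X _ x), Y.map α y)
    rw [map_dg]
    rfl

@[simp] theorem axL_app (X : SS) {Y : SS} (y : Y.obj 0) {p : ℕ} (x : X.obj p) :
    (axL X y).app x = (x, dg Y p y) := rfl

@[simp] theorem axR_app {X : SS} (x : X.obj 0) (Y : SS) {p : ℕ} (y : Y.obj p) :
    (axR x Y).app y = (dg X p x, y) := rfl

theorem app_dg {X X' : SS} (f : SS.Map X X') (p : ℕ) (x : X.obj 0) :
    f.app (dg X p x) = dg X' p (f.app x) := f.nat _ _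

/-- the cone of `f` in the cone of `f × g`, at a vertex of `Y` -/
noncomputable def coneL (R : Type) [CommRing R] {X X' Y Y' : SS} (f : SS.Map X X')
    (g : SS.Map Y Y') (y : Y.obj 0) :
    Cx.Hom (cone (freeMap R f).cx) (cone (freeMap R (pm f g)).cx) :=
  csq R f (pm f g) (axL X y) (axL X' (g.app y)) fun p _ =>
    Prod.ext rfl (app_dg g p y).symm

/-- the cone of `g` in the cone of `f × g`, at a vertex of `X` -/
noncomputable def coneRt (R : Type) [CommRing R] {X X' Y Y' : SS} (f : SS.Map X X')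
    (g : SS.Map Y Y') (x : X.obj 0) :
    Cx.Hom (cone (freeMap R g).cx) (cone (freeMap R (pm f g)).cx) :=
  csq R g (pm f g) (axR x Y) (axR (f.app x) Y') fun p _ =>
    Prod.ext (app_dg f p x).symm rfl

/-! ### `f × id` -/

/-- currying of cones -/
noncomputable def curC (R : Type) [CommRing R] {X X' : SS} (f : SS.Map X X') (Y : SS) :
    Cx.Hom (cone (freeMap R (pm f (SS.Map.id Y))).cx) (cone (boxL (freeMap R f) Y).cx) :=
  coneMap (freeMap R (pm f (SS.Map.id Y))).cx (boxL (freeMap R f) Y).cx (cur R X Y).cx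
    (cur R X' Y).cx fun _ z => cur_pm_id f Y z

theorem unc_nat {X X' : SS} (f : SS.Map X X') (Y : SS) {p : ℕ} (z : (box (free R X) Y).obj p) :
    (unc R X' Y).app p ((boxL (freeMap R f) Y).app p z) =
      (freeMap R (pm f (SS.Map.id Y))).app p ((unc R X Y).app p z) := by
  obtain ⟨z, rfl⟩ := (cur_bijective X Y p).2 z
  rw [← cur_pm_id, unc_cur, unc_cur]

/-- uncurrying of cones -/
noncomputable def uncC (R : Type) [CommRing R] {X X' : SS} (f : SS.Map X X') (Y : SS) :
    Cx.Hom (cone (boxL (freeMap R f) Y).cx) (cone (freeMap R (pm f (SS.Map.id Y))).cx) :=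
  coneMap (boxL (freeMap R f) Y).cx (freeMap R (pm f (SS.Map.id Y))).cx (unc R X Y).cx
    (unc R X' Y).cx fun _ z => unc_nat f Y z

theorem uncC_curC {X X' : SS} (f : SS.Map X X') (Y : SS) (n : ℕ)
    (z : (cone (freeMap R (pm f (SS.Map.id Y))).cx).C n) :
    (uncC R f Y).app n ((curC R f Y).app n z) = z := by
  cases n with
  | zero => exact unc_cur _ _ _
  | succ n =>
    obtain ⟨b, a⟩ := z
    exact Prod.ext (unc_cur _ _ _) (unc_cur _ _ _)

theorem unc_at0 (X : SS) {Y : SS} (y : Y.obj 0) {p : ℕ} (v : (free R X).obj p) :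
    (unc R X Y).app p ((at0 (free R X) y).app p v) = (freeMap R (axL X y)).app p v := by
  rw [at0_app, unc_bx]
  rfl

theorem uncC_coneAt {X X' : SS} (f : SS.Map X X') {Y : SS} (y : Y.obj 0) (n : ℕ)
    (c : (cone (freeMap R f).cx).C n) :
    (uncC R f Y).app n ((coneAt (freeMap R f) y).app n c) =
      (coneL R f (SS.Map.id Y) y).app n c := by
  cases n with
  | zero => exact unc_at0 X' y c
  | succ n =>
    obtain ⟨b, a⟩ := c
    exact Prod.ext (unc_at0 X' y b) (unc_at0 X y a)

/-- **(K2) for `f × id_Y`, any `Y`** -/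
theorem low_pm_id {X X' : SS} (f : SS.Map X X') (Y : SS) (r : ℕ)
    (h : ∀ i < r, RZ0 (freeMap R f).cx i)
    (z : (cone (freeMap R (pm f (SS.Map.id Y))).cx).C r)
    (hz : (cone (freeMap R (pm f (SS.Map.id Y))).cx).Cyc r z) :
    ∃ (w : (cone (freeMap R (pm f (SS.Map.id Y))).cx).C (r + 1)) (F : Finset (Y.obj 0))
      (c : Y.obj 0 → (cone (freeMap R f).cx).C r), (∀ y, (cone (freeMap R f).cx).Cyc r (c y)) ∧
      (cone (freeMap R (pm f (SS.Map.id Y))).cx).d r w +
        ∑ y ∈ F, (coneL R f (SS.Map.id Y) y).app r (c y) = z := by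
  obtain ⟨w, F, c, hc, H⟩ := low_cone (freeMap R f) Y r h _ ((curC R f Y).cyc hz)
  refine ⟨(uncC R f Y).app (r + 1) w, F, c, hc, ?_⟩
  have H' := congrArg ((uncC R f Y).app r) H
  rw [uncC_curC, map_add, map_sum, (uncC R f Y).comm] at H'
  rw [← H']
  congr 1
  exact Finset.sum_congr rfl fun y _ => (uncC_coneAt f y r (c y)).symm

/-- **(K2) for `f × id_Y`, `Y` connected** -/
theorem low_pm_id_conn {X X' : SS} (f : SS.Map X X') (Y : SS) (y₀ : Y.obj 0)
    (hY : Conn0 R Y y₀) (r : ℕ) (h : ∀ i < r, RZ0 (freeMap R f).cx i)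
    (z : (cone (freeMap R (pm f (SS.Map.id Y))).cx).C r)
    (hz : (cone (freeMap R (pm f (SS.Map.id Y))).cx).Cyc r z) :
    ∃ (w : (cone (freeMap R (pm f (SS.Map.id Y))).cx).C (r + 1))
      (c : (cone (freeMap R f).cx).C r), (cone (freeMap R f).cx).Cyc r c ∧
      (cone (freeMap R (pm f (SS.Map.id Y))).cx).d r w +
        (coneL R f (SS.Map.id Y) y₀).app r c = z := by
  obtain ⟨w, c, hc, H⟩ := low_cone_conn (freeMap R f) Y y₀ hY r h _ ((curC R f Y).cyc hz)
  refine ⟨(uncC R f Y).app (r + 1) w, c, hc, ?_⟩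
  have H' := congrArg ((uncC R f Y).app r) H
  rw [uncC_curC, map_add, (uncC R f Y).comm, uncC_coneAt] at H'
  exact H'

/-! ### `id × g` -/

/-- the swap of cones -/
noncomputable def swpC (R : Type) [CommRing R] {X X' Y Y' : SS} (f : SS.Map X X')
    (g : SS.Map Y Y') :
    Cx.Hom (cone (freeMap R (pm f g)).cx) (cone (freeMap R (pm g f)).cx) :=
  csq R (pm f g) (pm g f) (swp X Y) (swp X' Y') fun _ _ => rfl

theorem swpC_swpC {X X' Y Y' : SS} (f : SS.Map X X') (g : SS.Map Y Y') (n : ℕ)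
    (z : (cone (freeMap R (pm f g)).cx).C n) :
    (swpC R g f).app n ((swpC R f g).app n z) = z := by
  exact (csq_comp (pm f g) (pm g f) (pm f g) (swp X Y) (swp X' Y') (fun _ _ => rfl) (swp Y X)
    (swp Y' X') (fun _ _ => rfl) (fun _ _ => rfl) n z).trans
    (csq_id (pm f g) (fun _ _ => rfl) n z)

theorem swpC_coneL {X X' Y Y' : SS} (f : SS.Map X X') (g : SS.Map Y Y') (y : Y.obj 0) (n : ℕ)
    (c : (cone (freeMap R f).cx).C n) :
    (swpC R f g).app n ((coneL R f g y).app n c) = (coneRt R g f y).app n c := by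
  exact csq_comp f (pm f g) (pm g f) (axL X y) (axL X' (g.app y))
    (fun p _ => Prod.ext rfl (app_dg g p y).symm) (swp X Y) (swp X' Y') (fun _ _ => rfl)
    (fun p _ => Prod.ext (app_dg g p y).symm rfl) n c

/-- **(K2) for `id_X × g`, any `X`** -/
theorem low_id_pm (X : SS) {Y Y' : SS} (g : SS.Map Y Y') (r : ℕ)
    (h : ∀ i < r, RZ0 (freeMap R g).cx i)
    (z : (cone (freeMap R (pm (SS.Map.id X) g)).cx).C r)
    (hz : (cone (freeMap R (pm (SS.Map.id X) g)).cx).Cyc r z) :
    ∃ (w : (cone (freeMap R (pm (SS.Map.id X) g)).cx).C (r + 1)) (F : Finset (X.obj 0))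
      (c : X.obj 0 → (cone (freeMap R g).cx).C r), (∀ x, (cone (freeMap R g).cx).Cyc r (c x)) ∧
      (cone (freeMap R (pm (SS.Map.id X) g)).cx).d r w +
        ∑ x ∈ F, (coneRt R (SS.Map.id X) g x).app r (c x) = z := by
  obtain ⟨w, F, c, hc, H⟩ := low_pm_id g X r h _ ((swpC R (SS.Map.id X) g).cyc hz)
  refine ⟨(swpC R g (SS.Map.id X)).app (r + 1) w, F, c, hc, ?_⟩
  have H' := congrArg ((swpC R g (SS.Map.id X)).app r) H
  rw [swpC_swpC, map_add, map_sum, (swpC R g (SS.Map.id X)).comm] at H'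
  rw [← H']
  congr 1
  exact Finset.sum_congr rfl fun x _ => (swpC_coneL g (SS.Map.id X) x r (c x)).symm

/-- **(K2) for `id_X × g`, `X` connected** -/
theorem low_id_pm_conn (X : SS) (x₀ : X.obj 0) (hX : Conn0 R X x₀) {Y Y' : SS}
    (g : SS.Map Y Y') (r : ℕ) (h : ∀ i < r, RZ0 (freeMap R g).cx i)
    (z : (cone (freeMap R (pm (SS.Map.id X) g)).cx).C r)
    (hz : (cone (freeMap R (pm (SS.Map.id X) g)).cx).Cyc r z) :
    ∃ (w : (cone (freeMap R (pm (SS.Map.id X) g)).cx).C (r + 1))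
      (c : (cone (freeMap R g).cx).C r), (cone (freeMap R g).cx).Cyc r c ∧
      (cone (freeMap R (pm (SS.Map.id X) g)).cx).d r w +
        (coneRt R (SS.Map.id X) g x₀).app r c = z := by
  obtain ⟨w, c, hc, H⟩ := low_pm_id_conn g X x₀ hX r h _ ((swpC R (SS.Map.id X) g).cyc hz)
  refine ⟨(swpC R g (SS.Map.id X)).app (r + 1) w, c, hc, ?_⟩
  have H' := congrArg ((swpC R g (SS.Map.id X)).app r) H
  rw [swpC_swpC, map_add, (swpC R g (SS.Map.id X)).comm, swpC_coneL] at H'
  exact H'

/-! ### `f × g` -/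

/-- exactness for a composite `X × Y → X' × Y → X' × Y'`, in the language of squares -/
theorem pm_exact {X X' Y Y' : SS} (f : SS.Map X X') (g : SS.Map Y Y') (n : ℕ)
    (z : (cone (freeMap R (pm f g)).cx).C n) (hz : (cone (freeMap R (pm f g)).cx).Cyc n z)
    (y : (cone (freeMap R (pm (SS.Map.id X') g)).cx).C (n + 1))
    (hy : (cone (freeMap R (pm (SS.Map.id X') g)).cx).d n y =
      (csq R (pm f g) (pm (SS.Map.id X') g) (pm f (SS.Map.id Y))
        (SS.Map.id _) (fun _ _ => rfl)).app n z) :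
    ∃ (w : (cone (freeMap R (pm f g)).cx).C (n + 1))
      (x : (cone (freeMap R (pm f (SS.Map.id Y))).cx).C n),
      (cone (freeMap R (pm f (SS.Map.id Y))).cx).Cyc n x ∧
      (cone (freeMap R (pm f g)).cx).d n w +
        (csq R (pm f (SS.Map.id Y)) (pm f g) (SS.Map.id _) (pm (SS.Map.id X') g)
          (fun _ _ => rfl)).app n x = z := by
  have e : (freeMap R (pm (SS.Map.id X') g)).cx.comp (freeMap R (pm f (SS.Map.id Y))).cx =
      (freeMap R (pm f g)).cx := (freeMap_comp_cx (pm (SS.Map.id X') g) (pm f (SS.Map.id Y))).symm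
  have key : ∀ (k : Cx.Hom (free R (X.prod Y)).cx (free R (X'.prod Y')).cx)
      (hk : (freeMap R (pm (SS.Map.id X') g)).cx.comp (freeMap R (pm f (SS.Map.id Y))).cx = k)
      (z : (cone k).C n) (_ : (cone k).Cyc n z)
      (h1 : ∀ n x, (Cx.Hom.id _).app n (k.app n x) =
        (freeMap R (pm (SS.Map.id X') g)).cx.app n
          ((freeMap R (pm f (SS.Map.id Y))).cx.app n x))
      (h2 : ∀ n x, (freeMap R (pm (SS.Map.id X') g)).cx.app n
        ((freeMap R (pm f (SS.Map.id Y))).cx.app n x) = k.app n ((Cx.Hom.id _).app n x))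
      (_ : (cone (freeMap R (pm (SS.Map.id X') g)).cx).d n y =
        (coneMap k (freeMap R (pm (SS.Map.id X') g)).cx (freeMap R (pm f (SS.Map.id Y))).cx
          (Cx.Hom.id _) h1).app n z),
      ∃ (w : (cone k).C (n + 1)) (x : (cone (freeMap R (pm f (SS.Map.id Y))).cx).C n),
        (cone (freeMap R (pm f (SS.Map.id Y))).cx).Cyc n x ∧
        (cone k).d n w + (coneMap (freeMap R (pm f (SS.Map.id Y))).cx k (Cx.Hom.id _)
          (freeMap R (pm (SS.Map.id X') g)).cx h2).app n x = z := by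
    rintro k rfl z hz h1 h2 hy
    exact comp_exact _ _ n z hz y hy
  obtain ⟨w, x, hx, H⟩ := key _ e z hz
    (fun n x => (freeMap_comp_app (pm (SS.Map.id X') g) (pm f (SS.Map.id Y)) x))
    (fun n x => (freeMap_comp_app (pm (SS.Map.id X') g) (pm f (SS.Map.id Y)) x).symm) (by
      rw [hy]
      cases n with
      | zero => exact freeMap_id_app _
      | succ n =>
        obtain ⟨b, a⟩ := z
        exact Prod.ext (freeMap_id_app _) rfl)
  refine ⟨w, x, hx, ?_⟩
  rw [← H]
  congr 1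
  cases n with
  | zero => rfl
  | succ n =>
    obtain ⟨b, a⟩ := x
    exact Prod.ext rfl (freeMap_id_app _)

/-- **(K3), generators**: `X'` and `Y` connected -/
theorem low_pm {X X' Y Y' : SS} (f : SS.Map X X') (g : SS.Map Y Y') (x₀ : X.obj 0)
    (y₀ : Y.obj 0) (hX : Conn0 R X' (f.app x₀)) (hY : Conn0 R Y y₀) (r : ℕ)
    (hf : ∀ i < r, RZ0 (freeMap R f).cx i) (hg : ∀ i < r, RZ0 (freeMap R g).cx i)
    (z : (cone (freeMap R (pm f g)).cx).C r) (hz : (cone (freeMap R (pm f g)).cx).Cyc r z) :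
    ∃ (w : (cone (freeMap R (pm f g)).cx).C (r + 1)) (c : (cone (freeMap R f).cx).C r)
      (c' : (cone (freeMap R g).cx).C r), (cone (freeMap R f).cx).Cyc r c ∧
      (cone (freeMap R g).cx).Cyc r c' ∧
      (cone (freeMap R (pm f g)).cx).d r w + (coneL R f g y₀).app r c +
        (coneRt R f g x₀).app r c' = z := by
  obtain ⟨w1, c', hc', H1⟩ := low_id_pm_conn X' (f.app x₀) hX g r hg
    ((csq R (pm f g) (pm (SS.Map.id X') g) (pm f (SS.Map.id Y)) (SS.Map.id _)
      (fun _ _ => rfl)).app r z) (Cx.Hom.cyc _ hz)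
  have e1 : (csq R (pm f g) (pm (SS.Map.id X') g) (pm f (SS.Map.id Y)) (SS.Map.id _)
      (fun _ _ => rfl)).app r ((coneRt R f g x₀).app r c') =
      (coneRt R (SS.Map.id X') g (f.app x₀)).app r c' := by
    have hu : (pm f (SS.Map.id Y)).comp (axR x₀ Y) = axR (f.app x₀) Y :=
      SS.Map.ext fun p y => Prod.ext (app_dg f p x₀) rfl
    exact (csq_comp g (pm f g) (pm (SS.Map.id X') g) (axR x₀ Y) (axR (f.app x₀) Y')
      (fun p _ => Prod.ext (app_dg f p x₀).symm rfl) (pm f (SS.Map.id Y)) (SS.Map.id _)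
      (fun _ _ => rfl) (fun p _ => Prod.ext (app_dg f p x₀).symm rfl) r c').trans
      (csq_congr g (pm (SS.Map.id X') g) hu rfl _ _ r c')
  obtain ⟨w2, x, hx, H2⟩ := pm_exact f g r (z - (coneRt R f g x₀).app r c')
    (Cx.cyc_sub _ hz (Cx.Hom.cyc _ hc')) w1 (by rw [map_sub, e1, ← H1, add_sub_cancel_right])
  obtain ⟨w3, c, hc, H3⟩ := low_pm_id_conn f Y y₀ hY r hf x hx
  have e2 : (csq R (pm f (SS.Map.id Y)) (pm f g) (SS.Map.id _) (pm (SS.Map.id X') g)
      (fun _ _ => rfl)).app r ((coneL R f (SS.Map.id Y) y₀).app r c) =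
      (coneL R f g y₀).app r c := by
    have hv : (pm (SS.Map.id X') g).comp (axL X' y₀) = axL X' (g.app y₀) :=
      SS.Map.ext fun p y => Prod.ext rfl (app_dg g p y₀)
    exact (csq_comp f (pm f (SS.Map.id Y)) (pm f g) (axL X y₀) (axL X' y₀)
      (fun _ _ => rfl) (SS.Map.id _) (pm (SS.Map.id X') g)
      (fun _ _ => rfl) (fun _ _ => rfl) r c).trans
      (csq_congr f (pm f g) rfl hv _ _ r c)
  refine ⟨w2 + (csq R (pm f (SS.Map.id Y)) (pm f g) (SS.Map.id _) (pm (SS.Map.id X') g)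
      (fun _ _ => rfl)).app (r + 1) w3, c, c', hc, hc', ?_⟩
  have H4 := congrArg ((csq R (pm f (SS.Map.id Y)) (pm f g) (SS.Map.id _) (pm (SS.Map.id X') g)
      (fun _ _ => rfl)).app r) H3
  rw [map_add, e2, Cx.Hom.comm] at H4
  rw [map_add, add_assoc ((cone (freeMap R (pm f g)).cx).d r w2), H4, H2, sub_add_cancel]

end Vale.Agent.P263.GB
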