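import Vale.Agent.P263.GB.Arr
import Vale.Agent.P263.GB.LowSS

/-!
# P263, block GB: the lowest relative homology of `P × Y`, in the language of arrows

* `Arr.rz0_prod`, `Arr.span_prod`, `Arr.span_prod_conn` : `LowSS` for `P.prod Y`.
-/

namespace Vale.Agent.P263.GB

open Vale.Agent.P263.S Vale.Agent.P263.E

variable {R : Type} [CommRing R]

namespace Arr

/-- **(K1)** for arrows -/
theorem rz0_prod (P : Arr) (Y : SS) (r : ℕ) (h : ∀ t < r, RZ0 (freeMap R P.f).cx t) (t : ℕ)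
    (ht : t < r) : RZ0 (freeMap R (P.prod Y).f).cx t := rz0_pm_id P.f Y r h t ht

theorem coneL_eq (P : Arr) {Y : SS} (y : Y.obj 0) (r : ℕ) (c : (P.C R).C r) :
    (coneL R P.f (SS.Map.id Y) y).app r c = ((P.atY y).ch R).app r c := rfl

/-- **(K2)** for arrows: `r`-cycles of `P × Y` are sums of `r`-cycles of `P` at vertices of `Y` -/
theorem span_prod (P : Arr) (Y : SS) (r : ℕ) (h : ∀ t < r, RZ0 (freeMap R P.f).cx t)
    (z : ((P.prod Y).C R).C r) (hz : ((P.prod Y).C R).Cyc r z) :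
    ∃ (w : ((P.prod Y).C R).C (r + 1)) (S : Finset (Y.obj 0)) (c : Y.obj 0 → (P.C R).C r),
      (∀ y, (P.C R).Cyc r (c y)) ∧
      ((P.prod Y).C R).d r w + ∑ y ∈ S, ((P.atY y).ch R).app r (c y) = z :=
  low_pm_id P.f Y r h z hz

/-- the same with one vertex, `Y` connected -/
theorem span_prod_conn (P : Arr) (Y : SS) (y₀ : Y.obj 0) (hY : Conn0 R Y y₀) (r : ℕ)
    (h : ∀ t < r, RZ0 (freeMap R P.f).cx t) (z : ((P.prod Y).C R).C r)
    (hz : ((P.prod Y).C R).Cyc r z) :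
    ∃ (w : ((P.prod Y).C R).C (r + 1)) (c : (P.C R).C r), (P.C R).Cyc r c ∧
      ((P.prod Y).C R).d r w + ((P.atY y₀).ch R).app r c = z :=
  low_pm_id_conn P.f Y y₀ hY r h z hz

end Arr

end Vale.Agent.P263.GB
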