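import Vale.Agent.P263.GB.Base
import Vale.Agent.P263.E.Cofree

/-!
# P263, block G2: simplicial homotopies and relative homology

* `Cx.Hom.rz0_of_homology` : a chain map which is onto on homology classes and reflects
  boundaries of cycles has vanishing relative homology in all degrees.
* `prismOf` : the prism on free simplicial modules of a simplicial homotopy `E.SS.Htp`.
* `rz0_of_htp` : a simplicial homotopy equivalence of simplicial sets has vanishing relative
  homology in all degrees.
-/

namespace Vale.Agent.P263.GB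

open Vale.Agent.P263.S Vale.Agent.P263.E

variable {R : Type} [CommRing R]

/-- Two chain maps `f : A → B`, `g : B → A` such that `g f` and `f g` are homologous to the
identity on cycles: the relative homology of `f` vanishes. -/
theorem Cx.Hom.rz0_of_inverse {A B : Cx R} (f : Cx.Hom A B) (g : Cx.Hom B A)
    (hA : ∀ n (a : A.C n), A.Cyc n a → ∃ y, A.d n y = a - g.app n (f.app n a))
    (hB : ∀ n (b : B.C n), B.Cyc n b → ∃ y, B.d n y = b - f.app n (g.app n b)) (n : ℕ) :
    RZ0 f n := by
  cases n with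
  | zero =>
    rw [rz0_zero]
    intro b
    obtain ⟨y, hy⟩ := hB 0 b trivial
    exact ⟨y, g.app 0 b, by rw [hy]; abel⟩
  | succ n =>
    rw [rz0_succ]
    intro b a ha hba
    obtain ⟨y, hy⟩ := hA n a ha
    -- first correction
    have h1 : -(A.d n (g.app (n + 1) b - y)) = a := by
      rw [map_sub, hy, ← g.comm]
      have : B.d n b = - f.app n a := eq_neg_of_add_eq_zero_left hba
      rw [this, map_neg]
      abel
    have h2 : B.Cyc (n + 1) (b - f.app (n + 1) (g.app (n + 1) b - y)) := by
      rw [Cx.cyc_succ, map_sub, ← f.comm]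
      have h3 : A.d n (g.app (n + 1) b - y) = -a := by rw [← h1, neg_neg]
      rw [h3, map_neg, sub_neg_eq_add]
      exact hba
    obtain ⟨w, hw⟩ := hB (n + 1) _ h2
    have h4 : A.d n (g.app (n + 1) (b - f.app (n + 1) (g.app (n + 1) b - y))) = 0 := g.cyc h2
    refine ⟨w, (g.app (n + 1) b - y) +
      g.app (n + 1) (b - f.app (n + 1) (g.app (n + 1) b - y)), ?_, ?_⟩
    · rw [hw, map_add]
      abel
    · rw [map_add, h4, add_zero, h1]

namespace SMod.Prism

variable {A B : SMod R} (P : SMod.Prism A B)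

/-- The two ends of a prism agree on cycles up to boundaries. -/
theorem exists_d_eq {n : ℕ} {x : A.obj n} (hx : A.cx.Cyc n x) :
    ∃ y : B.obj (n + 1), B.d n y = P.h n (c1 n) x - P.h n (c0 n) x := by
  cases n with
  | zero => exact ⟨_, P.d_k_zero x⟩
  | succ n =>
    refine ⟨P.k (n + 1) x, ?_⟩
    rw [← P.d_k_add_k_d]
    have : A.d n x = 0 := hx
    rw [this, map_zero, add_zero]

end SMod.Prism

/-- the prism on free simplicial modules of a simplicial homotopy -/
noncomputable def prismOf (R : Type) [CommRing R] {X Y : SS} (K : SS.Htp X Y) :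
    SMod.Prism (free R X) (free R Y) where
  h p θ := Finsupp.lmapDomain R R (K.h p θ)
  nat {p q} α θ x := by
    have h : ∀ x : X.obj q →₀ R, Finsupp.mapDomain (K.h p (θ.comp α))
        (Finsupp.mapDomain (X.map α) x) =
        Finsupp.mapDomain (Y.map α) (Finsupp.mapDomain (K.h q θ) x) := by
      intro x
      rw [← Finsupp.mapDomain_comp, ← Finsupp.mapDomain_comp]
      congr 1
      funext z
      exact K.nat α θ z
    exact h x

theorem prismOf_c1 {X Y : SS} (K : SS.Htp X Y) {p : ℕ} (x : (free R X).obj p) :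
    (prismOf R K).h p (c1 p) x = (freeMap R K.e1).app p x := rfl

theorem prismOf_c0 {X Y : SS} (K : SS.Htp X Y) {p : ℕ} (x : (free R X).obj p) :
    (prismOf R K).h p (c0 p) x = (freeMap R K.e0).app p x := rfl

theorem freeMap_id_app {X : SS} {p : ℕ} (x : (free R X).obj p) :
    (freeMap R (SS.Map.id X)).app p x = x := by
  have : ∀ x : X.obj p →₀ R, Finsupp.mapDomain (fun z : X.obj p => z) x = x := fun x =>
    Finsupp.mapDomain_id
  exact this x

theorem freeMap_comp_app {X Y W : SS} (g : SS.Map Y W) (f : SS.Map X Y) {p : ℕ}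
    (x : (free R X).obj p) :
    (freeMap R (g.comp f)).app p x = (freeMap R g).app p ((freeMap R f).app p x) := by
  have : ∀ x : X.obj p →₀ R, Finsupp.mapDomain (fun z : X.obj p => g.app (f.app z)) x =
      Finsupp.mapDomain g.app (Finsupp.mapDomain f.app x) := fun x => by
    rw [← Finsupp.mapDomain_comp]; rfl
  exact this x

/-- homotopic maps agree on cycles up to boundaries -/
theorem exists_d_of_htp {X Y : SS} (K : SS.Htp X Y) {n : ℕ} {x : (free R X).obj n}
    (hx : (free R X).cx.Cyc n x) : ∃ y : (free R Y).obj (n + 1),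
      (free R Y).d n y = (freeMap R K.e1).app n x - (freeMap R K.e0).app n x :=
  (prismOf R K).exists_d_eq hx

/-- the homotopy in the other direction, up to boundaries -/
theorem exists_d_of_htp' {X Y : SS} (K : SS.Htp X Y) {n : ℕ} {x : (free R X).obj n}
    (hx : (free R X).cx.Cyc n x) : ∃ y : (free R Y).obj (n + 1),
      (free R Y).d n y = (freeMap R K.e0).app n x - (freeMap R K.e1).app n x := by
  obtain ⟨y, hy⟩ := exists_d_of_htp K hx
  exact ⟨-y, by rw [map_neg, hy, neg_sub]⟩

/-- `f` and `g` are connected by a simplicial homotopy in one of the two directions -/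
def HtpRel {X Y : SS} (f g : SS.Map X Y) : Prop :=
  ∃ K : SS.Htp X Y, (K.e0 = f ∧ K.e1 = g) ∨ (K.e0 = g ∧ K.e1 = f)

theorem HtpRel.symm {X Y : SS} {f g : SS.Map X Y} (h : HtpRel f g) : HtpRel g f := by
  obtain ⟨K, h | h⟩ := h
  · exact ⟨K, Or.inr h⟩
  · exact ⟨K, Or.inl h⟩

theorem HtpRel.exists_d {X Y : SS} {f g : SS.Map X Y} (h : HtpRel f g) {n : ℕ}
    {x : (free R X).obj n} (hx : (free R X).cx.Cyc n x) : ∃ y : (free R Y).obj (n + 1),
      (free R Y).d n y = (freeMap R f).app n x - (freeMap R g).app n x := by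
  obtain ⟨K, ⟨h0, h1⟩ | ⟨h0, h1⟩⟩ := h
  · rw [← h0, ← h1]; exact exists_d_of_htp' K hx
  · rw [← h0, ← h1]; exact exists_d_of_htp K hx

/-- the constant homotopy -/
def Htp.refl {X Y : SS} (f : SS.Map X Y) : SS.Htp X Y := ⟨fun _ _ x => f.app x, fun α _ x => f.nat α x⟩

theorem HtpRel.refl {X Y : SS} (f : SS.Map X Y) : HtpRel f f :=
  ⟨Htp.refl f, Or.inl ⟨rfl, rfl⟩⟩

/-- **A simplicial homotopy equivalence has vanishing relative homology.** -/
theorem rz0_of_htp {X Y : SS} (f : SS.Map X Y) (g : SS.Map Y X)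
    (hX : HtpRel (SS.Map.id X) (g.comp f)) (hY : HtpRel (SS.Map.id Y) (f.comp g)) (n : ℕ) :
    RZ0 (freeMap R f).cx n := by
  refine Cx.Hom.rz0_of_inverse (freeMap R f).cx (freeMap R g).cx ?_ ?_ n
  · intro n (a : (free R X).obj n) ha
    obtain ⟨y, hy⟩ := hX.exists_d ha
    exact ⟨y, hy.trans (congrArg₂ (· - ·) (freeMap_id_app a) (freeMap_comp_app g f a))⟩
  · intro n (b : (free R Y).obj n) hb
    obtain ⟨y, hy⟩ := hY.exists_d hb
    exact ⟨y, hy.trans (congrArg₂ (· - ·) (freeMap_id_app b) (freeMap_comp_app f g b))⟩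

end Vale.Agent.P263.GB
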