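import Vale.Agent.P263.GB.SMT
import Vale.Agent.P263.GB.Htp

/-!
# P263, block G2: relative homology of a surjection = homology of the kernel

For a levelwise surjective map `f` of simplicial modules, `RZ0 f.cx 0` holds and
`RZ0 f.cx (n + 1) ↔ (Ker f).cx.HZ n`.
-/

namespace Vale.Agent.P263.GB

open Vale.Agent.P263.S Vale.Agent.P263.E

variable {R : Type} [CommRing R]

/-- the relative homology of a surjection vanishes in degree `0` -/
theorem rz0_zero_of_surj {A B : Cx R} (f : Cx.Hom A B) (h : Function.Surjective (f.app 0)) :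
    RZ0 f 0 := by
  rw [rz0_zero]
  intro b
  obtain ⟨a, rfl⟩ := h b
  exact ⟨0, a, by rw [map_zero, zero_add]⟩

/-- the relative homology of a surjection is the homology of its kernel, up to a shift -/
theorem Cx.SES.rz0_succ_iff {A B C : Cx R} {i : Cx.Hom A B} {f : Cx.Hom B C} (h : Cx.SES i f)
    (n : ℕ) : RZ0 f (n + 1) ↔ A.HZ n := by
  rw [rz0_succ]
  constructor
  · intro H x hx
    obtain ⟨b', a', h1, h2⟩ := H 0 (i.app n x) (i.cyc hx) (by rw [map_zero, zero_add, h.zero])
    obtain ⟨a'', rfl⟩ := h.surj (n + 2) b'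
    obtain ⟨w, hw⟩ := h.exact (n + 1) (a' + B.d (n + 1) a'') (by
      rw [map_add, f.comm, add_comm (f.app (n + 1) a')]; exact h1)
    refine ⟨-w, h.inj n ?_⟩
    rw [map_neg, map_neg, i.comm, hw, map_add, B.dd, add_zero]
    exact h2
  · intro H b a ha hab
    obtain ⟨a₁, rfl⟩ := h.surj (n + 1) b
    obtain ⟨x, hx⟩ := h.exact n (a + B.d n a₁) (by
      rw [map_add, f.comm, add_comm (f.app n a)]; exact hab)
    have hc : A.Cyc n x := i.cyc_of_inj (by
      rw [hx]
      exact B.cyc_add ha (B.cyc_d n a₁)) h.inj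
    obtain ⟨w, hw⟩ := H x hc
    refine ⟨0, a₁ - i.app (n + 1) w, ?_, ?_⟩
    · rw [map_zero, zero_add, map_sub, h.zero, sub_zero]
    · rw [map_sub, ← i.comm, hw, hx]
      abel

theorem rz0_succ_iff_ker {A B : SMod R} (f : SMod.Hom A B)
    (hf : ∀ p, Function.Surjective (f.app p)) (n : ℕ) :
    RZ0 f.cx (n + 1) ↔ (SMod.Ker f).cx.HZ n :=
  (SMod.ses_ker f hf).cx.rz0_succ_iff n

end Vale.Agent.P263.GB
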