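import Vale.Agent.P263.GB.Diag
import Vale.Agent.P263.GB.KerRZ

/-!
# P263, block G2: bisimplicial sets

`BSS` : simplicial objects in `E.SS` (outer index `k`, inner index `m`).

* `BSS.diag`, `BSS.swap`, `BSS.Hom`, `BSS.Hom.diag`, `BSS.Hom.swap`;
* `BSS.free R : SSMod R`, `BSS.Hom.free R`;
* `BSS.Hom.rz0_diag_iff` : the relative homology of `free R (diag F)` is that of the diagonal of
  `free R F` (951's diagonals of bisimplicial modules).
-/

namespace Vale.Agent.P263.GB

open Vale.Agent.P263.S Vale.Agent.P263.E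

variable {R : Type} [CommRing R]

/-! ### isomorphisms of chain complexes -/

/-- isomorphisms of chain complexes -/
structure Cx.Iso (A B : Cx R) where
  /-- the components -/
  e : ∀ n, A.C n ≃ₗ[R] B.C n
  comm : ∀ n (x : A.C (n + 1)), e n (A.d n x) = B.d n (e (n + 1) x)

namespace Cx.Iso

variable {A B A' B' : Cx R}

/-- the inverse -/
def symm (i : Cx.Iso A B) : Cx.Iso B A where
  e n := (i.e n).symm
  comm n x := by
    rw [LinearEquiv.symm_apply_eq, i.comm, LinearEquiv.apply_symm_apply]

theorem cyc (i : Cx.Iso A B) {n : ℕ} {x : A.C n} (hx : A.Cyc n x) : B.Cyc n (i.e n x) := by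
  cases n with
  | zero => trivial
  | succ n => rw [Cx.cyc_succ] at *; rw [← i.comm, hx, map_zero]

theorem hz (i : Cx.Iso A B) {n : ℕ} (h : A.HZ n) : B.HZ n := by
  intro x hx
  obtain ⟨y, hy⟩ := h _ (i.symm.cyc hx)
  refine ⟨i.e (n + 1) y, ?_⟩
  rw [← i.comm, hy]
  exact (i.e n).apply_symm_apply x

theorem hz_iff (i : Cx.Iso A B) (n : ℕ) : A.HZ n ↔ B.HZ n := ⟨i.hz, i.symm.hz⟩

theorem rz0 (i : Cx.Iso A A') (j : Cx.Iso B B') {f : Cx.Hom A B} {f' : Cx.Hom A' B'}
    (h : ∀ n x, f'.app n (i.e n x) = j.e n (f.app n x)) {n : ℕ} (hf : RZ0 f n) : RZ0 f' n := by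
  cases n with
  | zero =>
    rw [rz0_zero] at *
    intro b
    obtain ⟨b', a, h'⟩ := hf ((j.e 0).symm b)
    refine ⟨j.e 1 b', i.e 0 a, ?_⟩
    rw [h, ← j.comm, ← map_add, h', LinearEquiv.apply_symm_apply]
  | succ n =>
    rw [rz0_succ] at *
    intro b a ha hba
    obtain ⟨b', a', h1, h2⟩ := hf ((j.e (n + 1)).symm b) ((i.e n).symm a) (i.symm.cyc ha) (by
      apply (j.e n).injective
      rw [map_add, j.comm, ← h, LinearEquiv.apply_symm_apply, LinearEquiv.apply_symm_apply, hba,
        map_zero])
    refine ⟨j.e (n + 2) b', i.e (n + 1) a', ?_, ?_⟩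
    · rw [h, ← j.comm, ← map_add, h1, LinearEquiv.apply_symm_apply]
    · rw [← i.comm, ← map_neg, h2, LinearEquiv.apply_symm_apply]

theorem rz0_iff (i : Cx.Iso A A') (j : Cx.Iso B B') {f : Cx.Hom A B} {f' : Cx.Hom A' B'}
    (h : ∀ n x, f'.app n (i.e n x) = j.e n (f.app n x)) (n : ℕ) : RZ0 f n ↔ RZ0 f' n := by
  refine ⟨i.rz0 j h, i.symm.rz0 j.symm fun n x => ?_⟩
  show f.app n ((i.e n).symm x) = (j.e n).symm (f'.app n x)
  rw [LinearEquiv.eq_symm_apply, ← h, LinearEquiv.apply_symm_apply]

end Cx.Iso

/-! ### bisimplicial sets -/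

/-- Bisimplicial sets. -/
structure BSS where
  /-- the columns -/
  obj : ℕ → SS
  /-- the outer operators -/
  map : ∀ {k l : ℕ}, Op k l → SS.Map (obj l) (obj k)
  map_id : ∀ {k m : ℕ} (x : (obj k).obj m), (map (OrderHom.id : Op k k)).app x = x
  map_comp : ∀ {k l n m : ℕ} (f : Op l n) (g : Op k l) (x : (obj n).obj m),
    (map (f.comp g)).app x = (map g).app ((map f).app x)

namespace BSS

/-- the diagonal -/
def diag (X : BSS) : SS where
  obj p := (X.obj p).obj p
  map {_ q} f x := (X.map f).app ((X.obj q).map f x)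
  map_id x := by rw [SS.map_id, X.map_id]
  map_comp f g x := by
    rw [X.map_comp, SS.map_comp, (X.map f).nat]

theorem diag_map (X : BSS) {p q : ℕ} (f : Op p q) (x : X.diag.obj q) :
    X.diag.map f x = (X.map f).app ((X.obj q).map f x) := rfl

/-- exchanging rows and columns -/
def swap (X : BSS) : BSS where
  obj m :=
    { obj := fun k => (X.obj k).obj m
      map := fun f => (X.map f).app
      map_id := fun x => X.map_id x
      map_comp := fun f g x => X.map_comp f g x }
  map g :=
    { app := fun {k} x => (X.obj k).map g x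
      nat := fun f x => ((X.map f).nat g x).symm }
  map_id {_ k} x := (X.obj k).map_id x
  map_comp {_ _ _ k} f g x := (X.obj k).map_comp f g x

/-- maps -/
structure Hom (X Y : BSS) where
  /-- the components -/
  app : ∀ k, SS.Map (X.obj k) (Y.obj k)
  nat : ∀ {k l m : ℕ} (f : Op k l) (x : (X.obj l).obj m),
    (app k).app ((X.map f).app x) = (Y.map f).app ((app l).app x)

namespace Hom

variable {X Y : BSS} (F : Hom X Y)

/-- the diagonal of a map -/
def diag : SS.Map X.diag Y.diag where
  app {p} x := (F.app p).app x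
  nat {_ q} f x :=
    (F.nat f ((X.obj q).map f x)).trans (congrArg (Y.map f).app ((F.app q).nat f x))

/-- exchanging rows and columns of a map -/
def swap : Hom X.swap Y.swap where
  app _ :=
    { app := fun {k} x => (F.app k).app x
      nat := fun f x => F.nat f x }
  nat {_ _ k} f x := (F.app k).nat f x

end Hom

/-- the free bisimplicial module -/
noncomputable def free (R : Type) [CommRing R] (X : BSS) : SSMod R where
  obj k := GB.free R (X.obj k)
  map f := freeMap R (X.map f)
  map_id {k m} x := by
    have h : ∀ x : (X.obj k).obj m →₀ R,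
        Finsupp.mapDomain (X.map (OrderHom.id : Op k k)).app x = x := by
      intro x
      have : ((X.map (OrderHom.id : Op k k)).app : (X.obj k).obj m → _) = _root_.id :=
        funext fun x => X.map_id x
      rw [this, Finsupp.mapDomain_id]
    exact h x
  map_comp {k l n m} f g x := by
    have h : ∀ x : (X.obj n).obj m →₀ R, Finsupp.mapDomain (X.map (f.comp g)).app x =
        Finsupp.mapDomain (X.map g).app (Finsupp.mapDomain (X.map f).app x) := by
      intro x
      rw [← Finsupp.mapDomain_comp]
      congr 1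
      funext z
      exact X.map_comp f g z
    exact h x

/-- the free bisimplicial module, on maps -/
noncomputable def Hom.free (R : Type) [CommRing R] {X Y : BSS} (F : Hom X Y) :
    SSMod.Hom (X.free R) (Y.free R) where
  app k := freeMap R (F.app k)
  nat {k l m} f x := by
    have h : ∀ x : (X.obj l).obj m →₀ R,
        Finsupp.mapDomain (F.app k).app (Finsupp.mapDomain (X.map f).app x) =
        Finsupp.mapDomain (Y.map f).app (Finsupp.mapDomain (F.app l).app x) := by
      intro x
      rw [← Finsupp.mapDomain_comp, ← Finsupp.mapDomain_comp]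
      congr 1
      funext z
      exact F.nat f z
    exact h x

/-- the operators of the diagonal of the free bisimplicial module -/
theorem free_diag_map (X : BSS) {p q : ℕ} (f : Op p q) (x : (X.free R).diag.obj q) :
    (X.free R).diag.map f x = (GB.free R X.diag).map f x := by
  have h : ∀ x : (X.obj q).obj q →₀ R,
      Finsupp.mapDomain (X.map f).app (Finsupp.mapDomain ((X.obj q).map f) x) =
        Finsupp.mapDomain (fun z : (X.obj q).obj q => (X.map f).app ((X.obj q).map f z)) x := by
    intro x
    rw [← Finsupp.mapDomain_comp]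
    rfl
  exact h x

/-- the comparison of the two diagonals -/
noncomputable def freeDiagIso (R : Type) [CommRing R] (X : BSS) :
    Cx.Iso (GB.free R X.diag).cx (X.free R).diag.cx where
  e n := LinearEquiv.refl R ((X.obj n).obj n →₀ R)
  comm n x := by
    have e1 := SMod.d_apply (GB.free R X.diag) n x
    have e2 := SMod.d_apply (X.free R).diag n x
    exact e1.trans ((Finset.sum_congr rfl fun i _ =>
      congrArg (sn i) (X.free_diag_map (dl n i) x).symm).trans e2.symm)

theorem free_diag_hz_iff (X : BSS) (n : ℕ) :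
    (GB.free R X.diag).cx.HZ n ↔ (X.free R).diag.cx.HZ n := (X.freeDiagIso R).hz_iff n

/-- **Relative homology of diagonals**: bisimplicial sets versus bisimplicial modules. -/
theorem Hom.rz0_diag_iff {X Y : BSS} (F : Hom X Y) (n : ℕ) :
    RZ0 (freeMap R F.diag).cx n ↔ RZ0 (F.free R).diag.cx n :=
  (X.freeDiagIso R).rz0_iff (Y.freeDiagIso R) (fun _ _ => rfl) n

end BSS

end Vale.Agent.P263.GB
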