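import Vale.Agent.P263.GB.Base

/-!
# P263, block G2: resolutions of chain complexes and the corner chase

`Reso R` : columns `c 0, c 1, c 2, …` (chain complexes), horizontal maps `δ s : c (s+1) → c s`, all
rows exact (`δ 0` onto).  `c 0` is the augmentation.

* `Reso.lift` : a cycle of `c 0` in degree `k` lifts to a cycle of `c 1` as soon as
  `H_{k-1-i}(c (2+i)) = 0` for `i < k`.
* `Reso.hz_zero` : hence `H_k(c 0) = 0` if moreover `H_k(c 1) = 0`.
* `Reso.comp` : if `H_{n+1}(c 0) = 0`, `H_n(c 1) = 0`, `H_j(c s) = 0` for `j < n`, `s ≥ 4`, and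
  `δ 2 : H_n(c 3) → H_n(c 2)` is zero, then `H_n(c 2) = 0`.
-/

namespace Vale.Agent.P263.GB

open Vale.Agent.P263.S Vale.Agent.P263.E

variable {R : Type} [CommRing R]

/-- A resolution of the chain complex `c 0` by the chain complexes `c 1, c 2, …`. -/
structure Reso (R : Type) [CommRing R] where
  /-- the columns -/
  c : ℕ → Cx R
  /-- the horizontal maps -/
  δ : ∀ s, Cx.Hom (c (s + 1)) (c s)
  surj : ∀ n (x : (c 0).C n), ∃ y, (δ 0).app n y = x
  exact : ∀ s n (x : (c (s + 1)).C n), (δ s).app n x = 0 ↔ ∃ y, (δ (s + 1)).app n y = x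

namespace Reso

variable (K : Reso R)

theorem δδ (s n : ℕ) (x : (K.c (s + 2)).C n) : (K.δ s).app n ((K.δ (s + 1)).app n x) = 0 :=
  (K.exact s n _).2 ⟨x, rfl⟩

/-- the staircase -/
theorem stair (k : ℕ) : ∀ (s : ℕ) (x : (K.c (s + 1)).C k),
    (∀ i < k, (K.c (s + 2 + i)).HZ (k - 1 - i)) →
    (∀ m (h : k = m + 1), (K.δ s).app m ((K.c (s + 1)).d m (h ▸ x)) = 0) →
    ∃ t : (K.c (s + 2)).C k, (K.c (s + 1)).Cyc k (x - (K.δ (s + 1)).app k t) := by
  induction k with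
  | zero => exact fun s x _ _ => ⟨0, trivial⟩
  | succ k ih =>
    intro s x hz hx
    obtain ⟨y, hy⟩ := (K.exact s k _).1 (hx k rfl)
    obtain ⟨t', ht'⟩ := ih (s + 1) y
      (fun i hi => by
        have := hz (i + 1) (by omega)
        rw [show s + 1 + 2 + i = s + 2 + (i + 1) by omega,
          show k - 1 - i = k + 1 - 1 - (i + 1) by omega]
        exact this)
      (fun m h => by
        subst h
        show (K.δ (s + 1)).app m ((K.c (s + 2)).d m y) = 0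
        rw [(K.δ (s + 1)).comm, hy]
        exact (K.c (s + 1)).dd m x)
    obtain ⟨u, hu⟩ := (hz 0 (by omega)) _ ht'
    refine ⟨u, ?_⟩
    show (K.c (s + 1)).d k (x - (K.δ (s + 1)).app (k + 1) u) = 0
    rw [map_sub, ← (K.δ (s + 1)).comm]
    have hu' : (K.c (s + 2)).d k u = y - (K.δ (s + 2)).app k t' := hu
    rw [hu', map_sub, K.δδ, sub_zero, hy]
    exact sub_self _

/-- a cycle of the augmentation lifts to a cycle of the first column -/
theorem lift {k : ℕ} (hz : ∀ i < k, (K.c (2 + i)).HZ (k - 1 - i)) {z : (K.c 0).C k}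
    (h : (K.c 0).Cyc k z) : ∃ x : (K.c 1).C k, (K.c 1).Cyc k x ∧ (K.δ 0).app k x = z := by
  obtain ⟨x, rfl⟩ := K.surj k z
  obtain ⟨t, ht⟩ := K.stair k 0 x (fun i hi => by
    rw [show 0 + 2 + i = 2 + i by omega]; exact hz i hi) (fun m hm => by
      subst hm
      show (K.δ 0).app m ((K.c 1).d m x) = 0
      rw [(K.δ 0).comm]
      exact h)
  refine ⟨_, ht, ?_⟩
  rw [map_sub, K.δδ, sub_zero]

theorem hz_zero {k : ℕ} (hz : ∀ i < k, (K.c (2 + i)).HZ (k - 1 - i)) (h1 : (K.c 1).HZ k) :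
    (K.c 0).HZ k := by
  intro z h
  obtain ⟨x, hx, rfl⟩ := K.lift hz h
  obtain ⟨y, rfl⟩ := h1 x hx
  exact ⟨(K.δ 0).app (k + 1) y, ((K.δ 0).comm k y).symm⟩

/-- **the corner chase** (comparison lemma for loops) -/
theorem comp {n : ℕ} (h0 : (K.c 0).HZ (n + 1)) (h1 : (K.c 1).HZ n)
    (hz : ∀ i < n, (K.c (4 + i)).HZ (n - 1 - i))
    (hδ : ∀ u : (K.c 3).C n, (K.c 3).Cyc n u →
      ∃ v : (K.c 2).C (n + 1), (K.c 2).d n v = (K.δ 2).app n u) : (K.c 2).HZ n := by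
  intro z hzc
  obtain ⟨w, hw⟩ := h1 _ ((K.δ 1).cyc hzc)
  obtain ⟨f, hf⟩ := h0 ((K.δ 0).app (n + 1) w) (by
    show (K.c 0).d n ((K.δ 0).app (n + 1) w) = 0
    rw [← (K.δ 0).comm, hw, K.δδ])
  obtain ⟨w', rfl⟩ := K.surj _ f
  obtain ⟨y, hy⟩ := (K.exact 0 (n + 1) (w - (K.c 1).d (n + 1) w')).1 (by
    rw [map_sub, (K.δ 0).comm, hf, sub_self])
  have hz1 : (K.δ 1).app n (z - (K.c 2).d n y) = 0 := by
    rw [map_sub, (K.δ 1).comm, hy, map_sub, hw, (K.c 1).dd, sub_zero, sub_self]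
  obtain ⟨u, hu⟩ := (K.exact 1 n _).1 hz1
  obtain ⟨t, ht⟩ := K.stair n 2 u (fun i hi => by
    rw [show 2 + 2 + i = 4 + i by omega]; exact hz i hi) (fun m hm => by
      subst hm
      show (K.δ 2).app m ((K.c 3).d m u) = 0
      rw [(K.δ 2).comm, hu, map_sub, (K.c 2).dd, sub_zero]
      exact hzc)
  obtain ⟨v, hv⟩ := hδ _ ht
  refine ⟨y + v, ?_⟩
  rw [map_add, hv, map_sub, K.δδ, sub_zero, hu]
  abel

end Reso

end Vale.Agent.P263.GB
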