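import Vale.Agent.P263.GB.Kun

/-!
# P263, block G2: Künneth in a range for powers of a space

`kunPi` : the reduced homology of `X` (coefficients in a field) vanishes below `q` ⟹ in degrees
`n < 2 q` a reduced cycle of `X ^ k = (Fin k → X)` is homologous to the sum of its projections to
the axes.
-/

namespace Vale.Agent.P263.GB

open Vale.Agent.P263.S Vale.Agent.P263.E Vale.Agent.P263.G2

section

variable {X : Type} [TopologicalSpace X]

/-- the inclusion of an axis -/
noncomputable def axs (x₀ : X) {k : ℕ} (b : Fin k) : C(X, (Fin k → X)) where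
  toFun x a := if a = b then x else x₀
  continuous_toFun := by
    refine continuous_pi fun a => ?_
    split_ifs
    · exact continuous_id
    · exact continuous_const

theorem axs_apply (x₀ : X) {k : ℕ} (b : Fin k) (x : X) (a : Fin k) :
    axs x₀ b x a = if a = b then x else x₀ := rfl

/-- the projections of a power -/
def prj {k : ℕ} (b : Fin k) : C((Fin k → X), X) := ⟨fun x => x b, continuous_apply b⟩

@[simp] theorem prj_apply {k : ℕ} (b : Fin k) (x : Fin k → X) : prj b x = x b := rfl

/-- forget the first coordinate -/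
def tl {k : ℕ} : C((Fin (k + 1) → X), (Fin k → X)) :=
  ⟨fun x a => x a.succ, by fun_prop⟩

@[simp] theorem tl_apply {k : ℕ} (x : Fin (k + 1) → X) (a : Fin k) : tl x a = x a.succ := rfl

/-- add a first coordinate -/
noncomputable def cns {k : ℕ} : C(X × (Fin k → X), (Fin (k + 1) → X)) :=
  ⟨fun x => Fin.cons x.1 x.2, by
    refine continuous_pi fun a => ?_
    refine Fin.cases ?_ (fun a => ?_) a
    · simp only [Fin.cons_zero]; exact continuous_fst
    · simp only [Fin.cons_succ]; exact (continuous_apply a).comp continuous_snd⟩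

theorem cns_apply {k : ℕ} (x : X) (y : Fin k → X) : cns (x, y) = Fin.cons x y := rfl

/-- the singular simplices of a product -/
noncomputable def singPair {A B : Type} [TopologicalSpace A] [TopologicalSpace B] :
    SS.Map ((sing A).prod (sing B)) (sing (A × B)) where
  app x := ofC ((toC x.1).prodMk (toC x.2))
  nat _ _ := rfl

theorem toC_singPair {A B : Type} [TopologicalSpace A] [TopologicalSpace B] {p : ℕ}
    (x : ((sing A).prod (sing B)).obj p) :
    toC (singPair.app x) = (toC x.1).prodMk (toC x.2) := rfl

/-- a point as a singular vertex -/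
def vpt (x : X) : (sing X).obj 0 := ofC (ContinuousMap.const _ x)

theorem toC_ptc {W : SS} (x : X) {p : ℕ} (w : W.obj p) :
    toC ((ptc W (vpt x)).app w) = ContinuousMap.const _ x := rfl

end

/-- a reduced chain of a simplicial set with one simplex in each degree vanishes -/
theorem red_eq_zero {R : Type} [CommRing R] {X : SS} (h : ∀ p, Subsingleton (X.obj p))
    (x₀ : X.obj 0) {n : ℕ} (z : (red R X).obj n) : z = 0 := by
  have e : ptc X x₀ = SS.Map.id X := SS.Map.ext fun p x => (h p).elim _ _
  rw [← redMap_id_app z, ← redMap_congr e, redMap_ptc]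

theorem freeMap_sub_app {R : Type} [CommRing R] {X Y : SS} (f : SS.Map X Y) {n : ℕ}
    (x y : (free R X).obj n) : (freeMap R f).app n (x - y) =
      (freeMap R f).app n x - (freeMap R f).app n y := map_sub _ _ _

section

variable {K : Type} [Field K] {X : Type} [TopologicalSpace X]

/-- the induction step of `kunPi` -/
theorem kunPi_step (x₀ : X) (q k : ℕ) (hX : ∀ i < q, (red K (sing X)).cx.HZ i)
    (ih : ∀ (n : ℕ), n < 2 * q → ∀ z : (red K (sing (Fin k → X))).obj n,
      (red K (sing (Fin k → X))).cx.Cyc n z → (red K (sing (Fin k → X))).cx.Rel n z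
        (∑ a : Fin k, (redMap K (singMap ((axs x₀ a).comp (prj a)))).app n z)) (n : ℕ)
    (hn : n < 2 * q) (z : (red K (sing (Fin (k + 1) → X))).obj n)
    (hz : (red K (sing (Fin (k + 1) → X))).cx.Cyc n z) :
    (red K (sing (Fin (k + 1) → X))).cx.Rel n z
      (∑ a : Fin (k + 1), (redMap K (singMap ((axs x₀ a).comp (prj a)))).app n z) := by
  -- the homology of the power vanishes below `q`
  have hY : ∀ i < q, (red K (sing (Fin k → X))).cx.HZ i := by
    intro i hi w hw
    have h1 := ih i (by omega) w hw
    have h2 : (red K (sing (Fin k → X))).cx.Rel i w 0 := by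
      refine h1.trans ?_
      have h3 : (0 : (red K (sing (Fin k → X))).cx.C i) = ∑ a : Fin k, 0 :=
        (Finset.sum_const_zero).symm
      rw [h3]
      refine Cx.Rel.sum _ fun a _ => ?_
      have h4 : (redMap K (singMap ((axs x₀ a).comp (prj a)))).app i w =
          (redMap K (singMap (axs x₀ a))).app i ((redMap K (singMap (prj a))).app i w) :=
        redMap_comp_app (singMap (axs x₀ a)) (singMap (prj a)) w
      rw [h4]
      have h5 := (Cx.HZ.rel (hX i hi) ((redMap K (singMap (prj a))).cx.cyc hw)).map
        (redMap K (singMap (axs x₀ a))).cx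
      rw [map_zero] at h5
      exact h5
    rw [Cx.rel_zero_iff] at h2
    exact h2
  -- the two maps
  let P : SS.Map (sing (Fin (k + 1) → X)) ((sing X).prod (sing (Fin k → X))) :=
    SS.pair (singMap (prj 0)) (singMap tl)
  let Q : SS.Map ((sing X).prod (sing (Fin k → X))) (sing (Fin (k + 1) → X)) :=
    (singMap cns).comp singPair
  let y₀ : Fin k → X := fun _ => x₀
  have e1 : Q.comp P = SS.Map.id _ := SS.Map.ext fun p σ => ContinuousMap.ext fun t => by
    funext a
    refine Fin.cases ?_ (fun a => ?_) a <;> rfl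
  have e2 : (Q.comp (c10 (sing X) (vpt y₀))).comp P = singMap ((axs x₀ 0).comp (prj 0)) :=
    SS.Map.ext fun p σ => ContinuousMap.ext fun t => by
      funext a
      refine Fin.cases ?_ (fun a => ?_) a
      · rfl
      · exact (if_neg (Fin.succ_ne_zero a) :
          (if a.succ = 0 then toC σ t 0 else x₀) = x₀).symm
  let cx0 : C((Fin k → X), (Fin (k + 1) → X)) := cns.comp
    ((ContinuousMap.const _ x₀).prodMk (ContinuousMap.id _))
  have e3 : (Q.comp (c01 (vpt x₀) (sing (Fin k → X)))).comp P = singMap (cx0.comp tl) :=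
    SS.Map.ext fun p σ => ContinuousMap.ext fun t => rfl
  have e4 : (Q.comp (c00 (vpt x₀) (vpt y₀))).comp P =
      ptc _ (vpt (fun _ => x₀)) :=
    SS.Map.ext fun p σ => ContinuousMap.ext fun t => by
      funext a
      refine Fin.cases ?_ (fun a => ?_) a <;> rfl
  have e5 : ∀ a : Fin k, (cx0.comp ((axs x₀ a).comp (prj a))).comp tl =
      (axs x₀ a.succ).comp (prj a.succ) := by
    intro a
    refine ContinuousMap.ext fun x => ?_
    funext b
    refine Fin.cases ?_ (fun b => ?_) b
    · exact (if_neg (Fin.succ_ne_zero a).symm :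
        (if (0 : Fin (k + 1)) = a.succ then x a.succ else x₀) = x₀).symm
    · show (if b = a then x a.succ else x₀) = if b.succ = a.succ then x a.succ else x₀
      simp only [Fin.succ_inj]
  have hz' : (free K (sing (Fin (k + 1) → X))).cx.Cyc n z.1 := (redI K _).cx.cyc hz
  have h1 := kun2 (K := K) (sing X) (sing (Fin k → X)) (vpt x₀) (vpt y₀) q q hX hY n (by omega)
    ((freeMap K P).app n z.1) ((freeMap K P).cx.cyc hz')
  have h2 := h1.map (freeMap K Q).cx
  -- the terms
  have t1 : (freeMap K Q).app n ((freeMap K P).app n z.1) = z.1 := by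
    rw [← freeMap_comp_app, freeMap_congr e1, freeMap_id_app]
  have t2 : (freeMap K Q).app n ((freeMap K (c10 (sing X) (vpt y₀))).app n
      ((freeMap K P).app n z.1)) =
      ((redMap K (singMap ((axs x₀ 0).comp (prj 0)))).app n z).1 := by
    rw [← freeMap_comp_app, ← freeMap_comp_app, freeMap_congr e2, redMap_coe]
  have t3 : (freeMap K Q).app n ((freeMap K (c01 (vpt x₀) (sing (Fin k → X)))).app n
      ((freeMap K P).app n z.1)) =
      ((redMap K (singMap (cx0.comp tl))).app n z).1 := by
    rw [← freeMap_comp_app, ← freeMap_comp_app, freeMap_congr e3, redMap_coe]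
  have t4 : (freeMap K Q).app n ((freeMap K (c00 (vpt x₀) (vpt y₀))).app n
      ((freeMap K P).app n z.1)) = 0 := by
    rw [← freeMap_comp_app, ← freeMap_comp_app, freeMap_congr e4, freeMap_ptc_red]
  have h3 : (free K (sing (Fin (k + 1) → X))).cx.Rel n z.1
      (((redMap K (singMap ((axs x₀ 0).comp (prj 0)))).app n z).1 +
        ((redMap K (singMap (cx0.comp tl))).app n z).1) := by
    have h4 : (freeMap K Q).app n ((freeMap K (c10 (sing X) (vpt y₀))).app n
        ((freeMap K P).app n z.1) + (freeMap K (c01 (vpt x₀) (sing (Fin k → X)))).app n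
        ((freeMap K P).app n z.1) - (freeMap K (c00 (vpt x₀) (vpt y₀))).app n
        ((freeMap K P).app n z.1)) =
        ((redMap K (singMap ((axs x₀ 0).comp (prj 0)))).app n z).1 +
        ((redMap K (singMap (cx0.comp tl))).app n z).1 := by
      rw [map_sub, map_add, t2, t3, t4, sub_zero]
    exact (Cx.Rel.of_eq t1.symm).trans (h2.trans (Cx.Rel.of_eq h4))
  have h6 : (red K (sing (Fin (k + 1) → X))).cx.Rel n z
      ((redMap K (singMap ((axs x₀ 0).comp (prj 0)))).app n z +
        (redMap K (singMap (cx0.comp tl))).app n z) :=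
    red_rel (vpt (fun _ => x₀)) h3
  have h7 : (redMap K (singMap (cx0.comp tl))).app n z =
      (redMap K (singMap cx0)).app n ((redMap K (singMap tl)).app n z) :=
    redMap_comp_app (singMap cx0) (singMap tl) z
  have h8 := (ih n hn _ ((redMap K (singMap tl)).cx.cyc hz)).map (redMap K (singMap cx0)).cx
  have h10 : (redMap K (singMap cx0)).app n (∑ a : Fin k,
      (redMap K (singMap ((axs x₀ a).comp (prj a)))).app n ((redMap K (singMap tl)).app n z)) =
      ∑ a : Fin k, (redMap K (singMap ((axs x₀ a.succ).comp (prj a.succ)))).app n z := by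
    rw [map_sum]
    refine Finset.sum_congr rfl fun a _ => ?_
    rw [← redMap_comp_app, ← redMap_comp_app]
    exact redMap_congr (congrArg singMap (e5 a)) z
  have h9 : (red K (sing (Fin (k + 1) → X))).cx.Rel n ((redMap K (singMap (cx0.comp tl))).app n z)
      (∑ a : Fin k, (redMap K (singMap ((axs x₀ a.succ).comp (prj a.succ)))).app n z) :=
    (Cx.Rel.of_eq h7).trans (h8.trans (Cx.Rel.of_eq h10))
  exact h6.trans (((Cx.Rel.refl _ _ _).add h9).trans (Cx.Rel.of_eq (Fin.sum_univ_succ
    (fun a : Fin (k + 1) => (redMap K (singMap ((axs x₀ a).comp (prj a)))).app n z)).symm))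

/-- **Künneth for powers, in a range.** -/
theorem kunPi (x₀ : X) (q : ℕ) (hX : ∀ i < q, (red K (sing X)).cx.HZ i) (k : ℕ) :
    ∀ (n : ℕ), n < 2 * q → ∀ z : (red K (sing (Fin k → X))).obj n,
      (red K (sing (Fin k → X))).cx.Cyc n z → (red K (sing (Fin k → X))).cx.Rel n z
        (∑ a : Fin k, (redMap K (singMap ((axs x₀ a).comp (prj a)))).app n z) := by
  induction k with
  | zero =>
    intro n _ z _
    have h : z = 0 := red_eq_zero (fun p => ⟨fun σ τ => ContinuousMap.ext fun t =>
      funext fun a => Fin.elim0 a⟩) (vpt (fun _ => x₀)) z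
    exact Cx.Rel.of_eq (h.trans (Fin.sum_univ_zero
      (fun a : Fin 0 => (redMap K (singMap ((axs x₀ a).comp (prj a)))).app n z)).symm)
  | succ k ih => exact fun n hn z hz => kunPi_step x₀ q k hX ih n hn z hz

end

end Vale.Agent.P263.GB
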