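import Vale.Agent.P263.GB.PKTot
import Vale.Agent.P263.GB.KunPi
import Vale.Agent.P263.G2.Tht

/-!
# P263, block G2: the linear part of the double complex of whiskered simplices

* `circS A : SSMod R`, `A : SMod R` : the bisimplicial module `(circle) ⊗ A`, with
  `(circS A).obj k = A ^ k`.
* `lam y₀ : SSMod.Hom (circS (red R (sing (Lo y₀)))) (redB R (pkB y₀))`, given by the tautological
  maps `tht k j`.
-/

namespace Vale.Agent.P263.GB

open Vale.Agent.P263.S Vale.Agent.P263.E Vale.Agent.P263.G2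

variable {R : Type} [CommRing R]

/-! ### the circle -/

section cut

variable {k l : ℕ}

theorem cut_iff (f : Op k l) (a j : ℕ) (hj : ∀ i : Fin (k + 1), (i : ℕ) < j ↔ (f i : ℕ) ≤ a)
    (b : Fin k) : ((f b.castSucc : ℕ) ≤ a ∧ a < (f b.succ : ℕ)) ↔ (b : ℕ) + 1 = j := by
  have h1 := hj b.castSucc
  have h2 := hj b.succ
  rw [Fin.val_castSucc] at h1
  rw [Fin.val_succ] at h2
  omega

theorem sum_ite_succ {M : Type*} [AddCommGroup M] (P : Fin k → Prop) [DecidablePred P] (j : ℕ)
    (hP : ∀ b, P b ↔ (b : ℕ) + 1 = j) (x : Fin k → M) (hj : 1 ≤ j) (hj' : j ≤ k) :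
    ∑ b : Fin k, (if P b then x b else 0) = x ⟨j - 1, by omega⟩ := by
  rw [Finset.sum_eq_single (⟨j - 1, by omega⟩ : Fin k)]
  · rw [if_pos ((hP _).2 (by simp only; omega))]
  · intro b _ hb
    rw [if_neg]
    intro h
    apply hb
    apply Fin.ext
    have := (hP b).1 h
    simp only
    omega
  · intro h
    exact absurd (Finset.mem_univ _) h

theorem sum_ite_succ' {M : Type*} [AddCommGroup M] (P : Fin k → Prop) [DecidablePred P] (j : ℕ)
    (hP : ∀ b, P b ↔ (b : ℕ) + 1 = j) (x : Fin k → M) (hj : ¬ (1 ≤ j ∧ j ≤ k)) :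
    ∑ b : Fin k, (if P b then x b else 0) = 0 := by
  refine Finset.sum_eq_zero fun b _ => ?_
  rw [if_neg]
  intro h
  have := (hP b).1 h
  have := b.2
  omega

end cut

/-- the operators of the circle with coefficients in `M` -/
def cm (M : Type) [AddCommGroup M] [Module R M] {k l : ℕ} (f : Op k l) :
    (Fin l → M) →ₗ[R] (Fin k → M) where
  toFun v b := ∑ a : Fin l, if (f b.castSucc : ℕ) ≤ a ∧ (a : ℕ) < (f b.succ : ℕ) then v a else 0
  map_add' v w := by
    funext b
    refine Eq.trans ?_ Finset.sum_add_distrib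
    refine Finset.sum_congr rfl fun a _ => ?_
    by_cases h : (f b.castSucc : ℕ) ≤ a ∧ (a : ℕ) < (f b.succ : ℕ)
    · rw [if_pos h, if_pos h, if_pos h]; rfl
    · rw [if_neg h, if_neg h, if_neg h, add_zero]
  map_smul' r v := by
    funext b
    refine Eq.trans ?_ (Finset.smul_sum (r := r) (f := fun a : Fin l =>
      if (f b.castSucc : ℕ) ≤ a ∧ (a : ℕ) < (f b.succ : ℕ) then v a else 0)
      (s := Finset.univ)).symm
    refine Finset.sum_congr rfl fun a _ => ?_
    by_cases h : (f b.castSucc : ℕ) ≤ a ∧ (a : ℕ) < (f b.succ : ℕ)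
    · rw [if_pos h, if_pos h]; rfl
    · rw [if_neg h, if_neg h, smul_zero]

theorem cm_apply (M : Type) [AddCommGroup M] [Module R M] {k l : ℕ} (f : Op k l) (v : Fin l → M)
    (b : Fin k) : cm (R := R) M f v b =
      ∑ a : Fin l, if (f b.castSucc : ℕ) ≤ a ∧ (a : ℕ) < (f b.succ : ℕ) then v a else 0 := rfl

theorem cm_id (M : Type) [AddCommGroup M] [Module R M] {k : ℕ} (v : Fin k → M) :
    cm (R := R) M (OrderHom.id : Op k k) v = v := by
  funext b
  rw [cm_apply, Finset.sum_eq_single b]
  · rw [if_pos]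
    exact ⟨le_rfl, Nat.lt_succ_self _⟩
  · intro a _ hab
    rw [if_neg]
    rintro ⟨h1, h2⟩
    apply hab
    apply Fin.ext
    have h1' : (b : ℕ) ≤ a := h1
    have h2' : (a : ℕ) < b + 1 := h2
    omega
  · intro h
    exact absurd (Finset.mem_univ _) h

theorem cm_comp (M : Type) [AddCommGroup M] [Module R M] {k l n : ℕ} (f : Op l n) (g : Op k l)
    (v : Fin n → M) : cm (R := R) M (f.comp g) v = cm (R := R) M g (cm (R := R) M f v) := by
  funext b
  rw [cm_apply, cm_apply]
  have e1 : ∀ c : Fin l, (if (g b.castSucc : ℕ) ≤ c ∧ (c : ℕ) < (g b.succ : ℕ) then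
      cm (R := R) M f v c else 0) = ∑ a : Fin n,
      if ((g b.castSucc : ℕ) ≤ c ∧ (c : ℕ) < (g b.succ : ℕ)) ∧
        ((f c.castSucc : ℕ) ≤ a ∧ (a : ℕ) < (f c.succ : ℕ)) then v a else 0 := by
    intro c
    by_cases h : (g b.castSucc : ℕ) ≤ c ∧ (c : ℕ) < (g b.succ : ℕ)
    · rw [if_pos h, cm_apply]
      refine Finset.sum_congr rfl fun a _ => ?_
      by_cases h' : (f c.castSucc : ℕ) ≤ a ∧ (a : ℕ) < (f c.succ : ℕ)
      · rw [if_pos h', if_pos ⟨h, h'⟩]
      · rw [if_neg h', if_neg fun t => h' t.2]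
    · rw [if_neg h]
      exact (Finset.sum_eq_zero fun a _ => if_neg fun t => h t.1).symm
  rw [Finset.sum_congr rfl fun c _ => e1 c, Finset.sum_comm]
  refine Finset.sum_congr rfl fun a _ => ?_
  obtain ⟨j, hj, hcut⟩ := exists_cut f (a : ℕ)
  have h3 : ((f.comp g b.castSucc : ℕ) ≤ a ∧ (a : ℕ) < (f.comp g b.succ : ℕ)) ↔
      ((g b.castSucc : ℕ) < j ∧ j ≤ (g b.succ : ℕ)) := by
    show ((f (g b.castSucc) : ℕ) ≤ a ∧ (a : ℕ) < (f (g b.succ) : ℕ)) ↔ _
    have h1 := hcut (g b.castSucc)
    have h2 := hcut (g b.succ)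
    omega
  by_cases h : (g b.castSucc : ℕ) < j ∧ j ≤ (g b.succ : ℕ)
  · rw [if_pos (h3.2 h)]
    have hb := (g b.succ).2
    have h4 : j - 1 < l := by omega
    rw [Finset.sum_eq_single (⟨j - 1, h4⟩ : Fin l)]
    · rw [if_pos]
      rw [cut_iff f a j hcut]
      simp only
      omega
    · intro c _ hc
      rw [if_neg]
      rintro ⟨-, h6⟩
      rw [cut_iff f a j hcut] at h6
      apply hc
      apply Fin.ext
      simp only
      omega
    · intro h
      exact absurd (Finset.mem_univ _) h
  · rw [if_neg fun t => h (h3.1 t)]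
    refine (Finset.sum_eq_zero fun c _ => ?_).symm
    rw [if_neg]
    rintro ⟨h5, h6⟩
    rw [cut_iff f a j hcut] at h6
    apply h
    omega

/-- powers of a simplicial module -/
def powS (A : SMod R) (k : ℕ) : SMod R where
  obj n := Fin k → A.obj n
  map f := (A.map f).compLeft (Fin k)
  map_id x := funext fun b => A.map_id (x b)
  map_comp f g x := funext fun b => A.map_comp f g (x b)

theorem powS_map (A : SMod R) (k : ℕ) {n m : ℕ} (f : Op n m) (v : Fin k → A.obj m) (b : Fin k) :
    (show Fin k → A.obj n from (powS A k).map f v) b = A.map f (v b) := rfl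

theorem powS_d (A : SMod R) (k n : ℕ) (v : Fin k → A.obj (n + 1)) :
    ((powS A k).d n v : Fin k → A.obj n) = fun b => A.d n (v b) := by
  have h1 : ((powS A k).d n v : Fin k → A.obj n) =
      ∑ i ∈ Finset.range (n + 2), sn i (fun b => A.map (dl n i) (v b)) :=
    (powS A k).d_apply n v
  rw [h1]
  funext b
  rw [Finset.sum_apply, SMod.d_apply]
  rfl

/-- `(circle) ⊗ A` -/
def circS (A : SMod R) : SSMod R where
  obj k := powS A k
  map {k l} f :=
    { app := fun n => (cm (A.obj n) f : (Fin l → A.obj n) →ₗ[R] (Fin k → A.obj n))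
      nat := fun {n m} g x => by
        have h : ∀ x : Fin l → A.obj m, cm (R := R) (A.obj n) f (fun a => A.map g (x a)) =
            fun b => A.map g (cm (R := R) (A.obj m) f x b) := by
          intro x
          funext b
          rw [cm_apply, cm_apply, map_sum]
          refine Finset.sum_congr rfl fun a _ => ?_
          split_ifs
          · rfl
          · exact (map_zero _).symm
        exact h x }
  map_id {k m} x := cm_id (R := R) (A.obj m) (k := k) x
  map_comp {k l n m} f g x := cm_comp (R := R) (A.obj m) f g x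

/-- the horizontal differential of the circle from the second to the first column is zero -/
theorem cm_two (M : Type) [AddCommGroup M] [Module R M] (v : Fin 2 → M) (b : Fin 1) :
    ∑ i ∈ Finset.range 3, sn i (cm (R := R) M (dl 1 i) v b) = 0 := by
  obtain rfl : b = 0 := Subsingleton.elim _ _
  simp only [Finset.sum_range_succ, Finset.sum_range_zero, zero_add, cm_apply,
    dl_val]
  simp [sn]

/-- the total boundary of the circle, on elements -/
def cbd (A : SMod R) (W : ∀ s n, Fin s → A.obj n) (s n : ℕ) (b : Fin s) : A.obj n :=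
  A.d n (W s (n + 1) b) + sn n (∑ i ∈ Finset.range (s + 2),
    sn i (cm (R := R) (A.obj n) (dl s i) (W (s + 1) n) b))

theorem circS_swap_d (A : SMod R) (s n : ℕ) (v : Fin (s + 1) → A.obj n) :
    (((circS A).swap.obj n).d s v : Fin s → A.obj n) = fun b => ∑ i ∈ Finset.range (s + 2),
      sn i (cm (R := R) (A.obj n) (dl s i) v b) := by
  have h2 : (((circS A).swap.obj n).d s v : Fin s → A.obj n) =
      ∑ i ∈ Finset.range (s + 2), (sn i (cm (R := R) (A.obj n) (dl s i) v) : Fin s → A.obj n) :=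
    (circS A).swap_d s n v
  rw [h2]
  funext b
  rw [Finset.sum_apply]
  rfl

theorem circS_bd (A : SMod R) (W : ∀ s n, Fin s → A.obj n) (s n : ℕ) :
    ((circS A).dc.bd W s n : Fin s → A.obj n) = cbd A W s n := by
  have h1 : ((circS A).dc.bd W s n : Fin s → A.obj n) =
      (show Fin s → A.obj n from (powS A s).d n (W s (n + 1))) +
        sn n (show Fin s → A.obj n from ((circS A).swap.obj n).d s (W (s + 1) n)) := rfl
  have h2 := circS_swap_d A s n (W (s + 1) n)
  have h3 := powS_d A s n (W s (n + 1))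
  refine h1.trans ((congrArg₂ (fun x y : Fin s → A.obj n => x + sn n y) h3 h2).trans ?_)
  rfl

/-- **The total complex of the circle.** -/
theorem hz_of_circS_tz (A : SMod R) {j : ℕ} (h : (circS A).dc.TZ (j + 1)) : A.cx.HZ j := by
  intro z hz
  let z' : ∀ n, A.obj n := Function.update (fun _ => 0) j z
  have hz' : z' j = z := Function.update_self _ _ _
  let w : ∀ s n, Fin s → A.obj n := fun s n _ => if s = 1 then z' n else 0
  have hw : ∀ s n, s + n + 1 = j + 1 → cbd A w s n = 0 := by
    intro s n hsn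
    funext b
    have e1 : A.d n (w s (n + 1) b) = 0 := by
      show A.d n (if s = 1 then z' (n + 1) else 0) = 0
      by_cases hs : s = 1
      · rw [if_pos hs]
        obtain rfl : j = n + 1 := by omega
        rw [hz']
        exact hz
      · rw [if_neg hs, map_zero]
    have e2 : w (s + 1) n = 0 := by
      have hs : s ≠ 0 := fun h => by subst h; exact Fin.elim0 b
      funext c
      exact if_neg (by omega)
    rw [cbd, e1, e2, zero_add]
    have e3 : ∀ i ∈ Finset.range (s + 2),
        sn i (cm (R := R) (A.obj n) (dl s i) (0 : Fin (s + 1) → A.obj n) b) = 0 := by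
      intro i _
      rw [map_zero, Pi.zero_apply, sn_zero_val]
    rw [Finset.sum_eq_zero e3, sn_zero_val]
    rfl
  have hex : ∃ W : ∀ s n, Fin s → A.obj n, ∀ s n, s + n = j + 1 → cbd A W s n = w s n := by
    obtain ⟨W, hW⟩ := h w fun s n hsn => (circS_bd A w s n).trans (hw s n hsn)
    exact ⟨W, fun s n hsn => (circS_bd A W s n).symm.trans (hW s n hsn)⟩
  obtain ⟨W, hW⟩ := hex
  refine ⟨W 1 (j + 1) 0, ?_⟩
  have h3 : A.d j (W 1 (j + 1) 0) + sn j (∑ i ∈ Finset.range 3,
      sn i (cm (R := R) (A.obj j) (dl 1 i) (W 2 j) 0)) = w 1 j 0 :=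
    congrFun (hW 1 j (by omega)) 0
  rw [cm_two, sn_zero_val, add_zero] at h3
  refine h3.trans ?_
  show (if 1 = 1 then z' j else 0) = z
  rw [if_pos rfl, hz']

end Vale.Agent.P263.GB
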