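import Vale.Agent.P263.GB.Diag

/-!
# P263, block GB: coinvariants

`SSMod.coinv` : if `H_t(V_k) = 0` for all `k` and all `t < r`, and `H_r(diag V) = 0`, then every
`r`-cycle of `V_0` is `d₀ y - d₁ y` plus a boundary, `y` a cycle of `V_1`.
-/

namespace Vale.Agent.P263.GB

open Vale.Agent.P263.S

variable {R : Type} [CommRing R]

namespace SSMod

theorem coinv_zero (V : SSMod R) (hd : V.diag.cx.HZ 0) (x : (V.obj 0).obj 0) :
    ∃ (y : (V.obj 1).obj 0) (w : (V.obj 0).obj 1),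
      x = (V.map (dl 0 0)).app 0 y - (V.map (dl 0 1)).app 0 y + (V.obj 0).d 0 w := by
  obtain ⟨u, hu⟩ : ∃ u : (V.obj 1).obj 1, V.diag.d 0 u = x := hd x trivial
  refine ⟨(V.obj 1).map (dl 0 0) u, (V.map (dl 0 1)).app 1 u, ?_⟩
  rw [← hu, SMod.d_zero_apply, SMod.d_zero_apply, diag_map, diag_map, ← SMod.Hom.nat,
    ← SMod.Hom.nat]
  abel

/-- **Coinvariants.** -/
theorem coinv (r : ℕ) : ∀ V : SSMod R, (∀ k, ∀ t < r, (V.obj k).cx.HZ t) → V.diag.cx.HZ r →
    ∀ x : (V.obj 0).obj r, (V.obj 0).cx.Cyc r x → ∃ y : (V.obj 1).obj r, (V.obj 1).cx.Cyc r y ∧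
      ∃ w : (V.obj 0).obj (r + 1),
        x = (V.map (dl 0 0)).app r y - (V.map (dl 0 1)).app r y + (V.obj 0).d r w := by
  induction r with
  | zero =>
    intro V _ hd x _
    obtain ⟨y, w, h⟩ := V.coinv_zero hd x
    exact ⟨y, trivial, w, h⟩
  | succ r ih =>
    intro V hV hd x hx
    have hz : ∀ k, (V.obj k).cx.HZ 0 := fun k => hV k 0 (by omega)
    have hL := ih V.Loop (fun k t ht => (V.obj k).loop_hz (hz k) t (hV k _ (by omega)))
      ((V.ses_diag hz).hz_left _ (V.path_diag_hz _) hd)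
    obtain ⟨x', rfl⟩ := (V.obj 0).ev_surj (hz 0) _ x
    have hx' : (V.obj 0).ev.app r ((V.obj 0).Path.d r x') = 0 := by
      rw [(V.obj 0).ev.app_d]; exact hx
    obtain ⟨y', hy', w', hw'⟩ := hL ⟨(V.obj 0).Path.d r x', hx'⟩ (by
      cases r with
      | zero => trivial
      | succ r => exact Subtype.ext (((SMod.kerI (V.obj 0).ev).app_d r ⟨_, hx'⟩).trans
          ((V.obj 0).Path.d_d r x')))
    have hy1 : (V.obj 1).Path.cx.Cyc r y'.1 := (SMod.kerI (V.obj 1).ev).cx.cyc hy'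
    obtain ⟨y, hy⟩ : ∃ y : (V.obj 1).Path.obj (r + 1), (V.obj 1).Path.d r y = y'.1 :=
      (V.obj 1).Path_hz r y'.1 hy1
    have e : ∀ j, (V.obj 0).ev.app (r + 1) ((V.Path.map (dl 0 j)).app (r + 1) y) =
        (V.map (dl 0 j)).app (r + 1) ((V.obj 1).ev.app (r + 1) y) :=
      fun j => SMod.pathMap_ev (V.map (dl 0 j)) y
    have h1 : ((V.obj 0).Loop.d r w').1 = (V.obj 0).Path.d r w'.1 :=
      (SMod.kerI (V.obj 0).ev).app_d r w'
    have h2 : (V.obj 0).Path.d r x' = (V.Path.map (dl 0 0)).app r y'.1 -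
        (V.Path.map (dl 0 1)).app r y'.1 + (V.obj 0).Path.d r w'.1 :=
      (congrArg Subtype.val hw').trans (congrArg (fun z => (V.Path.map (dl 0 0)).app r y'.1 -
        (V.Path.map (dl 0 1)).app r y'.1 + z) h1)
    obtain ⟨v, hv⟩ : ∃ v : (V.obj 0).Path.obj (r + 2), (V.obj 0).Path.d (r + 1) v =
        x' - (V.Path.map (dl 0 0)).app (r + 1) y + (V.Path.map (dl 0 1)).app (r + 1) y - w'.1 := by
      refine (V.obj 0).Path_hz (r + 1) _ ?_
      change (V.obj 0).Path.d r _ = 0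
      rw [map_sub, map_add, map_sub, h2, ← (V.Path.map (dl 0 0)).app_d,
        ← (V.Path.map (dl 0 1)).app_d, hy]
      abel
    refine ⟨(V.obj 1).ev.app (r + 1) y, ?_, (V.obj 0).ev.app (r + 2) v, ?_⟩
    · change (V.obj 1).d r _ = 0
      rw [← (V.obj 1).ev.app_d, hy]
      exact y'.2
    · rw [← (V.obj 0).ev.app_d, hv, ← e 0, ← e 1, map_sub, map_add, map_sub]
      have hw0 : (V.obj 0).ev.app (r + 1) w'.1 = 0 := w'.2
      rw [hw0]
      abel

end SSMod

end Vale.Agent.P263.GB
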