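import Vale.Agent.P263.GB.UnionRZ

/-!
# P263, block G2: sequential colimits and finite products of simplicial sets (`E.SS`)

* `Seq` : a sequence `X 0 → X 1 → ⋯` of simplicial sets; `Seq.colim`, `Seq.inc r`, `Seq.inc_s`,
  `Seq.inc_eq_iff`, `Seq.desc`, `Seq.hom_ext`, `Seq.cmap` (functoriality).
* `Seq.isUnion` : for injective stage maps the colimit is the increasing union.
* `SS.pi`, `piSMap`, `toPi`, and `IsUnion.pi` : finite products of unions.
-/

namespace Vale.Agent.P263.GB

open Vale.Agent.P263.S Vale.Agent.P263.E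

/-! ### Sequential colimits -/

/-- a sequence of simplicial sets -/
structure Seq where
  /-- the stages -/
  X : ℕ → SS
  /-- the stage maps -/
  s : ∀ r, SS.Map (X r) (X (r + 1))

namespace Seq

variable (A : Seq)

/-- the composite stage maps -/
def up {r m : ℕ} (h : r ≤ m) : SS.Map (A.X r) (A.X m) :=
  Nat.leRecOn h (fun {k} (f : SS.Map (A.X r) (A.X k)) => (A.s k).comp f) (SS.Map.id (A.X r))

@[simp] theorem up_self (r : ℕ) : A.up (le_refl r) = SS.Map.id (A.X r) :=
  Nat.leRecOn_self _

theorem up_succ {r m : ℕ} (h : r ≤ m) (h' : r ≤ m + 1) : A.up h' = (A.s m).comp (A.up h) :=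
  Nat.leRecOn_succ h _

theorem up_trans {r m l : ℕ} (h : r ≤ m) (h' : m ≤ l) :
    (A.up h').comp (A.up h) = A.up (h.trans h') := by
  induction l, h' using Nat.le_induction with
  | base => rw [up_self]; rfl
  | succ l hml ih =>
    rw [A.up_succ hml, A.up_succ (h.trans hml), ← ih]
    rfl

theorem up_up {r m l : ℕ} (h : r ≤ m) (h' : m ≤ l) {p : ℕ} (x : (A.X r).obj p) :
    (A.up h').app ((A.up h).app x) = (A.up (h.trans h')).app x := by
  rw [← A.up_trans h h']; rfl

theorem up_one (r : ℕ) : A.up (Nat.le_succ r) = A.s r := by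
  rw [A.up_succ (le_refl r), up_self]; rfl

/-- two elements of two stages define the same element of the colimit -/
def Rel (p : ℕ) (a b : Σ r, (A.X r).obj p) : Prop :=
  ∃ m, ∃ (h : a.1 ≤ m) (h' : b.1 ≤ m), (A.up h).app a.2 = (A.up h').app b.2

/-- the equivalence relation of the colimit -/
def setoid (p : ℕ) : Setoid (Σ r, (A.X r).obj p) where
  r := A.Rel p
  iseqv :=
    { refl := fun a => ⟨a.1, le_rfl, le_rfl, rfl⟩
      symm := fun ⟨m, h, h', e⟩ => ⟨m, h', h, e.symm⟩
      trans := fun {a b c} ⟨m, h, h', e⟩ ⟨l, k, k', e'⟩ =>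
        ⟨max m l, h.trans (le_max_left _ _), k'.trans (le_max_right _ _), by
          rw [← A.up_up h (le_max_left m l), e, A.up_up h' (le_max_left m l),
            ← A.up_up k' (le_max_right m l), ← e', A.up_up k (le_max_right m l)]⟩ }

/-- the colimit -/
def colim : SS where
  obj p := Quotient (A.setoid p)
  map {p q} f := Quotient.map' (s₁ := A.setoid q) (s₂ := A.setoid p)
    (fun a => ⟨a.1, (A.X a.1).map f a.2⟩) (by
      rintro a b ⟨m, h, h', e⟩
      refine ⟨m, h, h', ?_⟩
      show (A.up h).app ((A.X a.1).map f a.2) = (A.up h').app ((A.X b.1).map f b.2)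
      rw [(A.up h).nat, (A.up h').nat, e])
  map_id {p} x := by
    induction x using Quotient.inductionOn' with
    | h a =>
      rw [Quotient.map'_mk'', (A.X a.1).map_id]
  map_comp {p q r} f g x := by
    induction x using Quotient.inductionOn' with
    | h a =>
      rw [Quotient.map'_mk'', Quotient.map'_mk'', Quotient.map'_mk'', (A.X a.1).map_comp]

/-- the map from a stage to the colimit -/
def inc (r : ℕ) : SS.Map (A.X r) A.colim where
  app {p} x := Quotient.mk (A.setoid p) ⟨r, x⟩
  nat _ _ := rfl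

theorem inc_eq_iff {p r r' : ℕ} {x : (A.X r).obj p} {x' : (A.X r').obj p} :
    (A.inc r).app x = (A.inc r').app x' ↔
      ∃ m, ∃ (h : r ≤ m) (h' : r' ≤ m), (A.up h).app x = (A.up h').app x' :=
  Quotient.eq (r := A.setoid p)

theorem inc_up {r m : ℕ} (h : r ≤ m) : (A.inc m).comp (A.up h) = A.inc r := by
  apply SS.Map.ext
  intro p x
  exact A.inc_eq_iff.2 ⟨m, le_rfl, h, by rw [up_self]; rfl⟩

theorem inc_s (r : ℕ) : (A.inc (r + 1)).comp (A.s r) = A.inc r := by
  rw [← up_one]; exact A.inc_up _

theorem exists_inc {p : ℕ} (u : A.colim.obj p) : ∃ r x, (A.inc r).app x = u := by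
  induction u using Quotient.inductionOn' with
  | h a => exact ⟨a.1, a.2, rfl⟩

/-- every element comes from a large stage -/
theorem exists_inc_ge {p : ℕ} (u : A.colim.obj p) (N : ℕ) :
    ∃ r, N ≤ r ∧ ∃ x, (A.inc r).app x = u := by
  obtain ⟨r, x, rfl⟩ := A.exists_inc u
  refine ⟨max r N, le_max_right _ _, (A.up (le_max_left r N)).app x, ?_⟩
  rw [← SS.Map.comp_app, inc_up]

theorem up_inj (h : ∀ r, (A.s r).Inj) {r m : ℕ} (hr : r ≤ m) : (A.up hr).Inj := by
  induction m, hr using Nat.le_induction with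
  | base => rw [up_self]; exact fun p x y h => h
  | succ m hm ih =>
    rw [A.up_succ hm]
    exact fun p => (h m p).comp (ih p)

theorem inc_inj (h : ∀ r, (A.s r).Inj) (r : ℕ) : (A.inc r).Inj := by
  intro p x y e
  obtain ⟨m, h1, h2, e⟩ := A.inc_eq_iff.1 e
  exact A.up_inj h h1 p e

/-- for injective stage maps the colimit is the increasing union of the stages -/
def isUnion (h : ∀ r, (A.s r).Inj) : IsUnion A.colim A.X where
  s := A.s
  i := A.inc
  comp := A.inc_s
  inj := A.inc_inj h
  surj _ := A.exists_inc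

variable {A}

/-- maps out of the colimit agree if they agree on the stages -/
theorem hom_ext {Z : SS} {f g : SS.Map A.colim Z} (h : ∀ r, f.comp (A.inc r) = g.comp (A.inc r)) :
    f = g := by
  apply SS.Map.ext
  intro p u
  obtain ⟨r, x, rfl⟩ := A.exists_inc u
  exact congrArg (fun k : SS.Map (A.X r) Z => k.app x) (h r)

theorem desc_aux {Z : SS} (f : ∀ r, SS.Map (A.X r) Z) (hf : ∀ r, (f (r + 1)).comp (A.s r) = f r)
    {r m : ℕ} (h : r ≤ m) : (f m).comp (A.up h) = f r := by
  induction m, h using Nat.le_induction with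
  | base => rw [up_self]; rfl
  | succ m hm ih =>
    rw [A.up_succ hm, ← ih, ← hf m]
    rfl

/-- the map out of the colimit -/
def desc {Z : SS} (f : ∀ r, SS.Map (A.X r) Z) (hf : ∀ r, (f (r + 1)).comp (A.s r) = f r) :
    SS.Map A.colim Z where
  app {p} := Quotient.lift (s := A.setoid p) (fun a => (f a.1).app a.2) (by
    rintro a b ⟨m, h, h', e⟩
    show (f a.1).app a.2 = (f b.1).app b.2
    rw [← desc_aux f hf h, ← desc_aux f hf h', SS.Map.comp_app, SS.Map.comp_app, e])
  nat {p q} α u := by
    obtain ⟨r, x, rfl⟩ := A.exists_inc u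
    exact (f r).nat α x

@[simp] theorem desc_inc {Z : SS} (f : ∀ r, SS.Map (A.X r) Z)
    (hf : ∀ r, (f (r + 1)).comp (A.s r) = f r) (r : ℕ) : (desc f hf).comp (A.inc r) = f r := rfl

theorem desc_inc_app {Z : SS} (f : ∀ r, SS.Map (A.X r) Z)
    (hf : ∀ r, (f (r + 1)).comp (A.s r) = f r) (r : ℕ) {p : ℕ} (x : (A.X r).obj p) :
    (desc f hf).app ((A.inc r).app x) = (f r).app x := rfl

/-- functoriality of the colimit -/
def cmap {B : Seq} (f : ∀ r, SS.Map (A.X r) (B.X r))
    (hf : ∀ r, (f (r + 1)).comp (A.s r) = (B.s r).comp (f r)) : SS.Map A.colim B.colim :=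
  desc (fun r => (B.inc r).comp (f r)) fun r => by
    show (B.inc (r + 1)).comp ((f (r + 1)).comp (A.s r)) = _
    rw [hf]
    show ((B.inc (r + 1)).comp (B.s r)).comp (f r) = _
    rw [B.inc_s]

theorem cmap_inc {B : Seq} (f : ∀ r, SS.Map (A.X r) (B.X r))
    (hf : ∀ r, (f (r + 1)).comp (A.s r) = (B.s r).comp (f r)) (r : ℕ) :
    (cmap f hf).comp (A.inc r) = (B.inc r).comp (f r) := rfl

theorem cmap_inc_app {B : Seq} (f : ∀ r, SS.Map (A.X r) (B.X r))
    (hf : ∀ r, (f (r + 1)).comp (A.s r) = (B.s r).comp (f r)) (r : ℕ) {p : ℕ}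
    (x : (A.X r).obj p) : (cmap f hf).app ((A.inc r).app x) = (B.inc r).app ((f r).app x) := rfl

theorem cmap_id (f : ∀ r, SS.Map (A.X r) (A.X r))
    (hf : ∀ r, (f (r + 1)).comp (A.s r) = (A.s r).comp (f r)) (h : ∀ r, f r = SS.Map.id _) :
    cmap f hf = SS.Map.id A.colim := by
  refine hom_ext fun r => ?_
  rw [cmap_inc, h]
  rfl

theorem cmap_comp {B C : Seq} (f : ∀ r, SS.Map (A.X r) (B.X r))
    (hf : ∀ r, (f (r + 1)).comp (A.s r) = (B.s r).comp (f r)) (g : ∀ r, SS.Map (B.X r) (C.X r))
    (hg : ∀ r, (g (r + 1)).comp (B.s r) = (C.s r).comp (g r)) (k : ∀ r, SS.Map (A.X r) (C.X r))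
    (hk : ∀ r, (k (r + 1)).comp (A.s r) = (C.s r).comp (k r)) (h : ∀ r, k r = (g r).comp (f r)) :
    cmap k hk = (cmap g hg).comp (cmap f hf) := by
  refine hom_ext fun r => ?_
  rw [cmap_inc, h]
  rfl

/-- a levelwise injective map of sequences with injective stage maps is injective on colimits -/
theorem cmap_inj {B : Seq} (f : ∀ r, SS.Map (A.X r) (B.X r))
    (hf : ∀ r, (f (r + 1)).comp (A.s r) = (B.s r).comp (f r)) (hB : ∀ r, (B.s r).Inj)
    (h : ∀ r, (f r).Inj) : (cmap f hf).Inj := by
  intro p u v e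
  obtain ⟨r, x, rfl⟩ := A.exists_inc u
  obtain ⟨r', hr, y, rfl⟩ := A.exists_inc_ge v r
  have e1 : (A.inc r).app x = (A.inc r').app ((A.up hr).app x) := by
    rw [← SS.Map.comp_app, A.inc_up]
  rw [e1] at e ⊢
  exact congrArg _ (h r' p (B.inc_inj hB r' p e))

end Seq

/-! ### Products -/

/-- the product of a family of simplicial sets -/
def piS {K : Type} (X : K → SS) : SS where
  obj p := ∀ k, (X k).obj p
  map f x k := (X k).map f (x k)
  map_id x := funext fun k => (X k).map_id (x k)
  map_comp f g x := funext fun k => (X k).map_comp f g (x k)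

/-- the map into a product -/
def toPi {K : Type} {W : SS} {X : K → SS} (f : ∀ k, SS.Map W (X k)) : SS.Map W (piS X) where
  app x k := (f k).app x
  nat α x := funext fun k => (f k).nat α x

@[simp] theorem toPi_app {K : Type} {W : SS} {X : K → SS} (f : ∀ k, SS.Map W (X k)) {p : ℕ}
    (x : W.obj p) (k : K) : (toPi f).app x k = (f k).app x := rfl

/-- the projection -/
def prPi {K : Type} (X : K → SS) (k : K) : SS.Map (piS X) (X k) where
  app x := x k
  nat _ _ := rfl

/-- functoriality of products -/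
def piSMap {K : Type} {X Y : K → SS} (f : ∀ k, SS.Map (X k) (Y k)) : SS.Map (piS X) (piS Y) where
  app x k := (f k).app (x k)
  nat α x := funext fun k => (f k).nat α (x k)

@[simp] theorem piMap_app {K : Type} {X Y : K → SS} (f : ∀ k, SS.Map (X k) (Y k)) {p : ℕ}
    (x : (piS X).obj p) (k : K) : (piSMap f).app x k = (f k).app (x k) := rfl

theorem pi_hom_ext {K : Type} {W : SS} {X : K → SS} {f g : SS.Map W (piS X)}
    (h : ∀ k, (prPi X k).comp f = (prPi X k).comp g) : f = g := by
  apply SS.Map.ext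
  intro p x
  funext k
  exact congrArg (fun m : SS.Map W (X k) => m.app x) (h k)

/-- **A finite product of increasing unions is the increasing union of the products.** -/
def IsUnion.pi {K : Type} [Finite K] {U : K → SS} {X : K → ℕ → SS}
    (h : ∀ k, IsUnion (U k) (X k)) : IsUnion (piS U) fun r => piS fun k => X k r where
  s r := piSMap fun k => (h k).s r
  i r := piSMap fun k => (h k).i r
  comp r := by
    apply SS.Map.ext
    intro p x
    funext k
    exact congrArg (fun m : SS.Map (X k r) (U k) => m.app (x k)) ((h k).comp r)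
  inj r p x y e := by
    funext k
    exact (h k).inj r p (congrFun e k)
  surj p u := by
    classical
    have := Fintype.ofFinite K
    -- moving up
    have up : ∀ (k : K) (r m : ℕ), r ≤ m → ∀ x : (X k r).obj p, ∃ y : (X k m).obj p,
        ((h k).i m).app y = ((h k).i r).app x := by
      intro k r m hm
      induction m, hm using Nat.le_induction with
      | base => exact fun x => ⟨x, rfl⟩
      | succ m _ ih =>
        intro x
        obtain ⟨y, hy⟩ := ih x
        refine ⟨((h k).s m).app y, ?_⟩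
        rw [← SS.Map.comp_app, (h k).comp, hy]
    choose r x hx using fun k => (h k).surj p (u k)
    choose y hy using fun k => up k (r k) (Finset.univ.sup r) (Finset.le_sup (Finset.mem_univ k))
      (x k)
    exact ⟨Finset.univ.sup r, y, funext fun k => (hy k).trans (hx k)⟩

end Vale.Agent.P263.GB
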