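import Vale.Agent.P263.GB.Cone

/-!
# P263, block GB: generators of the lowest relative homology of `f □ Y`

If `H_i(cone f) = 0` for `i < r`, every `r`-cycle of `cone (f □ Y)` is homologous to a sum of
`c_y` placed at vertices `y` of `Y`, `c_y` an `r`-cycle of `cone f` (`low_cone`); if `Y` is
connected, one vertex suffices (`low_cone_conn`).
-/

namespace Vale.Agent.P263.GB

open Vale.Agent.P263.S Vale.Agent.P263.E SMod

variable {R : Type} [CommRing R]

/-- transfer of generators along an equivalence of the source -/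
theorem span_transfer {A S B A' S' B' : Cx R} (i : Cx.Hom A S) (ρ : Cx.Hom S B)
    (i' : Cx.Hom A' S') (ρ' : Cx.Hom S' B') (f : Cx.Hom A B) (f' : Cx.Hom A' B')
    (e : ρ.comp i = f) (e' : ρ'.comp i' = f') {Y : Type} (u : Y → Cx.Hom A A')
    (s : Y → Cx.Hom S S') (v : Y → Cx.Hom B B')
    (hu : ∀ y n x, (s y).app n (i.app n x) = i'.app n ((u y).app n x))
    (hs : ∀ y n x, (v y).app n (ρ.app n x) = ρ'.app n ((s y).app n x))
    (hf : ∀ y n x, (v y).app n (f.app n x) = f'.app n ((u y).app n x))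
    (n : ℕ) (hi : ∀ m, RZ0 i m) (hi' : ∀ m, RZ0 i' m) (P : Finset Y → Prop)
    (z : (cone f').C n) (hz : (cone f').Cyc n z)
    (H : ∀ z : (cone ρ').C n, (cone ρ').Cyc n z →
      ∃ (w : (cone ρ').C (n + 1)) (F : Finset Y) (c : Y → (cone ρ).C n), P F ∧
        (∀ y, (cone ρ).Cyc n (c y)) ∧
        (cone ρ').d n w + ∑ y ∈ F, (coneMap ρ ρ' (s y) (v y) (hs y)).app n (c y) = z) :
    ∃ (w : (cone f').C (n + 1)) (F : Finset Y) (c : Y → (cone f).C n), P F ∧
      (∀ y, (cone f).Cyc n (c y)) ∧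
      (cone f').d n w + ∑ y ∈ F, (coneMap f f' (u y) (v y) (hf y)).app n (c y) = z := by
  subst e e'
  obtain ⟨w, F, c, hP, hc, h⟩ := H _ ((coneOut i' ρ').cyc hz)
  choose w1 x1 hx1 h1 using fun y => comp_lift i ρ n (fun m _ => hi m) (c y) (hc y)
  have hcomm : ∀ y x, (coneOut i' ρ').app n ((coneMap (ρ.comp i) (ρ'.comp i') (u y) (v y)
      (hf y)).app n x) = (coneMap ρ ρ' (s y) (v y) (hs y)).app n ((coneOut i ρ).app n x) := by
    intro y x
    cases n with
    | zero => rfl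
    | succ n =>
      obtain ⟨b, a⟩ := x
      exact Prod.ext rfl (hu y n a).symm
  have hcy : (cone (ρ'.comp i')).Cyc n (z - ∑ y ∈ F,
      (coneMap (ρ.comp i) (ρ'.comp i') (u y) (v y) (hf y)).app n (x1 y)) := by
    refine Cx.cyc_sub _ hz ?_
    clear h hz hP
    classical
    induction F using Finset.induction_on with
    | empty => rw [Finset.sum_empty]; exact Cx.cyc_zero' _ _
    | insert y F hy ih =>
      rw [Finset.sum_insert hy]
      exact Cx.cyc_add _ (Cx.Hom.cyc _ (hx1 y)) ih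
  obtain ⟨w2, x2, hx2, h2⟩ := comp_exact i' ρ' n _ hcy
    (w + ∑ y ∈ F, (coneMap ρ ρ' (s y) (v y) (hs y)).app (n + 1) (w1 y)) (by
      rw [map_sub, ← h, map_add, map_sum, map_sum]
      have : ∀ y ∈ F, (cone ρ').d n ((coneMap ρ ρ' (s y) (v y) (hs y)).app (n + 1) (w1 y)) =
          (coneMap ρ ρ' (s y) (v y) (hs y)).app n (c y) -
          (coneOut i' ρ').app n ((coneMap (ρ.comp i) (ρ'.comp i') (u y) (v y)
            (hf y)).app n (x1 y)) := by
        intro y _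
        rw [← Cx.Hom.comm, hcomm, ← map_sub]
        congr 1
        rw [← h1 y]
        abel
      rw [Finset.sum_congr rfl this, Finset.sum_sub_distrib]
      abel)
  obtain ⟨w3, h3⟩ := hi' n x2 hx2
  refine ⟨w2 + (coneIn i' ρ').app (n + 1) w3, F, x1, hP, hx1, ?_⟩
  rw [map_add, ← Cx.Hom.comm, h3, h2]
  abel

/-- the inclusion of the cone of `f` at a vertex of `Y` -/
noncomputable def coneAt {A B : SMod R} (f : SMod.Hom A B) {Y : SS} (y : Y.obj 0) :
    Cx.Hom (cone f.cx) (cone (boxL f Y).cx) :=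
  coneMap f.cx (boxL f Y).cx (at0 A y).cx (at0 B y).cx fun _ _ => (boxL_bx f Y _ _).symm

theorem atv_eq_sum (V : SMod R) (Y : SS) (p : ℕ) (t : Y.obj 0 →₀ V.obj p) :
    atv V Y p t = ∑ y ∈ t.support, bx V Y (dg Y p y) (t y) := by
  rw [atv, Finsupp.lsum_apply, Finsupp.sum]

/-- the source in the cone, for simplicial modules -/
def cR {A B : SMod R} (f : SMod.Hom A B) (n : ℕ) : A.obj n →ₗ[R] (cone f.cx).C (n + 1) :=
  coneR f.cx n

theorem d_cR {A B : SMod R} (f : SMod.Hom A B) (n : ℕ) (a : A.obj (n + 1))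
    (h0 : f.app (n + 1) a = 0) :
    (cone f.cx).d (n + 1) (cR f (n + 1) a) = - cR f n (A.d n a) := d_coneR f.cx n a h0

theorem cR_cyc {A B : SMod R} (f : SMod.Hom A B) (n : ℕ) (a : A.obj n) (h : A.cx.Cyc n a)
    (h0 : f.app n a = 0) : (cone f.cx).Cyc (n + 1) (cR f n a) := coneR_cyc f.cx n a h h0

theorem surj_lift' {K S B : SMod R} {j : SMod.Hom K S} {ρ : SMod.Hom S B} (h : SES j ρ) (n : ℕ)
    (z : (cone ρ.cx).C (n + 1)) (hz : (cone ρ.cx).Cyc (n + 1) z) :
    ∃ (w : (cone ρ.cx).C (n + 2)) (k : K.obj n), K.cx.Cyc n k ∧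
      (cone ρ.cx).d (n + 1) w + cR ρ n (j.app n k) = z := surj_lift h.cx n z hz

theorem coneAt_cR {A B : SMod R} (f : SMod.Hom A B) {Y : SS} (y : Y.obj 0) (r : ℕ)
    (a : A.obj r) : (coneAt f y).app (r + 1) (cR f r a) =
      cR (boxL f Y) r (bx A Y (dg Y r y) a) := by
  change (((at0 B y).app (r + 1) 0, (at0 A y).app r a) : (box B Y).obj (r + 1) × (box A Y).obj r) =
    (0, bx A Y (dg Y r y) a)
  rw [map_zero]
  rfl

theorem cR_kernel {K S B : SMod R} {j : SMod.Hom K S} {ρ : SMod.Hom S B} (h : SES j ρ)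
    (Y : SS) (r : ℕ) (w : (box K Y).obj (r + 1)) :
    (cone (boxL ρ Y).cx).d (r + 1) (cR (boxL ρ Y) (r + 1) ((boxL j Y).app (r + 1) w)) =
      - cR (boxL ρ Y) r ((boxL j Y).app r ((box K Y).d r w)) := by
  rw [d_cR _ _ _ ((ses_boxL h Y).zero _ _), SMod.Hom.app_d]

/-- the surjective case -/
theorem low_cone_surj {K S B : SMod R} {j : SMod.Hom K S} {ρ : SMod.Hom S B} (h : SES j ρ)
    (Y : SS) (r : ℕ) (hK : ∀ i < r, K.cx.HZ i) (z : (cone (boxL ρ Y).cx).C (r + 1))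
    (hz : (cone (boxL ρ Y).cx).Cyc (r + 1) z) :
    ∃ (w : (cone (boxL ρ Y).cx).C (r + 2)) (F : Finset (Y.obj 0))
      (c : Y.obj 0 → (cone ρ.cx).C (r + 1)), True ∧
      (∀ y, (cone ρ.cx).Cyc (r + 1) (c y)) ∧
      (cone (boxL ρ Y).cx).d (r + 1) w + ∑ y ∈ F, (coneAt ρ y).app (r + 1) (c y) = z := by
  have hB := ses_boxL h Y
  obtain ⟨w, k, hk, rfl⟩ := surj_lift' hB r z hz
  obtain ⟨w2, t, ht, rfl⟩ := low_box Y r K hK k hk
  refine ⟨w - cR (boxL ρ Y) (r + 1) ((boxL j Y).app (r + 1) w2), t.support,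
    fun y => cR ρ r (j.app r (t y)), trivial, fun y => cR_cyc _ _ _ (j.cx.cyc (ht y))
      (h.zero _ _), ?_⟩
  have e1 : cR (boxL ρ Y) r ((boxL j Y).app r (atv K Y r t)) =
      ∑ y ∈ t.support, (coneAt ρ y).app (r + 1) (cR ρ r (j.app r (t y))) := by
    rw [atv_eq_sum, map_sum, map_sum]
    refine Finset.sum_congr rfl fun y _ => ?_
    rw [coneAt_cR, boxL_bx]
  rw [map_sub, map_add, map_add, ← e1, cR_kernel h]
  abel

/-- the surjective case, connected -/
theorem low_cone_surj_conn {K S B : SMod R} {j : SMod.Hom K S} {ρ : SMod.Hom S B} (h : SES j ρ)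
    (Y : SS) (y₀ : Y.obj 0) (hY : Conn0 R Y y₀) (r : ℕ) (hK : ∀ i < r, K.cx.HZ i)
    (z : (cone (boxL ρ Y).cx).C (r + 1)) (hz : (cone (boxL ρ Y).cx).Cyc (r + 1) z) :
    ∃ (w : (cone (boxL ρ Y).cx).C (r + 2)) (F : Finset (Y.obj 0))
      (c : Y.obj 0 → (cone ρ.cx).C (r + 1)), F = {y₀} ∧
      (∀ y, (cone ρ.cx).Cyc (r + 1) (c y)) ∧
      (cone (boxL ρ Y).cx).d (r + 1) w + ∑ y ∈ F, (coneAt ρ y).app (r + 1) (c y) = z := by
  have hB := ses_boxL h Y
  obtain ⟨w, k, hk, rfl⟩ := surj_lift' hB r z hz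
  obtain ⟨w2, t, ht, rfl⟩ := low_box_conn Y y₀ hY r K hK k hk
  refine ⟨w - cR (boxL ρ Y) (r + 1) ((boxL j Y).app (r + 1) w2), {y₀},
    fun _ => cR ρ r (j.app r t), rfl, fun _ => cR_cyc _ _ _ (j.cx.cyc ht) (h.zero _ _), ?_⟩
  rw [map_sub, map_add, map_add, cR_kernel h, boxL_bx, Finset.sum_singleton, coneAt_cR]
  abel

theorem box_comp_cx {A B : SMod R} (f : SMod.Hom A B) (Y : SS) :
    (boxL (rho f) Y).cx.comp (boxL (inlH A B.Path) Y).cx = (boxL f Y).cx := by
  have := congrArg SMod.Hom.cx (boxL_comp (rho f) (inlH A B.Path) Y)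
  rw [rho_comp_inl] at this
  exact this.symm

theorem comp_cx_rho {A B : SMod R} (f : SMod.Hom A B) :
    (rho f).cx.comp (inlH A B.Path).cx = f.cx :=
  congrArg SMod.Hom.cx (rho_comp_inl f)

theorem at0_nat {A B : SMod R} (f : SMod.Hom A B) {Y : SS} (y : Y.obj 0) (n : ℕ) (x : A.cx.C n) :
    (at0 B y).cx.app n (f.cx.app n x) = (boxL f Y).cx.app n ((at0 A y).cx.app n x) :=
  (boxL_bx f Y _ _).symm

/-- degree `0` -/
theorem low_cone_zero {A B : SMod R} (f : SMod.Hom A B) (Y : SS)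
    (z : (cone (boxL f Y).cx).C 0) : ∃ (F : Finset (Y.obj 0)) (c : Y.obj 0 → (cone f.cx).C 0),
      ∑ y ∈ F, (coneAt f y).app 0 (c y) = z := by
  have key : ∀ z : Y.obj 0 →₀ B.obj 0, ∃ (F : Finset (Y.obj 0)) (c : Y.obj 0 → B.obj 0),
      ∑ y ∈ F, bx B Y (dg Y 0 y) (c y) = z := by
    intro z
    refine ⟨z.support, z, ?_⟩
    rw [← atv_eq_sum]
    induction z using Finsupp.induction_linear with
    | zero => exact map_zero _
    | add x y hx hy => exact (map_add (atv B Y 0) x y).trans (congrArg₂ _ hx hy)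
    | single y v => exact (atv_single B Y 0 y v).trans (by rw [dg_zero]; rfl)
  exact key z

theorem low_cone_zero_conn {A B : SMod R} (f : SMod.Hom A B) (Y : SS) (y₀ : Y.obj 0)
    (hY : Conn0 R Y y₀) (z : (cone (boxL f Y).cx).C 0) :
    ∃ (w : (cone (boxL f Y).cx).C 1) (c : (cone f.cx).C 0),
      (cone (boxL f Y).cx).d 0 w + (coneAt f y₀).app 0 c = z := by
  obtain ⟨w, t, -, h⟩ := low_box_conn Y y₀ hY 0 B (fun i hi => absurd hi (Nat.not_lt_zero i)) z
    trivial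
  refine ⟨(w, 0), t, ?_⟩
  have h2 : (box B Y).d 0 w + (boxL f Y).app 0 0 + bx B Y (dg Y 0 y₀) t = z := by
    rw [map_zero, add_zero]; exact h
  exact h2

/-- **(K2, relative)** if `H_i(cone f) = 0` for `i < r`, every `r`-cycle of `cone (f □ Y)` is
homologous to a sum of `r`-cycles of `cone f` placed at vertices of `Y` -/
theorem low_cone {A B : SMod R} (f : SMod.Hom A B) (Y : SS) (r : ℕ)
    (h : ∀ i < r, RZ0 f.cx i) (z : (cone (boxL f Y).cx).C r)
    (hz : (cone (boxL f Y).cx).Cyc r z) :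
    ∃ (w : (cone (boxL f Y).cx).C (r + 1)) (F : Finset (Y.obj 0))
      (c : Y.obj 0 → (cone f.cx).C r), (∀ y, (cone f.cx).Cyc r (c y)) ∧
      (cone (boxL f Y).cx).d r w + ∑ y ∈ F, (coneAt f y).app r (c y) = z := by
  cases r with
  | zero =>
    obtain ⟨F, c, hc⟩ := low_cone_zero f Y z
    exact ⟨0, F, c, fun _ => trivial, by rw [map_zero, zero_add, hc]⟩
  | succ r =>
    have h0 : RZ0 f.cx 0 := h 0 (by omega)
    obtain ⟨w, F, c, -, hc, H⟩ := span_transfer (inlH A B.Path).cx (rho f).cx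
      (boxL (inlH A B.Path) Y).cx (boxL (rho f) Y).cx f.cx (boxL f Y).cx (comp_cx_rho f)
      (box_comp_cx f Y)
      (fun y => (at0 A y).cx) (fun y => (at0 (A.prod B.Path) y).cx) (fun y => (at0 B y).cx)
      (at0_nat (inlH A B.Path)) (at0_nat (rho f)) (at0_nat f) (r + 1) (rz0_inl A B)
      (rz0_box_inl A B Y) (fun _ => True) z hz
      (fun z hz => low_cone_surj (ses_rho f h0) Y r
        (fun i hi => fib_hz f h0 i (h (i + 1) (by omega))) z hz)
    exact ⟨w, F, c, hc, H⟩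

/-- **(K2, relative, connected)** if `H_i(cone f) = 0` for `i < r` and `Y` is connected, every
`r`-cycle of `cone (f □ Y)` is homologous to an `r`-cycle of `cone f` placed at `y₀` -/
theorem low_cone_conn {A B : SMod R} (f : SMod.Hom A B) (Y : SS) (y₀ : Y.obj 0)
    (hY : Conn0 R Y y₀) (r : ℕ) (h : ∀ i < r, RZ0 f.cx i) (z : (cone (boxL f Y).cx).C r)
    (hz : (cone (boxL f Y).cx).Cyc r z) :
    ∃ (w : (cone (boxL f Y).cx).C (r + 1)) (c : (cone f.cx).C r), (cone f.cx).Cyc r c ∧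
      (cone (boxL f Y).cx).d r w + (coneAt f y₀).app r c = z := by
  cases r with
  | zero =>
    obtain ⟨w, c, hc⟩ := low_cone_zero_conn f Y y₀ hY z
    exact ⟨w, c, trivial, hc⟩
  | succ r =>
    have h0 : RZ0 f.cx 0 := h 0 (by omega)
    obtain ⟨w, F, c, rfl, hc, H⟩ := span_transfer (inlH A B.Path).cx (rho f).cx
      (boxL (inlH A B.Path) Y).cx (boxL (rho f) Y).cx f.cx (boxL f Y).cx (comp_cx_rho f)
      (box_comp_cx f Y)
      (fun y => (at0 A y).cx) (fun y => (at0 (A.prod B.Path) y).cx) (fun y => (at0 B y).cx)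
      (at0_nat (inlH A B.Path)) (at0_nat (rho f)) (at0_nat f) (r + 1) (rz0_inl A B)
      (rz0_box_inl A B Y) (fun F => F = {y₀}) z hz
      (fun z hz => low_cone_surj_conn (ses_rho f h0) Y y₀ hY r
        (fun i hi => fib_hz f h0 i (h (i + 1) (by omega))) z hz)
    rw [Finset.sum_singleton] at H
    exact ⟨w, c y₀, hc y₀, H⟩

end Vale.Agent.P263.GB
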