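import Vale.Agent.P263.GB.Diag

/-!
# P263, block GB: the corner lemma in its cokernel form (COR)

`SSMod.cor` : if `H_t(V_k) = 0` for all `k` and `t < r`, and `H_r(diag V) = 0`, then every
`r`-cycle `x` of `V_0` is `d_0 w - d_1 w + d y` with `w` an `r`-cycle of `V_1`.

`SSMod.diag_hz_of_zero` : if `H_t(V_k) = 0` for all `k` and `t < r`, and `H_r(V_0) = 0`, then
`H_r(diag V) = 0`.
-/

namespace Vale.Agent.P263.GB

open Vale.Agent.P263.S

variable {R : Type} [CommRing R]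

namespace SSMod

theorem cor_zero (V : SSMod R) (hd : V.diag.cx.HZ 0) (x : (V.obj 0).obj 0) :
    ∃ (w : (V.obj 1).obj 0) (y : (V.obj 0).obj 1),
      x = (V.map (dl 0 0)).app 0 w - (V.map (dl 0 1)).app 0 w + (V.obj 0).d 0 y := by
  obtain ⟨z, hz⟩ : ∃ z : (V.obj 1).obj 1, V.diag.d 0 z = x := hd x trivial
  refine ⟨(V.obj 1).map (dl 0 0) z, (V.map (dl 0 1)).app 1 z, ?_⟩
  rw [← hz, SMod.d_zero_apply, SMod.d_zero_apply, diag_map, diag_map, (V.map (dl 0 1)).nat,
    (V.map (dl 0 1)).nat]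
  abel

/-- **The corner lemma, cokernel form.** -/
theorem cor (r : ℕ) : ∀ V : SSMod R, (∀ k, ∀ t < r, (V.obj k).cx.HZ t) → V.diag.cx.HZ r →
    ∀ x : (V.obj 0).obj r, (V.obj 0).cx.Cyc r x →
      ∃ w : (V.obj 1).obj r, (V.obj 1).cx.Cyc r w ∧ ∃ y : (V.obj 0).obj (r + 1),
        x = (V.map (dl 0 0)).app r w - (V.map (dl 0 1)).app r w + (V.obj 0).d r y := by
  induction r with
  | zero =>
    intro V _ hd x _
    obtain ⟨w, y, h⟩ := V.cor_zero hd x
    exact ⟨w, trivial, y, h⟩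
  | succ r ih =>
    intro V hV hd x hx
    have hz : ∀ k, (V.obj k).cx.HZ 0 := fun k => hV k 0 (by omega)
    obtain ⟨x', rfl⟩ := (V.obj 0).ev_surj (hz 0) _ x
    have hx' : (V.obj 0).ev.app r ((V.obj 0).Path.d r x') = 0 := by
      rw [(V.obj 0).ev.app_d]; exact hx
    have hcyc : (V.obj 0).Loop.cx.Cyc r ⟨(V.obj 0).Path.d r x', hx'⟩ := by
      cases r with
      | zero => trivial
      | succ r => exact Subtype.ext (((SMod.kerI (V.obj 0).ev).app_d r ⟨_, hx'⟩).trans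
          ((V.obj 0).Path.d_d r x'))
    obtain ⟨w, hw, y, hwy⟩ := ih V.Loop (fun k t ht => (V.obj k).loop_hz (hz k) t
      (hV k _ (by omega))) ((V.ses_diag hz).hz_left _ (V.path_diag_hz _) hd) _ hcyc
    have hw1 : (V.obj 1).Path.cx.Cyc r w.1 := (SMod.kerI (V.obj 1).ev).cx.cyc hw
    obtain ⟨w', hw'⟩ : ∃ w' : (V.obj 1).Path.obj (r + 1), (V.obj 1).Path.d r w' = w.1 :=
      (V.obj 1).Path_hz r w.1 hw1
    -- the boundary equation in the path object
    have h1 : (V.obj 0).Path.d r x' = (V.Path.map (dl 0 0)).app r w.1 -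
        (V.Path.map (dl 0 1)).app r w.1 + (V.obj 0).Path.d r y.1 := by
      have h2 := congrArg Subtype.val hwy
      have h3 : ((V.obj 0).Loop.d r y).1 = (V.obj 0).Path.d r y.1 :=
        (SMod.kerI (V.obj 0).ev).app_d r y
      exact h2.trans (congrArg (fun z => (V.Path.map (dl 0 0)).app r w.1 -
        (V.Path.map (dl 0 1)).app r w.1 + z) h3)
    have h2 : (V.obj 0).Path.d r (x' - ((V.Path.map (dl 0 0)).app (r + 1) w' -
        (V.Path.map (dl 0 1)).app (r + 1) w') - y.1) = 0 := by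
      rw [map_sub, map_sub, map_sub, ← (V.Path.map (dl 0 0)).app_d,
        ← (V.Path.map (dl 0 1)).app_d, hw', h1]
      abel
    obtain ⟨y', hy'⟩ : ∃ y' : (V.obj 0).Path.obj (r + 2), (V.obj 0).Path.d (r + 1) y' =
        x' - ((V.Path.map (dl 0 0)).app (r + 1) w' -
        (V.Path.map (dl 0 1)).app (r + 1) w') - y.1 := (V.obj 0).Path_hz (r + 1) _ h2
    refine ⟨(V.obj 1).ev.app (r + 1) w', ?_, (V.obj 0).ev.app (r + 2) y', ?_⟩
    · change (V.obj 1).d r ((V.obj 1).ev.app (r + 1) w') = 0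
      rw [← (V.obj 1).ev.app_d, hw']
      exact w.2
    · have e0 : (V.obj 0).ev.app (r + 1) ((V.Path.map (dl 0 0)).app (r + 1) w') =
          (V.map (dl 0 0)).app (r + 1) ((V.obj 1).ev.app (r + 1) w') :=
        SMod.pathMap_ev (V.map (dl 0 0)) w'
      have e1 : (V.obj 0).ev.app (r + 1) ((V.Path.map (dl 0 1)).app (r + 1) w') =
          (V.map (dl 0 1)).app (r + 1) ((V.obj 1).ev.app (r + 1) w') :=
        SMod.pathMap_ev (V.map (dl 0 1)) w'
      have e2 : (V.obj 0).ev.app (r + 1) y.1 = 0 := y.2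
      rw [← (V.obj 0).ev.app_d, hy', map_sub, map_sub, map_sub, e0, e1, e2]
      abel

/-- vanishing of the diagonal in the lowest degree -/
theorem diag_hz_of_zero (r : ℕ) : ∀ V : SSMod R, (∀ k, ∀ t < r, (V.obj k).cx.HZ t) →
    (V.obj 0).cx.HZ r → V.diag.cx.HZ r := by
  induction r with
  | zero =>
    intro V _ h0
    exact V.diag_hz_zero h0
  | succ r ih =>
    intro V hV h0
    have hz : ∀ k, (V.obj k).cx.HZ 0 := fun k => hV k 0 (by omega)
    refine (V.ses_diag hz).hz_right (r + 1) (V.path_diag_hz _) ?_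
    intro m hm
    obtain rfl : m = r := by omega
    exact ih V.Loop (fun k t ht => (V.obj k).loop_hz (hz k) t (hV k _ (by omega)))
      ((V.obj 0).loop_hz (hz 0) m h0)

end SSMod

end Vale.Agent.P263.GB
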