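import Vale.Agent.P263.GB.GamH
import Vale.Agent.P263.GB.BSS
import Mathlib.Data.Finite.Sum

/-!
# P263, block G2: simplicial objects in `Gam`, their diagonals, the Segal condition

* `Gam.seg G K L : G(K ⊕ L) → G(K) × G(L)`, `Gam.SegalH R G` : it is a homology isomorphism.
* `SGam` : simplicial objects in `Gam`; `SGam.diag : Gam`; `SGam.Hom`, `SGam.Hom.diag`.
* `G.bs : SGam` with `G.bs.diag = G.B` (by `rfl`).
* `SGam.rz0_diag`, `SGam.segalH_diag`, `Gam.SegalH.B`, `Gam.SegalH.BN`.
* `SGam.B`, `SGam.BN` (levelwise), and `(V.diag).BN N ≅ (V.BN N).diag` (`SGam.toDiagBN`, identity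
  on simplices).
-/

namespace Vale.Agent.P263.GB

open Vale.Agent.P263.S Vale.Agent.P263.E

/-! ### the Segal map -/

/-- the pointed map onto the first summand -/
def lftO {K L : Type} : K ⊕ L → Option K := Sum.elim some (fun _ => none)

/-- the pointed map onto the second summand -/
def rgtO {K L : Type} : K ⊕ L → Option L := Sum.elim (fun _ => none) some

theorem sndK_lftO {K L : Type} (A : Type) (x : A × (K ⊕ L)) :
    sndK A (lftO : K ⊕ L → Option K) x =
      lftO (K := A × K) (L := A × L) (Equiv.prodSumDistrib A K L x) := by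
  rcases x with ⟨a, k | l⟩ <;> rfl

theorem sndK_rgtO {K L : Type} (A : Type) (x : A × (K ⊕ L)) :
    sndK A (rgtO : K ⊕ L → Option L) x =
      rgtO (K := A × K) (L := A × L) (Equiv.prodSumDistrib A K L x) := by
  rcases x with ⟨a, k | l⟩ <;> rfl

namespace Gam

/-- the Segal map -/
def seg (G : Gam) (K L : Type) [Finite K] [Finite L] :
    SS.Map (G.obj (K ⊕ L)) ((G.obj K).prod (G.obj L)) :=
  SS.pair (G.map lftO) (G.map rgtO)

/-- the Segal condition up to homology with coefficients `R` -/
def SegalH (R : Type) [CommRing R] (G : Gam) : Prop :=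
  ∀ (K L : Type) [Finite K] [Finite L] (n : ℕ), RZ0 (freeMap R (G.seg K L)).cx n

/-- relabelling along a bijection is bijective -/
theorem map_equiv_bijective (G : Gam) {K L : Type} [Finite K] [Finite L] (e : K ≃ L) (p : ℕ) :
    Function.Bijective ((G.map (fun k => some (e k))).app (p := p)) := by
  have h1 : ∀ x : (G.obj K).obj p,
      (G.map (fun l => some (e.symm l))).app ((G.map (fun k => some (e k))).app x) = x := by
    intro x
    rw [← G.map_bind]
    have : (fun k => ((some (e k)).bind fun l => some (e.symm l)) : K → Option K) = some := by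
      funext k
      simp
    rw [this, G.map_some]
  have h2 : ∀ x : (G.obj L).obj p,
      (G.map (fun k => some (e k))).app ((G.map (fun l => some (e.symm l))).app x) = x := by
    intro x
    rw [← G.map_bind]
    have : (fun l => ((some (e.symm l)).bind fun k => some (e k)) : L → Option L) = some := by
      funext k
      simp
    rw [this, G.map_some]
  exact ⟨fun x y h => by rw [← h1 x, h, h1 y], fun y => ⟨_, h2 y⟩⟩

end Gam

/-! ### generalities -/

section

variable {R : Type} [CommRing R]

theorem freeMap_bijective {X Y : SS} (f : SS.Map X Y) {p : ℕ}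
    (h : Function.Bijective (f.app (p := p))) : Function.Bijective ((freeMap R f).cx.app p) :=
  ⟨Finsupp.mapDomain_injective h.1, fun y => by
    obtain ⟨g, hg⟩ := h.2.hasRightInverse
    have key : ∀ y : Y.obj p →₀ R, Finsupp.mapDomain f.app (Finsupp.mapDomain g y) = y := by
      intro y
      rw [← Finsupp.mapDomain_comp]
      have : f.app ∘ g = _root_.id := funext hg
      rw [this, Finsupp.mapDomain_id]
    exact ⟨Finsupp.mapDomain g y, key y⟩⟩

/-- `RZ0` along commutative squares with levelwise bijective verticals -/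
theorem rz0_square {A B A' B' : SS} (f : SS.Map A B) (f' : SS.Map A' B') (u : SS.Map A A')
    (v : SS.Map B B') (hu : ∀ p, Function.Bijective (u.app (p := p)))
    (hv : ∀ p, Function.Bijective (v.app (p := p)))
    (h : ∀ p (x : A.obj p), f'.app (u.app x) = v.app (f.app x)) (n : ℕ) :
    RZ0 (freeMap R f).cx n ↔ RZ0 (freeMap R f').cx n :=
  rz0_congr _ _ (freeMap R u).cx (freeMap R v).cx (fun p => freeMap_bijective u (hu p))
    (fun p => freeMap_bijective v (hv p)) (fun p x =>
      (Gam.freeMap_comp_of u f' (f'.comp u) (fun _ => rfl) x).symm.trans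
        (Gam.freeMap_comp_of f v (f'.comp u) (fun x => h p x) x)) n

/-- the relative diagonal lemma for bisimplicial sets -/
theorem BSS.Hom.rz0_diag {X Y : BSS} (F : BSS.Hom X Y) (r : ℕ)
    (h : ∀ k, ∀ t < r, RZ0 (freeMap R (F.app k)).cx t) (t : ℕ) (ht : t < r) :
    RZ0 (freeMap R F.diag).cx t :=
  (F.rz0_diag_iff t).2 (SSMod.rz0_diag (F.free R) r h t ht)

/-- with one more degree if the column `0` has it -/
theorem BSS.Hom.rz0_diag_le {X Y : BSS} (F : BSS.Hom X Y) (r : ℕ)
    (h : ∀ k, ∀ t < r, RZ0 (freeMap R (F.app k)).cx t)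
    (h0 : ∀ t ≤ r, RZ0 (freeMap R (F.app 0)).cx t) (t : ℕ) (ht : t ≤ r) :
    RZ0 (freeMap R F.diag).cx t :=
  (F.rz0_diag_iff t).2 (SSMod.rz0_diag_le (F.free R) r h h0 t ht)

end

/-! ### simplicial objects in `Gam` -/

/-- Simplicial objects in `Gam`. -/
structure SGam where
  /-- the levels -/
  obj : ℕ → Gam
  /-- the operators -/
  map : ∀ {k l : ℕ}, Op k l → Gam.Hom (obj l) (obj k)
  map_id : ∀ {k : ℕ} (K : Type) [Finite K] {m : ℕ} (x : ((obj k).obj K).obj m),
    ((map (OrderHom.id : Op k k)).app K).app x = x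
  map_comp : ∀ {k l n : ℕ} (f : Op l n) (g : Op k l) (K : Type) [Finite K] {m : ℕ}
    (x : ((obj n).obj K).obj m),
    ((map (f.comp g)).app K).app x = ((map g).app K).app (((map f).app K).app x)

namespace SGam

/-- the bisimplicial set at `K` -/
def bss (V : SGam) (K : Type) [Finite K] : BSS where
  obj k := (V.obj k).obj K
  map f := (V.map f).app K
  map_id x := V.map_id K x
  map_comp f g x := V.map_comp f g K x

/-- relabelling -/
def bssMap (V : SGam) {K L : Type} [Finite K] [Finite L] (f : K → Option L) :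
    BSS.Hom (V.bss K) (V.bss L) where
  app k := (V.obj k).map f
  nat θ x := ((V.map θ).nat f x).symm

/-- the diagonal -/
def diag (V : SGam) : Gam where
  obj K := (V.bss K).diag
  map f := (V.bssMap f).diag
  map_some x := (V.obj _).map_some x
  map_bind f g p x := (V.obj p).map_bind f g x

theorem diag_map_app (V : SGam) {K L : Type} [Finite K] [Finite L] (f : K → Option L) {p : ℕ}
    (x : (V.diag.obj K).obj p) : (V.diag.map f).app x = ((V.obj p).map f).app x := rfl

theorem diag_op (V : SGam) (K : Type) [Finite K] {p q : ℕ} (θ : Op p q)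
    (x : (V.diag.obj K).obj q) :
    (V.diag.obj K).map θ x = ((V.map θ).app K).app (((V.obj q).obj K).map θ x) := rfl

/-- maps -/
structure Hom (V W : SGam) where
  /-- the components -/
  app : ∀ k, Gam.Hom (V.obj k) (W.obj k)
  nat : ∀ {k l : ℕ} (f : Op k l) (K : Type) [Finite K] {m : ℕ} (x : ((V.obj l).obj K).obj m),
    ((app k).app K).app (((V.map f).app K).app x) =
      ((W.map f).app K).app (((app l).app K).app x)

/-- the map of bisimplicial sets at `K` -/
def Hom.bss {V W : SGam} (a : Hom V W) (K : Type) [Finite K] : BSS.Hom (V.bss K) (W.bss K) where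
  app k := (a.app k).app K
  nat f x := a.nat f K x

/-- the diagonal of a map -/
def Hom.diag {V W : SGam} (a : Hom V W) : Gam.Hom V.diag W.diag where
  app K := (a.bss K).diag
  nat f p x := (a.app p).nat f x

theorem Hom.diag_app {V W : SGam} (a : Hom V W) (K : Type) [Finite K] {p : ℕ}
    (x : (V.diag.obj K).obj p) : (a.diag.app K).app x = ((a.app p).app K).app x := rfl

/-- the relative diagonal lemma -/
theorem Hom.rz0_diag {R : Type} [CommRing R] {V W : SGam} (a : Hom V W) (K : Type) [Finite K]
    (r : ℕ) (h : ∀ k, ∀ t < r, RZ0 (freeMap R ((a.app k).app K)).cx t) (t : ℕ) (ht : t < r) :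
    RZ0 (freeMap R (a.diag.app K)).cx t :=
  BSS.Hom.rz0_diag (a.bss K) r h t ht

/-- the Segal maps of the levels -/
def segB (V : SGam) (K L : Type) [Finite K] [Finite L] :
    BSS.Hom (V.bss (K ⊕ L))
      { obj := fun k => ((V.obj k).obj K).prod ((V.obj k).obj L)
        map := fun f => SS.pair (((V.map f).app K).comp (SS.fst _ _))
          (((V.map f).app L).comp (SS.snd _ _))
        map_id := fun x => Prod.ext (V.map_id K x.1) (V.map_id L x.2)
        map_comp := fun f g x => Prod.ext (V.map_comp f g K x.1) (V.map_comp f g L x.2) } where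
  app k := (V.obj k).seg K L
  nat θ x := Prod.ext ((V.map θ).nat lftO x).symm ((V.map θ).nat rgtO x).symm

/-- the diagonal of Segal objects is Segal -/
theorem segalH_diag {R : Type} [CommRing R] (V : SGam) (h : ∀ k, (V.obj k).SegalH R) :
    V.diag.SegalH R := by
  intro K L _ _ n
  exact BSS.Hom.rz0_diag (V.segB K L) (n + 1) (fun k t _ => h k K L t) n (Nat.lt_succ_self n)

theorem pt_diag (V : SGam) (h : ∀ k, (V.obj k).Pt) : V.diag.Pt where
  sub K _ _ p := (h p).sub K p
  ne K _ _ p := (h p).ne K p

end SGam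

namespace Gam

/-- `K ↦ G(A × K)` -/
def shift (G : Gam) (A : Type) [Finite A] : Gam where
  obj K := G.obj (A × K)
  map f := G.map (sndK A f)
  map_some x := by rw [sndK_some, G.map_some]
  map_bind f g p x := by rw [sndK_bind, G.map_bind]

theorem shift_pt {G : Gam} (h : G.Pt) (A : Type) [Finite A] : (G.shift A).Pt where
  sub K _ _ p := h.sub (A × K) p
  ne K _ _ p := h.ne (A × K) p

theorem lft_dist (G : Gam) (A K L : Type) [Finite A] [Finite K] [Finite L] {p : ℕ}
    (x : (G.obj (A × (K ⊕ L))).obj p) :
    (G.map lftO).app ((G.map fun x => some (Equiv.prodSumDistrib A K L x)).app x) =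
      (G.map (sndK A lftO)).app x := by
  rw [← G.map_bind]
  congr 2
  funext y
  exact (sndK_lftO A y).symm

theorem rgt_dist (G : Gam) (A K L : Type) [Finite A] [Finite K] [Finite L] {p : ℕ}
    (x : (G.obj (A × (K ⊕ L))).obj p) :
    (G.map rgtO).app ((G.map fun x => some (Equiv.prodSumDistrib A K L x)).app x) =
      (G.map (sndK A rgtO)).app x := by
  rw [← G.map_bind]
  congr 2
  funext y
  exact (sndK_rgtO A y).symm

theorem circK_sndK (G : Gam) {K L : Type} [Finite K] [Finite L] {k l : ℕ} (θ : Op k l)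
    (f : K → Option L) {p : ℕ} (x : (G.obj (Fin l × K)).obj p) :
    (G.map (circK L θ)).app ((G.map (sndK (Fin l) f)).app x) =
      (G.map (sndK (Fin k) f)).app ((G.map (circK K θ)).app x) := by
  rw [← G.map_bind, ← G.map_bind, sndK_circK]

theorem map_circK_id (G : Gam) {K : Type} [Finite K] {k : ℕ} {p : ℕ}
    (x : (G.obj (Fin k × K)).obj p) : (G.map (circK K (OrderHom.id : Op k k))).app x = x := by
  rw [circK_id, G.map_some]

theorem map_circK_comp (G : Gam) {K : Type} [Finite K] {k l n : ℕ} (f : Op l n) (g : Op k l)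
    {p : ℕ} (x : (G.obj (Fin n × K)).obj p) :
    (G.map (circK K (f.comp g))).app x =
      (G.map (circK K g)).app ((G.map (circK K f)).app x) := by
  rw [circK_comp, G.map_bind]

/-- shifts of Segal objects are Segal -/
theorem SegalH.shift {R : Type} [CommRing R] {G : Gam} (h : G.SegalH R) (A : Type) [Finite A] :
    (G.shift A).SegalH R := by
  intro K L _ _ n
  refine (rz0_square ((G.shift A).seg K L) (G.seg (A × K) (A × L))
    (G.map (fun x => some (Equiv.prodSumDistrib A K L x))) (SS.Map.id _)
    (fun p => G.map_equiv_bijective (Equiv.prodSumDistrib A K L) p)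
    (fun p => Function.bijective_id) (fun p x => ?_) n).2 (h (A × K) (A × L) n)
  exact Prod.ext (G.lft_dist A K L x) (G.rgt_dist A K L x)

/-- the simplicial object `k ↦ G(S¹_k ∧ K₊)` -/
noncomputable def bs (G : Gam) : SGam where
  obj k := G.shift (Fin k)
  map θ :=
    { app := fun K => G.map (circK K θ)
      nat := fun f _ x => G.circK_sndK θ f x }
  map_id _ _ _ x := G.map_circK_id x
  map_comp f g _ _ _ x := G.map_circK_comp f g x

theorem bs_diag (G : Gam) : G.bs.diag = G.B := rfl

/-- `B` preserves the Segal condition -/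
theorem SegalH.B {R : Type} [CommRing R] {G : Gam} (h : G.SegalH R) : G.B.SegalH R :=
  G.bs.segalH_diag fun k => h.shift (Fin k)

theorem SegalH.BN {R : Type} [CommRing R] {G : Gam} (h : G.SegalH R) :
    ∀ N, (G.BN N).SegalH R
  | 0 => h
  | N + 1 => (SegalH.BN h N).B

end Gam

/-! ### `B` commutes with diagonals -/

namespace SGam

/-- levelwise `B` -/
noncomputable def B (V : SGam) : SGam where
  obj k := (V.obj k).B
  map f := (V.map f).B
  map_id K _ m x := V.map_id (Fin m × K) x
  map_comp f g K _ m x := V.map_comp f g (Fin m × K) x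

/-- levelwise `BN` -/
noncomputable def BN (V : SGam) : ℕ → SGam
  | 0 => V
  | n + 1 => (BN V n).B

/-- `B` of the diagonal is the diagonal of `B` -/
noncomputable def toDiagB (V : SGam) : Gam.Hom V.diag.B V.B.diag where
  app K :=
    { app := fun {_} x => x
      nat := fun {_ q} θ x =>
        ((V.map θ).nat (circK K θ) (((V.obj q).obj (Fin q × K)).map θ x)).symm }
  nat _ _ _ := rfl

theorem toDiagB_app (V : SGam) (K : Type) [Finite K] {p : ℕ} (x : (V.diag.B.obj K).obj p) :
    (V.toDiagB.app K).app x = x := rfl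

theorem BN_obj (V : SGam) : ∀ (N k : ℕ), (V.BN N).obj k = (V.obj k).BN N
  | 0, _ => rfl
  | N + 1, k => congrArg Gam.B (BN_obj V N k)

/-- `BN` of the diagonal is the diagonal of `BN` -/
noncomputable def toDiagBN (V : SGam) : ∀ N, Gam.Hom (V.diag.BN N) (V.BN N).diag
  | 0 => Gam.Hom.id _
  | N + 1 => ((V.BN N).toDiagB).comp (toDiagBN V N).B

theorem toDiagBN_bijective (V : SGam) : ∀ (N : ℕ) (K : Type) [Finite K] (p : ℕ),
    Function.Bijective (((V.toDiagBN N).app K).app (p := p))
  | 0, _, _, _ => Function.bijective_id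
  | N + 1, K, _, p => toDiagBN_bijective V N (Fin p × K) p

/-- homology of `BN` of the diagonal -/
theorem hz_BN_diag_iff {R : Type} [CommRing R] (V : SGam) (N : ℕ) (K : Type) [Finite K] (n : ℕ) :
    (free R ((V.diag.BN N).obj K)).cx.HZ n ↔ (free R ((V.BN N).diag.obj K)).cx.HZ n :=
  hz_congr (freeMap R ((V.toDiagBN N).app K)).cx
    (fun p => freeMap_bijective _ (V.toDiagBN_bijective N K p)) n

end SGam

end Vale.Agent.P263.GB
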