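import Vale.Agent.P263.GB.ConeSpan
import Vale.Agent.P263.GB.SGam
import Vale.Agent.P263.GB.Htp

/-!
# P263, block GB: products of simplicial sets and the box product

* `cur X Y : free (X × Y) → box (free X) Y` and its inverse `unc X Y`, natural in both variables;
* `pm f g : X × Y → X' × Y'`;
* `rz0_pm` : if `H_i(cone f) = 0`, `H_i(cone g) = 0` for `i < r` then `H_i(cone (f × g)) = 0`
  for `i < r` (any commutative ring, no connectedness).
-/

namespace Vale.Agent.P263.GB

open Vale.Agent.P263.S Vale.Agent.P263.E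

variable {R : Type} [CommRing R]

/-! ### currying -/

theorem fs_hom_ext {X : SS} {p : ℕ} {N : Type*} [AddCommGroup N] [Module R N]
    {f g : (free R X).obj p →ₗ[R] N} (h : ∀ x, f (fs R X x) = g (fs R X x))
    (z : (free R X).obj p) : f z = g z := by
  have key : ∀ (f g : (X.obj p →₀ R) →ₗ[R] N), (∀ x, f (Finsupp.single x 1) =
      g (Finsupp.single x 1)) → f = g := fun f g h => Finsupp.lhom_ext' fun x =>
    LinearMap.ext_ring (h x)
  exact DFunLike.congr_fun (key f g h) z

theorem freeMap_fs {X Y : SS} (f : SS.Map X Y) {p : ℕ} (x : X.obj p) :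
    (freeMap R f).app p (fs R X x) = fs R Y (f.app x) := freeMap_single f x 1

/-- a pair of simplices -/
def mkP {X Y : SS} {p : ℕ} (x : X.obj p) (y : Y.obj p) : (X.prod Y).obj p := (x, y)

/-- the inclusion of chains of `X` at a simplex of `Y` -/
noncomputable def inY (R : Type) [CommRing R] (X : SS) {Y : SS} {p : ℕ} (y : Y.obj p) :
    (free R X).obj p →ₗ[R] (free R (X.prod Y)).obj p :=
  (Finsupp.lmapDomain R R fun x => mkP x y : (X.obj p →₀ R) →ₗ[R] ((X.prod Y).obj p →₀ R))

@[simp] theorem inY_fs (X : SS) {Y : SS} {p : ℕ} (y : Y.obj p) (x : X.obj p) :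
    inY R X y (fs R X x) = fs R (X.prod Y) (mkP x y) :=
  Finsupp.mapDomain_single

theorem map_inY (X : SS) {Y : SS} {p q : ℕ} (α : Op p q) (y : Y.obj q)
    (v : (free R X).obj q) :
    (free R (X.prod Y)).map α (inY R X y v) = inY R X (Y.map α y) ((free R X).map α v) :=
  fs_hom_ext (f := ((free R (X.prod Y)).map α).comp (inY R X y))
    (g := (inY R X (Y.map α y)).comp ((free R X).map α)) (fun x => by
      simp only [LinearMap.comp_apply, inY_fs, free_map_fs]
      rfl) v

/-- linear maps out of a free module -/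
noncomputable def fsLift {X : SS} {p : ℕ} {N : Type*} [AddCommGroup N] [Module R N]
    (f : X.obj p → N) : (free R X).obj p →ₗ[R] N :=
  (Finsupp.lsum R fun x => LinearMap.toSpanSingleton R _ (f x) : (X.obj p →₀ R) →ₗ[R] N)

@[simp] theorem fsLift_fs {X : SS} {p : ℕ} {N : Type*} [AddCommGroup N] [Module R N]
    (f : X.obj p → N) (x : X.obj p) : fsLift (R := R) f (fs R X x) = f x := by
  change (Finsupp.lsum R fun x => LinearMap.toSpanSingleton R _ (f x) : (X.obj p →₀ R) →ₗ[R] N)
    (Finsupp.single x 1) = _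
  rw [Finsupp.lsum_single, LinearMap.toSpanSingleton_apply, one_smul]

/-- the generator of the box product attached to a pair -/
noncomputable def curG (R : Type) [CommRing R] {X Y : SS} {p : ℕ} (z : (X.prod Y).obj p) :
    (box (free R X) Y).obj p := bx (free R X) Y z.2 (fs R X z.1)

/-- currying -/
noncomputable def cur (R : Type) [CommRing R] (X Y : SS) :
    SMod.Hom (free R (X.prod Y)) (box (free R X) Y) where
  app p := fsLift fun z => curG R z
  nat {p q} α z := by
    refine fs_hom_ext (f := (fsLift fun z => curG R z).comp ((free R (X.prod Y)).map α))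
      (g := ((box (free R X) Y).map α).comp (fsLift fun z => curG R z)) (fun x => ?_) z
    rw [LinearMap.comp_apply, LinearMap.comp_apply, free_map_fs, fsLift_fs, fsLift_fs, curG, curG,
      box_map_bx, free_map_fs]
    rfl

@[simp] theorem cur_fs (X Y : SS) {p : ℕ} (x : X.obj p) (y : Y.obj p) :
    (cur R X Y).app p (fs R (X.prod Y) (mkP x y)) = bx (free R X) Y y (fs R X x) :=
  fsLift_fs _ _

/-- uncurrying -/
noncomputable def unc (R : Type) [CommRing R] (X Y : SS) :
    SMod.Hom (box (free R X) Y) (free R (X.prod Y)) where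
  app p := boxLift (free R X) Y fun y => inY R X y
  nat {p q} α z := by
    induction z using box_induction with
    | h0 => simp only [map_zero]
    | ha x y hx hy => simp only [map_add, hx, hy]
    | hs y v => rw [box_map_bx, boxLift_bx, boxLift_bx, map_inY]

@[simp] theorem unc_bx (X Y : SS) {p : ℕ} (y : Y.obj p) (v : (free R X).obj p) :
    (unc R X Y).app p (bx (free R X) Y y v) = inY R X y v := boxLift_bx _ _ _ _ _

theorem cur_inY (X Y : SS) {p : ℕ} (y : Y.obj p) (v : (free R X).obj p) :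
    (cur R X Y).app p (inY R X y v) = bx (free R X) Y y v :=
  fs_hom_ext (f := ((cur R X Y).app p).comp (inY R X y)) (g := bx (free R X) Y y)
    (fun x => by rw [LinearMap.comp_apply, inY_fs, cur_fs]) v

theorem cur_unc (X Y : SS) {p : ℕ} (z : (box (free R X) Y).obj p) :
    (cur R X Y).app p ((unc R X Y).app p z) = z :=
  box_hom_ext (f := ((cur R X Y).app p).comp ((unc R X Y).app p)) (g := LinearMap.id)
    (fun y v => by rw [LinearMap.comp_apply, unc_bx, cur_inY]; rfl) z

theorem unc_cur (X Y : SS) {p : ℕ} (z : (free R (X.prod Y)).obj p) :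
    (unc R X Y).app p ((cur R X Y).app p z) = z :=
  fs_hom_ext (f := ((unc R X Y).app p).comp ((cur R X Y).app p)) (g := LinearMap.id)
    (fun x => by
      have h : x = mkP x.1 x.2 := rfl
      rw [LinearMap.comp_apply, h, cur_fs, unc_bx, inY_fs]
      rfl) z

theorem cur_bijective (X Y : SS) (p : ℕ) : Function.Bijective ((cur R X Y).app p) :=
  ⟨fun z z' h => by rw [← unc_cur X Y z, h, unc_cur], fun z => ⟨_, cur_unc X Y z⟩⟩

theorem unc_bijective (X Y : SS) (p : ℕ) : Function.Bijective ((unc R X Y).app p) :=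
  ⟨fun z z' h => by rw [← cur_unc X Y z, h, cur_unc], fun z => ⟨_, unc_cur X Y z⟩⟩

/-! ### products of maps -/

/-- the product of two maps -/
def pm {X X' Y Y' : SS} (f : SS.Map X X') (g : SS.Map Y Y') :
    SS.Map (X.prod Y) (X'.prod Y') where
  app z := (f.app z.1, g.app z.2)
  nat α z := by
    change (f.app (X.map α z.1), g.app (Y.map α z.2)) = (X'.map α (f.app z.1), Y'.map α (g.app z.2))
    rw [f.nat, g.nat]

@[simp] theorem pm_app {X X' Y Y' : SS} (f : SS.Map X X') (g : SS.Map Y Y') {p : ℕ}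
    (z : (X.prod Y).obj p) : (pm f g).app z = (f.app z.1, g.app z.2) := rfl

/-- the swap -/
def swp (X Y : SS) : SS.Map (X.prod Y) (Y.prod X) := ⟨fun z => (z.2, z.1), fun _ _ => rfl⟩

theorem swp_bijective (X Y : SS) (p : ℕ) :
    Function.Bijective ((swp X Y).app (p := p)) :=
  ⟨fun _ _ h => Prod.ext (congrArg Prod.snd h) (congrArg Prod.fst h), fun z => ⟨(z.2, z.1), rfl⟩⟩

/-- naturality of currying in the first variable -/
theorem cur_pm_id {X X' : SS} (f : SS.Map X X') (Y : SS) {p : ℕ}
    (z : (free R (X.prod Y)).obj p) :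
    (cur R X' Y).app p ((freeMap R (pm f (SS.Map.id Y))).app p z) =
      (boxL (freeMap R f) Y).app p ((cur R X Y).app p z) :=
  fs_hom_ext (f := ((cur R X' Y).app p).comp ((freeMap R (pm f (SS.Map.id Y))).app p))
    (g := ((boxL (freeMap R f) Y).app p).comp ((cur R X Y).app p))
    (fun x => by
      have h : x = mkP x.1 x.2 := rfl
      rw [LinearMap.comp_apply, LinearMap.comp_apply, freeMap_fs, h, cur_fs, boxL_bx, freeMap_fs]
      exact cur_fs X' Y (f.app x.1) x.2) z

/-- naturality of currying in the second variable -/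
theorem cur_id_pm (X : SS) {Y Y' : SS} (g : SS.Map Y Y') {p : ℕ}
    (z : (free R (X.prod Y)).obj p) :
    (cur R X Y').app p ((freeMap R (pm (SS.Map.id X) g)).app p z) =
      (boxR (free R X) g).app p ((cur R X Y).app p z) :=
  fs_hom_ext (f := ((cur R X Y').app p).comp ((freeMap R (pm (SS.Map.id X) g)).app p))
    (g := ((boxR (free R X) g).app p).comp ((cur R X Y).app p))
    (fun x => by
      have h : x = mkP x.1 x.2 := rfl
      rw [LinearMap.comp_apply, LinearMap.comp_apply, freeMap_fs, h, cur_fs, boxR_bx]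
      exact cur_fs X Y' x.1 (g.app x.2)) z

/-- `f × id` -/
theorem rz0_pm_id {X X' : SS} (f : SS.Map X X') (Y : SS) (r : ℕ)
    (h : ∀ i < r, RZ0 (freeMap R f).cx i) (n : ℕ) (hn : n < r) :
    RZ0 (freeMap R (pm f (SS.Map.id Y))).cx n :=
  (rz0_congr (freeMap R (pm f (SS.Map.id Y))).cx (boxL (freeMap R f) Y).cx (cur R X Y).cx
    (cur R X' Y).cx (cur_bijective X Y) (cur_bijective X' Y)
    (fun _ z => (cur_pm_id f Y z).symm) n).2 (rz0_box (freeMap R f) Y r h n hn)

theorem swp_pm {X X' Y Y' : SS} (f : SS.Map X X') (g : SS.Map Y Y') :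
    (pm g f).comp (swp X Y) = (swp X' Y').comp (pm f g) := rfl

/-- `id × g` -/
theorem rz0_id_pm (X : SS) {Y Y' : SS} (g : SS.Map Y Y') (r : ℕ)
    (h : ∀ i < r, RZ0 (freeMap R g).cx i) (n : ℕ) (hn : n < r) :
    RZ0 (freeMap R (pm (SS.Map.id X) g)).cx n :=
  (rz0_square (pm (SS.Map.id X) g) (pm g (SS.Map.id X)) (swp X Y) (swp X Y')
    (swp_bijective X Y) (swp_bijective X Y') (fun _ _ => rfl) n).2 (rz0_pm_id g X r h n hn)

theorem pm_comp {X X' X'' Y Y' Y'' : SS} (f' : SS.Map X' X'') (f : SS.Map X X')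
    (g' : SS.Map Y' Y'') (g : SS.Map Y Y') :
    pm (f'.comp f) (g'.comp g) = (pm f' g').comp (pm f g) := rfl

theorem freeMap_comp_cx {X Y Z : SS} (g : SS.Map Y Z) (f : SS.Map X Y) :
    (freeMap R (g.comp f)).cx = (freeMap R g).cx.comp (freeMap R f).cx := by
  ext n z
  exact freeMap_comp_app g f z

/-- **(K3)** `f × g` -/
theorem rz0_pm {X X' Y Y' : SS} (f : SS.Map X X') (g : SS.Map Y Y') (r : ℕ)
    (hf : ∀ i < r, RZ0 (freeMap R f).cx i) (hg : ∀ i < r, RZ0 (freeMap R g).cx i) (n : ℕ)
    (hn : n < r) : RZ0 (freeMap R (pm f g)).cx n := by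
  have h : pm f g = (pm (SS.Map.id X') g).comp (pm f (SS.Map.id Y)) := rfl
  rw [h, freeMap_comp_cx]
  exact rz0_comp _ _ n (rz0_pm_id f Y r hf n hn) (rz0_id_pm X' g r hg n hn)

end Vale.Agent.P263.GB
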