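import Mathlib.LinearAlgebra.TensorProduct.Basic
import Mathlib.LinearAlgebra.TensorProduct.Map
import Mathlib.LinearAlgebra.TensorProduct.RightExactness
import Mathlib.RingTheory.Flat.Basic
import Mathlib.LinearAlgebra.Basis.VectorSpace
import Vale.Agent.P263.GB.Base

/-!
# P263, block GB: the lowest degree Künneth theorem for levelwise tensor products

On the carrier `GB.SMod` of `GB/SMod.lean`, `GB/Base.lean`.  `H_n(A) = 0` is `A.cx.HZ n`.

Main results: `SES.hz_right/hz_left/hz_mid` (long exact sequence, as vanishing statements),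
`Prism.hz` (a simplicial homotopy between `0` and `id` kills the homology), the path object
`PA → A` with kernel `ΩA`, and `hz_tens`: if `H_i(A) = 0` for `i < a` and `H_j(B) = 0` for
`j < b` then `H_n(A ⊗ B) = 0` for `n < a + b`.
-/

open scoped TensorProduct

namespace Vale.Agent.P263.GB

open Vale.Agent.P263.S Vale.Agent.P263.E

variable {R : Type} [CommRing R]

theorem Cx.Hom.cyc_of_inj {A B : Cx R} (f : Cx.Hom A B) {p : ℕ} {x : A.C p}
    (hx : B.Cyc p (f.app p x)) (hi : ∀ q, Function.Injective (f.app q)) : A.Cyc p x := by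
  cases p with
  | zero => trivial
  | succ p =>
    rw [Cx.cyc_succ] at *
    apply hi p
    rw [f.comm, map_zero, hx]

/-- short exact sequences of chain complexes -/
structure Cx.SES {A B C : Cx R} (i : Cx.Hom A B) (r : Cx.Hom B C) : Prop where
  inj : ∀ p, Function.Injective (i.app p)
  exact : ∀ p (x : B.C p), r.app p x = 0 → ∃ y, i.app p y = x
  zero : ∀ p (x : A.C p), r.app p (i.app p x) = 0
  surj : ∀ p, Function.Surjective (r.app p)

namespace Cx.SES

variable {A B C : Cx R} {i : Cx.Hom A B} {r : Cx.Hom B C}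

/-- `H_n(C) = 0` if `H_n(B) = 0` and `H_{n-1}(A) = 0` -/
theorem hz_right (h : Cx.SES i r) (n : ℕ) (hB : B.HZ n) (hA : ∀ m, m + 1 = n → A.HZ m) :
    C.HZ n := by
  intro x hx
  obtain ⟨y, rfl⟩ := h.surj n x
  cases n with
  | zero =>
    obtain ⟨z, rfl⟩ := hB y trivial
    exact ⟨r.app 1 z, (r.comm 0 z).symm⟩
  | succ m =>
    rw [Cx.cyc_succ] at hx
    obtain ⟨z, hz⟩ := h.exact m (B.d m y) (by rw [r.comm]; exact hx)
    obtain ⟨w, rfl⟩ := hA m rfl z (i.cyc_of_inj (by rw [hz]; exact B.cyc_d m y) h.inj)
    rw [i.comm] at hz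
    obtain ⟨t, ht⟩ := hB (y - i.app (m + 1) w) (by rw [Cx.cyc_succ, map_sub, hz, sub_self])
    refine ⟨r.app (m + 2) t, ?_⟩
    rw [← r.comm, ht, map_sub, h.zero, sub_zero]

/-- `H_n(A) = 0` if `H_n(B) = 0` and `H_{n+1}(C) = 0` -/
theorem hz_left (h : Cx.SES i r) (n : ℕ) (hB : B.HZ n) (hC : C.HZ (n + 1)) : A.HZ n := by
  intro x hx
  obtain ⟨y, hy⟩ := hB (i.app n x) (i.cyc hx)
  obtain ⟨z, hz⟩ := hC (r.app (n + 1) y) (by
    rw [Cx.cyc_succ, ← r.comm, hy, h.zero])
  obtain ⟨w, rfl⟩ := h.surj _ z
  obtain ⟨t, ht⟩ := h.exact (n + 1) (y - B.d (n + 1) w) (by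
    rw [map_sub, r.comm, hz, sub_self])
  refine ⟨t, h.inj n ?_⟩
  rw [i.comm, ht, map_sub, B.dd, sub_zero, hy]

/-- `H_n(B) = 0` if `H_n(A) = 0` and `H_n(C) = 0` -/
theorem hz_mid (h : Cx.SES i r) (n : ℕ) (hA : A.HZ n) (hC : C.HZ n) : B.HZ n := by
  intro x hx
  obtain ⟨z, hz⟩ := hC (r.app n x) (r.cyc hx)
  obtain ⟨w, rfl⟩ := h.surj _ z
  obtain ⟨t, ht⟩ := h.exact n (x - B.d n w) (by
    rw [map_sub, r.comm, hz, sub_self])
  obtain ⟨s, rfl⟩ := hA t (i.cyc_of_inj (by rw [ht]; exact B.cyc_sub hx (B.cyc_d n w)) h.inj)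
  refine ⟨w + i.app (n + 1) s, ?_⟩
  rw [map_add, ← i.comm, ht]
  abel

end Cx.SES

/-- short exact sequences of simplicial modules -/
structure SES {A B C : SMod R} (i : SMod.Hom A B) (r : SMod.Hom B C) : Prop where
  inj : ∀ p, Function.Injective (i.app p)
  exact : ∀ p (x : B.obj p), r.app p x = 0 → ∃ y, i.app p y = x
  zero : ∀ p (x : A.obj p), r.app p (i.app p x) = 0
  surj : ∀ p, Function.Surjective (r.app p)

namespace SES

variable {A B C : SMod R} {i : SMod.Hom A B} {r : SMod.Hom B C}

theorem cx (h : SES i r) : Cx.SES i.cx r.cx := ⟨h.inj, h.exact, h.zero, h.surj⟩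

/-- `H_n(C) = 0` if `H_n(B) = 0` and `H_{n-1}(A) = 0` -/
theorem hz_right (h : SES i r) (n : ℕ) (hB : B.cx.HZ n) (hA : ∀ m, m + 1 = n → A.cx.HZ m) :
    C.cx.HZ n := h.cx.hz_right n hB hA

/-- `H_n(A) = 0` if `H_n(B) = 0` and `H_{n+1}(C) = 0` -/
theorem hz_left (h : SES i r) (n : ℕ) (hB : B.cx.HZ n) (hC : C.cx.HZ (n + 1)) : A.cx.HZ n :=
  h.cx.hz_left n hB hC

/-- `H_n(B) = 0` if `H_n(A) = 0` and `H_n(C) = 0` -/
theorem hz_mid (h : SES i r) (n : ℕ) (hA : A.cx.HZ n) (hC : C.cx.HZ n) : B.cx.HZ n :=
  h.cx.hz_mid n hA hC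

end SES

/-- a homotopy from `0` to the identity kills the homology -/
theorem SMod.Prism.hz {A : SMod R} (P : SMod.Prism A A) (h0 : ∀ p x, P.h p (c0 p) x = 0)
    (h1 : ∀ p x, P.h p (c1 p) x = x) (n : ℕ) : A.cx.HZ n := by
  cases n with
  | zero =>
    have key : ∀ x : A.obj 0, ∃ y : A.obj 1, A.d 0 y = x := fun x =>
      ⟨P.k 0 x, by rw [P.d_k_zero, h0, h1, sub_zero]⟩
    exact fun x _ => key x
  | succ n =>
    have key : ∀ x : A.obj (n + 1), A.d n x = 0 → ∃ y : A.obj (n + 2), A.d (n + 1) y = x := by
      intro x hx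
      refine ⟨P.k (n + 1) x, ?_⟩
      have := P.d_k_add_k_d n x
      rw [hx, map_zero, add_zero, h0, h1, sub_zero] at this
      exact this
    exact fun x hx => key x hx

/-! ### the path object -/

/-- the extension `[p + 1] → [q + 1]` of `f : [p] → [q]` by a new bottom vertex -/
def up {p q : ℕ} (f : Op p q) : Op (p + 1) (q + 1) where
  toFun x := Fin.cases 0 (fun y => (f y).succ) x
  monotone' x y h := by
    induction x using Fin.cases with
    | zero => exact Fin.zero_le _
    | succ x =>
      induction y using Fin.cases with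
      | zero => exact absurd h (by simp)
      | succ y => exact Fin.succ_le_succ_iff.2 (f.monotone (Fin.succ_le_succ_iff.1 h))

@[simp] theorem up_zero {p q : ℕ} (f : Op p q) : up f 0 = 0 := rfl

@[simp] theorem up_succ {p q : ℕ} (f : Op p q) (y : Fin (p + 1)) : up f y.succ = (f y).succ := rfl

theorem up_id {p : ℕ} : up (OrderHom.id : Op p p) = OrderHom.id := by
  apply OrderHom.ext
  funext x
  induction x using Fin.cases with
  | zero => rfl
  | succ x => rfl

theorem up_comp {p q r : ℕ} (f : Op q r) (g : Op p q) : up (f.comp g) = (up f).comp (up g) := by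
  apply OrderHom.ext
  funext x
  induction x using Fin.cases with
  | zero => rfl
  | succ x => rfl

/-- the inclusion of the old vertices -/
def inc (p : ℕ) : Op p (p + 1) where
  toFun x := x.succ
  monotone' _ _ h := Fin.succ_le_succ_iff.2 h

theorem up_inc {p q : ℕ} (f : Op p q) : (up f).comp (inc p) = (inc q).comp f := rfl

theorem inc_val (p : ℕ) (x : Fin (p + 1)) : (inc p x).1 = x.1 + 1 := rfl

/-- the new vertex, as a map from `[p]` -/
def cst (p q : ℕ) : Op p q where
  toFun _ := 0
  monotone' _ _ _ := le_rfl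

theorem cst_apply (p q : ℕ) (x : Fin (p + 1)) : cst p q x = 0 := rfl

/-- the map contracting `[p + 1]` partially to the new vertex -/
def con {p : ℕ} (t : Op p 1) : Op (p + 1) (p + 1) where
  toFun x := Fin.cases 0 (fun y => if t y = 0 then 0 else y.succ) x
  monotone' x y h := by
    induction x using Fin.cases with
    | zero => exact Fin.zero_le _
    | succ x =>
      induction y using Fin.cases with
      | zero => exact absurd h (by simp)
      | succ y =>
        have hxy : x ≤ y := Fin.succ_le_succ_iff.1 h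
        simp only [Fin.cases_succ]
        split_ifs with h1 h2 h2
        · exact le_rfl
        · exact Fin.zero_le _
        · have := t.monotone hxy
          rw [h2] at this
          exact absurd (le_antisymm this (Fin.zero_le _)) h1
        · exact h

@[simp] theorem con_zero {p : ℕ} (t : Op p 1) : con t 0 = 0 := rfl

theorem con_succ {p : ℕ} (t : Op p 1) (y : Fin (p + 1)) :
    con t y.succ = if t y = 0 then 0 else y.succ := rfl

theorem con_up {p q : ℕ} (f : Op p q) (t : Op q 1) :
    (con t).comp (up f) = (up f).comp (con (t.comp f)) := by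
  apply OrderHom.ext
  funext x
  induction x using Fin.cases with
  | zero => rfl
  | succ x =>
    simp only [OrderHom.comp_coe, Function.comp_apply, up_succ, con_succ]
    split_ifs <;> rfl

theorem con_one {p : ℕ} : con (th p 0) = OrderHom.id := by
  apply OrderHom.ext
  funext x
  induction x using Fin.cases with
  | zero => rfl
  | succ x => rw [con_succ, th_val, if_neg (Nat.not_lt_zero _)]; rfl

theorem con_zero' {p : ℕ} : con (th p (p + 1)) = cst (p + 1) (p + 1) := by
  apply OrderHom.ext
  funext x
  induction x using Fin.cases with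
  | zero => rfl
  | succ x => rw [con_succ, th_val, if_pos x.2]; rfl

theorem comp_cst {p q r : ℕ} (f : Op q r) (hf : f 0 = 0) : f.comp (cst p q) = cst p r := by
  apply OrderHom.ext
  funext x
  exact hf

theorem cst_comp {p q r : ℕ} (f : Op p q) : (cst q r).comp f = cst p r := rfl

namespace SMod

variable (A : SMod R)

/-- the path object: simplices of dimension `p + 1` whose first vertex is `0` -/
def PO (p : ℕ) : Submodule R (A.obj (p + 1)) := LinearMap.ker (A.map (cst 0 (p + 1)))

theorem mem_PO {p : ℕ} {x : A.obj (p + 1)} : x ∈ A.PO p ↔ A.map (cst 0 (p + 1)) x = 0 := Iff.rfl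

theorem map_up_mem {p q : ℕ} (f : Op p q) {x : A.obj (q + 1)} (hx : x ∈ A.PO q) :
    A.map (up f) x ∈ A.PO p := by
  rw [mem_PO] at *
  rw [← A.map_comp, comp_cst _ (up_zero f), hx]

/-- the path object -/
abbrev Path : SMod R where
  obj p := A.PO p
  map f := (A.map (up f)).restrict fun _ hx => A.map_up_mem f hx
  map_id x := by
    apply Subtype.ext
    rw [LinearMap.coe_restrict_apply, up_id, A.map_id]
  map_comp f g x := by
    apply Subtype.ext
    rw [LinearMap.coe_restrict_apply, LinearMap.coe_restrict_apply, LinearMap.coe_restrict_apply,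
      ← A.map_comp, up_comp]

theorem Path_map {p q : ℕ} (f : Op p q) (x : A.Path.obj q) :
    ((A.Path.map f x : A.PO p) : A.obj (p + 1)) = A.map (up f) (x : A.PO q) := rfl

/-- the end point map `PA → A` -/
def ev : SMod.Hom A.Path A where
  app p := (A.map (inc p)).comp (A.PO p).subtype
  nat {p q} f x := by
    change A.map (inc p) (A.map (up f) (x : A.PO q)) = A.map f (A.map (inc q) (x : A.PO q))
    rw [← A.map_comp, ← A.map_comp, up_inc]

theorem ev_app {p : ℕ} (x : A.Path.obj p) :
    A.ev.app p x = A.map (inc p) (x : A.PO p) := rfl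

/-- the contraction of the path object -/
def pcon : Prism A.Path A.Path where
  h p t := (A.map (con t)).restrict fun x hx => by
    rw [mem_PO] at *
    rw [← A.map_comp, comp_cst _ (con_zero t), hx]
  nat {p q} f t x := by
    apply Subtype.ext
    change A.map (con (t.comp f)) (A.map (up f) (x : A.PO q)) =
      A.map (up f) (A.map (con t) (x : A.PO q))
    rw [← A.map_comp, ← A.map_comp, con_up]

theorem pcon_coe {p : ℕ} (t : Op p 1) (x : A.Path.obj p) :
    ((A.pcon.h p t x : A.PO p) : A.obj (p + 1)) = A.map (con t) (x : A.PO p) := rfl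

theorem pcon_one (p : ℕ) (x : A.Path.obj p) : A.pcon.h p (c1 p) x = x := by
  apply Subtype.ext
  change A.map (con (th p 0)) (x : A.PO p) = (x : A.PO p)
  rw [con_one, A.map_id]

theorem pcon_zero (p : ℕ) (x : A.Path.obj p) : A.pcon.h p (c0 p) x = 0 := by
  apply Subtype.ext
  change A.map (con (th p (p + 1))) (x : A.PO p) = (0 : A.obj (p + 1))
  have e : cst (p + 1) (p + 1) = (cst 0 (p + 1)).comp (cst (p + 1) 0) := rfl
  rw [con_zero', e, A.map_comp]
  have hx := x.2
  rw [mem_PO] at hx
  rw [hx, map_zero]

theorem Path_hz (n : ℕ) : A.Path.cx.HZ n := A.pcon.hz A.pcon_zero A.pcon_one n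

/-- the kernel of a map -/
abbrev Ker {A B : SMod R} (f : SMod.Hom A B) : SMod R where
  obj p := LinearMap.ker (f.app p)
  map {p q} g := (A.map g).restrict fun x hx => by
    rw [LinearMap.mem_ker] at *
    rw [f.nat, hx, map_zero]
  map_id x := by
    apply Subtype.ext
    rw [LinearMap.coe_restrict_apply, A.map_id]
  map_comp f g x := by
    apply Subtype.ext
    rw [LinearMap.coe_restrict_apply, LinearMap.coe_restrict_apply, LinearMap.coe_restrict_apply,
      ← A.map_comp]

/-- the inclusion of the kernel -/
def kerI {A B : SMod R} (f : SMod.Hom A B) : Hom (Ker f) A where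
  app p := (LinearMap.ker (f.app p)).subtype
  nat _ _ := rfl

theorem ses_ker {A B : SMod R} (f : SMod.Hom A B) (hf : ∀ p, Function.Surjective (f.app p)) :
    SES (kerI f) f where
  inj _ := Subtype.val_injective
  exact _ x hx := ⟨⟨x, hx⟩, rfl⟩
  zero _ x := x.2
  surj := hf

/-- the end point map is surjective if `H_0 = 0` -/
theorem ev_surj (h : A.cx.HZ 0) (p : ℕ) : Function.Surjective (A.ev.app p) := by
  intro x
  -- the first vertex of `x`
  obtain ⟨e, he⟩ : ∃ e : A.obj 1, A.d 0 e = A.map (cst 0 p) x := h (A.map (cst 0 p) x) trivial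
  have hD : A.d 0 e = A.map (dl 0 0) e - A.map (dl 0 1) e := by
    rw [d_apply]
    simp [Finset.sum_range_succ, sn, sub_eq_add_neg]
  rw [hD] at he
  -- `dl 0 0 = inc 0` picks the vertex `1`, `dl 0 1 = cst 0 1` picks the vertex `0`
  have e0 : dl 0 0 = inc 0 := by
    apply OrderHom.ext; funext y; apply Fin.ext; rw [dl_val, inc_val]; simp
  have e1 : dl 0 1 = cst 0 1 := by
    apply OrderHom.ext; funext y; apply Fin.ext; rw [dl_val, cst_apply]; simp
  rw [e0, e1] at he
  -- the operator `[p + 1] → [1]`, `0 ↦ 0`, the rest to `1`, and the collapse `[p + 1] → [p]`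
  have hc1 : (sg p 0).comp (inc p) = OrderHom.id := by
    apply OrderHom.ext; funext y; apply Fin.ext
    have := y.2
    rw [OrderHom.comp_coe, Function.comp_apply, sg_val, inc_val, OrderHom.id_coe, id_eq]
    split_ifs <;> omega
  have hc2 : (sg p 0).comp (cst 0 (p + 1)) = cst 0 p := by
    apply OrderHom.ext; funext y; apply Fin.ext
    rw [OrderHom.comp_coe, Function.comp_apply, sg_val, cst_apply, cst_apply]
    simp
  have hs1 : (th (p + 1) 1).comp (inc p) = (inc 0).comp (cst p 0) := by
    apply OrderHom.ext; funext y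
    rw [OrderHom.comp_coe, Function.comp_apply, th_val, inc_val, if_neg (by omega)]
    rfl
  have hs2 : (th (p + 1) 1).comp (cst 0 (p + 1)) = cst 0 1 := by
    apply OrderHom.ext; funext y
    rw [OrderHom.comp_coe, Function.comp_apply, th_val, cst_apply, if_pos (by simp)]
    rfl
  have hi1 : ((inc 0).comp (cst 1 0)).comp (inc 0) = inc 0 := by
    apply OrderHom.ext; funext y; apply Fin.ext
    have := y.2
    simp only [OrderHom.comp_coe, Function.comp_apply, inc_val, cst_apply]
    omega
  have hi2 : ((inc 0).comp (cst 1 0)).comp (cst 0 1) = inc 0 := by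
    apply OrderHom.ext; funext y; apply Fin.ext
    have := y.2
    simp only [OrderHom.comp_coe, Function.comp_apply, inc_val, cst_apply]
    omega
  -- the normalised edge: end `0`, beginning the vertex
  obtain ⟨e', h1, h0⟩ : ∃ e' : A.obj 1, A.map (inc 0) e' = 0 ∧
      A.map (cst 0 1) e' = A.map (cst 0 p) x := by
    refine ⟨A.map ((inc 0).comp (cst 1 0)) e - e, ?_, ?_⟩
    · rw [map_sub, ← A.map_comp, hi1, sub_self]
    · rw [map_sub, ← A.map_comp, hi2, he]
  refine ⟨⟨A.map (sg p 0) x - A.map (th (p + 1) 1) e', ?_⟩, ?_⟩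
  · rw [mem_PO, map_sub, ← A.map_comp, ← A.map_comp, hc2, hs2, h0, sub_self]
  · change A.map (inc p) (A.map (sg p 0) x - A.map (th (p + 1) 1) e') = x
    rw [map_sub, ← A.map_comp, ← A.map_comp, hc1, hs1, A.map_comp, h1, map_zero, A.map_id, sub_zero]

/-- the loop object -/
abbrev Loop : SMod R := Ker A.ev

theorem ses_loop (h : A.cx.HZ 0) : SES (kerI A.ev) A.ev := ses_ker _ (A.ev_surj h)

theorem loop_hz (h0 : A.cx.HZ 0) (n : ℕ) (h : A.cx.HZ (n + 1)) : A.Loop.cx.HZ n :=
  (A.ses_loop h0).hz_left n (A.Path_hz n) h

end SMod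

/-! ### levelwise tensor products -/

namespace SMod

/-- the levelwise tensor product -/
def tens (A B : SMod R) : SMod R where
  obj p := A.obj p ⊗[R] B.obj p
  map f := TensorProduct.map (A.map f) (B.map f)
  map_id x := by
    induction x using TensorProduct.induction_on with
    | zero => rw [map_zero]
    | add x y hx hy => rw [map_add, hx, hy]
    | tmul x y => rw [TensorProduct.map_tmul, A.map_id, B.map_id]
  map_comp f g x := by
    induction x using TensorProduct.induction_on with
    | zero => simp only [map_zero]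
    | add x y hx hy => simp only [map_add, hx, hy]
    | tmul x y => simp only [TensorProduct.map_tmul, ← A.map_comp, ← B.map_comp]

variable {A A' A'' : SMod R}

/-- functoriality in the left factor -/
def tensL (f : SMod.Hom A A') (B : SMod R) : Hom (A.tens B) (A'.tens B) where
  app p := TensorProduct.map (f.app p) LinearMap.id
  nat g x := by
    change TensorProduct.map _ _ (TensorProduct.map _ _ x) =
      TensorProduct.map _ _ (TensorProduct.map _ _ x)
    induction x using TensorProduct.induction_on with
    | zero => simp only [map_zero]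
    | add x y hx hy => simp only [map_add, hx, hy]
    | tmul x y => simp only [TensorProduct.map_tmul, f.nat, LinearMap.id_apply]

/-- functoriality in the right factor -/
def tensR (B : SMod R) (f : SMod.Hom A A') : Hom (B.tens A) (B.tens A') where
  app p := TensorProduct.map LinearMap.id (f.app p)
  nat g x := by
    change TensorProduct.map _ _ (TensorProduct.map _ _ x) =
      TensorProduct.map _ _ (TensorProduct.map _ _ x)
    induction x using TensorProduct.induction_on with
    | zero => simp only [map_zero]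
    | add x y hx hy => simp only [map_add, hx, hy]
    | tmul x y => simp only [TensorProduct.map_tmul, f.nat, LinearMap.id_apply]

/-- homotopies tensor -/
def htpyL (H : Prism A A') (B : SMod R) : Prism (A.tens B) (A'.tens B) where
  h p t := TensorProduct.map (H.h p t) LinearMap.id
  nat g t x := by
    change TensorProduct.map _ _ (TensorProduct.map _ _ x) =
      TensorProduct.map _ _ (TensorProduct.map _ _ x)
    induction x using TensorProduct.induction_on with
    | zero => simp only [map_zero]
    | add x y hx hy => simp only [map_add, hx, hy]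
    | tmul x y => simp only [TensorProduct.map_tmul, H.nat, LinearMap.id_apply]

/-- homotopies tensor -/
def htpyR (B : SMod R) (H : Prism A A') : Prism (B.tens A) (B.tens A') where
  h p t := TensorProduct.map LinearMap.id (H.h p t)
  nat g t x := by
    change TensorProduct.map _ _ (TensorProduct.map _ _ x) =
      TensorProduct.map _ _ (TensorProduct.map _ _ x)
    induction x using TensorProduct.induction_on with
    | zero => simp only [map_zero]
    | add x y hx hy => simp only [map_add, hx, hy]
    | tmul x y => simp only [TensorProduct.map_tmul, H.nat, LinearMap.id_apply]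

/-- the tensor product of a contractible object is contractible -/
theorem hz_tens_left {A : SMod R} (H : Prism A A) (h0 : ∀ p x, H.h p (c0 p) x = 0)
    (h1 : ∀ p x, H.h p (c1 p) x = x) (B : SMod R) (n : ℕ) : (A.tens B).cx.HZ n := by
  apply (htpyL H B).hz
  · intro p x
    change TensorProduct.map (H.h p (c0 p)) LinearMap.id x = 0
    have : H.h p (c0 p) = 0 := LinearMap.ext (h0 p)
    rw [this, TensorProduct.map_zero_left]; rfl
  · intro p x
    change TensorProduct.map (H.h p (c1 p)) LinearMap.id x = x
    have : H.h p (c1 p) = LinearMap.id := LinearMap.ext (h1 p)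
    rw [this, TensorProduct.map_id]; rfl

theorem hz_tens_right {A : SMod R} (H : Prism A A) (h0 : ∀ p x, H.h p (c0 p) x = 0)
    (h1 : ∀ p x, H.h p (c1 p) x = x) (B : SMod R) (n : ℕ) : (B.tens A).cx.HZ n := by
  apply (htpyR B H).hz
  · intro p x
    change TensorProduct.map LinearMap.id (H.h p (c0 p)) x = 0
    have : H.h p (c0 p) = 0 := LinearMap.ext (h0 p)
    rw [this, TensorProduct.map_zero_right]; rfl
  · intro p x
    change TensorProduct.map LinearMap.id (H.h p (c1 p)) x = x
    have : H.h p (c1 p) = LinearMap.id := LinearMap.ext (h1 p)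
    rw [this, TensorProduct.map_id]; rfl

/-- tensoring an exact sequence with a levelwise flat object -/
theorem ses_tensL {i : SMod.Hom A A'} {r : SMod.Hom A' A''} (h : SES i r) (B : SMod R)
    (hB : ∀ p, Module.Flat R (B.obj p)) : SES (tensL i B) (tensL r B) where
  inj p := by
    have := hB p
    exact Module.Flat.rTensor_preserves_injective_linearMap (M := B.obj p) (i.app p) (h.inj p)
  exact p x hx := by
    have e : Function.Exact (i.app p) (r.app p) := by
      intro y
      exact ⟨fun hy => h.exact p y hy, by rintro ⟨z, rfl⟩; exact h.zero p z⟩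
    exact (rTensor_exact (B.obj p) e (h.surj p) x).1 hx
  zero p x := by
    change TensorProduct.map _ _ (TensorProduct.map _ _ x) = 0
    induction x using TensorProduct.induction_on with
    | zero => simp only [map_zero]
    | add x y hx hy => simp only [map_add, hx, hy, add_zero]
    | tmul x y => simp only [TensorProduct.map_tmul, h.zero, TensorProduct.zero_tmul]
  surj p := LinearMap.rTensor_surjective (B.obj p) (h.surj p)

/-- tensoring an exact sequence with a levelwise flat object -/
theorem ses_tensR {i : SMod.Hom A A'} {r : SMod.Hom A' A''} (h : SES i r) (B : SMod R)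
    (hB : ∀ p, Module.Flat R (B.obj p)) : SES (tensR B i) (tensR B r) where
  inj p := by
    have := hB p
    exact Module.Flat.lTensor_preserves_injective_linearMap (M := B.obj p) (i.app p) (h.inj p)
  exact p x hx := by
    have e : Function.Exact (i.app p) (r.app p) := by
      intro y
      exact ⟨fun hy => h.exact p y hy, by rintro ⟨z, rfl⟩; exact h.zero p z⟩
    exact (lTensor_exact (B.obj p) e (h.surj p) x).1 hx
  zero p x := by
    change TensorProduct.map _ _ (TensorProduct.map _ _ x) = 0
    induction x using TensorProduct.induction_on with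
    | zero => simp only [map_zero]
    | add x y hx hy => simp only [map_add, hx, hy, add_zero]
    | tmul x y => simp only [TensorProduct.map_tmul, h.zero, TensorProduct.tmul_zero]
  surj p := LinearMap.lTensor_surjective (B.obj p) (h.surj p)

/-- levelwise flat -/
def LFlat (A : SMod R) : Prop := ∀ p, Module.Flat R (A.obj p)

/-- `H_n(A ⊗ B) = 0` for `n < a` if `H_i(A) = 0` for `i < a` -/
theorem hz_tens_of_left (B : SMod R) (hB : B.LFlat) (a : ℕ) :
    ∀ A : SMod R, (∀ i < a, A.cx.HZ i) → ∀ n < a, (A.tens B).cx.HZ n := by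
  induction a with
  | zero => intro A _ n hn; omega
  | succ a ih =>
    intro A hA n hn
    refine (ses_tensL (A.ses_loop (hA 0 (by omega))) B hB).hz_right n
      (hz_tens_left A.pcon A.pcon_zero A.pcon_one B n) ?_
    rintro m rfl
    exact ih A.Loop (fun i hi => A.loop_hz (hA 0 (by omega)) i (hA (i + 1) (by omega))) m (by omega)

/-- **lowest degree Künneth**: `H_n(A ⊗ B) = 0` for `n < a + b` if `H_i(A) = 0` for `i < a` and
`H_j(B) = 0` for `j < b` -/
theorem hz_tens (hk : ∀ M : SMod R, M.LFlat) (b : ℕ) :
    ∀ (A B : SMod R) (a : ℕ), (∀ i < a, A.cx.HZ i) → (∀ i < b, B.cx.HZ i) →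
      ∀ n < a + b, (A.tens B).cx.HZ n := by
  induction b with
  | zero =>
    intro A B a hA _ n hn
    exact hz_tens_of_left B (hk B) a A hA n (by omega)
  | succ b ih =>
    intro A B a hA hB n hn
    refine (ses_tensR (B.ses_loop (hB 0 (by omega))) A (hk A)).hz_right n
      (hz_tens_right B.pcon B.pcon_zero B.pcon_one A n) ?_
    rintro m rfl
    exact ih A B.Loop a hA
      (fun i hi => B.loop_hz (hB 0 (by omega)) i (hB (i + 1) (by omega))) m (by omega)

theorem lflat_field {K : Type} [Field K] (M : SMod K) : M.LFlat := fun p => by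
  infer_instance

/-- **lowest degree Künneth** over a field -/
theorem hz_tens_field {K : Type} [Field K] (A B : SMod K) (a b : ℕ) (hA : ∀ i < a, A.cx.HZ i)
    (hB : ∀ i < b, B.cx.HZ i) (n : ℕ) (hn : n < a + b) : (A.tens B).cx.HZ n :=
  hz_tens lflat_field b A B a hA hB n hn

end SMod

end Vale.Agent.P263.GB
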