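import Mathlib.LinearAlgebra.Finsupp.LSum
import Mathlib.Data.Finsupp.SMul
import Mathlib.Data.Finsupp.BigOperators
import Vale.Agent.P263.GB.SMT

/-!
# P263, block GB: the lowest degree of a levelwise product with a simplicial set

For a simplicial module `V` over any commutative ring and a simplicial set `Y`, the simplicial
module `box V Y` has `p`-simplices the finitely supported functions `Y_p → V_p`
(`box (free X) Y` is `free (X × Y)` up to currying).  If `H_i(V) = 0` for `i < r` then

* `hz_box` : `H_n(box V Y) = 0` for `n < r`;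
* `low_box` : every `r`-cycle of `box V Y` is homologous to a sum of `t · s^r y`, `t` a cycle of
  `V` and `y` a vertex of `Y`;
* `low_box_conn` : if `Y` is connected, every `r`-cycle is homologous to `t · s^r y₀`.

Tensor versions over a flat base: `low_tens`, `low_tens_conn`.
-/

open scoped TensorProduct

namespace Vale.Agent.P263.GB

open Vale.Agent.P263.S Vale.Agent.P263.E

variable {R : Type} [CommRing R]

/-! ### the box product of a simplicial module and a simplicial set -/

/-- `box V Y`: finitely supported functions `Y_p → V_p` -/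
noncomputable def box (V : SMod R) (Y : SS) : SMod R where
  obj p := Y.obj p →₀ V.obj p
  map {p q} f := Finsupp.lsum R fun y => (Finsupp.lsingle (Y.map f y)).comp (V.map f)
  map_id {p} x := by
    induction x using Finsupp.induction_linear with
    | zero => rw [map_zero]
    | add x y hx hy => rw [map_add, hx, hy]
    | single y v =>
      rw [Finsupp.lsum_single, LinearMap.comp_apply, V.map_id, Y.map_id, Finsupp.lsingle_apply]
  map_comp {p q r} f g x := by
    induction x using Finsupp.induction_linear with
    | zero => simp only [map_zero]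
    | add x y hx hy => simp only [map_add, hx, hy]
    | single y v =>
      simp only [Finsupp.lsum_single, LinearMap.comp_apply, V.map_comp, Y.map_comp,
        Finsupp.lsingle_apply]

/-- the generator `v · y` of the box product -/
noncomputable def bx (V : SMod R) (Y : SS) {p : ℕ} (y : Y.obj p) :
    V.obj p →ₗ[R] (box V Y).obj p := Finsupp.lsingle (R := R) y

@[simp] theorem box_map_bx (V : SMod R) (Y : SS) {p q : ℕ} (f : Op p q) (y : Y.obj q)
    (v : V.obj q) : (box V Y).map f (bx V Y y v) = bx V Y (Y.map f y) (V.map f v) := by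
  change (Finsupp.lsum R fun y => (Finsupp.lsingle (Y.map f y)).comp (V.map f))
    (Finsupp.single y v) = _
  rw [Finsupp.lsum_single]
  rfl

theorem box_induction {V : SMod R} {Y : SS} {p : ℕ} {P : (box V Y).obj p → Prop}
    (x : (box V Y).obj p) (h0 : P 0) (ha : ∀ x y, P x → P y → P (x + y))
    (hs : ∀ y v, P (bx V Y y v)) : P x :=
  Finsupp.induction_linear (motive := P) x h0 ha hs

theorem box_hom_ext {V : SMod R} {Y : SS} {p : ℕ} {N : Type*} [AddCommGroup N] [Module R N]
    {f g : (box V Y).obj p →ₗ[R] N} (h : ∀ y v, f (bx V Y y v) = g (bx V Y y v))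
    (x : (box V Y).obj p) : f x = g x := by
  induction x using box_induction with
  | h0 => simp only [map_zero]
  | ha x y hx hy => simp only [map_add, hx, hy]
  | hs y v => exact h y v

/-- linear maps out of a level of the box product -/
noncomputable def boxLift (V : SMod R) (Y : SS) {p : ℕ} {N : Type*} [AddCommGroup N] [Module R N]
    (f : Y.obj p → V.obj p →ₗ[R] N) : (box V Y).obj p →ₗ[R] N := Finsupp.lsum R f

@[simp] theorem boxLift_bx (V : SMod R) (Y : SS) {p : ℕ} {N : Type*} [AddCommGroup N]
    [Module R N] (f : Y.obj p → V.obj p →ₗ[R] N) (y : Y.obj p) (v : V.obj p) :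
    boxLift V Y f (bx V Y y v) = f y v := Finsupp.lsum_single _ _ _ _

/-- a map in one level induces a map of one level of the box products -/
noncomputable def boxLev {V W : SMod R} (Y : SS) {p : ℕ} (f : V.obj p →ₗ[R] W.obj p) :
    (box V Y).obj p →ₗ[R] (box W Y).obj p := Finsupp.mapRange.linearMap f

@[simp] theorem boxLev_bx {V W : SMod R} (Y : SS) {p : ℕ} (f : V.obj p →ₗ[R] W.obj p)
    (y : Y.obj p) (v : V.obj p) : boxLev Y f (bx V Y y v) = bx W Y y (f v) :=
  Finsupp.mapRange_single (hf := map_zero _)

/-- the coefficient at a simplex -/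
noncomputable def cf (V : SMod R) (Y : SS) {p : ℕ} (y : Y.obj p) :
    (box V Y).obj p →ₗ[R] V.obj p := Finsupp.lapply y

theorem cf_ext {V : SMod R} {Y : SS} {p : ℕ} {x x' : (box V Y).obj p}
    (h : ∀ y, cf V Y y x = cf V Y y x') : x = x' := Finsupp.ext h

theorem cf_boxLev {V W : SMod R} (Y : SS) {p : ℕ} (f : V.obj p →ₗ[R] W.obj p)
    (x : (box V Y).obj p) (y : Y.obj p) : cf W Y y (boxLev Y f x) = f (cf V Y y x) := rfl

/-- lifting finitely supported functions through a map -/
theorem exists_lift {α M N : Type} [AddCommGroup M] [AddCommGroup N] (f : M → N) (hf : f 0 = 0)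
    (x : α →₀ N) (h : ∀ a, ∃ m, f m = x a) : ∃ y : α →₀ M, ∀ a, f (y a) = x a := by
  classical
  choose m hm using h
  refine ⟨Finsupp.onFinset x.support (fun a => if x a = 0 then 0 else m a) ?_, ?_⟩
  · intro a ha
    rw [Finsupp.mem_support_iff]
    intro h0
    exact ha (if_pos h0)
  · intro a
    rw [Finsupp.onFinset_apply]
    split_ifs with h0
    · rw [hf, h0]
    · exact hm a

/-- lifting elements of the box product through a map in one level -/
theorem exists_boxLev {V W : SMod R} (Y : SS) {p : ℕ} (f : V.obj p →ₗ[R] W.obj p)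
    (x : (box W Y).obj p) (h : ∀ y, ∃ v, f v = cf W Y y x) :
    ∃ x' : (box V Y).obj p, boxLev Y f x' = x := by
  obtain ⟨x', hx'⟩ := exists_lift f (map_zero f) (x : Y.obj p →₀ W.obj p) h
  exact ⟨x', cf_ext fun y => (cf_boxLev Y f x' y).trans (hx' y)⟩

/-- the box product is functorial in the module -/
noncomputable def boxL {V W : SMod R} (f : SMod.Hom V W) (Y : SS) :
    SMod.Hom (box V Y) (box W Y) where
  app p := boxLev Y (f.app p)
  nat {p q} α x := by
    induction x using box_induction with
    | h0 => simp only [map_zero]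
    | ha x y hx hy => simp only [map_add, hx, hy]
    | hs y v => rw [box_map_bx, boxLev_bx, boxLev_bx, box_map_bx, f.nat]

theorem boxL_app {V W : SMod R} (f : SMod.Hom V W) (Y : SS) (p : ℕ) :
    (boxL f Y).app p = boxLev Y (f.app p) := rfl

@[simp] theorem boxL_bx {V W : SMod R} (f : SMod.Hom V W) (Y : SS) {p : ℕ} (y : Y.obj p)
    (v : V.obj p) : (boxL f Y).app p (bx V Y y v) = bx W Y y (f.app p v) := boxLev_bx _ _ _ _

/-- the box product is functorial in the simplicial set -/
noncomputable def boxR (V : SMod R) {Y Y' : SS} (g : SS.Map Y Y') :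
    SMod.Hom (box V Y) (box V Y') where
  app p := boxLift V Y fun y => bx V Y' (g.app y)
  nat {p q} α x := by
    induction x using box_induction with
    | h0 => simp only [map_zero]
    | ha x y hx hy => simp only [map_add, hx, hy]
    | hs y v => rw [box_map_bx, boxLift_bx, boxLift_bx, box_map_bx, g.nat]

@[simp] theorem boxR_bx (V : SMod R) {Y Y' : SS} (g : SS.Map Y Y') {p : ℕ} (y : Y.obj p)
    (v : V.obj p) : (boxR V g).app p (bx V Y y v) = bx V Y' (g.app y) v := boxLift_bx _ _ _ _ _

/-- homotopies of the module induce homotopies of the box product -/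
noncomputable def boxP {V W : SMod R} (P : SMod.Prism V W) (Y : SS) :
    SMod.Prism (box V Y) (box W Y) where
  h p θ := boxLev Y (P.h p θ)
  nat {p q} α θ x := by
    induction x using box_induction with
    | h0 => simp only [map_zero]
    | ha x y hx hy => simp only [map_add, hx, hy]
    | hs y v => rw [box_map_bx, boxLev_bx, boxLev_bx, box_map_bx, P.nat]

@[simp] theorem boxP_bx {V W : SMod R} (P : SMod.Prism V W) (Y : SS) {p : ℕ} (θ : Op p 1)
    (y : Y.obj p) (v : V.obj p) :
    (boxP P Y).h p θ (bx V Y y v) = bx W Y y (P.h p θ v) := boxLev_bx _ _ _ _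

/-- the box product of an exact sequence is exact, over every ring -/
theorem ses_boxL {A B C : SMod R} {i : SMod.Hom A B} {r : SMod.Hom B C} (h : SES i r) (Y : SS) :
    SES (boxL i Y) (boxL r Y) where
  inj p x x' hx := cf_ext fun y => h.inj p (by
    have := congrArg (cf B Y y) hx
    rwa [boxL_app, cf_boxLev, cf_boxLev] at this)
  exact p x hx := exists_boxLev Y (i.app p) x fun y => h.exact p _ (by
    have := congrArg (cf C Y y) hx
    rwa [boxL_app, cf_boxLev, map_zero] at this)
  zero p x := by
    induction x using box_induction with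
    | h0 => simp only [map_zero]
    | ha x y hx hy => simp only [map_add, hx, hy, add_zero]
    | hs y v => rw [boxL_bx, boxL_bx, h.zero, map_zero]
  surj p x := exists_boxLev Y (r.app p) x fun y => h.surj p _

/-- the box product of a contractible object is contractible -/
theorem hz_box_con {V : SMod R} (P : SMod.Prism V V) (h0 : ∀ p x, P.h p (c0 p) x = 0)
    (h1 : ∀ p x, P.h p (c1 p) x = x) (Y : SS) (n : ℕ) : (box V Y).cx.HZ n := by
  apply (boxP P Y).hz
  · intro p x
    exact cf_ext fun y => by
      change cf V Y y (boxLev Y (P.h p (c0 p)) x) = _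
      rw [cf_boxLev, h0, map_zero]
  · intro p x
    exact cf_ext fun y => by
      change cf V Y y (boxLev Y (P.h p (c1 p)) x) = _
      rw [cf_boxLev, h1]

/-- the box product of the path object is acyclic -/
theorem hz_box_path (V : SMod R) (Y : SS) (n : ℕ) : (box V.Path Y).cx.HZ n :=
  hz_box_con V.pcon V.pcon_zero V.pcon_one Y n

/-- **(K1)** `H_n(box V Y) = 0` for `n < a` if `H_i(V) = 0` for `i < a` -/
theorem hz_box (Y : SS) (a : ℕ) :
    ∀ V : SMod R, (∀ i < a, V.cx.HZ i) → ∀ n < a, (box V Y).cx.HZ n := by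
  induction a with
  | zero => intro V _ n hn; omega
  | succ a ih =>
    intro V hV n hn
    refine (ses_boxL (V.ses_loop (hV 0 (by omega))) Y).hz_right n (hz_box_path V Y n) ?_
    rintro m rfl
    exact ih V.Loop (fun i hi => V.loop_hz (hV 0 (by omega)) i (hV (i + 1) (by omega))) m
      (by omega)

/-! ### the lowest degree -/

/-- a map to the point, on operators -/
theorem cst_zero_comp {p q : ℕ} (f : Op p q) : (cst q 0).comp f = cst p 0 := rfl

theorem cst_zero_zero : cst 0 0 = OrderHom.id := by
  apply OrderHom.ext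
  funext x
  exact Subsingleton.elim (α := Fin 1) _ _

/-- the totally degenerate simplex on a vertex -/
def dg (Y : SS) (p : ℕ) (y : Y.obj 0) : Y.obj p := Y.map (cst p 0) y

theorem map_dg (Y : SS) {p q : ℕ} (f : Op p q) (y : Y.obj 0) :
    Y.map f (dg Y q y) = dg Y p y := by
  rw [dg, dg, ← Y.map_comp]
  rfl

theorem dg_zero (Y : SS) (y : Y.obj 0) : dg Y 0 y = y := by
  rw [dg, cst_zero_zero, Y.map_id]

/-- the inclusion of `V` at a vertex of `Y` -/
noncomputable def at0 (V : SMod R) {Y : SS} (y : Y.obj 0) : SMod.Hom V (box V Y) where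
  app p := bx V Y (dg Y p y)
  nat f v := by rw [box_map_bx, map_dg]

@[simp] theorem at0_app (V : SMod R) {Y : SS} (y : Y.obj 0) (p : ℕ) (v : V.obj p) :
    (at0 V y).app p v = bx V Y (dg Y p y) v := rfl

theorem d_at0 (V : SMod R) {Y : SS} (y : Y.obj 0) (p : ℕ) (v : V.obj (p + 1)) :
    (box V Y).d p (bx V Y (dg Y (p + 1) y) v) = bx V Y (dg Y p y) (V.d p v) :=
  ((at0 V y).app_d p v).symm

/-- the sum of the inclusions at all the vertices -/
noncomputable def atv (V : SMod R) (Y : SS) (p : ℕ) :
    (Y.obj 0 →₀ V.obj p) →ₗ[R] (box V Y).obj p :=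
  Finsupp.lsum R fun y => bx V Y (dg Y p y)

@[simp] theorem atv_single (V : SMod R) (Y : SS) (p : ℕ) (y : Y.obj 0) (v : V.obj p) :
    atv V Y p (Finsupp.single y v) = bx V Y (dg Y p y) v := Finsupp.lsum_single _ _ _ _

theorem d_atv (V : SMod R) (Y : SS) (p : ℕ) (t : Y.obj 0 →₀ V.obj (p + 1)) :
    (box V Y).d p (atv V Y (p + 1) t) =
      atv V Y p (Finsupp.mapRange.linearMap (V.d p) t) := by
  induction t using Finsupp.induction_linear with
  | zero => simp only [map_zero]
  | add x y hx hy => simp only [map_add, hx, hy]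
  | single y v =>
    rw [atv_single, d_at0, Finsupp.mapRange.linearMap_apply, Finsupp.mapRange_single, atv_single]

theorem atv_nat {V W : SMod R} (f : SMod.Hom V W) (Y : SS) (p : ℕ) (t : Y.obj 0 →₀ V.obj p) :
    (boxL f Y).app p (atv V Y p t) = atv W Y p (Finsupp.mapRange.linearMap (f.app p) t) := by
  induction t using Finsupp.induction_linear with
  | zero => simp only [map_zero]
  | add x y hx hy => simp only [map_add, hx, hy]
  | single y v =>
    rw [atv_single, boxL_bx, Finsupp.mapRange.linearMap_apply, Finsupp.mapRange_single,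
      atv_single]

/-- **(K2)** If `H_i(V) = 0` for `i < r`, every `r`-cycle of `box V Y` is homologous to a sum
of `t · s^r y`, `t` an `r`-cycle of `V` and `y` a vertex of `Y`. -/
theorem low_box (Y : SS) (r : ℕ) :
    ∀ V : SMod R, (∀ i < r, V.cx.HZ i) → ∀ z : (box V Y).obj r, (box V Y).cx.Cyc r z →
      ∃ (w : (box V Y).obj (r + 1)) (t : Y.obj 0 →₀ V.obj r),
        (∀ y, V.cx.Cyc r (t y)) ∧ (box V Y).d r w + atv V Y r t = z := by
  induction r with
  | zero =>
    intro V _ z _
    refine ⟨0, z, fun _ => trivial, ?_⟩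
    rw [map_zero, zero_add]
    have : ∀ z : (box V Y).obj 0, atv V Y 0 z = z := by
      intro z
      induction z using box_induction with
      | h0 => exact map_zero _
      | ha x y hx hy => exact (map_add (atv V Y 0) x y).trans (congrArg₂ _ hx hy)
      | hs y v => exact (atv_single V Y 0 y v).trans (by rw [dg_zero])
    exact this z
  | succ r ih =>
    intro V hV z hz
    have hS := V.ses_loop (hV 0 (by omega))
    have hB := ses_boxL hS Y
    obtain ⟨z', rfl⟩ := hB.surj (r + 1) z
    have hz0 : (box V Y).d r ((boxL V.ev Y).app (r + 1) z') = 0 := hz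
    rw [← SMod.Hom.app_d] at hz0
    obtain ⟨u, hu⟩ := hB.exact r _ hz0
    have hcu : (box V.Loop Y).cx.Cyc r u := by
      refine (boxL (SMod.kerI V.ev) Y).cx.cyc_of_inj ?_ hB.inj
      change (box V.Path Y).cx.Cyc r ((boxL (SMod.kerI V.ev) Y).app r u)
      rw [hu]
      exact (box V.Path Y).cx.cyc_d r z'
    obtain ⟨w, t, ht, rfl⟩ := ih V.Loop
      (fun i hi => V.loop_hz (hV 0 (by omega)) i (hV (i + 1) (by omega))) u hcu
    -- lift the vertex coefficients to the path object
    have hex : ∀ y, ∃ π : V.Path.obj (r + 1),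
        V.Path.d r π = (Finsupp.mapRange.linearMap ((SMod.kerI V.ev).app r) t) y := by
      intro y
      exact V.Path_hz r ((SMod.kerI V.ev).app r (t y)) ((SMod.kerI V.ev).cx.cyc (ht y))
    obtain ⟨π, hπ⟩ := exists_lift (V.Path.d r) (map_zero _) _ hex
    have hπ' : Finsupp.mapRange.linearMap (V.Path.d r) π =
        Finsupp.mapRange.linearMap ((SMod.kerI V.ev).app r) t := Finsupp.ext fun y => hπ y
    obtain ⟨v, hv⟩ : ∃ v : (box V.Path Y).obj (r + 2), (box V.Path Y).d (r + 1) v =
        z' - (boxL (SMod.kerI V.ev) Y).app (r + 1) w - atv V.Path Y (r + 1) π :=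
      hz_box_path V Y (r + 1) _ (by
        change (box V.Path Y).d r _ = 0
        rw [map_sub, map_sub, ← SMod.Hom.app_d, d_atv, hπ', ← hu, map_add, atv_nat]
        abel)
    refine ⟨(boxL V.ev Y).app (r + 2) v, Finsupp.mapRange.linearMap (V.ev.app (r + 1)) π, ?_, ?_⟩
    · intro y
      change V.d r (V.ev.app (r + 1) (π y)) = 0
      rw [← SMod.Hom.app_d]
      have h2 := hπ y
      rw [h2]
      exact (t y).2
    · rw [← SMod.Hom.app_d, hv, map_sub, map_sub, hB.zero, atv_nat]
      abel

/-! ### moving the vertex along an edge -/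

/-- the homotopy along a chain of edges -/
noncomputable def edgeP (V : SMod R) {Y : SS} (e : (free R Y).obj 1) : SMod.Prism V (box V Y) where
  h p θ := Finsupp.sum (e : Y.obj 1 →₀ R) fun y a => a • bx V Y (Y.map θ y)
  nat {p q} α θ v := by
    simp only [Finsupp.sum, LinearMap.sum_apply, LinearMap.smul_apply, map_sum, map_smul,
      box_map_bx, Y.map_comp]

/-- the value of a chain of `Y` of degree `p` at `v : V_p` -/
noncomputable def cb (V : SMod R) (Y : SS) {p : ℕ} (v : V.obj p) :
    (free R Y).obj p →ₗ[R] (box V Y).obj p :=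
  Finsupp.lsum R fun y => (LinearMap.toSpanSingleton R _ (bx V Y y v))

theorem cb_single (V : SMod R) (Y : SS) {p : ℕ} (v : V.obj p) (y : Y.obj p) (a : R) :
    cb V Y v (Finsupp.single y a) = a • bx V Y y v := by
  change (Finsupp.lsum R fun y => (LinearMap.toSpanSingleton R _ (bx V Y y v)))
    (Finsupp.single y a) = _
  rw [Finsupp.lsum_single, LinearMap.toSpanSingleton_apply]

theorem edgeP_h (V : SMod R) {Y : SS} (e : (free R Y).obj 1) {p : ℕ} (θ : Op p 1) (v : V.obj p) :
    (edgeP V e).h p θ v = cb V Y v ((free R Y).map θ e) := by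
  have : ∀ e : Y.obj 1 →₀ R, (e.sum fun y a => a • bx V Y (Y.map θ y)) v =
      cb V Y v ((free R Y).map θ e) := by
    intro e
    induction e using Finsupp.induction_linear with
    | zero => rw [Finsupp.sum_zero_index, LinearMap.zero_apply]; exact (map_zero _).symm
    | add x y hx hy =>
      rw [Finsupp.sum_add_index' (by simp) (by intros; rw [add_smul]), LinearMap.add_apply, hx, hy]
      exact (map_add ((cb V Y v).comp ((free R Y).map θ)) x y).symm
    | single y a =>
      rw [free_map_single, cb_single, Finsupp.sum_single_index (by rw [zero_smul]),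
        LinearMap.smul_apply]
  exact this e

theorem d_zero_eq (A : SMod R) (x : A.obj 1) :
    A.d 0 x = A.map (inc 0) x - A.map (cst 0 1) x := by
  have e0 : dl 0 0 = inc 0 := by
    apply OrderHom.ext; funext y; apply Fin.ext; rw [dl_val, inc_val]; simp
  have e1 : dl 0 1 = cst 0 1 := by
    apply OrderHom.ext; funext y; apply Fin.ext; rw [dl_val, cst_apply]; simp
  rw [SMod.d_apply]
  simp [Finset.sum_range_succ, sn, sub_eq_add_neg, e0, e1]

theorem c1_eq (p : ℕ) : c1 p = (inc 0).comp (cst p 0) := by
  symm
  refine eq_c1 fun x => ?_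
  rfl

theorem c0_eq (p : ℕ) : c0 p = (cst 0 1).comp (cst p 0) := by
  symm
  refine eq_c0 fun x => ?_
  rfl

/-- the difference of the ends of a chain of edges, times a cycle, is a boundary -/
theorem edge_bd (V : SMod R) {Y : SS} (e : (free R Y).obj 1) (r : ℕ) (t : V.obj r)
    (ht : V.cx.Cyc r t) : ∃ w : (box V Y).obj (r + 1),
      (box V Y).d r w = cb V Y t ((free R Y).map (cst r 0) ((free R Y).d 0 e)) := by
  have key : (edgeP V e).h r (c1 r) t - (edgeP V e).h r (c0 r) t =
      cb V Y t ((free R Y).map (cst r 0) ((free R Y).d 0 e)) := by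
    rw [edgeP_h, edgeP_h, d_zero_eq, map_sub, map_sub, ← SMod.map_comp, ← SMod.map_comp, c1_eq,
      c0_eq]
  rw [← key]
  cases r with
  | zero => exact ⟨(edgeP V e).k 0 t, (edgeP V e).d_k_zero t⟩
  | succ r =>
    have ht0 : V.d r t = 0 := ht
    refine ⟨(edgeP V e).k (r + 1) t, ?_⟩
    rw [← (edgeP V e).d_k_add_k_d r t, ht0, map_zero, add_zero]

/-- the generator of the free module on a simplex -/
noncomputable def fs (R : Type) [CommRing R] (Y : SS) {p : ℕ} (y : Y.obj p) : (free R Y).obj p :=
  Finsupp.single y 1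

@[simp] theorem free_map_fs (Y : SS) {p q : ℕ} (f : Op p q) (y : Y.obj q) :
    (free R Y).map f (fs R Y y) = fs R Y (Y.map f y) := free_map_single _ _ _ _

@[simp] theorem cb_fs (V : SMod R) (Y : SS) {p : ℕ} (v : V.obj p) (y : Y.obj p) :
    cb V Y v (fs R Y y) = bx V Y y v := (cb_single V Y v y 1).trans (one_smul _ _)

/-- `Y` is connected to the vertex `y₀`, on chains -/
def Conn0 (R : Type) [CommRing R] (Y : SS) (y₀ : Y.obj 0) : Prop :=
  ∀ y : Y.obj 0, ∃ e : (free R Y).obj 1, (free R Y).d 0 e = fs R Y y - fs R Y y₀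

/-- **(K2, connected)** If `H_i(V) = 0` for `i < r` and `Y` is connected, every `r`-cycle of
`box V Y` is homologous to `t · s^r y₀`, `t` an `r`-cycle of `V`. -/
theorem low_box_conn (Y : SS) (y₀ : Y.obj 0) (hY : Conn0 R Y y₀) (r : ℕ) (V : SMod R)
    (hV : ∀ i < r, V.cx.HZ i) (z : (box V Y).obj r) (hz : (box V Y).cx.Cyc r z) :
    ∃ (w : (box V Y).obj (r + 1)) (t : V.obj r),
      V.cx.Cyc r t ∧ (box V Y).d r w + bx V Y (dg Y r y₀) t = z := by
  obtain ⟨w, t, ht, rfl⟩ := low_box Y r V hV z hz
  have key : ∀ t : Y.obj 0 →₀ V.obj r, (∀ y, V.cx.Cyc r (t y)) →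
      ∃ (w : (box V Y).obj (r + 1)) (t' : V.obj r),
        V.cx.Cyc r t' ∧ (box V Y).d r w + bx V Y (dg Y r y₀) t' = atv V Y r t := by
    classical
    intro t
    induction t using Finsupp.induction with
    | zero =>
      intro _
      refine ⟨0, 0, ?_, by simp only [map_zero, add_zero]⟩
      cases r with
      | zero => trivial
      | succ r => exact map_zero _
    | single_add y v f hy _ ih =>
      intro hc
      have hv : V.cx.Cyc r v := by
        have := hc y
        rwa [Finsupp.add_apply, Finsupp.single_eq_same, Finsupp.notMem_support_iff.1 hy,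
          add_zero] at this
      obtain ⟨w1, t1, ht1, h1⟩ := ih (fun y' => by
        by_cases h : y' = y
        · subst h
          rw [Finsupp.notMem_support_iff.1 hy]
          cases r with
          | zero => trivial
          | succ r => exact map_zero _
        · have := hc y'
          rwa [Finsupp.add_apply, Finsupp.single_eq_of_ne h, zero_add] at this)
      obtain ⟨e, he⟩ := hY y
      obtain ⟨w2, hw2⟩ := edge_bd V e r v hv
      have h2 : (box V Y).d r w2 = bx V Y (dg Y r y) v - bx V Y (dg Y r y₀) v := by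
        rw [hw2, he, map_sub, map_sub, free_map_fs, free_map_fs, cb_fs, cb_fs]
        rfl
      refine ⟨w1 + w2, t1 + v, V.cx.cyc_add ht1 hv, ?_⟩
      rw [map_add, map_add, map_add, h2, ← h1, atv_single]
      abel
  obtain ⟨w', t', ht', h⟩ := key t ht
  exact ⟨w + w', t', ht', by rw [map_add, add_assoc, h]⟩

end Vale.Agent.P263.GB
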