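import Vale.Agent.P263.GB.SMT
import Vale.Agent.P263.GB.Htp

/-!
# P263, block G2: reduced chains

* `red R X : SMod R` : the finitely supported chains with sum `0` (kernel of the map to the point),
  `redMap f`, `redI`, the retraction `redQ x₀ : free R X → red R X` given by a vertex `x₀`.
* `ptc x₀ : SS.Map X X` : the constant map.
* `Cx.HZ.retract`, `red_hz_of_hz`, `hz_of_red_hz`.
* `Cx.Rel A n x y` : `x - y` is a boundary.
* `rz0_iff` : `RZ0 f n` in terms of homology classes.
-/

namespace Vale.Agent.P263.GB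

open Vale.Agent.P263.S Vale.Agent.P263.E

variable {R : Type} [CommRing R]

/-! ### homologous chains -/

namespace Cx

variable {A B C : Cx R}

/-- `x` and `y` differ by a boundary -/
def Rel (A : Cx R) (n : ℕ) (x y : A.C n) : Prop := ∃ w, A.d n w = x - y

theorem Rel.refl (A : Cx R) (n : ℕ) (x : A.C n) : A.Rel n x x := ⟨0, by rw [map_zero, sub_self]⟩

theorem Rel.of_eq {n : ℕ} {x y : A.C n} (h : x = y) : A.Rel n x y := h ▸ Rel.refl A n x

theorem Rel.symm {n : ℕ} {x y : A.C n} (h : A.Rel n x y) : A.Rel n y x := by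
  obtain ⟨w, hw⟩ := h
  exact ⟨-w, by rw [map_neg, hw, neg_sub]⟩

theorem Rel.trans {n : ℕ} {x y z : A.C n} (h : A.Rel n x y) (h' : A.Rel n y z) : A.Rel n x z := by
  obtain ⟨w, hw⟩ := h
  obtain ⟨w', hw'⟩ := h'
  exact ⟨w + w', by rw [map_add, hw, hw', sub_add_sub_cancel]⟩

theorem Rel.add {n : ℕ} {x y x' y' : A.C n} (h : A.Rel n x y) (h' : A.Rel n x' y') :
    A.Rel n (x + x') (y + y') := by
  obtain ⟨w, hw⟩ := h
  obtain ⟨w', hw'⟩ := h'
  exact ⟨w + w', by rw [map_add, hw, hw', add_sub_add_comm]⟩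

theorem Rel.neg {n : ℕ} {x y : A.C n} (h : A.Rel n x y) : A.Rel n (-x) (-y) := by
  obtain ⟨w, hw⟩ := h
  exact ⟨-w, by rw [map_neg, hw, neg_sub_neg, neg_sub]⟩

theorem Rel.sub {n : ℕ} {x y x' y' : A.C n} (h : A.Rel n x y) (h' : A.Rel n x' y') :
    A.Rel n (x - x') (y - y') := by
  rw [sub_eq_add_neg, sub_eq_add_neg]
  exact h.add h'.neg

theorem Rel.sum {ι : Type*} (s : Finset ι) {n : ℕ} {x y : ι → A.C n}
    (h : ∀ i ∈ s, A.Rel n (x i) (y i)) : A.Rel n (∑ i ∈ s, x i) (∑ i ∈ s, y i) := by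
  classical
  induction s using Finset.induction_on with
  | empty => exact Rel.refl _ _ _
  | insert i s hi ih =>
    rw [Finset.sum_insert hi, Finset.sum_insert hi]
    exact (h i (Finset.mem_insert_self i s)).add
      (ih fun j hj => h j (Finset.mem_insert_of_mem hj))

theorem Rel.map (f : Hom A B) {n : ℕ} {x y : A.C n} (h : A.Rel n x y) :
    B.Rel n (f.app n x) (f.app n y) := by
  obtain ⟨w, hw⟩ := h
  exact ⟨f.app (n + 1) w, by rw [← f.comm, hw, map_sub]⟩

theorem rel_zero_iff {n : ℕ} {x : A.C n} : A.Rel n x 0 ↔ ∃ w, A.d n w = x := by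
  unfold Rel
  rw [sub_zero]

theorem Rel.cyc {n : ℕ} {x y : A.C n} (h : A.Rel n x y) (hy : A.Cyc n y) : A.Cyc n x := by
  obtain ⟨w, hw⟩ := h
  have : x = A.d n w + y := by rw [hw, sub_add_cancel]
  rw [this]
  exact A.cyc_add (A.cyc_d n w) hy

theorem HZ.rel {n : ℕ} (h : A.HZ n) {x : A.C n} (hx : A.Cyc n x) : A.Rel n x 0 :=
  rel_zero_iff.2 (h x hx)

/-- a retract of an acyclic complex is acyclic -/
theorem HZ.retract (i : Hom A B) (q : Hom B A) (h : ∀ n x, q.app n (i.app n x) = x) {n : ℕ}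
    (hB : B.HZ n) : A.HZ n := by
  intro x hx
  obtain ⟨y, hy⟩ := hB _ (i.cyc hx)
  exact ⟨q.app (n + 1) y, by rw [← q.comm, hy, h]⟩

/-- **Relative homology in terms of homology classes.** -/
theorem rz0_iff (f : Hom A B) (n : ℕ) : RZ0 f n ↔
    (∀ b, B.Cyc n b → ∃ a, A.Cyc n a ∧ B.Rel n b (f.app n a)) ∧
    (∀ m, m + 1 = n → ∀ a, A.Cyc m a → B.Rel m (f.app m a) 0 → A.Rel m a 0) := by
  cases n with
  | zero =>
    rw [rz0_zero]
    constructor
    · intro h
      refine ⟨fun b _ => ?_, fun m hm => absurd hm (Nat.succ_ne_zero m)⟩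
      obtain ⟨b', a, h'⟩ := h b
      exact ⟨a, trivial, b', by rw [← h', add_sub_cancel_right]⟩
    · rintro ⟨h, -⟩ b
      obtain ⟨a, -, w, hw⟩ := h b trivial
      exact ⟨w, a, by rw [hw, sub_add_cancel]⟩
  | succ n =>
    rw [rz0_succ]
    constructor
    · intro h
      constructor
      · intro b hb
        obtain ⟨b', a', h1, h2⟩ := h b 0 (by cases n with
          | zero => trivial
          | succ n => exact map_zero _) (by rw [map_zero, add_zero]; exact hb)
        refine ⟨a', neg_eq_zero.1 h2, b', ?_⟩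
        rw [← h1, add_sub_cancel_right]
      · rintro m hm a ha ⟨w, hw⟩
        obtain rfl : m = n := by omega
        rw [sub_zero] at hw
        obtain ⟨b', a', h1, h2⟩ := h (-w) a ha (by rw [map_neg, hw, neg_add_cancel])
        exact ⟨-a', by rw [map_neg, h2, sub_zero]⟩
    · rintro ⟨h1, h2⟩ b a ha hba
      obtain ⟨w, hw⟩ := h2 n rfl a ha ⟨-b, by
        rw [map_neg, sub_zero, neg_eq_iff_add_eq_zero]; exact hba⟩
      rw [sub_zero] at hw
      obtain ⟨a', ha', b', hb'⟩ := h1 (b + f.app (n + 1) w) (by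
        rw [cyc_succ, map_add, ← f.comm, hw]; exact hba)
      refine ⟨b', a' - w, ?_, ?_⟩
      · rw [hb', map_sub]
        abel
      · have : A.d n a' = 0 := ha'
        rw [map_sub, this, hw, zero_sub, neg_neg]

/-- maps which agree on homology have the same relative homology -/
theorem rz0_congr {f g : Hom A B} (h : ∀ n a, A.Cyc n a → B.Rel n (f.app n a) (g.app n a)) {n : ℕ}
    (hg : RZ0 g n) : RZ0 f n := by
  rw [rz0_iff] at hg ⊢
  refine ⟨fun b hb => ?_, fun m hm a ha hfa => ?_⟩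
  · obtain ⟨a, ha, hr⟩ := hg.1 b hb
    exact ⟨a, ha, hr.trans (h n a ha).symm⟩
  · exact hg.2 m hm a ha ((h m a ha).symm.trans hfa)

/-- `RZ0 (g ∘ f) n` and `RZ0 g (n + 1)` give `RZ0 f n` -/
theorem rz0_of_comp {f : Hom A B} {g : Hom B C} {n : ℕ} (h : RZ0 (g.comp f) n)
    (hg' : RZ0 g (n + 1)) : RZ0 f n := by
  rw [rz0_iff] at h hg' ⊢
  refine ⟨fun b hb => ?_, fun m hm a ha hfa => ?_⟩
  · obtain ⟨a, ha, hr⟩ := h.1 (g.app n b) (g.cyc hb)
    refine ⟨a, ha, ?_⟩
    have hc : B.Cyc n (b - f.app n a) := B.cyc_sub hb (f.cyc ha)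
    have := hg'.2 n rfl _ hc (by
      obtain ⟨w, hw⟩ := hr
      exact ⟨w, by rw [hw, sub_zero, map_sub]; rfl⟩)
    obtain ⟨w, hw⟩ := this
    exact ⟨w, by rw [hw, sub_zero]⟩
  · exact h.2 m hm a ha (by
      have := hfa.map g
      rwa [map_zero] at this)

end Cx

/-! ### reduced chains -/

/-- the reduced chains -/
noncomputable abbrev red (R : Type) [CommRing R] (X : SS) : SMod R :=
  SMod.Ker (freeMap R (SS.toPt X))

/-- the inclusion of the reduced chains -/
noncomputable def redI (R : Type) [CommRing R] (X : SS) : SMod.Hom (red R X) (free R X) :=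
  SMod.kerI (freeMap R (SS.toPt X))

theorem redI_app {X : SS} {p : ℕ} (x : (red R X).obj p) : (redI R X).app p x = x.1 := rfl

theorem mem_red {X : SS} {p : ℕ} (x : (red R X).obj p) :
    (freeMap R (SS.toPt X)).app p x.1 = 0 := x.2

theorem freeMap_congr {X Y : SS} {f g : SS.Map X Y} (h : f = g) {p : ℕ} (x : (free R X).obj p) :
    (freeMap R f).app p x = (freeMap R g).app p x := by rw [h]

/-- functoriality of the reduced chains -/
noncomputable def redMap (R : Type) [CommRing R] {X Y : SS} (f : SS.Map X Y) :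
    SMod.Hom (red R X) (red R Y) where
  app p := ((freeMap R f).app p).restrict fun x hx => by
    rw [LinearMap.mem_ker] at *
    rw [← freeMap_comp_app]
    exact hx
  nat α x := Subtype.ext ((freeMap R f).nat α x.1)

theorem redMap_coe {X Y : SS} (f : SS.Map X Y) {p : ℕ} (x : (red R X).obj p) :
    ((redMap R f).app p x).1 = (freeMap R f).app p x.1 := rfl

theorem redMap_comp_app {X Y W : SS} (g : SS.Map Y W) (f : SS.Map X Y) {p : ℕ}
    (x : (red R X).obj p) :
    (redMap R (g.comp f)).app p x = (redMap R g).app p ((redMap R f).app p x) :=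
  Subtype.ext (freeMap_comp_app g f x.1)

theorem redMap_id_app {X : SS} {p : ℕ} (x : (red R X).obj p) :
    (redMap R (SS.Map.id X)).app p x = x := Subtype.ext (freeMap_id_app x.1)

theorem redMap_congr {X Y : SS} {f g : SS.Map X Y} (h : f = g) {p : ℕ} (x : (red R X).obj p) :
    (redMap R f).app p x = (redMap R g).app p x := by rw [h]

/-- the vertex `x₀` as a map from the point -/
def ptv {X : SS} (x₀ : X.obj 0) : SS.Map SS.pt X where
  app {p} _ := X.map (cst p 0) x₀
  nat {p q} f _ := by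
    rw [← X.map_comp, cst_comp]

/-- the constant map with value the vertex `y₀` -/
def ptc (X : SS) {Y : SS} (y₀ : Y.obj 0) : SS.Map X Y := (ptv y₀).comp (SS.toPt X)

/-- a map which factors through the point is zero on reduced chains -/
theorem freeMap_ptc_red {X Y : SS} (y₀ : Y.obj 0) {p : ℕ} (x : (red R X).obj p) :
    (freeMap R (ptc X y₀)).app p x.1 = 0 := by
  rw [ptc, freeMap_comp_app, mem_red, map_zero]

theorem redMap_ptc {X Y : SS} (y₀ : Y.obj 0) {p : ℕ} (x : (red R X).obj p) :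
    (redMap R (ptc X y₀)).app p x = 0 := Subtype.ext (freeMap_ptc_red y₀ x)

/-- the retraction onto the reduced chains -/
noncomputable def redQ (R : Type) [CommRing R] {X : SS} (x₀ : X.obj 0) :
    SMod.Hom (free R X) (red R X) where
  app p := LinearMap.codRestrict _ (LinearMap.id - (freeMap R (ptc X x₀)).app p) fun x => by
    rw [LinearMap.mem_ker, LinearMap.sub_apply, map_sub, LinearMap.id_apply, sub_eq_zero,
      ← freeMap_comp_app]
    rfl
  nat α x := by
    apply Subtype.ext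
    show (free R X).map α x - (freeMap R (ptc X x₀)).app _ ((free R X).map α x) =
      (free R X).map α (x - (freeMap R (ptc X x₀)).app _ x)
    rw [(freeMap R (ptc X x₀)).nat, map_sub]

theorem redQ_coe {X : SS} (x₀ : X.obj 0) {p : ℕ} (x : (free R X).obj p) :
    ((redQ R x₀).app p x).1 = x - (freeMap R (ptc X x₀)).app p x := rfl

theorem redQ_redI {X : SS} (x₀ : X.obj 0) {p : ℕ} (x : (red R X).obj p) :
    (redQ R x₀).app p x.1 = x := by
  apply Subtype.ext
  rw [redQ_coe, freeMap_ptc_red, sub_zero]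

theorem redQ_freeMap {X Y : SS} (f : SS.Map X Y) (x₀ : X.obj 0) (y₀ : Y.obj 0)
    (h : f.app x₀ = y₀) {p : ℕ} (x : (free R X).obj p) :
    (redQ R y₀).app p ((freeMap R f).app p x) = (redMap R f).app p ((redQ R x₀).app p x) := by
  apply Subtype.ext
  rw [redQ_coe, redMap_coe, redQ_coe, map_sub, ← freeMap_comp_app, ← freeMap_comp_app]
  congr 1
  refine freeMap_congr (SS.Map.ext fun p x => ?_) x
  show Y.map (cst p 0) y₀ = f.app (X.map (cst p 0) x₀)
  rw [f.nat, h]

theorem red_hz_of_hz {X : SS} (x₀ : X.obj 0) {n : ℕ} (h : (free R X).cx.HZ n) :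
    (red R X).cx.HZ n :=
  Cx.HZ.retract (redI R X).cx (redQ R x₀).cx (fun _ x => redQ_redI x₀ x) h

/-- homologous cycles have homologous reductions -/
theorem red_rel {X : SS} (x₀ : X.obj 0) {n : ℕ} {x y : (red R X).obj n}
    (h : (free R X).cx.Rel n x.1 y.1) : (red R X).cx.Rel n x y := by
  have := h.map (redQ R x₀).cx
  have e : ∀ z : (red R X).obj n, (redQ R x₀).cx.app n z.1 = z := fun z => redQ_redI x₀ z
  rwa [e, e] at this

/-- homotopic maps agree on reduced cycles up to boundaries -/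
theorem HtpRel.red_rel {X Y : SS} {f g : SS.Map X Y} (h : HtpRel f g) (y₀ : Y.obj 0) {n : ℕ}
    {x : (red R X).obj n} (hx : (red R X).cx.Cyc n x) :
    (red R Y).cx.Rel n ((redMap R f).app n x) ((redMap R g).app n x) := by
  have hx' : (free R X).cx.Cyc n x.1 := (redI R X).cx.cyc hx
  obtain ⟨w, hw⟩ := h.exists_d hx'
  exact Vale.Agent.P263.GB.red_rel y₀ ⟨w, hw⟩

end Vale.Agent.P263.GB
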