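import Vale.Agent.P263.GB.BSS
import Vale.Agent.P263.GB.Low
import Vale.Agent.P263.GB.Red

/-!
# P263, block G2: reduced chains of products, lowest degree

(on 372's `red`, `redMap`)

* `hz_of_rz0`, `hz_of_rz0'`, `red_rz0` : vanishing relative homology for `free` gives it for `red`.
* `rz0_toPt_succ` : reduced homology is the relative homology of the map to the point.
* `red_prod_hz` : if the reduced homology of `X` and `Y` vanishes below `c` then so does the one
  of `X × Y`.
* `red_prod_span` : in degree `c ≥ 1` the reduced homology of `X × Y` is spanned by the two axes.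
-/

namespace Vale.Agent.P263.GB.Rd

open Vale.Agent.P263.S Vale.Agent.P263.E

variable {R : Type} [CommRing R]

/-! ### vanishing relative homology -/

/-- `H_t(A) = 0` from `H_t(B) = 0` and the vanishing of the relative homology in degree `t + 1` -/
theorem hz_of_rz0 {A B : Cx R} {f : Cx.Hom A B} {t : ℕ} (h : RZ0 f (t + 1)) (hB : B.HZ t) :
    A.HZ t := by
  intro a ha
  obtain ⟨b, hb⟩ := hB (f.app t a) (f.cyc ha)
  obtain ⟨_, a', _, h2⟩ := (rz0_succ f t).1 h (-b) a ha (by rw [map_neg, hb, neg_add_cancel])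
  exact ⟨-a', by rw [map_neg, h2]⟩

/-- `H_t(B) = 0` from `H_t(A) = 0` and the vanishing of the relative homology in degree `t` -/
theorem hz_of_rz0' {A B : Cx R} {f : Cx.Hom A B} {t : ℕ} (h : RZ0 f t) (hA : A.HZ t) :
    B.HZ t := by
  cases t with
  | zero =>
    intro b _
    obtain ⟨b', a, h1⟩ := (rz0_zero f).1 h b
    obtain ⟨a', rfl⟩ := hA a trivial
    refine ⟨b' + f.app 1 a', ?_⟩
    rw [map_add, ← f.comm, h1]
  | succ t =>
    intro b hb
    obtain ⟨b', a', h1, h2⟩ := (rz0_succ f t).1 h b 0 (by cases t <;> simp [Cx.Cyc])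
      (by rw [Cx.cyc_succ] at hb; rw [hb, map_zero, add_zero])
    obtain ⟨a'', rfl⟩ := hA a' (by rw [Cx.cyc_succ]; exact neg_eq_zero.1 h2)
    refine ⟨b' + f.app (t + 2) a'', ?_⟩
    rw [map_add, ← f.comm, h1]

/-- reflecting homologies -/
theorem refl_bd {A B : Cx R} {f : Cx.Hom A B} {t : ℕ} (h : RZ0 f (t + 1)) {a : A.C t}
    (ha : A.Cyc t a) {b : B.C (t + 1)} (hb : B.d t b = f.app t a) : ∃ a', A.d t a' = a := by
  obtain ⟨_, a', _, h2⟩ := (rz0_succ f t).1 h (-b) a ha (by rw [map_neg, hb, neg_add_cancel])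
  exact ⟨-a', by rw [map_neg, h2]⟩

/-- cycles are zero in a zero module -/
theorem hz_of_zero {A : Cx R} {t : ℕ} (h : ∀ x : A.C t, x = 0) : A.HZ t := fun x _ =>
  ⟨0, by rw [map_zero, h x]⟩

/-! ### reduced chains -/

theorem freeMap_toPt {X Y : SS} (f : SS.Map X Y) {p : ℕ} (x : (free R X).obj p) :
    (freeMap R (SS.toPt Y)).app p ((freeMap R f).app p x) = (freeMap R (SS.toPt X)).app p x :=
  (freeMap_comp_app (SS.toPt Y) f x).symm

theorem freeMap_surj {X Y : SS} (f : SS.Map X Y) (p : ℕ)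
    (hf : Function.Surjective (f.app (p := p))) : Function.Surjective ((freeMap R f).app p) :=
  Finsupp.mapDomain_surjective hf

theorem toPt_surj {X : SS} (hX : ∀ p, Nonempty (X.obj p)) (p : ℕ) :
    Function.Surjective ((freeMap R (SS.toPt X)).app p) :=
  freeMap_surj _ p fun _ => ⟨(hX p).some, rfl⟩

/-- the reduced chains of a levelwise subsingleton vanish -/
theorem red_eq_zero {X : SS} {p : ℕ} (hX : Subsingleton (X.obj p)) (x : (red R X).obj p) :
    x = 0 := by
  apply Subtype.ext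
  have hi : Function.Injective ((SS.toPt X).app (p := p)) := fun a b _ => Subsingleton.elim a b
  have : Function.Injective ((freeMap R (SS.toPt X)).app p) := Finsupp.mapDomain_injective hi
  apply this
  have hx : (freeMap R (SS.toPt X)).app p x.1 = 0 := x.2
  rw [hx]
  exact (map_zero _).symm

/-- the reduced chains of a map factoring through a point vanish -/
theorem redMap_const {X Y Z : SS} (f : SS.Map X Z) (g : SS.Map Z Y) {p : ℕ}
    (hZ : Subsingleton (Z.obj p)) (x : (red R X).obj p) :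
    (redMap R (g.comp f)).app p x = 0 := by
  rw [redMap_comp_app, red_eq_zero hZ ((redMap R f).app p x), map_zero]

/-- the relative homology of the kernels of two augmentations -/
theorem rz0_ker {A B P A' B' : Cx R} {iA : Cx.Hom A' A} {pA : Cx.Hom A P} {iB : Cx.Hom B' B}
    {pB : Cx.Hom B P} (hA : Cx.SES iA pA) (hB : Cx.SES iB pB) {f : Cx.Hom A B}
    {f' : Cx.Hom A' B'} (h1 : ∀ n x, iB.app n (f'.app n x) = f.app n (iA.app n x))
    (h2 : ∀ n x, pB.app n (f.app n x) = pA.app n x) (n : ℕ) (h : RZ0 f n) : RZ0 f' n := by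
  cases n with
  | zero =>
    rw [rz0_zero] at *
    intro b
    obtain ⟨b', a, e⟩ := h (iB.app 0 b)
    obtain ⟨α, hα⟩ := hA.surj 1 (pB.app 1 b')
    obtain ⟨b'', hb''⟩ := hB.exact 1 (b' - f.app 1 α) (by rw [map_sub, h2, hα, sub_self])
    have h0 := hB.zero 0 b
    rw [← e, map_add] at h0
    obtain ⟨a'', ha''⟩ := hA.exact 0 (a + A.d 0 α) (by
      rw [map_add, pA.comm, hα, ← pB.comm, ← h2]
      exact (add_comm _ _).trans h0)
    refine ⟨b'', a'', hB.inj 0 ?_⟩
    rw [map_add, iB.comm, hb'', h1, ha'', map_sub, map_add, ← f.comm, ← e]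
    abel
  | succ n =>
    rw [rz0_succ] at *
    intro b a ha hb
    obtain ⟨b', a', e, e'⟩ := h (iB.app (n + 1) b) (iA.app n a) (iA.cyc ha) (by
      rw [← iB.comm, ← h1, ← map_add, hb, map_zero])
    obtain ⟨α, hα⟩ := hA.surj (n + 2) (pB.app (n + 2) b')
    obtain ⟨b'', hb''⟩ := hB.exact (n + 2) (b' - f.app (n + 2) α) (by
      rw [map_sub, h2, hα, sub_self])
    have h0 := hB.zero (n + 1) b
    rw [← e, map_add] at h0
    obtain ⟨a'', ha''⟩ := hA.exact (n + 1) (a' + A.d (n + 1) α) (by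
      rw [map_add, pA.comm, hα, ← pB.comm, ← h2]
      exact (add_comm _ _).trans h0)
    refine ⟨b'', a'', hB.inj (n + 1) ?_, hA.inj n ?_⟩
    · rw [map_add, iB.comm, hb'', h1, ha'', map_sub, map_add, ← f.comm, ← e]
      abel
    · rw [map_neg, iA.comm, ha'', map_add, A.dd, add_zero, e']

/-- the augmentation sequence -/
theorem redSES {X : SS} (hX : ∀ p, Nonempty (X.obj p)) :
    SES (SMod.kerI (freeMap R (SS.toPt X))) (freeMap R (SS.toPt X)) :=
  SMod.ses_ker _ (toPt_surj hX)

/-- **relative homology of reduced chains** -/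
theorem red_rz0 {X Y : SS} (f : SS.Map X Y) (hX : ∀ p, Nonempty (X.obj p)) (n : ℕ)
    (h : RZ0 (freeMap R f).cx n) : RZ0 (redMap R f).cx n :=
  rz0_ker (f := (freeMap R f).cx) (f' := (redMap R f).cx) (redSES hX).cx
    (redSES fun p => ⟨f.app (hX p).some⟩).cx
    (fun _ x => redMap_coe f x) (fun _ x => freeMap_toPt f x) n h

/-- reduced homology and the map to the point -/
theorem rz0_toPt_succ {X : SS} (hX : ∀ p, Nonempty (X.obj p)) (n : ℕ) :
    RZ0 (freeMap R (SS.toPt X)).cx (n + 1) ↔ (red R X).cx.HZ n :=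
  rz0_succ_iff_ker _ (toPt_surj hX) n

theorem rz0_toPt_zero {X : SS} (hX : ∀ p, Nonempty (X.obj p)) :
    RZ0 (freeMap R (SS.toPt X)).cx 0 :=
  rz0_zero_of_surj _ (toPt_surj hX 0)

/-! ### products -/

/-- the left axis -/
def axL (X Y : SS) (y₀ : Y.obj 0) : SS.Map X (X.prod Y) where
  app {p} x := (x, dg Y p y₀)
  nat f _ := Prod.ext rfl (map_dg Y f y₀).symm

/-- the right axis -/
def axR (X Y : SS) (x₀ : X.obj 0) : SS.Map Y (X.prod Y) where
  app {p} y := (dg X p x₀, y)
  nat f _ := Prod.ext (map_dg X f x₀).symm rfl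

section prod

variable (X Y : SS)

/-- pairs, as simplices of the product -/
def pr2 {X Y : SS} {p : ℕ} (x : X.obj p) (y : Y.obj p) : (X.prod Y).obj p := (x, y)

theorem map_pr2 {X Y : SS} {p q : ℕ} (f : Op p q) (x : X.obj q) (y : Y.obj q) :
    (X.prod Y).map f (pr2 x y) = pr2 (X.map f x) (Y.map f y) := rfl

/-- linear maps out of `free` agree if they agree on the generators -/
theorem free_ext {X : SS} {p : ℕ} {N : Type} [AddCommGroup N] [Module R N]
    {f g : (free R X).obj p →ₗ[R] N} (h : ∀ x : X.obj p, f (fs R X x) = g (fs R X x))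
    (z : (free R X).obj p) : f z = g z := by
  have : f = g := Finsupp.lhom_ext' fun x => LinearMap.ext_ring (h x)
  rw [this]

/-- linear maps out of `free` -/
noncomputable def freeLift (X : SS) {p : ℕ} {N : Type} [AddCommGroup N] [Module R N]
    (g : X.obj p → N) : (free R X).obj p →ₗ[R] N := Finsupp.linearCombination R g

@[simp] theorem freeLift_fs (X : SS) {p : ℕ} {N : Type} [AddCommGroup N] [Module R N]
    (g : X.obj p → N) (x : X.obj p) : freeLift X g (fs R X x) = g x :=
  (Finsupp.linearCombination_single R 1 x).trans (one_smul R _)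

@[simp] theorem freeMap_fs {X Y : SS} (f : SS.Map X Y) {p : ℕ} (x : X.obj p) :
    (freeMap R f).app p (fs R X x) = fs R Y (f.app x) := freeMap_single f x 1

/-- linear extension of `x ↦ (x, y)` -/
noncomputable def atY {p : ℕ} (y : Y.obj p) : (free R X).obj p →ₗ[R] (free R (X.prod Y)).obj p :=
  freeLift X fun x => fs R (X.prod Y) (pr2 x y)

theorem atY_fs {p : ℕ} (y : Y.obj p) (x : X.obj p) :
    atY X Y y (fs R X x) = fs R (X.prod Y) (pr2 x y) := freeLift_fs _ _ _

theorem atY_nat {p q : ℕ} (f : Op p q) (y : Y.obj q) (z : (free R X).obj q) :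
    (free R (X.prod Y)).map f (atY X Y y z) = atY X Y (Y.map f y) ((free R X).map f z) := by
  refine free_ext (f := ((free R (X.prod Y)).map f).comp (atY X Y y))
    (g := (atY X Y (Y.map f y)).comp ((free R X).map f)) (fun x => ?_) z
  rw [LinearMap.comp_apply, LinearMap.comp_apply, atY_fs, free_map_fs, free_map_fs, atY_fs,
    map_pr2]

theorem atY_toPt {p : ℕ} (y : Y.obj p) (z : (free R X).obj p) :
    (freeMap R (SS.toPt (X.prod Y))).app p (atY X Y y z) = (freeMap R (SS.toPt X)).app p z := by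
  refine free_ext (f := ((freeMap R (SS.toPt (X.prod Y))).app p).comp (atY X Y y))
    (g := (freeMap R (SS.toPt X)).app p) (fun x => ?_) z
  rw [LinearMap.comp_apply, atY_fs, freeMap_fs, freeMap_fs]
  rfl

/-- the inclusion `(red X) box Y → free (X × Y)` -/
noncomputable def jF : SMod.Hom (box (red R X) Y) (free R (X.prod Y)) where
  app p := boxLift (red R X) Y fun y => (atY X Y y).comp (LinearMap.ker _).subtype
  nat f z := by
    induction z using box_induction with
    | h0 => simp only [map_zero]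
    | ha x y hx hy => simp only [map_add, hx, hy]
    | hs y v =>
      rw [box_map_bx, boxLift_bx, boxLift_bx]
      exact (atY_nat X Y f y v.1).symm

theorem jF_bx {p : ℕ} (y : Y.obj p) (v : (red R X).obj p) :
    (jF X Y).app p (bx (red R X) Y y v) = atY X Y y v.1 := boxLift_bx _ _ _ _ _

theorem jF_toPt {p : ℕ} (z : (box (red R X) Y).obj p) :
    (freeMap R (SS.toPt (X.prod Y))).app p ((jF X Y).app p z) = 0 := by
  induction z using box_induction with
  | h0 => simp only [map_zero]
  | ha x y hx hy => simp only [map_add, hx, hy, add_zero]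
  | hs y v => exact (congrArg _ (jF_bx X Y y v)).trans ((atY_toPt X Y y v.1).trans v.2)

/-- the inclusion `(red X) box Y → red (X × Y)` -/
noncomputable def jP : SMod.Hom (box (red R X) Y) (red R (X.prod Y)) where
  app p := ((jF X Y).app p).codRestrict _ fun z => jF_toPt X Y z
  nat f z := Subtype.ext ((jF X Y).nat f z)

variable {X} in
/-- the difference of a vertex and the base vertex -/
noncomputable def dif {p : ℕ} (x₀ : X.obj 0) (x : X.obj p) : (red R X).obj p :=
  ⟨fs R X x - fs R X (dg X p x₀), by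
    rw [LinearMap.mem_ker, map_sub, freeMap_fs, freeMap_fs]
    exact sub_self _⟩

/-- the retraction `free (X × Y) → (red X) box Y` -/
noncomputable def tP (x₀ : X.obj 0) : SMod.Hom (free R (X.prod Y)) (box (red R X) Y) where
  app p := freeLift (X.prod Y) fun z => bx (red R X) Y z.2 (dif x₀ z.1)
  nat {p q} f z := by
    refine free_ext (f := (freeLift (X.prod Y) fun z => bx (red R X) Y z.2 (dif x₀ z.1)).comp
      ((free R (X.prod Y)).map f)) (g := ((box (red R X) Y).map f).comp
        (freeLift (X.prod Y) fun z => bx (red R X) Y z.2 (dif x₀ z.1))) (fun x => ?_) z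
    rw [LinearMap.comp_apply, LinearMap.comp_apply, free_map_fs, freeLift_fs, freeLift_fs,
      box_map_bx]
    have e : (dif x₀ ((X.prod Y).map f x).1 : (red R X).obj p) =
        (red R X).map f (dif x₀ x.1) := by
      apply Subtype.ext
      have e1 : ((red R X).map f (dif x₀ x.1)).1 = (free R X).map f (fs R X x.1 -
        fs R X (dg X q x₀)) := rfl
      rw [e1, map_sub, free_map_fs, free_map_fs, map_dg]
      rfl
    rw [e]
    rfl

theorem tP_fs (x₀ : X.obj 0) {p : ℕ} (x : X.obj p) (y : Y.obj p) :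
    (tP (R := R) X Y x₀).app p (fs R (X.prod Y) (pr2 x y)) = bx (red R X) Y y (dif x₀ x) :=
  freeLift_fs _ _ _

theorem jF_tP (x₀ : X.obj 0) {p : ℕ} (z : (free R (X.prod Y)).obj p) :
    (jF X Y).app p ((tP X Y x₀).app p z) +
      (freeMap R (axR X Y x₀)).app p ((freeMap R (SS.snd X Y)).app p z) = z := by
  refine free_ext (f := ((jF X Y).app p).comp ((tP X Y x₀).app p) +
      ((freeMap R (axR X Y x₀)).app p).comp ((freeMap R (SS.snd X Y)).app p))
    (g := LinearMap.id) (fun x => ?_) z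
  obtain ⟨x, y⟩ := x
  have e1 : (jF X Y).app p ((tP (R := R) X Y x₀).app p (fs R (X.prod Y) (pr2 x y))) =
      fs R (X.prod Y) (pr2 x y) - fs R (X.prod Y) (pr2 (dg X p x₀) y) := by
    rw [tP_fs, jF_bx]
    change atY X Y y (fs R X x - fs R X (dg X p x₀)) = _
    rw [map_sub, atY_fs, atY_fs]
  have e2 : (freeMap R (axR X Y x₀)).app p ((freeMap R (SS.snd X Y)).app p
      (fs R (X.prod Y) (pr2 x y))) = fs R (X.prod Y) (pr2 (dg X p x₀) y) := by
    rw [freeMap_fs, freeMap_fs]
    rfl
  change (jF X Y).app p ((tP (R := R) X Y x₀).app p (fs R (X.prod Y) (pr2 x y))) +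
    (freeMap R (axR X Y x₀)).app p ((freeMap R (SS.snd X Y)).app p
      (fs R (X.prod Y) (pr2 x y))) = fs R (X.prod Y) (pr2 x y)
  rw [e1, e2, sub_add_cancel]

/-- the retraction on reduced chains -/
noncomputable def tR (x₀ : X.obj 0) : SMod.Hom (red R (X.prod Y)) (box (red R X) Y) :=
  (tP X Y x₀).comp (SMod.kerI _)

theorem jP_tR (x₀ : X.obj 0) {p : ℕ} (z : (red R (X.prod Y)).obj p) :
    (jP X Y).app p ((tR X Y x₀).app p z) +
      (redMap R (axR X Y x₀)).app p ((redMap R (SS.snd X Y)).app p z) = z :=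
  Subtype.ext (jF_tP X Y x₀ z.1)

theorem jP_dg (y₀ : Y.obj 0) {p : ℕ} (v : (red R X).obj p) :
    (jP X Y).app p (bx (red R X) Y (dg Y p y₀) v) = (redMap R (axL X Y y₀)).app p v := by
  apply Subtype.ext
  refine (jF_bx X Y (dg Y p y₀) v).trans ?_
  refine free_ext (f := atY X Y (dg Y p y₀)) (g := (freeMap R (axL X Y y₀)).app p)
    (fun x => ?_) v.1
  rw [atY_fs, freeMap_fs]
  rfl

/-- the reduced homology of a product, vanishing -/
theorem red_prod_hz (x₀ : X.obj 0) {c : ℕ} (hX : ∀ t < c, (red R X).cx.HZ t)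
    (hY : ∀ t < c, (red R Y).cx.HZ t) (t : ℕ) (ht : t < c) : (red R (X.prod Y)).cx.HZ t := by
  intro (z : (red R (X.prod Y)).obj t) hz
  obtain ⟨(w : (box (red R X) Y).obj (t + 1)), hw⟩ := hz_box Y c (red R X) hX t ht
    ((tR X Y x₀).app t z) ((tR X Y x₀).cx.cyc hz)
  obtain ⟨(u : (red R Y).obj (t + 1)), hu⟩ := hY t ht ((redMap R (SS.snd X Y)).app t z)
    ((redMap R (SS.snd X Y)).cx.cyc hz)
  have hw' : (box (red R X) Y).d t w = (tR X Y x₀).app t z := hw
  have hu' : (red R Y).d t u = (redMap R (SS.snd X Y)).app t z := hu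
  refine ⟨(jP X Y).app (t + 1) w + (redMap R (axR X Y x₀)).app (t + 1) u, ?_⟩
  change (red R (X.prod Y)).d t _ = z
  rw [map_add, ← SMod.Hom.app_d, ← SMod.Hom.app_d, hw', hu', jP_tR]

/-- a simplicial set with `H~_0 = 0` is connected -/
theorem conn0_of_red (y₀ : Y.obj 0) (h : (red R Y).cx.HZ 0) : Conn0 R Y y₀ := by
  intro y
  obtain ⟨(e : (red R Y).obj 1), he⟩ := h (dif y₀ y) trivial
  have he' : (red R Y).d 0 e = dif y₀ y := he
  refine ⟨e.1, ?_⟩
  have h1 : ((red R Y).d 0 e).1 = (free R Y).d 0 e.1 := (SMod.kerI _).app_d 0 e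
  rw [← h1, he']
  change fs R Y y - fs R Y (dg Y 0 y₀) = _
  rw [dg_zero]

/-- the reduced homology of a product in the lowest degree is spanned by the axes -/
theorem red_prod_span (x₀ : X.obj 0) (y₀ : Y.obj 0) {c : ℕ} (hX : ∀ t < c, (red R X).cx.HZ t)
    (hY : (red R Y).cx.HZ 0) (z : (red R (X.prod Y)).obj c)
    (hz : (red R (X.prod Y)).cx.Cyc c z) :
    ∃ (a : (red R X).obj c) (b : (red R Y).obj c) (w : (red R (X.prod Y)).obj (c + 1)),
      (red R X).cx.Cyc c a ∧ (red R Y).cx.Cyc c b ∧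
        (redMap R (axL X Y y₀)).app c a + (redMap R (axR X Y x₀)).app c b +
          (red R (X.prod Y)).d c w = z := by
  obtain ⟨w, t, ht, h⟩ := low_box_conn Y y₀ (conn0_of_red Y y₀ hY) c (red R X) hX
    ((tR X Y x₀).app c z) ((tR X Y x₀).cx.cyc hz)
  refine ⟨t, (redMap R (SS.snd X Y)).app c z, (jP X Y).app (c + 1) w, ht,
    (redMap R (SS.snd X Y)).cx.cyc hz, ?_⟩
  rw [← SMod.Hom.app_d, ← jP_dg]
  conv_rhs => rw [← jP_tR X Y x₀ z, ← h, map_add]
  abel

end prod

end Vale.Agent.P263.GB.Rd
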