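import Mathlib.Data.Fintype.Option
import Vale.Agent.P263.GB.RedP
import Vale.Agent.P263.GB.SGam

/-!
# P263, block G2: absolute descent

`G.RH R K t` : the reduced homology of `G (K₊)` in degree `t` vanishes.

* `RH.all` : if `G` is Segal, pointed, and `G.RH R Unit t` for `t < c` then `G.RH R K t` for all
  finite `K` and `t < c`.
* `span_sum`, `span_of_bij` : for `c ≥ 1`, every reduced `c`-cycle of `G (K ⊕ L)` is a sum of
  cycles from `K` and `L`, up to boundaries.
* `descent` (**T4**): `H~_t(BG(1)) = 0` for `t ≤ c`, and `H~_{c+1}(BG(1)) = 0` implies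
  `H~_c(G(1)) = 0`.
* `descentN`, `acyclic_of_range` (**T6**).
-/

namespace Vale.Agent.P263.GB

open Vale.Agent.P263.S Vale.Agent.P263.E

variable {R : Type} [CommRing R]

namespace Gam

/-- the reduced homology of `G (K₊)` in degree `t` vanishes -/
def RH (R : Type) [CommRing R] (G : Gam) (K : Type) [Finite K] (t : ℕ) : Prop :=
  (red R (G.obj K)).cx.HZ t

variable {G : Gam}

/-! ### the base vertex -/

/-- the empty relabelling -/
def emO (K : Type) : Empty → Option K := fun e => e.elim

/-- the base vertex -/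
noncomputable def Pt.bv (h : G.Pt) (K : Type) [Finite K] : (G.obj K).obj 0 :=
  (G.map (emO K)).app (h.ne Empty 0).some

theorem Pt.nonempty (h : G.Pt) (K : Type) [Finite K] (p : ℕ) : Nonempty ((G.obj K).obj p) :=
  ⟨dg (G.obj K) p (h.bv K)⟩

theorem Pt.dg_bv (h : G.Pt) (K : Type) [Finite K] {p : ℕ} (y : (G.obj Empty).obj p) :
    (G.map (emO K)).app y = dg (G.obj K) p (h.bv K) := by
  have e : y = (G.obj Empty).map (cst p 0) (h.ne Empty 0).some := (h.sub Empty p).elim _ _
  rw [e, SS.Map.nat]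
  rfl

theorem Pt.map_none (h : G.Pt) {K L : Type} [Finite K] [Finite L] {p : ℕ}
    (x : (G.obj K).obj p) :
    (G.map (fun _ : K => (none : Option L))).app x = dg (G.obj L) p (h.bv L) := by
  rw [← h.dg_bv L ((G.map (fun _ : K => (none : Option Empty))).app x), ← G.map_bind]
  rfl

/-! ### relabelling -/

theorem map_some_of {K : Type} [Finite K] {f : K → Option K} (hf : ∀ k, f k = some k) {p : ℕ}
    (x : (G.obj K).obj p) : (G.map f).app x = x := by
  have : f = some := funext hf
  rw [this, G.map_some]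

theorem map_eq_of {K L M : Type} [Finite K] [Finite L] [Finite M] {f : K → Option L}
    {g : L → Option M} {k : K → Option M} (h : ∀ x, (f x).bind g = k x) {p : ℕ}
    (x : (G.obj K).obj p) : (G.map g).app ((G.map f).app x) = (G.map k).app x := by
  have : k = fun x => (f x).bind g := funext fun x => (h x).symm
  rw [this, G.map_bind]

/-- relabelling on reduced chains -/
noncomputable def rm (R : Type) [CommRing R] (G : Gam) {K L : Type} [Finite K] [Finite L]
    (f : K → Option L) : SMod.Hom (red R (G.obj K)) (red R (G.obj L)) := redMap R (G.map f)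

theorem rm_rm {K L M : Type} [Finite K] [Finite L] [Finite M] {f : K → Option L}
    {g : L → Option M} {k : K → Option M} (h : ∀ x, (f x).bind g = k x) {p : ℕ}
    (x : (red R (G.obj K)).obj p) :
    (rm R G g).app p ((rm R G f).app p x) = (rm R G k).app p x := by
  rw [rm, rm, rm, ← redMap_comp_app]
  exact redMap_congr (SS.Map.ext fun p x => map_eq_of h x) x

theorem rm_id {K : Type} [Finite K] {f : K → Option K} (hf : ∀ k, f k = some k) {p : ℕ}
    (x : (red R (G.obj K)).obj p) : (rm R G f).app p x = x := by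
  rw [rm]
  exact (redMap_congr (g := SS.Map.id _) (SS.Map.ext fun p x => map_some_of hf x) x).trans
    (redMap_id_app x)

theorem RH.equiv {K L : Type} [Finite K] [Finite L] (e : K ≃ L) {t : ℕ} (h : G.RH R K t) :
    G.RH R L t :=
  Cx.HZ.retract (rm R G fun l => some (e.symm l)).cx (rm R G fun k => some (e k)).cx
    (fun n x => by
      refine (rm_rm (k := some) (fun l => ?_) x).trans (rm_id (fun _ => rfl) x)
      simp) h

theorem RH.of_empty (h : G.Pt) (K : Type) [Finite K] [IsEmpty K] (t : ℕ) : G.RH R K t :=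
  Rd.hz_of_zero fun x => Rd.red_eq_zero (h.sub K t) x

/-! ### the Segal map on reduced chains -/

theorem seg_rz0 (h : G.Pt) (hS : G.SegalH R) (K L : Type) [Finite K] [Finite L] (n : ℕ) :
    RZ0 (redMap R (G.seg K L)).cx n :=
  Rd.red_rz0 (G.seg K L) (h.nonempty (K ⊕ L)) n (hS K L n)

theorem seg_inl (h : G.Pt) (K L : Type) [Finite K] [Finite L] {p : ℕ}
    (x : (red R (G.obj K)).obj p) :
    (redMap R (G.seg K L)).app p ((rm R G fun k => some (Sum.inl k)).app p x) =
      (redMap R (Rd.axL (G.obj K) (G.obj L) (h.bv L))).app p x := by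
  rw [rm, ← redMap_comp_app]
  refine redMap_congr (SS.Map.ext fun p x => Prod.ext ?_ ?_) x
  · exact (map_eq_of (k := some) (fun _ => rfl) x).trans (map_some_of (fun _ => rfl) x)
  · exact (map_eq_of (k := fun _ => none) (fun _ => rfl) x).trans (h.map_none x)

theorem seg_inr (h : G.Pt) (K L : Type) [Finite K] [Finite L] {p : ℕ}
    (x : (red R (G.obj L)).obj p) :
    (redMap R (G.seg K L)).app p ((rm R G fun k => some (Sum.inr k)).app p x) =
      (redMap R (Rd.axR (G.obj K) (G.obj L) (h.bv K))).app p x := by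
  rw [rm, ← redMap_comp_app]
  refine redMap_congr (SS.Map.ext fun p x => Prod.ext ?_ ?_) x
  · exact (map_eq_of (k := fun _ => none) (fun _ => rfl) x).trans (h.map_none x)
  · exact (map_eq_of (k := some) (fun _ => rfl) x).trans (map_some_of (fun _ => rfl) x)

theorem RH.sum (h : G.Pt) (hS : G.SegalH R) {K L : Type} [Finite K] [Finite L] {c : ℕ}
    (hK : ∀ t < c, G.RH R K t) (hL : ∀ t < c, G.RH R L t) (t : ℕ) (ht : t < c) :
    G.RH R (K ⊕ L) t :=
  Rd.hz_of_rz0 (seg_rz0 h hS K L (t + 1)) (Rd.red_prod_hz _ _ (h.bv K) hK hL t ht)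

/-- **absolute Lemma K, vanishing** -/
theorem RH.all (h : G.Pt) (hS : G.SegalH R) {c : ℕ} (h1 : ∀ t < c, G.RH R Unit t) (K : Type)
    [Finite K] (t : ℕ) (ht : t < c) : G.RH R K t := by
  have key : ∀ (K : Type) [Finite K], (∀ [Finite K], ∀ t < c, G.RH R K t) := by
    intro K _
    refine Finite.induction_empty_option (P := fun K : Type => ∀ [Finite K], ∀ t < c, G.RH R K t)
      ?_ ?_ ?_ K
    · intro α β e hα _ t ht
      have : Finite α := Finite.of_equiv β e.symm
      exact RH.equiv e (hα t ht)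
    · intro _ t _
      exact RH.of_empty h PEmpty t
    · intro α _ hα _ t ht
      exact RH.equiv (Equiv.optionEquivSumPUnit α).symm (RH.sum h hS (K := α) (L := Unit)
        (fun t ht => hα t ht) h1 t ht)
  exact key K t ht

/-- **absolute Lemma K, spanning** -/
theorem span_sum (h : G.Pt) (hS : G.SegalH R) {K L : Type} [Finite K] [Finite L] {c : ℕ}
    (hK : ∀ t < c, G.RH R K t) (hL : G.RH R L 0) (z : (red R (G.obj (K ⊕ L))).obj c)
    (hz : (red R (G.obj (K ⊕ L))).cx.Cyc c z) :
    ∃ (a : (red R (G.obj K)).obj c) (b : (red R (G.obj L)).obj c)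
      (w : (red R (G.obj (K ⊕ L))).obj (c + 1)),
      (red R (G.obj K)).cx.Cyc c a ∧ (red R (G.obj L)).cx.Cyc c b ∧
        (rm R G fun k => some (Sum.inl k)).app c a + (rm R G fun k => some (Sum.inr k)).app c b +
          (red R (G.obj (K ⊕ L))).d c w = z := by
  obtain ⟨a, b, w, ha, hb, e⟩ := Rd.red_prod_span (R := R) (G.obj K) (G.obj L) (h.bv K) (h.bv L)
    hK hL ((redMap R (G.seg K L)).app c z) ((redMap R (G.seg K L)).cx.cyc hz)
  have e3 : (red R ((G.obj K).prod (G.obj L))).d c w = (redMap R (G.seg K L)).app c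
      (z - ((rm R G fun k => some (Sum.inl k)).app c a +
        (rm R G fun k => some (Sum.inr k)).app c b)) := by
    rw [map_sub, map_add, seg_inl h, seg_inr h, ← e]
    abel
  obtain ⟨w', hw'⟩ := Rd.refl_bd (seg_rz0 h hS K L (c + 1))
    ((red R (G.obj (K ⊕ L))).cx.cyc_sub hz ((red R (G.obj (K ⊕ L))).cx.cyc_add
      ((rm R G fun k => some (Sum.inl k)).cx.cyc ha)
      ((rm R G fun k => some (Sum.inr k)).cx.cyc hb))) e3
  have hw'' : (red R (G.obj (K ⊕ L))).d c w' = z - ((rm R G fun k => some (Sum.inl k)).app c a +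
        (rm R G fun k => some (Sum.inr k)).app c b) := hw'
  exact ⟨a, b, w', ha, hb, by rw [hw'']; abel⟩

/-- spanning, for two maps whose images cover bijectively -/
theorem span_of_bij (h : G.Pt) (hS : G.SegalH R) {K L M : Type} [Finite K] [Finite L] [Finite M]
    (e : K ⊕ L ≃ M) {u : K → Option M} {v : L → Option M} (hu : ∀ k, u k = some (e (Sum.inl k)))
    (hv : ∀ l, v l = some (e (Sum.inr l))) {c : ℕ}
    (hK : ∀ t < c, G.RH R K t) (hL : G.RH R L 0) (z : (red R (G.obj M)).obj c)
    (hz : (red R (G.obj M)).cx.Cyc c z) :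
    ∃ (a : (red R (G.obj K)).obj c) (b : (red R (G.obj L)).obj c)
      (w : (red R (G.obj M)).obj (c + 1)),
      (red R (G.obj K)).cx.Cyc c a ∧ (red R (G.obj L)).cx.Cyc c b ∧
        z = (rm R G u).app c a + (rm R G v).app c b + (red R (G.obj M)).d c w := by
  obtain ⟨a, b, w, ha, hb, e'⟩ := span_sum h hS hK hL
    ((rm R G fun m => some (e.symm m)).app c z)
    ((rm R G fun m => some (e.symm m)).cx.cyc hz)
  refine ⟨a, b, (rm R G fun x => some (e x)).app (c + 1) w, ha, hb, ?_⟩
  have h1 : (rm R G fun x => some (e x)).app c ((rm R G fun m => some (e.symm m)).app c z) = z :=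
    (rm_rm (k := some) (fun m => by simp) z).trans (rm_id (fun _ => rfl) z)
  rw [← h1, ← e', map_add, map_add, SMod.Hom.app_d,
    rm_rm (k := u) (fun k => by simp [hu]) a, rm_rm (k := v) (fun k => by simp [hv]) b]

/-! ### the simplicial simplicial module of `B G` -/

/-- `k ↦` reduced chains of `G (S¹_k ∧ K₊)` -/
noncomputable def rsm (R : Type) [CommRing R] (G : Gam) (K : Type) [Finite K] : SSMod R where
  obj k := red R (G.obj (Fin k × K))
  map θ := rm R G (circK K θ)
  map_id x := rm_id (fun k => congrFun (circK_id K) k) x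
  map_comp f g x := (rm_rm (fun k => (congrFun (circK_comp K f g) k).symm) x).symm

theorem rsm_map (G : Gam) (K : Type) [Finite K] {p q : ℕ} (θ : Op p q)
    (c : (red R (G.B.obj K)).obj q) :
    (red R (G.B.obj K)).map θ c = (rsm R G K).diag.map θ c :=
  Subtype.ext (ssm_map G K θ c.1)

theorem rsm_d (G : Gam) (K : Type) [Finite K] (p : ℕ) (c : (red R (G.B.obj K)).obj (p + 1)) :
    (red R (G.B.obj K)).d p c = (rsm R G K).diag.d p c := by
  refine (SMod.d_apply _ p c).trans (Eq.trans ?_ (SMod.d_apply (rsm R G K).diag p c).symm)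
  exact Finset.sum_congr rfl fun i _ => congrArg (sn i) (rsm_map G K (dl p i) c)

/-- reduced chains of `B G (K₊)` are the diagonal of `rsm` -/
noncomputable def rsmId (R : Type) [CommRing R] (G : Gam) (K : Type) [Finite K] :
    Cx.Hom (red R (G.B.obj K)).cx (rsm R G K).diag.cx where
  app _ := LinearMap.id
  comm n x := rsm_d G K n x

theorem rh_B_iff (G : Gam) (K : Type) [Finite K] (n : ℕ) :
    G.B.RH R K n ↔ (rsm R G K).diag.cx.HZ n :=
  hz_congr (rsmId R G K) (fun _ => Function.bijective_id) n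

/-! ### descent -/

theorem circ_sg_one {i : Fin 1} : circ (sg 1 0) i = some 1 := by
  rw [circ_eq_some]
  intro a
  rw [sg_val]
  have := i.2
  have := a.2
  split_ifs with h
  · simp; omega
  · simp; omega

theorem circ_sg_zero {i : Fin 1} : circ (sg 1 1) i = some 0 := by
  rw [circ_eq_some]
  intro a
  rw [sg_val]
  have := i.2
  have := a.2
  split_ifs with h
  · simp
  · simp; omega

/-- two copies -/
def two (K : Type) : (Fin 1 × K) ⊕ (Fin 1 × K) ≃ Fin 2 × K where
  toFun := Sum.elim (fun x => (1, x.2)) (fun x => (0, x.2))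
  invFun x := if x.1 = 1 then Sum.inl (0, x.2) else Sum.inr (0, x.2)
  left_inv x := by
    rcases x with ⟨i, k⟩ | ⟨i, k⟩
    · have : i = 0 := Subsingleton.elim _ _
      subst this
      simp
    · have : i = 0 := Subsingleton.elim _ _
      subst this
      simp
  right_inv x := by
    obtain ⟨i, k⟩ := x
    fin_cases i <;> simp

/-- the spanning hypothesis of the corner lemma -/
theorem rsm_span (h : G.Pt) (hS : G.SegalH R) (K : Type) [Finite K] {c : ℕ} (hc : 1 ≤ c)
    (h1 : ∀ t < c, G.RH R Unit t) : (rsm R G K).Span c := by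
  intro x hx
  obtain ⟨a, b, w, ha, hb, e⟩ := span_of_bij h hS (two K) (u := circK K (sg 1 0))
    (v := circK K (sg 1 1)) (fun x => by rw [circK, circ_sg_one]; rfl)
    (fun x => by rw [circK, circ_sg_zero]; rfl) (fun t ht => RH.all h hS h1 _ t ht)
    (RH.all h hS h1 _ 0 (by omega)) x hx
  exact ⟨a, b, w, ha, hb, e⟩

/-- **(T4) absolute descent** -/
theorem descent (h : G.Pt) (hS : G.SegalH R) {c : ℕ} (hc : 1 ≤ c)
    (h1 : ∀ t < c, G.RH R Unit t) :
    (∀ t ≤ c, G.B.RH R Unit t) ∧ (G.B.RH R Unit (c + 1) → G.RH R Unit c) := by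
  obtain ⟨i1, i2⟩ := SSMod.corner c (rsm R G Unit) (fun k t ht => RH.all h hS h1 _ t ht)
    (fun t _ => RH.of_empty h (Fin 0 × Unit) t) (rsm_span h hS Unit hc h1)
  refine ⟨fun t ht => (rh_B_iff G Unit t).2 (i1 t ht), fun hB => ?_⟩
  have h2 : G.RH R (Fin 1 × Unit) c := i2 ((rh_B_iff G Unit (c + 1)).1 hB)
  exact RH.equiv (Equiv.punitProd Unit |>.symm.trans (Equiv.prodCongr
    (Equiv.ofUnique Unit (Fin 1)) (Equiv.refl Unit))).symm h2

/-- iterated descent -/
theorem descentN (h : G.Pt) (hS : G.SegalH R) {c : ℕ} (hc : 1 ≤ c)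
    (h1 : ∀ t < c, G.RH R Unit t) (N : ℕ) :
    (∀ t < c + N, (G.BN N).RH R Unit t) ∧ ((G.BN N).RH R Unit (c + N) → G.RH R Unit c) := by
  induction N with
  | zero => exact ⟨h1, fun h => h⟩
  | succ N ih =>
    obtain ⟨i1, i2⟩ := descent (h.BN N) (hS.BN N) (c := c + N) (by omega) ih.1
    exact ⟨fun t ht => i1 t (by omega), fun h' => ih.2 (i2 h')⟩

/-- **(T6)** a functor with `H~_0(G(1)) = 0` and `H~_t(B^N G(1)) = 0` for `t < 2N`, all `N ≥ 2`,
is acyclic at `1₊` -/
theorem acyclic_of_range (h : G.Pt) (hS : G.SegalH R) (h0 : G.RH R Unit 0)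
    (hr : ∀ N, 2 ≤ N → ∀ t < 2 * N, (G.BN N).RH R Unit t) (t : ℕ) : G.RH R Unit t := by
  induction t using Nat.strong_induction_on with
  | _ t ih =>
    rcases Nat.eq_zero_or_pos t with rfl | ht
    · exact h0
    · exact (descentN h hS ht ih (t + 1)).2 (hr (t + 1) (by omega) _ (by omega))

/-- **(T6)**, all finite sets -/
theorem acyclic_of_range' (h : G.Pt) (hS : G.SegalH R) (h0 : G.RH R Unit 0)
    (hr : ∀ N, 2 ≤ N → ∀ t < 2 * N, (G.BN N).RH R Unit t) (K : Type) [Finite K] (t : ℕ) :
    G.RH R K t :=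
  RH.all h hS (c := t + 1) (fun t _ => acyclic_of_range h hS h0 hr t) K t (Nat.lt_succ_self t)

/-- reduced homology as relative homology of the map to a point -/
theorem rz0_toPt (h : G.Pt) (K : Type) [Finite K] (t : ℕ) :
    RZ0 (freeMap R (SS.toPt (G.obj K))).cx (t + 1) ↔ G.RH R K t :=
  Rd.rz0_toPt_succ (h.nonempty K) t

end Gam

end Vale.Agent.P263.GB
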