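import Vale.Agent.P263.GB.SMT

/-!
# P263, block GB: bisimplicial modules, the diagonal lemma and the corner lemma

`SSMod R` : simplicial objects in `SMod R`.  `V.diag : SMod R` the diagonal.

* `SSMod.diag_hz` : if `H_t(V_k) = 0` for all `k` and all `t < r` then `H_t(diag V) = 0` for
  `t < r`; `SSMod.diag_hz'` the same with rows and columns exchanged.
* `SSMod.corner` : if moreover `H_t(V_0) = 0` for `t ≤ r` and `H_r(V_2)` is spanned by the two
  degeneracies of `H_r(V_1)`, then `H_t(diag V) = 0` for `t ≤ r`, and `H_{r+1}(diag V) = 0`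
  implies `H_r(V_1) = 0`.
-/

namespace Vale.Agent.P263.GB

open Vale.Agent.P263.S

variable {R : Type} [CommRing R]

/-- Simplicial objects in simplicial modules. -/
structure SSMod (R : Type) [CommRing R] where
  /-- the simplicial modules -/
  obj : ℕ → SMod R
  /-- the outer operators -/
  map : ∀ {k l : ℕ}, Op k l → SMod.Hom (obj l) (obj k)
  map_id : ∀ {k m : ℕ} (x : (obj k).obj m), (map (OrderHom.id : Op k k)).app m x = x
  map_comp : ∀ {k l n m : ℕ} (f : Op l n) (g : Op k l) (x : (obj n).obj m),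
    (map (f.comp g)).app m x = (map g).app m ((map f).app m x)

namespace SSMod

/-- the diagonal -/
abbrev diag (V : SSMod R) : SMod R where
  obj p := (V.obj p).obj p
  map {p q} f := ((V.map f).app p).comp ((V.obj q).map f)
  map_id x := by
    rw [LinearMap.comp_apply, SMod.map_id, V.map_id]
  map_comp f g x := by
    rw [LinearMap.comp_apply, LinearMap.comp_apply, LinearMap.comp_apply, V.map_comp,
      SMod.map_comp, (V.map f).nat]

theorem diag_map (V : SSMod R) {p q : ℕ} (f : Op p q) (x : V.diag.obj q) :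
    V.diag.map f x = (V.map f).app p ((V.obj q).map f x) := rfl

/-- exchanging rows and columns -/
abbrev swap (V : SSMod R) : SSMod R where
  obj m :=
    { obj := fun k => (V.obj k).obj m
      map := fun f => (V.map f).app m
      map_id := fun x => V.map_id x
      map_comp := fun f g x => V.map_comp f g x }
  map g :=
    { app := fun k => (V.obj k).map g
      nat := fun f x => ((V.map f).nat g x).symm }
  map_id {_ k} x := (V.obj k).map_id x
  map_comp {_ _ _ k} f g x := (V.obj k).map_comp f g x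

/-- maps -/
structure Hom (V W : SSMod R) where
  /-- the components -/
  app : ∀ k, SMod.Hom (V.obj k) (W.obj k)
  nat : ∀ {k l m : ℕ} (f : Op k l) (x : (V.obj l).obj m),
    (app k).app m ((V.map f).app m x) = (W.map f).app m ((app l).app m x)

/-- the diagonal of a map -/
def Hom.diag {V W : SSMod R} (h : Hom V W) : SMod.Hom V.diag W.diag where
  app p := (h.app p).app p
  nat {p q} f x := by
    change (h.app p).app p ((V.map f).app p ((V.obj q).map f x)) =
      (W.map f).app p ((W.obj q).map f ((h.app q).app q x))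
    rw [h.nat, (h.app q).nat]

/-- exchanging rows and columns of a map -/
def Hom.swap {V W : SSMod R} (h : Hom V W) : Hom V.swap W.swap where
  app m :=
    { app := fun k => (h.app k).app m
      nat := fun f x => h.nat f x }
  nat {_ _ k} f x := (h.app k).nat f x

end SSMod

namespace SMod

/-- functoriality of the path object -/
def pathMap {A B : SMod R} (f : Hom A B) : Hom A.Path B.Path where
  app p := (f.app (p + 1)).restrict fun x hx => by
    rw [mem_PO] at *
    rw [← f.nat, hx, map_zero]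
  nat g x := by
    apply Subtype.ext
    exact f.nat (up g) x.1

theorem pathMap_ev {A B : SMod R} (f : Hom A B) {p : ℕ} (x : A.Path.obj p) :
    B.ev.app p ((pathMap f).app p x) = f.app p (A.ev.app p x) :=
  (f.nat (inc p) x.1).symm

/-- functoriality of the loop object -/
def loopMap {A B : SMod R} (f : Hom A B) : Hom A.Loop B.Loop where
  app p := ((pathMap f).app p).restrict fun x hx => by
    rw [LinearMap.mem_ker] at *
    rw [pathMap_ev, hx, map_zero]
  nat g x := by
    apply Subtype.ext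
    exact (pathMap f).nat g x.1

end SMod

namespace SSMod

variable (V : SSMod R)

/-- the inner path object -/
abbrev Path : SSMod R where
  obj k := (V.obj k).Path
  map f := SMod.pathMap (V.map f)
  map_id x := Subtype.ext (V.map_id x.1)
  map_comp f g x := Subtype.ext (V.map_comp f g x.1)

/-- the inner loop object -/
abbrev Loop : SSMod R where
  obj k := (V.obj k).Loop
  map f := SMod.loopMap (V.map f)
  map_id x := Subtype.ext (Subtype.ext (V.map_id x.1.1))
  map_comp f g x := Subtype.ext (Subtype.ext (V.map_comp f g x.1.1))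

/-- the inner end point map -/
def ev : Hom V.Path V where
  app k := (V.obj k).ev
  nat f x := SMod.pathMap_ev (V.map f) x

/-- the inclusion of the loops -/
def li : Hom V.Loop V.Path where
  app k := SMod.kerI (V.obj k).ev
  nat _ _ := rfl

/-- the contraction of the diagonal of the path object -/
def pcon : SMod.Prism V.Path.diag V.Path.diag where
  h p t := (V.obj p).pcon.h p t
  nat {p q} f t x := by
    change (V.obj p).pcon.h p (t.comp f) ((SMod.pathMap (V.map f)).app p
      ((V.obj q).Path.map f x)) = (SMod.pathMap (V.map f)).app p ((V.obj q).Path.map f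
        ((V.obj q).pcon.h q t x))
    apply Subtype.ext
    have h1 := (V.obj q).pcon.nat f t x
    have h2 : (V.obj p).map (con (t.comp f)) ((V.map f).app (p + 1) ((V.obj q).map (up f) x.1)) =
        (V.map f).app (p + 1) ((V.obj q).map (con (t.comp f)) ((V.obj q).map (up f) x.1)) :=
      ((V.map f).nat _ _).symm
    have h3 := congrArg Subtype.val h1
    exact h2.trans (congrArg ((V.map f).app (p + 1)) h3)

theorem path_diag_hz (n : ℕ) : V.Path.diag.cx.HZ n :=
  V.pcon.hz (fun p x => (V.obj p).pcon_zero p x) (fun p x => (V.obj p).pcon_one p x) n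

theorem ses_diag (h : ∀ k, (V.obj k).cx.HZ 0) : SES V.li.diag V.ev.diag where
  inj p := (SMod.ses_loop _ (h p)).inj p
  exact p := (SMod.ses_loop _ (h p)).exact p
  zero p := (SMod.ses_loop _ (h p)).zero p
  surj p := (SMod.ses_loop _ (h p)).surj p

/-- **The diagonal lemma**: if `H_t(V_k) = 0` for all `k` and `t < r`, then `H_t(diag V) = 0` for
`t < r`. -/
theorem diag_hz (r : ℕ) : ∀ V : SSMod R, (∀ k, ∀ t < r, (V.obj k).cx.HZ t) →
    ∀ t < r, V.diag.cx.HZ t := by
  induction r with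
  | zero => intro V _ t ht; omega
  | succ r ih =>
    intro V hV t ht
    refine (V.ses_diag fun k => hV k 0 (by omega)).hz_right t (V.path_diag_hz t) ?_
    rintro m rfl
    exact ih V.Loop (fun k i hi => (V.obj k).loop_hz (hV k 0 (by omega)) i
      (hV k (i + 1) (by omega))) m (by omega)

theorem swap_diag_hz (V : SSMod R) (t : ℕ) (h : V.swap.diag.cx.HZ t) : V.diag.cx.HZ t := by
  have e : ∀ {p q : ℕ} (f : Op p q) (x : V.diag.obj q), V.swap.diag.map f x = V.diag.map f x := by
    intro p q f x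
    exact ((V.map f).nat f x).symm
  have ed : ∀ (p : ℕ) (x : V.diag.obj (p + 1)), V.swap.diag.d p x = V.diag.d p x := by
    intro p x
    rw [SMod.d_apply, SMod.d_apply]
    exact Finset.sum_congr rfl fun i _ => congrArg (sn i) (e (dl p i) x)
  intro x hx
  obtain ⟨y, hy⟩ := h x (by
    cases t with
    | zero => trivial
    | succ t => exact (ed t x).trans hx)
  exact ⟨y, (ed t y).symm.trans hy⟩

/-- **The diagonal lemma**, rows and columns exchanged. -/
theorem diag_hz' (V : SSMod R) (r : ℕ) (h : ∀ m, ∀ t < r, (V.swap.obj m).cx.HZ t) (t : ℕ)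
    (ht : t < r) : V.diag.cx.HZ t := V.swap_diag_hz t (diag_hz r V.swap h t ht)

end SSMod

namespace SMod

variable (A : SMod R)

/-- the zeroth homology -/
abbrev pi0 : Type := A.obj 0 ⧸ LinearMap.range (A.d 0)

/-- the class of the first vertex -/
def aug (m : ℕ) : A.obj m →ₗ[R] A.pi0 :=
  (LinearMap.range (A.d 0)).mkQ.comp (A.map (cst 0 m))

theorem d_zero_apply (x : A.obj 1) : A.d 0 x = A.map (dl 0 0) x - A.map (dl 0 1) x := by
  rw [d_apply]
  simp [Finset.sum_range_succ, sn, sub_eq_add_neg]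

/-- all vertices have the same class -/
theorem aug_map {p q : ℕ} (f : Op p q) (x : A.obj q) : A.aug p (A.map f x) = A.aug q x := by
  have e1 : f.comp (cst 0 p) = (⟨fun y => if y.1 = 0 then 0 else f 0, by
      intro a b hab
      show (if a.1 = 0 then (0 : Fin (q + 1)) else f 0) ≤ (if b.1 = 0 then 0 else f 0)
      have : a.1 ≤ b.1 := hab
      split_ifs <;> first | exact le_rfl | exact Fin.zero_le _ | omega⟩ : Op 1 q).comp
        (dl 0 0) := by
    apply OrderHom.ext
    funext y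
    rfl
  have e2 : cst 0 q = (⟨fun y => if y.1 = 0 then 0 else f 0, by
      intro a b hab
      show (if a.1 = 0 then (0 : Fin (q + 1)) else f 0) ≤ (if b.1 = 0 then 0 else f 0)
      have : a.1 ≤ b.1 := hab
      split_ifs <;> first | exact le_rfl | exact Fin.zero_le _ | omega⟩ : Op 1 q).comp
        (dl 0 1) := by
    apply OrderHom.ext
    funext y
    have hy : y = 0 := Subsingleton.elim (α := Fin 1) _ _
    subst hy
    rfl
  change (LinearMap.range (A.d 0)).mkQ (A.map (cst 0 p) (A.map f x)) =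
    (LinearMap.range (A.d 0)).mkQ (A.map (cst 0 q) x)
  rw [← sub_eq_zero, ← map_sub, Submodule.mkQ_apply, Submodule.Quotient.mk_eq_zero]
  rw [← A.map_comp, e1, e2, A.map_comp, A.map_comp, ← d_zero_apply]
  exact ⟨_, rfl⟩

theorem aug_zero (x : A.obj 0) : A.aug 0 x = (LinearMap.range (A.d 0)).mkQ x := by
  have : cst 0 0 = (OrderHom.id : Op 0 0) := by
    apply OrderHom.ext
    funext y
    exact Subsingleton.elim (α := Fin 1) _ _
  rw [aug, this, LinearMap.comp_apply, A.map_id]

theorem aug_eq_zero {x : A.obj 0} (h : A.aug 0 x = 0) : ∃ y : A.obj 1, A.d 0 y = x := by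
  rw [aug_zero, Submodule.mkQ_apply, Submodule.Quotient.mk_eq_zero] at h
  exact h

theorem pi0_zero (h : A.cx.HZ 0) (x : A.pi0) : x = 0 := by
  obtain ⟨x, rfl⟩ := Submodule.mkQ_surjective _ x
  obtain ⟨y, hy⟩ : ∃ y : A.obj 1, A.d 0 y = x := h x trivial
  rw [Submodule.mkQ_apply, Submodule.Quotient.mk_eq_zero]
  exact ⟨y, hy⟩

/-- functoriality of `pi0` -/
def pi0Map {A B : SMod R} (f : Hom A B) : A.pi0 →ₗ[R] B.pi0 :=
  Submodule.mapQ _ _ (f.app 0) (by
    rintro _ ⟨y, rfl⟩
    exact ⟨f.app 1 y, (f.app_d 0 y).symm⟩)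

theorem pi0Map_aug {A B : SMod R} (f : Hom A B) (m : ℕ) (x : A.obj m) :
    pi0Map f (A.aug m x) = B.aug m (f.app m x) := by
  change (LinearMap.range (B.d 0)).mkQ (f.app 0 (A.map (cst 0 m) x)) =
    (LinearMap.range (B.d 0)).mkQ (B.map (cst 0 m) (f.app m x))
  rw [f.nat]

end SMod

namespace SSMod

variable (V : SSMod R)

/-- `H_r(V_2)` is spanned by the two degeneracies of `H_r(V_1)` -/
def Span (r : ℕ) : Prop := ∀ x : (V.obj 2).obj r, (V.obj 2).cx.Cyc r x →
  ∃ (a b : (V.obj 1).obj r) (c : (V.obj 2).obj (r + 1)), (V.obj 1).cx.Cyc r a ∧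
    (V.obj 1).cx.Cyc r b ∧
      x = (V.map (sg 1 0)).app r a + (V.map (sg 1 1)).app r b + (V.obj 2).d r c

/-- the simplicial module `k ↦ H_0(V_k)`, its operators -/
def p0 {k l : ℕ} (f : Op k l) : (V.obj l).pi0 →ₗ[R] (V.obj k).pi0 := SMod.pi0Map (V.map f)

theorem p0_aug {k l m : ℕ} (f : Op k l) (x : (V.obj l).obj m) :
    V.p0 f ((V.obj l).aug m x) = (V.obj k).aug m ((V.map f).app m x) :=
  SMod.pi0Map_aug _ _ _

theorem aug_surj (A : SMod R) (x : A.pi0) : ∃ y : A.obj 0, A.aug 0 y = x := by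
  obtain ⟨y, rfl⟩ := Submodule.mkQ_surjective _ x
  exact ⟨y, A.aug_zero y⟩

theorem p0_comp {k l n : ℕ} (f : Op l n) (g : Op k l) (x : (V.obj n).pi0) :
    V.p0 (f.comp g) x = V.p0 g (V.p0 f x) := by
  obtain ⟨y, rfl⟩ := aug_surj _ x
  rw [p0_aug, p0_aug, p0_aug, V.map_comp]

theorem p0_id {k : ℕ} (x : (V.obj k).pi0) : V.p0 (OrderHom.id : Op k k) x = x := by
  obtain ⟨y, rfl⟩ := aug_surj _ x
  rw [p0_aug, V.map_id]

/-- operators factoring through `V_0` vanish on `H_0` -/
theorem p0_fac (h0 : (V.obj 0).cx.HZ 0) {k l : ℕ} (f : Op 0 l) (g : Op k 0) (x : (V.obj l).pi0) :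
    V.p0 (f.comp g) x = 0 := by
  rw [p0_comp, (V.obj 0).pi0_zero h0 (V.p0 f x), map_zero]

theorem sg_dl_zero (j : ℕ) : (sg 0 0).comp (dl 0 j) = (OrderHom.id : Op 0 0) := by
  apply OrderHom.ext
  funext y
  exact Subsingleton.elim (α := Fin 1) _ _

theorem diag_hz_zero (h0 : (V.obj 0).cx.HZ 0) : V.diag.cx.HZ 0 := by
  have key : ∀ x : (V.obj 0).obj 0, ∃ y : (V.obj 1).obj 1, V.diag.d 0 y = x := by
    intro x
    obtain ⟨y, hy⟩ : ∃ y : (V.obj 0).obj 1, (V.obj 0).d 0 y = x := h0 x trivial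
    refine ⟨(V.map (sg 0 0)).app 1 y, ?_⟩
    rw [SMod.d_zero_apply, diag_map, diag_map, ← SMod.Hom.nat, ← SMod.Hom.nat, ← V.map_comp,
      ← V.map_comp, sg_dl_zero, sg_dl_zero, V.map_id, V.map_id, ← SMod.d_zero_apply, hy]
  exact fun x _ => key x

/-- the corner lemma for `r = 0` -/
theorem corner_zero (h0 : (V.obj 0).cx.HZ 0) (hs : V.Span 0) (hd : V.diag.cx.HZ 1) :
    (V.obj 1).cx.HZ 0 := by
  have key : ∀ a : (V.obj 1).obj 0, (V.obj 1).aug 0 a = 0 := by
    intro a₀
    -- normalise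
    obtain ⟨a, ha, ha0⟩ : ∃ a : (V.obj 1).obj 0, (V.obj 1).aug 0 a = (V.obj 1).aug 0 a₀ ∧
        (V.map (dl 0 0)).app 0 a = 0 := by
      refine ⟨a₀ - (V.map (sg 0 0)).app 0 ((V.map (dl 0 0)).app 0 a₀), ?_, ?_⟩
      · rw [map_sub, ← V.p0_aug, (V.obj 0).pi0_zero h0 ((V.obj 0).aug 0 _), map_zero, sub_zero]
      · rw [map_sub, ← V.map_comp, sg_dl_zero, V.map_id, sub_self]
    rw [← ha]
    obtain ⟨u, hu⟩ : ∃ u : (V.obj 0).obj 1, (V.obj 0).d 0 u = (V.map (dl 0 1)).app 0 a :=
      h0 _ trivial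
    -- the cycle
    obtain ⟨y, hy⟩ : ∃ y : (V.obj 2).obj 2,
        V.diag.d 1 y = (V.obj 1).map (sg 0 0) a + (V.map (sg 0 0)).app 1 u := by
      refine hd ((V.obj 1).map (sg 0 0) a + (V.map (sg 0 0)).app 1 u) ?_
      change V.diag.d 0 ((V.obj 1).map (sg 0 0) a + (V.map (sg 0 0)).app 1 u) = 0
      rw [SMod.d_zero_apply, diag_map, diag_map, map_add, map_add, map_add, map_add,
        ← SMod.map_comp, ← SMod.map_comp, sg_dl_zero, sg_dl_zero, SMod.map_id, ha0,
        ← SMod.Hom.nat, ← SMod.Hom.nat, ← V.map_comp, ← V.map_comp, sg_dl_zero, sg_dl_zero,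
        V.map_id, V.map_id, ← hu, SMod.d_zero_apply]
      abel
    have e1 : (V.obj 1).aug 1 ((V.obj 1).map (sg 0 0) a + (V.map (sg 0 0)).app 1 u) =
        (V.obj 1).aug 0 a := by
      rw [map_add, SMod.aug_map, ← V.p0_aug, (V.obj 0).pi0_zero h0 ((V.obj 0).aug 1 u), map_zero,
        add_zero]
    rw [← e1, ← hy, SMod.d_apply, map_sum]
    -- the class of `y`
    obtain ⟨z, hz⟩ := aug_surj (V.obj 2) ((V.obj 2).aug 2 y)
    obtain ⟨b₀, b₁, c, _, _, hx⟩ := hs z trivial
    have hc : (V.obj 2).aug 0 ((V.obj 2).d 0 c) = 0 := by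
      rw [SMod.aug_zero, Submodule.mkQ_apply, Submodule.Quotient.mk_eq_zero]
      exact ⟨c, rfl⟩
    have hy2 : (V.obj 2).aug 2 y = V.p0 (sg 1 0) ((V.obj 1).aug 0 b₀) +
        V.p0 (sg 1 1) ((V.obj 1).aug 0 b₁) := by
      rw [← hz, hx, map_add, map_add, hc, add_zero, p0_aug, p0_aug]
    have e2 : ∀ i, (V.obj 1).aug 1 (sn i (V.diag.map (dl 1 i) y)) =
        sn i (V.p0 ((sg 1 0).comp (dl 1 i)) ((V.obj 1).aug 0 b₀) +
          V.p0 ((sg 1 1).comp (dl 1 i)) ((V.obj 1).aug 0 b₁)) := by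
      intro i
      rw [CosMod.sn_lin, diag_map, ← V.p0_aug, SMod.aug_map, hy2, map_add, ← p0_comp, ← p0_comp]
    rw [Finset.sum_congr rfl fun i _ => e2 i]
    have f1 : (sg 1 0).comp (dl 1 0) = OrderHom.id := sg_dl_self (by omega)
    have f2 : (sg 1 0).comp (dl 1 1) = OrderHom.id := sg_dl_succ (by omega)
    have f3 : (sg 1 0).comp (dl 1 2) = (dl 0 1).comp (sg 0 0) := sg_dl_gt (by omega) (by omega)
    have g1 : (sg 1 1).comp (dl 1 0) = (dl 0 0).comp (sg 0 0) := sg_dl_lt (by omega) (by omega)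
    have g2 : (sg 1 1).comp (dl 1 1) = OrderHom.id := sg_dl_self (by omega)
    have g3 : (sg 1 1).comp (dl 1 2) = OrderHom.id := sg_dl_succ (by omega)
    simp only [Finset.sum_range_succ, Finset.sum_range_zero, f1, f2, f3, g1, g2, g3, p0_id,
      V.p0_fac h0, zero_add, add_zero]
    simp [sn]
  intro a _
  exact (V.obj 1).aug_eq_zero (key a)

/-- `Span` passes to the loop object -/
theorem span_loop (hz : ∀ k, (V.obj k).cx.HZ 0) (r : ℕ) (hs : V.Span (r + 1)) :
    V.Loop.Span r := by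
  intro x hx
  have hx' : (V.obj 2).Path.cx.Cyc r x.1 := (SMod.kerI (V.obj 2).ev).cx.cyc hx
  obtain ⟨y, hy⟩ : ∃ y : (V.obj 2).Path.obj (r + 1), (V.obj 2).Path.d r y = x.1 :=
    (V.obj 2).Path_hz r x.1 hx'
  have hcy : (V.obj 2).d r ((V.obj 2).ev.app (r + 1) y) = 0 := by
    rw [← (V.obj 2).ev.app_d, hy]
    exact x.2
  obtain ⟨a, b, c, ha, hb, hab⟩ := hs ((V.obj 2).ev.app (r + 1) y) hcy
  obtain ⟨a', rfl⟩ := (V.obj 1).ev_surj (hz 1) _ a
  obtain ⟨b', rfl⟩ := (V.obj 1).ev_surj (hz 1) _ b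
  obtain ⟨c', rfl⟩ := (V.obj 2).ev_surj (hz 2) _ c
  have ha' : (V.obj 1).ev.app r ((V.obj 1).Path.d r a') = 0 := by
    rw [(V.obj 1).ev.app_d]; exact ha
  have hb' : (V.obj 1).ev.app r ((V.obj 1).Path.d r b') = 0 := by
    rw [(V.obj 1).ev.app_d]; exact hb
  set w : (V.obj 2).Path.obj (r + 1) := y - (V.Path.map (sg 1 0)).app (r + 1) a' -
    (V.Path.map (sg 1 1)).app (r + 1) b' - (V.obj 2).Path.d (r + 1) c' with hw
  have hw0 : (V.obj 2).ev.app (r + 1) w = 0 := by
    have e0 : (V.obj 2).ev.app (r + 1) ((V.Path.map (sg 1 0)).app (r + 1) a') =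
        (V.map (sg 1 0)).app (r + 1) ((V.obj 1).ev.app (r + 1) a') :=
      SMod.pathMap_ev (V.map (sg 1 0)) a'
    have e1 : (V.obj 2).ev.app (r + 1) ((V.Path.map (sg 1 1)).app (r + 1) b') =
        (V.map (sg 1 1)).app (r + 1) ((V.obj 1).ev.app (r + 1) b') :=
      SMod.pathMap_ev (V.map (sg 1 1)) b'
    rw [hw, map_sub, map_sub, map_sub, e0, e1, (V.obj 2).ev.app_d, hab]
    abel
  refine ⟨⟨(V.obj 1).Path.d r a', ha'⟩, ⟨(V.obj 1).Path.d r b', hb'⟩, ⟨w, hw0⟩, ?_, ?_, ?_⟩
  · cases r with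
    | zero => trivial
    | succ r => exact Subtype.ext (((SMod.kerI (V.obj 1).ev).app_d r ⟨_, ha'⟩).trans
        ((V.obj 1).Path.d_d r a'))
  · cases r with
    | zero => trivial
    | succ r => exact Subtype.ext (((SMod.kerI (V.obj 1).ev).app_d r ⟨_, hb'⟩).trans
        ((V.obj 1).Path.d_d r b'))
  · apply Subtype.ext
    have h1 : ((V.obj 2).Loop.d r ⟨w, hw0⟩).1 = (V.obj 2).Path.d r w :=
      (SMod.kerI (V.obj 2).ev).app_d r ⟨w, hw0⟩
    have h2 : (V.obj 2).Path.d r w = x.1 - (V.Path.map (sg 1 0)).app r ((V.obj 1).Path.d r a') -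
        (V.Path.map (sg 1 1)).app r ((V.obj 1).Path.d r b') := by
      rw [hw, map_sub, map_sub, map_sub, (V.obj 2).Path.d_d, sub_zero, hy,
        (V.Path.map (sg 1 0)).app_d, (V.Path.map (sg 1 1)).app_d]
    have h3 : x.1 = (V.Path.map (sg 1 0)).app r ((V.obj 1).Path.d r a') +
        (V.Path.map (sg 1 1)).app r ((V.obj 1).Path.d r b') + (V.obj 2).Path.d r w := by
      rw [h2]; abel
    exact h3.trans (congrArg (fun z => (V.Path.map (sg 1 0)).app r ((V.obj 1).Path.d r a') +
        (V.Path.map (sg 1 1)).app r ((V.obj 1).Path.d r b') + z) h1.symm)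

/-- **The corner lemma.** -/
theorem corner (r : ℕ) : ∀ V : SSMod R, (∀ k, ∀ t < r, (V.obj k).cx.HZ t) →
    (∀ t ≤ r, (V.obj 0).cx.HZ t) → V.Span r →
    (∀ t ≤ r, V.diag.cx.HZ t) ∧ (V.diag.cx.HZ (r + 1) → (V.obj 1).cx.HZ r) := by
  induction r with
  | zero =>
    intro V _ h0 hs
    refine ⟨fun t ht => ?_, fun hd => V.corner_zero (h0 0 le_rfl) hs hd⟩
    obtain rfl : t = 0 := by omega
    exact V.diag_hz_zero (h0 0 le_rfl)
  | succ r ih =>
    intro V hV h0 hs
    have hz : ∀ k, (V.obj k).cx.HZ 0 := fun k => hV k 0 (by omega)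
    obtain ⟨i1, i2⟩ := ih V.Loop (fun k t ht => (V.obj k).loop_hz (hz k) t (hV k _ (by omega)))
      (fun t ht => (V.obj 0).loop_hz (hz 0) t (h0 _ (by omega))) (V.span_loop hz r hs)
    constructor
    · intro t ht
      refine (V.ses_diag hz).hz_right t (V.path_diag_hz t) ?_
      rintro m rfl
      exact i1 m (by omega)
    · intro hd
      refine ((V.obj 1).ses_loop (hz 1)).hz_right (r + 1) ((V.obj 1).Path_hz _) ?_
      rintro m hm
      obtain rfl : m = r := by omega
      exact i2 ((V.ses_diag hz).hz_left _ (V.path_diag_hz _) hd)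

end SSMod

end Vale.Agent.P263.GB
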