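import Vale.Agent.P263.GB.HtpRZ
import Vale.Agent.P263.GB.RedP

/-!
# P263, block GB: simplicial sets over a set

`X : SS` with a locally constant map `π : X → A` to a set.

* `disc A` : the discrete simplicial set; `Over.toDisc`; `Over.fib a` : the fibre.
* `Over.rz0_toDisc` : if all the fibres are acyclic in degree `n` (relative homology of
  `fib a → pt` vanishes in degree `n`) then `X → disc A` has vanishing relative homology in
  degree `n`.
* `rz0_toPt_of_retract` : acyclicity passes to homotopy retracts.
-/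

namespace Vale.Agent.P263.GB

open Vale.Agent.P263.S Vale.Agent.P263.E Rd

variable {R : Type} [CommRing R]

/-- relative homology of maps of simplicial sets, on elements -/
theorem rz0_free_iff {X Y : SS} (f : SS.Map X Y) (n : ℕ) : RZ0 (freeMap R f).cx n ↔
    (∀ b : (free R Y).obj n, (free R Y).cx.Cyc n b → ∃ (a : (free R X).obj n)
      (w : (free R Y).obj (n + 1)), (free R X).cx.Cyc n a ∧
        (free R Y).d n w = b - (freeMap R f).app n a) ∧
    (∀ m, m + 1 = n → ∀ a : (free R X).obj m, (free R X).cx.Cyc m a →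
      (∃ w, (free R Y).d m w = (freeMap R f).app m a) → ∃ y, (free R X).d m y = a) := by
  rw [Cx.rz0_iff]
  constructor
  · rintro ⟨h1, h2⟩
    refine ⟨fun b hb => ?_, fun m hm a ha hw => ?_⟩
    · obtain ⟨a, ha, w, hw⟩ := h1 b hb
      exact ⟨a, w, ha, hw⟩
    · exact Cx.rel_zero_iff.1 (h2 m hm a ha (Cx.rel_zero_iff.2 hw))
  · rintro ⟨h1, h2⟩
    refine ⟨fun b hb => ?_, fun m hm a ha hw => ?_⟩
    · obtain ⟨a, w, ha, hw⟩ := h1 b hb
      exact ⟨a, ha, w, hw⟩
    · exact Cx.rel_zero_iff.2 (h2 m hm a ha (Cx.rel_zero_iff.1 hw))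

/-- the discrete simplicial set -/
def disc (A : Type) : SS where
  obj _ := A
  map _ a := a
  map_id _ := rfl
  map_comp _ _ _ := rfl

/-- a locally constant map from a simplicial set to a set -/
structure Over (X : SS) (A : Type) where
  /-- the map -/
  π : ∀ {p : ℕ}, X.obj p → A
  π_map : ∀ {p q : ℕ} (f : Op p q) (x : X.obj q), π (X.map f x) = π x

namespace Over

variable {X : SS} {A : Type} (O : Over X A)

/-- the map to the discrete simplicial set -/
def toDisc : SS.Map X (disc A) := ⟨fun x => O.π x, fun f x => O.π_map f x⟩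

/-- the fibre over `a` -/
def fib (a : A) : SS where
  obj p := {x : X.obj p // O.π x = a}
  map f x := ⟨X.map f x.1, (O.π_map f x.1).trans x.2⟩
  map_id x := Subtype.ext (X.map_id x.1)
  map_comp f g x := Subtype.ext (X.map_comp f g x.1)

/-- a simplex of the fibre -/
def mkF {a : A} {p : ℕ} (x : X.obj p) (h : O.π x = a) : (O.fib a).obj p := ⟨x, h⟩

theorem map_mkF {a : A} {p q : ℕ} (f : Op p q) (x : X.obj q) (h : O.π x = a) :
    (O.fib a).map f (O.mkF x h) = O.mkF (X.map f x) ((O.π_map f x).trans h) := rfl

/-- the inclusion of the fibre -/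
def inc (a : A) : SS.Map (O.fib a) X := ⟨fun x => x.1, fun _ _ => rfl⟩

open Classical in
/-- the projection of the chains to the fibre -/
noncomputable def pr (a : A) : SMod.Hom (free R X) (free R (O.fib a)) where
  app p := freeLift X fun x => if h : O.π x = a then fs R (O.fib a) (O.mkF x h) else 0
  nat {p q} f z := by
    refine free_ext (f := (freeLift X fun x => if h : O.π x = a then fs R (O.fib a) (O.mkF x h)
      else 0).comp ((free R X).map f)) (g := ((free R (O.fib a)).map f).comp
        (freeLift X fun x => if h : O.π x = a then fs R (O.fib a) (O.mkF x h) else 0))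
          (fun x => ?_) z
    rw [LinearMap.comp_apply, LinearMap.comp_apply, free_map_fs, freeLift_fs, freeLift_fs]
    by_cases h : O.π x = a
    · rw [dif_pos h, dif_pos ((O.π_map f x).trans h), free_map_fs, map_mkF]
    · rw [dif_neg h, dif_neg fun h' => h ((O.π_map f x).symm.trans h'), map_zero]

theorem pr_fs_self {p : ℕ} (x : X.obj p) {a : A} (h : O.π x = a) :
    (O.pr (R := R) a).app p (fs R X x) = fs R (O.fib a) (O.mkF x h) :=
  (freeLift_fs _ _ _).trans (dif_pos h)

theorem pr_fs_ne {p : ℕ} (x : X.obj p) {a : A} (h : O.π x ≠ a) :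
    (O.pr (R := R) a).app p (fs R X x) = 0 :=
  (freeLift_fs _ _ _).trans (dif_neg h)

/-- a chain is the sum of its projections -/
theorem exists_sum {p : ℕ} (z : (free R X).obj p) : ∃ s : Finset A, ∀ s' : Finset A, s ⊆ s' →
    ∑ a ∈ s', (freeMap R (O.inc a)).app p ((O.pr a).app p z) = z := by
  classical
  induction z using Finsupp.induction_linear with
  | zero =>
    refine ⟨∅, fun s' _ => ?_⟩
    have h0 : ∀ a ∈ s', (freeMap R (O.inc a)).app p ((O.pr a).app p (0 : (free R X).obj p)) = 0 :=
      fun a _ => by rw [map_zero, map_zero]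
    exact Finset.sum_eq_zero h0
  | add x y hx hy =>
    obtain ⟨s, hs⟩ := hx
    obtain ⟨t, ht⟩ := hy
    refine ⟨s ∪ t, fun s' h => ?_⟩
    have h1 := hs s' (Finset.union_subset_left h)
    have h2 := ht s' (Finset.union_subset_right h)
    have h3 : ∀ a ∈ s', (freeMap R (O.inc a)).app p
        ((O.pr a).app p ((show (free R X).obj p from x) + (show (free R X).obj p from y))) =
        (freeMap R (O.inc a)).app p ((O.pr a).app p (show (free R X).obj p from x)) +
        (freeMap R (O.inc a)).app p ((O.pr a).app p (show (free R X).obj p from y)) :=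
      fun a _ => by rw [map_add, map_add]
    refine (Finset.sum_congr rfl h3).trans ?_
    rw [Finset.sum_add_distrib]
    exact congrArg₂ (· + ·) h1 h2
  | single x r =>
    refine ⟨{O.π x}, fun s' h => ?_⟩
    have hx : (Finsupp.single x r : X.obj p →₀ R) = r • fs R X x := by
      show _ = r • Finsupp.single x (1 : R)
      rw [Finsupp.smul_single, smul_eq_mul, mul_one]
    have h1 : ∀ a ∈ s', a ≠ O.π x → (freeMap R (O.inc a)).app p
        ((O.pr a).app p (Finsupp.single x r : X.obj p →₀ R)) = 0 := by
      intro a _ ha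
      rw [hx]
      have := O.pr_fs_ne (R := R) x (Ne.symm ha)
      rw [map_smul]
      rw [show (O.pr (R := R) a).app p (fs R X x) = 0 from this, smul_zero, map_zero]
    refine (Finset.sum_eq_single_of_mem (O.π x) (h (Finset.mem_singleton_self _)) h1).trans ?_
    rw [hx, map_smul, map_smul]
    refine congrArg (r • ·) ?_
    exact (congrArg _ (O.pr_fs_self (R := R) x rfl)).trans (freeMap_fs _ _)

/-- the simplices of the discrete simplicial set -/
def mkD {A : Type} (a : A) (p : ℕ) : (disc A).obj p := a

/-- the simplices of the point -/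
def mkP (p : ℕ) : SS.pt.obj p := ()

open Classical in
/-- the projection of the chains of the discrete simplicial set -/
noncomputable def prD (A : Type) (a : A) : SMod.Hom (free R (disc A)) (free R SS.pt) where
  app p := freeLift (disc A) fun x => if x = mkD a p then fs R SS.pt (mkP p) else 0
  nat {p q} f z := by
    refine free_ext (f := (freeLift (disc A) fun x => if x = mkD a p then fs R SS.pt (mkP p) else
      0).comp ((free R (disc A)).map f)) (g := ((free R SS.pt).map f).comp
      (freeLift (disc A) fun x => if x = mkD a q then fs R SS.pt (mkP q) else 0)) (fun x => ?_) z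
    rw [LinearMap.comp_apply, LinearMap.comp_apply, free_map_fs, freeLift_fs, freeLift_fs]
    by_cases h : x = mkD a q
    · have h' : (disc A).map f x = mkD a p := h
      rw [if_pos h, free_map_fs, if_pos h']
      rfl
    · have h' : ¬ (disc A).map f x = mkD a p := h
      rw [if_neg h, map_zero, if_neg h']

theorem prD_self (a : A) {p : ℕ} :
    (prD (R := R) A a).app p (fs R (disc A) (mkD a p)) = fs R SS.pt (mkP p) :=
  (freeLift_fs _ _ _).trans (if_pos rfl)

theorem prD_ne {a : A} {p : ℕ} {b : (disc A).obj p} (h : b ≠ mkD a p) :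
    (prD (R := R) A a).app p (fs R (disc A) b) = 0 :=
  (freeLift_fs _ _ _).trans (if_neg h)

/-- the inclusion of a point -/
def inD (a : A) : SS.Map SS.pt (disc A) := ⟨fun _ => a, fun _ _ => rfl⟩

theorem toDisc_inc (a : A) : O.toDisc.comp (O.inc a) = (inD a).comp (SS.toPt (O.fib a)) :=
  SS.Map.ext fun _ x => x.2

theorem toPt_pr (a : A) {p : ℕ} (z : (free R X).obj p) :
    (freeMap R (SS.toPt (O.fib a))).app p ((O.pr a).app p z) =
      (prD A a).app p ((freeMap R O.toDisc).app p z) := by
  refine free_ext (f := ((freeMap R (SS.toPt (O.fib a))).app p).comp ((O.pr a).app p))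
    (g := ((prD A a).app p).comp ((freeMap R O.toDisc).app p)) (fun x => ?_) z
  rw [LinearMap.comp_apply, LinearMap.comp_apply, freeMap_fs]
  by_cases h : O.π x = a
  · rw [O.pr_fs_self x h, freeMap_fs]
    have e : O.toDisc.app x = mkD a p := h
    rw [e, prD_self]
    rfl
  · rw [O.pr_fs_ne x h, map_zero]
    exact (prD_ne (b := O.toDisc.app x) h).symm

/-- chains of the discrete simplicial set -/
theorem disc_sum {p : ℕ} (z : (free R (disc A)).obj p) : ∃ s : Finset A, ∀ s' : Finset A,
    s ⊆ s' → ∑ a ∈ s', (freeMap R (inD a)).app p ((prD A a).app p z) = z := by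
  classical
  induction z using Finsupp.induction_linear with
  | zero =>
    refine ⟨∅, fun s' _ => ?_⟩
    have h0 : ∀ a ∈ s', (freeMap R (inD a)).app p
        ((prD A a).app p (0 : (free R (disc A)).obj p)) = 0 :=
      fun a _ => by rw [map_zero, map_zero]
    exact Finset.sum_eq_zero h0
  | add x y hx hy =>
    obtain ⟨s, hs⟩ := hx
    obtain ⟨t, ht⟩ := hy
    refine ⟨s ∪ t, fun s' h => ?_⟩
    have h1 := hs s' (Finset.union_subset_left h)
    have h2 := ht s' (Finset.union_subset_right h)
    have h3 : ∀ a ∈ s', (freeMap R (inD a)).app p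
        ((prD A a).app p ((show (free R (disc A)).obj p from x) +
          (show (free R (disc A)).obj p from y))) =
        (freeMap R (inD a)).app p ((prD A a).app p (show (free R (disc A)).obj p from x)) +
        (freeMap R (inD a)).app p ((prD A a).app p (show (free R (disc A)).obj p from y)) :=
      fun a _ => by rw [map_add, map_add]
    refine (Finset.sum_congr rfl h3).trans ?_
    rw [Finset.sum_add_distrib]
    exact congrArg₂ (· + ·) h1 h2
  | single x r =>
    refine ⟨{x}, fun s' h => ?_⟩
    have hx : (Finsupp.single x r : (disc A).obj p →₀ R) = r • fs R (disc A) x := by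
      show _ = r • Finsupp.single x (1 : R)
      rw [Finsupp.smul_single, smul_eq_mul, mul_one]
    have h1 : ∀ a ∈ s', a ≠ x → (freeMap R (inD a)).app p
        ((prD A a).app p (Finsupp.single x r : (disc A).obj p →₀ R)) = 0 := by
      intro a _ ha
      rw [hx, map_smul]
      rw [show (prD (R := R) A a).app p (fs R (disc A) x) = 0 from prD_ne (Ne.symm ha), smul_zero,
        map_zero]
    refine (Finset.sum_eq_single_of_mem x (h (Finset.mem_singleton_self _)) h1).trans ?_
    rw [hx, map_smul, map_smul]
    refine congrArg (r • ·) ?_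
    exact (congrArg _ (prD_self (R := R) x)).trans (freeMap_fs _ _)

theorem cyc_sum (C : Cx R) {n : ℕ} {ι : Type} (s : Finset ι) (f : ι → C.C n)
    (h : ∀ a ∈ s, C.Cyc n (f a)) : C.Cyc n (∑ a ∈ s, f a) := by
  cases n with
  | zero => trivial
  | succ n =>
    rw [Cx.cyc_succ, map_sum]
    exact Finset.sum_eq_zero h

/-- **Disjoint unions of acyclic simplicial sets.** -/
theorem rz0_toDisc {n : ℕ} (h : ∀ a, RZ0 (freeMap R (SS.toPt (O.fib a))).cx n) :
    RZ0 (freeMap R O.toDisc).cx n := by
  rw [rz0_free_iff]
  constructor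
  · intro b hb
    obtain ⟨s, hs⟩ := disc_sum b
    have h1 : ∀ a, ∃ (c : (free R (O.fib a)).obj n) (w : (free R SS.pt).obj (n + 1)),
        (free R (O.fib a)).cx.Cyc n c ∧ (free R SS.pt).d n w =
          (prD A a).app n b - (freeMap R (SS.toPt (O.fib a))).app n c := fun a =>
      ((rz0_free_iff _ n).1 (h a)).1 _ ((prD A a).cx.cyc hb)
    choose c w hc hrel using h1
    refine ⟨∑ a ∈ s, (freeMap R (O.inc a)).app n (c a),
      ∑ a ∈ s, (freeMap R (inD a)).app (n + 1) (w a), ?_, ?_⟩
    · exact cyc_sum _ s _ fun a _ => (freeMap R (O.inc a)).cx.cyc (hc a)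
    · have e1 : ∀ a, (free R (disc A)).d n ((freeMap R (inD a)).app (n + 1) (w a)) =
          (freeMap R (inD a)).app n ((prD A a).app n b) -
            (freeMap R O.toDisc).app n ((freeMap R (O.inc a)).app n (c a)) := by
        intro a
        rw [← (freeMap R (inD a)).app_d, hrel, map_sub]
        congr 1
        rw [← freeMap_comp_app, ← freeMap_comp_app, toDisc_inc]
      rw [map_sum, map_sum, Finset.sum_congr rfl fun a _ => e1 a, Finset.sum_sub_distrib,
        hs s (Finset.Subset.refl s)]
  · rintro m hm x hx ⟨w, hw⟩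
    have h1 : ∀ a, ∃ y, (free R (O.fib a)).d m y = (O.pr a).app m x := by
      intro a
      refine ((rz0_free_iff _ n).1 (h a)).2 m hm ((O.pr a).app m x) ((O.pr a).cx.cyc hx)
        ⟨(prD A a).app (m + 1) w, ?_⟩
      rw [← (prD A a).app_d, hw, O.toPt_pr]
    choose y hy using h1
    obtain ⟨s, hs⟩ := O.exists_sum x
    refine ⟨∑ a ∈ s, (freeMap R (O.inc a)).app (m + 1) (y a), ?_⟩
    rw [map_sum]
    refine (Finset.sum_congr rfl fun a _ => ?_).trans (hs s (Finset.Subset.refl s))
    rw [← (freeMap R (O.inc a)).app_d, hy]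

end Over

/-- **Acyclicity passes to homotopy retracts.** -/
theorem rz0_toPt_of_retract {X Y : SS} (u : SS.Map X Y) (v : SS.Map Y X)
    (h : CH R (v.comp u) (SS.Map.id X)) {n : ℕ} (hY : RZ0 (freeMap R (SS.toPt Y)).cx n) :
    RZ0 (freeMap R (SS.toPt X)).cx n := by
  have hu : (SS.toPt Y).comp u = SS.toPt X := rfl
  have hv : (SS.toPt X).comp v = SS.toPt Y := rfl
  rw [rz0_free_iff] at hY ⊢
  constructor
  · intro b hb
    obtain ⟨a, w, ha, hab⟩ := hY.1 b hb
    refine ⟨(freeMap R v).app n a, w, (freeMap R v).cx.cyc ha, ?_⟩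
    rw [← freeMap_comp_app, hv]
    exact hab
  · rintro m hm a ha ⟨w, hw⟩
    obtain ⟨y, hy⟩ := hY.2 m hm ((freeMap R u).app m a) ((freeMap R u).cx.cyc ha)
      ⟨w, by rw [← freeMap_comp_app, hu]; exact hw⟩
    obtain ⟨w', hw'⟩ := h m a ha
    refine ⟨(freeMap R v).app (m + 1) y - w', ?_⟩
    rw [map_sub, ← (freeMap R v).app_d, hy, hw', freeMap_comp_app, freeMap_id_app, sub_sub_cancel]

end Vale.Agent.P263.GB
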