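import Vale.Agent.P263.GB.Base
import Mathlib.Algebra.Field.Basic

/-!
# P263, block G2: the bookkeeping of step (G5)

`X n`, `Y n` (`n ≥ 1`) : chain complexes, `a n : X n → Y n`, `b n : Y n → P` (the map to a point).
`Desc f` : if the relative homology of `f n` vanishes in degrees `< r` then the one of `f (n + 1)`
vanishes in degrees `≤ r`, and its vanishing in degree `r + 1` implies the vanishing for `f n` in
degree `r` (the corner lemma).  From this and a vanishing range at the top, all relative homology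
of `a n` vanishes (`g5`).
-/

namespace Vale.Agent.P263.GB

variable {R : Type} [CommRing R]

/-- the property delivered by the corner lemma, from level `n` to level `n + 1`, `n ≥ 1`, `r ≥ 1` -/
def Desc {X Y : ℕ → Cx R} (f : ∀ n, Cx.Hom (X n) (Y n)) : Prop :=
  ∀ n, 1 ≤ n → ∀ r, 1 ≤ r → (∀ t < r, RZ0 (f n) t) →
    (∀ t ≤ r, RZ0 (f (n + 1)) t) ∧ (RZ0 (f (n + 1)) (r + 1) → RZ0 (f n) r)

namespace Desc

variable {X Y : ℕ → Cx R} {f : ∀ n, Cx.Hom (X n) (Y n)}

/-- `m` steps at once, from level `1` -/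
theorem iter (h : Desc f) {r : ℕ} (hr : 1 ≤ r) (h0 : ∀ t < r, RZ0 (f 1) t)
    (m : ℕ) : (∀ t < r + m, RZ0 (f (m + 1)) t) ∧ (RZ0 (f (m + 1)) (r + m) → RZ0 (f 1) r) := by
  induction m with
  | zero => exact ⟨h0, fun h => h⟩
  | succ m ih =>
    obtain ⟨h1, h2⟩ := h (m + 1) (by omega) (r + m) (by omega) ih.1
    exact ⟨fun t ht => h1 t (by omega), fun h' => ih.2 (h2 h')⟩

end Desc

/-- relative homology from absolute homology: if `f` is onto in `H_{n+1}` and injective in `H_n` -/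
theorem rz0_succ_of {A B : Cx R} (f : Cx.Hom A B) (n : ℕ)
    (hs : ∀ y : B.C (n + 1), B.d n y = 0 →
      ∃ (x : A.C (n + 1)) (y' : B.C (n + 2)), A.d n x = 0 ∧ B.d (n + 1) y' + f.app (n + 1) x = y)
    (hi : ∀ x : A.C n, A.Cyc n x → ∀ y, B.d n y = f.app n x → ∃ x', A.d n x' = x) :
    RZ0 f (n + 1) := by
  rw [rz0_succ]
  intro b a ha hb
  obtain ⟨a', ha'⟩ := hi a ha (-b) (by rw [map_neg, eq_neg_of_add_eq_zero_right hb])
  obtain ⟨x, y', hx, hy⟩ := hs (b + f.app (n + 1) a') (by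
    rw [map_add, ← f.comm, ha', hb])
  refine ⟨y', x - a', ?_, ?_⟩
  · rw [map_sub, ← add_sub_assoc, hy, add_sub_cancel_right]
  · rw [map_sub, hx, zero_sub, neg_neg, ha']

/-- onto in `H_{n+1}` from the vanishing of the relative homology in degree `n + 1` -/
theorem RZ0.onto_succ {A B : Cx R} {f : Cx.Hom A B} {n : ℕ} (h : RZ0 f (n + 1))
    (y : B.C (n + 1)) (hy : B.d n y = 0) :
    ∃ (x : A.C (n + 1)) (y' : B.C (n + 2)), A.d n x = 0 ∧
      B.d (n + 1) y' + f.app (n + 1) x = y := by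
  obtain ⟨b', a', h1, h2⟩ := (rz0_succ f n).1 h y 0 (by cases n <;> simp [Cx.Cyc]) (by simp [hy])
  exact ⟨a', b', neg_eq_zero.1 h2, h1⟩

/-- injective in `H_n` from the vanishing of the relative homology in degree `n + 1` -/
theorem RZ0.inj {A B : Cx R} {f : Cx.Hom A B} {n : ℕ} (h : RZ0 f (n + 1))
    (x : A.C n) (hx : A.Cyc n x) (y : B.C (n + 1)) (hy : B.d n y = f.app n x) :
    ∃ x', A.d n x' = x := by
  obtain ⟨b', a', h1, h2⟩ := (rz0_succ f n).1 h (-y) x hx (by rw [map_neg, hy]; abel)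
  exact ⟨-a', by rw [map_neg]; exact h2⟩

/-- **Step (G5)**, abstract form. -/
theorem g5 {K : Type} [Field K] {X Y : ℕ → Cx K} (a : ∀ n, Cx.Hom (X n) (Y n))
    {P : ℕ → Cx K} (b : ∀ n, Cx.Hom (Y n) (P n)) (ha : Desc a) (hb : Desc b)
    (hP : ∀ n j, (P n).HZ (j + 1))
    -- level one
    (ha0 : RZ0 (a 1) 0) (ha1 : RZ0 (a 1) 1) (hb0 : RZ0 (b 1) 0) (hb1 : RZ0 (b 1) 1)
    (hY1 : ¬ (Y 1).HZ 1)
    -- the range
    (hX : ∀ N j, 1 ≤ N → 0 < j → j < 2 * N → j ≠ N → (X N).HZ j)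
    (hX1 : ∀ N, 1 ≤ N → ∃ z : (X N).C N, (X N).Cyc N z ∧ ∀ x : (X N).C N, (X N).Cyc N x →
      ∃ (c : K) (y : (X N).C (N + 1)), x = c • z + (X N).d N y)
    (hY : ∀ N j, 1 ≤ N → 0 < j → j < 2 * N → j ≠ N → (Y N).HZ j) :
    ∀ t, RZ0 (a 1) t := by
  -- the homology of the point
  have hPc : ∀ n j (x : (P n).C (j + 1)), (P n).d j x = 0 → ∃ y, (P n).d (j + 1) y = x :=
    fun n j x hx => hP n j x hx
  -- `H_N(Y_N) ≠ 0`
  have hYN : ∀ N, 1 ≤ N → ¬ (Y N).HZ N := by
    intro N hN hZ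
    obtain ⟨m, rfl⟩ : ∃ m, N = m + 1 := ⟨N - 1, by omega⟩
    obtain ⟨h1, h2⟩ := hb.iter (r := 2) (by norm_num)
      (fun t ht => by interval_cases t <;> assumption) m
    refine hY1 ?_
    have h3 : RZ0 (b 1) 2 := h2 (by
      rw [show 2 + m = (m + 1) + 1 by omega]
      refine rz0_succ_of _ _ (fun y hy => ?_) (fun x hx y _ => hZ x hx)
      obtain ⟨y', hy'⟩ := hPc _ _ y hy
      exact ⟨0, y', by simp, by simp [hy']⟩)
    intro x hx
    have hx' : (Y 1).d 0 x = 0 := hx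
    obtain ⟨y, hy⟩ := hPc 1 0 ((b 1).app 1 x) (by rw [← (b 1).comm, hx', map_zero])
    exact h3.inj x hx y hy
  -- the range at the top
  have top : ∀ N, 1 ≤ N → ∀ t, t < 2 * N → RZ0 (a N) t := by
    intro N hN
    obtain ⟨m, rfl⟩ : ∃ m, N = m + 1 := ⟨N - 1, by omega⟩
    obtain ⟨h1, -⟩ := ha.iter (r := 2) (by norm_num)
      (fun t ht => by interval_cases t <;> assumption) m
    intro t ht
    rcases Nat.lt_or_ge t (2 + m) with h | h
    · exact h1 t h
    obtain ⟨t, rfl⟩ : ∃ s, t = s + 1 := ⟨t - 1, by omega⟩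
    have hYt : (Y (m + 1)).HZ (t + 1) := hY _ _ (by omega) (by omega) ht (by omega)
    refine rz0_succ_of _ _ (fun y hy => ?_) ?_
    · obtain ⟨y', hy'⟩ := hYt y hy
      exact ⟨0, y', by simp, by simp [hy']⟩
    · rcases Nat.lt_or_ge (m + 1) t with h' | h'
      · intro x hx y _
        exact hX _ _ (by omega) (by omega) (by omega) (by omega) x hx
      · obtain rfl : t = m + 1 := by omega
        obtain ⟨z, hz, hz'⟩ := hX1 (m + 1) (by omega)
        intro x hx y hy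
        obtain ⟨c, w, rfl⟩ := hz' x hx
        by_cases hc : c = 0
        · exact ⟨w, by simp [hc]⟩
        exfalso
        -- `a z` bounds, hence `H_N(Y_N) = 0`
        obtain ⟨u, hu⟩ : ∃ u, (Y (m + 1)).d (m + 1) u = (a (m + 1)).app (m + 1) z := by
          refine ⟨c⁻¹ • (y - (a (m + 1)).app (m + 1 + 1) w), ?_⟩
          rw [map_smul, map_sub, hy, map_add, map_smul, (a (m + 1)).comm,
            add_sub_cancel_right, smul_smul, inv_mul_cancel₀ hc, one_smul]
        refine hYN (m + 1) (by omega) ?_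
        intro v hv
        obtain ⟨x, y', hx, hy'⟩ := (h1 (m + 1) (by omega)).onto_succ v hv
        obtain ⟨c', w', rfl⟩ := hz' x hx
        refine ⟨y' + (c' • u + (a (m + 1)).app (m + 1 + 1) w'), ?_⟩
        rw [← hy']
        simp only [map_add, map_smul, hu]
        rw [(a (m + 1)).comm]
  -- conclusion
  intro t
  induction t using Nat.strong_induction_on with
  | _ t ih =>
    rcases Nat.lt_or_ge t 2 with h | h
    · interval_cases t <;> assumption
    obtain ⟨-, h2⟩ := ha.iter (r := t) (by omega) ih t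
    exact h2 (top (t + 1) (by omega) _ (by omega))

/-- **Step (G5)** at every level `n ≥ 1`. -/
theorem Desc.all {X Y : ℕ → Cx R} {f : ∀ n, Cx.Hom (X n) (Y n)} (h : Desc f)
    (h1 : ∀ t, RZ0 (f 1) t) : ∀ n, 1 ≤ n → ∀ t, RZ0 (f n) t := by
  intro n hn
  obtain ⟨m, rfl⟩ : ∃ m, n = m + 1 := ⟨n - 1, by omega⟩
  intro t
  exact (h.iter (r := t + 1) (by omega) (fun t _ => h1 t) m).1 t (by omega)

end Vale.Agent.P263.GB
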