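import Vale.Agent.P263.GB.Diag
import Mathlib.LinearAlgebra.Prod

/-!
# P263, block GB: the simplicial mapping cone

`SMod.cof A` : a contractible simplicial module with a natural levelwise injective map
`cofI A : A → cof A`.  `MCone f = (B ⊕ cof A) / A` is a simplicial module with
`MCone.hz_iff : (MCone f).cx.HZ n ↔ RZ0 f.cx n`.  The same for `SSMod` (levelwise), with
`SSMod.MCone.diag_hz_iff : (SSMod.MCone F).diag.cx.HZ n ↔ RZ0 F.diag.cx n`; hence the relative forms
`SSMod.rz0_diag`, `SSMod.rz0_diag'` of the diagonal lemma and `SSMod.rz0_corner` of the corner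
lemma.
-/

namespace Vale.Agent.P263.GB

open Vale.Agent.P263.S

variable {R : Type} [CommRing R]

/-- abstract comparison of the homology of a quotient `(B ⊕ E) / A` with the mapping cone -/
theorem hz_iff_of {A B E Q : Cx R} (f : Cx.Hom A B) (ι : Cx.Hom A E) (β : Cx.Hom B Q)
    (ε : Cx.Hom E Q) (hE : ∀ n, E.HZ n) (hι : ∀ n, Function.Injective (ι.app n))
    (hs : ∀ n (z : Q.C n), ∃ b e, β.app n b + ε.app n e = z)
    (hk : ∀ n (b : B.C n) (e : E.C n), β.app n b + ε.app n e = 0 ↔
      ∃ a, f.app n a = b ∧ ι.app n a = e) (n : ℕ) : Q.HZ n ↔ RZ0 f n := by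
  have hk' : ∀ n (b b' : B.C n) (e e' : E.C n), β.app n b + ε.app n e = β.app n b' + ε.app n e' →
      ∃ a, f.app n a = b - b' ∧ ι.app n a = e - e' := by
    intro n b b' e e' h
    rw [← hk, map_sub, map_sub]
    have : β.app n b - β.app n b' + (ε.app n e - ε.app n e') =
      (β.app n b + ε.app n e) - (β.app n b' + ε.app n e') := by abel
    rw [this, h, sub_self]
  cases n with
  | zero =>
    rw [rz0_zero]
    constructor
    · intro h b
      obtain ⟨z, hz⟩ := h (β.app 0 b) trivial
      obtain ⟨b', e', rfl⟩ := hs 1 z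
      rw [map_add, ← β.comm, ← ε.comm] at hz
      obtain ⟨a, ha, _⟩ := hk' 0 b (B.d 0 b') 0 (E.d 0 e') (by rw [map_zero, add_zero, hz])
      exact ⟨b', a, by rw [ha]; abel⟩
    · intro h z _
      obtain ⟨b, e, rfl⟩ := hs 0 z
      obtain ⟨b', a, hb⟩ := h b
      obtain ⟨e', he⟩ := hE 0 (e - ι.app 0 a) trivial
      refine ⟨β.app 1 b' + ε.app 1 e', ?_⟩
      rw [map_add, ← β.comm, ← ε.comm, he]
      have h0 := (hk 0 (f.app 0 a) (ι.app 0 a)).2 ⟨a, rfl, rfl⟩
      have hb' : B.d 0 b' = b - f.app 0 a := by rw [← hb]; abel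
      rw [hb', map_sub, map_sub]
      have : β.app 0 b - β.app 0 (f.app 0 a) + (ε.app 0 e - ε.app 0 (ι.app 0 a)) =
        (β.app 0 b + ε.app 0 e) - (β.app 0 (f.app 0 a) + ε.app 0 (ι.app 0 a)) := by abel
      rw [this, h0, sub_zero]
  | succ n =>
    rw [rz0_succ]
    constructor
    · intro h b a ha hba
      obtain ⟨e, he⟩ := hE n (ι.app n a) (ι.cyc ha)
      have hcyc : Q.Cyc (n + 1) (β.app (n + 1) b + ε.app (n + 1) (-e)) := by
        rw [Cx.cyc_succ, map_add, ← β.comm, ← ε.comm, hk, map_neg, he]
        refine ⟨-a, ?_, by rw [map_neg]⟩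
        rw [map_neg]; exact (eq_neg_of_add_eq_zero_left hba).symm
      obtain ⟨z, hz⟩ := h _ hcyc
      obtain ⟨b', e', rfl⟩ := hs _ z
      rw [map_add, ← β.comm, ← ε.comm] at hz
      obtain ⟨a', ha1, ha2⟩ := hk' _ _ _ _ _ hz.symm
      refine ⟨b', a', by rw [ha1]; abel, ?_⟩
      apply hι n
      rw [map_neg, ι.comm, ha2, map_sub, map_neg, he, E.dd]
      abel
    · intro h z hz
      obtain ⟨b, e, rfl⟩ := hs _ z
      rw [Cx.cyc_succ, map_add, ← β.comm, ← ε.comm, hk] at hz
      obtain ⟨a, ha1, ha2⟩ := hz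
      have hca : A.Cyc n a := by
        cases n with
        | zero => trivial
        | succ n =>
          rw [Cx.cyc_succ]
          apply hι n
          rw [ι.comm, ha2, E.dd, map_zero]
      obtain ⟨b', a', h1, h2⟩ := h b (-a) (by
        cases n with
        | zero => trivial
        | succ n =>
          rw [Cx.cyc_succ] at *
          rw [map_neg, hca, neg_zero]) (by rw [map_neg, ha1]; abel)
      have h2' : A.d n a' = a := neg_injective h2
      obtain ⟨e', he'⟩ := hE (n + 1) (e - ι.app (n + 1) a') (by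
        rw [Cx.cyc_succ, map_sub, ← ha2, ← ι.comm, h2', sub_self])
      refine ⟨β.app _ b' + ε.app _ e', ?_⟩
      rw [map_add, ← β.comm, ← ε.comm, he']
      have h0 := (hk _ (f.app _ a') (ι.app _ a')).2 ⟨a', rfl, rfl⟩
      have hb' : B.d _ b' = b - f.app _ a' := by rw [← h1]; abel
      rw [hb', map_sub, map_sub]
      have : β.app _ b - β.app _ (f.app _ a') + (ε.app _ e - ε.app _ (ι.app _ a')) =
        (β.app _ b + ε.app _ e) - (β.app _ (f.app _ a') + ε.app _ (ι.app _ a')) := by abel
      rw [this, h0, sub_zero]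

namespace SMod

/-- the cofree contractible simplicial module containing `A` -/
abbrev cof (A : SMod R) : SMod R where
  obj p := (n : ℕ) → Op n p → A.obj n
  map f :=
    { toFun := fun g n h => g n (f.comp h)
      map_add' := fun _ _ => rfl
      map_smul' := fun _ _ => rfl }
  map_id _ := rfl
  map_comp _ _ _ := rfl

theorem cof_map (A : SMod R) {p q : ℕ} (f : Op p q) (g : (cof A).obj q) (n : ℕ) (h : Op n p) :
    (cof A).map f g n h = g n (f.comp h) := rfl

/-- the natural embedding -/
def cofI (A : SMod R) : Hom A (cof A) where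
  app p :=
    { toFun := fun x n h => A.map h x
      map_add' := fun _ _ => by funext n h; exact map_add _ _ _
      map_smul' := fun _ _ => by funext n h; exact map_smul _ _ _ }
  nat f x := by
    funext n h
    exact (A.map_comp f h x).symm

theorem cofI_app (A : SMod R) {p : ℕ} (x : A.obj p) (n : ℕ) (h : Op n p) :
    (cofI A).app p x n h = A.map h x := rfl

theorem cofI_inj (A : SMod R) (p : ℕ) : Function.Injective ((cofI A).app p) := by
  intro x y hxy
  have := congrFun (congrFun hxy p) OrderHom.id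
  rw [cofI_app, cofI_app, A.map_id, A.map_id] at this
  exact this

/-- functoriality of `cof` -/
def cofMap {A B : SMod R} (f : Hom A B) : Hom (cof A) (cof B) where
  app p :=
    { toFun := fun g n h => f.app n (g n h)
      map_add' := fun _ _ => by funext n h; exact map_add _ _ _
      map_smul' := fun _ _ => by funext n h; exact map_smul _ _ _ }
  nat _ _ := rfl

theorem cofMap_cofI {A B : SMod R} (f : Hom A B) {p : ℕ} (x : A.obj p) :
    (cofMap f).app p ((cofI A).app p x) = (cofI B).app p (f.app p x) := by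
  funext n h
  exact f.nat h x

open Classical in
/-- the contraction of `cof A` -/
noncomputable def cofP (A : SMod R) : Prism (cof A) (cof A) where
  h p t :=
    { toFun := fun g n h => if t.comp h = c1 n then g n h else 0
      map_add' := fun a b => by
        funext n h
        show (if t.comp h = c1 n then (a + b) n h else 0) =
          (if t.comp h = c1 n then a n h else 0) + (if t.comp h = c1 n then b n h else 0)
        split_ifs
        · rfl
        · rw [add_zero]
      map_smul' := fun r a => by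
        funext n h
        show (if t.comp h = c1 n then (r • a) n h else 0) =
          r • (if t.comp h = c1 n then a n h else 0)
        split_ifs
        · rfl
        · rw [smul_zero] }
  nat _ _ _ := rfl

open Classical in
theorem cofP_app (A : SMod R) {p : ℕ} (t : Op p 1) (g : (cof A).obj p) (n : ℕ) (h : Op n p) :
    (cofP A).h p t g n h = if t.comp h = c1 n then g n h else 0 := rfl

theorem cofP_one (A : SMod R) (p : ℕ) (g : (cof A).obj p) : (cofP A).h p (c1 p) g = g := by
  funext n h
  rw [cofP_app, if_pos (c1_comp h)]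

theorem c0_ne_c1 (n : ℕ) : c0 n ≠ c1 n := by
  intro h
  have := congrArg (fun t : Op n 1 => t 0) h
  simp only [c0_val, c1_val] at this
  exact absurd this (by decide)

theorem cofP_zero (A : SMod R) (p : ℕ) (g : (cof A).obj p) : (cofP A).h p (c0 p) g = 0 := by
  funext n h
  rw [cofP_app, if_neg]
  · rfl
  · rw [c0_comp]
    exact c0_ne_c1 n

theorem cof_hz (A : SMod R) (n : ℕ) : (cof A).cx.HZ n := (cofP A).hz (cofP_zero A) (cofP_one A) n

/-- the simplicial mapping cone -/
abbrev MCone {A B : SMod R} (f : Hom A B) : SMod R where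
  obj p := (B.obj p × (cof A).obj p) ⧸ LinearMap.range ((f.app p).prod ((cofI A).app p))
  map {p q} g := Submodule.mapQ _ _ (LinearMap.prodMap (B.map g) ((cof A).map g)) (by
    rintro _ ⟨x, rfl⟩
    refine ⟨A.map g x, ?_⟩
    exact Prod.ext (f.nat g x) ((cofI A).nat g x))
  map_id {p} x := by
    obtain ⟨⟨b, e⟩, rfl⟩ := Submodule.mkQ_surjective _ x
    exact congrArg (Submodule.mkQ _) (Prod.ext (B.map_id b) rfl)
  map_comp f g x := by
    obtain ⟨⟨b, e⟩, rfl⟩ := Submodule.mkQ_surjective _ x
    exact congrArg (Submodule.mkQ _) (Prod.ext (B.map_comp f g b) rfl)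

/-- the class of a pair in the mapping cone -/
def MCone.mk {A B : SMod R} (f : Hom A B) (p : ℕ) :
    (B.obj p × (cof A).obj p) →ₗ[R] (MCone f).obj p := Submodule.mkQ _

theorem MCone.mk_surj {A B : SMod R} (f : Hom A B) (p : ℕ) :
    Function.Surjective (MCone.mk f p) := Submodule.mkQ_surjective _

theorem MCone.mk_eq_zero {A B : SMod R} (f : Hom A B) (p : ℕ) (b : B.obj p)
    (e : (cof A).obj p) : MCone.mk f p (b, e) = 0 ↔ ∃ a, f.app p a = b ∧ (cofI A).app p a = e := by
  rw [MCone.mk, Submodule.mkQ_apply, Submodule.Quotient.mk_eq_zero, LinearMap.mem_range]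
  constructor
  · rintro ⟨a, ha⟩
    exact ⟨a, congrArg Prod.fst ha, congrArg Prod.snd ha⟩
  · rintro ⟨a, h1, h2⟩
    exact ⟨a, Prod.ext h1 h2⟩

theorem MCone.map_mk {A B : SMod R} (f : Hom A B) {p q : ℕ} (g : Op p q) (b : B.obj q)
    (e : (cof A).obj q) : (MCone f).map g (MCone.mk f q (b, e)) =
      MCone.mk f p (B.map g b, (cof A).map g e) := rfl

/-- the inclusion of the target -/
def MCone.inl {A B : SMod R} (f : Hom A B) : Hom B (MCone f) where
  app p := (MCone.mk f p).comp (LinearMap.inl R _ _)
  nat g x := by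
    change MCone.mk f _ (B.map g x, 0) = (MCone f).map g (MCone.mk f _ (x, 0))
    rw [MCone.map_mk, map_zero]

/-- the inclusion of the contractible part -/
def MCone.inr {A B : SMod R} (f : Hom A B) : Hom (cof A) (MCone f) where
  app p := (MCone.mk f p).comp (LinearMap.inr R _ _)
  nat g x := by
    change MCone.mk f _ (0, (cof A).map g x) = (MCone f).map g (MCone.mk f _ (0, x))
    rw [MCone.map_mk, map_zero]

theorem MCone.mk_eq {A B : SMod R} (f : Hom A B) (p : ℕ) (b : B.obj p) (e : (cof A).obj p) :
    (MCone.inl f).app p b + (MCone.inr f).app p e = MCone.mk f p (b, e) := by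
  change MCone.mk f p (b, 0) + MCone.mk f p (0, e) = _
  rw [← map_add, Prod.mk_add_mk, add_zero, zero_add]

theorem MCone.hz_iff {A B : SMod R} (f : Hom A B) (n : ℕ) : (MCone f).cx.HZ n ↔ RZ0 f.cx n := by
  refine hz_iff_of f.cx (cofI A).cx (MCone.inl f).cx (MCone.inr f).cx (cof_hz A) (cofI_inj A)
    ?_ ?_ n
  · intro n z
    obtain ⟨⟨b, e⟩, rfl⟩ := MCone.mk_surj f n z
    exact ⟨b, e, MCone.mk_eq f n b e⟩
  · intro n b e
    exact (MCone.mk_eq f n b e).symm ▸ MCone.mk_eq_zero f n b e

/-- functoriality of the mapping cone in commutative squares -/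
def MCone.map' {A B A' B' : SMod R} {f : Hom A B} {f' : Hom A' B'} (a : Hom A A') (b : Hom B B')
    (h : ∀ p x, f'.app p (a.app p x) = b.app p (f.app p x)) : Hom (MCone f) (MCone f') where
  app p := Submodule.mapQ _ _ (LinearMap.prodMap (b.app p) ((cofMap a).app p)) (by
    rintro _ ⟨x, rfl⟩
    exact ⟨a.app p x, Prod.ext (h p x) (cofMap_cofI a x).symm⟩)
  nat {p q} g x := by
    obtain ⟨⟨y, e⟩, rfl⟩ := Submodule.mkQ_surjective _ x
    exact congrArg (Submodule.mkQ _) (Prod.ext (b.nat g y) rfl)

theorem MCone.map'_mk {A B A' B' : SMod R} {f : Hom A B} {f' : Hom A' B'} (a : Hom A A')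
    (b : Hom B B') (h : ∀ p x, f'.app p (a.app p x) = b.app p (f.app p x)) (p : ℕ)
    (y : B.obj p) (e : (cof A).obj p) :
    (MCone.map' a b h).app p (MCone.mk f p (y, e)) =
      MCone.mk f' p (b.app p y, (cofMap a).app p e) := rfl

end SMod

namespace SSMod

/-- levelwise `cof` -/
abbrev cof (V : SSMod R) : SSMod R where
  obj k := (V.obj k).cof
  map f := SMod.cofMap (V.map f)
  map_id {k m} x := by
    funext n h
    exact V.map_id (x n h)
  map_comp f g x := by
    funext n h
    exact V.map_comp f g (x n h)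

/-- the embedding -/
def cofI (V : SSMod R) : Hom V V.cof where
  app k := SMod.cofI (V.obj k)
  nat f x := (SMod.cofMap_cofI (V.map f) x).symm

/-- the contraction of the diagonal -/
noncomputable def cofP (V : SSMod R) : SMod.Prism V.cof.diag V.cof.diag where
  h p t := (SMod.cofP (V.obj p)).h p t
  nat {p q} f t x := by
    classical
    funext n h
    change (if (t.comp f).comp h = c1 n then (V.map f).app n (x n (f.comp h)) else 0) =
      (V.map f).app n (if t.comp (f.comp h) = c1 n then x n (f.comp h) else 0)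
    have e : (t.comp f).comp h = t.comp (f.comp h) := rfl
    rw [e]
    split_ifs
    · rfl
    · rw [map_zero]

theorem cof_diag_hz (V : SSMod R) (n : ℕ) : V.cof.diag.cx.HZ n :=
  V.cofP.hz (fun p x => (V.obj p).cofP_zero p x) (fun p x => (V.obj p).cofP_one p x) n

/-- the levelwise mapping cone -/
abbrev MCone {V W : SSMod R} (F : Hom V W) : SSMod R where
  obj k := SMod.MCone (F.app k)
  map f := SMod.MCone.map' (V.map f) (W.map f) fun p x => F.nat f x
  map_id {k m} x := by
    obtain ⟨⟨y, e⟩, rfl⟩ := Submodule.mkQ_surjective _ x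
    exact congrArg (Submodule.mkQ _) (Prod.ext (W.map_id y) (V.cof.map_id e))
  map_comp f g x := by
    obtain ⟨⟨y, e⟩, rfl⟩ := Submodule.mkQ_surjective _ x
    exact congrArg (Submodule.mkQ _) (Prod.ext (W.map_comp f g y) (V.cof.map_comp f g e))

variable {V W : SSMod R} (F : Hom V W)

/-- the inclusion of the target -/
def MCone.inl : Hom W (MCone F) where
  app k := SMod.MCone.inl (F.app k)
  nat {k l m} f x := by
    have h : (SMod.MCone.map' (f := F.app l) (f' := F.app k) (V.map f) (W.map f)
        fun p x => F.nat f x).app m (SMod.MCone.mk (F.app l) m (x, 0)) =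
        SMod.MCone.mk (F.app k) m ((W.map f).app m x, 0) := by
      rw [SMod.MCone.map'_mk, map_zero]
    exact h.symm

/-- the inclusion of the contractible part -/
def MCone.inr : Hom V.cof (MCone F) where
  app k := SMod.MCone.inr (F.app k)
  nat {k l m} f x := by
    have h : (SMod.MCone.map' (f := F.app l) (f' := F.app k) (V.map f) (W.map f)
        fun p x => F.nat f x).app m (SMod.MCone.mk (F.app l) m (0, x)) =
        SMod.MCone.mk (F.app k) m (0, (SMod.cofMap (V.map f)).app m x) := by
      rw [SMod.MCone.map'_mk, map_zero]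
    exact h.symm

/-- the homology of the diagonal of the cone is the relative homology of the diagonal -/
theorem MCone.diag_hz_iff (n : ℕ) : (MCone F).diag.cx.HZ n ↔ RZ0 F.diag.cx n := by
  refine hz_iff_of F.diag.cx V.cofI.diag.cx (MCone.inl F).diag.cx (MCone.inr F).diag.cx
    V.cof_diag_hz (fun p => SMod.cofI_inj (V.obj p) p) ?_ ?_ n
  · intro n z
    obtain ⟨⟨b, e⟩, rfl⟩ := SMod.MCone.mk_surj (F.app n) n z
    exact ⟨b, e, SMod.MCone.mk_eq (F.app n) n b e⟩
  · intro n b e
    exact (SMod.MCone.mk_eq (F.app n) n b e).symm ▸ SMod.MCone.mk_eq_zero (F.app n) n b e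

/-- **the relative diagonal lemma** -/
theorem rz0_diag (r : ℕ) (h : ∀ k, ∀ t < r, RZ0 (F.app k).cx t) (t : ℕ) (ht : t < r) :
    RZ0 F.diag.cx t :=
  (MCone.diag_hz_iff F t).1 (diag_hz r (MCone F)
    (fun k t ht => (SMod.MCone.hz_iff (F.app k) t).2 (h k t ht)) t ht)

end SSMod

end Vale.Agent.P263.GB
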