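import Vale.Agent.P263.GB.Gam
import Vale.Agent.P263.GB.MCone

/-!
# P263, block G2: homology of `B` on diagonals

* `SSMod.diag_hz_le`, `SSMod.rz0_diag_le` : if `H_t(V_k) = 0` for `t < r`, all `k`, and
  `H_t(V_0) = 0` for `t ≤ r`, then `H_t(diag V) = 0` for `t ≤ r` (no spanning hypothesis).
* `Gam.ssm R G K : SSMod R`, `k ↦ R[G (S¹_k ∧ K₊)]`, its diagonal is `R[B G (K₊)]`.
* `Gam.Hom.rz0_B` : `RZ0 (a K) t` for `t < r`, all `K` ⟹ the same for `B a`;
  `Gam.Hom.rz0_B_succ` : for functors with value a point at `∅` even for `t < r + 1`.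
-/

namespace Vale.Agent.P263.GB

open Vale.Agent.P263.S Vale.Agent.P263.E

variable {R : Type} [CommRing R]

/-! ### transport along bijective chain maps -/

theorem hz_congr {A A' : Cx R} (u : Cx.Hom A A') (hu : ∀ n, Function.Bijective (u.app n)) (n : ℕ) :
    A.HZ n ↔ A'.HZ n := by
  constructor
  · intro h x hx
    obtain ⟨x, rfl⟩ := (hu n).2 x
    have hx' : A.Cyc n x := by
      cases n with
      | zero => trivial
      | succ n =>
        apply (hu n).1
        rw [u.comm, map_zero]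
        exact hx
    obtain ⟨y, rfl⟩ := h x hx'
    exact ⟨u.app (n + 1) y, (u.comm n y).symm⟩
  · intro h x hx
    obtain ⟨y, hy⟩ := h _ (u.cyc hx)
    obtain ⟨y, rfl⟩ := (hu (n + 1)).2 y
    refine ⟨y, (hu n).1 ?_⟩
    rw [u.comm, hy]

theorem rz0_congr {A B A' B' : Cx R} (f : Cx.Hom A B) (f' : Cx.Hom A' B') (u : Cx.Hom A A')
    (v : Cx.Hom B B') (hu : ∀ n, Function.Bijective (u.app n))
    (hv : ∀ n, Function.Bijective (v.app n))
    (h : ∀ n x, f'.app n (u.app n x) = v.app n (f.app n x)) (n : ℕ) : RZ0 f n ↔ RZ0 f' n := by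
  have hcyc : ∀ n (x : A.C n), A.Cyc n x ↔ A'.Cyc n (u.app n x) := by
    intro n x
    refine ⟨fun hx => u.cyc hx, fun hx => ?_⟩
    cases n with
    | zero => trivial
    | succ n =>
      apply (hu n).1
      rw [u.comm, map_zero]
      exact hx
  cases n with
  | zero =>
    rw [rz0_zero, rz0_zero]
    constructor
    · intro H b
      obtain ⟨b, rfl⟩ := (hv 0).2 b
      obtain ⟨b', a, rfl⟩ := H b
      exact ⟨v.app 1 b', u.app 0 a, by rw [← v.comm, h, map_add]⟩
    · intro H b
      obtain ⟨b', a, hb⟩ := H (v.app 0 b)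
      obtain ⟨b', rfl⟩ := (hv 1).2 b'
      obtain ⟨a, rfl⟩ := (hu 0).2 a
      refine ⟨b', a, (hv 0).1 ?_⟩
      rw [map_add, v.comm, ← h, hb]
  | succ n =>
    rw [rz0_succ, rz0_succ]
    constructor
    · intro H b a ha hb
      obtain ⟨b, rfl⟩ := (hv _).2 b
      obtain ⟨a, rfl⟩ := (hu _).2 a
      obtain ⟨b', a', h1, h2⟩ := H b a ((hcyc n a).2 ha) (by
        apply (hv n).1
        rw [map_add, v.comm, ← h, hb, map_zero])
      refine ⟨v.app _ b', u.app _ a', ?_, ?_⟩
      · rw [← v.comm, h, ← map_add, h1]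
      · rw [← u.comm, ← map_neg, h2]
    · intro H b a ha hb
      obtain ⟨b', a', h1, h2⟩ := H (v.app _ b) (u.app _ a) (u.cyc ha) (by
        rw [← v.comm, h, ← map_add, hb, map_zero])
      obtain ⟨b', rfl⟩ := (hv _).2 b'
      obtain ⟨a', rfl⟩ := (hu _).2 a'
      refine ⟨b', a', (hv _).1 ?_, (hu _).1 ?_⟩
      · rw [map_add, v.comm, ← h, h1]
      · rw [map_neg, u.comm, h2]

/-! ### one more degree for free -/

namespace SSMod

/-- if `H_t(V_k) = 0` for `t < r` and `H_t(V_0) = 0` for `t ≤ r`, then `H_t(diag V) = 0` for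
`t ≤ r` -/
theorem diag_hz_le (r : ℕ) : ∀ V : SSMod R, (∀ k, ∀ t < r, (V.obj k).cx.HZ t) →
    (∀ t ≤ r, (V.obj 0).cx.HZ t) → ∀ t ≤ r, V.diag.cx.HZ t := by
  induction r with
  | zero =>
    intro V _ h0 t ht
    obtain rfl : t = 0 := by omega
    exact V.diag_hz_zero (h0 0 le_rfl)
  | succ r ih =>
    intro V hV h0 t ht
    have hz : ∀ k, (V.obj k).cx.HZ 0 := fun k => hV k 0 (by omega)
    refine (V.ses_diag hz).hz_right t (V.path_diag_hz t) ?_
    rintro m rfl
    exact ih V.Loop (fun k t ht => (V.obj k).loop_hz (hz k) t (hV k _ (by omega)))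
      (fun t ht => (V.obj 0).loop_hz (hz 0) t (h0 _ (by omega))) m (by omega)

theorem rz0_diag_le {V W : SSMod R} (F : Hom V W) (r : ℕ)
    (h : ∀ k, ∀ t < r, RZ0 (F.app k).cx t) (h0 : ∀ t ≤ r, RZ0 (F.app 0).cx t) (t : ℕ)
    (ht : t ≤ r) : RZ0 F.diag.cx t :=
  (MCone.diag_hz_iff F t).1 (diag_hz_le r (MCone F)
    (fun k t ht => (SMod.MCone.hz_iff (F.app k) t).2 (h k t ht))
    (fun t ht => (SMod.MCone.hz_iff (F.app 0) t).2 (h0 t ht)) t ht)

end SSMod

/-! ### the bisimplicial module of `B G` -/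

namespace Gam

theorem freeMap_id_of {X : SS} (f : SS.Map X X) {p : ℕ} (h : ∀ x : X.obj p, f.app x = x)
    (c : (free R X).obj p) : (freeMap R f).app p c = c := by
  have h' : (f.app : X.obj p → X.obj p) = _root_.id := funext h
  have key : ∀ c : X.obj p →₀ R, Finsupp.mapDomain f.app c = c := fun c => by
    rw [h', Finsupp.mapDomain_id]
  exact key c

theorem freeMap_comp_of {X Y Z : SS} (f : SS.Map X Y) (g : SS.Map Y Z) (k : SS.Map X Z) {p : ℕ}
    (h : ∀ x : X.obj p, k.app x = g.app (f.app x)) (c : (free R X).obj p) :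
    (freeMap R k).app p c = (freeMap R g).app p ((freeMap R f).app p c) := by
  have h' : (k.app : X.obj p → Z.obj p) = g.app ∘ f.app := funext h
  have key : ∀ c : X.obj p →₀ R, Finsupp.mapDomain k.app c =
      Finsupp.mapDomain g.app (Finsupp.mapDomain f.app c) := fun c => by
    rw [h', Finsupp.mapDomain_comp]
  exact key c

/-- the simplicial simplicial module `k ↦ R[G (S¹_k ∧ K₊)]` -/
noncomputable def ssm (R : Type) [CommRing R] (G : Gam) (K : Type) [Finite K] : SSMod R where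
  obj k := free R (G.obj (Fin k × K))
  map θ := freeMap R (G.map (circK K θ))
  map_id x := freeMap_id_of _ (fun x => by rw [circK_id, G.map_some]) x
  map_comp f g x := freeMap_comp_of _ _ _ (fun x => by rw [circK_comp, G.map_bind]) x

/-- functoriality of `ssm` -/
noncomputable def Hom.ssm (R : Type) [CommRing R] {G H : Gam} (a : Hom G H) (K : Type)
    [Finite K] : SSMod.Hom (Gam.ssm R G K) (Gam.ssm R H K) where
  app k := freeMap R (a.app (Fin k × K))
  nat {k l m} θ c := by
    show (freeMap R (a.app (Fin k × K))).app m ((freeMap R (G.map (circK K θ))).app m c) =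
      (freeMap R (H.map (circK K θ))).app m ((freeMap R (a.app (Fin l × K))).app m c)
    have e1 := freeMap_comp_of (R := R) (p := m) (G.map (circK K θ)) (a.app (Fin k × K))
      ((a.app (Fin k × K)).comp (G.map (circK K θ))) (fun x => rfl) c
    have e2 := freeMap_comp_of (R := R) (p := m) (a.app (Fin l × K)) (H.map (circK K θ))
      ((a.app (Fin k × K)).comp (G.map (circK K θ))) (fun x => a.nat _ x) c
    exact e1.symm.trans e2

theorem ssm_map (G : Gam) (K : Type) [Finite K] {p q : ℕ} (θ : Op p q)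
    (c : (free R (G.B.obj K)).obj q) :
    (free R (G.B.obj K)).map θ c = (Gam.ssm R G K).diag.map θ c := by
  have key : ∀ c : (G.obj (Fin q × K)).obj q →₀ R,
      Finsupp.mapDomain (fun x => (G.map (circK K θ)).app ((G.obj (Fin q × K)).map θ x)) c =
        Finsupp.mapDomain (G.map (circK K θ)).app
          (Finsupp.mapDomain ((G.obj (Fin q × K)).map θ) c) := fun c => by
    rw [← Finsupp.mapDomain_comp]
    rfl
  exact key c

theorem ssm_d (G : Gam) (K : Type) [Finite K] (p : ℕ) (c : (free R (G.B.obj K)).obj (p + 1)) :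
    (free R (G.B.obj K)).d p c = (Gam.ssm R G K).diag.d p c := by
  refine (SMod.d_apply _ p c).trans (Eq.trans ?_ (SMod.d_apply (Gam.ssm R G K).diag p c).symm)
  exact Finset.sum_congr rfl fun i _ => congrArg (sn i) (ssm_map G K (dl p i) c)

/-- `R[B G (K₊)]` is the diagonal of `ssm` -/
noncomputable def ssmId (R : Type) [CommRing R] (G : Gam) (K : Type) [Finite K] :
    Cx.Hom (free R (G.B.obj K)).cx (Gam.ssm R G K).diag.cx where
  app _ := LinearMap.id
  comm n x := ssm_d G K n x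

theorem hz_B_iff (G : Gam) (K : Type) [Finite K] (n : ℕ) :
    (free R (G.B.obj K)).cx.HZ n ↔ (Gam.ssm R G K).diag.cx.HZ n :=
  hz_congr (ssmId R G K) (fun _ => Function.bijective_id) n

theorem Hom.rz0_B_iff {G H : Gam} (a : Hom G H) (K : Type) [Finite K] (n : ℕ) :
    RZ0 (freeMap R (a.B.app K)).cx n ↔ RZ0 (a.ssm R K).diag.cx n :=
  rz0_congr _ _ (ssmId R G K) (ssmId R H K) (fun _ => Function.bijective_id)
    (fun _ => Function.bijective_id) (fun _ _ => rfl) n

/-- relative homology zero below `r` is inherited by `B` -/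
theorem Hom.rz0_B {G H : Gam} (a : Hom G H) (r : ℕ)
    (h : ∀ (K : Type) [Finite K], ∀ t < r, RZ0 (freeMap R (a.app K)).cx t) (K : Type) [Finite K]
    (t : ℕ) (ht : t < r) : RZ0 (freeMap R (a.B.app K)).cx t :=
  (a.rz0_B_iff K t).2 (SSMod.rz0_diag (a.ssm R K) r (fun k t ht => h (Fin k × K) t ht) t ht)

/-- a map between points has no relative homology -/
theorem rz0_of_subsingleton {X Y : SS} (f : SS.Map X Y) (hX : ∀ p, Subsingleton (X.obj p))
    (hX' : ∀ p, Nonempty (X.obj p)) (hY : ∀ p, Subsingleton (Y.obj p)) (n : ℕ) :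
    RZ0 (freeMap R f).cx n := by
  have hb : ∀ p, Function.Bijective (f.app (p := p)) := fun p =>
    ⟨fun x y _ => (hX p).elim x y, fun y => ⟨(hX' p).some, (hY p).elim _ _⟩⟩
  have hb' : ∀ p, Function.Bijective ((freeMap R f).cx.app p) := fun p =>
    ⟨Finsupp.mapDomain_injective (hb p).1, fun y => by
      obtain ⟨g, hg⟩ := (hb p).2.hasRightInverse
      have key : ∀ y : Y.obj p →₀ R, Finsupp.mapDomain f.app (Finsupp.mapDomain g y) = y := by
        intro y
        rw [← Finsupp.mapDomain_comp]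
        have : f.app ∘ g = _root_.id := funext hg
        rw [this, Finsupp.mapDomain_id]
      exact ⟨Finsupp.mapDomain g y, key y⟩⟩
  cases n with
  | zero =>
    rw [rz0_zero]
    intro b
    obtain ⟨a, rfl⟩ := (hb' 0).2 b
    exact ⟨0, a, by rw [map_zero, zero_add]⟩
  | succ n =>
    rw [rz0_succ]
    intro b a ha hab
    obtain ⟨b', rfl⟩ := (hb' (n + 1)).2 b
    refine ⟨0, b', by rw [map_zero, zero_add], ?_⟩
    apply (hb' n).1
    rw [map_neg, (freeMap R f).cx.comm]
    exact neg_eq_of_add_eq_zero_right hab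

/-- for functors with value a point at the empty set, one more degree -/
theorem Hom.rz0_B_succ {G H : Gam} (hG : G.Pt) (hH : H.Pt) (a : Hom G H) (r : ℕ)
    (h : ∀ (K : Type) [Finite K], ∀ t < r, RZ0 (freeMap R (a.app K)).cx t) (K : Type) [Finite K]
    (t : ℕ) (ht : t < r + 1) : RZ0 (freeMap R (a.B.app K)).cx t :=
  (a.rz0_B_iff K t).2 (SSMod.rz0_diag_le (a.ssm R K) r (fun k t ht => h (Fin k × K) t ht)
    (fun t _ => rz0_of_subsingleton (a.app (Fin 0 × K)) (fun p => hG.sub (Fin 0 × K) p)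
      (fun p => hG.ne (Fin 0 × K) p) (fun p => hH.sub (Fin 0 × K) p) t) t (by omega))

/-- iterated -/
theorem Hom.rz0_BN {G H : Gam} (hG : G.Pt) (hH : H.Pt) (a : Hom G H) (r : ℕ)
    (h : ∀ (K : Type) [Finite K], ∀ t < r, RZ0 (freeMap R (a.app K)).cx t) :
    ∀ (N : ℕ) (K : Type) [Finite K], ∀ t < r + N, RZ0 (freeMap R ((a.BN N).app K)).cx t
  | 0 => h
  | N + 1 => fun K _ t ht => Hom.rz0_B_succ (hG.BN N) (hH.BN N) (a.BN N) (r + N)
      (Hom.rz0_BN hG hH a r h N) K t (by omega)

end Gam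

end Vale.Agent.P263.GB
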