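import Vale.Agent.P263.GB.Gam
import Vale.Agent.P263.GB.Low

/-!
# P263, block G2: the functor of finite pointed sets `Id K = K₊` and its maps

* `Gam.Id` : `K ↦ K₊` (discrete); `(Gam.Id.BN N).obj Unit` is the simplicial sphere `S^N`.
* `Gam.unit G e : Gam.Hom Gam.Id G` for a vertex `e` of `G (1₊)` : the label `x` goes to `e` with
  label `x`; `(Gam.unit G e).BN N` at `Unit` is the map `S^N → B^N G (1₊)`.
-/

namespace Vale.Agent.P263.GB

open Vale.Agent.P263.S Vale.Agent.P263.E

namespace Gam

/-- the discrete functor `K ↦ K₊` -/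
def Id : Gam where
  obj K _ := {
    obj := fun _ => Option K
    map := fun _ x => x
    map_id := fun _ => rfl
    map_comp := fun _ _ _ => rfl }
  map f := {
    app := fun x => x.bind f
    nat := fun _ _ => rfl }
  map_some x := by cases x <;> rfl
  map_bind f g _ x := by cases x <;> rfl

/-- the `p`-simplices of `K₊` -/
def Id.mk {K : Type} [Finite K] (p : ℕ) (x : Option K) : (Id.obj K).obj p := x

@[simp] theorem Id_map {K : Type} [Finite K] {p q : ℕ} (f : Op p q) (x : (Id.obj K).obj q) :
    (Id.obj K).map f x = x := rfl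

@[simp] theorem Id_map_app {K L : Type} [Finite K] [Finite L] (f : K → Option L) {p : ℕ}
    (x : Option K) : (Id.map f).app (Id.mk p x) = Id.mk p (x.bind f) := rfl

/-- `Id` at the empty set is a point -/
theorem Id_pt : Id.Pt where
  sub K _ hK p := ⟨fun x y => by
    cases x with
    | none => cases y with
      | none => rfl
      | some k => exact hK.elim k
    | some k => exact hK.elim k⟩
  ne _ _ _ _ := ⟨none⟩

/-- the map `K₊ → G (K₊)` which puts the label `x` on the vertex `e` of `G (1₊)` -/
def unit (G : Gam) (e : (G.obj Unit).obj 0) : Hom Id G where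
  app K _ := {
    app := fun {p} x => (G.map (fun _ : Unit => x)).app (dg (G.obj Unit) p e)
    nat := fun {p q} f x => by
      show (G.map (fun _ : Unit => x)).app (dg (G.obj Unit) p e) =
        (G.obj K).map f ((G.map (fun _ : Unit => x)).app (dg (G.obj Unit) q e))
      rw [← SS.Map.nat, map_dg] }
  nat f p x := G.map_bind (fun _ : Unit => x) f (dg (G.obj Unit) p e)

theorem unit_app (G : Gam) (e : (G.obj Unit).obj 0) (K : Type) [Finite K] {p : ℕ}
    (x : Option K) : ((G.unit e).app K).app (Id.mk p x) =
      (G.map (fun _ : Unit => x)).app (dg (G.obj Unit) p e) := rfl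

/-- natural transformations are compatible with `unit` -/
theorem comp_unit {G H : Gam} (a : Hom G H) (e : (G.obj Unit).obj 0) (K : Type) [Finite K]
    {p : ℕ} (x : Option K) : (a.app K).app (((G.unit e).app K).app (Id.mk p x)) =
      ((H.unit ((a.app Unit).app e)).app K).app (Id.mk p x) := by
  rw [unit_app, unit_app, a.nat]
  congr 1
  exact (a.app Unit).nat _ _

end Gam

end Vale.Agent.P263.GB
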