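import Vale.Agent.P263.GB.Cone

/-!
# P263, block GB: the wedge against the product, twice the lowest degree

For pointed simplicial sets `X`, `Y` with `H̃_t(X) = 0` for `t < a` and `H̃_t(Y) = 0` for `t < b`
the wedge `X ∨ Y → X × Y` has vanishing relative homology in degrees `< a + b` (field
coefficients).  Form used in G2: `Wdg.Wd.rz0` : if `f : A → X`, `g : B → Y` are pointed, with
relative homology zero in degrees `< m ≤ a + b`, and `W` is the wedge of `A` and `B`, then
`W → X × Y` has vanishing relative homology in degrees `< m`.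
-/

open scoped TensorProduct

namespace Vale.Agent.P263.GB

open Vale.Agent.P263.S Vale.Agent.P263.E

namespace Wdg

variable {R : Type} [CommRing R]

/-! ### linear maps out of free modules -/

theorem free_ext {X : SS} {p : ℕ} {N : Type*} [AddCommGroup N] [Module R N]
    (f g : (free R X).obj p →ₗ[R] N) (h : ∀ x, f (fs R X x) = g (fs R X x))
    (c : (free R X).obj p) : f c = g c := by
  have : (f : (X.obj p →₀ R) →ₗ[R] N) = g := Finsupp.lhom_ext' fun x => LinearMap.ext_ring (h x)
  exact LinearMap.congr_fun this c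

@[simp] theorem freeMap_fs {X Y : SS} (f : SS.Map X Y) {p : ℕ} (x : X.obj p) :
    (freeMap R f).app p (fs R X x) = fs R Y (f.app x) := freeMap_single _ _ _

/-- linear maps out of the chains -/
noncomputable def fLift (X : SS) {p : ℕ} {N : Type*} [AddCommGroup N] [Module R N]
    (f : X.obj p → N) : (free R X).obj p →ₗ[R] N :=
  Finsupp.lsum R fun x => LinearMap.toSpanSingleton R N (f x)

@[simp] theorem fLift_fs (X : SS) {p : ℕ} {N : Type*} [AddCommGroup N] [Module R N]
    (f : X.obj p → N) (x : X.obj p) : fLift X f (fs R X x) = f x := by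
  change (Finsupp.lsum R fun x => LinearMap.toSpanSingleton R N (f x)) (Finsupp.single x 1) = _
  rw [Finsupp.lsum_single, LinearMap.toSpanSingleton_apply, one_smul]

theorem freeMap_comp_apply {X Y Z : SS} (g : SS.Map Y Z) (f : SS.Map X Y) (p : ℕ)
    (c : (free R X).obj p) :
    (freeMap R (g.comp f)).app p c = (freeMap R g).app p ((freeMap R f).app p c) :=
  free_ext ((freeMap R (g.comp f)).app p) (((freeMap R g).app p).comp ((freeMap R f).app p))
    (fun x => by
      rw [LinearMap.comp_apply, freeMap_fs, freeMap_fs, freeMap_fs]; rfl) c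

/-! ### split sequences, relative homology in sequences -/

theorem ses_split {A B C : SMod R} {i : SMod.Hom A B} {r : SMod.Hom B C}
    (j : ∀ p, B.obj p →ₗ[R] A.obj p) (s : ∀ p, C.obj p →ₗ[R] B.obj p)
    (hji : ∀ p x, j p (i.app p x) = x) (hri : ∀ p x, r.app p (i.app p x) = 0)
    (hrs : ∀ p x, r.app p (s p x) = x) (hsr : ∀ p x, s p (r.app p x) = x - i.app p (j p x)) :
    SES i r where
  inj p x y h := by rw [← hji p x, h, hji]
  exact p x hx := ⟨j p x, by
    have := hsr p x
    rw [hx, map_zero] at this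
    exact (sub_eq_zero.1 this.symm).symm⟩
  zero := hri
  surj p x := ⟨s p x, hrs p x⟩

/-- the cone of an injection and its cokernel -/
theorem rz0_inj {A B C : Cx R} {i : Cx.Hom A B} {r : Cx.Hom B C} (h : Cx.SES i r) (n : ℕ) :
    RZ0 i n ↔ C.HZ n := by
  cases n with
  | zero =>
    rw [rz0_zero]
    constructor
    · intro H c _
      obtain ⟨b, rfl⟩ := h.surj 0 c
      obtain ⟨b', a, rfl⟩ := H b
      exact ⟨r.app 1 b', by rw [map_add, h.zero, add_zero, r.comm]⟩
    · intro H b
      obtain ⟨c', hc⟩ := H (r.app 0 b) trivial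
      obtain ⟨b', rfl⟩ := h.surj 1 c'
      obtain ⟨a, ha⟩ := h.exact 0 (b - B.d 0 b') (by rw [map_sub, r.comm, hc, sub_self])
      exact ⟨b', a, by rw [ha]; abel⟩
  | succ n =>
    rw [rz0_succ]
    constructor
    · intro H c hc
      obtain ⟨b, rfl⟩ := h.surj (n + 1) c
      obtain ⟨a, ha⟩ := h.exact n (B.d n b) (by rw [r.comm]; exact hc)
      obtain ⟨b', a', h1, _⟩ := H b (-a) (by
        refine i.cyc_of_inj ?_ h.inj
        rw [map_neg, ha, ← map_neg]
        exact B.cyc_d n (-b)) (by rw [map_neg, ha, add_neg_cancel])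
      exact ⟨r.app (n + 2) b', by rw [← h1, map_add, h.zero, add_zero, r.comm]⟩
    · intro H b a _ hb
      obtain ⟨c', hc⟩ := H (r.app (n + 1) b) (by
        rw [Cx.cyc_succ, ← r.comm, eq_neg_of_add_eq_zero_left hb, map_neg, h.zero, neg_zero])
      obtain ⟨b', rfl⟩ := h.surj (n + 2) c'
      obtain ⟨a', ha⟩ := h.exact (n + 1) (b - B.d (n + 1) b') (by
        rw [map_sub, r.comm, hc, sub_self])
      refine ⟨b', a', by rw [ha]; abel, h.inj n ?_⟩
      rw [map_neg, i.comm, ha, map_sub, B.dd, sub_zero, eq_neg_of_add_eq_zero_left hb, neg_neg]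

section seq

variable {A B C A' B' C' : Cx R} {i : Cx.Hom A B} {r : Cx.Hom B C} {i' : Cx.Hom A' B'}
  {r' : Cx.Hom B' C'} (a : Cx.Hom A A') (b : Cx.Hom B B') (c : Cx.Hom C C')

/-- the exact sequence of the cones of a map of exact sequences -/
theorem cone_ses (h : Cx.SES i r) (h' : Cx.SES i' r')
    (h1 : ∀ n x, i'.app n (a.app n x) = b.app n (i.app n x))
    (h2 : ∀ n x, r'.app n (b.app n x) = c.app n (r.app n x)) :
    Cx.SES (coneMap a b i i' h1) (coneMap b c r r' h2) where
  inj p := by
    cases p with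
    | zero => exact h'.inj 0
    | succ p =>
      rintro ⟨x, y⟩ ⟨x', y'⟩ hx
      have hx' : (i'.app (p + 1) x, i.app p y) = (i'.app (p + 1) x', i.app p y') := hx
      rw [Prod.mk.injEq] at hx'
      exact Prod.ext (h'.inj _ hx'.1) (h.inj _ hx'.2)
  exact p x hx := by
    cases p with
    | zero => exact h'.exact 0 x hx
    | succ p =>
      obtain ⟨x, y⟩ := x
      have hx' : (r'.app (p + 1) x, r.app p y) = (0, 0) := hx
      rw [Prod.mk.injEq] at hx'
      obtain ⟨u, hu⟩ := h'.exact _ _ hx'.1
      obtain ⟨v, hv⟩ := h.exact _ _ hx'.2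
      exact ⟨(u, v), Prod.ext hu hv⟩
  zero p x := by
    cases p with
    | zero => exact h'.zero 0 x
    | succ p => exact Prod.ext (h'.zero _ _) (h.zero _ _)
  surj p := by
    cases p with
    | zero => exact h'.surj 0
    | succ p =>
      rintro ⟨x, y⟩
      obtain ⟨u, hu⟩ := h'.surj _ x
      obtain ⟨v, hv⟩ := h.surj _ y
      exact ⟨(u, v), Prod.ext hu hv⟩

theorem rz0_ses_mid (h : Cx.SES i r) (h' : Cx.SES i' r')
    (h1 : ∀ n x, i'.app n (a.app n x) = b.app n (i.app n x))
    (h2 : ∀ n x, r'.app n (b.app n x) = c.app n (r.app n x)) (n : ℕ) (ha : RZ0 a n)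
    (hc : RZ0 c n) : RZ0 b n :=
  (cone_ses a b c h h' h1 h2).hz_mid n ha hc

end seq

/-- relative homology vanishing passes to retracts -/
theorem rz0_of_retract {A B A' B' : Cx R} (f : Cx.Hom A B) (f' : Cx.Hom A' B') (u : Cx.Hom A A')
    (v : Cx.Hom B B') (u' : Cx.Hom A' A) (v' : Cx.Hom B' B)
    (h : ∀ n x, v.app n (f.app n x) = f'.app n (u.app n x))
    (h' : ∀ n x, v'.app n (f'.app n x) = f.app n (u'.app n x))
    (hu : ∀ n x, u.app n (u'.app n x) = x) (hv : ∀ n x, v.app n (v'.app n x) = x) (n : ℕ)
    (hf : RZ0 f n) : RZ0 f' n := by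
  refine Cx.HZ.of_retract (coneMap f f' u v h) (coneMap f' f u' v' h') (fun x => ?_) hf
  cases n with
  | zero => exact hv 0 x
  | succ n => exact Prod.ext (hv _ _) (hu _ _)

/-! ### reduced chains -/

/-- the reduced chains -/
noncomputable abbrev rd (R : Type) [CommRing R] (X : SS) : SMod R :=
  SMod.Ker (freeMap R (SS.toPt X))

variable {X Y A B W : SS}

/-- the inclusion of the reduced chains -/
noncomputable abbrev ri (R : Type) [CommRing R] (X : SS) : SMod.Hom (rd R X) (free R X) :=
  SMod.kerI (freeMap R (SS.toPt X))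

/-- the base point, in every degree -/
def bp (x : SS.Map SS.pt X) (p : ℕ) : X.obj p := x.app (p := p) ()

theorem map_bp (x : SS.Map SS.pt X) {p q : ℕ} (f : Op p q) : X.map f (bp x q) = bp x p :=
  (x.nat f ()).symm

theorem app_bp (f : SS.Map X Y) (x : SS.Map SS.pt X) (y : SS.Map SS.pt Y)
    (h : f.comp x = y) (p : ℕ) : f.app (bp x p) = bp y p := by rw [← h]; rfl

theorem toPt_sub (x : SS.Map SS.pt X) {p : ℕ} (c : (free R X).obj p) :
    (freeMap R (SS.toPt X)).app p (c - (freeMap R (x.comp (SS.toPt X))).app p c) = 0 := by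
  rw [map_sub, ← freeMap_comp_apply]
  exact sub_self _

/-- the projection onto the reduced chains -/
noncomputable def rp (R : Type) [CommRing R] (x : SS.Map SS.pt X) :
    SMod.Hom (free R X) (rd R X) where
  app p := LinearMap.codRestrict _ (LinearMap.id - (freeMap R (x.comp (SS.toPt X))).app p)
    fun c => toPt_sub x c
  nat {p q} f c := by
    apply Subtype.ext
    change (free R X).map f c - (freeMap R (x.comp (SS.toPt X))).app p ((free R X).map f c) =
      (free R X).map f (c - (freeMap R (x.comp (SS.toPt X))).app q c)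
    rw [map_sub, SMod.Hom.nat]

theorem rp_coe (x : SS.Map SS.pt X) {p : ℕ} (c : (free R X).obj p) :
    (ri R X).app p ((rp R x).app p c) = c - (freeMap R (x.comp (SS.toPt X))).app p c := rfl

theorem rp_fs (x : SS.Map SS.pt X) {p : ℕ} (z : X.obj p) :
    (ri R X).app p ((rp R x).app p (fs R X z)) = fs R X z - fs R X (bp x p) := by
  rw [rp_coe, freeMap_fs]; rfl

theorem rp_bp (x : SS.Map SS.pt X) (p : ℕ) : (rp R x).app p (fs R X (bp x p)) = 0 :=
  Subtype.ext ((rp_fs x (bp x p)).trans (sub_self _))

theorem ri_inj (p : ℕ) : Function.Injective ((ri R X).app p) := Subtype.val_injective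

theorem rp_ri (x : SS.Map SS.pt X) {p : ℕ} (v : (rd R X).obj p) :
    (rp R x).app p ((ri R X).app p v) = v := by
  apply ri_inj
  rw [rp_coe, freeMap_comp_apply]
  have h : (freeMap R (SS.toPt X)).app p ((ri R X).app p v) = 0 := v.2
  rw [h, map_zero, sub_zero]

/-- functoriality of the reduced chains -/
noncomputable def rm (R : Type) [CommRing R] (f : SS.Map X Y) : SMod.Hom (rd R X) (rd R Y) where
  app p := ((freeMap R f).app p).restrict fun c hc => by
    rw [LinearMap.mem_ker] at *
    rw [← freeMap_comp_apply]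
    exact hc
  nat {p q} g c := Subtype.ext ((freeMap R f).nat g ((ri R X).app q c))

theorem ri_rm (f : SS.Map X Y) {p : ℕ} (v : (rd R X).obj p) :
    (ri R Y).app p ((rm R f).app p v) = (freeMap R f).app p ((ri R X).app p v) := rfl

theorem rm_rp (f : SS.Map X Y) (x : SS.Map SS.pt X) (y : SS.Map SS.pt Y) (h : f.comp x = y)
    {p : ℕ} (c : (free R X).obj p) :
    (rm R f).app p ((rp R x).app p c) = (rp R y).app p ((freeMap R f).app p c) := by
  refine free_ext (((rm R f).app p).comp ((rp R x).app p))
    (((rp R y).app p).comp ((freeMap R f).app p)) (fun z => ?_) c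
  apply ri_inj
  rw [LinearMap.comp_apply, LinearMap.comp_apply, ri_rm, rp_fs, freeMap_fs, rp_fs, map_sub,
    freeMap_fs, freeMap_fs, app_bp f x y h]

/-- reduced relative homology -/
theorem rz0_rm (f : SS.Map X Y) (x : SS.Map SS.pt X) (y : SS.Map SS.pt Y) (h : f.comp x = y)
    (n : ℕ) (hf : RZ0 (freeMap R f).cx n) : RZ0 (rm R f).cx n :=
  rz0_of_retract (freeMap R f).cx (rm R f).cx (rp R x).cx (rp R y).cx (ri R X).cx (ri R Y).cx
    (fun _ c => (rm_rp f x y h c).symm) (fun _ _ => rfl) (fun _ v => rp_ri x v)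
    (fun _ v => rp_ri y v) n hf

/-- the base point and the reduced chains -/
theorem ses_pt (x : SS.Map SS.pt X) : SES (freeMap R x) (rp R x) :=
  ses_split (fun p => (freeMap R (SS.toPt X)).app p) (fun p => (ri R X).app p)
    (fun p c => by
      rw [← freeMap_comp_apply]
      exact free_ext _ LinearMap.id (fun z => by rw [freeMap_fs]; rfl) c)
    (fun p c => free_ext (((rp R x).app p).comp ((freeMap R x).app p)) 0
      (fun z => by rw [LinearMap.comp_apply, freeMap_fs]; exact rp_bp x p) c)
    (fun p v => rp_ri x v)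
    (fun p c => by rw [rp_coe, freeMap_comp_apply])

/-- `H̃_n(X) = 0` as the relative homology of the base point -/
theorem rz0_pt (x : SS.Map SS.pt X) (n : ℕ) : RZ0 (freeMap R x).cx n ↔ (rd R X).cx.HZ n :=
  rz0_inj (ses_pt x).cx n

/-! ### the axis in a product -/

/-- `X → X × Y` at the base point of `Y` -/
def ax (X : SS) (y : SS.Map SS.pt Y) : SS.Map X (X.prod Y) :=
  SS.pair (SS.Map.id X) (y.comp (SS.toPt X))

/-- the quotient of the product by the axis -/
noncomputable def axq (R : Type) [CommRing R] (X : SS) (y : SS.Map SS.pt Y) :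
    SMod.Hom (free R (X.prod Y)) (box (rd R Y) X) where
  app p := fLift (X.prod Y) fun z => bx (rd R Y) X z.1 ((rp R y).app p (fs R Y z.2))
  nat {p q} f c := by
    refine free_ext ((fLift (X.prod Y) fun z => bx (rd R Y) X z.1
      ((rp R y).app p (fs R Y z.2))).comp ((free R (X.prod Y)).map f))
      (((box (rd R Y) X).map f).comp (fLift (X.prod Y) fun z => bx (rd R Y) X z.1
      ((rp R y).app q (fs R Y z.2)))) (fun z => ?_) c
    rw [LinearMap.comp_apply, LinearMap.comp_apply, free_map_fs, fLift_fs, fLift_fs, box_map_bx,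
      ← SMod.Hom.nat, free_map_fs]
    rfl

theorem axq_fs (y : SS.Map SS.pt Y) {p : ℕ} (z : (X.prod Y).obj p) :
    (axq R X y).app p (fs R _ z) = bx (rd R Y) X z.1 ((rp R y).app p (fs R Y z.2)) :=
  fLift_fs _ _ _

/-- the section of `axq` -/
noncomputable def axs (R : Type) [CommRing R] (X Y : SS) (p : ℕ) :
    (box (rd R Y) X).obj p →ₗ[R] (free R (X.prod Y)).obj p :=
  boxLift (rd R Y) X fun x => (fLift Y fun y => fs R (X.prod Y) (x, y)).comp ((ri R Y).app p)

theorem axs_bx {p : ℕ} (x : X.obj p) (v : (rd R Y).obj p) :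
    axs R X Y p (bx (rd R Y) X x v) =
      (fLift Y fun y => fs R (X.prod Y) (x, y)) ((ri R Y).app p v) := boxLift_bx _ _ _ _ _

theorem ses_ax (y : SS.Map SS.pt Y) : SES (freeMap R (ax X y)) (axq R X y) :=
  ses_split (fun p => (freeMap R (SS.fst X Y)).app p) (fun p => axs R X Y p)
    (fun p c => by
      rw [← freeMap_comp_apply]
      exact free_ext _ LinearMap.id (fun z => by rw [freeMap_fs]; rfl) c)
    (fun p c => free_ext (((axq R X y).app p).comp ((freeMap R (ax X y)).app p)) 0
      (fun z => by
        rw [LinearMap.comp_apply, freeMap_fs, axq_fs]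
        exact (congrArg (bx (rd R Y) X z) (rp_bp y p)).trans (map_zero _)) c)
    (fun p w => box_hom_ext (f := ((axq R X y).app p).comp (axs R X Y p)) (g := LinearMap.id)
      (fun x v => by
        rw [LinearMap.comp_apply, axs_bx]
        have key : ∀ c : (free R Y).obj p, (axq R X y).app p
            ((fLift Y fun y => fs R (X.prod Y) (x, y)) c) =
            bx (rd R Y) X x ((rp R y).app p c) := fun c =>
          free_ext (((axq R X y).app p).comp (fLift Y fun y => fs R (X.prod Y) (x, y)))
            ((bx (rd R Y) X x).comp ((rp R y).app p)) (fun z => by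
              rw [LinearMap.comp_apply, LinearMap.comp_apply, fLift_fs]
              exact axq_fs y _) c
        rw [key, rp_ri]; rfl) w)
    (fun p c => free_ext ((axs R X Y p).comp ((axq R X y).app p))
      (LinearMap.id - ((freeMap R (ax X y)).app p).comp ((freeMap R (SS.fst X Y)).app p))
      (fun z => by
        rw [LinearMap.comp_apply, axq_fs, axs_bx, rp_fs, map_sub, fLift_fs, fLift_fs,
          LinearMap.sub_apply, LinearMap.comp_apply, freeMap_fs, freeMap_fs]
        rfl) c)

/-! ### the axis in the box product -/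

/-- the product of two simplices, in the levelwise tensor product -/
noncomputable def tm (V U : SMod R) (p : ℕ) : V.obj p →ₗ[R] U.obj p →ₗ[R] (V.tens U).obj p :=
  TensorProduct.mk R (V.obj p) (U.obj p)

theorem tens_map_tm (V U : SMod R) {p q : ℕ} (f : Op p q) (v : V.obj q) (u : U.obj q) :
    (V.tens U).map f (tm V U q v u) = tm V U p (V.map f v) (U.map f u) :=
  TensorProduct.map_tmul _ _ _ _

theorem tens_hom_ext {V U : SMod R} {p : ℕ} {N : Type*} [AddCommGroup N] [Module R N]
    {f g : (V.tens U).obj p →ₗ[R] N} (h : ∀ v u, f (tm V U p v u) = g (tm V U p v u))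
    (x : (V.tens U).obj p) : f x = g x :=
  LinearMap.congr_fun (TensorProduct.ext' (g := f) (h := g) h) x

/-- linear maps out of a level of a tensor product -/
noncomputable def tLift (V U : SMod R) (p : ℕ) {N : Type*} [AddCommGroup N] [Module R N]
    (f : V.obj p →ₗ[R] U.obj p →ₗ[R] N) : (V.tens U).obj p →ₗ[R] N := TensorProduct.lift f

theorem tLift_tm (V U : SMod R) (p : ℕ) {N : Type*} [AddCommGroup N] [Module R N]
    (f : V.obj p →ₗ[R] U.obj p →ₗ[R] N) (v : V.obj p) (u : U.obj p) :
    tLift V U p f (tm V U p v u) = f v u := TensorProduct.lift.tmul _ _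

/-- the quotient of the box product by the axis, in one level -/
noncomputable def bxq' (V : SMod R) (x : SS.Map SS.pt X) (p : ℕ) :
    (box V X).obj p →ₗ[R] (V.tens (rd R X)).obj p :=
  boxLift V X fun z => (tm V (rd R X) p).flip ((rp R x).app p (fs R X z))

theorem bxq'_bx (V : SMod R) (x : SS.Map SS.pt X) {p : ℕ} (z : X.obj p) (v : V.obj p) :
    bxq' V x p (bx V X z v) = tm V (rd R X) p v ((rp R x).app p (fs R X z)) :=
  boxLift_bx _ _ _ _ _

/-- the quotient of the box product by the axis -/
noncomputable def bxq (V : SMod R) (x : SS.Map SS.pt X) :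
    SMod.Hom (box V X) (V.tens (rd R X)) where
  app p := bxq' V x p
  nat {p q} f c := box_hom_ext (f := (bxq' V x p).comp ((box V X).map f))
    (g := ((V.tens (rd R X)).map f).comp (bxq' V x q)) (fun z v => by
      rw [LinearMap.comp_apply, LinearMap.comp_apply, box_map_bx, bxq'_bx, bxq'_bx, tens_map_tm,
        ← SMod.Hom.nat, free_map_fs]) c

theorem bxq_bx (V : SMod R) (x : SS.Map SS.pt X) {p : ℕ} (z : X.obj p) (v : V.obj p) :
    (bxq V x).app p (bx V X z v) = tm V (rd R X) p v ((rp R x).app p (fs R X z)) :=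
  bxq'_bx _ _ _ _

/-- the chains as operators into the box product -/
noncomputable def cbb (V : SMod R) (X : SS) (p : ℕ) :
    (free R X).obj p →ₗ[R] V.obj p →ₗ[R] (box V X).obj p := fLift X fun z => bx V X z

theorem cbb_fs (V : SMod R) (X : SS) (p : ℕ) (z : X.obj p) :
    cbb V X p (fs R X z) = bx V X z := fLift_fs _ _ _

/-- the section of `bxq` -/
noncomputable def bxs (V : SMod R) (X : SS) (p : ℕ) :
    (V.tens (rd R X)).obj p →ₗ[R] (box V X).obj p :=
  tLift V (rd R X) p (LinearMap.flip ((cbb V X p).comp ((ri R X).app p)))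

theorem bxs_tm (V : SMod R) {p : ℕ} (v : V.obj p) (y : (rd R X).obj p) :
    bxs V X p (tm V (rd R X) p v y) = cbb V X p ((ri R X).app p y) v := tLift_tm _ _ _ _ _ _

/-- the sum of the coefficients -/
noncomputable def bxj (V : SMod R) (X : SS) (p : ℕ) : (box V X).obj p →ₗ[R] V.obj p :=
  boxLift V X fun _ => LinearMap.id

theorem dg_bp (x : SS.Map SS.pt X) (p : ℕ) : dg X p (bp x 0) = bp x p := map_bp x _

theorem ses_at (V : SMod R) (x : SS.Map SS.pt X) : SES (at0 V (bp x 0)) (bxq V x) :=
  ses_split (fun p => bxj V X p) (fun p => bxs V X p)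
    (fun p v => by
      rw [at0_app, bxj, boxLift_bx]; rfl)
    (fun p v => by
      rw [at0_app, bxq_bx, dg_bp, rp_bp, map_zero])
    (fun p w => tens_hom_ext (f := ((bxq V x).app p).comp (bxs V X p)) (g := LinearMap.id)
      (fun v y => by
        rw [LinearMap.comp_apply, bxs_tm, LinearMap.id_apply]
        have key2 : ∀ c : (free R X).obj p, (bxq V x).app p (cbb V X p c v) =
            tm V (rd R X) p v ((rp R x).app p c) := fun c =>
          free_ext (((bxq V x).app p).comp ((cbb V X p).flip v))
            ((tm V (rd R X) p v).comp ((rp R x).app p)) (fun z => by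
              rw [LinearMap.comp_apply, LinearMap.flip_apply, cbb_fs, bxq_bx]; rfl) c
        rw [key2, rp_ri]) w)
    (fun p c => box_hom_ext (f := (bxs V X p).comp ((bxq V x).app p))
      (g := LinearMap.id - ((at0 V (bp x 0)).app p).comp (bxj V X p)) (fun z v => by
        rw [LinearMap.comp_apply, bxq_bx, bxs_tm, rp_fs, map_sub, cbb_fs, cbb_fs,
          LinearMap.sub_apply, LinearMap.sub_apply, LinearMap.comp_apply, bxj, boxLift_bx,
          LinearMap.id_apply, LinearMap.id_apply, at0_app, dg_bp]) c)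

/-! ### wedges -/

/-- `W` is the wedge of the pointed simplicial sets `A` and `B` -/
structure Wd (A B W : SS) (a : SS.Map SS.pt A) (b : SS.Map SS.pt B) where
  /-- the first inclusion -/
  jA : SS.Map A W
  /-- the second inclusion -/
  jB : SS.Map B W
  /-- the first retraction -/
  rA : SS.Map W A
  /-- the second retraction -/
  rB : SS.Map W B
  rA_jA : rA.comp jA = SS.Map.id A
  rB_jB : rB.comp jB = SS.Map.id B
  rA_jB : rA.comp jB = a.comp (SS.toPt B)
  rB_jA : rB.comp jA = b.comp (SS.toPt A)
  base : jA.comp a = jB.comp b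
  cover : ∀ (p : ℕ) (w : W.obj p), jA.app (rA.app w) = w ∨ jB.app (rB.app w) = w

namespace Wd

variable {A B W X Y : SS} {a : SS.Map SS.pt A} {b : SS.Map SS.pt B} (D : Wd A B W a b)

theorem ses : SES (freeMap R D.jA) ((rp R b).comp (freeMap R D.rB)) :=
  ses_split (fun p => (freeMap R D.rA).app p)
    (fun p => ((freeMap R D.jB).app p).comp ((ri R B).app p))
    (fun p c => by
      rw [← freeMap_comp_apply, D.rA_jA]
      exact free_ext _ LinearMap.id (fun z => by rw [freeMap_fs]; rfl) c)
    (fun p c => free_ext ((((rp R b).comp (freeMap R D.rB)).app p).comp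
        ((freeMap R D.jA).app p)) 0 (fun z => by
      have h : D.rB.app (D.jA.app z) = bp b p := by
        change (D.rB.comp D.jA).app z = _
        rw [D.rB_jA]; rfl
      change (rp R b).app p ((freeMap R D.rB).app p ((freeMap R D.jA).app p (fs R A z))) = 0
      rw [freeMap_fs, freeMap_fs, h, rp_bp]) c)
    (fun p v => by
      change (rp R b).app p ((freeMap R D.rB).app p ((freeMap R D.jB).app p
        ((ri R B).app p v))) = v
      rw [← freeMap_comp_apply, D.rB_jB]
      have : (freeMap R (SS.Map.id B)).app p ((ri R B).app p v) = (ri R B).app p v :=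
        free_ext _ LinearMap.id (fun z => by rw [freeMap_fs]; rfl) _
      rw [this, rp_ri])
    (fun p c => free_ext (((freeMap R D.jB).app p).comp (((ri R B).app p).comp
        (((rp R b).comp (freeMap R D.rB)).app p)))
      (LinearMap.id - ((freeMap R D.jA).app p).comp ((freeMap R D.rA).app p)) (fun w => by
        change (freeMap R D.jB).app p ((ri R B).app p ((rp R b).app p
          ((freeMap R D.rB).app p (fs R W w)))) = fs R W w - (freeMap R D.jA).app p
            ((freeMap R D.rA).app p (fs R W w))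
        rw [freeMap_fs, rp_fs, map_sub, freeMap_fs, freeMap_fs, freeMap_fs, freeMap_fs]
        have hb : D.jA.app (bp a p) = D.jB.app (bp b p) := by
          change (D.jA.comp a).app (p := p) () = (D.jB.comp b).app (p := p) ()
          rw [D.base]
        rcases D.cover p w with h | h
        · have h2 : D.rB.app w = bp b p := by
            rw [← h]
            change (D.rB.comp D.jA).app _ = _
            rw [D.rB_jA]; rfl
          rw [h2, h, sub_self, sub_self]
        · have h2 : D.rA.app w = bp a p := by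
            rw [← h]
            change (D.rA.comp D.jB).app _ = _
            rw [D.rA_jB]; rfl
          rw [h2, h, hb]) c)

/-- **wedge against product**: with field coefficients, if the relative homologies of
`f : A → X` and `g : B → Y` vanish in degrees `< m`, `H̃_t(X) = 0` for `t < u`,
`H̃_t(Y) = 0` for `t < v` and `m ≤ u + v`, then the relative homology of `A ∨ B → X × Y`
vanishes in degrees `< m`. -/
theorem rz0 {k : Type} [Field k] (f : SS.Map A X) (g : SS.Map B Y) (x : SS.Map SS.pt X)
    (y : SS.Map SS.pt Y) (hfx : f.comp a = x) (hgy : g.comp b = y) (m u v : ℕ)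
    (hf : ∀ t < m, RZ0 (freeMap k f).cx t) (hg : ∀ t < m, RZ0 (freeMap k g).cx t)
    (hX : ∀ t < u, (rd k X).cx.HZ t) (hY : ∀ t < v, (rd k Y).cx.HZ t) (hm : m ≤ u + v) :
    ∀ t < m, RZ0 (freeMap k (SS.pair (f.comp D.rA) (g.comp D.rB))).cx t := by
  intro t ht
  refine rz0_ses_mid (i := (freeMap k D.jA).cx) (r := ((rp k b).comp (freeMap k D.rB)).cx)
    (i' := (freeMap k (ax X y)).cx) (r' := (axq k X y).cx) (freeMap k f).cx _
    (((at0 (rd k Y) (bp x 0)).cx.comp (rm k g).cx)) D.ses.cx (ses_ax y).cx ?_ ?_ t (hf t ht) ?_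
  · intro p (c : (free k A).obj p)
    change (freeMap k (ax X y)).app p ((freeMap k f).app p c) =
      (freeMap k (SS.pair (f.comp D.rA) (g.comp D.rB))).app p ((freeMap k D.jA).app p c)
    have e : (ax X y).comp f = (SS.pair (f.comp D.rA) (g.comp D.rB)).comp D.jA := by
      apply SS.Map.ext
      intro q z
      change (f.app z, bp y q) =
        (f.app ((D.rA.comp D.jA).app z), g.app ((D.rB.comp D.jA).app z))
      rw [D.rA_jA, D.rB_jA]
      exact Prod.ext rfl (app_bp g b y hgy q).symm
    rw [← freeMap_comp_apply, ← freeMap_comp_apply, e]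
  · intro p (c : (free k W).obj p)
    refine free_ext (((axq k X y).app p).comp
      ((freeMap k (SS.pair (f.comp D.rA) (g.comp D.rB))).app p))
      (((at0 (rd k Y) (bp x 0)).app p).comp (((rm k g).app p).comp
        (((rp k b).comp (freeMap k D.rB)).app p))) (fun w => ?_) c
    change (axq k X y).app p ((freeMap k (SS.pair (f.comp D.rA) (g.comp D.rB))).app p
      (fs k W w)) = (at0 (rd k Y) (bp x 0)).app p ((rm k g).app p ((rp k b).app p
        ((freeMap k D.rB).app p (fs k W w))))
    rw [freeMap_fs, freeMap_fs, rm_rp g b y hgy, freeMap_fs, axq_fs, at0_app, dg_bp]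
    change bx (rd k Y) X (f.app (D.rA.app w)) ((rp k y).app p (fs k Y (g.app (D.rB.app w)))) = _
    rcases D.cover p w with h | h
    · have h2 : D.rB.app w = bp b p := by
        rw [← h]
        change (D.rB.comp D.jA).app _ = _
        rw [D.rB_jA]; rfl
      rw [h2, app_bp g b y hgy, rp_bp, map_zero, map_zero]
    · have h2 : D.rA.app w = bp a p := by
        rw [← h]
        change (D.rA.comp D.jB).app _ = _
        rw [D.rA_jB]; rfl
      rw [h2, app_bp f a x hfx]
  · refine rz0_comp _ _ t (rz0_rm g b y hgy t (hg t ht)) ?_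
    rw [rz0_inj (ses_at (rd k Y) x).cx]
    exact SMod.hz_tens_field (rd k Y) (rd k X) v u hY hX t (by omega)

end Wd

/-- `H̃_t(X × Y) = 0` -/
theorem hz_prod (x : SS.Map SS.pt X) (y : SS.Map SS.pt Y) (c : ℕ)
    (hX : ∀ t < c, (rd R X).cx.HZ t) (hY : ∀ t < c, (rd R Y).cx.HZ t) :
    ∀ t < c, (rd R (X.prod Y)).cx.HZ t := by
  intro t ht
  rw [← rz0_pt ((ax X y).comp x)]
  have h1 : RZ0 (freeMap R (ax X y)).cx t := by
    rw [rz0_inj (ses_ax y).cx]
    exact hz_box X c (rd R Y) hY t ht
  have h2 := rz0_comp _ _ t ((rz0_pt x t).2 (hX t ht)) h1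
  have e : (freeMap R ((ax X y).comp x)).cx = (freeMap R (ax X y)).cx.comp (freeMap R x).cx := by
    ext p c
    exact freeMap_comp_apply _ _ _ _
  rw [e]
  exact h2

end Wdg

end Vale.Agent.P263.GB
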