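import Vale.Agent.P263.GB.SGam
import Vale.Agent.P263.GB.IdG
import Vale.Agent.P263.GB.WedgeK

/-!
# P263, block G2-7: more on `Gam`

* `Gam.Hom.ext`, `Gam.Hom.rz0_BN_all`, `Gam.sq_BN` (commutative squares under `B^N`),
  `Gam.pair_rz0_BN` (maps into products under `B^N`), `Gam.Hom.Bij.BN`.
* `Gam.Htp` : homotopies natural in the labels, and their `B^N`.
* `Gam.GWd` : wedges in `Gam`, their `B^N`, and the wedge lemma.
* `SGam.Hom.BN`, `SGam.Hom.rz0_diag_BN` : relative homology of `(F.diag).BN N` from the columns.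
-/

namespace Vale.Agent.P263.GB

open Vale.Agent.P263.S Vale.Agent.P263.E

variable {R : Type} [CommRing R]

/-- a levelwise bijective map has no relative homology -/
theorem rz0_of_bij {X Y : SS} (f : SS.Map X Y) (h : ∀ p, Function.Bijective (f.app (p := p)))
    (n : ℕ) : RZ0 (freeMap R f).cx n := by
  have hb' : ∀ p, Function.Bijective ((freeMap R f).cx.app p) := fun p =>
    freeMap_bijective f (h p)
  cases n with
  | zero =>
    rw [rz0_zero]
    intro b
    obtain ⟨a, rfl⟩ := (hb' 0).2 b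
    exact ⟨0, a, by rw [map_zero, zero_add]⟩
  | succ n =>
    rw [rz0_succ]
    intro b a ha hab
    obtain ⟨b', rfl⟩ := (hb' (n + 1)).2 b
    refine ⟨0, b', by rw [map_zero, zero_add], ?_⟩
    apply (hb' n).1
    rw [map_neg, (freeMap R f).cx.comm]
    exact neg_eq_of_add_eq_zero_right hab

/-- relative homology of a composite, in terms of simplicial sets -/
theorem rz0_comp_ss {X Y Z : SS} (f : SS.Map X Y) (g : SS.Map Y Z) (h : SS.Map X Z)
    (e : ∀ (p : ℕ) (x : X.obj p), g.app (f.app x) = h.app x) (n : ℕ)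
    (hf : RZ0 (freeMap R f).cx n) (hg : RZ0 (freeMap R g).cx n) : RZ0 (freeMap R h).cx n := by
  have e' : (freeMap R h).cx = (freeMap R g).cx.comp (freeMap R f).cx := by
    ext p c
    exact Gam.freeMap_comp_of f g h (fun x => (e p x).symm) c
  rw [e']
  exact rz0_comp _ _ n hf hg

/-- two out of three: the first map -/
theorem rz0_left_ss {X Y Z : SS} (f : SS.Map X Y) (g : SS.Map Y Z) (h : SS.Map X Z)
    (e : ∀ (p : ℕ) (x : X.obj p), g.app (f.app x) = h.app x) (n : ℕ)
    (hh : RZ0 (freeMap R h).cx n) (hg : RZ0 (freeMap R g).cx (n + 1)) :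
    RZ0 (freeMap R f).cx n := by
  have e' : (freeMap R h).cx = (freeMap R g).cx.comp (freeMap R f).cx := by
    ext p c
    exact Gam.freeMap_comp_of f g h (fun x => (e p x).symm) c
  rw [e'] at hh
  exact rz0_left _ _ n hh hg

/-- two out of three: the second map -/
theorem rz0_right_ss {X Y Z : SS} (f : SS.Map X Y) (g : SS.Map Y Z) (h : SS.Map X Z)
    (e : ∀ (p : ℕ) (x : X.obj p), g.app (f.app x) = h.app x) (n : ℕ)
    (hh : RZ0 (freeMap R h).cx n) (hf : ∀ m, m + 1 = n → RZ0 (freeMap R f).cx m) :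
    RZ0 (freeMap R g).cx n := by
  have e' : (freeMap R h).cx = (freeMap R g).cx.comp (freeMap R f).cx := by
    ext p c
    exact Gam.freeMap_comp_of f g h (fun x => (e p x).symm) c
  rw [e'] at hh
  exact rz0_right _ _ n hh hf

namespace Gam

@[ext] theorem Hom.ext {G H : Gam} {a b : Hom G H}
    (h : ∀ (K : Type) [Finite K] (p : ℕ) (x : (G.obj K).obj p), (a.app K).app x = (b.app K).app x) :
    a = b := by
  obtain ⟨a, ha⟩ := a
  obtain ⟨b, hb⟩ := b
  congr
  funext K _
  exact SS.Map.ext fun p x => h K p x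

/-- relative homology zero in all degrees is inherited by `B^N` -/
theorem Hom.rz0_BN_all {G H : Gam} (a : Hom G H)
    (h : ∀ (K : Type) [Finite K] (t : ℕ), RZ0 (freeMap R (a.app K)).cx t) :
    ∀ (N : ℕ) (K : Type) [Finite K] (t : ℕ), RZ0 (freeMap R ((a.BN N).app K)).cx t
  | 0 => h
  | N + 1 => fun K _ t => Hom.rz0_B (a.BN N) (t + 1)
      (fun K _ t _ => Hom.rz0_BN_all a h N K t) K t (Nat.lt_succ_self t)

/-- levelwise bijective natural transformations -/
def Hom.Bij {G H : Gam} (a : Hom G H) : Prop :=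
  ∀ (K : Type) [Finite K] (p : ℕ), Function.Bijective ((a.app K).app (p := p))

theorem Hom.Bij.BN {G H : Gam} {a : Hom G H} (h : a.Bij) : ∀ N, (a.BN N).Bij
  | 0 => h
  | N + 1 => fun K _ p => Hom.Bij.BN h N (Fin p × K) p

/-- commutative squares pass to `B^N` -/
theorem sq_BN {G H H' J : Gam} (a : Hom G H) (c : Hom H J) (b : Hom G H') (d : Hom H' J)
    (h : ∀ (K : Type) [Finite K] (p : ℕ) (x : (G.obj K).obj p),
      (c.app K).app ((a.app K).app x) = (d.app K).app ((b.app K).app x)) :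
    ∀ (N : ℕ) (K : Type) [Finite K] (p : ℕ) (x : ((G.BN N).obj K).obj p),
      ((c.BN N).app K).app (((a.BN N).app K).app x) =
        ((d.BN N).app K).app (((b.BN N).app K).app x)
  | 0 => h
  | N + 1 => fun K _ p x => sq_BN a c b d h N (Fin p × K) p x

/-- composites which are the identity pass to `B^N` -/
theorem id_BN {G H : Gam} (a : Hom G H) (c : Hom H G)
    (h : ∀ (K : Type) [Finite K] (p : ℕ) (x : (G.obj K).obj p),
      (c.app K).app ((a.app K).app x) = x) :
    ∀ (N : ℕ) (K : Type) [Finite K] (p : ℕ) (x : ((G.BN N).obj K).obj p),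
      ((c.BN N).app K).app (((a.BN N).app K).app x) = x
  | 0 => h
  | N + 1 => fun K _ p x => id_BN a c h N (Fin p × K) p x

/-! ### products -/

/-- the product -/
def prod (G H : Gam) : Gam where
  obj K := (G.obj K).prod (H.obj K)
  map f := {
    app := fun x => ((G.map f).app x.1, (H.map f).app x.2)
    nat := fun θ x => Prod.ext ((G.map f).nat θ x.1) ((H.map f).nat θ x.2) }
  map_some x := Prod.ext (G.map_some x.1) (H.map_some x.2)
  map_bind f g _ x := Prod.ext (G.map_bind f g x.1) (H.map_bind f g x.2)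

theorem prod_B (G H : Gam) : (G.prod H).B = G.B.prod H.B := rfl

/-- the map into a product -/
def Hom.pair {G H J : Gam} (a : Hom J G) (b : Hom J H) : Hom J (G.prod H) where
  app K := SS.pair (a.app K) (b.app K)
  nat f _ x := Prod.ext (a.nat f x) (b.nat f x)

/-- maps into products under `B^N` -/
theorem pair_rz0_BN {G H J : Gam} (a : Hom J G) (b : Hom J H)
    (h : ∀ (K : Type) [Finite K] (t : ℕ), RZ0 (freeMap R (SS.pair (a.app K) (b.app K))).cx t) :
    ∀ (N : ℕ) (K : Type) [Finite K] (t : ℕ),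
      RZ0 (freeMap R (SS.pair ((a.BN N).app K) ((b.BN N).app K))).cx t
  | 0 => h
  | N + 1 => fun K _ t => Hom.rz0_B (Hom.pair (a.BN N) (b.BN N)) (t + 1)
      (fun K _ t _ => pair_rz0_BN a b h N K t) K t (Nat.lt_succ_self t)

/-! ### homotopies natural in the labels -/

/-- a homotopy, natural in the labels -/
structure Htp (G H : Gam) where
  /-- the homotopies -/
  h : (K : Type) → [Finite K] → SS.Htp (G.obj K) (H.obj K)
  nat : ∀ {K L : Type} [Finite K] [Finite L] (f : K → Option L) {p : ℕ} (θ : Op p 1)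
    (x : (G.obj K).obj p),
    (h L).h p θ ((G.map f).app x) = (H.map f).app ((h K).h p θ x)

/-- homotopies pass to `B` -/
noncomputable def Htp.B {G H : Gam} (k : Htp G H) : Htp G.B H.B where
  h K _ := {
    h := fun p θ x => (k.h (Fin p × K)).h p θ x
    nat := fun {_ q} α θ x => (k.nat (circK K α) (θ.comp α) _).trans
      (congrArg (H.map (circK K α)).app ((k.h (Fin q × K)).nat α θ x)) }
  nat f p θ x := k.nat (sndK (Fin p) f) θ x

/-- iterated -/
noncomputable def Htp.BN {G H : Gam} (k : Htp G H) : (n : ℕ) → Htp (G.BN n) (H.BN n)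
  | 0 => k
  | n + 1 => (Htp.BN k n).B

/-- the ends of a homotopy -/
theorem Htp.BN_end {G H : Gam} (k : Htp G H) (a : Hom G H) (e : ∀ p, Op p 1)
    (h : ∀ (K : Type) [Finite K] {p : ℕ} (x : (G.obj K).obj p),
      (k.h K).h p (e p) x = (a.app K).app x) :
    ∀ (N : ℕ) (K : Type) [Finite K] {p : ℕ} (x : ((G.BN N).obj K).obj p),
      ((k.BN N).h K).h p (e p) x = ((a.BN N).app K).app x
  | 0 => h
  | N + 1 => fun K _ p x => Htp.BN_end k a e h N (Fin p × K) x

theorem Htp.BN_end_id {G : Gam} (k : Htp G G) (e : ∀ p, Op p 1)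
    (h : ∀ (K : Type) [Finite K] {p : ℕ} (x : (G.obj K).obj p), (k.h K).h p (e p) x = x) :
    ∀ (N : ℕ) (K : Type) [Finite K] {p : ℕ} (x : ((G.BN N).obj K).obj p),
      ((k.BN N).h K).h p (e p) x = x
  | 0 => h
  | N + 1 => fun K _ p x => Htp.BN_end_id k e h N (Fin p × K) x

/-! ### base points -/

/-- a base point of `B^N` -/
noncomputable def ptBN {G : Gam} (a : Hom pt G) : (N : ℕ) → Hom pt (G.BN N)
  | 0 => a
  | N + 1 => (ptBN a N).B

theorem ptBN_succ_app {G : Gam} (a : Hom pt G) (N : ℕ) (K : Type) [Finite K] (p : ℕ) :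
    ((ptBN a (N + 1)).app K).app (p := p) () = ((ptBN a N).app (Fin p × K)).app () := rfl

/-- maps preserve base points -/
theorem ptBN_nat {G H : Gam} (a : Hom pt G) (f : Hom G H) (b : Hom pt H)
    (h : ∀ (K : Type) [Finite K] (p : ℕ), (f.app K).app ((a.app K).app (p := p) ()) =
      (b.app K).app ()) :
    ∀ (N : ℕ) (K : Type) [Finite K] (p : ℕ),
      ((f.BN N).app K).app (((ptBN a N).app K).app (p := p) ()) = ((ptBN b N).app K).app ()
  | 0 => h
  | N + 1 => fun K _ p => ptBN_nat a f b h N (Fin p × K) p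

theorem pt_pt : pt.Pt where
  sub _ _ _ _ := ⟨fun _ _ => rfl⟩
  ne _ _ _ _ := ⟨()⟩

/-- `B^N` is `N - 1`-connected, in terms of the base point -/
theorem rz0_ptBN {G : Gam} (hG : G.Pt) (a : Hom pt G) :
    ∀ (N : ℕ) (K : Type) [Finite K], ∀ t < N, RZ0 (freeMap R ((ptBN a N).app K)).cx t
  | 0 => fun _ _ _ h => absurd h (Nat.not_lt_zero _)
  | N + 1 => Hom.rz0_B_succ pt_pt (hG.BN N) (ptBN a N) N (rz0_ptBN hG a N)

/-- a functor which is contracted to the base point -/
theorem rz0_ptBN_of_htp {G : Gam} (a : Hom pt G) (k : Htp G G)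
    (h1 : ∀ (K : Type) [Finite K] {p : ℕ} (x : (G.obj K).obj p), (k.h K).h p (c1 p) x = x)
    (h0 : ∀ (K : Type) [Finite K] {p : ℕ} (x : (G.obj K).obj p),
      (k.h K).h p (c0 p) x = (a.app K).app ()) (N : ℕ) (K : Type) [Finite K] (t : ℕ) :
    RZ0 (freeMap R ((ptBN a N).app K)).cx t := by
  have h0' : ∀ (N : ℕ) (K : Type) [Finite K] {p : ℕ} (x : ((G.BN N).obj K).obj p),
      ((k.BN N).h K).h p (c0 p) x = ((ptBN a N).app K).app () := by
    intro N
    induction N with
    | zero => exact h0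
    | succ N ih => exact fun K _ p x => ih (Fin p × K) x
  refine rz0_of_htp ((ptBN a N).app K) (SS.toPt ((G.BN N).obj K)) ?_ ?_ t
  · exact HtpRel.refl _
  · refine ⟨(k.BN N).h K, Or.inr ⟨?_, ?_⟩⟩
    · exact SS.Map.ext fun p x => h0' N K x
    · exact SS.Map.ext fun p x => Htp.BN_end_id k c1 h1 N K x

/-! ### wedges -/

/-- `W` is the wedge of `A` and `B` -/
structure GWd (A B W : Gam) (a : Hom pt A) (b : Hom pt B) where
  /-- the first inclusion -/
  jA : Hom A W
  /-- the second inclusion -/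
  jB : Hom B W
  /-- the first retraction -/
  rA : Hom W A
  /-- the second retraction -/
  rB : Hom W B
  rA_jA : ∀ (K : Type) [Finite K] (p : ℕ) (x : (A.obj K).obj p),
    (rA.app K).app ((jA.app K).app x) = x
  rB_jB : ∀ (K : Type) [Finite K] (p : ℕ) (x : (B.obj K).obj p),
    (rB.app K).app ((jB.app K).app x) = x
  rA_jB : ∀ (K : Type) [Finite K] (p : ℕ) (x : (B.obj K).obj p),
    (rA.app K).app ((jB.app K).app x) = (a.app K).app ()
  rB_jA : ∀ (K : Type) [Finite K] (p : ℕ) (x : (A.obj K).obj p),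
    (rB.app K).app ((jA.app K).app x) = (b.app K).app ()
  base : ∀ (K : Type) [Finite K] (p : ℕ),
    (jA.app K).app ((a.app K).app (p := p) ()) = (jB.app K).app ((b.app K).app ())
  cover : ∀ (K : Type) [Finite K] (p : ℕ) (w : (W.obj K).obj p),
    (jA.app K).app ((rA.app K).app w) = w ∨ (jB.app K).app ((rB.app K).app w) = w

/-- wedges pass to `B` -/
noncomputable def GWd.B {A B W : Gam} {a : Hom pt A} {b : Hom pt B} (D : GWd A B W a b) :
    GWd A.B B.B W.B a.B b.B where
  jA := D.jA.B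
  jB := D.jB.B
  rA := D.rA.B
  rB := D.rB.B
  rA_jA K _ p x := D.rA_jA (Fin p × K) p x
  rB_jB K _ p x := D.rB_jB (Fin p × K) p x
  rA_jB K _ p x := D.rA_jB (Fin p × K) p x
  rB_jA K _ p x := D.rB_jA (Fin p × K) p x
  base K _ p := D.base (Fin p × K) p
  cover K _ p w := D.cover (Fin p × K) p w

/-- the values are wedges -/
def GWd.wd {A B W : Gam} {a : Hom pt A} {b : Hom pt B} (D : GWd A B W a b) (K : Type)
    [Finite K] : Wdg.Wd (A.obj K) (B.obj K) (W.obj K) (a.app K) (b.app K) where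
  jA := D.jA.app K
  jB := D.jB.app K
  rA := D.rA.app K
  rB := D.rB.app K
  rA_jA := SS.Map.ext fun p x => D.rA_jA K p x
  rB_jB := SS.Map.ext fun p x => D.rB_jB K p x
  rA_jB := SS.Map.ext fun p x => D.rA_jB K p x
  rB_jA := SS.Map.ext fun p x => D.rB_jA K p x
  base := SS.Map.ext fun p _ => D.base K p
  cover p w := D.cover K p w

/-- **Wedges after `B^N`.** -/
theorem GWd.wd_BN {A B W : Gam} {a : Hom pt A} {b : Hom pt B} (D : GWd A B W a b) (N : ℕ)
    (K : Type) [Finite K] : ∃ E : Wdg.Wd ((A.BN N).obj K) ((B.BN N).obj K) ((W.BN N).obj K)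
      ((ptBN a N).app K) ((ptBN b N).app K), E.jA = (D.jA.BN N).app K ∧
      E.jB = (D.jB.BN N).app K ∧ E.rA = (D.rA.BN N).app K ∧ E.rB = (D.rB.BN N).app K := by
  have key : ∀ N : ℕ, ∃ E : GWd (A.BN N) (B.BN N) (W.BN N) (ptBN a N) (ptBN b N),
      E.jA = D.jA.BN N ∧ E.jB = D.jB.BN N ∧ E.rA = D.rA.BN N ∧ E.rB = D.rB.BN N := by
    intro N
    induction N with
    | zero => exact ⟨D, rfl, rfl, rfl, rfl⟩
    | succ N ih =>
      obtain ⟨E, h1, h2, h3, h4⟩ := ih
      exact ⟨E.B, congrArg Hom.B h1, congrArg Hom.B h2, congrArg Hom.B h3, congrArg Hom.B h4⟩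
  obtain ⟨E, h1, h2, h3, h4⟩ := key N
  exact ⟨E.wd K, congrArg (fun a => Hom.app a K) h1, congrArg (fun a => Hom.app a K) h2,
    congrArg (fun a => Hom.app a K) h3, congrArg (fun a => Hom.app a K) h4⟩

end Gam

/-! ### simplicial objects -/

namespace SGam

/-- levelwise `B` of a map -/
noncomputable def Hom.B {V W : SGam} (F : Hom V W) : Hom V.B W.B where
  app k := (F.app k).B
  nat f K _ m x := F.nat f (Fin m × K) x

/-- iterated -/
noncomputable def Hom.BN {V W : SGam} (F : Hom V W) : (n : ℕ) → Hom (V.BN n) (W.BN n)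
  | 0 => F
  | n + 1 => (Hom.BN F n).B

/-- arrows of `Gam` -/
structure Arr where
  /-- source -/
  s : Gam
  /-- target -/
  t : Gam
  /-- the map -/
  a : Gam.Hom s t

/-- `B` of an arrow -/
noncomputable def Arr.B (x : Arr) : Arr := ⟨x.s.B, x.t.B, x.a.B⟩

theorem Hom.app_BN {V W : SGam} (F : Hom V W) (k : ℕ) :
    ∀ N, (⟨_, _, (F.BN N).app k⟩ : Arr) = ⟨_, _, (F.app k).BN N⟩
  | 0 => rfl
  | N + 1 => congrArg Arr.B (Hom.app_BN F k N)

theorem Hom.toDiagBN_nat {V W : SGam} (F : Hom V W) :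
    ∀ (N : ℕ) (K : Type) [Finite K] (p : ℕ) (x : ((V.diag.BN N).obj K).obj p),
      ((F.BN N).diag.app K).app (((V.toDiagBN N).app K).app x) =
        ((W.toDiagBN N).app K).app (((F.diag.BN N).app K).app x)
  | 0 => fun _ _ _ _ => rfl
  | N + 1 => fun K _ p x => Hom.toDiagBN_nat F N (Fin p × K) p x

/-- **Columns and diagonal, after `B^N`.** -/
theorem Hom.rz0_diag_BN {V W : SGam} (F : Hom V W) (N : ℕ) (K : Type) [Finite K] (r : ℕ)
    (h : ∀ k, ∀ t < r, RZ0 (freeMap R (((F.app k).BN N).app K)).cx t) (t : ℕ) (ht : t < r) :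
    RZ0 (freeMap R ((F.diag.BN N).app K)).cx t := by
  have key : ∀ x y : Arr, x = y → (∀ t < r, RZ0 (freeMap R (x.a.app K)).cx t) →
      (∀ t < r, RZ0 (freeMap R (y.a.app K)).cx t) := by
    rintro x y rfl hx
    exact hx
  rw [rz0_square ((F.diag.BN N).app K) ((F.BN N).diag.app K) ((V.toDiagBN N).app K)
    ((W.toDiagBN N).app K) (fun p => V.toDiagBN_bijective N K p)
    (fun p => W.toDiagBN_bijective N K p) (fun p x => F.toDiagBN_nat N K p x) t]
  exact (F.BN N).rz0_diag K r (fun k => key _ _ (F.app_BN k N).symm (h k)) t ht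

end SGam

end Vale.Agent.P263.GB
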