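import Vale.Agent.P263.GB.Desc
import Vale.Agent.P263.GB.SGam2

/-!
# P263, block G2: levelwise bijective morphisms of functors on finite pointed sets

`Gam.Hom.Bij a` (796's, SGam2) : every component is bijective in every degree.

* `Bij.comp`, `Bij.B`, `Bij.BN`, `Bij.inv` (the inverse), `Bij.rz0`;
* `sq_BN` : a commutative square of natural transformations stays commutative under `B^N`;
* `Bij.rz0_iff`, `Bij.rz0_BN_iff` : `RZ0` of the components along a commutative square;
* `Bij.pt_iff`, `Bij.segalH_iff`, `Bij.rh_iff`, `Bij.rh_BN_iff`, `Bij.hz_iff`, `Bij.unit_BN_iff`.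
-/

namespace Vale.Agent.P263.GB

open Vale.Agent.P263.S Vale.Agent.P263.E

section SS

variable {R : Type} [CommRing R] {X Y : SS}

/-- a levelwise bijective map has a levelwise inverse -/
noncomputable def invSS (f : SS.Map X Y) (h : ∀ p, Function.Bijective (f.app (p := p))) :
    SS.Map Y X where
  app {p} := (Equiv.ofBijective _ (h p)).symm
  nat {p q} θ y := by
    apply (h p).1
    rw [f.nat]
    have h1 : ∀ {p : ℕ} (y : Y.obj p), f.app ((Equiv.ofBijective _ (h p)).symm y) = y :=
      fun {p} y => (Equiv.ofBijective _ (h p)).apply_symm_apply y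
    rw [h1, h1]

theorem invSS_right (f : SS.Map X Y) (h : ∀ p, Function.Bijective (f.app (p := p)))
    {p : ℕ} (y : Y.obj p) : f.app ((invSS f h).app y) = y :=
  (Equiv.ofBijective _ (h p)).apply_symm_apply y

theorem invSS_left (f : SS.Map X Y) (h : ∀ p, Function.Bijective (f.app (p := p)))
    {p : ℕ} (x : X.obj p) : (invSS f h).app (f.app x) = x :=
  (Equiv.ofBijective _ (h p)).symm_apply_apply x

/-- a levelwise bijective map has no relative homology -/
theorem rz0_of_bijective (f : SS.Map X Y)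
    (h : ∀ p, Function.Bijective (f.app (p := p))) (n : ℕ) : RZ0 (freeMap R f).cx n := by
  refine Cx.Hom.rz0_of_inverse (freeMap R f).cx (freeMap R (invSS f h)).cx ?_ ?_ n
  · intro n (a : (free R X).obj n) _
    refine ⟨0, ?_⟩
    have h1 : (freeMap R (invSS f h)).app n ((freeMap R f).app n a) = a :=
      (freeMap_comp_app (invSS f h) f a).symm.trans
        ((congrArg (fun g => (freeMap R g).app n a) (SS.Map.ext fun p x => invSS_left f h x)).trans
          (freeMap_id_app a))
    rw [map_zero]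
    exact (sub_eq_zero.2 h1.symm).symm
  · intro n (b : (free R Y).obj n) _
    refine ⟨0, ?_⟩
    have h1 : (freeMap R f).app n ((freeMap R (invSS f h)).app n b) = b :=
      (freeMap_comp_app f (invSS f h) b).symm.trans
        ((congrArg (fun g => (freeMap R g).app n b)
          (SS.Map.ext fun p x => invSS_right f h x)).trans (freeMap_id_app b))
    rw [map_zero]
    exact (sub_eq_zero.2 h1.symm).symm

/-- homology along a levelwise bijective map -/
theorem hz_iff_of_bijective (f : SS.Map X Y)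
    (h : ∀ p, Function.Bijective (f.app (p := p))) (n : ℕ) :
    (free R X).cx.HZ n ↔ (free R Y).cx.HZ n :=
  hz_congr (freeMap R f).cx (fun p => freeMap_bijective f (h p)) n

/-- the relative homology over the point along a levelwise bijective map -/
theorem toPt_iff_of_bijective (f : SS.Map X Y)
    (h : ∀ p, Function.Bijective (f.app (p := p))) (n : ℕ) :
    RZ0 (freeMap R (SS.toPt X)).cx n ↔ RZ0 (freeMap R (SS.toPt Y)).cx n :=
  rz0_square (SS.toPt X) (SS.toPt Y) f (SS.Map.id SS.pt) h (fun _ => Function.bijective_id)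
    (fun _ _ => rfl) n

theorem red_bijective (f : SS.Map X Y) (h : ∀ p, Function.Bijective (f.app (p := p))) (p : ℕ) :
    Function.Bijective ((redMap R f).app p) := by
  have h1 : ∀ x, (redMap R (invSS f h)).app p ((redMap R f).app p x) = x := fun x =>
    (redMap_comp_app (invSS f h) f x).symm.trans
      ((redMap_congr (SS.Map.ext fun p x => invSS_left f h x) x).trans (redMap_id_app x))
  have h2 : ∀ y, (redMap R f).app p ((redMap R (invSS f h)).app p y) = y := fun y =>
    (redMap_comp_app f (invSS f h) y).symm.trans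
      ((redMap_congr (SS.Map.ext fun p x => invSS_right f h x) y).trans (redMap_id_app y))
  exact ⟨fun x y hxy => by rw [← h1 x, hxy, h1 y], fun y => ⟨_, h2 y⟩⟩

/-- reduced homology along a levelwise bijective map -/
theorem red_hz_iff_of_bijective (f : SS.Map X Y)
    (h : ∀ p, Function.Bijective (f.app (p := p))) (n : ℕ) :
    (red R X).cx.HZ n ↔ (red R Y).cx.HZ n :=
  hz_congr (redMap R f).cx (fun p => red_bijective f h p) n

end SS

namespace Gam

variable {R : Type} [CommRing R] {G H G' H' J : Gam}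

theorem Hom.Bij.id (G : Gam) : (Hom.id G).Bij := fun _ _ _ => Function.bijective_id

theorem Hom.Bij.comp {b : Hom H J} {a : Hom G H} (hb : b.Bij) (ha : a.Bij) : (b.comp a).Bij :=
  fun K _ p => (hb K p).comp (ha K p)

theorem Hom.Bij.B {a : Hom G H} (h : a.Bij) : a.B.Bij := fun K _ p => h (Fin p × K) p

/-- the inverse -/
noncomputable def Hom.Bij.inv {a : Hom G H} (h : a.Bij) : Hom H G where
  app K := invSS (a.app K) (h K)
  nat {K L} _ _ f p x := by
    apply (h L p).1
    rw [invSS_right, a.nat, invSS_right]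

theorem Hom.Bij.inv_bij {a : Hom G H} (h : a.Bij) : h.inv.Bij := fun K _ p =>
  ⟨fun x y hxy => by
    have h1 := congrArg (a.app K).app hxy
    exact (invSS_right (a.app K) (h K) x).symm.trans (h1.trans (invSS_right (a.app K) (h K) y)),
    fun x => ⟨_, invSS_left (a.app K) (h K) x⟩⟩

/-- a commutative square of natural transformations -/
def Sq (a : Hom G H) (b : Hom G' H') (u : Hom G G') (v : Hom H H') : Prop :=
  ∀ (K : Type) [Finite K] (p : ℕ) (x : (G.obj K).obj p),
    (b.app K).app ((u.app K).app x) = (v.app K).app ((a.app K).app x)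

theorem Sq.B {a : Hom G H} {b : Hom G' H'} {u : Hom G G'} {v : Hom H H'} (h : Sq a b u v) :
    Sq a.B b.B u.B v.B := fun K _ p x => h (Fin p × K) p x

theorem Sq.BN {a : Hom G H} {b : Hom G' H'} {u : Hom G G'} {v : Hom H H'} (h : Sq a b u v) :
    ∀ n, Sq (a.BN n) (b.BN n) (u.BN n) (v.BN n)
  | 0 => h
  | n + 1 => (Sq.BN h n).B

namespace Hom.Bij

theorem rz0 {a : Hom G H} (h : a.Bij) (K : Type) [Finite K] (n : ℕ) :
    RZ0 (freeMap R (a.app K)).cx n := rz0_of_bijective (a.app K) (h K) n

/-- relative homology along a square -/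
theorem rz0_iff {a : Hom G H} {b : Hom G' H'} {u : Hom G G'} {v : Hom H H'} (h : Sq a b u v)
    (hu : u.Bij) (hv : v.Bij) (K : Type) [Finite K] (n : ℕ) :
    RZ0 (freeMap R (a.app K)).cx n ↔ RZ0 (freeMap R (b.app K)).cx n :=
  rz0_square (a.app K) (b.app K) (u.app K) (v.app K) (hu K) (hv K) (h K) n

theorem rz0_BN_iff {a : Hom G H} {b : Hom G' H'} {u : Hom G G'} {v : Hom H H'} (h : Sq a b u v)
    (hu : u.Bij) (hv : v.Bij) (N : ℕ) (K : Type) [Finite K] (n : ℕ) :
    RZ0 (freeMap R ((a.BN N).app K)).cx n ↔ RZ0 (freeMap R ((b.BN N).app K)).cx n :=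
  rz0_iff (h.BN N) (hu.BN N) (hv.BN N) K n

theorem pt {a : Hom G H} (h : a.Bij) (hG : G.Pt) : H.Pt where
  sub K _ _ p := ⟨fun x y => by
    obtain ⟨x, rfl⟩ := (h K p).2 x
    obtain ⟨y, rfl⟩ := (h K p).2 y
    rw [(hG.sub K p).elim x y]⟩
  ne K _ _ p := (hG.ne K p).map (a.app K).app

theorem pt_iff {a : Hom G H} (h : a.Bij) : G.Pt ↔ H.Pt := ⟨h.pt, h.inv_bij.pt⟩

theorem segalH {a : Hom G H} (h : a.Bij) (hG : G.SegalH R) : H.SegalH R := by
  intro K L _ _ n
  refine (rz0_square (G.seg K L) (H.seg K L) (a.app (K ⊕ L))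
    (SS.pair ((a.app K).comp (SS.fst _ _)) ((a.app L).comp (SS.snd _ _))) (h (K ⊕ L)) ?_ ?_ n).1
    (hG K L n)
  · intro p
    constructor
    · rintro ⟨x, y⟩ ⟨x', y'⟩ hxy
      have h1 := congrArg Prod.fst hxy
      have h2 := congrArg Prod.snd hxy
      exact Prod.ext ((h K p).1 h1) ((h L p).1 h2)
    · rintro ⟨x, y⟩
      obtain ⟨x, rfl⟩ := (h K p).2 x
      obtain ⟨y, rfl⟩ := (h L p).2 y
      exact ⟨(x, y), rfl⟩
  · intro p x
    exact Prod.ext (a.nat lftO x).symm (a.nat rgtO x).symm

theorem segalH_iff {a : Hom G H} (h : a.Bij) : G.SegalH R ↔ H.SegalH R :=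
  ⟨h.segalH, h.inv_bij.segalH⟩

theorem rh_iff {a : Hom G H} (h : a.Bij) (K : Type) [Finite K] (t : ℕ) :
    G.RH R K t ↔ H.RH R K t := red_hz_iff_of_bijective (a.app K) (h K) t

theorem rh_BN_iff {a : Hom G H} (h : a.Bij) (N : ℕ) (K : Type) [Finite K] (t : ℕ) :
    (G.BN N).RH R K t ↔ (H.BN N).RH R K t := (h.BN N).rh_iff K t

theorem hz_iff {a : Hom G H} (h : a.Bij) (K : Type) [Finite K] (t : ℕ) :
    (free R (G.obj K)).cx.HZ t ↔ (free R (H.obj K)).cx.HZ t :=
  hz_iff_of_bijective (a.app K) (h K) t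

theorem hz_BN_iff {a : Hom G H} (h : a.Bij) (N : ℕ) (K : Type) [Finite K] (t : ℕ) :
    (free R ((G.BN N).obj K)).cx.HZ t ↔ (free R ((H.BN N).obj K)).cx.HZ t :=
  (h.BN N).hz_iff K t

/-- the unit maps along a levelwise bijective morphism -/
theorem unit_BN_iff {a : Hom G H} (h : a.Bij) {e : (G.obj Unit).obj 0} {e' : (H.obj Unit).obj 0}
    (he : (a.app Unit).app e = e') (N : ℕ) (K : Type) [Finite K] (n : ℕ) :
    RZ0 (freeMap R (((G.unit e).BN N).app K)).cx n ↔
      RZ0 (freeMap R (((H.unit e').BN N).app K)).cx n := by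
  subst he
  exact rz0_BN_iff (a := G.unit e) (b := H.unit ((a.app Unit).app e)) (u := Hom.id Id) (v := a)
    (fun K _ _ x => (comp_unit a e K x).symm) (Hom.Bij.id Id) h N K n

end Hom.Bij

end Gam

end Vale.Agent.P263.GB
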