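import Vale.Agent.P263.GB.IdG
import Vale.Agent.P263.GB.GamH
import Vale.Agent.P263.GB.KerRZ
import Vale.Agent.P263.GB.G5Abs
import Mathlib.Data.Fintype.Order

/-!
# P263, block G2: the homology of the simplicial spheres `(Gam.Id.BN N).obj Unit`

* `Gen A n` : the cycles of degree `n` are, up to boundaries, multiples of ONE cycle.
* `Gam.Wdg G` : `G (K₊) = K₊ ∧ G (1₊)` levelwise; inherited by `B`.
* `Gam.Wdg.ses` : for such `G` the short exact sequence
  `0 → red G (1₊) → red (path object) → red B G (1₊) → 0`, middle term acyclic.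
* `Sp.hz`, `Sp.gen` : the homology of `S^N` in positive degrees vanishes outside degree `N` and is
  spanned by one class in degree `N`, over every commutative ring.
-/

namespace Vale.Agent.P263.GB

open Vale.Agent.P263.S Vale.Agent.P263.E

variable {R : Type} [CommRing R]

/-! ### one generator -/

/-- the homology in degree `n` is spanned by one class -/
def Gen (A : Cx R) (n : ℕ) : Prop :=
  ∃ z : A.C n, A.Cyc n z ∧ ∀ a, A.Cyc n a → ∃ (c : R) (w : A.C (n + 1)), A.d n w + c • z = a

/-- `Gen` passes through the connecting map of a short exact sequence with acyclic middle -/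
theorem Cx.SES.gen_succ {A B C : Cx R} {i : Cx.Hom A B} {r : Cx.Hom B C} (h : Cx.SES i r) (n : ℕ)
    (h0 : B.HZ n) (h1 : B.HZ (n + 1)) (hA : Gen A n) : Gen C (n + 1) := by
  obtain ⟨z, hz, hg⟩ := hA
  obtain ⟨w, hw⟩ := h0 (i.app n z) (i.cyc hz)
  refine ⟨r.app (n + 1) w, ?_, ?_⟩
  · show C.d n (r.app (n + 1) w) = 0
    rw [← r.comm, hw, h.zero]
  · intro c hc
    obtain ⟨b, rfl⟩ := h.surj (n + 1) c
    have hc' : C.d n (r.app (n + 1) b) = 0 := hc
    obtain ⟨a, ha⟩ := h.exact n (B.d n b) (by rw [r.comm, hc'])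
    have hac : A.Cyc n a := i.cyc_of_inj (by rw [ha]; exact B.cyc_d n b) h.inj
    obtain ⟨l, a', hla⟩ := hg a hac
    obtain ⟨e, he⟩ := h1 (b - l • w - i.app (n + 1) a') (by
      show B.d n (b - l • w - i.app (n + 1) a') = 0
      rw [map_sub, map_sub, map_smul, hw, ← i.comm, ← ha, ← hla, map_add, map_smul]
      abel)
    refine ⟨l, r.app (n + 2) e, ?_⟩
    have h2 : C.d (n + 1) (r.app (n + 2) e) = r.app (n + 1) (b - l • w - i.app (n + 1) a') := by
      rw [← r.comm, he]
    rw [h2, map_sub, map_sub, map_smul, h.zero, sub_zero, sub_add_cancel]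

/-- `Gen` for the middle term, if the right term has no homology in degree `n ≥ 1` -/
theorem Cx.SES.gen_mid {A B C : Cx R} {i : Cx.Hom A B} {r : Cx.Hom B C} (h : Cx.SES i r) (n : ℕ)
    (hC : C.HZ n) (hA : Gen A n) : Gen B n := by
  obtain ⟨z, hz, hg⟩ := hA
  refine ⟨i.app n z, i.cyc hz, ?_⟩
  intro b hb
  obtain ⟨w, hw⟩ := hC (r.app n b) (r.cyc hb)
  obtain ⟨w, rfl⟩ := h.surj (n + 1) w
  obtain ⟨a, ha⟩ := h.exact n (b - B.d n w) (by rw [map_sub, r.comm, hw, sub_self])
  have hac : A.Cyc n a := i.cyc_of_inj (by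
    rw [ha]; exact B.cyc_sub hb (B.cyc_d n w)) h.inj
  obtain ⟨l, a', hla⟩ := hg a hac
  refine ⟨l, w + i.app (n + 1) a', ?_⟩
  rw [map_add, ← i.comm]
  have : i.app n (A.d n a') + l • i.app n z = b - B.d n w := by
    rw [← ha, ← hla, map_add, map_smul]
  rw [add_assoc, this]
  abel

/-! ### constant simplicial modules -/

/-- the constant simplicial module -/
def cstM (R : Type) [CommRing R] (M : Type) [AddCommGroup M] [Module R M] : SMod R where
  obj _ := M
  map _ := LinearMap.id
  map_id _ := rfl
  map_comp _ _ _ := rfl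

theorem cstM_d (M : Type) [AddCommGroup M] [Module R M] (n : ℕ) (x : M) :
    (cstM R M).d n x = if n % 2 = 0 then (0 : M) else x := by
  have h : (cstM R M).d n x = ∑ i ∈ Finset.range (n + 2), ((-1 : ℤ) ^ i) • x :=
    SMod.d_apply (cstM R M) n x
  rw [h]
  have key : ∀ m, ∑ i ∈ Finset.range (m + 1), ((-1 : ℤ) ^ i) • x = if m % 2 = 0 then x else 0 := by
    intro m
    induction m with
    | zero => simp
    | succ m ih =>
      rw [Finset.sum_range_succ, ih]
      rcases Nat.even_or_odd m with hm | hm
      · have h1 : m % 2 = 0 := Nat.even_iff.1 hm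
        have h2 : ¬ (m + 1) % 2 = 0 := by omega
        rw [if_pos h1, if_neg h2, (hm.add_one).neg_one_pow]
        simp
      · have h1 : ¬ m % 2 = 0 := by have := Nat.odd_iff.1 hm; omega
        have h2 : (m + 1) % 2 = 0 := by have := Nat.odd_iff.1 hm; omega
        rw [if_neg h1, if_pos h2, (hm.add_one).neg_one_pow]
        simp
  rw [key]
  by_cases hn : n % 2 = 0
  · rw [if_pos hn, if_neg (by omega)]
  · rw [if_neg hn, if_pos (by omega)]

theorem cstM_hz (M : Type) [AddCommGroup M] [Module R M] (n : ℕ) (hn : 1 ≤ n) :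
    (cstM R M).cx.HZ n := by
  obtain ⟨n, rfl⟩ : ∃ m, n = m + 1 := ⟨n - 1, by omega⟩
  have key : ∀ x : M, (if n % 2 = 0 then (0 : M) else x) = 0 →
      ∃ y : M, (if (n + 1) % 2 = 0 then (0 : M) else y) = x := by
    intro x hx
    by_cases h : n % 2 = 0
    · exact ⟨x, if_neg (by omega)⟩
    · rw [if_neg h] at hx
      exact ⟨0, by rw [hx]; simp⟩
  intro x hx
  obtain ⟨y, hy⟩ := key x ((cstM_d (R := R) M n x).symm.trans hx)
  exact ⟨y, (cstM_d (R := R) M (n + 1) y).trans hy⟩

/-! ### reduced chains -/

namespace Sp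

/-- reduced chains -/
noncomputable abbrev red (R : Type) [CommRing R] (X : SS) : SMod R := SMod.Ker (freeMap R (SS.toPt X))

theorem aug_map {X Y : SS} (f : SS.Map X Y) {p : ℕ} (c : (free R X).obj p) :
    (freeMap R (SS.toPt Y)).app p ((freeMap R f).app p c) = (freeMap R (SS.toPt X)).app p c :=
  (Gam.freeMap_comp_of f (SS.toPt Y) (SS.toPt X) (fun _ => rfl) c).symm

/-- functoriality of the reduced chains -/
noncomputable def redMap (R : Type) [CommRing R] {X Y : SS} (f : SS.Map X Y) :
    SMod.Hom (red R X) (red R Y) where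
  app p := ((freeMap R f).app p).restrict fun x hx => by
    rw [LinearMap.mem_ker] at *
    rw [aug_map, hx]
  nat g x := by
    apply Subtype.ext
    exact (freeMap R f).nat g x.1

theorem redMap_coe {X Y : SS} (f : SS.Map X Y) {p : ℕ} (x : (red R X).obj p) :
    ((redMap R f).app p x).1 = (freeMap R f).app p x.1 := rfl

/-- exactness on chains from a section on simplices -/
theorem exact_of_section {A B C : Type} (f : A → B) (g : B → C) (s : C → B)
    (h : ∀ b, (∃ a, f a = b) ∨ s (g b) = b) (hs : ∀ a, ∃ a', f a' = s (g (f a))) (c : B →₀ R)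
    (hc : Finsupp.mapDomain g c = 0) : ∃ a : A →₀ R, Finsupp.mapDomain f a = c := by
  have key : ∀ c : B →₀ R, ∃ a : A →₀ R,
      Finsupp.mapDomain f a = c - Finsupp.mapDomain s (Finsupp.mapDomain g c) := by
    intro c
    induction c using Finsupp.induction_linear with
    | zero => exact ⟨0, by simp⟩
    | add x y hx hy =>
      obtain ⟨a, ha⟩ := hx
      obtain ⟨b, hb⟩ := hy
      refine ⟨a + b, ?_⟩
      rw [Finsupp.mapDomain_add, ha, hb, Finsupp.mapDomain_add, Finsupp.mapDomain_add]
      abel
    | single b r =>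
      rw [Finsupp.mapDomain_single, Finsupp.mapDomain_single]
      rcases h b with ⟨a, rfl⟩ | h
      · obtain ⟨a', ha'⟩ := hs a
        refine ⟨Finsupp.single a r - Finsupp.single a' r, ?_⟩
        rw [sub_eq_add_neg, Finsupp.mapDomain_add, ← Finsupp.single_neg, Finsupp.mapDomain_single,
          Finsupp.mapDomain_single, ha', Finsupp.single_neg, ← sub_eq_add_neg]
      · exact ⟨0, by rw [h, sub_self]; simp⟩
  obtain ⟨a, ha⟩ := key c
  refine ⟨a, ?_⟩
  rw [ha, hc]
  simp

/-- a cofibre sequence of simplicial sets gives a short exact sequence of reduced chains -/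
theorem ses_red {X Y Z : SS} (f : SS.Map X Y) (g : SS.Map Y Z) (z0 : ∀ p, Z.obj p)
    (s : ∀ p, Z.obj p → Y.obj p) (hf : ∀ p, Function.Injective (f.app (p := p)))
    (hgf : ∀ p (x : X.obj p), g.app (f.app x) = z0 p) (hgs : ∀ p (z : Z.obj p), g.app (s p z) = z)
    (h : ∀ p (y : Y.obj p), (∃ x, f.app x = y) ∨ s p (g.app y) = y)
    (hs : ∀ p, ∃ x, f.app x = s p (z0 p)) : SES (redMap R f) (redMap R g) where
  inj p x y hxy := by
    apply Subtype.ext
    exact Finsupp.mapDomain_injective (hf p) (congrArg Subtype.val hxy)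
  exact p x hx := by
    obtain ⟨a, ha'⟩ : ∃ a : (free R X).obj p, (freeMap R f).app p a = x.1 :=
      exact_of_section (R := R) (f.app (p := p)) (g.app (p := p)) (s p) (h p)
        (fun a => by rw [hgf]; exact hs p) x.1 (congrArg Subtype.val hx)
    have ha2 : (freeMap R (SS.toPt X)).app p a = 0 := by
      rw [← aug_map f, ha']
      exact x.2
    exact ⟨⟨a, ha2⟩, Subtype.ext ha'⟩
  zero p x := by
    apply Subtype.ext
    rw [redMap_coe, redMap_coe]
    let i : SS.Map SS.pt Z := ⟨fun _ => z0 _, fun {p q} α u => by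
      obtain ⟨x, hx⟩ := hs q
      have := hgf p (X.map α x)
      rw [f.nat, g.nat, hgf] at this
      exact this.symm⟩
    have e1 := Gam.freeMap_comp_of (R := R) (p := p) f g (g.comp f) (fun _ => rfl) x.1
    have e2 := Gam.freeMap_comp_of (R := R) (p := p) (SS.toPt X) i (g.comp f)
      (fun y => hgf p y) x.1
    have hx : (freeMap R (SS.toPt X)).app p x.1 = 0 := x.2
    rw [← e1, e2, hx, map_zero]
    rfl
  surj p z := by
    have key : ∀ z : Z.obj p →₀ R, Finsupp.mapDomain g.app (Finsupp.mapDomain (s p) z) = z := by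
      intro z
      rw [← Finsupp.mapDomain_comp]
      have : g.app ∘ s p = _root_.id := funext (hgs p)
      rw [this, Finsupp.mapDomain_id]
    obtain ⟨y, hy⟩ : ∃ y : (free R Y).obj p, (freeMap R g).app p y = z.1 := ⟨_, key z.1⟩
    have hy2 : (freeMap R (SS.toPt Y)).app p y = 0 := by
      rw [← aug_map g, hy]
      exact z.2
    exact ⟨⟨y, hy2⟩, Subtype.ext hy⟩

/-- a contracted simplicial set has no reduced homology -/
theorem red_hz_of_contr {X : SS} (K : SS.Htp X X) (x0 : ∀ p, X.obj p)
    (h1 : ∀ p x, K.h p (c1 p) x = x) (h0 : ∀ p x, K.h p (c0 p) x = x0 p) (n : ℕ) :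
    (red R X).cx.HZ n := by
  have haug : ∀ (p : ℕ) (χ : Op p 1) (c : X.obj p →₀ R),
      Finsupp.mapDomain ((SS.toPt X).app (p := p)) (Finsupp.mapDomain (K.h p χ) c) =
        Finsupp.mapDomain ((SS.toPt X).app (p := p)) c := by
    intro p χ c
    rw [← Finsupp.mapDomain_comp]
    rfl
  let P : SMod.Prism (red R X) (red R X) :=
    { h := fun p χ => ((prismOf R K).h p χ).restrict fun x hx => by
        have e := haug p χ x
        have hx' : Finsupp.mapDomain ((SS.toPt X).app (p := p)) x = 0 := hx
        exact e.trans hx'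
      nat := fun {p q} α χ x => Subtype.ext ((prismOf R K).nat α χ x.1) }
  refine P.hz (fun p x => ?_) (fun p x => ?_) n
  · apply Subtype.ext
    have key : ∀ c : X.obj p →₀ R, Finsupp.mapDomain ((SS.toPt X).app (p := p)) c = 0 →
        Finsupp.mapDomain (K.h p (c0 p)) c = 0 := by
      intro c hc
      have e : K.h p (c0 p) = (fun _ : SS.pt.obj p => x0 p) ∘ ((SS.toPt X).app (p := p)) :=
        funext (h0 p)
      rw [e, Finsupp.mapDomain_comp, hc, Finsupp.mapDomain_zero]
    exact key x.1 x.2
  · apply Subtype.ext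
    have key : ∀ c : X.obj p →₀ R, Finsupp.mapDomain (K.h p (c1 p)) c = c := by
      intro c
      have e : K.h p (c1 p) = _root_.id := funext (h1 p)
      rw [e, Finsupp.mapDomain_id]
    exact key x.1

end Sp

/-! ### the path object -/

namespace Gam

/-- the labels of the interval pointed at the vertex `0` -/
abbrev LP (p : ℕ) : Type := {x : Op p 1 // x ≠ c0 p}

instance finite_LP (p : ℕ) : Finite (LP p) :=
  Finite.of_injective (fun x : LP p => (x.1 : Fin (p + 1) → Fin 2))
    fun _ _ h => Subtype.ext (DFunLike.coe_injective h)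

open Classical in
/-- a map `[p] → [1]` as a label, the base point if it is constant `0` -/
noncomputable def lpt {p : ℕ} (x : Op p 1) : Option (LP p) :=
  if h : x = c0 p then none else some ⟨x, h⟩

theorem lpt_c0 (p : ℕ) : lpt (c0 p) = none := dif_pos rfl

theorem lpt_of_ne {p : ℕ} {x : Op p 1} (h : x ≠ c0 p) : lpt x = some ⟨x, h⟩ := dif_neg h

@[simp] theorem lpt_coe {p : ℕ} (x : LP p) : lpt x.1 = some x := lpt_of_ne x.2

theorem lpt_bind {p q : ℕ} (T : Op p 1 → Op q 1) (hT : T (c0 p) = c0 q) (x : Op p 1) :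
    (lpt x).bind (fun y => lpt (T y.1)) = lpt (T x) := by
  by_cases h : x = c0 p
  · subst h
    rw [lpt_c0, hT, lpt_c0]
    rfl
  · rw [lpt_of_ne h]
    rfl

/-- the operators on the labels of the interval -/
noncomputable def lpo {p q : ℕ} (θ : Op p q) (x : LP q) : Option (LP p) := lpt (x.1.comp θ)

/-- the contraction of the labels of the interval -/
noncomputable def lmn {p : ℕ} (χ : Op p 1) (x : LP p) : Option (LP p) := lpt (x.1 ⊓ χ)

/-- the path object: `G` of the interval -/
noncomputable def P (G : Gam) : SS where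
  obj p := (G.obj (LP p)).obj p
  map {p q} θ x := (G.map (lpo θ)).app ((G.obj (LP q)).map θ x)
  map_id {p} x := by
    have e : (lpo (OrderHom.id : Op p p)) = some := funext fun x => lpt_coe x
    rw [SS.map_id, e, G.map_some]
  map_comp {p q r} θ φ x := by
    have e : (lpo (θ.comp φ) : LP r → Option (LP p)) = fun x => (lpo θ x).bind (lpo φ) :=
      funext fun x => (lpt_bind (fun y => y.comp φ) (c0_comp φ) (x.1.comp θ)).symm
    rw [e, G.map_bind, SS.map_comp, SS.Map.nat]

/-- the contraction of the path object -/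
noncomputable def Pcon (G : Gam) : SS.Htp G.P G.P where
  h p χ x := (G.map (lmn χ)).app x
  nat {p q} f χ x := by
    have key : ∀ x : (G.obj (LP q)).obj q,
        (G.map (lmn (χ.comp f))).app ((G.map (lpo f)).app ((G.obj (LP q)).map f x)) =
          (G.map (lpo f)).app ((G.obj (LP q)).map f ((G.map (lmn χ)).app x)) := by
      intro x
      rw [← SS.Map.nat, ← G.map_bind, ← G.map_bind]
      have e : (fun k => (lpo f k).bind (lmn (χ.comp f))) =
          fun k => (lmn χ k).bind (lpo f) := by
        funext x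
        have e1 := lpt_bind (fun y : Op p 1 => y ⊓ (χ.comp f)) (by
          apply eq_c0
          intro a
          show c0 p a ⊓ (χ.comp f) a = 0
          rw [c0_val]
          exact le_antisymm inf_le_left (Fin.zero_le _)) (x.1.comp f)
        have e2 := lpt_bind (fun y : Op q 1 => y.comp f) (c0_comp f) (x.1 ⊓ χ)
        exact e1.trans e2.symm
      rw [e]
    exact key x

theorem Pcon_c1 (G : Gam) (p : ℕ) (x : (G.obj (LP p)).obj p) : G.Pcon.h p (c1 p) x = x := by
  show (G.map (lmn (c1 p))).app x = x
  have e : (lmn (c1 p)) = some := by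
    funext y
    have : y.1 ⊓ c1 p = y.1 := by
      apply OrderHom.ext
      funext a
      show y.1 a ⊓ c1 p a = y.1 a
      rw [c1_val]
      exact inf_eq_left.2 (Fin.le_last (y.1 a))
    rw [lmn, this, lpt_coe]
  rw [e, G.map_some]

/-- the base point of `G (K₊)` -/
noncomputable def bp {G : Gam} (h : G.Pt) (K : Type) [Finite K] (p : ℕ) : (G.obj K).obj p :=
  (G.map (fun e : Empty => e.elim)).app (h.ne Empty p).some

theorem bp_map {G : Gam} (h : G.Pt) {K L : Type} [Finite K] [Finite L] (f : K → Option L)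
    (p : ℕ) : (G.map f).app (bp h K p) = bp h L p := by
  rw [bp, ← G.map_bind]
  congr 2
  funext e
  exact e.elim

theorem none_app {G : Gam} (h : G.Pt) {K L : Type} [Finite K] [Finite L] {p : ℕ}
    (y : (G.obj L).obj p) : (G.map (fun _ : L => (none : Option K))).app y = bp h K p := by
  have e : (fun _ : L => (none : Option K)) =
      fun l : L => ((fun _ => none : L → Option Empty) l).bind (fun e : Empty => e.elim) := rfl
  rw [e, G.map_bind, bp]
  congr 1
  exact (h.sub Empty p).elim _ _

theorem Pcon_c0 {G : Gam} (h : G.Pt) (p : ℕ) (x : (G.obj (LP p)).obj p) :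
    G.Pcon.h p (c0 p) x = bp h (LP p) p := by
  show (G.map (lmn (c0 p))).app x = _
  have e : (lmn (c0 p)) = fun _ : LP p => (none : Option (LP p)) := by
    funext y
    have : y.1 ⊓ c0 p = c0 p := by
      apply OrderHom.ext
      funext a
      show y.1 a ⊓ c0 p a = c0 p a
      rw [c0_val]
      exact inf_eq_right.2 (Fin.zero_le (y.1 a))
    rw [lmn, this, lpt_c0]
  rw [e, none_app h]

/-- the path object has no reduced homology -/
theorem P_hz {G : Gam} (h : G.Pt) (n : ℕ) : (Sp.red R G.P).cx.HZ n :=
  Sp.red_hz_of_contr G.Pcon (fun p => bp h (LP p) p) (fun p x => G.Pcon_c1 p x)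
    (fun p x => Pcon_c0 h p x) n

/-! ### the cofibre sequence `G (1₊) → path object → B G (1₊)` -/

/-- the label of the interval as a label of the circle -/
noncomputable def gl (p : ℕ) (x : LP p) : Option (Fin p × Unit) :=
  (circ x.1 0).map fun j => (j, ())

/-- the label of the circle as a label of the interval -/
noncomputable def sl (p : ℕ) (i : Fin p × Unit) : Option (LP p) := lpt (th p (i.1.1 + 1))

/-- the inclusion of the fibre -/
noncomputable def Pin (G : Gam) : SS.Map (G.obj Unit) G.P where
  app {p} x := (G.map (fun _ : Unit => lpt (c1 p))).app x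
  nat {p q} f x := by
    show (G.map (fun _ : Unit => lpt (c1 p))).app ((G.obj Unit).map f x) =
      (G.map (lpo f)).app ((G.obj (LP q)).map f ((G.map (fun _ : Unit => lpt (c1 q))).app x))
    rw [← SS.Map.nat, ← G.map_bind]
    have e : (fun _ : Unit => (lpt (c1 q)).bind (lpo f)) = fun _ : Unit => lpt (c1 p) := by
      funext _
      have := lpt_bind (fun y : Op q 1 => y.comp f) (c0_comp f) (c1 q)
      rw [c1_comp] at this
      exact this
    rw [e]

/-- the projection to `B G` -/
noncomputable def Ppr (G : Gam) : SS.Map G.P (G.B.obj Unit) where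
  app {p} x := (G.map (gl p)).app x
  nat {p q} f x := by
    have key : ∀ x : (G.obj (LP q)).obj q,
        (G.map (gl p)).app ((G.map (lpo f)).app ((G.obj (LP q)).map f x)) =
          (G.map (circK Unit f)).app ((G.obj (Fin q × Unit)).map f ((G.map (gl q)).app x)) := by
      intro x
      rw [← SS.Map.nat, ← G.map_bind, ← G.map_bind]
      have e : (fun k => (lpo f k).bind (gl p)) = fun k => (gl q k).bind (circK Unit f) := by
        funext y
        have e1 : (gl q y).bind (circK Unit f) =
            (circ (y.1.comp f) 0).map fun j => (j, ()) := by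
          rw [circ_comp, gl]
          cases circ y.1 0 with
          | none => rfl
          | some j => rfl
        rw [e1, lpo]
        by_cases hy : y.1.comp f = c0 p
        · rw [hy, lpt_c0]
          have : circ (c0 p) 0 = none := by
            rw [circ_eq_none]
            right
            rw [c0_val]
            exact le_rfl
          rw [this]
          rfl
        · rw [lpt_of_ne hy]
          rfl
      rw [e]
    exact key x

/-- levelwise `G (K₊) = K₊ ∧ G (1₊)` -/
structure Wdg (G : Gam) : Prop where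
  pt : G.Pt
  ex : ∀ (K : Type) [Finite K] (p : ℕ) (x : (G.obj K).obj p),
    ∃ (l : Option K) (y : (G.obj Unit).obj p), (G.map (fun _ : Unit => l)).app y = x

theorem Id_wdg : Id.Wdg where
  pt := Id_pt
  ex _ _ _ x := ⟨x, some (), rfl⟩

theorem Wdg.B {G : Gam} (h : G.Wdg) : G.B.Wdg where
  pt := h.pt.B
  ex K _ p x := by
    have key : ∀ x : (G.obj (Fin p × K)).obj p, ∃ (l : Option K) (y : (G.obj (Fin p × Unit)).obj p),
        (G.map (sndK (Fin p) (fun _ : Unit => l))).app y = x := by
      intro x
      obtain ⟨l, y, rfl⟩ := h.ex (Fin p × K) p x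
      cases l with
      | none =>
        refine ⟨none, (G.map (fun _ : Unit => none)).app y, ?_⟩
        rw [← G.map_bind]
        rfl
      | some jk =>
        refine ⟨some jk.2, (G.map (fun _ : Unit => some (jk.1, ()))).app y, ?_⟩
        rw [← G.map_bind]
        rfl
    exact key x

theorem Wdg.BN {G : Gam} (h : G.Wdg) : ∀ N, (G.BN N).Wdg
  | 0 => h
  | N + 1 => (Wdg.BN h N).B

theorem eq_th_of_circ {p : ℕ} {x : Op p 1} {j : Fin p} (h : circ x 0 = some j) :
    th p (j.1 + 1) = x := by
  rw [circ_eq_some] at h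
  apply OrderHom.ext
  funext a
  have ha := h a
  rw [th_val]
  by_cases hj : a.1 ≤ j.1
  · rw [if_pos (by omega)]
    have := ha.2 hj
    apply Fin.ext
    show 0 = (x a).1
    have h0 : (0 : Fin 1).1 = 0 := rfl
    omega
  · rw [if_neg (by omega)]
    have h1 : ¬ (x a).1 ≤ (0 : Fin 1).1 := fun h' => hj (ha.1 h')
    apply Fin.ext
    show 1 = (x a).1
    have h0 : (0 : Fin 1).1 = 0 := rfl
    have := (x a).2
    omega

theorem circ_th {p : ℕ} (j : Fin p) : circ (th p (j.1 + 1)) 0 = some j := by
  rw [circ_eq_some]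
  intro a
  rw [th_val]
  by_cases hj : a.1 ≤ j.1
  · rw [if_pos (by omega)]
    exact ⟨fun _ => hj, fun _ => le_rfl⟩
  · rw [if_neg (by omega)]
    constructor
    · intro h
      exact absurd h (by decide)
    · intro h
      exact absurd h hj

theorem th_ne_c0 {p : ℕ} (j : Fin p) : th p (j.1 + 1) ≠ c0 p := by
  intro h
  have h1 := circ_th j
  rw [h] at h1
  have : circ (c0 p) 0 = none := by
    rw [circ_eq_none]
    right
    rw [c0_val]
    exact le_rfl
  rw [this] at h1
  exact Option.some_ne_none _ h1.symm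

theorem sl_eq {p : ℕ} (i : Fin p × Unit) : sl p i = some ⟨th p (i.1.1 + 1), th_ne_c0 i.1⟩ :=
  lpt_of_ne _

theorem sl_gl {p : ℕ} (i : Fin p × Unit) : (sl p i).bind (gl p) = some i := by
  rw [sl_eq]
  show (circ (th p (i.1.1 + 1)) 0).map (fun j => (j, ())) = some i
  rw [circ_th]
  rfl

theorem gl_sl {p : ℕ} (x : LP p) (hx : x.1 ≠ c1 p) : (gl p x).bind (sl p) = some x := by
  have h0 : (x.1 0).1 ≤ (0 : Fin 1).1 := by
    by_contra h
    apply hx
    apply eq_c1
    intro a
    have h1 := Fin.le_def.1 (x.1.monotone (Fin.zero_le a))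
    have h0 : (0 : Fin 1).1 = 0 := rfl
    apply Fin.ext
    show (x.1 a).1 = 1
    have := (x.1 a).2
    omega
  have h1 : (0 : Fin 1).1 < (x.1 (Fin.last p)).1 := by
    by_contra h
    apply x.2
    apply eq_c0
    intro a
    have h1 := Fin.le_def.1 (x.1.monotone (Fin.le_last a))
    have h0 : (0 : Fin 1).1 = 0 := rfl
    apply Fin.ext
    show (x.1 a).1 = 0
    omega
  obtain ⟨j, hj⟩ := circ_exists h0 h1
  rw [gl, hj]
  show sl p (j, ()) = some x
  rw [sl, eq_th_of_circ hj, lpt_coe]

/-- the short exact sequence of the path object -/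
theorem Wdg.ses {G : Gam} (h : G.Wdg) : SES (Sp.redMap R G.Pin) (Sp.redMap R G.Ppr) := by
  refine Sp.ses_red G.Pin G.Ppr (fun p => bp h.pt (Fin p × Unit) p)
    (fun p z => (G.map (sl p)).app z) ?_ ?_ ?_ ?_ ?_
  · intro p x y hxy
    have e : ∀ x : (G.obj Unit).obj p, (G.map (fun _ : LP p => some ())).app
        ((G.map (fun _ : Unit => lpt (c1 p))).app x) = x := by
      intro x
      rw [← G.map_bind]
      have : (fun _ : Unit => (lpt (c1 p)).bind (fun _ : LP p => some ())) = some := by
        funext _
        rw [lpt_of_ne (SMod.c0_ne_c1 p).symm]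
        rfl
      rw [this, G.map_some]
    rw [← e x, ← e y]
    exact congrArg (G.map (fun _ : LP p => some ())).app hxy
  · intro p x
    have key : (G.map (gl p)).app ((G.map (fun _ : Unit => lpt (c1 p))).app x) =
        bp h.pt (Fin p × Unit) p := by
      rw [← G.map_bind]
      have : (fun _ : Unit => (lpt (c1 p)).bind (gl p)) = fun _ => none := by
        funext _
        rw [lpt_of_ne (SMod.c0_ne_c1 p).symm]
        show (circ (c1 p) 0).map (fun j => (j, ())) = none
        have : circ (c1 p) 0 = none := by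
          rw [circ_eq_none]
          left
          rw [c1_val]
          exact Nat.one_pos
        rw [this]
        rfl
      rw [this, none_app h.pt]
    exact key
  · intro p z
    have key : ∀ z : (G.obj (Fin p × Unit)).obj p,
        (G.map (gl p)).app ((G.map (sl p)).app z) = z := by
      intro z
      rw [← G.map_bind]
      have : (fun k => (sl p k).bind (gl p)) = some := funext sl_gl
      rw [this, G.map_some]
    exact key z
  · intro p y
    have key : ∀ y : (G.obj (LP p)).obj p,
        (∃ x : (G.obj Unit).obj p, (G.map (fun _ : Unit => lpt (c1 p))).app x = y) ∨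
          (G.map (sl p)).app ((G.map (gl p)).app y) = y := by
      intro y
      obtain ⟨l, y, rfl⟩ := h.ex (LP p) p y
      cases l with
      | none =>
        refine Or.inl ⟨bp h.pt Unit p, ?_⟩
        rw [bp_map, none_app h.pt]
      | some x =>
        by_cases hx : x.1 = c1 p
        · refine Or.inl ⟨y, ?_⟩
          rw [← hx, lpt_coe]
        · refine Or.inr ?_
          rw [← G.map_bind, ← G.map_bind]
          have : (fun _ : Unit => (some x).bind fun k => (gl p k).bind (sl p)) =
              fun _ => some x := funext fun _ => gl_sl x hx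
          rw [this]
    exact key y
  · intro p
    refine ⟨bp h.pt Unit p, ?_⟩
    have key : (G.map (fun _ : Unit => lpt (c1 p))).app (bp h.pt Unit p) =
        (G.map (sl p)).app (bp h.pt (Fin p × Unit) p) := by
      rw [bp_map, bp_map]
    exact key

end Gam

/-! ### the homology of the spheres -/

namespace Sp

/-- the simplicial sphere -/
noncomputable abbrev S (N : ℕ) : SS := (Gam.Id.BN N).obj Unit

/-- chain complexes with constant operators -/
theorem hz_of_const (A : SMod R) (M : Type) [AddCommGroup M] [Module R M]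
    (u : ∀ n, A.obj n →ₗ[R] M) (hu : ∀ n, Function.Bijective (u n))
    (h : ∀ {p q : ℕ} (f : Op p q) (x : A.obj q), u p (A.map f x) = u q x) (n : ℕ) (hn : 1 ≤ n) :
    A.cx.HZ n :=
  (hz_congr (A := A.cx) (A' := (cstM R M).cx) (SMod.Hom.cx ⟨u, fun f x => h f x⟩) hu n).2
    (cstM_hz M n hn)

theorem pt_hz (n : ℕ) (hn : 1 ≤ n) : (free R SS.pt).cx.HZ n :=
  hz_of_const (free R SS.pt) (Unit →₀ R) (fun _ => LinearMap.id)
    (fun _ => Function.bijective_id) (fun _ x => Finsupp.mapDomain_id (v := x)) n hn

theorem red_zero_hz (n : ℕ) (hn : n ≠ 0) : (red R (S 0)).cx.HZ n :=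
  hz_of_const (red R (S 0)) ((red R (S 0)).obj 0)
    (fun _ => { toFun := fun x => x, map_add' := fun _ _ => rfl, map_smul' := fun _ _ => rfl })
    (fun _ => Function.bijective_id)
    (fun _ x => Subtype.ext (Finsupp.mapDomain_id (v := x.1))) n (Nat.one_le_iff_ne_zero.2 hn)

theorem finsupp_option (a : Option Unit →₀ R) :
    a = Finsupp.single none (a none) + Finsupp.single (some ()) (a (some ())) := by
  classical
  ext x
  rw [Finsupp.add_apply, Finsupp.single_apply, Finsupp.single_apply]
  cases x with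
  | none => simp
  | some u => cases u; simp

theorem red_zero_gen : Gen (red R (S 0)).cx 0 := by
  have hsum : ∀ a : Option Unit →₀ R, Finsupp.mapDomain (fun _ : Option Unit => ()) a =
      Finsupp.single () (a none + a (some ())) := by
    intro a
    conv_lhs => rw [finsupp_option a]
    rw [Finsupp.mapDomain_add, Finsupp.mapDomain_single, Finsupp.mapDomain_single,
      ← Finsupp.single_add]
  let z : Option Unit →₀ R := Finsupp.single (some ()) 1 - Finsupp.single none 1
  have hz0 : z none = -1 := by simp [z]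
  have hz1 : z (some ()) = 1 := by simp [z]
  have hz : (freeMap R (SS.toPt (S 0))).app 0 z = 0 := by
    refine (hsum z).trans ?_
    rw [hz0, hz1, neg_add_cancel, Finsupp.single_zero]
    rfl
  refine ⟨⟨z, hz⟩, trivial, fun a _ => ⟨(show Option Unit →₀ R from a.1) (some ()), 0, ?_⟩⟩
  have key : ∀ a : Option Unit →₀ R, Finsupp.mapDomain (fun _ : Option Unit => ()) a = 0 →
      a (some ()) • z = a := by
    intro a ha
    rw [hsum] at ha
    have ha' : a none + a (some ()) = 0 := by
      have := DFunLike.congr_fun ha ()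
      simpa using this
    ext x
    cases x with
    | none =>
      rw [Finsupp.smul_apply, hz0, smul_eq_mul, mul_neg, mul_one]
      exact (eq_neg_of_add_eq_zero_left ha').symm
    | some u =>
      cases u
      rw [Finsupp.smul_apply, hz1, smul_eq_mul, mul_one]
  rw [map_zero, zero_add]
  exact Subtype.ext (key a.1 a.2)

/-- the reduced homology of the sphere -/
theorem red_main : ∀ N : ℕ, (∀ n, n ≠ N → (red R (S N)).cx.HZ n) ∧ Gen (red R (S N)).cx N
  | 0 => ⟨red_zero_hz, red_zero_gen⟩
  | N + 1 => by
    obtain ⟨h1, h2⟩ := red_main N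
    have hs := (Gam.Id_wdg.BN N).ses (R := R)
    have hP := Gam.P_hz (R := R) (Gam.Id_wdg.BN N).pt
    refine ⟨fun n hn => hs.hz_right n (hP n) (fun m hm => h1 m (by omega)), ?_⟩
    exact hs.cx.gen_succ N (hP N) (hP (N + 1)) h2

/-- the reduced homology of `S^N` vanishes outside degree `N` -/
theorem red_hz (N n : ℕ) (h : n ≠ N) : (red R (S N)).cx.HZ n := (red_main N).1 n h

/-- the reduced homology of `S^N` is spanned by one class in degree `N` -/
theorem red_gen (N : ℕ) : Gen (red R (S N)).cx N := (red_main N).2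

theorem aug_surj {X : SS} (x : ∀ p, X.obj p) (p : ℕ) :
    Function.Surjective ((freeMap R (SS.toPt X)).app p) := by
  have key : ∀ c : Unit →₀ R, Finsupp.mapDomain (fun _ : X.obj p => ())
      (Finsupp.single (x p) (c ())) = c := by
    intro c
    rw [Finsupp.mapDomain_single]
    exact (Finsupp.unique_single c).symm
  exact fun c => ⟨_, key c⟩

theorem ses_aug {X : SS} (x : ∀ p, X.obj p) :
    SES (SMod.kerI (freeMap R (SS.toPt X))) (freeMap R (SS.toPt X)) :=
  SMod.ses_ker _ (aug_surj x)

/-- the homology of `S^N` vanishes in positive degrees different from `N` -/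
theorem hz (N n : ℕ) (hn : 1 ≤ n) (h : n ≠ N) : (free R (S N)).cx.HZ n :=
  (ses_aug (Gam.bp (Gam.Id_wdg.BN N).pt Unit)).hz_mid n (red_hz N n h) (pt_hz n hn)

/-- the homology of `S^N` in degree `N ≥ 1` is spanned by one class -/
theorem gen (N : ℕ) (hN : 1 ≤ N) : Gen (free R (S N)).cx N :=
  (ses_aug (Gam.bp (Gam.Id_wdg.BN N).pt Unit)).cx.gen_mid N (pt_hz N hN) (red_gen N)

end Sp

end Vale.Agent.P263.GB
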