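import Vale.Agent.P263.GB.Desc
import Vale.Agent.P263.GB.SphH

/-!
# P263, block G2, (GEN): the lowest homology of `B^N G` is generated by the sphere

* `Rd.red_rz0_iff` : relative homology of `free` and of `red` agree; `Gam.rh_iff_free` (degrees
  `≥ 1`); `Gam.rh_zero_iff` : `RH R G K 0` is connectedness.
* `Gam.Pt.rh_BN` : `H~_t(B^N G(K)) = 0` for `t < N`.
* `Gam.Hom.rz0_of_unit` : a map of functors which is onto on `H_N` at `Unit` has
  `RZ0 t`, `t ≤ N`, at every finite set.
* `Gam.gen` : `RZ0 (u_N K) t` for `t ≤ N`, all `N ≥ 1`, all finite `K`, from `N = 1`, `K = Unit`.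
* `Gam.not_rh_BN` : `H_N(B^N G(1)) ≠ 0` for all `N ≥ 1` from `N = 1`.
-/

namespace Vale.Agent.P263.GB

open Vale.Agent.P263.S Vale.Agent.P263.E

variable {R : Type} [CommRing R]

namespace Rd

/-- the relative homology of a map from the one of the kernels of two augmentations -/
theorem rz0_of_ker {A B P A' B' : Cx R} {iA : Cx.Hom A' A} {pA : Cx.Hom A P} {iB : Cx.Hom B' B}
    {pB : Cx.Hom B P} (hA : Cx.SES iA pA) (hB : Cx.SES iB pB) {f : Cx.Hom A B}
    {f' : Cx.Hom A' B'} (h1 : ∀ n x, iB.app n (f'.app n x) = f.app n (iA.app n x))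
    (h2 : ∀ n x, pB.app n (f.app n x) = pA.app n x) (n : ℕ) (h : RZ0 f' n) : RZ0 f n := by
  cases n with
  | zero =>
    rw [rz0_zero] at *
    intro b
    obtain ⟨α, hα⟩ := hA.surj 0 (pB.app 0 b)
    obtain ⟨c, hc⟩ := hB.exact 0 (b - f.app 0 α) (by rw [map_sub, h2, hα, sub_self])
    obtain ⟨b', a', e⟩ := h c
    refine ⟨iB.app 1 b', iA.app 0 a' + α, ?_⟩
    rw [← iB.comm, map_add, ← h1, ← add_assoc, ← map_add, e, hc, sub_add_cancel]
  | succ n =>
    rw [rz0_succ] at *
    intro b a ha hb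
    obtain ⟨α, hα⟩ := hA.surj (n + 1) (pB.app (n + 1) b)
    obtain ⟨c, hc⟩ := hB.exact (n + 1) (b - f.app (n + 1) α) (by
      rw [map_sub, h2, hα, sub_self])
    obtain ⟨a₁, ha₁⟩ := hA.exact n (a + A.d n α) (by
      have h3 := congrArg (pB.app n) hb
      rw [map_add, map_zero, pB.comm, h2] at h3
      rw [map_add, pA.comm, hα]
      exact (add_comm _ _).trans h3)
    obtain ⟨b', a', e1, e2⟩ := h c a₁ (iA.cyc_of_inj (by
      rw [ha₁]
      exact A.cyc_add ha (A.cyc_d n α)) hA.inj) (hB.inj n (by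
        rw [map_add, iB.comm, h1, hc, ha₁, map_sub, map_add, map_zero, ← f.comm, ← hb]
        abel))
    refine ⟨iB.app (n + 2) b', iA.app (n + 1) a' + α, ?_, ?_⟩
    · rw [← iB.comm, map_add, ← h1, ← add_assoc, ← map_add, e1, hc, sub_add_cancel]
    · rw [map_add, ← iA.comm, neg_add, ← map_neg, e2, ha₁]
      abel

/-- **relative homology of reduced chains** -/
theorem red_rz0_iff {X Y : SS} (f : SS.Map X Y) (hX : ∀ p, Nonempty (X.obj p)) (n : ℕ) :
    RZ0 (redMap R f).cx n ↔ RZ0 (freeMap R f).cx n :=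
  ⟨fun h => rz0_of_ker (f := (freeMap R f).cx) (f' := (redMap R f).cx) (redSES hX).cx
    (redSES fun p => ⟨f.app (hX p).some⟩).cx
    (fun _ x => redMap_coe f x) (fun _ x => freeMap_toPt f x) n h, red_rz0 f hX n⟩

/-- reduced and unreduced homology agree in positive degrees -/
theorem red_hz_iff {X : SS} (hX : ∀ p, Nonempty (X.obj p)) (n : ℕ) (hn : 1 ≤ n) :
    (red R X).cx.HZ n ↔ (free R X).cx.HZ n :=
  ⟨fun h => (redSES hX).hz_mid n h (Sp.pt_hz n hn), fun h => red_hz_of_hz (hX 0).some h⟩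

/-- connectedness in terms of reduced homology -/
theorem red_hz_zero_iff {Y : SS} (y₀ : Y.obj 0) : (red R Y).cx.HZ 0 ↔ Conn0 R Y y₀ := by
  refine ⟨conn0_of_red Y y₀, fun h => ?_⟩
  have key : ∀ z : (free R Y).obj 0, ∃ e : (free R Y).obj 1,
      (free R Y).d 0 e = z - (freeMap R (ptc Y y₀)).app 0 z := by
    intro z
    refine Finsupp.induction_linear (motive := fun z : (free R Y).obj 0 =>
      ∃ e : (free R Y).obj 1, (free R Y).d 0 e = z - (freeMap R (ptc Y y₀)).app 0 z) z ?_ ?_ ?_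
    · exact ⟨0, by rw [map_zero]; exact (sub_eq_zero_of_eq (map_zero _).symm).symm⟩
    · rintro (x : (free R Y).obj 0) (y : (free R Y).obj 0) ⟨e, he⟩ ⟨e', he'⟩
      refine ⟨e + e', ?_⟩
      have h3 : (freeMap R (ptc Y y₀)).app 0 (x + y) = (freeMap R (ptc Y y₀)).app 0 x +
          (freeMap R (ptc Y y₀)).app 0 y := map_add _ _ _
      rw [map_add, he, he']
      refine Eq.trans ?_ (congrArg (fun u => x + y - u) h3).symm
      exact (add_sub_add_comm _ _ _ _).symm
    · intro y r
      obtain ⟨e, he⟩ := h y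
      have h3 : (Finsupp.single y r : Y.obj 0 →₀ R) = r • fs R Y y :=
        (Finsupp.smul_single_one y r).symm
      refine ⟨r • e, ?_⟩
      have h4 : (ptc Y y₀).app y = y₀ := dg_zero Y y₀
      rw [h3, map_smul, map_smul, he, freeMap_fs, h4, smul_sub]
  intro (z : (red R Y).obj 0) _
  obtain ⟨e, he⟩ := key z.1
  refine ⟨(redQ R y₀).app 1 e, ?_⟩
  change (red R Y).d 0 ((redQ R y₀).app 1 e) = z
  rw [← SMod.Hom.app_d, he, freeMap_ptc_red, sub_zero, redQ_redI]

end Rd

namespace Gam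

variable {G H : Gam}

theorem rh_iff_free (h : G.Pt) (K : Type) [Finite K] {n : ℕ} (hn : 1 ≤ n) :
    G.RH R K n ↔ (free R (G.obj K)).cx.HZ n := Rd.red_hz_iff (h.nonempty K) n hn

theorem rh_zero_iff (K : Type) [Finite K] (y₀ : (G.obj K).obj 0) :
    G.RH R K 0 ↔ Conn0 R (G.obj K) y₀ := Rd.red_hz_zero_iff y₀

/-- `H~_t(B^N G(K)) = 0` for `t < N` -/
theorem Pt.rh_BN (h : G.Pt) : ∀ (N : ℕ) (K : Type) [Finite K], ∀ t < N, (G.BN N).RH R K t
  | 0, _, _, _, ht => absurd ht (Nat.not_lt_zero _)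
  | N + 1, K, _, t, ht => by
    refine (rh_B_iff (G.BN N) K t).2 ?_
    exact SSMod.diag_hz_le N (rsm R (G.BN N) K) (fun k t ht => Pt.rh_BN h N (Fin k × K) t ht)
      (fun t _ => RH.of_empty (h.BN N) (Fin 0 × K) t) t (Nat.lt_succ_iff.1 ht)

/-- naturality of `rm` -/
theorem Hom.red_nat (a : Hom H G) {K L : Type} [Finite K] [Finite L] (f : K → Option L) {p : ℕ}
    (x : (red R (H.obj K)).obj p) :
    (redMap R (a.app L)).app p ((rm R H f).app p x) =
      (rm R G f).app p ((redMap R (a.app K)).app p x) := by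
  rw [rm, rm, ← redMap_comp_app, ← redMap_comp_app]
  exact redMap_congr (SS.Map.ext fun p x => a.nat f x) x

/-- onto on `H_c` at all finite sets -/
theorem Hom.onto_all (a : Hom H G) (hG : G.Pt) (hS : G.SegalH R) {c : ℕ} (hc : 1 ≤ c)
    (h1 : ∀ t < c, G.RH R Unit t)
    (h2 : ∀ z : (red R (G.obj Unit)).obj c, (red R (G.obj Unit)).cx.Cyc c z →
      ∃ w : (red R (H.obj Unit)).obj c, (red R (H.obj Unit)).cx.Cyc c w ∧
        (red R (G.obj Unit)).cx.Rel c z ((redMap R (a.app Unit)).app c w))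
    (K : Type) [Finite K] (z : (red R (G.obj K)).obj c) (hz : (red R (G.obj K)).cx.Cyc c z) :
    ∃ w : (red R (H.obj K)).obj c, (red R (H.obj K)).cx.Cyc c w ∧
      (red R (G.obj K)).cx.Rel c z ((redMap R (a.app K)).app c w) := by
  have key : ∀ (K : Type) [Finite K], ∀ [Finite K], ∀ z : (red R (G.obj K)).obj c,
      (red R (G.obj K)).cx.Cyc c z → ∃ w : (red R (H.obj K)).obj c,
        (red R (H.obj K)).cx.Cyc c w ∧
          (red R (G.obj K)).cx.Rel c z ((redMap R (a.app K)).app c w) := by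
    intro K _
    refine Finite.induction_empty_option (P := fun K : Type => ∀ [Finite K],
      ∀ z : (red R (G.obj K)).obj c, (red R (G.obj K)).cx.Cyc c z →
        ∃ w : (red R (H.obj K)).obj c, (red R (H.obj K)).cx.Cyc c w ∧
          (red R (G.obj K)).cx.Rel c z ((redMap R (a.app K)).app c w)) ?_ ?_ ?_ K
    · intro α β e hα _ z hz
      have : Finite α := Finite.of_equiv β e.symm
      obtain ⟨w, hw, hr⟩ := hα ((rm R G fun m => some (e.symm m)).app c z)
        ((rm R G fun m => some (e.symm m)).cx.cyc hz)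
      refine ⟨(rm R H fun x => some (e x)).app c w, (rm R H fun x => some (e x)).cx.cyc hw, ?_⟩
      rw [a.red_nat]
      have h3 := hr.map (rm R G fun x => some (e x)).cx
      have h4 : (rm R G fun x => some (e x)).app c
          ((rm R G fun m => some (e.symm m)).app c z) = z :=
        (rm_rm (k := some) (fun m => by simp) z).trans (rm_id (fun _ => rfl) z)
      rw [SMod.Hom.cx_app, SMod.Hom.cx_app, h4] at h3
      exact h3
    · intro _ z _
      refine ⟨0, ?_, Cx.Rel.of_eq ?_⟩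
      · cases c with
        | zero => trivial
        | succ c => exact map_zero _
      · rw [map_zero]
        exact Rd.red_eq_zero (hG.sub PEmpty c) z
    · intro α _ hα _ z hz
      obtain ⟨x, y, w, hx, hy, e⟩ := span_of_bij hG hS (K := α) (L := Unit) (M := Option α)
        (Equiv.optionEquivSumPUnit α).symm (u := fun k => some (some k))
        (v := fun _ => some none) (fun _ => rfl) (fun _ => rfl)
        (fun t ht => RH.all hG hS h1 α t ht) (h1 0 (by omega)) z hz
      obtain ⟨w1, hw1, r1⟩ := hα x hx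
      obtain ⟨w2, hw2, r2⟩ := h2 y hy
      refine ⟨(rm R H fun k => some (some k)).app c w1 + (rm R H fun _ => some none).app c w2,
        (red R (H.obj (Option α))).cx.cyc_add ((rm R H fun k => some (some k)).cx.cyc hw1)
          ((rm R H fun _ => some none).cx.cyc hw2), ?_⟩
      have e5 : (redMap R (a.app (Option α))).app c ((rm R H fun k => some (some k)).app c w1 +
          (rm R H fun _ => some none).app c w2) =
          (rm R G fun k => some (some k)).app c ((redMap R (a.app α)).app c w1) +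
          (rm R G fun _ => some none).app c ((redMap R (a.app Unit)).app c w2) := by
        rw [map_add, a.red_nat, a.red_nat]
      have r3 := (r1.map (rm R G fun k => some (some k)).cx).add
        (r2.map (rm R G fun _ => some none).cx)
      refine Cx.Rel.trans ?_ (r3.trans (Cx.Rel.of_eq e5.symm))
      have e6 : (red R (G.obj (Option α))).d c w =
          z - ((rm R G fun k => some (some k)).app c x + (rm R G fun _ => some none).app c y) := by
        rw [e]
        abel
      exact ⟨w, e6⟩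
  exact key K z hz

/-- **Lemma K for maps**: onto on `H_N` at `Unit` gives `RZ0 t` for `t ≤ N` at all finite sets -/
theorem Hom.rz0_of_unit (a : Hom H G) (hH : H.Pt) (hG : G.Pt) (hS : G.SegalH R) {N : ℕ}
    (hN : 1 ≤ N) (h1 : ∀ t < N, G.RH R Unit t)
    (h2 : ∀ (K : Type) [Finite K], ∀ t < N, H.RH R K t)
    (h3 : RZ0 (freeMap R (a.app Unit)).cx N) (K : Type) [Finite K] (t : ℕ) (ht : t ≤ N) :
    RZ0 (freeMap R (a.app K)).cx t := by
  rw [← Rd.red_rz0_iff _ (hH.nonempty K), Cx.rz0_iff]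
  constructor
  · intro (z : (red R (G.obj K)).obj t) hz
    rcases Nat.lt_or_ge t N with h | h
    · refine ⟨0, ?_, ?_⟩
      · cases t with
        | zero => trivial
        | succ c => exact map_zero _
      · exact ((RH.all hG hS h1 K t h).rel hz).trans (Cx.Rel.of_eq (map_zero _).symm)
    · obtain rfl : t = N := le_antisymm ht h
      exact a.onto_all hG hS hN h1 (fun z hz =>
        ((Cx.rz0_iff _ _).1 (Rd.red_rz0 _ (hH.nonempty Unit) _ h3)).1 z hz) K z hz
  · rintro m hm x hx -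
    exact (h2 K m (by omega)).rel hx

/-- **(GEN)** the maps `u_N : S^N ∧ K₊ → B^N G(K)` have `RZ0 t` for `t ≤ N` -/
theorem gen (hG : G.Pt) (hS : G.SegalH R) (e : (G.obj Unit).obj 0)
    (h1 : RZ0 (freeMap R ((G.unit e).B.app Unit)).cx 1) :
    ∀ N, 1 ≤ N → ∀ (K : Type) [Finite K] (t : ℕ), t ≤ N →
      RZ0 (freeMap R (((G.unit e).BN N).app K)).cx t := by
  intro N hN
  induction N, hN using Nat.le_induction with
  | base =>
    exact Hom.rz0_of_unit (G.unit e).B Id_pt.B hG.B hS.B (N := 1) le_rfl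
      (hG.rh_BN 1 Unit) (Id_pt.rh_BN 1) h1
  | succ N _ ih =>
    intro K _ t ht
    exact Hom.rz0_B_succ (Id_pt.BN N) (hG.BN N) ((G.unit e).BN N) (N + 1)
      (fun K _ t ht => ih K t (by omega)) K t (by omega)

/-- `H_N(B^N G(1)) ≠ 0` propagates upwards -/
theorem not_rh_succ (hG : G.Pt) (hS : G.SegalH R) {N : ℕ} (hN : 1 ≤ N)
    (h : ¬ (G.BN N).RH R Unit N) : ¬ (G.BN (N + 1)).RH R Unit (N + 1) := fun h' =>
  h ((descent (hG.BN N) (hS.BN N) hN (hG.rh_BN N Unit)).2 h')

theorem not_rh_BN (hG : G.Pt) (hS : G.SegalH R) (h : ¬ G.B.RH R Unit 1) :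
    ∀ N, 1 ≤ N → ¬ (G.BN N).RH R Unit N := by
  intro N hN
  induction N, hN using Nat.le_induction with
  | base => exact h
  | succ N hN ih => exact not_rh_succ hG hS hN ih

/-- the same on unreduced homology -/
theorem not_hz_BN (hG : G.Pt) (hS : G.SegalH R) (h : ¬ (free R (G.B.obj Unit)).cx.HZ 1) (N : ℕ)
    (hN : 1 ≤ N) : ¬ (free R ((G.BN N).obj Unit)).cx.HZ N := by
  rw [← rh_iff_free (hG.BN N) Unit hN]
  refine not_rh_BN hG hS ?_ N hN
  rw [rh_iff_free hG.B Unit le_rfl]
  exact h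

end Gam

end Vale.Agent.P263.GB
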