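import Vale.Agent.P263.GB.MCone
import Vale.Agent.P263.GB.DCx

/-!
# P263, block GB: comparison of the simplicial mapping cone with the chain-level mapping cone

`SMod.MCone.kap f : Cx.Hom (cone f.cx) (MCone f).cx`, natural in commutative squares, induces an
isomorphism on homology (`kap_surj`, `kap_inj`).  Consequences: the column form
`SSMod.rz0_diag'` of the relative diagonal lemma and the relative corner lemma
`SSMod.rz0_corner`.
-/

namespace Vale.Agent.P263.GB

open Vale.Agent.P263.S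

variable {R : Type} [CommRing R]

namespace SMod

/-- the contracting homotopy of `cof A` -/
noncomputable abbrev ck (A : SMod R) (p : ℕ) : (cof A).obj p →ₗ[R] (cof A).obj (p + 1) :=
  (cofP A).k p

theorem d_ck_zero (A : SMod R) (x : (cof A).obj 0) : (cof A).d 0 (ck A 0 x) = x := by
  rw [Prism.d_k_zero, cofP_one, cofP_zero, sub_zero]

theorem d_ck (A : SMod R) (p : ℕ) (x : (cof A).obj (p + 1)) :
    (cof A).d (p + 1) (ck A (p + 1) x) = x - ck A p ((cof A).d p x) := by
  have h := (cofP A).d_k_add_k_d p x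
  rw [cofP_one, cofP_zero, sub_zero] at h
  exact eq_sub_of_add_eq h

theorem cofMap_ck {A B : SMod R} (f : Hom A B) (p : ℕ) (x : (cof A).obj p) :
    (cofMap f).app (p + 1) (ck A p x) = ck B p ((cofMap f).app p x) := by
  classical
  change (cofMap f).app (p + 1) ((cofP A).k p x) = (cofP B).k p ((cofMap f).app p x)
  rw [Prism.k_apply, Prism.k_apply, map_sum]
  refine Finset.sum_congr rfl fun i _ => ?_
  rw [CosMod.sn_lin]
  congr 1
  funext n h
  change f.app n (if (th (p + 1) (i + 1)).comp h = c1 n then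
    x n ((sg p i).comp h) else 0) = if (th (p + 1) (i + 1)).comp h = c1 n then
      f.app n (x n ((sg p i).comp h)) else 0
  split_ifs
  · rfl
  · rw [map_zero]

/-- the comparison map -/
noncomputable def MCone.kapApp {A B : SMod R} (f : Hom A B) :
    (n : ℕ) → (cone f.cx).C n →ₗ[R] (MCone f).obj n
  | 0 => (MCone.inl f).app 0
  | n + 1 => (MCone.mk f (n + 1)).comp (LinearMap.prodMap LinearMap.id
      (-((ck A n).comp ((cofI A).app n))))

theorem MCone.kapApp_succ {A B : SMod R} (f : Hom A B) (n : ℕ) (b : B.obj (n + 1))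
    (a : A.obj n) : MCone.kapApp f (n + 1) (b, a) =
      MCone.mk f (n + 1) (b, -ck A n ((cofI A).app n a)) := rfl

theorem MCone.d_mk {A B : SMod R} (f : Hom A B) (n : ℕ) (b : B.obj (n + 1))
    (e : (cof A).obj (n + 1)) :
    (MCone f).d n (MCone.mk f (n + 1) (b, e)) = MCone.mk f n (B.d n b, (cof A).d n e) := by
  rw [← MCone.mk_eq, ← MCone.mk_eq, map_add, ← (MCone.inl f).app_d, ← (MCone.inr f).app_d]

theorem MCone.mk_congr {A B : SMod R} (f : Hom A B) (n : ℕ) (b b' : B.obj n)
    (e e' : (cof A).obj n) (a : A.obj n) (h1 : b - b' = f.app n a)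
    (h2 : e - e' = (cofI A).app n a) : MCone.mk f n (b, e) = MCone.mk f n (b', e') := by
  rw [← sub_eq_zero, ← map_sub]
  exact (MCone.mk_eq_zero f n _ _).2 ⟨a, h1.symm, h2.symm⟩

theorem MCone.kap_comm_zero {A B : SMod R} (f : Hom A B) (b : B.obj 1) (a : A.obj 0) :
    MCone.mk f 0 (B.d 0 b + f.app 0 a, 0) =
      (MCone f).d 0 (MCone.mk f 1 (b, -ck A 0 ((cofI A).app 0 a))) := by
  rw [MCone.d_mk, map_neg, d_ck_zero]
  exact MCone.mk_congr f 0 _ _ _ _ a (by abel) (by abel)

theorem MCone.kap_comm_succ {A B : SMod R} (f : Hom A B) (n : ℕ) (b : B.obj (n + 2))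
    (a : A.obj (n + 1)) :
    MCone.mk f (n + 1) (B.d (n + 1) b + f.app (n + 1) a,
        -ck A n ((cofI A).app n (-(A.d n a)))) =
      (MCone f).d (n + 1) (MCone.mk f (n + 2) (b, -ck A (n + 1) ((cofI A).app (n + 1) a))) := by
  rw [MCone.d_mk, map_neg ((cof A).d (n + 1)), d_ck, ← (cofI A).app_d]
  refine MCone.mk_congr f (n + 1) _ _ _ _ a (by abel) ?_
  rw [map_neg, map_neg]
  abel

/-- the comparison map -/
noncomputable def MCone.kap {A B : SMod R} (f : Hom A B) : Cx.Hom (cone f.cx) (MCone f).cx where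
  app := MCone.kapApp f
  comm n x := by
    cases n with
    | zero =>
      obtain ⟨b, a⟩ := x
      exact MCone.kap_comm_zero f b a
    | succ n =>
      obtain ⟨b, a⟩ := x
      exact MCone.kap_comm_succ f n b a

/-- every cycle of the simplicial mapping cone is homologous to the image of a cycle -/
theorem MCone.kap_surj {A B : SMod R} (f : Hom A B) (n : ℕ) (z : (MCone f).obj n)
    (hz : (MCone f).cx.Cyc n z) : ∃ (x : (cone f.cx).C n) (w : (MCone f).obj (n + 1)),
      (cone f.cx).Cyc n x ∧ z = MCone.kapApp f n x + (MCone f).d n w := by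
  obtain ⟨⟨b, e⟩, rfl⟩ := MCone.mk_surj f n z
  cases n with
  | zero =>
    refine ⟨(b : B.obj 0), MCone.mk f 1 (0, ck A 0 e), trivial, ?_⟩
    change MCone.mk f 0 (b, e) = MCone.mk f 0 (b, 0) + (MCone f).d 0 (MCone.mk f 1 (0, ck A 0 e))
    rw [MCone.d_mk, d_ck_zero, map_zero, ← map_add, Prod.mk_add_mk, add_zero, zero_add]
  | succ n =>
    have hz' : (MCone f).d n (MCone.mk f (n + 1) (b, e)) = 0 := hz
    rw [MCone.d_mk, MCone.mk_eq_zero] at hz'
    obtain ⟨a, ha1, ha2⟩ := hz'
    have key : ∃ w : (MCone f).obj (n + 2), MCone.mk f (n + 1) (b, e) =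
        MCone.mk f (n + 1) (b, -ck A n ((cofI A).app n (-a))) + (MCone f).d (n + 1) w := by
      refine ⟨MCone.mk f (n + 2) (0, ck A (n + 1) (e - ck A n ((cofI A).app n a))), ?_⟩
      have hd : (cof A).d n (e - ck A n ((cofI A).app n a)) = 0 := by
        cases n with
        | zero => rw [map_sub, d_ck_zero, ha2, sub_self]
        | succ n => rw [map_sub, d_ck, ha2, (cof A).d_d, map_zero, sub_zero, sub_self]
      rw [MCone.d_mk, d_ck, hd, map_zero, map_zero, ← map_add, Prod.mk_add_mk, map_neg, map_neg,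
        add_zero]
      congr 2
      abel
    obtain ⟨w, hw⟩ := key
    refine ⟨((b, -a) : B.obj (n + 1) × A.obj n), w, ?_, hw⟩
    change coneD f.cx n (b, -a) = 0
    cases n with
    | zero =>
      change B.d 0 b + f.app 0 (-a) = 0
      rw [map_neg, ha1, add_neg_cancel]
    | succ n =>
      change (B.d (n + 1) b + f.app (n + 1) (-a), -(A.d n (-a))) = (0 : B.obj (n + 1) × A.obj n)
      have hda : A.d n a = 0 := by
        apply cofI_inj A n
        rw [(cofI A).app_d, ha2, (cof A).d_d, map_zero]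
      rw [map_neg, ha1, add_neg_cancel, map_neg, hda, neg_zero, neg_zero]
      rfl

theorem MCone.kap_nat_zero {A B A' B' : SMod R} {f : Hom A B} {f' : Hom A' B'} (a : Hom A A')
    (b : Hom B B') (h : ∀ p x, f'.app p (a.app p x) = b.app p (f.app p x)) (y : B.obj 0) :
    (MCone.map' a b h).app 0 (MCone.mk f 0 (y, 0)) = MCone.mk f' 0 (b.app 0 y, 0) := by
  rw [MCone.map'_mk, map_zero]

theorem MCone.kap_nat_succ {A B A' B' : SMod R} {f : Hom A B} {f' : Hom A' B'} (a : Hom A A')
    (b : Hom B B') (h : ∀ p x, f'.app p (a.app p x) = b.app p (f.app p x)) (n : ℕ)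
    (y : B.obj (n + 1)) (x : A.obj n) :
    (MCone.map' a b h).app (n + 1) (MCone.mk f (n + 1) (y, -ck A n ((cofI A).app n x))) =
      MCone.mk f' (n + 1) (b.app (n + 1) y, -ck A' n ((cofI A').app n (a.app n x))) := by
  rw [MCone.map'_mk, map_neg, cofMap_ck, cofMap_cofI]

/-- naturality of the comparison map -/
theorem MCone.kap_nat {A B A' B' : SMod R} {f : Hom A B} {f' : Hom A' B'} (a : Hom A A')
    (b : Hom B B') (h : ∀ p x, f'.app p (a.app p x) = b.app p (f.app p x)) (n : ℕ)
    (x : (cone f.cx).C n) :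
    (MCone.map' a b h).app n (MCone.kapApp f n x) =
      MCone.kapApp f' n ((coneMap f.cx f'.cx a.cx b.cx fun p x => (h p x).symm).app n x) := by
  cases n with
  | zero => exact MCone.kap_nat_zero a b h x
  | succ n =>
    obtain ⟨y, x⟩ := x
    exact MCone.kap_nat_succ a b h n y x

end SMod

namespace SSMod

variable {V W : SSMod R} (F : Hom V W)

/-- relative homology does not see the order of the two directions -/
theorem rz0_swap (n : ℕ) (h : RZ0 F.swap.diag.cx n) : RZ0 F.diag.cx n := by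
  have eV : ∀ (p : ℕ) (x : V.diag.obj (p + 1)), V.swap.diag.d p x = V.diag.d p x := by
    intro p x
    rw [SMod.d_apply, SMod.d_apply]
    exact Finset.sum_congr rfl fun i _ => congrArg (sn i) ((V.map (dl p i)).nat (dl p i) x).symm
  have eW : ∀ (p : ℕ) (x : W.diag.obj (p + 1)), W.swap.diag.d p x = W.diag.d p x := by
    intro p x
    rw [SMod.d_apply, SMod.d_apply]
    exact Finset.sum_congr rfl fun i _ => congrArg (sn i) ((W.map (dl p i)).nat (dl p i) x).symm
  have cV : ∀ (p : ℕ) (x : V.diag.obj p), V.diag.cx.Cyc p x → V.swap.diag.cx.Cyc p x := by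
    intro p x hx
    cases p with
    | zero => trivial
    | succ p => exact (eV p x).trans hx
  cases n with
  | zero =>
    rw [rz0_zero] at *
    intro b
    obtain ⟨b', a, hb⟩ := h b
    exact ⟨b', a, (congrArg (· + F.diag.app 0 a) (eW 0 b').symm).trans hb⟩
  | succ n =>
    rw [rz0_succ] at *
    intro b a ha hba
    obtain ⟨b', a', h1, h2⟩ := h b a (cV n a ha)
      ((congrArg (· + F.diag.app n a) (eW n b)).trans hba)
    exact ⟨b', a', (congrArg (· + F.diag.app (n + 1) a') (eW (n + 1) b').symm).trans h1,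
      (congrArg (fun z => -z) (eV n a').symm).trans h2⟩

/-- **the relative diagonal lemma**, rows and columns exchanged -/
theorem rz0_diag' (r : ℕ) (h : ∀ m, ∀ t < r, RZ0 (F.swap.app m).cx t) (t : ℕ) (ht : t < r) :
    RZ0 F.diag.cx t := rz0_swap F t (rz0_diag F.swap r h t ht)

/-- the map of cones induced by an outer operator -/
def cmap {k l : ℕ} (f : Op k l) : Cx.Hom (cone (F.app l).cx) (cone (F.app k).cx) :=
  coneMap (F.app l).cx (F.app k).cx (V.map f).cx (W.map f).cx fun _ x => (F.nat f x).symm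

/-- relative form of `Span` -/
def RSpan (r : ℕ) : Prop := ∀ x : (cone (F.app 2).cx).C r, (cone (F.app 2).cx).Cyc r x →
  ∃ (a b : (cone (F.app 1).cx).C r) (c : (cone (F.app 2).cx).C (r + 1)),
    (cone (F.app 1).cx).Cyc r a ∧ (cone (F.app 1).cx).Cyc r b ∧
      x = (cmap F (sg 1 0)).app r a + (cmap F (sg 1 1)).app r b + (cone (F.app 2).cx).d r c

theorem RSpan.span {r : ℕ} (h : RSpan F r) : (MCone F).Span r := by
  intro z hz
  obtain ⟨x, w, hx, hzx⟩ := SMod.MCone.kap_surj (F.app 2) r z hz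
  obtain ⟨a, b, c, ha, hb, hxa⟩ := h x hx
  refine ⟨SMod.MCone.kapApp (F.app 1) r a, SMod.MCone.kapApp (F.app 1) r b,
    SMod.MCone.kapApp (F.app 2) (r + 1) c + w, (SMod.MCone.kap (F.app 1)).cyc ha,
    (SMod.MCone.kap (F.app 1)).cyc hb, ?_⟩
  have e1 : ((MCone F).map (sg 1 0)).app r (SMod.MCone.kapApp (F.app 1) r a) =
      SMod.MCone.kapApp (F.app 2) r ((cmap F (sg 1 0)).app r a) :=
    SMod.MCone.kap_nat (V.map (sg 1 0)) (W.map (sg 1 0)) (fun p x => F.nat (sg 1 0) x) r a
  have e2 : ((MCone F).map (sg 1 1)).app r (SMod.MCone.kapApp (F.app 1) r b) =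
      SMod.MCone.kapApp (F.app 2) r ((cmap F (sg 1 1)).app r b) :=
    SMod.MCone.kap_nat (V.map (sg 1 1)) (W.map (sg 1 1)) (fun p x => F.nat (sg 1 1) x) r b
  have e3 : (SMod.MCone (F.app 2)).d r (SMod.MCone.kapApp (F.app 2) (r + 1) c) =
      SMod.MCone.kapApp (F.app 2) r ((cone (F.app 2).cx).d r c) :=
    ((SMod.MCone.kap (F.app 2)).comm r c).symm
  rw [e1, e2, map_add, e3, hzx, hxa, map_add, map_add]
  abel

/-- **the relative corner lemma** -/
theorem rz0_corner (r : ℕ) (h : ∀ k, ∀ t < r, RZ0 (F.app k).cx t)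
    (h0 : ∀ t ≤ r, RZ0 (F.app 0).cx t) (hs : RSpan F r) :
    (∀ t ≤ r, RZ0 F.diag.cx t) ∧ (RZ0 F.diag.cx (r + 1) → RZ0 (F.app 1).cx r) := by
  obtain ⟨i1, i2⟩ := corner r (MCone F)
    (fun k t ht => (SMod.MCone.hz_iff (F.app k) t).2 (h k t ht))
    (fun t ht => (SMod.MCone.hz_iff (F.app 0) t).2 (h0 t ht)) (RSpan.span F hs)
  exact ⟨fun t ht => (MCone.diag_hz_iff F t).1 (i1 t ht), fun hd =>
    (SMod.MCone.hz_iff (F.app 1) r).1 (i2 ((MCone.diag_hz_iff F (r + 1)).2 hd))⟩

end SSMod

end Vale.Agent.P263.GB
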