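import Vale.Agent.P263.GB.PKRel

/-!
# P263, block G2-2: the strict map `pkDiag y₀ → sing Y`

`pkToSing y₀ : SS.Map (pkDiag y₀) (sing Y)`, `x ↦ (t ↦ (simplex of x(t)) (t))`, natural in
`(Y, y₀)`; for `Y` path connected it has vanishing relative homology in all degrees
(`rz0_pkToSing`).  Also: composites of maps with vanishing relative homology, two out of three.
-/

namespace Vale.Agent.P263.GB

open Vale.Agent.P263.S Vale.Agent.P263.E Vale.Agent.P263.G2 unitInterval

variable {R : Type} [CommRing R]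

section comp

variable {A B C : Cx R}

/-- composites -/
theorem rz0W_comp {f : Cx.Hom A B} {g : Cx.Hom B C} {n : ℕ} (hg : RZ0 g n) (hf : RZ0 f n) :
    RZ0 (g.comp f) n := by
  cases n with
  | zero =>
    rw [rz0_zero] at *
    intro c
    obtain ⟨c', b, rfl⟩ := hg c
    obtain ⟨b', a, rfl⟩ := hf b
    exact ⟨c' + g.app 1 b', a, by rw [map_add, ← g.comm, map_add, Cx.Hom.comp_app]; abel⟩
  | succ n =>
    rw [rz0_succ] at *
    intro c a ha hca
    obtain ⟨c', b', h1, h2⟩ := hg c (f.app n a) (f.cyc ha) hca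
    obtain ⟨b'', a', h3, h4⟩ := hf b' a ha (by rw [← h2]; exact add_neg_cancel _)
    refine ⟨c' + g.app (n + 2) b'', a', ?_, h4⟩
    rw [← h1, ← h3, map_add, ← g.comm, map_add, Cx.Hom.comp_app]
    abel

/-- if `g ∘ f` and `g` are isomorphisms on homology then so is `f` -/
theorem rz0W_left {f : Cx.Hom A B} {g : Cx.Hom B C} {n : ℕ} (h : RZ0 (g.comp f) n)
    (hg : RZ0 g (n + 1)) : RZ0 f n := by
  rw [rz0_succ] at hg
  cases n with
  | zero =>
    rw [rz0_zero] at *
    intro b
    obtain ⟨c', a, hc⟩ := h (g.app 0 b)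
    obtain ⟨c'', b', h1, h2⟩ := hg (-c') (b - f.app 0 a) trivial (by
      rw [map_neg, map_sub, ← hc, Cx.Hom.comp_app]; abel)
    refine ⟨-b', a, ?_⟩
    rw [map_neg, h2, sub_add_cancel]
  | succ n =>
    rw [rz0_succ] at *
    intro b a ha hba
    have h0 : C.d n (g.app (n + 1) b) + (g.comp f).app n a = 0 := by
      rw [Cx.Hom.comp_app, ← g.comm, ← map_add, hba, map_zero]
    obtain ⟨c', a', h1, h2⟩ := h _ a ha h0
    have h3 : C.d (n + 1) (-c') + g.app (n + 1) (b - f.app (n + 1) a') = 0 := by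
      rw [map_neg, map_sub, ← h1, Cx.Hom.comp_app]; abel
    have h4 : B.Cyc (n + 1) (b - f.app (n + 1) a') := by
      rw [Cx.cyc_succ, map_sub, ← f.comm]
      have : A.d n a' = -a := by rw [← h2, neg_neg]
      rw [this, map_neg, sub_neg_eq_add]
      exact hba
    obtain ⟨c'', b', h5, h6⟩ := hg (-c') _ h4 h3
    refine ⟨-b', a', ?_, h2⟩
    rw [map_neg, h6, sub_add_cancel]

/-- if `g ∘ f` and `f` are isomorphisms on homology then so is `g` -/
theorem rz0W_right {f : Cx.Hom A B} {g : Cx.Hom B C} {n : ℕ} (h : RZ0 (g.comp f) n)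
    (hf : ∀ m, m + 1 = n → RZ0 f m) : RZ0 g n := by
  cases n with
  | zero =>
    rw [rz0_zero] at *
    intro c
    obtain ⟨c', a, hc⟩ := h c
    exact ⟨c', f.app 0 a, hc⟩
  | succ n =>
    rw [rz0_succ] at *
    intro c b hb hcb
    have hf' := hf n rfl
    -- `b` is homologous to the image of a cycle `a`
    obtain ⟨b', a, ha, hab⟩ : ∃ (b' : B.C (n + 1)) (a : A.C n), A.Cyc n a ∧
        B.d n b' + f.app n a = b := by
      cases n with
      | zero =>
        rw [rz0_zero] at hf'
        obtain ⟨b', a, h'⟩ := hf' b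
        exact ⟨b', a, trivial, h'⟩
      | succ n =>
        rw [rz0_succ] at hf'
        obtain ⟨b', a, h1, h2⟩ := hf' b 0 (by
          cases n with
          | zero => trivial
          | succ n => exact map_zero _) (by rw [map_zero, add_zero]; exact hb)
        exact ⟨b', a, neg_eq_zero.1 h2, h1⟩
    obtain ⟨c', a', h1, h2⟩ := h (c + g.app (n + 1) b') a ha (by
      rw [map_add, ← g.comm, ← hcb, ← hab, map_add, Cx.Hom.comp_app]; abel)
    refine ⟨c', f.app (n + 1) a' - b', ?_, ?_⟩
    · rw [map_sub]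
      rw [Cx.Hom.comp_app] at h1
      rw [← add_sub_assoc, h1, add_sub_cancel_right]
    · rw [map_sub, ← f.comm, neg_sub, ← hab, ← h2, map_neg]
      abel

end comp

section

variable {Y : Type} [TopologicalSpace Y] (y₀ : Y)

/-- the retraction to the diagonal has vanishing relative homology -/
theorem rz0_diagD (n : ℕ) : RZ0 (freeMap R (diagD Y)).cx n := by
  refine rz0_of_htp (diagD Y) (cstD Y) ?_ ?_ n
  · exact ⟨hD Y, Or.inl ⟨hD_e0, hD_e1⟩⟩
  · rw [diagD_cstD]
    exact HtpRel.refl _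

/-- the map `x ↦ (t ↦ (simplex of x(t)) (t))` -/
noncomputable def pkToSing : SS.Map (pkDiag y₀) (sing Y) := (diagD Y).comp (pkToSx y₀)

theorem toC_pkToSing {p : ℕ} (g : (pkDiag y₀).obj p) (t : Dl p) :
    toC ((pkToSing y₀).app g) t = (pdFun g t).1.1 t := rfl

/-- **The strict comparison map.** -/
theorem rz0_pkToSing [PathConnectedSpace Y] (n : ℕ) : RZ0 (freeMap R (pkToSing y₀)).cx n := by
  have h := rz0W_comp (rz0_diagD (R := R) (Y := Y) n) (rz0_pkToSx (R := R) y₀ n)
  have e : ((freeMap R (diagD Y)).cx.comp (freeMap R (pkToSx y₀)).cx) =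
      (freeMap R (pkToSing y₀)).cx := by
    refine Cx.Hom.ext ?_
    funext m
    refine LinearMap.ext fun x => ?_
    exact (freeMap_comp_app (diagD Y) (pkToSx y₀) x).symm
  rwa [e] at h

variable {y₀} in
theorem pkToSing_nat {Z : Type} [TopologicalSpace Z] {z₀ : Z} (φ : C(Y, Z)) (h : φ y₀ = z₀) :
    (pkToSing z₀).comp (pkDiagMap φ h) = (singMap φ).comp (pkToSing y₀) := rfl

end

end Vale.Agent.P263.GB
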