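import Vale.Agent.P263.GB.Fibs
import Vale.Agent.P263.GB.MCone2
import Vale.Agent.P263.GB.BSS
import Vale.Agent.P263.GB.PKSing

/-!
# P263, block G2 / route B: homotopy pull-backs along maps with acyclic homotopy fibres

`B` any simplicial set, `Z`, `S` topological spaces, `i : B → sing Z`, `g : C(S, Z)`.

* `HF i z` : the homotopy fibre of `i` over `z`;
* `HPB i g` : the homotopy pull-back (the diagonal of the bisimplicial set `hpB i g`), with the
  projections `HPB.toB`, `HPB.toS` and the homotopy `HPB.htp : i ∘ toB ≃ g ∘ toS`;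
* `HPB.rz0` : if all the homotopy fibres `HF i z` are acyclic in degrees `< r` then
  `toS : HPB i g → sing S` has vanishing relative homology in degrees `< r`.
-/

namespace Vale.Agent.P263.GB

open Vale.Agent.P263.S Vale.Agent.P263.E Vale.Agent.P263.G2 unitInterval

variable {R : Type} [CommRing R]

variable {B : SS} {Z S : Type} [TopologicalSpace Z] [TopologicalSpace S]

/-! ### the homotopy fibre -/

/-- the simplices of the homotopy fibre -/
@[ext] structure HFx (i : SS.Map B (sing Z)) (z : Z) (m : ℕ) where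
  /-- the simplex of `B` -/
  b : B.obj m
  /-- the paths -/
  γ : C(Dl m × I, Z)
  h0 : ∀ t, γ (t, 0) = toC (i.app b) t
  h1 : ∀ t, γ (t, 1) = z

/-- the operators of the homotopy fibre -/
noncomputable def HFx.re {i : SS.Map B (sing Z)} {z : Z} {m n : ℕ} (f : Op m n) (x : HFx i z n) :
    HFx i z m where
  b := B.map f x.b
  γ := x.γ.comp ((dmap f).prodMap (ContinuousMap.id I))
  h0 t := by
    show x.γ (dmap f t, 0) = _
    rw [x.h0, i.nat, toC_map]
    rfl
  h1 t := x.h1 _

/-- **the homotopy fibre** of `i : B → sing Z` over `z` -/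
noncomputable def HF (i : SS.Map B (sing Z)) (z : Z) : SS where
  obj m := HFx i z m
  map f x := x.re f
  map_id x := HFx.ext (B.map_id x.b) (by
    refine ContinuousMap.ext fun t => ?_
    show x.γ (dmap OrderHom.id t.1, t.2) = _
    rw [dmap_id]
    rfl)
  map_comp f g x := HFx.ext (B.map_comp f g x.b) (by
    refine ContinuousMap.ext fun t => ?_
    show x.γ (dmap (f.comp g) t.1, t.2) = x.γ (dmap f (dmap g t.1), t.2)
    rw [dmap_comp]
    rfl)

/-- the projection of the homotopy fibre -/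
noncomputable def HF.toB (i : SS.Map B (sing Z)) (z : Z) : SS.Map (HF i z) B :=
  ⟨fun x => HFx.b x, fun _ _ => rfl⟩

/-! ### the homotopy pull-back -/

/-- the simplices of the bisimplicial homotopy pull-back -/
@[ext] structure HPx (i : SS.Map B (sing Z)) (g : C(S, Z)) (k m : ℕ) where
  /-- the simplex of `S` -/
  s : C(Dl k, S)
  /-- the simplex of `B` -/
  b : B.obj m
  /-- the paths -/
  γ : C(Dl k × Dl m × I, Z)
  h0 : ∀ x t, γ (x, t, 0) = toC (i.app b) t
  h1 : ∀ x t, γ (x, t, 1) = g (s x)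

namespace HPx

variable {i : SS.Map B (sing Z)} {g : C(S, Z)} {k l m n : ℕ}

/-- the operators in the direction of `B` -/
noncomputable def re (f : Op m n) (x : HPx i g k n) : HPx i g k m where
  s := x.s
  b := B.map f x.b
  γ := x.γ.comp ((ContinuousMap.id _).prodMap ((dmap f).prodMap (ContinuousMap.id I)))
  h0 u t := by
    show x.γ (u, dmap f t, 0) = _
    rw [x.h0, i.nat, toC_map]
    rfl
  h1 u t := x.h1 _ _

/-- the operators in the direction of `S` -/
noncomputable def rs (f : Op k l) (x : HPx i g l m) : HPx i g k m where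
  s := x.s.comp (dmap f)
  b := x.b
  γ := x.γ.comp ((dmap f).prodMap (ContinuousMap.id _))
  h0 _ _ := x.h0 _ _
  h1 _ _ := x.h1 _ _

@[simp] theorem re_γ (f : Op m n) (x : HPx i g k n) (u : Dl k) (t : Dl m) (s : I) :
    (x.re f).γ (u, t, s) = x.γ (u, dmap f t, s) := rfl

@[simp] theorem rs_γ (f : Op k l) (x : HPx i g l m) (u : Dl k) (t : Dl m) (s : I) :
    (x.rs f).γ (u, t, s) = x.γ (dmap f u, t, s) := rfl

end HPx

/-- the bisimplicial homotopy pull-back -/
noncomputable def hpB (i : SS.Map B (sing Z)) (g : C(S, Z)) : BSS where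
  obj k :=
    { obj := fun m => HPx i g k m
      map := fun f x => x.re f
      map_id := fun x => HPx.ext rfl (B.map_id x.b) (by
        refine ContinuousMap.ext fun t => ?_
        show x.γ (t.1, dmap OrderHom.id t.2.1, t.2.2) = _
        rw [dmap_id]
        rfl)
      map_comp := fun f g x => HPx.ext rfl (B.map_comp f g x.b) (by
        refine ContinuousMap.ext fun t => ?_
        show x.γ (t.1, dmap (f.comp g) t.2.1, t.2.2) = x.γ (t.1, dmap f (dmap g t.2.1), t.2.2)
        rw [dmap_comp]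
        rfl) }
  map f := ⟨fun x => x.rs f, fun _ _ => rfl⟩
  map_id {k m} x := HPx.ext (by
      refine ContinuousMap.ext fun u => ?_
      show x.s (dmap OrderHom.id u) = _
      rw [dmap_id]
      rfl) rfl (by
      refine ContinuousMap.ext fun t => ?_
      show x.γ (dmap OrderHom.id t.1, t.2) = _
      rw [dmap_id]
      rfl)
  map_comp f g x := HPx.ext (by
      refine ContinuousMap.ext fun u => ?_
      show x.s (dmap (f.comp g) u) = x.s (dmap f (dmap g u))
      rw [dmap_comp]
      rfl) rfl (by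
      refine ContinuousMap.ext fun t => ?_
      show x.γ (dmap (f.comp g) t.1, t.2) = x.γ (dmap f (dmap g t.1), t.2)
      rw [dmap_comp]
      rfl)

/-- the bisimplicial set `(k, m) ↦ C(Δ^k, S)` -/
noncomputable def rowB (S : Type) [TopologicalSpace S] : BSS where
  obj k := disc C(Dl k, S)
  map f := ⟨fun (q : C(Dl _, S)) => q.comp (dmap f), fun _ _ => rfl⟩
  map_id (x : C(Dl _, S)) := by
    show x.comp (dmap _) = x
    rw [dmap_id, ContinuousMap.comp_id]
  map_comp f g (x : C(Dl _, S)) := by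
    show x.comp (dmap _) = (x.comp (dmap f)).comp (dmap g)
    rw [dmap_comp, ContinuousMap.comp_assoc]

theorem rowB_diag (S : Type) [TopologicalSpace S] : (rowB S).diag = sing S := rfl

/-- the columns of `hpB` lie over the set of simplices of `S` -/
noncomputable def hpOver (i : SS.Map B (sing Z)) (g : C(S, Z)) (k : ℕ) :
    Over ((hpB i g).obj k) C(Dl k, S) := ⟨fun x => HPx.s x, fun _ _ => rfl⟩

/-- the projection to `S` -/
noncomputable def hpF (i : SS.Map B (sing Z)) (g : C(S, Z)) : BSS.Hom (hpB i g) (rowB S) where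
  app k := (hpOver i g k).toDisc
  nat _ _ := rfl

/-! ### contraction of the columns -/

/-- first coordinate of the deformation -/
noncomputable def m1 : C(I × I, I) where
  toFun x := ⟨max (x.2 : ℝ) (2 * (x.1 : ℝ) - 1), by
    have h1 := x.1.2.2
    have h2 := x.2.2.1
    have h3 := x.2.2.2
    exact ⟨le_max_of_le_left h2, max_le h3 (by linarith)⟩⟩
  continuous_toFun := by fun_prop

/-- second coordinate of the deformation -/
noncomputable def m2 : C(I × I, I) where
  toFun x := ⟨min 1 (2 * (x.1 : ℝ) / (1 + x.2)), by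
    have h1 := x.1.2.1
    have h2 := x.2.2.1
    exact ⟨le_min zero_le_one (by positivity), min_le_left _ _⟩⟩
  continuous_toFun := by
    refine Continuous.subtype_mk ?_ _
    refine continuous_const.min (Continuous.div (by fun_prop) (by fun_prop) fun x => ?_)
    have := x.2.2.1
    positivity

theorem m1_one (s : I) : m1 (s, 1) = 1 := by
  apply Subtype.ext
  show max (1 : ℝ) (2 * (s : ℝ) - 1) = 1
  have := s.2.2
  exact max_eq_left (by linarith)

theorem m1_one' (t : I) : m1 (1, t) = 1 := by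
  apply Subtype.ext
  show max (t : ℝ) (2 * (1 : ℝ) - 1) = 1
  have := t.2.2
  rw [max_eq_right (by linarith)]
  norm_num

theorem m2_one (s : I) : m2 (s, 1) = s := by
  apply Subtype.ext
  show min 1 (2 * (s : ℝ) / (1 + 1)) = s
  have := s.2.2
  rw [min_eq_right (by linarith)]
  ring

theorem m2_one' (t : I) : m2 (1, t) = 1 := by
  apply Subtype.ext
  show min 1 (2 * (1 : ℝ) / (1 + t)) = 1
  have h1 := t.2.2
  have h2 := t.2.1
  refine min_eq_left ?_
  rw [le_div_iff₀ (by linarith)]
  linarith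

theorem m2_zero (t : I) : m2 (0, t) = 0 := by
  apply Subtype.ext
  show min 1 (2 * (0 : ℝ) / (1 + t)) = 0
  simp

theorem m1_zero {s : I} (h : (s : ℝ) ≤ 1 / 2) : m1 (s, 0) = 0 := by
  apply Subtype.ext
  show max (0 : ℝ) (2 * (s : ℝ) - 1) = 0
  exact max_eq_left (by linarith)

theorem m2_zero' {s : I} (h : 1 / 2 ≤ (s : ℝ)) : m2 (s, 0) = 1 := by
  apply Subtype.ext
  show min 1 (2 * (s : ℝ) / (1 + 0)) = 1
  exact min_eq_left (by linarith)

/-- the line from the vertex `0` (at `0`) to `x` (at `1`) -/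
noncomputable def vl (k : ℕ) : C(I × Dl k, Dl k) where
  toFun x := line (stdSimplex.vertex (S := ℝ) (0 : Fin (k + 1))) (σ x.1) x.2
  continuous_toFun := (continuous_line (stdSimplex.vertex (S := ℝ) (0 : Fin (k + 1)))).comp
    ((continuous_symm.comp continuous_fst).prodMk continuous_snd)

theorem vl_one {k : ℕ} (x : Dl k) : vl k (1, x) = x := by
  show line _ (σ 1) x = x
  rw [symm_one, line_zero]

theorem vl_zero {k : ℕ} (x : Dl k) : vl k (0, x) = stdSimplex.vertex 0 := by
  show line _ (σ 0) x = _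
  rw [symm_zero, line_one]

section column

variable (i : SS.Map B (sing Z)) (g : C(S, Z)) {k : ℕ} (s : C(Dl k, S))

/-- restriction of the paths to the vertex `0` -/
noncomputable def hpU {m : ℕ} (x : HPx i g k m) (hx : x.s = s) :
    HFx i (g (s (stdSimplex.vertex 0))) m where
  b := x.b
  γ := x.γ.comp ((ContinuousMap.const _ (stdSimplex.vertex 0)).prodMk (ContinuousMap.id _))
  h0 t := x.h0 _ t
  h1 t := by
    show x.γ (_, t, 1) = _
    rw [x.h1, hx]
    rfl

/-- extension of the paths -/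
noncomputable def hpV {m : ℕ} (y : HFx i (g (s (stdSimplex.vertex 0))) m) : HPx i g k m where
  s := s
  b := y.b
  γ := by
    refine ⟨fun w => if (w.2.2 : ℝ) ≤ 1 / 2 then y.γ (w.2.1, m2 (w.2.2, 0)) else
      g (s (vl k (m1 (w.2.2, 0), w.1))), ?_⟩
    refine Continuous.if_le ?_ ?_ (by fun_prop) continuous_const ?_
    · fun_prop
    · fun_prop
    · intro w hw
      have e1 : m2 (w.2.2, 0) = 1 := m2_zero' (le_of_eq hw.symm)
      have e2 : m1 (w.2.2, 0) = 0 := m1_zero (le_of_eq hw)
      rw [e1, e2, vl_zero, y.h1]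
  h0 u t := by
    show (if ((0 : I) : ℝ) ≤ 1 / 2 then y.γ (t, m2 (0, 0)) else _) = _
    rw [if_pos (by show (0 : ℝ) ≤ 1 / 2; norm_num), m2_zero, y.h0]
  h1 u t := by
    show (if ((1 : I) : ℝ) ≤ 1 / 2 then _ else g (s (vl k (m1 (1, 0), u)))) = _
    rw [if_neg (by show ¬ (1 : ℝ) ≤ 1 / 2; norm_num), m1_one', vl_one]

theorem hpV_γ {m : ℕ} (y : HFx i (g (s (stdSimplex.vertex 0))) m) (u : Dl k) (t : Dl m) (τ : I) :
    (hpV i g s y).γ (u, t, τ) = if (τ : ℝ) ≤ 1 / 2 then y.γ (t, m2 (τ, 0)) else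
      g (s (vl k (m1 (τ, 0), u))) := rfl

/-- the deformation -/
noncomputable def hpH {m : ℕ} (χ : C(Dl m, I)) (x : HPx i g k m) : HPx i g k m where
  s := x.s
  b := x.b
  γ := ⟨fun w => x.γ (vl k (m1 (w.2.2, χ w.2.1), w.1), w.2.1, m2 (w.2.2, χ w.2.1)), by fun_prop⟩
  h0 u t := by
    show x.γ (_, t, m2 (0, χ t)) = _
    rw [m2_zero, x.h0]
  h1 u t := by
    show x.γ (vl k (m1 (1, χ t), u), t, m2 (1, χ t)) = _
    rw [m2_one', m1_one', vl_one, x.h1]

theorem hpH_γ {m : ℕ} (χ : C(Dl m, I)) (x : HPx i g k m) (u : Dl k) (t : Dl m) (τ : I) :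
    (hpH i g χ x).γ (u, t, τ) = x.γ (vl k (m1 (τ, χ t), u), t, m2 (τ, χ t)) := rfl

theorem hpH_one {m : ℕ} (x : HPx i g k m) : hpH i g (chiI (c1 m)) x = x := by
  refine HPx.ext rfl rfl ?_
  refine ContinuousMap.ext fun w => ?_
  obtain ⟨u, t, τ⟩ := w
  rw [hpH_γ, chiI_c1, m1_one, m2_one, vl_one]

theorem hpH_zero {m : ℕ} (x : HPx i g k m) (hx : x.s = s) :
    hpH i g (chiI (c0 m)) x = hpV i g s (hpU i g s x hx) := by
  refine HPx.ext hx rfl ?_
  refine ContinuousMap.ext fun w => ?_
  obtain ⟨u, t, τ⟩ := w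
  rw [hpH_γ, hpV_γ, chiI_c0]
  by_cases h : (τ : ℝ) ≤ 1 / 2
  · rw [if_pos h, m1_zero h, vl_zero]
    rfl
  · rw [if_neg h, m2_zero' (not_le.1 h).le, x.h1, hx]

/-- restriction to the vertex, on the fibre of the column over `s` -/
noncomputable def hpUm : SS.Map ((hpOver i g k).fib s) (HF i (g (s (stdSimplex.vertex 0)))) :=
  ⟨fun x => hpU i g s x.1 x.2, fun _ _ => rfl⟩

/-- extension, on the fibre of the column over `s` -/
noncomputable def hpVm : SS.Map (HF i (g (s (stdSimplex.vertex 0)))) ((hpOver i g k).fib s) where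
  app y := ⟨hpV i g s y, rfl⟩
  nat f y := by
    refine Subtype.ext (HPx.ext rfl rfl ?_)
    refine ContinuousMap.ext fun w => ?_
    obtain ⟨u, t, τ⟩ := w
    rfl

/-- the deformation, on the fibre of the column over `s` -/
noncomputable def hpHm : SS.Htp ((hpOver i g k).fib s) ((hpOver i g k).fib s) where
  h m χ x := ⟨hpH i g (chiI χ) x.1, x.2⟩
  nat {p q} f χ y := by
    refine Subtype.ext (HPx.ext rfl rfl ?_)
    refine ContinuousMap.ext fun w => ?_
    obtain ⟨u, t, τ⟩ := w
    show HPx.γ _ (_, _, m2 (τ, chiI (χ.comp f) t)) = HPx.γ _ (_, _, m2 (τ, chiI χ (dmap f t)))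
    rw [chiI_comp]
    rfl

theorem hpHm_e1 : (hpHm i g s).e1 = SS.Map.id _ :=
  SS.Map.ext fun _ x => Subtype.ext (hpH_one i g x.1)

theorem hpHm_e0 : (hpHm i g s).e0 = (hpVm i g s).comp (hpUm i g s) :=
  SS.Map.ext fun _ x => Subtype.ext (hpH_zero i g s x.1 x.2)

/-- the column over a simplex of `S` is acyclic if the homotopy fibre is -/
theorem rz0_column {n : ℕ} (h : RZ0 (freeMap R (SS.toPt (HF i (g (s (stdSimplex.vertex 0)))))).cx n) :
    RZ0 (freeMap R (SS.toPt ((hpOver i g k).fib s))).cx n := by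
  refine rz0_toPt_of_retract (hpUm i g s) (hpVm i g s) ?_ h
  refine HtpRel.ch ⟨hpHm i g s, Or.inl ⟨hpHm_e0 i g s, hpHm_e1 i g s⟩⟩

end column

/-! ### the homotopy pull-back -/

/-- **the homotopy pull-back** of `i : B → sing Z` and `g : S → Z` -/
noncomputable def HPB (i : SS.Map B (sing Z)) (g : C(S, Z)) : SS := (hpB i g).diag

namespace HPB

variable (i : SS.Map B (sing Z)) (g : C(S, Z))

/-- the projection to `B` -/
noncomputable def toB : SS.Map (HPB i g) B := ⟨fun x => HPx.b x, fun _ _ => rfl⟩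

/-- the projection to `S` -/
noncomputable def toS : SS.Map (HPB i g) (sing S) := (hpF i g).diag

theorem toS_app {p : ℕ} (x : (HPB i g).obj p) : (toS i g).app x = HPx.s x := rfl

/-- the homotopy between the two maps to `Z` -/
noncomputable def htp : SS.Htp (HPB i g) (sing Z) where
  h p χ x := ofC ((HPx.γ x).comp ((ContinuousMap.id _).prodMk
    ((ContinuousMap.id _).prodMk (chiI χ))))
  nat {p q} f χ y := by
    refine ContinuousMap.ext fun t => ?_
    show HPx.γ y (dmap f t, dmap f t, chiI (χ.comp f) t) =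
      HPx.γ y (dmap f t, dmap f t, chiI χ (dmap f t))
    rw [chiI_comp]
    rfl

theorem htp_e0 : (htp i g).e0 = i.comp (toB i g) := by
  refine SS.Map.ext fun p x => ContinuousMap.ext fun t => ?_
  exact (congrArg (fun τ => HPx.γ x (t, t, τ)) (chiI_c0 t)).trans (HPx.h0 x t t)

theorem htp_e1 : (htp i g).e1 = (singMap g).comp (toS i g) := by
  refine SS.Map.ext fun p x => ContinuousMap.ext fun t => ?_
  exact (congrArg (fun τ => HPx.γ x (t, t, τ)) (chiI_c1 t)).trans (HPx.h1 x t t)

/-- **Homotopy pull-backs along maps with acyclic homotopy fibres.** -/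
theorem rz0 (r : ℕ) (hF : ∀ z : Z, ∀ t < r, RZ0 (freeMap R (SS.toPt (HF i z))).cx t) :
    ∀ n < r, RZ0 (freeMap R (toS i g)).cx n := by
  intro n hn
  refine ((hpF i g).rz0_diag_iff (R := R) n).2 ?_
  refine SSMod.rz0_diag _ r (fun k t ht => ?_) n hn
  exact (hpOver i g k).rz0_toDisc fun s => rz0_column i g s (hF _ t ht)

end HPB

end Vale.Agent.P263.GB
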