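import Vale.Agent.P263.TOP.HCol
import Mathlib.Algebra.DirectSum.Module

/-!
# P263: homology of a disjoint union

`X` a simplicial set which is the disjoint union of the images of `j i : Y i ⟶ X` (`i : ι`).

* `projC j hj A i : X.chainComplex A ⟶ (Y i).chainComplex A`: the projection;
* `HSsum_bijective` : `⨁ i, H_d(Y i) → H_d(X)` is bijective;
* for a topological space `X` with a continuous map `D : X → ι`, `ι` discrete, the same for the
  fibres `Fib D i` and singular homology: `SHsum_bijective`.
-/

open CategoryTheory Limits Simplicial Topology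
open scoped DirectSum

namespace Vale.Agent.P263.GB

open TOP (HS hom chm SH)

section split

variable {ι : Type} {X : SSet.{0}} {Y : ι → SSet.{0}} (j : ∀ i, Y i ⟶ X)

/-- `X` is the disjoint union of the images of the `j i`. -/
def IsSplit : Prop :=
  ∀ n : ℕ, Function.Bijective (fun p : Σ i, (Y i) _⦋n⦌ => (j p.1).app _ p.2)

variable {j}

theorem IsSplit.inj (hj : IsSplit j) {n : ℕ} {i i' : ι} {y : (Y i) _⦋n⦌} {y' : (Y i') _⦋n⦌}
    (h : (j i).app _ y = (j i').app _ y') : (⟨i, y⟩ : Σ i, (Y i) _⦋n⦌) = ⟨i', y'⟩ :=
  (hj n).1 h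

theorem IsSplit.inj' (hj : IsSplit j) {n : ℕ} {i : ι} {y y' : (Y i) _⦋n⦌}
    (h : (j i).app _ y = (j i).app _ y') : y = y' := by
  have h1 := hj.inj h
  simpa using h1

theorem IsSplit.exists (hj : IsSplit j) {n : ℕ} (x : X _⦋n⦌) :
    ∃ (i : ι) (y : (Y i) _⦋n⦌), (j i).app _ y = x := by
  obtain ⟨⟨i, y⟩, h⟩ := (hj n).2 x
  exact ⟨i, y, h⟩

variable {k : Type} [CommRing k] (A : ModuleCat.{0} k)

variable (j) in
open Classical in
/-- the projection of a simplex to the summand `i` of the chains -/
noncomputable def projι (i : ι) {n : ℕ} (x : X _⦋n⦌) : A ⟶ ((Y i).chainComplex A).X n :=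
  if h : ∃ y : (Y i) _⦋n⦌, (j i).app _ y = x then (Y i).ιChainComplex h.choose else 0

theorem projι_self (hj : IsSplit j) (i : ι) {n : ℕ} (y : (Y i) _⦋n⦌) :
    projι j A i ((j i).app _ y) = (Y i).ιChainComplex y := by
  have h : ∃ y' : (Y i) _⦋n⦌, (j i).app _ y' = (j i).app _ y := ⟨y, rfl⟩
  rw [projι, dif_pos h, hj.inj' h.choose_spec]

theorem projι_ne (hj : IsSplit j) {i i' : ι} (hi : i ≠ i') {n : ℕ} (y : (Y i') _⦋n⦌) :
    projι j A i ((j i').app _ y) = 0 := by
  have h : ¬ ∃ y' : (Y i) _⦋n⦌, (j i).app _ y' = (j i').app _ y := by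
    rintro ⟨y', h⟩
    exact hi (congrArg Sigma.fst (hj.inj h))
  rw [projι, dif_neg h]

variable (j) in
/-- the projection of the chains of `X` to the chains of `Y i`, in degree `n` -/
noncomputable def projX (i : ι) (n : ℕ) :
    (X.chainComplex A).X n ⟶ ((Y i).chainComplex A).X n :=
  Cofan.IsColimit.desc (X.isColimitChainComplexXCofan A n) (fun x => projι j A i x)

theorem ι_projX (i : ι) {n : ℕ} (x : X _⦋n⦌) :
    X.ιChainComplex x ≫ projX j A i n = projι j A i x :=
  Cofan.IsColimit.fac (X.isColimitChainComplexXCofan A n) _ x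

theorem ι_projX_self (hj : IsSplit j) (i : ι) {n : ℕ} (y : (Y i) _⦋n⦌) :
    X.ιChainComplex ((j i).app _ y) ≫ projX j A i n = (Y i).ιChainComplex y := by
  rw [ι_projX, projι_self A hj]

theorem ι_projX_ne (hj : IsSplit j) {i i' : ι} (hi : i ≠ i') {n : ℕ} (y : (Y i') _⦋n⦌) :
    X.ιChainComplex ((j i').app _ y) ≫ projX j A i n = 0 := by
  rw [ι_projX, projι_ne A hj hi]

theorem δ_app {X Y : SSet.{0}} (f : X ⟶ Y) {n : ℕ} (a : Fin (n + 2)) (x : X _⦋n + 1⦌) :
    Y.δ a (f.app _ x) = f.app _ (X.δ a x) := by
  have := SimplicialObject.δ_naturality f a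
  exact (ConcreteCategory.congr_hom this x).symm

/-- the projection of the chains of `X` to the chains of `Y i` -/
noncomputable def projC (hj : IsSplit j) (i : ι) :
    X.chainComplex A ⟶ (Y i).chainComplex A where
  f n := projX j A i n
  comm' := by
    rintro a n (rfl : n + 1 = a)
    refine SSet.chainComplex_hom_ext fun x => ?_
    obtain ⟨i', y, rfl⟩ := hj.exists x
    rw [SSet.ιChainComplex_d_assoc, Preadditive.sum_comp, ← Category.assoc]
    by_cases hi : i = i'
    · subst hi
      rw [ι_projX_self A hj, SSet.ιChainComplex_d]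
      refine Finset.sum_congr rfl fun a _ => ?_
      rw [Preadditive.zsmul_comp, δ_app, ι_projX_self A hj]
    · rw [ι_projX_ne A hj hi, zero_comp]
      symm
      refine Finset.sum_eq_zero fun a _ => ?_
      rw [Preadditive.zsmul_comp, δ_app, ι_projX_ne A hj hi, smul_zero]

theorem map_projC_self (hj : IsSplit j) (i : ι) :
    SSet.chainComplexMap (j i) A ≫ projC A hj i = 𝟙 _ := by
  ext n : 1
  refine SSet.chainComplex_hom_ext fun y => ?_
  rw [HomologicalComplex.comp_f, SSet.ι_chainComplexMap_f_assoc]
  exact (ι_projX_self A hj i y).trans (Category.comp_id _).symm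

theorem map_projC_ne (hj : IsSplit j) {i i' : ι} (hi : i ≠ i') :
    SSet.chainComplexMap (j i') A ≫ projC A hj i = 0 := by
  ext n : 1
  refine SSet.chainComplex_hom_ext fun y => ?_
  rw [HomologicalComplex.comp_f, SSet.ι_chainComplexMap_f_assoc]
  exact (ι_projX_ne A hj hi y).trans (comp_zero).symm

/-- The chains of `X` are generated by the images of the chains of the `Y i`. -/
theorem iSup_range_chm (hj : IsSplit j) (n : ℕ) :
    ⨆ i, LinearMap.range (chm A (j i) n).hom = ⊤ := by
  set P := ⨆ i, LinearMap.range (chm A (j i) n).hom with hP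
  have h : (ModuleCat.ofHom P.mkQ : (X.chainComplex A).X n ⟶ ModuleCat.of k _) = 0 := by
    refine SSet.chainComplex_hom_ext fun x => ?_
    obtain ⟨i, y, rfl⟩ := hj.exists x
    ext a
    have h1 := ConcreteCategory.congr_hom
      (SSet.ι_chainComplexMap_f (X := Y i) (Y := X) (f := j i) (R := A) y) a
    have h2 : (X.ιChainComplex (R := A) ((j i).app _ y)).hom a ∈ P := by
      have h3 : (X.ιChainComplex (R := A) ((j i).app _ y)).hom a =
        (chm A (j i) n).hom (((Y i).ιChainComplex (R := A) y).hom a) := h1.symm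
      rw [h3]
      exact (le_iSup (fun i => LinearMap.range (chm A (j i) n).hom) i) ⟨_, rfl⟩
    exact (Submodule.Quotient.mk_eq_zero P).2 h2
  rw [eq_top_iff]
  intro x _
  have h1 := ConcreteCategory.congr_hom h x
  exact (Submodule.Quotient.mk_eq_zero P).1 h1

/-- the projection on homology -/
noncomputable def projH (hj : IsSplit j) (d : ℕ) (i : ι) : HS A X d ⟶ HS A (Y i) d :=
  HomologicalComplex.homologyMap (projC A hj i) d

theorem projH_self (hj : IsSplit j) (d : ℕ) (i : ι) (y : HS A (Y i) d) :
    projH A hj d i (hom A (j i) d y) = y := by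
  have h : hom A (j i) d ≫ projH A hj d i = 𝟙 _ := by
    rw [projH, hom, SSet.homologyMap, ← HomologicalComplex.homologyMap_comp, map_projC_self,
      HomologicalComplex.homologyMap_id]
  exact ConcreteCategory.congr_hom h y

theorem projH_ne (hj : IsSplit j) (d : ℕ) {i i' : ι} (hi : i ≠ i') (y : HS A (Y i') d) :
    projH A hj d i (hom A (j i') d y) = 0 := by
  have h : hom A (j i') d ≫ projH A hj d i = 0 := by
    rw [projH, hom, SSet.homologyMap, ← HomologicalComplex.homologyMap_comp,
      map_projC_ne A hj hi, HomologicalComplex.homologyMap_zero]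
  exact ConcreteCategory.congr_hom h y

theorem iSup_range_hom (hj : IsSplit j) (d : ℕ) :
    ⨆ i, LinearMap.range (hom A (j i) d).hom = ⊤ := by
  classical
  rw [eq_top_iff]
  intro x _
  obtain ⟨z, rfl⟩ := TOP.homologyπ_surjective _ d x
  have hz : (X.chainComplex A).iCycles d z ∈ ⨆ i, LinearMap.range (chm A (j i) d).hom := by
    rw [iSup_range_chm A hj]; trivial
  rw [Submodule.mem_iSup_iff_exists_finsupp] at hz
  obtain ⟨f, hf, hsum⟩ := hz
  choose w hw using hf
  -- the components of a cycle are cycles
  have hp : ∀ i, (projC A hj i).f d ((X.chainComplex A).iCycles d z) = w i := by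
    intro i
    rw [← hsum, Finsupp.sum, map_sum]
    have h1 : ∀ i', (projC A hj i).f d (f i') = if i' = i then w i else 0 := by
      intro i'
      rw [← hw i']
      split_ifs with h
      · subst h
        exact ConcreteCategory.congr_hom
          (congrArg (fun g => HomologicalComplex.Hom.f g d) (map_projC_self A hj i')) (w i')
      · exact ConcreteCategory.congr_hom
          (congrArg (fun g => HomologicalComplex.Hom.f g d) (map_projC_ne A hj (Ne.symm h))) (w i')
    rw [Finset.sum_congr rfl (fun i' _ => h1 i'), Finset.sum_ite_eq']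
    split_ifs with h
    · rfl
    · have h2 : f i = 0 := by simpa using h
      have h3 := h1 i
      rw [h2, map_zero, if_pos rfl] at h3
      exact h3
  have hc : ∀ i, ∃ v : ((Y i).chainComplex A).cycles d, ((Y i).chainComplex A).iCycles d v = w i := by
    intro i
    refine TOP.exists_cycle _ rfl _ ?_
    rw [← hp i]
    have h1 := ConcreteCategory.congr_hom ((projC A hj i).comm d ((ComplexShape.down ℕ).next d))
      ((X.chainComplex A).iCycles d z)
    refine h1.trans ?_
    have h2 := TOP.d_iCycles (X.chainComplex A) d ((ComplexShape.down ℕ).next d) z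
    show (projC A hj i).f _ ((X.chainComplex A).d d _ ((X.chainComplex A).iCycles d z)) = 0
    rw [h2, map_zero]
  choose v hv using hc
  have hfin : (X.chainComplex A).iCycles d z =
      ∑ i ∈ f.support, (X.chainComplex A).iCycles d
        (HomologicalComplex.cyclesMap (SSet.chainComplexMap (j i) A) d (v i)) := by
    rw [← hsum, Finsupp.sum]
    refine Finset.sum_congr rfl fun i _ => ?_
    have h1 := ConcreteCategory.congr_hom
      (HomologicalComplex.cyclesMap_i (SSet.chainComplexMap (j i) A) d) (v i)
    refine Eq.trans ?_ h1.symm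
    show f i = (SSet.chainComplexMap (j i) A).f d (((Y i).chainComplex A).iCycles d (v i))
    rw [hv i]
    exact (hw i).symm
  rw [← map_sum] at hfin
  have hz' := TOP.iCycles_injective (X.chainComplex A) d hfin
  rw [hz', map_sum]
  refine Submodule.sum_mem _ fun i _ => ?_
  refine (le_iSup (fun i => LinearMap.range (hom A (j i) d).hom) i)
    ⟨((Y i).chainComplex A).homologyπ d (v i), ?_⟩
  exact ConcreteCategory.congr_hom
    (HomologicalComplex.homologyπ_naturality (SSet.chainComplexMap (j i) A) d) (v i)

/-- **Generation**: every homology class is a finite sum of classes of the summands. -/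
theorem exists_sum (hj : IsSplit j) (d : ℕ) (x : HS A X d) :
    ∃ (s : Finset ι) (y : ∀ i, HS A (Y i) d), x = ∑ i ∈ s, hom A (j i) d (y i) := by
  have hx : x ∈ ⨆ i, LinearMap.range (hom A (j i) d).hom := by
    rw [iSup_range_hom A hj]; trivial
  rw [Submodule.mem_iSup_iff_exists_finsupp] at hx
  obtain ⟨f, hf, hsum⟩ := hx
  choose w hw using hf
  refine ⟨f.support, w, ?_⟩
  rw [← hsum, Finsupp.sum]
  exact Finset.sum_congr rfl fun i _ => (hw i).symm

/-- **Independence**. -/
theorem eq_zero_of_sum (hj : IsSplit j) (d : ℕ) (s : Finset ι) (y : ∀ i, HS A (Y i) d)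
    (h : ∑ i ∈ s, hom A (j i) d (y i) = 0) (i : ι) (hi : i ∈ s) : y i = 0 := by
  classical
  have h1 := congrArg (projH A hj d i) h
  rw [map_sum, map_zero, Finset.sum_eq_single_of_mem i hi, projH_self] at h1
  · exact h1
  · intro i' _ hi'
    exact projH_ne A hj d (Ne.symm hi') _

theorem hom_injective (hj : IsSplit j) (d : ℕ) (i : ι) : Function.Injective (hom A (j i) d) :=
  Function.LeftInverse.injective (projH_self A hj d i)

/-- the map `⨁ i, H_d(Y i) → H_d(X)` -/
noncomputable def HSsum [DecidableEq ι] (j : ∀ i, Y i ⟶ X) (d : ℕ) :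
    (⨁ i, HS A (Y i) d) →ₗ[k] HS A X d :=
  DirectSum.toModule k ι _ fun i => (hom A (j i) d).hom

theorem HSsum_of [DecidableEq ι] (d : ℕ) (i : ι) (y : HS A (Y i) d) :
    HSsum A j d (DirectSum.lof k ι (fun i => HS A (Y i) d) i y) = hom A (j i) d y :=
  DirectSum.toModule_lof (M := fun i => HS A (Y i) d) (N := HS A X d)
    (φ := fun i => (hom A (j i) d).hom) k i y

theorem projH_HSsum [DecidableEq ι] (hj : IsSplit j) (d : ℕ) (i : ι) (x : ⨁ i, HS A (Y i) d) :
    projH A hj d i (HSsum A j d x) = x i := by
  have h : (projH A hj d i).hom ∘ₗ HSsum A j d = DirectSum.component k ι _ i := by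
    refine DirectSum.linearMap_ext k fun i' => LinearMap.ext fun y => ?_
    show projH A hj d i (HSsum A j d (DirectSum.lof k ι (fun i => HS A (Y i) d) i' y)) =
      (DirectSum.lof k ι (fun i => HS A (Y i) d) i' y) i
    rw [HSsum_of]
    by_cases hi : i = i'
    · subst hi
      rw [projH_self]
      exact (DirectSum.lof_apply (M := fun i => HS A (Y i) d) k i y).symm
    · rw [projH_ne A hj d hi]
      exact (DirectSum.of_eq_of_ne (β := fun i => HS A (Y i) d) i' i y hi).symm
  exact LinearMap.congr_fun h x

/-- **The homology of a disjoint union is the direct sum of the homologies.** -/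
theorem HSsum_bijective [DecidableEq ι] (hj : IsSplit j) (d : ℕ) :
    Function.Bijective (HSsum A j d) := by
  constructor
  · rw [injective_iff_map_eq_zero]
    intro x hx
    ext i
    have h := projH_HSsum A hj d i x
    rw [hx, map_zero] at h
    exact h.symm
  · intro x
    obtain ⟨s, y, rfl⟩ := exists_sum A hj d x
    refine ⟨∑ i ∈ s, DirectSum.lof k ι (fun i => HS A (Y i) d) i (y i), ?_⟩
    rw [map_sum]
    exact Finset.sum_congr rfl fun i _ => HSsum_of A d i (y i)

end split

/-! ### Spaces -/

section spaces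

variable {X : TopCat.{0}} {ι : Type} (D : X → ι)

/-- the fibre of a map -/
def Fib (i : ι) : TopCat.{0} := TopCat.of {x : X // D x = i}

/-- the inclusion of the fibre -/
def Fib.incl (i : ι) : Fib D i ⟶ X := TopCat.ofHom ⟨Subtype.val, continuous_subtype_val⟩

theorem Fib.incl_apply (i : ι) (x : Fib D i) : Fib.incl D i x = x.1 := rfl

variable {D}

/-- a continuous map to a discrete space is constant on simplices -/
theorem const_on_simplex [TopologicalSpace ι] [DiscreteTopology ι] (hD : Continuous D)
    {K : Type*} [TopologicalSpace K] [PreconnectedSpace K] {s : K → X} (hs : Continuous s)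
    (a b : K) : D (s a) = D (s b) :=
  PreconnectedSpace.constant inferInstance (hD.comp hs)

/-- the corestriction of a map to a fibre -/
def Fib.lift {K : Type*} [TopologicalSpace K] (s : C(K, X)) {i : ι} (h : ∀ a, D (s a) = i) :
    C(K, Fib D i) :=
  ⟨fun a => ⟨s a, h a⟩, Continuous.subtype_mk s.continuous _⟩

/-- **A space with a locally constant function is, after `Sing`, the disjoint union of the
fibres.** -/
theorem isSplit_fib [TopologicalSpace ι] [DiscreteTopology ι] (hD : Continuous D) :
    IsSplit (fun i => TopCat.toSSet.map (Fib.incl D i)) := by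
  intro n
  constructor
  · rintro ⟨i, y⟩ ⟨i', y'⟩ h
    have h1 := congrArg (TopCat.toSSetObjEquiv X _) h
    simp only [TOP.toSSetObjEquiv_map] at h1
    have h2 : i = i' := by
      have a : stdSimplex ℝ (Fin (n + 1)) := Classical.arbitrary _
      have h3 := DFunLike.congr_fun h1 a
      have h4 := ((TopCat.toSSetObjEquiv (Fib D i) _) y a).2
      have h5 := ((TopCat.toSSetObjEquiv (Fib D i') _) y' a).2
      exact h4.symm.trans ((congrArg D h3).trans h5)
    subst h2
    have h3 : y = y' := by
      apply (TopCat.toSSetObjEquiv (Fib D i) _).injective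
      exact ContinuousMap.ext fun a => Subtype.ext (DFunLike.congr_fun h1 a)
    rw [h3]
  · intro x
    set s := TopCat.toSSetObjEquiv X _ x with hs
    have a : stdSimplex ℝ (Fin (n + 1)) := Classical.arbitrary _
    have h : ∀ b, D (s b) = D (s a) := fun b => const_on_simplex hD s.continuous b a
    refine ⟨⟨D (s a), (TopCat.toSSetObjEquiv (Fib D _) _).symm (Fib.lift s h)⟩, ?_⟩
    apply (TopCat.toSSetObjEquiv X _).injective
    simp only [TOP.toSSetObjEquiv_map]
    rw [Equiv.apply_symm_apply]
    exact ContinuousMap.ext fun b => rfl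

variable {k : Type} [CommRing k] (A : ModuleCat.{0} k)

/-- **Generation**: homology classes are finite sums of classes of the fibres. -/
theorem exists_sum_SH [TopologicalSpace ι] [DiscreteTopology ι] (hD : Continuous D) (d : ℕ)
    (x : (SH A d).obj X) :
    ∃ (s : Finset ι) (y : ∀ i, (SH A d).obj (Fib D i)),
      x = ∑ i ∈ s, (SH A d).map (Fib.incl D i) (y i) :=
  exists_sum A (isSplit_fib hD) d x

/-- **Independence**. -/
theorem eq_zero_of_sum_SH [TopologicalSpace ι] [DiscreteTopology ι] (hD : Continuous D) (d : ℕ)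
    (s : Finset ι) (y : ∀ i, (SH A d).obj (Fib D i))
    (h : ∑ i ∈ s, (SH A d).map (Fib.incl D i) (y i) = 0) (i : ι) (hi : i ∈ s) : y i = 0 :=
  eq_zero_of_sum A (isSplit_fib hD) d s y h i hi

theorem SH_incl_injective [TopologicalSpace ι] [DiscreteTopology ι] (hD : Continuous D) (d : ℕ)
    (i : ι) : Function.Injective ((SH A d).map (Fib.incl D i)) :=
  hom_injective A (isSplit_fib hD) d i

/-- the retraction of the homology of `X` on the homology of a fibre -/
noncomputable def projSH [TopologicalSpace ι] [DiscreteTopology ι] (hD : Continuous D) (d : ℕ)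
    (i : ι) : (SH A d).obj X ⟶ (SH A d).obj (Fib D i) :=
  projH A (isSplit_fib hD) d i

theorem projSH_self [TopologicalSpace ι] [DiscreteTopology ι] (hD : Continuous D) (d : ℕ)
    (i : ι) (y : (SH A d).obj (Fib D i)) :
    projSH A hD d i ((SH A d).map (Fib.incl D i) y) = y :=
  projH_self A (isSplit_fib hD) d i y

theorem projSH_ne [TopologicalSpace ι] [DiscreteTopology ι] (hD : Continuous D) (d : ℕ)
    {i i' : ι} (hi : i ≠ i') (y : (SH A d).obj (Fib D i')) :
    projSH A hD d i ((SH A d).map (Fib.incl D i') y) = 0 :=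
  projH_ne A (isSplit_fib hD) d hi y

/-- **The singular homology of a space with a locally constant function is the direct sum of the
homologies of the fibres.** -/
theorem SHsum_bijective [DecidableEq ι] [TopologicalSpace ι] [DiscreteTopology ι]
    (hD : Continuous D) (d : ℕ) :
    Function.Bijective (HSsum A (fun i => TopCat.toSSet.map (Fib.incl D i)) d) :=
  HSsum_bijective A (isSplit_fib hD) d

end spaces

end Vale.Agent.P263.GB
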