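import Vale.Agent.P263.GB.UnionRZ
import Vale.Agent.P263.GB.Cone

/-!
# P263, block G2: relative homology and homotopies

* `rz0_succ_iff` : `RZ0 f (n + 1)` iff `f` is injective on `H_n` and surjective on `H_{n+1}`.
* `CH.rz0` : `RZ0` only depends on the map up to `CH` (agreement on cycles up to boundaries).
* `rz0_sq` : homotopy commutative squares.
-/

namespace Vale.Agent.P263.GB

open Vale.Agent.P263.S Vale.Agent.P263.E

variable {R : Type} [CommRing R]

/-- injective on `H_n`, elementwise -/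
def InjZ {A B : Cx R} (f : Cx.Hom A B) (n : ℕ) : Prop :=
  ∀ a : A.C n, A.Cyc n a → (∃ y, B.d n y = f.app n a) → ∃ z, A.d n z = a

/-- surjective on `H_n`, elementwise -/
def SurZ {A B : Cx R} (f : Cx.Hom A B) (n : ℕ) : Prop :=
  ∀ b : B.C n, B.Cyc n b → ∃ a y, A.Cyc n a ∧ B.d n y + f.app n a = b

theorem rz0_zero_iff {A B : Cx R} (f : Cx.Hom A B) : RZ0 f 0 ↔ SurZ f 0 := by
  constructor
  · intro h b hb
    exact Cx.Hom.surj_of_rz0 h b hb
  · intro h
    rw [rz0_zero]
    intro b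
    obtain ⟨a, y, _, h⟩ := h b trivial
    exact ⟨y, a, h⟩

theorem rz0_succ_iff {A B : Cx R} (f : Cx.Hom A B) (n : ℕ) :
    RZ0 f (n + 1) ↔ InjZ f n ∧ SurZ f (n + 1) := by
  constructor
  · intro h
    exact ⟨fun a ha hf => Cx.Hom.inj_of_rz0 h a ha hf, fun b hb => Cx.Hom.surj_of_rz0 h b hb⟩
  · rintro ⟨hi, hs⟩
    rw [rz0_succ]
    intro b a ha hba
    obtain ⟨z, hz⟩ := hi a ha ⟨-b, by rw [map_neg]; exact (eq_neg_of_add_eq_zero_right hba).symm⟩
    have h2 : B.Cyc (n + 1) (b + f.app (n + 1) z) := by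
      rw [Cx.cyc_succ, map_add, ← f.comm, hz]
      exact hba
    obtain ⟨c, w, hc, hw⟩ := hs _ h2
    refine ⟨w, c - z, ?_, ?_⟩
    · rw [map_sub, ← add_sub_assoc, hw, add_sub_cancel_right]
    · rw [map_sub, hz, (show A.d n c = 0 from hc), zero_sub, neg_neg]

theorem CH.injZ {X Y : SS} {f g : SS.Map X Y} (h : CH R f g) {n : ℕ}
    (hf : InjZ (freeMap R f).cx n) : InjZ (freeMap R g).cx n := by
  intro a ha hy
  obtain ⟨y, hy⟩ := hy
  refine hf a ha ?_
  obtain ⟨w, hw⟩ := h n a ha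
  refine ⟨(show (free R Y).obj (n + 1) from y) + w, ?_⟩
  show (free R Y).d n (_ + w) = (freeMap R f).app n a
  rw [map_add, hw, show (free R Y).d n y = (freeMap R g).app n a from hy]
  abel

theorem CH.surZ {X Y : SS} {f g : SS.Map X Y} (h : CH R f g) {n : ℕ}
    (hf : SurZ (freeMap R f).cx n) : SurZ (freeMap R g).cx n := by
  intro b hb
  obtain ⟨a, y, ha, hy⟩ := hf b hb
  obtain ⟨w, hw⟩ := h n a ha
  refine ⟨a, (show (free R Y).obj (n + 1) from y) + w, ha, ?_⟩
  show (free R Y).d n (_ + w) + (freeMap R g).app n a = b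
  rw [map_add, hw, ← show (free R Y).d n y + (freeMap R f).app n a = b from hy]
  abel

/-- **`RZ0` is invariant under homotopy.** -/
theorem CH.rz0 {X Y : SS} {f g : SS.Map X Y} (h : CH R f g) {n : ℕ}
    (hf : RZ0 (freeMap R f).cx n) : RZ0 (freeMap R g).cx n := by
  cases n with
  | zero =>
    rw [rz0_zero_iff] at hf ⊢
    exact h.surZ hf
  | succ n =>
    rw [rz0_succ_iff] at hf ⊢
    exact ⟨h.injZ hf.1, h.surZ hf.2⟩

/-! ### composites of simplicial maps -/

section comp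

variable {X Y Z : SS} (f : SS.Map X Y) (g : SS.Map Y Z)

theorem rz0_hom_congr {A B : Cx R} {f g : Cx.Hom A B} (h : ∀ n x, f.app n x = g.app n x) {n : ℕ}
    (hf : RZ0 f n) : RZ0 g n := by
  obtain rfl : f = g := Cx.Hom.ext (funext fun n => LinearMap.ext fun x => h n x)
  exact hf

theorem rz0_free_comp {n : ℕ} (hf : RZ0 (freeMap R f).cx n) (hg : RZ0 (freeMap R g).cx n) :
    RZ0 (freeMap R (g.comp f)).cx n :=
  rz0_hom_congr (fun _ x => (freeMap_comp_app g f x).symm)
    (rz0_comp (freeMap R f).cx (freeMap R g).cx n hf hg)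

/-- from the composite and the first map (one degree lower) to the second map -/
theorem rz0_free_right {n : ℕ} (hgf : RZ0 (freeMap R (g.comp f)).cx n)
    (hf : ∀ m, m + 1 = n → RZ0 (freeMap R f).cx m) : RZ0 (freeMap R g).cx n :=
  rz0_right (freeMap R f).cx (freeMap R g).cx n
    (rz0_hom_congr (fun _ x => freeMap_comp_app g f x) hgf) hf

/-- from the composite and the second map (one degree higher) to the first map -/
theorem rz0_free_left {n : ℕ} (hgf : RZ0 (freeMap R (g.comp f)).cx n)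
    (hg : RZ0 (freeMap R g).cx (n + 1)) : RZ0 (freeMap R f).cx n :=
  rz0_left (freeMap R f).cx (freeMap R g).cx n
    (rz0_hom_congr (fun _ x => freeMap_comp_app g f x) hgf) hg

end comp

/-- **Homotopy commutative squares**: `u`, `v` homology isomorphisms, `v f ≃ g u`; then `RZ0 f n`
implies `RZ0 g n`. -/
theorem rz0_sq {X Y X' Y' : SS} (f : SS.Map X Y) (g : SS.Map X' Y') (u : SS.Map X X')
    (v : SS.Map Y Y') (h : CH R (v.comp f) (g.comp u)) (hu : ∀ n, RZ0 (freeMap R u).cx n)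
    (hv : ∀ n, RZ0 (freeMap R v).cx n) {n : ℕ} (hf : RZ0 (freeMap R f).cx n) :
    RZ0 (freeMap R g).cx n :=
  rz0_free_right u g (h.rz0 (rz0_free_comp f v hf (hv n))) fun m _ => hu m

/-- **Homotopy commutative squares**, the other direction. -/
theorem rz0_sq' {X Y X' Y' : SS} (f : SS.Map X Y) (g : SS.Map X' Y') (u : SS.Map X X')
    (v : SS.Map Y Y') (h : CH R (v.comp f) (g.comp u)) (hu : ∀ n, RZ0 (freeMap R u).cx n)
    (hv : ∀ n, RZ0 (freeMap R v).cx n) {n : ℕ} (hg : RZ0 (freeMap R g).cx n) :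
    RZ0 (freeMap R f).cx n :=
  rz0_free_left f v (h.symm.rz0 (rz0_free_comp u g (hu n) hg)) (hv _)

end Vale.Agent.P263.GB
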