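import Vale.Agent.P263.G2.UC
import Vale.Agent.P263.GB.Base
import Vale.Agent.P263.G.Zig

/-!
# P263, block G2-10: sequential colimits of simplicial sets and zigzags

`IsTel X s T` : the simplicial set `T` is the colimit of `X 0 → X 1 → ⋯` (not necessarily injective
maps).  `IsTel.hInj`, `IsTel.hSurj` : if all `s n`, `n ≥ N`, are injective / bijective on `H_p`, then
`X N → T` is injective / surjective on `H_p`.  `conn_of_tel` : the zigzag
`X N → TX → TY ← Y 0`.
-/

open Vale.Agent.P263.S Vale.Agent.P263.E Vale.Agent.P263.G2 Vale.Agent.P263.G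

namespace Vale.Agent.P263.GB

/-- the iterated transition maps -/
def itS (X : ℕ → SS) (s : ∀ n, SS.Map (X n) (X (n + 1))) (n : ℕ) : ∀ m, SS.Map (X n) (X (n + m))
  | 0 => SS.Map.id _
  | m + 1 => (s (n + m)).comp (itS X s n m)

/-- `T` is the sequential colimit of the simplicial sets `X n`. -/
structure IsTel (X : ℕ → SS) (s : ∀ n, SS.Map (X n) (X (n + 1))) (T : SS) where
  /-- the maps to the colimit -/
  i : ∀ n, SS.Map (X n) T
  i_s : ∀ (n : ℕ) {p : ℕ} (x : (X n).obj p), (i (n + 1)).app ((s n).app x) = (i n).app x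
  ex : ∀ {p : ℕ} (t : T.obj p), ∃ (n : ℕ) (x : (X n).obj p), (i n).app x = t
  eq : ∀ {n p : ℕ} (x y : (X n).obj p), (i n).app x = (i n).app y →
    ∃ m, (itS X s n m).app x = (itS X s n m).app y

namespace IsTel

variable {X : ℕ → SS} {s : ∀ n, SS.Map (X n) (X (n + 1))} {T : SS} (h : IsTel X s T)
variable {k : Type} [CommRing k]

theorem i_it (n m : ℕ) {p : ℕ} (x : (X n).obj p) :
    (h.i (n + m)).app ((itS X s n m).app x) = (h.i n).app x := by
  induction m with
  | zero => rfl
  | succ m ih => exact (h.i_s (n + m) _).trans ih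

theorem push_i_it (n m : ℕ) {p : ℕ} (z : Chn k (X n) p) :
    push k (h.i (n + m)) p (push k (itS X s n m) p z) = push k (h.i n) p z := by
  rw [← push_comp]
  congr 2
  apply SS.Map.ext
  intro p x
  exact h.i_it n m x

/-- every simplex comes from a stage beyond `N` -/
theorem ex_ge {p : ℕ} (N : ℕ) (t : T.obj p) : ∃ n, N ≤ n ∧ ∃ x : (X n).obj p,
    (h.i n).app x = t := by
  obtain ⟨n, x, hx⟩ := h.ex t
  rcases Nat.le_total N n with hn | hn
  · exact ⟨n, hn, x, hx⟩
  · obtain ⟨m, rfl⟩ := Nat.exists_eq_add_of_le hn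
    exact ⟨n + m, le_rfl, (itS X s n m).app x, (h.i_it n m x).trans hx⟩

/-- every chain comes from a stage beyond `N` -/
theorem chain_ex {p : ℕ} (N : ℕ) (z : Chn k T p) : ∃ n, N ≤ n ∧ ∃ x : Chn k (X n) p,
    push k (h.i n) p x = z := by
  induction z using Finsupp.induction_linear with
  | zero => exact ⟨N, le_rfl, 0, map_zero _⟩
  | add f g hf hg =>
    obtain ⟨a, ha, x, hx⟩ := hf
    obtain ⟨b, hb, y, hy⟩ := hg
    have key : ∀ a b : ℕ, a ≤ b → N ≤ a → ∀ (x : Chn k (X a) p) (y : Chn k (X b) p),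
        ∃ m, N ≤ m ∧ ∃ w : Chn k (X m) p, push k (h.i m) p w =
          push k (h.i a) p x + push k (h.i b) p y := by
      intro a b hab ha x y
      obtain ⟨c, rfl⟩ := Nat.exists_eq_add_of_le hab
      refine ⟨a + c, by omega, push k (itS X s a c) p x + y, ?_⟩
      rw [map_add]
      congr 1
      exact h.push_i_it a c x
    rcases Nat.le_total a b with hab | hab
    · obtain ⟨m, hm, w, hw⟩ := key a b hab ha x y
      exact ⟨m, hm, w, by rw [hw, hx, hy]⟩
    · obtain ⟨m, hm, w, hw⟩ := key b a hab hb y x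
      exact ⟨m, hm, w, by rw [hw, hx, hy, add_comm]⟩
  | single t a =>
    obtain ⟨m, hm, x, hx⟩ := h.ex_ge N t
    exact ⟨m, hm, Finsupp.single x a, by rw [push_single, hx]⟩

theorem itS_add_eq (n m m' : ℕ) {p : ℕ} {x y : (X n).obj p}
    (hxy : (itS X s n m).app x = (itS X s n m).app y) :
    (itS X s n (m + m')).app x = (itS X s n (m + m')).app y := by
  induction m' with
  | zero => exact hxy
  | succ m' ih => exact congrArg (s (n + (m + m'))).app ih

/-- a finite set of simplices is identified at a common stage -/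
theorem eq_fin {n p : ℕ} (S : Finset ((X n).obj p)) :
    ∃ m, ∀ x ∈ S, ∀ y ∈ S, (h.i n).app x = (h.i n).app y →
      (itS X s n m).app x = (itS X s n m).app y := by
  classical
  have h1 : ∀ x y : (X n).obj p, ∃ m, (h.i n).app x = (h.i n).app y →
      (itS X s n m).app x = (itS X s n m).app y := by
    intro x y
    by_cases hxy : (h.i n).app x = (h.i n).app y
    · obtain ⟨m, hm⟩ := h.eq x y hxy
      exact ⟨m, fun _ => hm⟩
    · exact ⟨0, fun h' => absurd h' hxy⟩
  choose m hm using h1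
  refine ⟨(S ×ˢ S).sup fun q => m q.1 q.2, fun x hx y hy hxy => ?_⟩
  have hle : m x y ≤ (S ×ˢ S).sup fun q => m q.1 q.2 :=
    Finset.le_sup (f := fun q : (X n).obj p × (X n).obj p => m q.1 q.2) (b := (x, y))
      (Finset.mem_product.2 ⟨hx, hy⟩)
  obtain ⟨c, hc⟩ := Nat.exists_eq_add_of_le hle
  rw [hc]
  exact itS_add_eq n (m x y) c (hm x y hxy)

/-- a chain which dies in the colimit dies at a later stage -/
theorem chain_eq {n p : ℕ} (z : Chn k (X n) p) (hz : push k (h.i n) p z = 0) :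
    ∃ m, push k (itS X s n m) p z = 0 := by
  classical
  obtain ⟨m, hm⟩ := h.eq_fin z.support
  refine ⟨m, ?_⟩
  have h1 : push k (h.i (n + m)) p (push k (itS X s n m) p z) = 0 := by rw [h.push_i_it, hz]
  have hinj : Set.InjOn (fun x => (h.i (n + m)).app x)
      ((push k (itS X s n m) p z).support : Set ((X (n + m)).obj p)) := by
    intro a ha b hb hab
    have hs : (push k (itS X s n m) p z).support ⊆ z.support.image (itS X s n m).app :=
      Finsupp.mapDomain_support
    obtain ⟨x, hx, rfl⟩ := Finset.mem_image.1 (hs ha)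
    obtain ⟨y, hy, rfl⟩ := Finset.mem_image.1 (hs hb)
    apply hm x hx y hy
    have := hab
    simp only [h.i_it] at this
    exact this
  have h2 := Finsupp.mapDomain_injOn (M := k) _ hinj
  have h3 : (push k (itS X s n m) p z) ∈ {w : Chn k (X (n + m)) p | (w.support : Set _) ⊆
      ((push k (itS X s n m) p z).support : Set ((X (n + m)).obj p))} := fun _ hx => hx
  have h4 : (0 : Chn k (X (n + m)) p) ∈ {w : Chn k (X (n + m)) p | (w.support : Set _) ⊆
      ((push k (itS X s n m) p z).support : Set ((X (n + m)).obj p))} := by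
    intro x hx
    exact absurd hx (by simp)
  apply h2 h3 h4
  rw [Finsupp.mapDomain_zero]
  exact h1

theorem hInj_it {N p : ℕ} (hs : ∀ n, N ≤ n → HInj k (s n) p) (n : ℕ) (hn : N ≤ n) (m : ℕ) :
    HInj k (itS X s n m) p := by
  induction m with
  | zero =>
    intro z _ hb
    rwa [show itS X s n 0 = SS.Map.id _ from rfl, push_id] at hb
  | succ m ih =>
    intro z hz hb
    rw [show itS X s n (m + 1) = (s (n + m)).comp (itS X s n m) from rfl, push_comp] at hb
    exact ih z hz (hs (n + m) (by omega) _ (hz.push _) hb)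

theorem hSurj_it {N p : ℕ} (hs : ∀ n, N ≤ n → HSurj k (s n) p) (n : ℕ) (hn : N ≤ n) (m : ℕ) :
    HSurj k (itS X s n m) p := by
  induction m with
  | zero =>
    intro w hw
    refine ⟨w, hw, ?_⟩
    rw [show itS X s n 0 = SS.Map.id _ from rfl, push_id, sub_self]
    exact IsBd.zero p
  | succ m ih =>
    intro w hw
    obtain ⟨w', hw', hb⟩ := hs (n + m) (by omega) w hw
    obtain ⟨z, hz, hb'⟩ := ih w' hw'
    refine ⟨z, hz, ?_⟩
    rw [show itS X s n (m + 1) = (s (n + m)).comp (itS X s n m) from rfl, push_comp]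
    have := hb.add (hb'.push (s (n + m)))
    rw [map_sub] at this
    simpa using this

/-- **injectivity on homology of a stage in the colimit** -/
theorem hInj {N p : ℕ} (hs : ∀ n, N ≤ n → HInj k (s n) p) : HInj k (h.i N) p := by
  intro z hz hb
  obtain ⟨w, hw⟩ := hb
  obtain ⟨n, hn, u, hu⟩ := h.chain_ex N w
  obtain ⟨m, rfl⟩ := Nat.exists_eq_add_of_le hn
  have h1 : push k (h.i (N + m)) p (cb k _ p u - push k (itS X s N m) p z) = 0 := by
    rw [map_sub, ← push_cb, hu, hw, h.push_i_it, sub_self]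
  obtain ⟨m', hm'⟩ := h.chain_eq _ h1
  rw [map_sub, ← push_cb, sub_eq_zero] at hm'
  have h2 : IsBd (push k (itS X s (N + m) m') p (push k (itS X s N m) p z)) := ⟨_, hm'⟩
  exact hInj_it hs N le_rfl m z hz (hInj_it hs (N + m) (by omega) m' _ (hz.push _) h2)

/-- **surjectivity on homology of a stage in the colimit** -/
theorem hSurj {N p : ℕ} (hs : ∀ n, N ≤ n → HSurj k (s n) p) : HSurj k (h.i N) p := by
  intro w hw
  obtain ⟨n, hn, u, hu⟩ := h.chain_ex N w
  obtain ⟨m, rfl⟩ := Nat.exists_eq_add_of_le hn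
  obtain ⟨m', hcyc⟩ : ∃ m', IsCyc p (push k (itS X s (N + m) m') p u) := by
    cases p with
    | zero => exact ⟨0, trivial⟩
    | succ p =>
      have h1 : push k (h.i (N + m)) p (cb k _ p u) = 0 := by
        rw [← push_cb, hu]
        exact hw
      obtain ⟨m', hm'⟩ := h.chain_eq _ h1
      refine ⟨m', ?_⟩
      rw [isCyc_succ, push_cb, hm']
  obtain ⟨y, hy, hb⟩ := hSurj_it hs (N + m) (by omega) m' _ hcyc
  obtain ⟨z, hz, hb'⟩ := hSurj_it hs N le_rfl m y hy
  refine ⟨z, hz, ?_⟩
  have e1 : push k (h.i (N + m + m')) p (push k (itS X s (N + m) m') p u) = w := by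
    rw [h.push_i_it, hu]
  have h2 := (hb.push (h.i (N + m + m'))).add (hb'.push (h.i (N + m)))
  rw [map_sub, map_sub, e1, h.push_i_it, h.push_i_it] at h2
  simpa using h2

end IsTel

/-! ### relative homology and homology isomorphisms -/

section rz

variable {k : Type} [CommRing k] {X Y : SS} {f : SS.Map X Y}

theorem hSurj_of_rz0 {p : ℕ} (h : RZ0 (freeMap k f).cx p) : HSurj k f p := by
  intro w hw
  cases p with
  | zero =>
    obtain ⟨b', a, e⟩ := (rz0_zero _).1 h w
    refine ⟨a, trivial, b', ?_⟩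
    exact eq_sub_of_add_eq e
  | succ p =>
    obtain ⟨b', a, e1, e2⟩ := (rz0_succ _ _).1 h w 0 (by
      cases p with
      | zero => trivial
      | succ p => exact map_zero _) (by
        rw [map_zero, add_zero]
        exact hw)
    refine ⟨a, ?_, b', ?_⟩
    · exact neg_eq_zero.1 e2
    · exact eq_sub_of_add_eq e1

theorem cyc_iff {p : ℕ} {z : Chn k X p} : (free k X).cx.Cyc p z ↔ IsCyc p z := by
  cases p with
  | zero => exact Iff.rfl
  | succ p => exact Iff.rfl

theorem hInj_of_rz0 {p : ℕ} (h : RZ0 (freeMap k f).cx (p + 1)) : HInj k f p := by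
  intro z hz hb
  obtain ⟨w, hw⟩ := hb
  obtain ⟨b', a, -, e2⟩ := (rz0_succ _ _).1 h (-w) z (cyc_iff.2 hz) (by
    show (cb k Y p (-w) : Chn k Y p) + push k f p z = 0
    rw [map_neg, hw, neg_add_cancel])
  exact ⟨(-a : Chn k X (p + 1)), (map_neg (cb k X p) (a : Chn k X (p + 1))).trans e2⟩

end rz

/-! ### the zigzag -/

section conn

variable {k : Type} [Field k]

/-- isomorphism up to `D` from homology -/
theorem isoUpTo_of_h {X Y : SS} {f : SS.Map X Y} {D : ℕ} (h1 : ∀ j ≤ D, HSurj k f j)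
    (h2 : ∀ j < D, HInj k f j) : IsoUpTo k D f :=
  ⟨fun n hn => hSurj_iff.1 (h1 n hn), fun n hn => hInj_iff.1 (h2 n hn)⟩

/-- **The zigzag `X N → TX → TY ← Y 0`.** -/
theorem conn_of_tel {X : ℕ → SS} {s : ∀ n, SS.Map (X n) (X (n + 1))} {TX : SS}
    (hX : IsTel X s TX) {Y : ℕ → SS} {t : ∀ n, SS.Map (Y n) (Y (n + 1))} {TY : SS}
    (hY : IsTel Y t TY) (f : SS.Map TX TY) (D N : ℕ) (hf : IsoUpTo k D f)
    (hs : ∀ j ≤ D, ∀ n, N ≤ n → HInj k (s n) j ∧ HSurj k (s n) j)
    (ht : ∀ j ≤ D, ∀ n, HInj k (t n) j ∧ HSurj k (t n) j) : Conn k D (X N) (Y 0) := by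
  have a : IsoUpTo k D (hX.i N) := isoUpTo_of_h (fun j hj => hX.hSurj fun n hn => (hs j hj n hn).2)
    (fun j hj => hX.hInj fun n hn => (hs j hj.le n hn).1)
  have b : IsoUpTo k D (hY.i 0) := isoUpTo_of_h (fun j hj => hY.hSurj fun n _ => (ht j hj n).2)
    (fun j hj => hY.hInj fun n _ => (ht j hj.le n).1)
  exact ((Conn.of_map _ a).trans (Conn.of_map f hf)).trans (Conn.of_map _ b).symm

end conn

end Vale.Agent.P263.GB
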