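import Vale.Agent.P263.GB.Htp
import Vale.Agent.P263.G2.SingSS
import Mathlib.Topology.Homotopy.Equiv

/-!
# P263, block G2: homotopy equivalences of spaces and relative singular homology
-/

namespace Vale.Agent.P263.GB

open Vale.Agent.P263.S Vale.Agent.P263.E Vale.Agent.P263.G2

variable {R : Type} [CommRing R] {X Y : Type} [TopologicalSpace X] [TopologicalSpace Y]

/-- homotopic continuous maps induce homotopic simplicial maps -/
theorem htpRel_sing {f g : C(X, Y)} (h : f.Homotopic g) : HtpRel (singMap f) (singMap g) := by
  obtain ⟨H⟩ := h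
  let H' : C(X × unitInterval, Y) := ⟨fun x => H (x.2, x.1), by fun_prop⟩
  refine ⟨singHtp H', Or.inl ⟨singHtp_e0 H' f fun x => ?_, singHtp_e1 H' g fun x => ?_⟩⟩
  · simp [H']
  · simp [H']

/-- homotopic continuous maps agree on cycles up to boundaries -/
theorem exists_d_of_homotopic {f g : C(X, Y)} (h : f.Homotopic g) {n : ℕ}
    {x : (free R (sing X)).obj n} (hx : (free R (sing X)).cx.Cyc n x) :
    ∃ y : (free R (sing Y)).obj (n + 1), (free R (sing Y)).d n y =
      (freeMap R (singMap f)).app n x - (freeMap R (singMap g)).app n x :=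
  (htpRel_sing h).exists_d hx

/-- a homotopy equivalence, given by its two maps, has vanishing relative singular homology -/
theorem rz0_sing_of_inverse (f : C(X, Y)) (g : C(Y, X)) (h : (g.comp f).Homotopic (.id X))
    (h' : (f.comp g).Homotopic (.id Y)) (n : ℕ) : RZ0 (freeMap R (singMap f)).cx n :=
  rz0_of_htp (singMap f) (singMap g) (htpRel_sing h.symm) (htpRel_sing h'.symm) n

/-- **A homotopy equivalence of spaces has vanishing relative singular homology.** -/
theorem rz0_sing (e : ContinuousMap.HomotopyEquiv X Y) (n : ℕ) :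
    RZ0 (freeMap R (singMap e.toFun)).cx n :=
  rz0_sing_of_inverse e.toFun e.invFun e.left_inv e.right_inv n

end Vale.Agent.P263.GB
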