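import Mathlib.LinearAlgebra.DirectSum.Finsupp
import Vale.Agent.P263.GB.Red
import Vale.Agent.P263.GB.SingHtp

/-!
# P263, block G2: Künneth in a range, for products of simplicial sets and of spaces

`kun2` : if the reduced homology (coefficients in a field) of `X` vanishes below `a` and the one of
`Y` below `b`, then in degrees `n < a + b` a cycle `z` of `X × Y` is homologous to
`(x, y₀)_* z + (x₀, y)_* z - (x₀, y₀)_* z`.

`kunPi` : the reduced homology of `X` vanishes below `q` ⟹ in degrees `n < 2 q` a reduced cycle of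
`X ^ k = (Fin k → X)` is homologous to the sum of its projections to the axes.
-/

open scoped TensorProduct

namespace Vale.Agent.P263.GB

open Vale.Agent.P263.S Vale.Agent.P263.E Vale.Agent.P263.G2

variable {R : Type} [CommRing R]

/-! ### the comparison with the tensor product -/

theorem prodT_nat_aux {α β α' β' : Type} (f : α → α') (g : β → β') (x : α × β →₀ R) :
    (finsuppTensorFinsupp' R α' β').symm (Finsupp.mapDomain (fun z : α × β => (f z.1, g z.2)) x) =
      TensorProduct.map (Finsupp.lmapDomain R R f) (Finsupp.lmapDomain R R g)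
        ((finsuppTensorFinsupp' R α β).symm x) := by
  induction x using Finsupp.induction_linear with
  | zero => simp only [Finsupp.mapDomain_zero, map_zero]
  | add x y hx hy => rw [Finsupp.mapDomain_add, map_add, map_add, map_add, hx, hy]
  | single z r =>
    rw [Finsupp.mapDomain_single, finsuppTensorFinsupp'_symm_single_eq_single_one_tmul,
      finsuppTensorFinsupp'_symm_single_eq_single_one_tmul, TensorProduct.map_tmul,
      Finsupp.lmapDomain_apply, Finsupp.lmapDomain_apply, Finsupp.mapDomain_single,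
      Finsupp.mapDomain_single]

/-- the generator of the free simplicial module -/
noncomputable def gen (R : Type) [CommRing R] {X : SS} {p : ℕ} (x : X.obj p) : (free R X).obj p :=
  (Finsupp.single x 1 : X.obj p →₀ R)

theorem free_hom_ext {X : SS} {p : ℕ} {M : Type*} [AddCommGroup M] [Module R M]
    {f g : (free R X).obj p →ₗ[R] M} (h : ∀ x : X.obj p, f (gen R x) = g (gen R x))
    (z : (free R X).obj p) : f z = g z := by
  have key : ∀ (f g : (X.obj p →₀ R) →ₗ[R] M), (∀ x, f (Finsupp.single x 1) =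
      g (Finsupp.single x 1)) → f = g := fun f g h => Finsupp.lhom_ext' fun x =>
    LinearMap.ext_ring (h x)
  exact DFunLike.congr_fun (key f g h) z

theorem freeMap_gen {X Y : SS} (f : SS.Map X Y) {p : ℕ} (x : X.obj p) :
    (freeMap R f).app p (gen R x) = gen R (f.app x) := freeMap_single f x 1

/-- `free (X × Y) → free X ⊗ free Y` -/
noncomputable def prodT (R : Type) [CommRing R] (X Y : SS) :
    SMod.Hom (free R (X.prod Y)) ((free R X).tens (free R Y)) where
  app p := (finsuppTensorFinsupp' R (X.obj p) (Y.obj p)).symm.toLinearMap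
  nat f x := prodT_nat_aux (X.map f) (Y.map f) x

/-- pairs of simplices -/
def mkp {X Y : SS} {p : ℕ} (x : X.obj p) (y : Y.obj p) : (X.prod Y).obj p := (x, y)

/-- pure tensors -/
def tm {A B : SMod R} {p : ℕ} (x : A.obj p) (y : B.obj p) : (A.tens B).obj p := x ⊗ₜ[R] y

theorem tm_sub {A B : SMod R} {p : ℕ} (u u' : A.obj p) (v v' : B.obj p) :
    tm (u - u') (v - v') = tm u v - tm u v' - (tm u' v - tm u' v') := by
  show ((u - u') ⊗ₜ[R] (v - v') : A.obj p ⊗[R] B.obj p) = _
  rw [TensorProduct.sub_tmul, TensorProduct.tmul_sub, TensorProduct.tmul_sub]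
  rfl

theorem prodT_gen {X Y : SS} {p : ℕ} (x : X.obj p) (y : Y.obj p) :
    (prodT R X Y).app p (gen R (mkp x y)) = tm (gen R x) (gen R y) :=
  finsuppTensorFinsupp'_symm_single_eq_single_one_tmul R _ _ (x, y) 1

/-- `free X ⊗ free Y → free (X × Y)` -/
noncomputable def tprod (R : Type) [CommRing R] (X Y : SS) :
    SMod.Hom ((free R X).tens (free R Y)) (free R (X.prod Y)) where
  app p := (finsuppTensorFinsupp' R (X.obj p) (Y.obj p)).toLinearMap
  nat {p q} f x := by
    obtain ⟨y, rfl⟩ : ∃ y, (finsuppTensorFinsupp' R (X.obj q) (Y.obj q)).symm y = x :=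
      ⟨_, LinearEquiv.symm_apply_apply _ _⟩
    have h := (prodT R X Y).nat f y
    have h' : (finsuppTensorFinsupp' R (X.obj p) (Y.obj p)).symm ((free R (X.prod Y)).map f y) =
        ((free R X).tens (free R Y)).map f
          ((finsuppTensorFinsupp' R (X.obj q) (Y.obj q)).symm y) := h
    show (finsuppTensorFinsupp' R (X.obj p) (Y.obj p)) (((free R X).tens (free R Y)).map f
      ((finsuppTensorFinsupp' R (X.obj q) (Y.obj q)).symm y)) = (free R (X.prod Y)).map f
      ((finsuppTensorFinsupp' R (X.obj q) (Y.obj q))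
        ((finsuppTensorFinsupp' R (X.obj q) (Y.obj q)).symm y))
    rw [← h']
    exact (LinearEquiv.apply_symm_apply _ _).trans
      (congrArg ((free R (X.prod Y)).map f) (LinearEquiv.apply_symm_apply _ _).symm)

theorem tprod_gen {X Y : SS} {p : ℕ} (x : X.obj p) (y : Y.obj p) :
    (tprod R X Y).app p (tm (gen R x) (gen R y)) = gen R (mkp x y) := by
  have h := finsuppTensorFinsupp'_single_tmul_single R _ _ x y (1 : R) 1
  rw [one_mul] at h
  exact h

/-- the maps of `X × Y` which forget a factor -/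
def c10 (X : SS) {Y : SS} (y₀ : Y.obj 0) : SS.Map (X.prod Y) (X.prod Y) :=
  SS.pair (SS.fst X Y) (ptc (X.prod Y) y₀)

/-- the maps of `X × Y` which forget a factor -/
def c01 {X : SS} (x₀ : X.obj 0) (Y : SS) : SS.Map (X.prod Y) (X.prod Y) :=
  SS.pair (ptc (X.prod Y) x₀) (SS.snd X Y)

/-- the constant map of `X × Y` -/
def c00 {X Y : SS} (x₀ : X.obj 0) (y₀ : Y.obj 0) : SS.Map (X.prod Y) (X.prod Y) :=
  SS.pair (ptc (X.prod Y) x₀) (ptc (X.prod Y) y₀)

/-- **Künneth for two factors, in a range.** -/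
theorem kun2 {K : Type} [Field K] (X Y : SS) (x₀ : X.obj 0) (y₀ : Y.obj 0) (a b : ℕ)
    (hX : ∀ i < a, (red K X).cx.HZ i) (hY : ∀ i < b, (red K Y).cx.HZ i) (n : ℕ) (hn : n < a + b)
    (z : (free K (X.prod Y)).obj n) (hz : (free K (X.prod Y)).cx.Cyc n z) :
    (free K (X.prod Y)).cx.Rel n z ((freeMap K (c10 X y₀)).app n z +
      (freeMap K (c01 x₀ Y)).app n z - (freeMap K (c00 x₀ y₀)).app n z) := by
  let q : SMod.Hom ((free K X).tens (free K Y)) ((red K X).tens (red K Y)) :=
    (SMod.tensR (red K X) (redQ K y₀)).comp (SMod.tensL (redQ K x₀) (free K Y))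
  let i : SMod.Hom ((red K X).tens (red K Y)) ((free K X).tens (free K Y)) :=
    (SMod.tensR (free K X) (redI K Y)).comp (SMod.tensL (redI K X) (red K Y))
  have h1 := SMod.hz_tens_field (red K X) (red K Y) a b hX hY n hn
    (q.app n ((prodT K X Y).app n z)) (q.cx.cyc ((prodT K X Y).cx.cyc hz))
  obtain ⟨w, hw⟩ := h1
  refine ⟨(tprod K X Y).app (n + 1) (i.app (n + 1) w), ?_⟩
  have h2 : (free K (X.prod Y)).d n ((tprod K X Y).app (n + 1) (i.app (n + 1) w)) =
      (tprod K X Y).app n (i.app n (q.app n ((prodT K X Y).app n z))) :=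
    ((tprod K X Y).app_d n (i.app (n + 1) w)).symm.trans
      ((congrArg ((tprod K X Y).app n) (i.app_d n w).symm).trans
        (congrArg (fun t => (tprod K X Y).app n (i.app n t)) hw))
  refine h2.trans ?_
  clear hw h2 hz w
  refine free_hom_ext (f := (tprod K X Y).app n ∘ₗ i.app n ∘ₗ q.app n ∘ₗ (prodT K X Y).app n)
    (g := LinearMap.id - ((freeMap K (c10 X y₀)).app n +
      (freeMap K (c01 x₀ Y)).app n - (freeMap K (c00 x₀ y₀)).app n)) (fun t => ?_) z
  obtain ⟨x, y, rfl⟩ : ∃ x y, t = mkp x y := ⟨t.1, t.2, rfl⟩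
  show (tprod K X Y).app n (i.app n (q.app n ((prodT K X Y).app n (gen K (mkp x y)))))
    = gen K (mkp x y) - ((freeMap K (c10 X y₀)).app n (gen K (mkp x y)) +
      (freeMap K (c01 x₀ Y)).app n (gen K (mkp x y)) -
      (freeMap K (c00 x₀ y₀)).app n (gen K (mkp x y)))
  rw [freeMap_gen, freeMap_gen, freeMap_gen, prodT_gen]
  have h3 : i.app n (q.app n (tm (gen K x) (gen K y))) = tm (gen K x - gen K (X.map (cst n 0) x₀))
        (gen K y - gen K (Y.map (cst n 0) y₀)) := by
    have hx : ((redQ K x₀).app n (gen K x)).1 = gen K x - gen K (X.map (cst n 0) x₀) := by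
      rw [redQ_coe, freeMap_gen]; rfl
    have hy : ((redQ K y₀).app n (gen K y)).1 = gen K y - gen K (Y.map (cst n 0) y₀) := by
      rw [redQ_coe, freeMap_gen]; rfl
    rw [← hx, ← hy]
    rfl
  rw [h3, tm_sub, map_sub, map_sub, map_sub, tprod_gen, tprod_gen, tprod_gen, tprod_gen]
  show gen K (mkp x y) - gen K (mkp x (Y.map (cst n 0) y₀)) -
    (gen K (mkp (X.map (cst n 0) x₀) y) - gen K (mkp (X.map (cst n 0) x₀) (Y.map (cst n 0) y₀))) =
    gen K (mkp x y) - (gen K (mkp x (Y.map (cst n 0) y₀)) + gen K (mkp (X.map (cst n 0) x₀) y) -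
      gen K (mkp (X.map (cst n 0) x₀) (Y.map (cst n 0) y₀)))
  abel

end Vale.Agent.P263.GB
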