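import Vale.Agent.P263.S.Htpy
import Mathlib.Data.Fintype.Card

/-!
# P263, block G2-7: the label operators of the simplicial circle and of the interval

`cut α c = #{x | α x < c}` : the threshold of `th q c ∘ α`.

`cop e α : Fin q → Option (A ⊕ Fin p)` : the operator of `α : [p] → [q]` on the labels
`1, …, q` of the simplicial circle (label `i : Fin q` = the threshold `i + 1`), where the labels
which become constant `0` are dropped (`none`) and the labels which become constant `1` go to
`e : Option A`.
-/

namespace Vale.Agent.P263.GB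

open Vale.Agent.P263.S

/-- the number of elements of `[p]` which go below the threshold `c` -/
def cut {p q : ℕ} (α : Op p q) (c : ℕ) : ℕ :=
  (Finset.univ.filter fun x : Fin (p + 1) => (α x).1 < c).card

theorem cut_le {p q : ℕ} (α : Op p q) (c : ℕ) : cut α c ≤ p + 1 := by
  unfold cut
  refine (Finset.card_le_univ _).trans ?_
  simp

/-- `x` is below `cut α c` if and only if `α x` is below `c` -/
theorem lt_cut_iff {p q : ℕ} (α : Op p q) (c : ℕ) (x : Fin (p + 1)) :
    x.1 < cut α c ↔ (α x).1 < c := by
  classical
  constructor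
  · intro h
    by_contra h'
    have hsub : (Finset.univ.filter fun y : Fin (p + 1) => (α y).1 < c) ⊆ Finset.Iio x := by
      intro y hy
      rw [Finset.mem_filter] at hy
      rw [Finset.mem_Iio]
      by_contra hxy
      have := α.monotone (not_lt.1 hxy)
      rw [Fin.le_def] at this
      omega
    have := Finset.card_le_card hsub
    rw [Fin.card_Iio] at this
    unfold cut at h
    omega
  · intro h
    have hsub : Finset.Iic x ⊆ (Finset.univ.filter fun y : Fin (p + 1) => (α y).1 < c) := by
      intro y hy
      rw [Finset.mem_Iic] at hy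
      rw [Finset.mem_filter]
      refine ⟨Finset.mem_univ _, ?_⟩
      have := α.monotone hy
      rw [Fin.le_def] at this
      omega
    have := Finset.card_le_card hsub
    rw [Fin.card_Iic] at this
    unfold cut
    omega

theorem cut_eq_of_lt_iff {p q : ℕ} (α : Op p q) {c m : ℕ} (hm : m ≤ p + 1)
    (h : ∀ x : Fin (p + 1), x.1 < m ↔ (α x).1 < c) : cut α c = m := by
  have h1 := cut_le α c
  apply le_antisymm
  · by_contra hlt
    have hx : m < p + 1 := by omega
    have := (h ⟨m, hx⟩).2 ((lt_cut_iff α c ⟨m, hx⟩).1 (by show m < cut α c; omega))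
    exact absurd this (lt_irrefl _)
  · by_contra hlt
    have hx : cut α c < p + 1 := by omega
    have := (lt_cut_iff α c ⟨cut α c, hx⟩).2 ((h ⟨cut α c, hx⟩).1 (by
      show cut α c < m; omega))
    exact absurd this (lt_irrefl _)

theorem th_comp {p q : ℕ} (α : Op p q) (c : ℕ) : (th q c).comp α = th p (cut α c) := by
  apply OrderHom.ext
  funext x
  show th q c (α x) = th p (cut α c) x
  rw [th_val, th_val]
  by_cases h : (α x).1 < c
  · rw [if_pos h, if_pos ((lt_cut_iff α c x).2 h)]
  · rw [if_neg h, if_neg fun h' => h ((lt_cut_iff α c x).1 h')]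

@[simp] theorem cut_zero {p q : ℕ} (α : Op p q) : cut α 0 = 0 :=
  cut_eq_of_lt_iff α (Nat.zero_le _) fun x => by simp

theorem cut_top {p q c : ℕ} (α : Op p q) (h : q + 1 ≤ c) : cut α c = p + 1 :=
  cut_eq_of_lt_iff α le_rfl fun x => by
    have := x.2
    have := (α x).2
    constructor
    · intro _; omega
    · intro _; omega

theorem cut_comp {p q r : ℕ} (α : Op q r) (β : Op p q) (c : ℕ) :
    cut (α.comp β) c = cut β (cut α c) :=
  cut_eq_of_lt_iff _ (cut_le _ _) fun x => by
    rw [lt_cut_iff, lt_cut_iff]; rfl

theorem cut_id {p c : ℕ} (h : c ≤ p + 1) : cut (OrderHom.id : Op p p) c = c :=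
  cut_eq_of_lt_iff _ h fun _ => Iff.rfl

theorem cut_mono {p q : ℕ} (α : Op p q) {c c' : ℕ} (h : c ≤ c') : cut α c ≤ cut α c' := by
  unfold cut
  apply Finset.card_le_card
  intro x hx
  rw [Finset.mem_filter] at *
  exact ⟨hx.1, lt_of_lt_of_le hx.2 h⟩

/-- the label of the threshold `c`: `0` goes to `e`, `1, …, p` to the labels of the circle, the
others are dropped -/
def lab {A : Type} (e : Option A) (p : ℕ) : ℕ → Option (A ⊕ Fin p)
  | 0 => e.map Sum.inl
  | c + 1 => if h : c < p then some (Sum.inr ⟨c, h⟩) else none

@[simp] theorem lab_zero {A : Type} (e : Option A) (p : ℕ) : lab e p 0 = e.map Sum.inl := rfl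

theorem lab_succ_of_lt {A : Type} (e : Option A) {p c : ℕ} (h : c < p) :
    lab e p (c + 1) = some (Sum.inr ⟨c, h⟩) := dif_pos h

theorem lab_of_gt {A : Type} (e : Option A) {p c : ℕ} (h : p < c) : lab e p c = none := by
  cases c with
  | zero => exact absurd h (Nat.not_lt_zero _)
  | succ c => exact dif_neg (by omega)

/-- the operator of `α : [p] → [q]` on the labels `1, …, q` of the circle -/
def cop {A : Type} (e : Option A) {p q : ℕ} (α : Op p q) (i : Fin q) : Option (A ⊕ Fin p) :=
  lab e p (cut α (i.1 + 1))

theorem cop_id {A : Type} (e : Option A) {p : ℕ} (i : Fin p) :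
    cop e (OrderHom.id : Op p p) i = some (Sum.inr i) := by
  unfold cop
  rw [cut_id (by have := i.2; omega), lab_succ_of_lt e i.2]

/-- the operators on all the labels -/
def pop {A : Type} (e : Option A) {p q : ℕ} (α : Op p q) : A ⊕ Fin q → Option (A ⊕ Fin p) :=
  Sum.elim (fun a => some (Sum.inl a)) (cop e α)

@[simp] theorem pop_inl {A : Type} (e : Option A) {p q : ℕ} (α : Op p q) (a : A) :
    pop e α (Sum.inl a) = some (Sum.inl a) := rfl

@[simp] theorem pop_inr {A : Type} (e : Option A) {p q : ℕ} (α : Op p q) (i : Fin q) :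
    pop e α (Sum.inr i) = cop e α i := rfl

theorem lab_bind_pop {A : Type} (e : Option A) {p q : ℕ} (β : Op p q) (c : ℕ) :
    (lab e q c).bind (pop e β) = lab e p (cut β c) := by
  cases c with
  | zero => cases e <;> simp
  | succ c =>
    rcases Nat.lt_or_ge c q with h | h
    · rw [lab_succ_of_lt e h]
      rfl
    · rw [lab_of_gt e (show q < c + 1 by omega), cut_top β (by omega),
        lab_of_gt e (Nat.lt_succ_self p)]
      rfl

theorem cop_comp {A : Type} (e : Option A) {p q r : ℕ} (α : Op q r) (β : Op p q) (i : Fin r) :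
    cop e (α.comp β) i = (cop e α i).bind (pop e β) := by
  unfold cop
  rw [lab_bind_pop, cut_comp]

theorem pop_id {A : Type} (e : Option A) {p : ℕ} (x : A ⊕ Fin p) :
    pop e (OrderHom.id : Op p p) x = some x := by
  rcases x with a | i
  · rfl
  · exact cop_id e i

theorem pop_comp {A : Type} (e : Option A) {p q r : ℕ} (α : Op q r) (β : Op p q)
    (x : A ⊕ Fin r) : pop e (α.comp β) x = (pop e α x).bind (pop e β) := by
  rcases x with a | i
  · rfl
  · exact cop_comp e α β i

/-- change of the value on the labels which become constant `1` -/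
theorem cop_map {A B : Type} (f : A → Option B) (e : Option A) {p q : ℕ} (α : Op p q)
    (i : Fin q) :
    (cop e α i).bind (Sum.elim (fun a => (f a).map Sum.inl) (fun j => some (Sum.inr j))) =
      cop (e.bind f) α i := by
  unfold cop
  rcases cut α (i.1 + 1) with _ | c
  · cases e <;> simp
  · rcases Nat.lt_or_ge c p with h | h
    · rw [lab_succ_of_lt _ h, lab_succ_of_lt _ h]; rfl
    · rw [lab_of_gt _ (show p < c + 1 by omega), lab_of_gt _ (show p < c + 1 by omega)]; rfl

end Vale.Agent.P263.GB
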