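import Vale.Agent.P263.GB.Circ

/-!
# P263, block G2: comparison of the double complex of whiskered simplices with its linear part

* `lam y₀ : SSMod.Hom (circS (red R (sing (Lo y₀)))) (redB R (pkB y₀))`, given by the tautological
  maps `tht k j`.
* `rz0_lam` : in terms of the Künneth property of the powers of the loop space.
-/

namespace Vale.Agent.P263.GB

open Vale.Agent.P263.S Vale.Agent.P263.E Vale.Agent.P263.G2

variable {R : Type} [CommRing R]

theorem singMap_const {X Y : Type} [TopologicalSpace X] [TopologicalSpace Y] (y : Y) :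
    singMap (ContinuousMap.const X y) = ptc (sing X) (vpt y) := rfl

/-- a sum of maps of simplicial modules -/
theorem redMap_const {X Y : Type} [TopologicalSpace X] [TopologicalSpace Y] (f : C(X, Y)) (y : Y)
    (h : f = ContinuousMap.const X y) {n : ℕ} (x : (red R (sing X)).obj n) :
    (redMap R (singMap f)).app n x = 0 := by
  subst h
  exact redMap_ptc (vpt y) x

section lam

variable {Y : Type} [TopologicalSpace Y] (y₀ : Y)

/-- the components of the tautological map of the columns -/
noncomputable def lamA (R : Type) [CommRing R] (k n : ℕ) : (Fin k → (red R (sing (Lo y₀))).obj n) →ₗ[R]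
    (red R (sing (PK (Fin (k + 1)) y₀))).obj n where
  toFun v := ∑ b : Fin k, (redMap R (singMap (tht k (b + 1)))).app n (v b)
  map_add' v w := by
    rw [← Finset.sum_add_distrib]
    exact Finset.sum_congr rfl fun b _ => map_add _ _ _
  map_smul' r v := by
    rw [RingHom.id_apply, Finset.smul_sum]
    exact Finset.sum_congr rfl fun b _ =>
      ((redMap R (singMap (tht (y₀ := y₀) k (b + 1)))).app n).map_smul r (v b)

theorem lamA_apply (k n : ℕ) (v : Fin k → (red R (sing (Lo y₀))).obj n) :
    lamA y₀ R k n v = ∑ b : Fin k, (redMap R (singMap (tht k (b + 1)))).app n (v b) := rfl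

/-- the tautological map of the columns -/
noncomputable def lamC (R : Type) [CommRing R] (k : ℕ) : SMod.Hom (powS (red R (sing (Lo y₀))) k)
    (red R (sing (PK (Fin (k + 1)) y₀))) where
  app n := lamA y₀ R k n
  nat {n m} f x := by
    have h : ∀ x : Fin k → (red R (sing (Lo y₀))).obj m,
        lamA y₀ R k n (fun b => (red R (sing (Lo y₀))).map f (x b)) =
          (red R (sing (PK (Fin (k + 1)) y₀))).map f (lamA y₀ R k m x) := by
      intro x
      rw [lamA_apply, lamA_apply, map_sum]
      exact Finset.sum_congr rfl fun b _ => (redMap R (singMap (tht k (b + 1)))).nat f (x b)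
    exact h x

theorem lamA_cm {k l m : ℕ} (f : Op k l) (x : Fin l → (red R (sing (Lo y₀))).obj m) :
    lamA y₀ R k m (cm (R := R) ((red R (sing (Lo y₀))).obj m) f x) =
      (redMap R (singMap (PK.re f))).app m (lamA y₀ R l m x) := by
  rw [lamA_apply, lamA_apply, map_sum]
  have e1 : ∀ b : Fin k, (redMap R (singMap (tht k (b + 1)))).app m
      (cm (R := R) ((red R (sing (Lo y₀))).obj m) f x b) =
      ∑ a : Fin l, if (f b.castSucc : ℕ) ≤ a ∧ (a : ℕ) < (f b.succ : ℕ) then
        (redMap R (singMap (tht k (b + 1)))).app m (x a) else 0 := by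
    intro b
    rw [cm_apply, map_sum]
    refine Finset.sum_congr rfl fun a _ => ?_
    split_ifs
    · rfl
    · exact map_zero _
  rw [Finset.sum_congr rfl fun b _ => e1 b, Finset.sum_comm]
  refine Finset.sum_congr rfl fun a _ => ?_
  obtain ⟨j, hj, hcut⟩ := exists_cut f (a : ℕ)
  have h1 : (redMap R (singMap (PK.re f))).app m
      ((redMap R (singMap (tht l ((a : ℕ) + 1)))).app m (x a)) =
      (redMap R (singMap (tht k j))).app m (x a) := by
    rw [← redMap_comp_app]
    refine redMap_congr ?_ (x a)
    rw [← singMap_comp, re_comp_tht' f hcut]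
  rw [h1]
  by_cases h : 1 ≤ j ∧ j ≤ k
  · rw [sum_ite_succ (fun b : Fin k => (f b.castSucc : ℕ) ≤ a ∧ (a : ℕ) < (f b.succ : ℕ)) j
      (fun b => cut_iff f a j hcut b) _ h.1 h.2]
    have e : ((⟨j - 1, by omega⟩ : Fin k) : ℕ) + 1 = j := by
      simp only
      omega
    rw [e]
  · rw [sum_ite_succ' (fun b : Fin k => (f b.castSucc : ℕ) ≤ a ∧ (a : ℕ) < (f b.succ : ℕ)) j
      (fun b => cut_iff f a j hcut b) _ h]
    refine (redMap_const _ PK.base ?_ (x a)).symm
    rcases Nat.lt_or_ge k j with hkj | hkj
    · exact tht_of_lt hkj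
    · obtain rfl : j = 0 := by omega
      exact tht_zero k

/-- **The tautological map.** -/
noncomputable def lam (R : Type) [CommRing R] :
    SSMod.Hom (circS (red R (sing (Lo y₀)))) (redB R (pkB y₀)) where
  app k := lamC y₀ R k
  nat f x := lamA_cm y₀ f x

/-! ### the columns -/

/-- reduced chains: a homotopy equivalence of spaces -/
theorem rz0_red_sing {X Z : Type} [TopologicalSpace X] [TopologicalSpace Z]
    (e : ContinuousMap.HomotopyEquiv X Z) (x₀ : X) (n : ℕ) :
    RZ0 (redMap R (singMap e.toFun)).cx n := by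
  refine Cx.Hom.rz0_of_inverse (redMap R (singMap e.toFun)).cx (redMap R (singMap e.invFun)).cx
    ?_ ?_ n
  · intro n (a : (red R (sing X)).obj n) ha
    obtain ⟨y, hy⟩ := (htpRel_sing e.left_inv.symm).red_rel (R := R) (vpt x₀) ha
    refine ⟨y, hy.trans (congrArg₂ (· - ·) (redMap_id_app a) ?_)⟩
    exact redMap_comp_app (singMap e.invFun) (singMap e.toFun) a
  · intro n (b : (red R (sing Z)).obj n) hb
    obtain ⟨y, hy⟩ := (htpRel_sing e.right_inv.symm).red_rel (R := R) (vpt (e.toFun x₀)) hb
    refine ⟨y, hy.trans (congrArg₂ (· - ·) (redMap_id_app b) ?_)⟩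
    exact redMap_comp_app (singMap e.toFun) (singMap e.invFun) b

section mu

variable {X : Type} [TopologicalSpace X] (x₀ : X)

/-- the sum of the inclusions of the axes -/
noncomputable def muA (R : Type) [CommRing R] (k n : ℕ) : (Fin k → (red R (sing X)).obj n) →ₗ[R]
    (red R (sing (Fin k → X))).obj n where
  toFun v := ∑ b : Fin k, (redMap R (singMap (axs x₀ b))).app n (v b)
  map_add' v w := by
    rw [← Finset.sum_add_distrib]
    exact Finset.sum_congr rfl fun b _ => map_add _ _ _
  map_smul' r v := by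
    rw [RingHom.id_apply, Finset.smul_sum]
    exact Finset.sum_congr rfl fun b _ =>
      ((redMap R (singMap (axs x₀ b))).app n).map_smul r (v b)

theorem muA_apply (k n : ℕ) (v : Fin k → (red R (sing X)).obj n) :
    muA x₀ R k n v = ∑ b : Fin k, (redMap R (singMap (axs x₀ b))).app n (v b) := rfl

/-- the sum of the inclusions of the axes -/
noncomputable def muC (R : Type) [CommRing R] (k : ℕ) : SMod.Hom (powS (red R (sing X)) k)
    (red R (sing (Fin k → X))) where
  app n := muA x₀ R k n
  nat {n m} f x := by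
    have h : ∀ x : Fin k → (red R (sing X)).obj m,
        muA x₀ R k n (fun b => (red R (sing X)).map f (x b)) =
          (red R (sing (Fin k → X))).map f (muA x₀ R k m x) := by
      intro x
      rw [muA_apply, muA_apply, map_sum]
      exact Finset.sum_congr rfl fun b _ => (redMap R (singMap (axs x₀ b))).nat f (x b)
    exact h x

theorem powS_cyc (A : SMod R) (k n : ℕ) (v : Fin k → A.obj n) :
    (powS A k).cx.Cyc n v ↔ ∀ b, A.cx.Cyc n (v b) := by
  cases n with
  | zero => exact ⟨fun _ _ => trivial, fun _ => trivial⟩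
  | succ n =>
    have h1 := powS_d A k n v
    constructor
    · intro h b
      have h2 : ((powS A k).d n v : Fin k → A.obj n) = 0 := h
      exact congrFun (h1.symm.trans h2) b
    · intro h
      exact h1.trans (funext fun b => h b)

theorem powS_rel_zero (A : SMod R) (k n : ℕ) (v : Fin k → A.obj n)
    (h : ∀ b, A.cx.Rel n (v b) 0) : (powS A k).cx.Rel n v 0 := by
  have h' : ∀ b, ∃ w, A.d n w = v b := fun b => Cx.rel_zero_iff.1 (h b)
  choose w hw using h'
  exact Cx.rel_zero_iff.2 ⟨w, (powS_d A k n w).trans (funext hw)⟩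

theorem prj_muA (k n : ℕ) (v : Fin k → (red R (sing X)).obj n) (a : Fin k) :
    (redMap R (singMap (prj a))).app n (muA x₀ R k n v) = v a := by
  rw [muA_apply, map_sum, Finset.sum_eq_single a]
  · rw [← redMap_comp_app]
    have h : (singMap (prj a)).comp (singMap (axs x₀ a)) = SS.Map.id (sing X) := by
      rw [← singMap_comp, ← singMap_id]
      congr 1
      refine ContinuousMap.ext fun x => ?_
      show axs x₀ a x a = x
      rw [axs_apply, if_pos rfl]
    rw [redMap_congr h, redMap_id_app]
  · intro b _ hb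
    rw [← redMap_comp_app, ← singMap_comp]
    refine redMap_const _ x₀ ?_ (v b)
    refine ContinuousMap.ext fun x => ?_
    show axs x₀ b x a = x₀
    rw [axs_apply, if_neg (Ne.symm hb)]
  · intro h
    exact absurd (Finset.mem_univ _) h

theorem rz0_muC (k n : ℕ) (hk : ∀ z : (red R (sing (Fin k → X))).obj n,
    (red R (sing (Fin k → X))).cx.Cyc n z → (red R (sing (Fin k → X))).cx.Rel n z
      (∑ a : Fin k, (redMap R (singMap ((axs x₀ a).comp (prj a)))).app n z)) :
    RZ0 (muC x₀ R k).cx n := by
  rw [Cx.rz0_iff]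
  constructor
  · intro z hz
    refine ⟨(fun a => (redMap R (singMap (prj a))).app n z : Fin k → (red R (sing X)).obj n),
      (powS_cyc _ _ _ _).2 fun a => (redMap R (singMap (prj a))).cx.cyc hz, ?_⟩
    refine (hk z hz).trans (Cx.Rel.of_eq ?_)
    show (∑ a : Fin k, (redMap R (singMap ((axs x₀ a).comp (prj a)))).app n z) =
      muA x₀ R k n (fun a => (redMap R (singMap (prj a))).app n z)
    rw [muA_apply]
    exact Finset.sum_congr rfl fun a _ =>
      redMap_comp_app (singMap (axs x₀ a)) (singMap (prj a)) z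
  · intro m _ v _ hv
    refine powS_rel_zero _ _ _ _ fun a => ?_
    have h1 := hv.map (redMap R (singMap (prj a))).cx
    have h2 : (redMap R (singMap (prj a))).cx.app m ((muC x₀ R k).cx.app m v) =
        (v : Fin k → (red R (sing X)).obj m) a := prj_muA x₀ k m v a
    rw [map_zero] at h1
    exact (Cx.Rel.of_eq h2.symm).trans h1

end mu

theorem toLo_lamA (k n : ℕ) (v : Fin k → (red R (sing (Lo y₀))).obj n) :
    (redMap R (singMap (PK.toLo (k := k) (y₀ := y₀)))).app n (lamA y₀ R k n v) =
      ∑ b : Fin k, (redMap R (singMap (PK.toLo (k := k) (y₀ := y₀)))).app n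
        ((redMap R (singMap (tht k ((b : ℕ) + 1)))).app n (v b)) := by
  rw [lamA_apply, map_sum]

/-- **The columns.** -/
theorem rz0_lamC (k n : ℕ) (hk : ∀ z : (red R (sing (Fin k → Lo y₀))).obj n,
    (red R (sing (Fin k → Lo y₀))).cx.Cyc n z → (red R (sing (Fin k → Lo y₀))).cx.Rel n z
      (∑ a : Fin k, (redMap R (singMap ((axs Lo.cst a).comp (prj a)))).app n z)) :
    RZ0 (lamC y₀ R k).cx n := by
  have h1 : RZ0 (redMap R (singMap (PK.toLo (k := k) (y₀ := y₀)))).cx (n + 1) :=
    rz0_red_sing PK.homotopyEquiv PK.base (n + 1)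
  refine Cx.rz0_of_comp ?_ h1
  refine Cx.rz0_congr ?_ (rz0_muC (Lo.cst (y₀ := y₀)) k n hk)
  intro n v hv
  have hv' := (powS_cyc _ _ _ _).1 hv
  have e1 : ((redMap R (singMap (PK.toLo (k := k) (y₀ := y₀)))).cx.comp (lamC y₀ R k).cx).app n v =
      ∑ b : Fin k, (redMap R (singMap (PK.toLo (k := k) (y₀ := y₀)))).app n
        ((redMap R (singMap (tht k ((b : ℕ) + 1)))).app n
          ((v : Fin k → (red R (sing (Lo y₀))).obj n) b)) := toLo_lamA y₀ k n v
  refine (Cx.Rel.of_eq e1).trans ?_
  refine Cx.Rel.sum _ fun b _ => ?_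
  have h2 : (PK.toLo.comp (tht (y₀ := y₀) k (b + 1))).Homotopic (axs Lo.cst b) :=
    toLo_comp_tht b
  have h3 := (htpRel_sing h2).red_rel (R := R) (vpt (fun _ => Lo.cst)) (hv' b)
  exact (Cx.Rel.of_eq (redMap_comp_app (singMap PK.toLo) (singMap (tht k ((b : ℕ) + 1))) _).symm).trans
    h3

end lam

end Vale.Agent.P263.GB
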