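import Vale.Agent.P263.GB.Lam

/-!
# P263, block G2: the loop lemma

`loop_lemma` : `Y` path connected, coefficients in a field, the reduced homology of the loop space
`Lo y₀` zero below `q`, and `j < 2 q`.  If `H_{j+1}(Y) = 0` then the reduced homology of `Lo y₀` is
zero in degree `j`.
-/

namespace Vale.Agent.P263.GB

open Vale.Agent.P263.S Vale.Agent.P263.E Vale.Agent.P263.G2

/-- the Künneth property holds trivially for the first power -/
theorem kunPi_one {R : Type} [CommRing R] {X : Type} [TopologicalSpace X] (x₀ : X) (n : ℕ)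
    (z : (red R (sing (Fin 1 → X))).obj n) : (red R (sing (Fin 1 → X))).cx.Rel n z
      (∑ a : Fin 1, (redMap R (singMap ((axs x₀ a).comp (prj a)))).app n z) := by
  have h : (axs x₀ 0).comp (prj 0) = ContinuousMap.id (Fin 1 → X) := by
    refine ContinuousMap.ext fun x => funext fun a => ?_
    obtain rfl : a = 0 := Subsingleton.elim _ _
    show (if (0 : Fin 1) = 0 then x 0 else x₀) = x 0
    rw [if_pos rfl]
  have h1 : (∑ a : Fin 1, (redMap R (singMap ((axs x₀ a).comp (prj a)))).app n z) = z := by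
    rw [Fin.sum_univ_one, redMap_congr (congrArg singMap h), singMap_id, redMap_id_app]
  exact Cx.Rel.of_eq h1.symm

/-- the Künneth property holds trivially for the zeroth power -/
theorem kunPi_zero {R : Type} [CommRing R] {X : Type} [TopologicalSpace X] (x₀ : X) (n : ℕ)
    (z : (red R (sing (Fin 0 → X))).obj n) : (red R (sing (Fin 0 → X))).cx.Rel n z
      (∑ a : Fin 0, (redMap R (singMap ((axs x₀ a).comp (prj a)))).app n z) := by
  have h : z = 0 := red_eq_zero (fun p => ⟨fun σ τ => ContinuousMap.ext fun t =>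
    funext fun a => Fin.elim0 a⟩) (vpt (fun _ => x₀)) z
  exact Cx.Rel.of_eq (h.trans (Fin.sum_univ_zero
    (fun a : Fin 0 => (redMap R (singMap ((axs x₀ a).comp (prj a)))).app n z)).symm)

variable {K : Type} [Field K] {Y : Type} [TopologicalSpace Y]

/-- **The loop lemma.** -/
theorem loop_lemma [PathConnectedSpace Y] (y₀ : Y) (q : ℕ)
    (hA : ∀ i < q, (red K (sing (Lo y₀))).cx.HZ i) (j : ℕ) (hj : j < 2 * q)
    (hY : (free K (sing Y)).cx.HZ (j + 1)) : (red K (sing (Lo y₀))).cx.HZ j := by
  have h1 : ((pkB y₀).free K).dc.TZ (j + 1) := pk_tz y₀ hY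
  have h2 : (redB K (pkB y₀)).dc.TZ (j + 1) :=
    redB_tz (fun k => (vpt (PK.base (ι := Fin (k + 1)) (y₀ := y₀)) :
      (sing (PK (Fin (k + 1)) y₀)).obj 0)) (fun {k l} f => by
        refine ContinuousMap.ext fun t => ?_
        exact PK.re_base f) h1
  refine hz_of_circS_tz _ ((lam y₀ K).dc.tz_left_of_cols (fun s n hsn => ?_) h2)
  show RZ0 (lamC y₀ K s).cx n
  refine rz0_lamC y₀ s n ?_
  rcases Nat.lt_or_ge s 2 with hs | hs
  · obtain rfl | rfl : s = 0 ∨ s = 1 := by omega
    · exact fun z _ => kunPi_zero _ n z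
    · exact fun z _ => kunPi_one _ n z
  · exact fun z hz => kunPi Lo.cst q hA s n (by omega) z hz

/-- the loop lemma, without the hypothesis in low degrees -/
theorem loop_lemma_low [PathConnectedSpace Y] (y₀ : Y) (h0 : (red K (sing (Lo y₀))).cx.HZ 0)
    (m : ℕ) (hY : ∀ j, j < m → 0 < j → (free K (sing Y)).cx.HZ (j + 1)) :
    ∀ j < m, (red K (sing (Lo y₀))).cx.HZ j := by
  intro j
  induction j using Nat.strong_induction_on with
  | _ j ih =>
    intro hj
    rcases Nat.eq_zero_or_pos j with rfl | hj0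
    · exact h0
    · exact loop_lemma y₀ j (fun i hi => ih i hi (by omega)) j (by omega) (hY j hj hj0)

end Vale.Agent.P263.GB
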