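import Vale.Agent.P263.GB.LowSS

/-!
# P263, block GB: homotopies of squares, moving the vertex of an axis

* `SMod.Prism.cone_exists` : two prisms commuting with `f`, `f'` give, on every cycle `c` of
  `cone f`, a boundary `(e₁)_* c - (e₀)_* c` in `cone f'`;
* `csq_htp` : the same for simplicial sets;
* `coneL_edge` : for an edge `e` of `Y` and an `r`-cycle `c` of `cone f`, the difference of the
  copies of `c` at the two ends of `e` is a boundary in `cone (f × g)`; `coneRt_edge`.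
-/

namespace Vale.Agent.P263.GB

open Vale.Agent.P263.S Vale.Agent.P263.E

variable {R : Type} [CommRing R]

namespace SMod.Prism

variable {A B A' B' : SMod R} (P : SMod.Prism A A') (Q : SMod.Prism B B') (f : SMod.Hom A B)
  (f' : SMod.Hom A' B')

theorem k_nat (h : ∀ p θ x, Q.h p θ (f.app p x) = f'.app p (P.h p θ x)) (p : ℕ) (x : A.obj p) :
    Q.k p (f.app p x) = f'.app (p + 1) (P.k p x) := by
  rw [k_apply, k_apply, map_sum]
  refine Finset.sum_congr rfl fun i _ => ?_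
  rw [CosMod.sn_lin, ← h, f.nat]

theorem d_k_cyc (n : ℕ) (a : A.obj n) (ha : A.cx.Cyc n a) :
    A'.d n (P.k n a) = P.h n (c1 n) a - P.h n (c0 n) a := by
  cases n with
  | zero => exact P.d_k_zero a
  | succ n =>
    have h3 : A.d n a = 0 := ha
    rw [← P.d_k_add_k_d, h3, map_zero, add_zero]

theorem d_k_rel (h : ∀ p θ x, Q.h p θ (f.app p x) = f'.app p (P.h p θ x)) (n : ℕ)
    (b : B.obj (n + 1)) (a : A.obj n) (hb : B.d n b + f.app n a = 0) :
    B'.d (n + 1) (Q.k (n + 1) b) + f'.app (n + 1) (-(P.k n a)) =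
      Q.h (n + 1) (c1 (n + 1)) b - Q.h (n + 1) (c0 (n + 1)) b := by
  have hb0 : B.d n b = - f.app n a := eq_neg_of_add_eq_zero_left hb
  rw [← Q.d_k_add_k_d, hb0, map_neg, map_neg, k_nat P Q f f' h]

/-- the ends of a commuting pair of prisms agree on the cycles of the cone, up to boundaries -/
theorem cone_exists (h : ∀ p θ x, Q.h p θ (f.app p x) = f'.app p (P.h p θ x)) :
    ∀ (r : ℕ) (c : (cone f.cx).C r), (cone f.cx).Cyc r c →
      ∃ w : (cone f'.cx).C (r + 1), ∀ (u1 u0 : Cx.Hom A.cx A'.cx) (v1 v0 : Cx.Hom B.cx B'.cx)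
        (_ : ∀ n (x : A.obj n), u1.app n x = P.h n (c1 n) x)
        (_ : ∀ n (x : A.obj n), u0.app n x = P.h n (c0 n) x)
        (_ : ∀ n (x : B.obj n), v1.app n x = Q.h n (c1 n) x)
        (_ : ∀ n (x : B.obj n), v0.app n x = Q.h n (c0 n) x)
        (h1 : ∀ n x, v1.app n (f.cx.app n x) = f'.cx.app n (u1.app n x))
        (h0 : ∀ n x, v0.app n (f.cx.app n x) = f'.cx.app n (u0.app n x)),
        (cone f'.cx).d r w = (coneMap f.cx f'.cx u1 v1 h1).app r c -
          (coneMap f.cx f'.cx u0 v0 h0).app r c := by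
  intro r c hc
  cases r with
  | zero =>
    have key : ∀ c : B.obj 0, ∃ w : (cone f'.cx).C 1, (cone f'.cx).d 0 w =
        (Q.h 0 (c1 0) c - Q.h 0 (c0 0) c : B'.obj 0) := fun c =>
      ⟨((Q.k 0 c, 0) : B'.obj 1 × A'.obj 0), by
        have e : B'.d 0 (Q.k 0 c) + f'.app 0 0 = Q.h 0 (c1 0) c - Q.h 0 (c0 0) c := by
          rw [map_zero, add_zero]
          exact Q.d_k_zero c
        exact e⟩
    obtain ⟨w, hw⟩ := key c
    refine ⟨w, ?_⟩
    intro u1 u0 v1 v0 hu1 hu0 hv1 hv0 h1 h0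
    exact hw.trans (congrArg₂ (· - ·) (hv1 0 c).symm (hv0 0 c).symm)
  | succ n =>
    obtain ⟨b, a⟩ := c
    have hc' := (cone_cyc_succ f.cx n b a).1 hc
    have key : ∀ (b : B.obj (n + 1)) (a : A.obj n), A.cx.Cyc n a → B.d n b + f.app n a = 0 →
        ∃ w : (cone f'.cx).C (n + 2), (cone f'.cx).d (n + 1) w =
          ((Q.h (n + 1) (c1 (n + 1)) b - Q.h (n + 1) (c0 (n + 1)) b,
            P.h n (c1 n) a - P.h n (c0 n) a) : B'.obj (n + 1) × A'.obj n) := fun b a ha hb =>
      ⟨((Q.k (n + 1) b, -(P.k n a)) : B'.obj (n + 2) × A'.obj (n + 1)), by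
        have e : -(A'.d n (-(P.k n a))) = P.h n (c1 n) a - P.h n (c0 n) a := by
          rw [map_neg, neg_neg, d_k_cyc P n a ha]
        exact Prod.ext (d_k_rel P Q f f' h n b a hb) e⟩
    obtain ⟨w, hw⟩ := key b a hc'.1 hc'.2
    refine ⟨w, ?_⟩
    intro u1 u0 v1 v0 hu1 hu0 hv1 hv0 h1 h0
    exact hw.trans (Prod.ext (congrArg₂ (· - ·) (hv1 (n + 1) b).symm (hv0 (n + 1) b).symm)
      (congrArg₂ (· - ·) (hu1 n a).symm (hu0 n a).symm))

end SMod.Prism

/-- **homotopies of squares of simplicial sets** -/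
theorem csq_htp {A B A' B' : SS} (f : SS.Map A B) (f' : SS.Map A' B') (HA : SS.Htp A A')
    (HB : SS.Htp B B') (h : ∀ p θ (x : A.obj p), HB.h p θ (f.app x) = f'.app (HA.h p θ x))
    (h1 : ∀ p (x : A.obj p), HB.e1.app (f.app x) = f'.app (HA.e1.app x))
    (h0 : ∀ p (x : A.obj p), HB.e0.app (f.app x) = f'.app (HA.e0.app x)) (r : ℕ)
    (c : (cone (freeMap R f).cx).C r) (hc : (cone (freeMap R f).cx).Cyc r c) :
    ∃ w : (cone (freeMap R f').cx).C (r + 1), (cone (freeMap R f').cx).d r w =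
      (csq R f f' HA.e1 HB.e1 h1).app r c - (csq R f f' HA.e0 HB.e0 h0).app r c := by
  have key : ∀ p θ (x : (free R A).obj p), (prismOf R HB).h p θ ((freeMap R f).app p x) =
      (freeMap R f').app p ((prismOf R HA).h p θ x) := by
    intro p θ x
    have e : ∀ x : A.obj p →₀ R, Finsupp.mapDomain (HB.h p θ) (Finsupp.mapDomain f.app x) =
        Finsupp.mapDomain f'.app (Finsupp.mapDomain (HA.h p θ) x) := by
      intro x
      rw [← Finsupp.mapDomain_comp, ← Finsupp.mapDomain_comp]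
      congr 1
      funext z
      exact h p θ z
    exact e x
  obtain ⟨w, hw⟩ := SMod.Prism.cone_exists (prismOf R HA) (prismOf R HB) (freeMap R f)
    (freeMap R f') key r c hc
  exact ⟨w, hw (freeMap R HA.e1).cx (freeMap R HA.e0).cx (freeMap R HB.e1).cx
    (freeMap R HB.e0).cx (fun _ _ => rfl) (fun _ _ => rfl) (fun _ _ => rfl) (fun _ _ => rfl)
    (freeMap_sq f f' HA.e1 HB.e1 h1) (freeMap_sq f f' HA.e0 HB.e0 h0)⟩

/-! ### moving the vertex -/

/-- the homotopy between two axes given by an edge -/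
def axLH (X : SS) {Y : SS} (e : Y.obj 1) : SS.Htp X (X.prod Y) where
  h p θ x := mkP x (Y.map θ e)
  nat {p q} α θ x := by
    change mkP (X.map α x) (Y.map (θ.comp α) e) = (X.map α x, Y.map α (Y.map θ e))
    rw [Y.map_comp]
    rfl

theorem axLH_c1 (X : SS) {Y : SS} (e : Y.obj 1) :
    (axLH X e).e1 = axL X (Y.map (inc 0) e) := by
  apply SS.Map.ext
  intro p x
  change (x, Y.map (c1 p) e) = (x, Y.map (cst p 0) (Y.map (inc 0) e))
  rw [← Y.map_comp, c1_eq]

theorem axLH_c0 (X : SS) {Y : SS} (e : Y.obj 1) :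
    (axLH X e).e0 = axL X (Y.map (cst 0 1) e) := by
  apply SS.Map.ext
  intro p x
  change (x, Y.map (c0 p) e) = (x, Y.map (cst p 0) (Y.map (cst 0 1) e))
  rw [← Y.map_comp, c0_eq]

theorem dl00 : dl 0 0 = inc 0 := by
  apply OrderHom.ext; funext y; apply Fin.ext; rw [dl_val, inc_val]; simp

theorem dl01 : dl 0 1 = cst 0 1 := by
  apply OrderHom.ext; funext y; apply Fin.ext; rw [dl_val, cst_apply]; simp

/-- **moving the vertex of the left axis along an edge** -/
theorem coneL_edge {X X' Y Y' : SS} (f : SS.Map X X') (g : SS.Map Y Y') (e : Y.obj 1) (r : ℕ)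
    (c : (cone (freeMap R f).cx).C r) (hc : (cone (freeMap R f).cx).Cyc r c) :
    ∃ w : (cone (freeMap R (pm f g)).cx).C (r + 1), (cone (freeMap R (pm f g)).cx).d r w =
      (coneL R f g (Y.map (dl 0 0) e)).app r c - (coneL R f g (Y.map (dl 0 1) e)).app r c := by
  obtain ⟨w, hw⟩ := csq_htp (R := R) f (pm f g) (axLH X e) (axLH X' (g.app e))
    (fun p θ x => Prod.ext rfl (g.nat θ e).symm)
    (fun p x => Prod.ext rfl (g.nat (c1 p) e).symm)
    (fun p x => Prod.ext rfl (g.nat (c0 p) e).symm) r c hc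
  refine ⟨w, hw.trans ?_⟩
  have e1 : (axLH X' (g.app e)).e1 = axL X' (g.app (Y.map (dl 0 0) e)) := by
    rw [axLH_c1, dl00, g.nat]
  have e0 : (axLH X' (g.app e)).e0 = axL X' (g.app (Y.map (dl 0 1) e)) := by
    rw [axLH_c0, dl01, g.nat]
  have d1 : (axLH X e).e1 = axL X (Y.map (dl 0 0) e) := by rw [axLH_c1, dl00]
  have d0 : (axLH X e).e0 = axL X (Y.map (dl 0 1) e) := by rw [axLH_c0, dl01]
  exact congrArg₂ (· - ·) (csq_congr f (pm f g) d1 e1 _ _ r c)
    (csq_congr f (pm f g) d0 e0 _ _ r c)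

/-- **moving the vertex of the right axis along an edge** -/
theorem coneRt_edge {X X' Y Y' : SS} (f : SS.Map X X') (g : SS.Map Y Y') (e : X.obj 1) (r : ℕ)
    (c : (cone (freeMap R g).cx).C r) (hc : (cone (freeMap R g).cx).Cyc r c) :
    ∃ w : (cone (freeMap R (pm f g)).cx).C (r + 1), (cone (freeMap R (pm f g)).cx).d r w =
      (coneRt R f g (X.map (dl 0 0) e)).app r c - (coneRt R f g (X.map (dl 0 1) e)).app r c := by
  obtain ⟨w, hw⟩ := coneL_edge (R := R) g f e r c hc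
  refine ⟨(swpC R g f).app (r + 1) w, ?_⟩
  rw [← Cx.Hom.comm, hw, map_sub, swpC_coneL, swpC_coneL]

end Vale.Agent.P263.GB
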