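import Vale.Agent.P263.GB.ToConn

/-!
# P263, block G2: the comparison map on components

Under the hypotheses of `conn_of_tel_comp` the map `α_N : A_N → Q_N` of the components of degree `N`
itself is an isomorphism on homology in the range: `fib_of_tel`, `isoUpTo_fib_of_tel`.
-/

open Vale.Agent.P263.S Vale.Agent.P263.E Vale.Agent.P263.G2 Vale.Agent.P263.G

namespace Vale.Agent.P263.GB

section two

variable {k : Type} [CommRing k] {X Y Z : SS} {f : SS.Map X Y} {g : SS.Map Y Z} {p : ℕ}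

theorem hInj_comp (hg : HInj k g p) (hf : HInj k f p) : HInj k (g.comp f) p := by
  intro z hz hb
  rw [push_comp] at hb
  exact hf z hz (hg _ (hz.push f) hb)

theorem hSurj_comp (hg : HSurj k g p) (hf : HSurj k f p) : HSurj k (g.comp f) p := by
  intro w hw
  obtain ⟨y, hy, hb⟩ := hg w hw
  obtain ⟨z, hz, hb'⟩ := hf y hy
  refine ⟨z, hz, ?_⟩
  have h := hb.add (hb'.push g)
  rw [map_sub, ← push_comp] at h
  simpa using h

theorem hInj_of_comp (h : HInj k (g.comp f) p) : HInj k f p := by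
  intro z hz hb
  refine h z hz ?_
  rw [push_comp]
  exact hb.push g

theorem hSurj_of_comp (h : HSurj k (g.comp f) p) (hg : HInj k g p) : HSurj k f p := by
  intro w hw
  obtain ⟨z, hz, hb⟩ := h _ (hw.push g)
  refine ⟨z, hz, hg _ (hw.sub (hz.push f)) ?_⟩
  rw [map_sub, ← push_comp]
  exact hb

end two

/-- **The map of components.** -/
theorem fib_of_tel {k : Type} [CommRing k] {A Q : SS} (α : SS.Map A Q)
    {a : SS.Map A A} {TA : SS} (hA : IsTel (fun _ => A) (fun _ => a) TA) (dA : LC A)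
    (ha : ∀ {p : ℕ} (x : A.obj p), dA.deg (a.app x) = dA.deg x + 1)
    {b : SS.Map Q Q} {TQ : SS} (hQ : IsTel (fun _ => Q) (fun _ => b) TQ) (dQ : LC Q)
    (hb : ∀ {p : ℕ} (x : Q.obj p), dQ.deg (b.app x) = dQ.deg x + 1)
    (hα : ∀ {p : ℕ} (x : A.obj p), dQ.deg (α.app x) = dA.deg x)
    (f : SS.Map TA TQ)
    (hf : ∀ (n : ℕ) {p : ℕ} (x : A.obj p), f.app ((hA.i n).app x) = (hQ.i n).app (α.app x))
    (N j : ℕ) (hfS : HSurj k f j) (hfI : HInj k f j)
    (hs : ∀ n, N ≤ n → HInj k (fibS dA ha n) j ∧ HSurj k (fibS dA ha n) j)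
    (ht : HInj k b j ∧ HSurj k b j)
    (hP : ∀ {p : ℕ} (x : A.obj p), (dA.fib (N : ℤ)).P x → (dQ.fib (N : ℤ)).P (α.app x)) :
    HInj k ((dA.fib (N : ℤ)).map (dQ.fib (N : ℤ)) α hP) j ∧
      HSurj k ((dA.fib (N : ℤ)).map (dQ.fib (N : ℤ)) α hP) j := by
  have h1 : ∀ {p : ℕ} (x : TA.obj p), (telCl hA dA ha).P x → (telCl hQ dQ hb).P (f.app x) := by
    rintro p x ⟨n, y, rfl, hy⟩
    exact ⟨n, α.app y, (hf n y).symm, by rw [hα, hy]⟩
  have h2 : ∀ {p : ℕ} (x : TA.obj p), (telCl hQ dQ hb).P (f.app x) → (telCl hA dA ha).P x := by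
    rintro p x ⟨n, y, hy, hd⟩
    obtain ⟨m, z, rfl⟩ := hA.ex x
    refine ⟨m, z, rfl, ?_⟩
    have := deg_inv hQ dQ hb y (α.app z) (by rw [hy, hf])
    rw [hα] at this
    linarith
  have hQI : ∀ n : ℕ, HInj k (fibS dQ hb n) j := fun n =>
    Cl.hInj (dQ.fib (n : ℤ)) (dQ.fib ((n + 1 : ℕ) : ℤ)) b (fibS_h dQ hb n) ht.1
  have iA1 := (isTel_comp hA dA ha).hInj (k := k) (N := N) (p := j) fun n hn => (hs n hn).1
  have iA2 := (isTel_comp hA dA ha).hSurj (k := k) (N := N) (p := j) fun n hn => (hs n hn).2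
  have iQ1 := (isTel_comp hQ dQ hb).hInj (k := k) (N := N) (p := j) fun n _ => hQI n
  have f1 := Cl.hInj (telCl hA dA ha) (telCl hQ dQ hb) f h1 hfI
  have f2 := Cl.hSurj (telCl hA dA ha) (telCl hQ dQ hb) f h1 h2 hfS
  have e : ((isTel_comp hQ dQ hb).i N).comp ((dA.fib (N : ℤ)).map (dQ.fib (N : ℤ)) α hP) =
      ((telCl hA dA ha).map (telCl hQ dQ hb) f h1).comp ((isTel_comp hA dA ha).i N) :=
    SS.Map.ext fun p x => Subtype.ext (hf N x.1).symm
  have c1 := hInj_comp f1 iA1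
  have c2 := hSurj_comp f2 iA2
  rw [← e] at c1 c2
  exact ⟨hInj_of_comp c1, hSurj_of_comp c2 iQ1⟩

end Vale.Agent.P263.GB
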