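import Vale.Agent.P263.GB.TFun

/-!
# P263, block G2: `T(1)` is connected

* `G.jT : Gam.Hom G.gamQ G.T` : the inclusion of the loops;
* `G.conn0_T` : `Conn0 R (G.T.obj Unit) (the empty vertex)`.
-/

namespace Vale.Agent.P263.GB

open Vale.Agent.P263.S Vale.Agent.P263.E

/-! ### connectedness on chains -/

section conn

variable {R : Type} [CommRing R]

/-- two vertices are connected on chains -/
def CRel (R : Type) [CommRing R] (Y : SS) (y z : Y.obj 0) : Prop :=
  ∃ e : (free R Y).obj 1, (free R Y).d 0 e = fs R Y y - fs R Y z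

theorem CRel.refl {Y : SS} (y : Y.obj 0) : CRel R Y y y := ⟨0, by rw [map_zero, sub_self]⟩

theorem CRel.symm {Y : SS} {y z : Y.obj 0} (h : CRel R Y y z) : CRel R Y z y := by
  obtain ⟨e, he⟩ := h
  exact ⟨-e, by rw [map_neg, he, neg_sub]⟩

theorem CRel.trans {Y : SS} {y z w : Y.obj 0} (h : CRel R Y y z) (h' : CRel R Y z w) :
    CRel R Y y w := by
  obtain ⟨e, he⟩ := h
  obtain ⟨e', he'⟩ := h'
  exact ⟨e + e', by rw [map_add, he, he', sub_add_sub_cancel]⟩

/-- an edge from `z` to `y` -/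
theorem CRel.of_edge {Y : SS} (w : Y.obj 1) : CRel R Y (Y.map (dl 0 0) w) (Y.map (dl 0 1) w) := by
  refine ⟨fs R Y w, ?_⟩
  rw [SMod.d_zero_apply, free_map_fs, free_map_fs]

theorem CRel.of_edge' {Y : SS} {y z : Y.obj 0} (w : Y.obj 1) (h0 : Y.map (dl 0 0) w = y)
    (h1 : Y.map (dl 0 1) w = z) : CRel R Y y z := by
  subst h0 h1
  exact CRel.of_edge w

theorem CRel.map {Y Z : SS} (f : SS.Map Y Z) {y z : Y.obj 0} (h : CRel R Y y z) :
    CRel R Z (f.app y) (f.app z) := by
  obtain ⟨e, he⟩ := h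
  refine ⟨(freeMap R f).app 1 e, ?_⟩
  rw [← (freeMap R f).app_d, he, map_sub]
  exact congrArg₂ (· - ·) (freeMap_single f y 1) (freeMap_single f z 1)

/-- the ends of a homotopy are connected -/
theorem CRel.of_htp {X Y : SS} (K : SS.Htp X Y) (x : X.obj 0) :
    CRel R Y (K.h 0 (c1 0) x) (K.h 0 (c0 0) x) := by
  have e1 : (OrderHom.id : Op 1 1).comp (dl 0 0) = c1 0 := eq_c1 fun y => by
    show dl 0 0 y = 1
    apply Fin.ext
    rw [dl_val]
    simp
  have e0 : (OrderHom.id : Op 1 1).comp (dl 0 1) = c0 0 := eq_c0 fun y => by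
    show dl 0 1 y = 0
    apply Fin.ext
    rw [dl_val]
    have := y.2
    simp
  have hs : ∀ i, (sg 0 0).comp (dl 0 i) = (OrderHom.id : Op 0 0) := by
    intro i
    apply OrderHom.ext
    funext y
    exact Subsingleton.elim (α := Fin 1) _ _
  refine CRel.of_edge' (K.h 1 OrderHom.id (X.map (sg 0 0) x)) ?_ ?_
  · rw [← K.nat, e1, ← X.map_comp, hs, X.map_id]
  · rw [← K.nat, e0, ← X.map_comp, hs, X.map_id]

end conn

namespace MixG

variable (G : MixG)

/-- the inclusion of the loops in `M p` -/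
def jM (p : ℕ) : Gam.Hom G.gamQ (G.M p) where
  app K := G.map some (fun e : Empty => e.elim)
  nat f _ x := (G.map_map (f'' := f) (g'' := fun e : Empty => e.elim)
      (fun k => by cases f k <;> rfl) (fun e => e.elim) x).trans
    (G.map_map (f'' := f) (g'' := fun e : Empty => e.elim) (fun _ => rfl)
      (fun e => e.elim) x).symm

theorem SG_jM {p q : ℕ} (α : Op p q) (K : Type) [Finite K] {m : ℕ}
    (x : (G.gamQ.obj K).obj m) :
    ((G.SG.map α).app K).app (((G.jM q).app K).app x) = ((G.jM p).app K).app x :=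
  G.map_map (fun _ => rfl) (fun e => e.elim) x

/-- the inclusion of the loops in `T` -/
def jT : Gam.Hom G.gamQ G.T where
  app K :=
    { app := fun {p} x => ((G.jM p).app K).app x
      nat := fun {_ q} α x => (G.SG_jM α K ((G.gamQ.obj K).map α x)).symm.trans
        (congrArg ((G.SG.map α).app K).app (((G.jM q).app K).nat α x)) }
  nat {_ _} _ _ f p x := (G.jM p).nat f x

theorem jT_app (K : Type) [Finite K] {p : ℕ} (x : (G.gamQ.obj K).obj p) :
    (G.jT.app K).app x = ((G.jM p).app K).app x := rfl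

/-- every vertex of `T(K)` comes from `Q` -/
theorem exists_jT (K : Type) [Finite K] (y : (G.T.obj K).obj 0) :
    ∃ x : (G.gamQ.obj K).obj 0, (G.jT.app K).app x = y := by
  refine ⟨(G.map (L := Fin 0 × K) (L' := Empty) some (fun x => x.1.elim0)).app y, ?_⟩
  exact (G.map_map (f'' := some) (g'' := fun x => some (Sum.inr x)) (fun _ => rfl)
    (fun x => x.1.elim0) y).trans (G.map_id _)

/-- the edge which moves a box into the loops -/
def edge (z : (G.gamQ.obj Unit).obj 0) : (G.T.obj Unit).obj 1 :=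
  (G.mul Unit (Fin 1 × Unit)).app (((G.jM 1).app Unit).app ((G.gamQ.obj Unit).map (sg 0 0) z),
    G.boxO (some (Sum.inr (0, ()))) 1)

/-- add a standard loop -/
def addL (z : (G.gamQ.obj Unit).obj 0) : (G.gamQ.obj Unit).obj 0 :=
  (G.mul Unit Empty).app (z, G.boxO (some (Sum.inl ())) 0)

/-- add nothing -/
def addE (z : (G.gamQ.obj Unit).obj 0) : (G.gamQ.obj Unit).obj 0 :=
  (G.mul Unit Empty).app (z, G.emp Unit Empty 0)

theorem sg_dl_zero' (i : ℕ) : (sg 0 0).comp (dl 0 i) = (OrderHom.id : Op 0 0) := by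
  apply OrderHom.ext
  funext y
  exact Subsingleton.elim (α := Fin 1) _ _

theorem mul_op {K L : Type} [Finite K] [Finite L] {p q : ℕ} (α : Op p q)
    (a b : (G.obj K L).obj q) : (G.obj K L).map α ((G.mul K L).app (a, b)) =
      (G.mul K L).app ((G.obj K L).map α a, (G.obj K L).map α b) :=
  ((G.mul K L).nat α (a, b)).symm

theorem edge_face_raw (z : (G.obj Unit Empty).obj 0) (i : ℕ) :
    (G.map (K := Unit) (L := Fin 1 × Unit) (K' := Unit) (L' := Fin 0 × Unit) some
      (copK Unit (dl 0 i))).app ((G.obj Unit (Fin 1 × Unit)).map (dl 0 i)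
        ((G.mul Unit (Fin 1 × Unit)).app ((G.map some (fun e : Empty => e.elim)).app
          ((G.obj Unit Empty).map (sg 0 0) z), G.boxO (some (Sum.inr (0, ()))) 1))) =
      (G.mul Unit (Fin 0 × Unit)).app ((G.map some (fun e : Empty => e.elim)).app z,
        G.boxO (copK Unit (dl 0 i) (0, ())) 0) := by
  rw [G.mul_op, G.boxO_op, G.map_mul, G.map_boxO, ← SS.Map.nat,
    ← SS.map_comp, sg_dl_zero', SS.map_id]
  congr 2
  exact G.map_map (fun _ => rfl) (fun e => e.elim) z

theorem edge_face (z : (G.gamQ.obj Unit).obj 0) (i : ℕ) :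
    (G.T.obj Unit).map (dl 0 i) (G.edge z) =
      (G.mul Unit (Fin 0 × Unit)).app (((G.jM 0).app Unit).app z,
        G.boxO (copK Unit (dl 0 i) (0, ())) 0) := G.edge_face_raw z i

theorem copK_zero : copK Unit (dl 0 0) ((0 : Fin 1), ()) = some (Sum.inl ()) := by
  have : cut (dl 0 0) 1 = 0 := cut_eq_of_lt_iff _ (by omega) fun x => by
    rw [dl_val]; simp
  unfold copK cop
  show (lab (some ()) 0 (cut (dl 0 0) 1)).map _ = _
  rw [this]
  rfl

theorem copK_one : copK Unit (dl 0 1) ((0 : Fin 1), ()) = none := by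
  have : cut (dl 0 1) 1 = 1 := cut_eq_of_lt_iff _ (by omega) fun x => by
    have := x.2
    rw [dl_val]
    simp
  unfold copK cop
  show (lab (some ()) 0 (cut (dl 0 1) 1)).map _ = _
  rw [this]
  rfl

theorem jM_mul_boxO (z : (G.obj Unit Empty).obj 0) (x : Option (Unit ⊕ Empty)) :
    (G.map (K := Unit) (L := Empty) (K' := Unit) (L' := Fin 0 × Unit) some
      (fun e : Empty => e.elim)).app ((G.mul Unit Empty).app (z, G.boxO x 0)) =
      (G.mul Unit (Fin 0 × Unit)).app ((G.map some (fun e : Empty => e.elim)).app z,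
        G.boxO (x.bind (Sum.elim (fun k => some (Sum.inl k)) (fun e : Empty => e.elim))) 0) := by
  rw [G.map_mul, G.map_boxO]
  rfl

variable (R : Type) [CommRing R]

theorem crel_addE (z : (G.obj Unit Empty).obj 0) :
    CRel R (G.obj Unit Empty) z ((G.mul Unit Empty).app (z, G.emp Unit Empty 0)) := by
  have := CRel.of_htp (R := R) (G.hR Unit Empty) z
  rwa [G.hR_c0, G.hR_c1] at this

/-- adding a loop does not change the component -/
theorem crel_addL (z : (G.gamQ.obj Unit).obj 0) :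
    CRel R (G.T.obj Unit) ((G.jT.app Unit).app (G.addL z)) ((G.jT.app Unit).app z) := by
  have h1 : CRel R (G.T.obj Unit) ((G.jT.app Unit).app (G.addL z))
      ((G.jT.app Unit).app (G.addE z)) := by
    refine CRel.of_edge' (G.edge z) ?_ ?_
    · rw [G.edge_face, copK_zero]
      exact (G.jM_mul_boxO z (some (Sum.inl ()))).symm
    · rw [G.edge_face, copK_one]
      refine (G.jM_mul_boxO z none).symm.trans ?_
      rw [G.boxO_none]
      rfl
  refine h1.trans ?_
  have h2 : CRel R (G.gamQ.obj Unit) z (G.addE z) := G.crel_addE R z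
  exact (h2.map (G.jT.app Unit)).symm

/-- the degree of a vertex -/
def dg0 (z : (G.gamQ.obj Unit).obj 0) : ℤ := G.deg z

theorem dg0_addL (z : (G.gamQ.obj Unit).obj 0) : G.dg0 (G.addL z) = G.dg0 z + 1 := by
  have h := G.deg_mul z (G.boxO (some (Sum.inl ())) 0)
  have h' := G.deg_box 0
  exact h.trans (congrArg (fun t => G.deg z + t) h')

/-- vertices of the same degree are connected -/
theorem crel_of_deg {z w : (G.gamQ.obj Unit).obj 0} (h : G.dg0 z = G.dg0 w) :
    CRel R (G.T.obj Unit) ((G.jT.app Unit).app z) ((G.jT.app Unit).app w) := by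
  obtain ⟨e, h0, h1⟩ := G.conn z w h
  exact (CRel.of_edge' e h0 h1).map (G.jT.app Unit)

theorem exists_addL (z : (G.gamQ.obj Unit).obj 0) : ∀ n : ℕ, ∃ w : (G.gamQ.obj Unit).obj 0,
    G.dg0 w = G.dg0 z + n ∧
      CRel R (G.T.obj Unit) ((G.jT.app Unit).app w) ((G.jT.app Unit).app z)
  | 0 => ⟨z, by simp, CRel.refl _⟩
  | n + 1 => by
    obtain ⟨w, h1, h2⟩ := exists_addL z n
    refine ⟨G.addL w, ?_, (G.crel_addL R w).trans h2⟩
    rw [G.dg0_addL, h1]
    push_cast
    ring

/-- the base vertex of `T(K)` -/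
def empT (K : Type) [Finite K] : (G.T.obj K).obj 0 := (G.jT.app K).app (G.emp K Empty 0)

/-- **`T(1)` is connected** -/
theorem conn0_T : Conn0 R (G.T.obj Unit) (G.empT Unit) := by
  intro y
  obtain ⟨x, rfl⟩ := G.exists_jT Unit y
  have h0 : G.dg0 (G.emp Unit Empty 0) = 0 := G.deg_emp 0
  rcases le_total 0 (G.dg0 x) with h | h
  · obtain ⟨w, h1, h2⟩ := G.exists_addL R (G.emp Unit Empty 0) (G.dg0 x).toNat
    have h3 : G.dg0 x = G.dg0 w := by rw [h1, h0, zero_add, Int.toNat_of_nonneg h]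
    exact (G.crel_of_deg R h3).trans h2
  · obtain ⟨w, h1, h2⟩ := G.exists_addL R x (-G.dg0 x).toNat
    have h3 : G.dg0 w = G.dg0 (G.emp Unit Empty 0) := by
      rw [h1, h0, Int.toNat_of_nonneg (by omega)]; ring
    exact h2.symm.trans (G.crel_of_deg R h3)

end MixG

end Vale.Agent.P263.GB
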