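import Vale.Agent.P263.GB.MixKil
import Vale.Agent.P263.GB.Gen
import Vale.Agent.P263.GB.TConn

/-!
# P263, block G2 (T7): the final form

`MixG.rz0_telAlpha_of_rh` : if the reduced homology of `G.T.obj Unit` vanishes in all degrees,
then the map from the telescope of the boxes to the telescope of the loops is a homology
isomorphism in all degrees.
-/

namespace Vale.Agent.P263.GB

open Vale.Agent.P263.S Vale.Agent.P263.E

variable {R : Type} [CommRing R]

/-- the map to the point is a homology isomorphism if the reduced homology vanishes -/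
theorem rz0_toPt_of_rh {H : Gam} (h : H.Pt) (hT : ∀ t, H.RH R Unit t) (n : ℕ) :
    RZ0 (freeMap R (SS.toPt (H.obj Unit))).cx n := by
  cases n with
  | zero => exact Rd.rz0_toPt_zero (h.nonempty Unit)
  | succ t => exact (Gam.rz0_toPt h Unit t).2 (hT t)

namespace MixG

/-- **T7, final form.** -/
theorem rz0_telAlpha_of_rh (G : MixG) (hT : ∀ t, G.T.RH R Unit t) (n : ℕ) :
    RZ0 (freeMap R G.telAlpha).cx n :=
  G.rz0_telAlpha (rz0_toPt_of_rh G.T_pt hT) n

end MixG

end Vale.Agent.P263.GB
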