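import Vale.Agent.P263.GB.MixCols
import Vale.Agent.P263.GB.ArrSpan

/-!
# P263, block G2 (T7, Step 1): the relative homology of a column

For `G : MixG` and the arrow `G.col L` (with the telescope along `G.colA L`):

* `G.sp L` : the splitting `col L → fq × obj Empty L`, `G.sig L` : the same for the telescopes,
  a homology isomorphism on both ends;
* `MixG.rz0_col` **(S1)** : if the relative homology of the telescope of `fq` vanishes below `r`,
  then so does that of the telescope of `col L`;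
* `MixG.span_col` **(S2)** : if `L` has one element, every relative `r`-cycle of the telescope
  of `col L` is, up to a boundary, a sum of cycles `B ^ m (s c)` at the stages, `B = colB default`.
-/

namespace Vale.Agent.P263.GB

open Vale.Agent.P263.S Vale.Agent.P263.E

variable {R : Type} [CommRing R]

/-- a levelwise bijective map is a homology isomorphism -/
theorem Arr.rz0_of_levelwise {X Y : SS} (f : SS.Map X Y)
    (hf : ∀ p, Function.Bijective (f.app (p := p))) (n : ℕ) : RZ0 (freeMap R f).cx n := by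
  let g : SS.Map Y X := ⟨fun {p} y => (Equiv.ofBijective _ (hf p)).symm y, fun {p q} α y => by
    obtain ⟨x, rfl⟩ := (hf q).2 y
    rw [← f.nat, Equiv.ofBijective_symm_apply_apply, Equiv.ofBijective_symm_apply_apply]⟩
  have h1 : g.comp f = SS.Map.id X :=
    SS.Map.ext fun p x => Equiv.ofBijective_symm_apply_apply _ (hf p) x
  have h2 : f.comp g = SS.Map.id Y :=
    SS.Map.ext fun p x => Equiv.ofBijective_apply_symm_apply _ (hf p) x
  exact rz0_of_htp f g (h1.symm ▸ HtpRel.refl _) (h2.symm ▸ HtpRel.refl _) n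

theorem Arr.cyc_sum (A : Cx R) {n : ℕ} {ι : Type} (F : Finset ι) (c : ι → A.C n)
    (h : ∀ i ∈ F, A.Cyc n (c i)) : A.Cyc n (∑ i ∈ F, c i) := by
  classical
  induction F using Finset.induction_on with
  | empty => exact A.cyc_zero' n
  | insert i F hi ih =>
    rw [Finset.sum_insert hi]
    exact A.cyc_add (h i (Finset.mem_insert_self _ _))
      (ih fun j hj => h j (Finset.mem_insert_of_mem hj))

namespace Arr

variable {P Q W : Arr} {Y Y' : SS}

/-- the product of a map of arrows with a map -/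
def prodH (h : Hom P Q) (g : SS.Map Y Y') : Hom (P.prod Y) (Q.prod Y') where
  u := prodMap h.u g
  v := prodMap h.v g
  comm x := Prod.ext (h.comm x.1) rfl

theorem prodH_atY (h : Hom P Q) (g : SS.Map Y Y') (y : Y.obj 0) :
    (prodH h g).comp (P.atY y) = (Q.atY (g.app y)).comp h :=
  Hom.ext' (fun p _ => Prod.ext rfl (g.nat (cst p 0) y))
    (fun p _ => Prod.ext rfl (g.nat (cst p 0) y))

theorem it_prodH_atY (a : Hom P P) (g : SS.Map Y Y) (m : ℕ) (y : Y.obj 0) :
    (it (prodH a g) m).comp (P.atY y) = (P.atY ((iterMap g m).app y)).comp (it a m) := by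
  induction m with
  | zero => rfl
  | succ m ih =>
    rw [it_succ', it_succ']
    change (prodH a g).comp ((it (prodH a g) m).comp (P.atY y)) = _
    rw [ih]
    change ((prodH a g).comp (P.atY ((iterMap g m).app y))).comp (it a m) = _
    rw [prodH_atY, iterMap_app, iterMap_app, Function.iterate_succ_apply']
    rfl

/-- telescopes and products -/
def telP (a : Hom P P) (g : SS.Map Y Y) : Hom (tl (prodH a g)) ((tl a).prod (tel g)) where
  u := telProd a.u g
  v := telProd a.v g
  comm {p} z := by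
    obtain ⟨i, x, rfl⟩ := exists_tin _ z
    rfl

theorem telP_tlin_atY (a : Hom P P) (g : SS.Map Y Y) (k : ℕ) (y : Y.obj 0) :
    (telP a g).comp ((tlin (prodH a g) k).comp (P.atY y)) =
      ((tl a).atY ((tin g k).app y)).comp (tlin a k) :=
  Hom.ext' (fun p _ => Prod.ext rfl ((tin g k).nat (cst p 0) y))
    (fun p _ => Prod.ext rfl ((tin g k).nat (cst p 0) y))

/-- homology isomorphisms at both ends reflect the vanishing of relative homology -/
theorem rz0_of_hom (h : Hom P Q) (hu : ∀ m, RZ0 (freeMap R h.u).cx m)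
    (hv : ∀ m, RZ0 (freeMap R h.v).cx m) (n : ℕ) (hQ : RZ0 (freeMap R Q.f).cx n) :
    RZ0 (freeMap R P.f).cx n := by
  intro z hz
  obtain ⟨w', hw'⟩ := hQ _ ((h.ch R).cyc hz)
  exact ch_inj h hu hv n z hz w' hw'.symm

theorem rz0_tlMap_u (a : Hom P P) (b : Hom Q Q) (h : Hom P Q) (hc : h.comp a = b.comp h) (n : ℕ)
    (H : RZ0 (freeMap R h.u).cx n) : RZ0 (freeMap R (tlMap a b h hc).u).cx n :=
  rz0_telMap a.u b.u h.u
    (fun {p} x => congrArg (fun k : Hom P Q => (k.u.app x : Q.A.obj p)) hc) n H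

theorem rz0_tlMap_v (a : Hom P P) (b : Hom Q Q) (h : Hom P Q) (hc : h.comp a = b.comp h) (n : ℕ)
    (H : RZ0 (freeMap R h.v).cx n) : RZ0 (freeMap R (tlMap a b h hc).v).cx n :=
  rz0_telMap a.v b.v h.v
    (fun {p} x => congrArg (fun k : Hom P Q => (k.v.app x : Q.B.obj p)) hc) n H

end Arr

namespace MixG

variable (G : MixG)

/-- right multiplication by a configuration on the arrow of boxes and loops -/
def fqV (x : (G.obj Empty Unit).obj 0) : Arr.Hom G.fq G.fq where
  u := G.mulR x
  v := G.mulR ((G.alpha.app Unit).app x)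
  comm y := G.map_mulR _ _ x y

theorem fqV_box : G.fqV (G.boxL () 0) = G.a1 := by
  refine Arr.Hom.ext' (fun _ _ => rfl) (fun _ x => ?_)
  exact congrArg (fun v => (G.mulR v).app x) G.alpha_boxL

theorem fqV_emp : G.fqV (G.emp Empty Unit 0) = G.rho1 := by
  refine Arr.Hom.ext' (fun _ _ => rfl) (fun _ x => ?_)
  exact congrArg (fun v => (G.mulR v).app x) (G.map_emp _ _ 0)

section col

variable (L : Type) [Finite L]

/-- the first projection of the sources -/
def X1 : SS.Map (G.obj Empty (Unit ⊕ L)) (G.obj Empty Unit) :=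
  G.map (fun e => e.elim) (Sum.elim (fun u => some (Sum.inr u)) (fun _ => none))

/-- the second projection of the sources -/
def X2 : SS.Map (G.obj Empty (Unit ⊕ L)) (G.obj Empty L) :=
  G.map (fun e => e.elim) (Sum.elim (fun _ => none) (fun l => some (Sum.inr l)))

/-- the first projection of the targets -/
def V1 : SS.Map (G.obj Unit L) (G.obj Unit Empty) := G.map some (fun _ => none)

/-- the second projection of the targets -/
def V2 : SS.Map (G.obj Unit L) (G.obj Empty L) :=
  G.map (fun _ => none) (fun l => some (Sum.inr l))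

theorem alpha_X1 {p : ℕ} (x : (G.obj Empty (Unit ⊕ L)).obj p) :
    (G.alpha.app Unit).app ((G.X1 L).app x) = (G.V1 L).app ((G.colF L).app x) := by
  refine (G.map_map (f'' := fun e : Empty => e.elim)
    (g'' := Sum.elim (fun u => some (Sum.inl u)) (fun _ => none)) (fun e => e.elim) ?_
    x).trans (G.map_map (fun e => e.elim) ?_ x).symm
  · rintro (u | l) <;> rfl
  · rintro (u | l) <;> rfl

theorem X2_eq {p : ℕ} (x : (G.obj Empty (Unit ⊕ L)).obj p) :
    (G.X2 L).app x = (G.V2 L).app ((G.colF L).app x) := by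
  refine Eq.trans ?_ (G.map_map (f'' := fun e : Empty => e.elim)
    (g'' := Sum.elim (fun _ => none) (fun l => some (Sum.inr l))) (fun e => e.elim) ?_ x).symm
  · rfl
  · rintro (u | l) <;> rfl

/-- the splitting of a column -/
def sp : Arr.Hom (G.col L) (G.fq.prod (G.obj Empty L)) where
  u := SS.pair (G.X1 L) (G.X2 L)
  v := SS.pair (G.V1 L) (G.V2 L)
  comm x := Prod.ext (G.alpha_X1 L x) (G.X2_eq L x)

theorem rz0_sp_u (n : ℕ) : RZ0 (freeMap R (G.sp L).u).cx n := by
  refine (rz0_square (G.sp L).u _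
    (G.map (K := Empty) (L := Unit ⊕ L) (K' := Empty ⊕ Empty) (L' := Unit ⊕ L)
      (fun k : Empty => some ((Equiv.equivOfIsEmpty Empty (Empty ⊕ Empty)) k))
      (fun x => some (Sum.inr x)))
    (SS.Map.id _)
    (fun p => G.map_bijective (Equiv.equivOfIsEmpty _ _) (Equiv.refl (Unit ⊕ L)) p)
    (fun p => Function.bijective_id) (fun p x => ?_) n).2
    (G.split R Empty Empty Unit L n)
  refine Prod.ext ?_ ?_
  · exact G.map_map (fun x => x.elim) (fun k => by rcases k with k | l <;> rfl) x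
  · exact G.map_map (fun x => x.elim) (fun k => by rcases k with k | l <;> rfl) x

theorem rz0_sp_v (n : ℕ) : RZ0 (freeMap R (G.sp L).v).cx n := by
  refine (rz0_square (G.sp L).v _
    (G.map (K := Unit) (L := L) (K' := Unit ⊕ Empty) (L' := Empty ⊕ L)
      (fun k => some ((Equiv.sumEmpty Unit Empty).symm k))
      (fun x => some (Sum.inr ((Equiv.emptySum Empty L).symm x))))
    (SS.Map.id _)
    (fun p => G.map_bijective (Equiv.sumEmpty Unit Empty).symm (Equiv.emptySum Empty L).symm p)
    (fun p => Function.bijective_id) (fun p x => ?_) n).2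
    (G.split R Unit Empty Empty L n)
  refine Prod.ext ?_ ?_
  · exact G.map_map (fun _ => rfl) (fun _ => rfl) x
  · exact G.map_map (fun _ => rfl) (fun _ => rfl) x

variable {L}

/-- right multiplications under the splitting -/
theorem sp_colV (x : (G.obj Empty (Unit ⊕ L)).obj 0) : (G.sp L).comp (G.colV x) =
    (Arr.prodH (G.fqV ((G.X1 L).app x)) (G.mulR ((G.X2 L).app x))).comp (G.sp L) := by
  refine Arr.Hom.ext' (fun p y => Prod.ext ?_ ?_) (fun p y => Prod.ext ?_ ?_)
  · exact G.map_mulR _ _ x y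
  · exact G.map_mulR _ _ x y
  · refine (G.map_mulR _ _ ((G.colF L).app x) y).trans ?_
    exact congrArg (fun v => (G.mulR v).app ((G.V1 L).app y)) (G.alpha_X1 L x).symm
  · refine (G.map_mulR _ _ ((G.colF L).app x) y).trans ?_
    exact congrArg (fun v => (G.mulR v).app ((G.V2 L).app y)) (G.X2_eq L x).symm

variable (L)

/-- multiplication by the empty configuration on the additional labels -/
def rhoL : SS.Map (G.obj Empty L) (G.obj Empty L) := G.mulR (G.emp Empty L 0)

theorem sp_colA : (G.sp L).comp (G.colA L) = (Arr.prodH G.a1 (G.rhoL L)).comp (G.sp L) := by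
  have h1 : (G.X1 L).app (G.boxO (some (Sum.inr (Sum.inl ()))) 0) = G.boxL () 0 :=
    (G.map_boxO _ _ (some (Sum.inr (Sum.inl ()))) 0).trans rfl
  have h2 : (G.X2 L).app (G.boxO (some (Sum.inr (Sum.inl ()))) 0) = G.emp Empty L 0 :=
    (G.map_boxO _ _ (some (Sum.inr (Sum.inl ()))) 0).trans (G.boxO_none 0)
  unfold colA
  rw [sp_colV, h1, h2, fqV_box]
  rfl

/-- the splitting of the telescope of a column -/
def sig : Arr.Hom (Arr.tl (G.colA L)) ((Arr.tl G.a1).prod (tel (G.rhoL L))) :=
  (Arr.telP G.a1 (G.rhoL L)).comp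
    (Arr.tlMap (G.colA L) (Arr.prodH G.a1 (G.rhoL L)) (G.sp L) (G.sp_colA L))

theorem rz0_sig_u (n : ℕ) : RZ0 (freeMap R (G.sig L).u).cx n := by
  have h1 : RZ0 (freeMap R (Arr.tlMap (G.colA L) (Arr.prodH G.a1 (G.rhoL L)) (G.sp L)
    (G.sp_colA L)).u).cx n := Arr.rz0_tlMap_u _ _ _ _ n (G.rz0_sp_u L n)
  have h2 : RZ0 (freeMap R (Arr.telP G.a1 (G.rhoL L)).u).cx n :=
    Arr.rz0_of_levelwise _ (fun p => telProd_bijective _ _ p) n
  have h3 := rz0_comp _ _ n h1 h2
  rw [← freeMap_comp_cx] at h3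
  exact h3

theorem rz0_sig_v (n : ℕ) : RZ0 (freeMap R (G.sig L).v).cx n := by
  have h1 : RZ0 (freeMap R (Arr.tlMap (G.colA L) (Arr.prodH G.a1 (G.rhoL L)) (G.sp L)
    (G.sp_colA L)).v).cx n := Arr.rz0_tlMap_v _ _ _ _ n (G.rz0_sp_v L n)
  have h2 : RZ0 (freeMap R (Arr.telP G.a1 (G.rhoL L)).v).cx n :=
    Arr.rz0_of_levelwise _ (fun p => telProd_bijective _ _ p) n
  have h3 := rz0_comp _ _ n h1 h2
  rw [← freeMap_comp_cx] at h3
  exact h3

/-- **(S1)** the relative homology of a column vanishes below the degree `r` -/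
theorem rz0_col (r : ℕ) (h : ∀ t < r, RZ0 (freeMap R (Arr.tl G.a1).f).cx t) (t : ℕ)
    (ht : t < r) : RZ0 (freeMap R (Arr.tl (G.colA L)).f).cx t :=
  Arr.rz0_of_hom (G.sig L) (G.rz0_sig_u L) (G.rz0_sig_v L) t
    (Arr.rz0_prod (Arr.tl G.a1) (tel (G.rhoL L)) r h t ht)

variable {L}

/-- the left-normed product of `m` boxes -/
def vm (l : L) (m : ℕ) : (G.obj Empty L).obj 0 :=
  (iterMap (G.mulR (G.boxL l 0)) m).app (G.emp Empty L 0)

theorem sp_colIn : (G.sp L).comp (G.colIn L) = G.fq.atY (G.emp Empty L 0) := by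
  refine Arr.Hom.ext' (fun p x => Prod.ext ?_ ?_) (fun p x => Prod.ext ?_ ?_)
  · exact (G.map_map (f'' := some) (g'' := fun l => some (Sum.inr l)) (fun e => e.elim)
      (fun _ => rfl) x).trans (G.map_id x)
  · refine (G.map_map (f'' := fun e : Empty => e.elim) (g'' := fun _ => none) (fun e => e.elim)
      (fun _ => rfl) x).trans ?_
    refine Eq.trans (G.map_map (K' := Empty) (L' := Empty) (f := fun e : Empty => e.elim)
      (g := fun _ => none) (f' := fun e : Empty => e.elim) (g' := fun e : Empty => e.elim)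
      (fun e => e.elim) (fun _ => rfl) x).symm ?_
    rw [G.eq_emp ((G.map (K' := Empty) (L' := Empty) (fun e : Empty => e.elim)
      (fun _ => none)).app x), G.map_emp]
    exact (G.emp_map Empty L (cst p 0)).symm
  · exact (G.map_map (f'' := some) (g'' := fun l => some (Sum.inr l)) (fun _ => rfl)
      (fun e => e.elim) x).trans (G.map_id x)
  · refine (G.map_map (f'' := fun _ => none) (g'' := fun e : Empty => e.elim) (fun _ => rfl)
      (fun e => e.elim) x).trans ?_
    refine Eq.trans (G.map_map (K' := Empty) (L' := Empty) (f := fun _ => none)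
      (g := fun e : Empty => e.elim) (f' := fun e : Empty => e.elim)
      (g' := fun e : Empty => e.elim) (fun _ => rfl) (fun e => e.elim) x).symm ?_
    rw [G.eq_emp ((G.map (K' := Empty) (L' := Empty) (fun _ => none)
      (fun e : Empty => e.elim)).app x), G.map_emp]
    exact (G.emp_map Empty L (cst p 0)).symm

theorem sp_colB (l : L) (m : ℕ) :
    (G.sp L).comp ((Arr.it (G.colB l) m).comp (G.colIn L)) =
      (G.fq.atY (G.vm l m)).comp (Arr.it G.rho1 m) := by
  have h1 : (G.X1 L).app (G.boxO (some (Sum.inr (Sum.inr l))) 0) = G.emp Empty Unit 0 :=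
    (G.map_boxO _ _ (some (Sum.inr (Sum.inr l))) 0).trans (G.boxO_none 0)
  have h2 : (G.X2 L).app (G.boxO (some (Sum.inr (Sum.inr l))) 0) = G.boxL l 0 :=
    (G.map_boxO _ _ (some (Sum.inr (Sum.inr l))) 0).trans rfl
  have h3 : (G.sp L).comp (G.colB l) =
      (Arr.prodH G.rho1 (G.mulR (G.boxL l 0))).comp (G.sp L) := by
    unfold colB
    rw [sp_colV, h1, h2, fqV_emp]
  change ((G.sp L).comp (Arr.it (G.colB l) m)).comp (G.colIn L) = _
  rw [Arr.it_comm _ _ _ h3]
  change (Arr.it (Arr.prodH G.rho1 (G.mulR (G.boxL l 0))) m).comp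
    ((G.sp L).comp (G.colIn L)) = _
  rw [sp_colIn, Arr.it_prodH_atY]
  rfl

theorem degF_relabel_vm (e : L ≃ Unit) (l : L) (m : ℕ) :
    G.degF 0 ((G.map (K := Empty) (L := L) (K' := Empty) (L' := Unit) (fun e => e.elim)
      (fun l => some (Sum.inr (e l)))).app (G.vm l m)) = m := by
  have e1 : ∀ m : ℕ, (G.map (K := Empty) (L := L) (K' := Empty) (L' := Unit) (fun e => e.elim)
      (fun l => some (Sum.inr (e l)))).app (G.vm l m) =
        (iterMap G.aF m).app (G.emp Empty Unit 0) := by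
    intro m
    refine (iterMap_comm (G.mulR (G.boxL l 0)) G.aF _ (fun {p} y => ?_) m
      (G.emp Empty L 0)).trans ?_
    · refine (G.map_mulR _ _ _ y).trans ?_
      rw [show (G.map (K := Empty) (L := L) (K' := Empty) (L' := Unit) (fun e => e.elim)
        (fun l => some (Sum.inr (e l)))).app (G.boxL l 0) = G.boxL () 0 from
        (G.map_boxO _ _ (some (Sum.inr l)) 0).trans rfl]
      rfl
    · rw [G.map_emp]
  rw [e1]
  induction m with
  | zero =>
    show G.deg ((G.alpha.app Unit).app (G.emp Empty Unit 0)) = 0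
    exact (congrArg G.deg (G.map_emp _ _ 0)).trans (G.deg_emp 0)
  | succ m ih =>
    rw [iterMap_app, Function.iterate_succ_apply']
    refine (G.degF_aF 0 _).trans ?_
    rw [iterMap_app] at ih
    rw [ih]
    push_cast
    rfl

/-- every vertex is joined to a left-normed product of boxes -/
theorem exists_edge_vm [Unique L] (y : (G.obj Empty L).obj 0) :
    ∃ (m : ℕ) (w : (G.obj Empty L).obj 1), (G.obj Empty L).map (dl 0 0) w = y ∧
      (G.obj Empty L).map (dl 0 1) w = G.vm default m := by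
  let e : L ≃ Unit := Equiv.ofUnique L Unit
  have hb : ∀ (p : ℕ) (z : (G.obj Empty L).obj p),
      (G.map (K := Empty) (L := Unit) (K' := Empty) (L' := L) (fun e => e.elim)
        (fun u => some (Sum.inr (e.symm u)))).app
        ((G.map (K := Empty) (L := L) (K' := Empty) (L' := Unit) (fun e => e.elim)
          (fun l => some (Sum.inr (e l)))).app z) = z := fun p z =>
    (G.map_map (f'' := some) (g'' := fun l => some (Sum.inr l)) (fun e => e.elim)
      (fun l => by simp [lcomp]) z).trans (G.map_id z)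
  obtain ⟨m, hm⟩ := G.degB ((G.map (K := Empty) (L := L) (K' := Empty) (L' := Unit)
    (fun e => e.elim) (fun l => some (Sum.inr (e l)))).app y)
  obtain ⟨w, h0, h1⟩ := G.connB _ ((G.map (K := Empty) (L := L) (K' := Empty) (L' := Unit)
    (fun e => e.elim) (fun l => some (Sum.inr (e l)))).app (G.vm default m))
    (hm.trans (G.degF_relabel_vm e default m).symm)
  refine ⟨m, (G.map (K := Empty) (L := Unit) (K' := Empty) (L' := L) (fun e => e.elim)
    (fun u => some (Sum.inr (e.symm u)))).app w, ?_, ?_⟩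
  · rw [← SS.Map.nat, h0, hb]
  · rw [← SS.Map.nat, h1, hb]

/-- the splitting of the element `B ^ m (s c)` of a stage -/
theorem sim_sig [Unique L] (i j m : ℕ) (y₀ : (G.obj Empty L).obj 0)
    (e : (G.obj Empty L).obj 1)
    (he0 : (G.obj Empty L).map (dl 0 0) e = (iterMap (G.rhoL L) j).app y₀)
    (he1 : (G.obj Empty L).map (dl 0 1) e = G.vm default m) :
    Arr.Sim R ((G.sig L).comp ((Arr.tlin (G.colA L) (i + j)).comp
      ((Arr.it (G.colB default) m).comp (G.colIn L))))
      (((Arr.tl G.a1).atY ((tin (G.rhoL L) i).app y₀)).comp (Arr.tlin G.a1 (i + j))) := by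
  have e1 : (G.sig L).comp ((Arr.tlin (G.colA L) (i + j)).comp
      ((Arr.it (G.colB default) m).comp (G.colIn L))) =
      ((Arr.telP G.a1 (G.rhoL L)).comp (Arr.tlin (Arr.prodH G.a1 (G.rhoL L)) (i + j))).comp
        ((G.fq.atY (G.vm default m)).comp (Arr.it G.rho1 m)) := by
    rw [← G.sp_colB default m]
    rfl
  have e2 : (((Arr.tl G.a1).atY ((tin (G.rhoL L) i).app y₀)).comp
      (Arr.tlin G.a1 (i + j))) =
      ((Arr.telP G.a1 (G.rhoL L)).comp (Arr.tlin (Arr.prodH G.a1 (G.rhoL L)) (i + j))).comp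
        ((G.fq.atY ((iterMap (G.rhoL L) j).app y₀)).comp (Arr.Hom.id _)) := by
    rw [← tin_iter (G.rhoL L) i j y₀]
    exact (Arr.telP_tlin_atY G.a1 (G.rhoL L) (i + j) _).symm
  rw [e1, e2]
  refine Arr.Sim.postcomp ?_ _
  exact ((G.sim_rho1.it m).postcomp (G.fq.atY (G.vm default m))).trans
    ((Arr.sim_atY G.fq _ _ e he0 he1).symm.precomp (Arr.Hom.id _))

/-- **(S2)** the relative cycles of a column in the lowest degree -/
theorem span_col [Unique L] (r : ℕ) (h : ∀ t < r, RZ0 (freeMap R (Arr.tl G.a1).f).cx t)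
    (z : ((Arr.tl (G.colA L)).C R).C r) (hz : ((Arr.tl (G.colA L)).C R).Cyc r z) :
    ∃ (w : ((Arr.tl (G.colA L)).C R).C (r + 1)) (ι : Type) (S : Finset ι) (i m : ι → ℕ)
      (t : ι → (G.fq.C R).C r), (∀ k, (G.fq.C R).Cyc r (t k)) ∧
        z = ((Arr.tl (G.colA L)).C R).d r w + ∑ k ∈ S, ((Arr.tlin (G.colA L) (i k)).ch R).app r
          ((((Arr.it (G.colB default) (m k)).comp (G.colIn L)).ch R).app r (t k)) := by
  obtain ⟨w, F, c, hc, H⟩ := Arr.span_prod (Arr.tl G.a1) (tel (G.rhoL L)) r h _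
    (((G.sig L).ch R).cyc hz)
  -- the terms
  have key : ∀ y : (tel (G.rhoL L)).obj 0, ∃ (k m : ℕ) (t : (G.fq.C R).C r),
      (G.fq.C R).Cyc r t ∧ ∃ w, (((Arr.tl G.a1).prod (tel (G.rhoL L))).C R).d r w =
        (((G.sig L).ch R).app r (((Arr.tlin (G.colA L) k).ch R).app r
          ((((Arr.it (G.colB default) m).comp (G.colIn L)).ch R).app r t))) -
        ((((Arr.tl G.a1).atY y).ch R).app r (c y)) := by
    intro y
    obtain ⟨i, y₀, rfl⟩ := exists_tin (G.rhoL L) y
    obtain ⟨j, c₀, hc₀, hc₁⟩ := Arr.exists_tlin G.a1 r _ (hc ((tin (G.rhoL L) i).app y₀))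
    obtain ⟨m, e, he0, he1⟩ := G.exists_edge_vm ((iterMap (G.rhoL L) j).app y₀)
    refine ⟨i + j, m, ((Arr.it G.a1 i).ch R).app r c₀, ((Arr.it G.a1 i).ch R).cyc hc₀, ?_⟩
    obtain ⟨w, hw⟩ := G.sim_sig (R := R) i j m y₀ e he0 he1 r _ (((Arr.it G.a1 i).ch R).cyc hc₀)
    refine ⟨w, hw.trans ?_⟩
    rw [Arr.ch_comp, Arr.ch_comp, Arr.ch_comp (Arr.atY _ _), ← hc₁]
    congr 2
    rw [← Arr.ch_comp]
    congr 3
    rw [Nat.add_comm i j]
    exact Arr.tlin_it G.a1 j i
  choose k m t ht w' hw' using key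
  obtain ⟨v, hv⟩ := Arr.ch_inj (G.sig L) (G.rz0_sig_u L) (G.rz0_sig_v L) r
    (z - ∑ y ∈ F, ((Arr.tlin (G.colA L) (k y)).ch R).app r
      ((((Arr.it (G.colB default) (m y)).comp (G.colIn L)).ch R).app r (t y)))
    (Cx.cyc_sub _ hz (Arr.cyc_sum _ F _ fun y _ =>
      ((Arr.tlin (G.colA L) (k y)).ch R).cyc
        ((((Arr.it (G.colB default) (m y)).comp (G.colIn L)).ch R).cyc (ht y))))
    (w - ∑ y ∈ F, w' y) (by
      rw [map_sub, map_sub, map_sum, map_sum, ← H]
      simp only [hw']
      rw [Finset.sum_sub_distrib]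
      abel)
  exact ⟨v, _, F, k, m, t, ht, by rw [hv]; abel⟩

end col

end MixG

end Vale.Agent.P263.GB
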