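import Vale.Agent.P263.GB.MixG

/-!
# P263, block G2 (H13): right multiplication by a vertex is a homology isomorphism on loops

`Hlg R f g` : the maps `f, g : X → Y` of simplicial sets agree on cycles up to boundaries.

`MixG.Inv G` : associativity of `mul` on `G.obj Unit Empty` up to homotopy and a vertex of degree
`-1`.  Then for every vertex `v` the map `x ↦ mul x v` of `G.obj Unit Empty` has vanishing relative
homology in all degrees (`MixG.Inv.rz0_mulR`), in particular `x ↦ mul x (boxK ())`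
(`MixG.Inv.rz0_aK`).
-/

namespace Vale.Agent.P263.GB

open Vale.Agent.P263.S Vale.Agent.P263.E

variable {R : Type} [CommRing R]

/-- `f` and `g` agree on cycles up to boundaries -/
def Hlg (R : Type) [CommRing R] {X Y : SS} (f g : SS.Map X Y) : Prop :=
  ∀ (n : ℕ) (a : (free R X).obj n), (free R X).cx.Cyc n a → ∃ y : (free R Y).obj (n + 1),
    (free R Y).d n y = (freeMap R f).app n a - (freeMap R g).app n a

namespace Hlg

variable {X Y Z : SS} {f g h : SS.Map X Y}

theorem refl (f : SS.Map X Y) : Hlg R f f := fun n a _ => ⟨0, by rw [map_zero, sub_self]⟩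

theorem symm (h : Hlg R f g) : Hlg R g f := fun n a ha => by
  obtain ⟨y, hy⟩ := h n a ha
  exact ⟨-y, by rw [map_neg, hy, neg_sub]⟩

theorem trans (h₁ : Hlg R f g) (h₂ : Hlg R g h) : Hlg R f h := fun n a ha => by
  obtain ⟨y, hy⟩ := h₁ n a ha
  obtain ⟨z, hz⟩ := h₂ n a ha
  exact ⟨y + z, by rw [map_add, hy, hz]; abel⟩

theorem of_rel (h : HtpRel f g) : Hlg R f g := fun _ _ ha => h.exists_d ha

theorem of_htp (K : SS.Htp X Y) (h0 : ∀ {p : ℕ} (x : X.obj p), K.h p (c0 p) x = f.app x)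
    (h1 : ∀ {p : ℕ} (x : X.obj p), K.h p (c1 p) x = g.app x) : Hlg R f g :=
  of_rel ⟨K, Or.inl ⟨SS.Map.ext fun _ x => h0 x, SS.Map.ext fun _ x => h1 x⟩⟩

theorem precomp {f g : SS.Map Y Z} (h : Hlg R f g) (k : SS.Map X Y) :
    Hlg R (f.comp k) (g.comp k) := fun n a ha => by
  obtain ⟨y, hy⟩ := h n ((freeMap R k).app n a) ((freeMap R k).cx.cyc ha)
  exact ⟨y, by rw [hy, freeMap_comp_app, freeMap_comp_app]⟩

theorem postcomp {f g : SS.Map X Y} (h : Hlg R f g) (k : SS.Map Y Z) :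
    Hlg R (k.comp f) (k.comp g) := fun n a ha => by
  obtain ⟨y, hy⟩ := h n a ha
  exact ⟨(freeMap R k).app (n + 1) y, by
    rw [← (freeMap R k).app_d, hy, map_sub, freeMap_comp_app, freeMap_comp_app]⟩

/-- a map with an inverse up to `Hlg` has vanishing relative homology -/
theorem rz0 {f : SS.Map X Y} {g : SS.Map Y X} (hX : Hlg R (SS.Map.id X) (g.comp f))
    (hY : Hlg R (SS.Map.id Y) (f.comp g)) (n : ℕ) : RZ0 (freeMap R f).cx n := by
  refine Cx.Hom.rz0_of_inverse (freeMap R f).cx (freeMap R g).cx ?_ ?_ n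
  · intro n (a : (free R X).obj n) ha
    obtain ⟨y, hy⟩ := hX n a ha
    exact ⟨y, hy.trans (congrArg₂ (· - ·) (freeMap_id_app a) (freeMap_comp_app g f a))⟩
  · intro n (b : (free R Y).obj n) hb
    obtain ⟨y, hy⟩ := hY n b hb
    exact ⟨y, hy.trans (congrArg₂ (· - ·) (freeMap_id_app b) (freeMap_comp_app f g b))⟩

end Hlg

namespace MixG

variable (G : MixG)

section mulR

variable {K L : Type} [Finite K] [Finite L]

theorem mul_map {p q : ℕ} (α : Op p q) (x y : (G.obj K L).obj q) :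
    (G.obj K L).map α ((G.mul K L).app (x, y)) =
      (G.mul K L).app ((G.obj K L).map α x, (G.obj K L).map α y) :=
  ((G.mul K L).nat α (x, y)).symm

/-- the map `[p] → [0]` -/
def bot (p : ℕ) : Op p 0 := ⟨fun _ => 0, fun _ _ _ => le_rfl⟩

/-- the vertex `v`, as a degenerate simplex -/
def dgn (v : (G.obj K L).obj 0) (p : ℕ) : (G.obj K L).obj p := (G.obj K L).map (bot p) v

theorem dgn_map (v : (G.obj K L).obj 0) {p q : ℕ} (α : Op p q) :
    (G.obj K L).map α (G.dgn v q) = G.dgn v p := by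
  unfold dgn
  rw [← (G.obj K L).map_comp]
  rfl

theorem dgn_emp (p : ℕ) : G.dgn (G.emp K L 0) p = G.emp K L p := G.emp_map K L _

theorem dgn_boxO (x : Option (K ⊕ L)) (p : ℕ) : G.dgn (G.boxO x 0) p = G.boxO x p := G.boxO_op x _

/-- right multiplication by a vertex -/
def mulR (v : (G.obj K L).obj 0) : SS.Map (G.obj K L) (G.obj K L) where
  app {p} x := (G.mul K L).app (x, G.dgn v p)
  nat {p q} α x := by
    rw [G.mul_map, G.dgn_map]

theorem mulR_app (v : (G.obj K L).obj 0) {p : ℕ} (x : (G.obj K L).obj p) :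
    (G.mulR v).app x = (G.mul K L).app (x, G.dgn v p) := rfl

theorem hlg_mulR_emp : Hlg R (G.mulR (G.emp K L 0)) (SS.Map.id (G.obj K L)) :=
  Hlg.of_htp (G.hR K L) (fun {p} x => by rw [G.hR_c0, G.mulR_app, G.dgn_emp])
    (fun {p} x => G.hR_c1 K L x)

theorem hlg_mulR_edge {v w : (G.obj K L).obj 0} (E : (G.obj K L).obj 1)
    (h1 : (G.obj K L).map (dl 0 0) E = v) (h0 : (G.obj K L).map (dl 0 1) E = w) :
    Hlg R (G.mulR w) (G.mulR v) := by
  refine Hlg.of_htp ⟨fun p θ x => (G.mul K L).app (x, (G.obj K L).map θ E), ?_⟩ ?_ ?_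
  · intro p q f χ x
    rw [G.mul_map, (G.obj K L).map_comp]
  · intro p x
    rw [G.mulR_app]
    show (G.mul K L).app (x, (G.obj K L).map (c0 p) E) = _
    congr 2
    rw [← h0, dgn, ← (G.obj K L).map_comp]
    congr 1
    apply OrderHom.ext
    funext y
    apply Fin.ext
    simp [c0_val, dl_val, bot]
  · intro p x
    rw [G.mulR_app]
    show (G.mul K L).app (x, (G.obj K L).map (c1 p) E) = _
    congr 2
    rw [← h1, dgn, ← (G.obj K L).map_comp]
    congr 1

end mulR

/-- **Adding the standard loop on the right.** -/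
def aK : SS.Map (G.obj Unit Empty) (G.obj Unit Empty) := G.mulR (G.boxK () 0)

theorem aK_app {p : ℕ} (x : (G.obj Unit Empty).obj p) :
    G.aK.app x = (G.mul Unit Empty).app (x, G.boxK () p) := by
  unfold aK
  rw [G.mulR_app, ← G.boxO_inl, G.dgn_boxO]
  rfl

theorem deg_boxK (p : ℕ) : G.deg (G.boxK (L := Empty) () p) = 1 := by
  rw [← G.deg_box p]
  rfl

/-- associativity on loops up to homotopy, and a loop of degree `-1` -/
structure Inv (G : MixG) where
  /-- the homotopy -/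
  hA : SS.Htp (((G.obj Unit Empty).prod (G.obj Unit Empty)).prod (G.obj Unit Empty))
    (G.obj Unit Empty)
  hA_c0 : ∀ {p : ℕ} (x y z : (G.obj Unit Empty).obj p), hA.h p (c0 p) ((x, y), z) =
    (G.mul Unit Empty).app ((G.mul Unit Empty).app (x, y), z)
  hA_c1 : ∀ {p : ℕ} (x y z : (G.obj Unit Empty).obj p), hA.h p (c1 p) ((x, y), z) =
    (G.mul Unit Empty).app (x, (G.mul Unit Empty).app (y, z))
  /-- a loop of degree `-1` -/
  neg : (G.obj Unit Empty).obj 0
  deg_neg : G.deg neg = -1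

namespace Inv

variable {G} (I : G.Inv)

include I

theorem hlg_assoc (v w : (G.obj Unit Empty).obj 0) :
    Hlg R ((G.mulR w).comp (G.mulR v)) (G.mulR ((G.mul Unit Empty).app (v, w))) := by
  refine Hlg.of_htp ⟨fun p θ x => I.hA.h p θ ((x, G.dgn v p), G.dgn w p), ?_⟩ ?_ ?_
  · intro p q f χ x
    refine Eq.trans ?_ (I.hA.nat f χ ((x, G.dgn v q), G.dgn w q))
    show _ = I.hA.h p (χ.comp f) (((G.obj Unit Empty).map f x,
      (G.obj Unit Empty).map f (G.dgn v q)), (G.obj Unit Empty).map f (G.dgn w q))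
    rw [G.dgn_map, G.dgn_map]
  · intro p x
    exact I.hA_c0 _ _ _
  · intro p x
    show I.hA.h p (c1 p) ((x, G.dgn v p), G.dgn w p) = _
    rw [I.hA_c1, G.mulR_app, dgn, dgn, dgn, G.mul_map]

theorem hlg_mulR_inv (v w : (G.obj Unit Empty).obj 0) (h : G.deg v + G.deg w = 0) :
    Hlg R (SS.Map.id (G.obj Unit Empty)) ((G.mulR w).comp (G.mulR v)) := by
  obtain ⟨E, h0, h1⟩ := G.conn ((G.mul Unit Empty).app (v, w)) (G.emp Unit Empty 0)
    (by rw [G.deg_mul, h, G.deg_emp])
  exact (((I.hlg_assoc v w).trans (G.hlg_mulR_edge E h0 h1).symm).trans G.hlg_mulR_emp).symm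

/-- a loop of every degree -/
theorem exists_deg (m : ℤ) : ∃ v : (G.obj Unit Empty).obj 0, G.deg v = m := by
  induction m with
  | zero => exact ⟨G.emp Unit Empty 0, G.deg_emp 0⟩
  | succ m ih =>
    obtain ⟨v, hv⟩ := ih
    exact ⟨(G.mul Unit Empty).app (v, G.boxK () 0), by rw [G.deg_mul, hv, G.deg_boxK]⟩
  | pred m ih =>
    obtain ⟨v, hv⟩ := ih
    exact ⟨(G.mul Unit Empty).app (v, I.neg), by rw [G.deg_mul, hv, I.deg_neg]; rfl⟩

/-- **Right multiplication by a loop is a homology isomorphism.** -/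
theorem rz0_mulR (v : (G.obj Unit Empty).obj 0) (n : ℕ) : RZ0 (freeMap R (G.mulR v)).cx n := by
  obtain ⟨w, hw⟩ := I.exists_deg (-G.deg v)
  exact Hlg.rz0 (I.hlg_mulR_inv v w (by rw [hw, add_neg_cancel]))
    (I.hlg_mulR_inv w v (by rw [hw, neg_add_cancel])) n

/-- **Adding the standard loop is a homology isomorphism.** -/
theorem rz0_aK (n : ℕ) : RZ0 (freeMap R G.aK).cx n := I.rz0_mulR _ n

end Inv

end MixG

end Vale.Agent.P263.GB
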