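import Vale.Agent.P263.GB.DCx
import Vale.Agent.P263.GB.Htp

/-!
# P263, block G2 (T7, Step 3): normalising the degree

`Shift Y` : an automorphism `e` of a simplicial set `Y` and a degree `deg`, invariant under the
simplicial operators, with `deg (e x) = deg x + 1`.  Then `phi : x ↦ e ^ (-deg x) x` is a simplicial
map with `phi (e x) = phi x`.

`rz0_of_kil` : for a map `f : Y → W` of such simplicial sets, if `phi` kills all relative cycles in
degree `n` (up to boundaries), then the relative homology vanishes in degree `n`.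
This is the case (`kil_pw_sub`) if every relative cycle is homologous to a sum of
`e ^ m c - c`, `c` a relative cycle.
-/

namespace Vale.Agent.P263.GB

open Vale.Agent.P263.S Vale.Agent.P263.E

variable {R : Type} [CommRing R]

/-- the abstract argument -/
theorem hz_of_split (C : Cx R) (n : ℕ) (π σ : ℤ → Cx.Hom C C) (Φ : Cx.Hom C C)
    (h2 : ∀ d x, (σ d).app n (Φ.app n ((π d).app n x)) = (π d).app n x)
    (h3 : ∀ x : C.C n, ∃ S : Finset ℤ, ∑ d ∈ S, (π d).app n x = x)
    (h4 : ∀ x : C.C n, C.Cyc n x → ∃ w : C.C (n + 1), C.d n w = Φ.app n x) : C.HZ n := by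
  intro x hx
  have h : ∀ d, ∃ w, C.d n w = (π d).app n x := by
    intro d
    obtain ⟨w, hw⟩ := h4 _ ((π d).cyc hx)
    exact ⟨(σ d).app (n + 1) w, by rw [← (σ d).comm, hw, h2]⟩
  choose w hw using h
  obtain ⟨S, hS⟩ := h3 x
  refine ⟨∑ d ∈ S, w d, ?_⟩
  rw [map_sum]
  exact (Finset.sum_congr rfl fun d _ => hw d).trans hS

theorem free_ind {X : SS} {p : ℕ} {P : (free R X).obj p → Prop} (x : (free R X).obj p) (h0 : P 0)
    (hadd : ∀ f g, P f → P g → P (f + g)) (hs : ∀ (y : X.obj p) (r : R), P (Finsupp.single y r)) :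
    P x :=
  Finsupp.induction_linear x h0 hadd hs

theorem perm_apply_inv {X : Type} (e : Equiv.Perm X) (x : X) : e (e⁻¹ x) = x := e.apply_symm_apply x

/-- A simplicial set with an automorphism and a degree which is shifted by the automorphism. -/
structure Shift (Y : SS) where
  /-- the automorphism -/
  e : ∀ p, Equiv.Perm (Y.obj p)
  e_map : ∀ {p q : ℕ} (α : Op p q) (x : Y.obj q), e p (Y.map α x) = Y.map α (e q x)
  /-- the degree -/
  deg : ∀ {p : ℕ}, Y.obj p → ℤ
  deg_map : ∀ {p q : ℕ} (α : Op p q) (x : Y.obj q), deg (Y.map α x) = deg x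
  deg_e : ∀ {p : ℕ} (x : Y.obj p), deg (e p x) = deg x + 1

namespace Shift

variable {Y : SS} (S : Shift Y)

theorem inv_map {p q : ℕ} (α : Op p q) (x : Y.obj q) :
    (S.e p)⁻¹ (Y.map α x) = Y.map α ((S.e q)⁻¹ x) := by
  rw [Equiv.Perm.inv_eq_iff_eq, S.e_map, perm_apply_inv]

theorem deg_inv {p : ℕ} (x : Y.obj p) : S.deg ((S.e p)⁻¹ x) = S.deg x - 1 := by
  have := S.deg_e ((S.e p)⁻¹ x)
  rw [perm_apply_inv] at this
  omega

theorem zpow_map (m : ℤ) {p q : ℕ} (α : Op p q) (x : Y.obj q) :
    (S.e p ^ m) (Y.map α x) = Y.map α ((S.e q ^ m) x) := by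
  induction m with
  | zero => rfl
  | succ m ih =>
    rw [zpow_add_one, zpow_add_one, Equiv.Perm.mul_apply, Equiv.Perm.mul_apply, S.e_map]
    clear ih
    induction m generalizing x with
    | zero => rfl
    | succ m ih =>
      rw [Nat.cast_add, Nat.cast_one, zpow_add_one, zpow_add_one, Equiv.Perm.mul_apply,
        Equiv.Perm.mul_apply, S.e_map, ih]
  | pred m ih =>
    rw [zpow_sub_one, zpow_sub_one, Equiv.Perm.mul_apply, Equiv.Perm.mul_apply, S.inv_map]
    clear ih
    induction m generalizing x with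
    | zero => rfl
    | succ m ih =>
      rw [Nat.cast_add, Nat.cast_one, neg_add, ← sub_eq_add_neg, zpow_sub_one, zpow_sub_one,
        Equiv.Perm.mul_apply, Equiv.Perm.mul_apply, S.inv_map, ih]

theorem deg_zpow (m : ℤ) {p : ℕ} (x : Y.obj p) : S.deg ((S.e p ^ m) x) = S.deg x + m := by
  induction m with
  | zero => rw [zpow_zero, Equiv.Perm.one_apply, add_zero]
  | succ m ih =>
    rw [add_comm (m : ℤ) 1, zpow_one_add, Equiv.Perm.mul_apply, S.deg_e, ih]
    omega
  | pred m ih =>
    rw [sub_eq_add_neg, add_comm (-(m : ℤ)), zpow_add, zpow_neg_one, Equiv.Perm.mul_apply,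
      S.deg_inv, ih]
    omega

/-- the powers of the automorphism -/
def pw (m : ℤ) : SS.Map Y Y where
  app {p} x := (S.e p ^ m) x
  nat α x := S.zpow_map m α x

theorem pw_app (m : ℤ) {p : ℕ} (x : Y.obj p) : (S.pw m).app x = (S.e p ^ m) x := rfl

/-- the normalisation of the degree -/
def phi : SS.Map Y Y where
  app {p} x := (S.e p ^ (-S.deg x)) x
  nat α x := by
    show (S.e _ ^ (-S.deg (Y.map α x))) (Y.map α x) = Y.map α ((S.e _ ^ (-S.deg x)) x)
    rw [S.deg_map, S.zpow_map]

theorem phi_app {p : ℕ} (x : Y.obj p) : S.phi.app x = (S.e p ^ (-S.deg x)) x := rfl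

theorem phi_pw (m : ℤ) {p : ℕ} (x : Y.obj p) : S.phi.app ((S.pw m).app x) = S.phi.app x := by
  rw [S.phi_app, S.phi_app, S.pw_app, S.deg_zpow, ← Equiv.Perm.mul_apply, ← zpow_add]
  congr 2
  omega

theorem phi_e {p : ℕ} (x : Y.obj p) : S.phi.app (S.e p x) = S.phi.app x := by
  have := S.phi_pw 1 x
  rwa [S.pw_app, zpow_one] at this

theorem pw_phi {p : ℕ} (x : Y.obj p) : (S.pw (S.deg x)).app (S.phi.app x) = x := by
  rw [S.phi_app, S.pw_app, ← Equiv.Perm.mul_apply, ← zpow_add, add_neg_cancel, zpow_zero,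
    Equiv.Perm.one_apply]

theorem phi_of_deg {p : ℕ} (x : Y.obj p) (h : S.deg x = 0) : S.phi.app x = x := by
  rw [S.phi_app, h, neg_zero, zpow_zero, Equiv.Perm.one_apply]

open Classical in
/-- the projection of the chains to those of degree `d` -/
noncomputable def prj (R : Type) [CommRing R] (d : ℤ) : SMod.Hom (free R Y) (free R Y) where
  app p := (Finsupp.lsum R fun x : Y.obj p => if S.deg x = d then Finsupp.lsingle x else 0 :
    (Y.obj p →₀ R) →ₗ[R] (Y.obj p →₀ R))
  nat {p q} α x := by
    have h : ∀ x : Y.obj q →₀ R,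
        (Finsupp.lsum R fun x : Y.obj p => if S.deg x = d then Finsupp.lsingle x else 0 :
          (Y.obj p →₀ R) →ₗ[R] (Y.obj p →₀ R)) (Finsupp.lmapDomain R R (Y.map α) x) =
        Finsupp.lmapDomain R R (Y.map α)
          ((Finsupp.lsum R fun x : Y.obj q => if S.deg x = d then Finsupp.lsingle x else 0 :
          (Y.obj q →₀ R) →ₗ[R] (Y.obj q →₀ R)) x) := by
      intro x
      induction x using Finsupp.induction_linear with
      | zero => simp
      | add f g hf hg => rw [map_add, map_add, map_add, map_add, hf, hg]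
      | single y r =>
        rw [Finsupp.lmapDomain_apply, Finsupp.mapDomain_single, Finsupp.lsum_single,
          Finsupp.lsum_single, S.deg_map]
        split_ifs
        · rw [Finsupp.lsingle_apply, Finsupp.lsingle_apply, Finsupp.lmapDomain_apply,
            Finsupp.mapDomain_single]
        · rw [LinearMap.zero_apply, LinearMap.zero_apply, map_zero]
    exact h x

open Classical in
theorem prj_single (d : ℤ) {p : ℕ} (x : Y.obj p) (r : R) :
    (S.prj R d).app p (Finsupp.single x r) = if S.deg x = d then Finsupp.single x r else 0 := by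
  have h : (Finsupp.lsum R fun x : Y.obj p => if S.deg x = d then Finsupp.lsingle x else 0 :
    (Y.obj p →₀ R) →ₗ[R] (Y.obj p →₀ R)) (Finsupp.single x r) =
      if S.deg x = d then Finsupp.single x r else 0 := by
    rw [Finsupp.lsum_single]
    split_ifs
    · rfl
    · rfl
  exact h

/-- a chain is the sum of its components -/
theorem exists_sum (p : ℕ) (x : Y.obj p →₀ R) : ∃ T : Finset ℤ, ∀ T', T ⊆ T' →
    ∑ d ∈ T', (S.prj R d).app p x = x := by
  classical
  induction x using Finsupp.induction_linear with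
  | zero => exact ⟨∅, fun T' _ => Finset.sum_eq_zero fun d _ => map_zero _⟩
  | add f g hf hg =>
    obtain ⟨T, hT⟩ := hf
    obtain ⟨T₂, hT₂⟩ := hg
    refine ⟨T ∪ T₂, fun T' h => ?_⟩
    have h1 := hT T' (Finset.union_subset_left h)
    have h2 := hT₂ T' (Finset.union_subset_right h)
    have h3 : ∑ d ∈ T', (S.prj R d).app p (f + g) =
      ∑ d ∈ T', ((S.prj R d).app p f + (S.prj R d).app p g) :=
      Finset.sum_congr rfl fun d _ => map_add _ _ _
    rw [h3, Finset.sum_add_distrib, h1, h2]
    rfl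
  | single y r =>
    refine ⟨{S.deg y}, fun T' h => ?_⟩
    have hy : S.deg y ∈ T' := h (Finset.mem_singleton_self _)
    have h3 : ∑ d ∈ T', (S.prj R d).app p (Finsupp.single y r) =
      ∑ d ∈ T', (if S.deg y = d then Finsupp.single y r else 0 : Y.obj p →₀ R) :=
      Finset.sum_congr rfl fun d _ => S.prj_single d y r
    rw [h3, Finset.sum_ite_eq, if_pos hy]

/-- on the degree `d` part, `phi` is inverse to `e ^ d` -/
theorem pw_phi_prj (d : ℤ) (p : ℕ) (x : (free R Y).obj p) :
    (freeMap R (S.pw d)).app p ((freeMap R S.phi).app p ((S.prj R d).app p x)) =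
      (S.prj R d).app p x := by
  classical
  induction x using free_ind with
  | h0 => rw [map_zero, map_zero, map_zero]
  | hadd f g hf hg => rw [map_add, map_add, map_add, hf, hg]
  | hs y r =>
    rw [S.prj_single]
    split_ifs with h
    · subst h
      rw [freeMap_single, freeMap_single, S.pw_phi]
    · have h0 : (freeMap R S.phi).app p (0 : Y.obj p →₀ R) = 0 := map_zero _
      rw [h0]
      exact map_zero ((freeMap R (S.pw d)).app p)

end Shift

/-! ### relative version -/

section rel

variable {Y W : SS} (f : SS.Map Y W) (S : Shift Y) (T : Shift W)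

/-- the map is compatible with the automorphism and the degree -/
structure Shift.Compat : Prop where
  e : ∀ {p : ℕ} (x : Y.obj p), f.app (S.e p x) = T.e p (f.app x)
  deg : ∀ {p : ℕ} (x : Y.obj p), T.deg (f.app x) = S.deg x

variable {f S T} (hc : Shift.Compat f S T)

namespace Shift.Compat

include hc

theorem zpow (m : ℤ) {p : ℕ} (x : Y.obj p) : f.app ((S.e p ^ m) x) = (T.e p ^ m) (f.app x) := by
  have hn : ∀ x : Y.obj p, f.app ((S.e p)⁻¹ x) = (T.e p)⁻¹ (f.app x) := by
    intro x
    rw [eq_comm, Equiv.Perm.inv_eq_iff_eq, ← hc.e, perm_apply_inv]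
  induction m with
  | zero => rfl
  | succ m ih =>
    rw [add_comm (m : ℤ) 1, zpow_one_add, zpow_one_add, Equiv.Perm.mul_apply,
      Equiv.Perm.mul_apply, hc.e, ih]
  | pred m ih =>
    rw [sub_eq_add_neg, add_comm (-(m : ℤ)), zpow_add, zpow_add, zpow_neg_one, zpow_neg_one,
      Equiv.Perm.mul_apply, Equiv.Perm.mul_apply, hn, ih]

theorem phi {p : ℕ} (x : Y.obj p) : f.app (S.phi.app x) = T.phi.app (f.app x) := by
  rw [S.phi_app, T.phi_app, hc.zpow, hc.deg]

omit hc in
theorem sq {g : SS.Map Y Y} {h : SS.Map W W}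
    (hgh : ∀ {p : ℕ} (x : Y.obj p), f.app (g.app x) = h.app (f.app x)) (n : ℕ)
    (x : (free R Y).cx.C n) :
    (freeMap R h).cx.app n ((freeMap R f).cx.app n x) =
      (freeMap R f).cx.app n ((freeMap R g).cx.app n x) := by
  have h1 : ∀ x : (free R Y).obj n, (freeMap R h).app n ((freeMap R f).app n x) =
      (freeMap R f).app n ((freeMap R g).app n x) := by
    intro x
    induction x using free_ind with
    | h0 => rw [map_zero, map_zero, map_zero, map_zero]
    | hadd a b ha hb => rw [map_add, map_add, map_add, map_add, ha, hb]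
    | hs y r => rw [freeMap_single, freeMap_single, freeMap_single, freeMap_single, hgh]
  exact h1 x

theorem sq_prj (d : ℤ) (n : ℕ) (x : (free R Y).cx.C n) :
    (T.prj R d).cx.app n ((freeMap R f).cx.app n x) =
      (freeMap R f).cx.app n ((S.prj R d).cx.app n x) := by
  classical
  have h1 : ∀ x : (free R Y).obj n, (T.prj R d).app n ((freeMap R f).app n x) =
      (freeMap R f).app n ((S.prj R d).app n x) := by
    intro x
    induction x using free_ind with
    | h0 => rw [map_zero, map_zero, map_zero, map_zero]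
    | hadd a b ha hb => rw [map_add, map_add, map_add, map_add, ha, hb]
    | hs y r =>
      rw [freeMap_single, T.prj_single, S.prj_single, hc.deg]
      split_ifs
      · rw [freeMap_single]
      · exact (map_zero ((freeMap R f).app n)).symm
  exact h1 x

/-- the power `e ^ m` on relative chains -/
noncomputable def relPw (R : Type) [CommRing R] (m : ℤ) :
    Cx.Hom (cone (freeMap R f).cx) (cone (freeMap R f).cx) :=
  coneMap _ _ (freeMap R (S.pw m)).cx (freeMap R (T.pw m)).cx (sq fun x => hc.zpow m x)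

/-- the normalisation of the degree on relative chains -/
noncomputable def relPhi (R : Type) [CommRing R] :
    Cx.Hom (cone (freeMap R f).cx) (cone (freeMap R f).cx) :=
  coneMap _ _ (freeMap R S.phi).cx (freeMap R T.phi).cx (sq fun x => hc.phi x)

/-- the projection to the degree `d` part on relative chains -/
noncomputable def relPrj (R : Type) [CommRing R] (d : ℤ) :
    Cx.Hom (cone (freeMap R f).cx) (cone (freeMap R f).cx) :=
  coneMap _ _ (S.prj R d).cx (T.prj R d).cx (hc.sq_prj d)

theorem relPhi_relPw (m : ℤ) (n : ℕ) (x : (cone (freeMap R f).cx).C n) :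
    (hc.relPhi R).app n ((hc.relPw R m).app n x) = (hc.relPhi R).app n x := by
  have hS : ∀ (n : ℕ) (x : (free R Y).obj n),
      (freeMap R S.phi).app n ((freeMap R (S.pw m)).app n x) = (freeMap R S.phi).app n x := by
    intro n x
    rw [← freeMap_comp_app]
    congr 3
    exact SS.Map.ext (fun p x => S.phi_pw m x)
  have hT : ∀ (n : ℕ) (x : (free R W).obj n),
      (freeMap R T.phi).app n ((freeMap R (T.pw m)).app n x) = (freeMap R T.phi).app n x := by
    intro n x
    rw [← freeMap_comp_app]
    congr 3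
    exact SS.Map.ext (fun p x => T.phi_pw m x)
  cases n with
  | zero => exact hT 0 x
  | succ n =>
    obtain ⟨b, a⟩ := x
    exact Prod.ext (hT (n + 1) b) (hS n a)

theorem relPw_relPhi_relPrj (d : ℤ) (n : ℕ) (x : (cone (freeMap R f).cx).C n) :
    (hc.relPw R d).app n ((hc.relPhi R).app n ((hc.relPrj R d).app n x)) =
      (hc.relPrj R d).app n x := by
  cases n with
  | zero => exact T.pw_phi_prj d 0 x
  | succ n =>
    obtain ⟨b, a⟩ := x
    exact Prod.ext (T.pw_phi_prj d (n + 1) b) (S.pw_phi_prj d n a)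

theorem exists_sum (n : ℕ) (x : (cone (freeMap R f).cx).C n) :
    ∃ P : Finset ℤ, ∑ d ∈ P, (hc.relPrj R d).app n x = x := by
  classical
  cases n with
  | zero =>
    obtain ⟨P, hP⟩ := T.exists_sum (R := R) 0 x
    exact ⟨P, hP P (Finset.Subset.refl _)⟩
  | succ n =>
    obtain ⟨b, a⟩ := x
    obtain ⟨P, hP⟩ := T.exists_sum (R := R) (n + 1) b
    obtain ⟨P', hP'⟩ := S.exists_sum (R := R) n a
    refine ⟨P ∪ P', ?_⟩
    have h1 := hP _ (Finset.subset_union_left (s₂ := P'))
    have h2 := hP' _ (Finset.subset_union_right (s₁ := P))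
    have h3 : ∀ Q : Finset ℤ, ∑ d ∈ Q, (hc.relPrj R d).app (n + 1) (b, a) =
        ((∑ d ∈ Q, (T.prj R d).app (n + 1) b, ∑ d ∈ Q, (S.prj R d).app n a) :
          (free R W).obj (n + 1) × (free R Y).obj n) := by
      intro Q
      induction Q using Finset.induction_on with
      | empty => rfl
      | insert d Q hd ih =>
        rw [Finset.sum_insert hd, Finset.sum_insert hd, Finset.sum_insert hd, ih]
        rfl
    rw [h3, h1, h2]
    rfl

/-- the relative chain `x` is killed by `phi`, up to a boundary -/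
def Kil {n : ℕ} (x : (cone (freeMap R f).cx).C n) : Prop :=
  ∃ w, (cone (freeMap R f).cx).d n w = (hc.relPhi R).app n x

/-- **If the normalisation of the degree kills all relative cycles, the relative homology
vanishes.** -/
theorem rz0_of_kil (n : ℕ) (h : ∀ x, (cone (freeMap R f).cx).Cyc n x → hc.Kil x) :
    RZ0 (freeMap R f).cx n :=
  hz_of_split _ n (hc.relPrj R) (hc.relPw R) (hc.relPhi R) (fun d x => hc.relPw_relPhi_relPrj d n x)
    (hc.exists_sum n) h

variable {n : ℕ} {x y : (cone (freeMap R f).cx).C n}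

theorem kil_zero : hc.Kil (0 : (cone (freeMap R f).cx).C n) := ⟨0, by rw [map_zero, map_zero]⟩

theorem kil_add (hx : hc.Kil x) (hy : hc.Kil y) : hc.Kil (x + y) := by
  obtain ⟨w, hw⟩ := hx
  obtain ⟨v, hv⟩ := hy
  exact ⟨w + v, by rw [map_add, map_add, hw, hv]⟩

theorem kil_neg (hx : hc.Kil x) : hc.Kil (-x) := by
  obtain ⟨w, hw⟩ := hx
  exact ⟨-w, by rw [map_neg, map_neg, hw]⟩

theorem kil_sub (hx : hc.Kil x) (hy : hc.Kil y) : hc.Kil (x - y) := by
  obtain ⟨w, hw⟩ := hx
  obtain ⟨v, hv⟩ := hy
  exact ⟨w - v, by rw [map_sub, map_sub, hw, hv]⟩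

theorem kil_smul (r : R) (hx : hc.Kil x) : hc.Kil (r • x) := by
  obtain ⟨w, hw⟩ := hx
  exact ⟨r • w, by rw [map_smul, map_smul, hw]⟩

theorem kil_sum {ι : Type} (P : Finset ι) (g : ι → (cone (freeMap R f).cx).C n)
    (h : ∀ i ∈ P, hc.Kil (g i)) : hc.Kil (∑ i ∈ P, g i) := by
  classical
  induction P using Finset.induction_on with
  | empty => rw [Finset.sum_empty]; exact hc.kil_zero
  | insert i P hi ih =>
    rw [Finset.sum_insert hi]
    exact hc.kil_add (h i (Finset.mem_insert_self _ _))
      (ih fun j hj => h j (Finset.mem_insert_of_mem hj))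

theorem kil_d (w : (cone (freeMap R f).cx).C (n + 1)) : hc.Kil ((cone (freeMap R f).cx).d n w) :=
  ⟨(hc.relPhi R).app (n + 1) w, by rw [(hc.relPhi R).comm]⟩

/-- `e ^ m c - c` is killed, strictly -/
theorem kil_pw_sub (m : ℤ) (x : (cone (freeMap R f).cx).C n) :
    hc.Kil ((hc.relPw R m).app n x - x) :=
  ⟨0, by rw [map_zero, map_sub, hc.relPhi_relPw, sub_self]⟩

/-- `Kil` only depends on the class -/
theorem kil_of_sub_eq_d (hy : hc.Kil y) {w : (cone (freeMap R f).cx).C (n + 1)}
    (h : x = y + (cone (freeMap R f).cx).d n w) : hc.Kil x := by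
  rw [h]
  exact hc.kil_add hy (hc.kil_d w)

end Shift.Compat

end rel

end Vale.Agent.P263.GB
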