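import Vale.Agent.P263.GB.Htp
import Vale.Agent.P263.GB.Labels
import Mathlib.Data.Finite.Sum

/-!
# P263, block G2-7: the structure `MixG`

`G.obj K L` : the simplicial set of pairs (stable maps with labels in `K`, boxes with labels in
`L`), with disjoint supports, `K`, `L` finite.  A label in `L` can be kept, dropped, or moved to
the `K`-side (collapse of the box), a label in `K` can be kept or dropped.

`G.obj Empty L` = boxes only, `G.obj K Empty` = loops only.
-/

namespace Vale.Agent.P263.GB

open Vale.Agent.P263.S Vale.Agent.P263.E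

/-- composition of the label maps on the box side -/
def lcomp {L K' L' K'' L'' : Type} (g : L → Option (K' ⊕ L')) (f' : K' → Option K'')
    (g' : L' → Option (K'' ⊕ L'')) (l : L) : Option (K'' ⊕ L'') :=
  (g l).bind (Sum.elim (fun k => (f' k).map Sum.inl) g')

/-- The input of the group completion argument. -/
structure MixG where
  /-- the simplicial sets -/
  obj : (K L : Type) → [Finite K] → [Finite L] → SS
  /-- relabelling -/
  map : ∀ {K L K' L' : Type} [Finite K] [Finite L] [Finite K'] [Finite L'],
    (K → Option K') → (L → Option (K' ⊕ L')) → SS.Map (obj K L) (obj K' L')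
  map_id : ∀ {K L : Type} [Finite K] [Finite L] {p : ℕ} (x : (obj K L).obj p),
    (map (K := K) (L := L) (K' := K) (L' := L) (fun k => some k)
      (fun l => some (Sum.inr l))).app x = x
  map_comp : ∀ {K L K' L' K'' L'' : Type} [Finite K] [Finite L] [Finite K'] [Finite L']
    [Finite K''] [Finite L''] (f : K → Option K') (g : L → Option (K' ⊕ L'))
    (f' : K' → Option K'') (g' : L' → Option (K'' ⊕ L'')) {p : ℕ} (x : (obj K L).obj p),
    (map f' g').app ((map f g).app x) =
      (map (fun k => (f k).bind f') (lcomp g f' g')).app x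
  /-- nothing : no loop, no box -/
  emp : (K L : Type) → [Finite K] → [Finite L] → (p : ℕ) → (obj K L).obj p
  emp_map : ∀ (K L : Type) [Finite K] [Finite L] {p q : ℕ} (α : Op p q),
    (obj K L).map α (emp K L q) = emp K L p
  map_emp : ∀ {K L K' L' : Type} [Finite K] [Finite L] [Finite K'] [Finite L']
    (f : K → Option K') (g : L → Option (K' ⊕ L')) (p : ℕ),
    (map f g).app (emp K L p) = emp K' L' p
  /-- without labels there is only one simplex -/
  eq_emp : ∀ {p : ℕ} (x : (obj Empty Empty).obj p), x = emp Empty Empty p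
  /-- `x` in the first half, `y` in the second half of the first coordinate -/
  mul : (K L : Type) → [Finite K] → [Finite L] → SS.Map ((obj K L).prod (obj K L)) (obj K L)
  map_mul : ∀ {K L K' L' : Type} [Finite K] [Finite L] [Finite K'] [Finite L']
    (f : K → Option K') (g : L → Option (K' ⊕ L')) {p : ℕ} (x y : (obj K L).obj p),
    (map f g).app ((mul K L).app (x, y)) = (mul K' L').app ((map f g).app x, (map f g).app y)
  /-- the homotopy from `mul x emp` to `x` -/
  hR : (K L : Type) → [Finite K] → [Finite L] → SS.Htp (obj K L) (obj K L)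
  hR_c0 : ∀ (K L : Type) [Finite K] [Finite L] {p : ℕ} (x : (obj K L).obj p),
    (hR K L).h p (c0 p) x = (mul K L).app (x, emp K L p)
  hR_c1 : ∀ (K L : Type) [Finite K] [Finite L] {p : ℕ} (x : (obj K L).obj p),
    (hR K L).h p (c1 p) x = x
  map_hR : ∀ {K L K' L' : Type} [Finite K] [Finite L] [Finite K'] [Finite L']
    (f : K → Option K') (g : L → Option (K' ⊕ L')) {p : ℕ} (θ : Op p 1) (x : (obj K L).obj p),
    (map f g).app ((hR K L).h p θ x) = (hR K' L').h p θ ((map f g).app x)
  /-- the homotopy from `mul emp x` to `x` -/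
  hL : (K L : Type) → [Finite K] → [Finite L] → SS.Htp (obj K L) (obj K L)
  hL_c0 : ∀ (K L : Type) [Finite K] [Finite L] {p : ℕ} (x : (obj K L).obj p),
    (hL K L).h p (c0 p) x = (mul K L).app (emp K L p, x)
  hL_c1 : ∀ (K L : Type) [Finite K] [Finite L] {p : ℕ} (x : (obj K L).obj p),
    (hL K L).h p (c1 p) x = x
  map_hL : ∀ {K L K' L' : Type} [Finite K] [Finite L] [Finite K'] [Finite L']
    (f : K → Option K') (g : L → Option (K' ⊕ L')) {p : ℕ} (θ : Op p 1) (x : (obj K L).obj p),
    (map f g).app ((hL K L).h p θ x) = (hL K' L').h p θ ((map f g).app x)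
  /-- the standard box, with label `()` -/
  box : (p : ℕ) → (obj Empty Unit).obj p
  box_map : ∀ {p q : ℕ} (α : Op p q), (obj Empty Unit).map α (box q) = box p
  /-- the degree of a loop -/
  deg : {p : ℕ} → (obj Unit Empty).obj p → ℤ
  deg_map : ∀ {p q : ℕ} (α : Op p q) (x : (obj Unit Empty).obj q),
    deg ((obj Unit Empty).map α x) = deg x
  deg_emp : ∀ p : ℕ, deg (emp Unit Empty p) = 0
  deg_mul : ∀ {p : ℕ} (x y : (obj Unit Empty).obj p),
    deg ((mul Unit Empty).app (x, y)) = deg x + deg y
  deg_box : ∀ p : ℕ, deg ((map (K' := Unit) (L' := Empty) (fun k => k.elim)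
    (fun _ => some (Sum.inl ()))).app (box p)) = 1
  /-- loops of the same degree are joined by an edge -/
  conn : ∀ x y : (obj Unit Empty).obj 0, deg x = deg y →
    ∃ w : (obj Unit Empty).obj 1, (obj Unit Empty).map (dl 0 0) w = x ∧
      (obj Unit Empty).map (dl 0 1) w = y
  /-- the degree of a collapsed configuration is a natural number (the number of boxes) -/
  degB : ∀ x : (obj Empty Unit).obj 0, ∃ m : ℕ, deg ((map (K' := Unit) (L' := Empty)
    (fun k => k.elim) (fun k : Unit => some (Sum.inl k))).app x) = m
  /-- configurations with the same number of boxes are joined by an edge -/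
  connB : ∀ x y : (obj Empty Unit).obj 0,
    deg ((map (K' := Unit) (L' := Empty) (fun k => k.elim)
      (fun k : Unit => some (Sum.inl k))).app x) =
      deg ((map (K' := Unit) (L' := Empty) (fun k => k.elim)
        (fun k : Unit => some (Sum.inl k))).app y) →
    ∃ w : (obj Empty Unit).obj 1, (obj Empty Unit).map (dl 0 0) w = x ∧
      (obj Empty Unit).map (dl 0 1) w = y
  /-- **splitting** : dropping labels is a homology isomorphism onto the product -/
  split : ∀ (R : Type) [CommRing R] (K₁ K₂ L₁ L₂ : Type) [Finite K₁] [Finite K₂] [Finite L₁]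
    [Finite L₂] (n : ℕ),
    RZ0 (freeMap R (SS.pair
      (map (K := K₁ ⊕ K₂) (L := L₁ ⊕ L₂) (K' := K₁) (L' := L₁) (Sum.elim some (fun _ => none))
        (Sum.elim (fun l => some (Sum.inr l)) (fun _ => none)))
      (map (K := K₁ ⊕ K₂) (L := L₁ ⊕ L₂) (K' := K₂) (L' := L₂) (Sum.elim (fun _ => none) some)
        (Sum.elim (fun _ => none) (fun l => some (Sum.inr l)))))).cx n

namespace MixG

variable (G : MixG)

theorem map_congr {K L K' L' : Type} [Finite K] [Finite L] [Finite K'] [Finite L']
    {f f₁ : K → Option K'} {g g₁ : L → Option (K' ⊕ L')} (hf : ∀ k, f k = f₁ k)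
    (hg : ∀ l, g l = g₁ l) : G.map f g = G.map f₁ g₁ := by
  obtain rfl : f = f₁ := funext hf
  obtain rfl : g = g₁ := funext hg
  rfl

/-- the identity with arbitrary formulas -/
theorem map_eq_self {K L : Type} [Finite K] [Finite L] {f : K → Option K}
    {g : L → Option (K ⊕ L)} (hf : ∀ k, f k = some k) (hg : ∀ l, g l = some (Sum.inr l)) {p : ℕ}
    (x : (G.obj K L).obj p) : (G.map f g).app x = x := by
  rw [G.map_congr hf hg, G.map_id]

/-- composition with arbitrary formulas -/
theorem map_map_eq {K L K' L' K'' L'' : Type} [Finite K] [Finite L] [Finite K'] [Finite L']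
    [Finite K''] [Finite L''] {f : K → Option K'} {g : L → Option (K' ⊕ L')}
    {f' : K' → Option K''} {g' : L' → Option (K'' ⊕ L'')} {f'' : K → Option K''}
    {g'' : L → Option (K'' ⊕ L'')} (hf : ∀ k, (f k).bind f' = f'' k)
    (hg : ∀ l, lcomp g f' g' l = g'' l) {p : ℕ} (x : (G.obj K L).obj p) :
    (G.map f' g').app ((G.map f g).app x) = (G.map f'' g'').app x := by
  rw [G.map_comp, G.map_congr hf hg]

/-- the box with label `l` -/
def boxL {K L : Type} [Finite K] [Finite L] (l : L) (p : ℕ) : (G.obj K L).obj p :=
  (G.map (K' := K) (L' := L) (fun k : Empty => k.elim) (fun _ : Unit => some (Sum.inr l))).app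
    (G.box p)

/-- the standard loop with label `k` -/
def boxK {K L : Type} [Finite K] [Finite L] (k : K) (p : ℕ) : (G.obj K L).obj p :=
  (G.map (K' := K) (L' := L) (fun k : Empty => k.elim) (fun _ : Unit => some (Sum.inl k))).app
    (G.box p)

/-- the box (or loop) with the label `x`, nothing if there is no label -/
def boxO {K L : Type} [Finite K] [Finite L] (x : Option (K ⊕ L)) (p : ℕ) : (G.obj K L).obj p :=
  (G.map (K' := K) (L' := L) (fun k : Empty => k.elim) (fun _ : Unit => x)).app (G.box p)

theorem boxO_inr {K L : Type} [Finite K] [Finite L] (l : L) (p : ℕ) :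
    G.boxO (K := K) (some (Sum.inr l)) p = G.boxL l p := rfl

theorem boxO_inl {K L : Type} [Finite K] [Finite L] (k : K) (p : ℕ) :
    G.boxO (L := L) (some (Sum.inl k)) p = G.boxK k p := rfl

theorem boxO_none {K L : Type} [Finite K] [Finite L] (p : ℕ) :
    G.boxO (K := K) (L := L) none p = G.emp K L p := by
  have h : (G.map (K' := K) (L' := L) (fun k : Empty => k.elim)
      (fun l : Empty => l.elim)).app ((G.map (K := Empty) (L := Unit) (K' := Empty) (L' := Empty)
        (fun k : Empty => k.elim) (fun _ : Unit => none)).app (G.box p)) =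
      G.boxO (K := K) (L := L) none p := by
    rw [G.map_comp]
    exact congrArg (fun F => SS.Map.app F (G.box p))
      (G.map_congr (fun k => k.elim) (fun _ => rfl))
  have e := G.eq_emp ((G.map (K := Empty) (L := Unit) (K' := Empty) (L' := Empty)
    (fun k : Empty => k.elim) (fun _ : Unit => none)).app (G.box p))
  rw [← h, e, G.map_emp]

theorem boxO_op {K L : Type} [Finite K] [Finite L] (x : Option (K ⊕ L)) {p q : ℕ} (α : Op p q) :
    (G.obj K L).map α (G.boxO x q) = G.boxO x p := by
  unfold boxO
  rw [← SS.Map.nat, G.box_map]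

theorem map_boxO {K L K' L' : Type} [Finite K] [Finite L] [Finite K'] [Finite L']
    (f : K → Option K') (g : L → Option (K' ⊕ L')) (x : Option (K ⊕ L)) (p : ℕ) :
    (G.map f g).app (G.boxO x p) =
      G.boxO (x.bind (Sum.elim (fun k => (f k).map Sum.inl) g)) p := by
  unfold boxO
  rw [G.map_comp]
  exact congrArg (fun F => SS.Map.app F (G.box p))
    (G.map_congr (fun k => k.elim) (fun _ => rfl))

end MixG

end Vale.Agent.P263.GB
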