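import Vale.Agent.P263.GB.SGam
import Vale.Agent.P263.GB.MixG
import Vale.Agent.P263.GB.Low

/-!
# P263, block G2: the functor `T`

From `G : MixG`:

* `G.gamQ`, `G.gamF : Gam` (loops only, boxes only), `G.alpha : Gam.Hom G.gamF G.gamQ`;
* `G.M p : Gam`, `(M p).obj K = G.obj K (Fin p × K)`; `G.SG : SGam`; `G.T := G.SG.diag` :
  a circle label which becomes constant `1` is moved to the `Q`-side;
* `G.T_pt`, `G.segalH_M`, `G.segalH_T`, `G.segalH_gamQ`, `G.segalH_gamF`.
-/

namespace Vale.Agent.P263.GB

open Vale.Agent.P263.S Vale.Agent.P263.E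

/-- relabelling of the boxes of `M p` -/
def sndR {K L : Type} (p : ℕ) (f : K → Option L) (x : Fin p × K) : Option (L ⊕ (Fin p × L)) :=
  (f x.2).map fun l => Sum.inr (x.1, l)

/-- the operators on the labels of the boxes of `T` -/
def copK (K : Type) {p q : ℕ} (α : Op p q) (x : Fin q × K) : Option (K ⊕ (Fin p × K)) :=
  (cop (some ()) α x.1).map (Sum.map (fun _ => x.2) (fun j => (j, x.2)))

theorem copK_id (K : Type) {p : ℕ} (x : Fin p × K) :
    copK K (OrderHom.id : Op p p) x = some (Sum.inr x) := by
  unfold copK
  rw [cop_id]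
  rfl

theorem lcomp_copK (K : Type) {p q r : ℕ} (α : Op q r) (β : Op p q) (x : Fin r × K) :
    lcomp (copK K α) some (copK K β) x = copK K (α.comp β) x := by
  unfold lcomp copK
  rw [cop_comp]
  cases h : cop (some ()) α x.1 with
  | none => rfl
  | some y =>
    rcases y with u | j
    · rfl
    · rfl

theorem lcomp_sndR {K L M : Type} (p : ℕ) (f : K → Option L) (g : L → Option M)
    (x : Fin p × K) :
    lcomp (sndR p f) g (sndR p g) x = sndR p (fun k => (f k).bind g) x := by
  unfold lcomp sndR
  dsimp only
  cases f x.2 <;> rfl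

theorem lcomp_inr {K L M : Type} (f : K → Option L) (g : L → Option M) (k : K) :
    lcomp (K' := Empty) (fun k => (f k).map Sum.inr) (fun e : Empty => e.elim)
      (fun l => (g l).map Sum.inr) k = (((f k).bind g).map Sum.inr : Option (Empty ⊕ M)) := by
  unfold lcomp
  dsimp only
  cases f k <;> rfl

theorem lcomp_inl {K L : Type} (f : K → Option L) (k : K) :
    lcomp (K' := Empty) (fun k => (f k).map Sum.inr) (fun e : Empty => e.elim)
      (fun l : L => some (Sum.inl l)) k = ((f k).map Sum.inl : Option (L ⊕ Empty)) := by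
  unfold lcomp
  dsimp only
  cases f k <;> rfl

theorem lcomp_inl' {K L : Type} (f : K → Option L) (k : K) :
    lcomp (L' := Empty) (fun k : K => some (Sum.inl k)) f (fun e : Empty => e.elim) k =
      ((f k).map Sum.inl : Option (L ⊕ Empty)) := rfl

theorem lcomp_copK_sndR {K L : Type} {p q : ℕ} (f : K → Option L) (α : Op p q) (x : Fin q × K) :
    lcomp (sndR q f) some (copK L α) x = lcomp (copK K α) f (sndR p f) x := by
  unfold lcomp sndR copK
  cases h1 : f x.2 with
  | none =>
    cases h2 : cop (some ()) α x.1 with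
    | none => rfl
    | some y => rcases y with u | j <;> simp [h1]
  | some l =>
    cases h2 : cop (some ()) α x.1 with
    | none => simp [h2]
    | some y => rcases y with u | j <;> simp [h1, h2]

namespace MixG

variable (G : MixG)

/-- the composite of two relabellings, with an arbitrary formula -/
theorem map_map {K L K' L' K'' L'' : Type} [Finite K] [Finite L] [Finite K'] [Finite L']
    [Finite K''] [Finite L''] {f : K → Option K'} {g : L → Option (K' ⊕ L')}
    {f' : K' → Option K''} {g' : L' → Option (K'' ⊕ L'')} {f'' : K → Option K''}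
    {g'' : L → Option (K'' ⊕ L'')} (hf : ∀ k, (f k).bind f' = f'' k)
    (hg : ∀ l, lcomp g f' g' l = g'' l) {p : ℕ} (x : (G.obj K L).obj p) :
    (G.map f' g').app ((G.map f g).app x) = (G.map f'' g'').app x := by
  rw [G.map_comp]
  exact congrArg (fun F => SS.Map.app F x) (G.map_congr hf hg)

/-! ### the functors -/

/-- loops only -/
def gamQ : Gam where
  obj K := G.obj K Empty
  map f := G.map f (fun e => e.elim)
  map_some x := G.map_eq_self (fun _ => rfl) (fun e => e.elim) x
  map_bind _ _ _ x := (G.map_map (fun _ => rfl) (fun e => e.elim) x).symm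

/-- boxes only -/
def gamF : Gam where
  obj K := G.obj Empty K
  map f := G.map (fun e => e.elim) (fun k => (f k).map Sum.inr)
  map_some x := G.map_eq_self (fun e => e.elim) (fun _ => rfl) x
  map_bind f g _ x := (G.map_map (fun e => e.elim) (lcomp_inr f g) x).symm

/-- collapse of all boxes -/
def alpha : Gam.Hom G.gamF G.gamQ where
  app K := G.map (fun e : Empty => e.elim) (fun k : K => some (Sum.inl k))
  nat f _ x := (G.map_map (f'' := fun e : Empty => e.elim) (g'' := fun k => (f k).map Sum.inl)
      (fun e => e.elim) (lcomp_inl f) x).trans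
    (G.map_map (f'' := fun e : Empty => e.elim) (g'' := fun k => (f k).map Sum.inl)
      (fun e => e.elim) (lcomp_inl' f) x).symm

/-- loops with labels in `K`, boxes with labels in `{1..p} × K` -/
def M (p : ℕ) : Gam where
  obj K := G.obj K (Fin p × K)
  map f := G.map f (sndR p f)
  map_some x := G.map_eq_self (fun _ => rfl) (fun _ => rfl) x
  map_bind f g _ x := (G.map_map (fun _ => rfl) (lcomp_sndR p f g) x).symm

/-- the simplicial object -/
def SG : SGam where
  obj := G.M
  map {p q} α :=
    { app := fun K => G.map (K := K) (L := Fin q × K) (K' := K) (L' := Fin p × K) some (copK K α)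
      nat := fun {K L} _ _ f _ x =>
        (G.map_map (f := f) (g := sndR q f) (f' := some) (g' := copK L α) (f'' := f)
          (g'' := lcomp (copK K α) f (sndR p f))
          (fun k => by cases f k <;> rfl) (lcomp_copK_sndR f α) x).trans
        (G.map_map (f := some) (g := copK K α) (f' := f) (g' := sndR p f) (f'' := f)
          (g'' := lcomp (copK K α) f (sndR p f)) (fun _ => rfl) (fun _ => rfl) x).symm }
  map_id K _ _ x := G.map_eq_self (fun _ => rfl) (copK_id K) x
  map_comp f g K _ _ x := (G.map_map (f := some) (f' := some) (f'' := some) (fun _ => rfl)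
    (lcomp_copK K f g) x).symm

/-- the functor `T` -/
def T : Gam := G.SG.diag

/-! ### the value at the empty set -/

theorem eq_emp_of_isEmpty {K L : Type} [Finite K] [Finite L] [IsEmpty K] [IsEmpty L] {p : ℕ}
    (x : (G.obj K L).obj p) : x = G.emp K L p := by
  have h := G.map_map (K' := Empty) (L' := Empty) (K'' := K) (L'' := L)
    (f := fun k : K => isEmptyElim k) (g := fun l : L => isEmptyElim l)
    (f' := fun e : Empty => e.elim) (g' := fun e : Empty => e.elim) (f'' := some)
    (g'' := fun l => some (Sum.inr l)) (fun k => isEmptyElim k) (fun l => isEmptyElim l) x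
  rw [G.map_id] at h
  rw [← h, G.eq_emp ((G.map _ _).app x), G.map_emp]

theorem pt_of_isEmpty {K L : Type} [Finite K] [Finite L] [IsEmpty K] [IsEmpty L] (p : ℕ) :
    Subsingleton ((G.obj K L).obj p) :=
  ⟨fun x y => (G.eq_emp_of_isEmpty x).trans (G.eq_emp_of_isEmpty y).symm⟩

theorem gamQ_pt : G.gamQ.Pt where
  sub _ _ _ p := G.pt_of_isEmpty p
  ne K _ _ p := ⟨G.emp K Empty p⟩

theorem gamF_pt : G.gamF.Pt where
  sub _ _ _ p := G.pt_of_isEmpty p
  ne K _ _ p := ⟨G.emp Empty K p⟩

theorem M_pt (n : ℕ) : (G.M n).Pt where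
  sub _ _ _ p := G.pt_of_isEmpty p
  ne K _ _ p := ⟨G.emp K (Fin n × K) p⟩

theorem T_pt : G.T.Pt := SGam.pt_diag _ G.M_pt

/-! ### the Segal condition -/

/-- relabelling along bijections is bijective -/
theorem map_bijective {K L K' L' : Type} [Finite K] [Finite L] [Finite K'] [Finite L']
    (e : K ≃ K') (e' : L ≃ L') (p : ℕ) :
    Function.Bijective ((G.map (fun k => some (e k))
      (fun l => (some (Sum.inr (e' l)) : Option (K' ⊕ L')))).app (p := p)) := by
  have h1 : ∀ x : (G.obj K L).obj p, (G.map (fun k => some (e.symm k))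
      (fun l => some (Sum.inr (e'.symm l)))).app ((G.map (fun k => some (e k))
        (fun l => some (Sum.inr (e' l)))).app x) = x := fun x =>
    (G.map_map (f'' := some) (g'' := fun l => some (Sum.inr l)) (fun k => by simp)
      (fun l => by simp [lcomp]) x).trans (G.map_id x)
  have h2 : ∀ x : (G.obj K' L').obj p, (G.map (fun k => some (e k))
      (fun l => some (Sum.inr (e' l)))).app ((G.map (fun k => some (e.symm k))
        (fun l => some (Sum.inr (e'.symm l)))).app x) = x := fun x =>
    (G.map_map (f'' := some) (g'' := fun l => some (Sum.inr l)) (fun k => by simp)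
      (fun l => by simp [lcomp]) x).trans (G.map_id x)
  exact ⟨fun x y h => by rw [← h1 x, h, h1 y], fun y => ⟨_, h2 y⟩⟩

theorem segalH_M (R : Type) [CommRing R] (n : ℕ) : (G.M n).SegalH R := by
  intro K L _ _ t
  refine (rz0_square ((G.M n).seg K L) _
    (G.map (fun k => some k) (fun x => some (Sum.inr (Equiv.prodSumDistrib (Fin n) K L x))))
    (SS.Map.id _)
    (fun p => G.map_bijective (Equiv.refl (K ⊕ L)) (Equiv.prodSumDistrib (Fin n) K L) p)
    (fun p => Function.bijective_id) (fun p x => ?_) t).2
    (G.split R K L (Fin n × K) (Fin n × L) t)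
  refine Prod.ext ?_ ?_
  · exact G.map_map (fun k => by rcases k with k | l <;> rfl)
      (fun x => by rcases x with ⟨i, k | l⟩ <;> rfl) x
  · exact G.map_map (fun k => by rcases k with k | l <;> rfl)
      (fun x => by rcases x with ⟨i, k | l⟩ <;> rfl) x

theorem segalH_T (R : Type) [CommRing R] : G.T.SegalH R :=
  G.SG.segalH_diag (G.segalH_M R)

theorem segalH_gamQ (R : Type) [CommRing R] : G.gamQ.SegalH R := by
  intro K L _ _ t
  refine (rz0_square (G.gamQ.seg K L) _
    (G.map (fun k => some k) (fun x : Empty => some (Sum.inr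
      ((Equiv.equivOfIsEmpty Empty (Empty ⊕ Empty)) x))))
    (SS.Map.id _)
    (fun p => G.map_bijective (Equiv.refl (K ⊕ L)) (Equiv.equivOfIsEmpty _ _) p)
    (fun p => Function.bijective_id) (fun p x => ?_) t).2
    (G.split R K L Empty Empty t)
  refine Prod.ext ?_ ?_
  · exact G.map_map (fun k => by rcases k with k | l <;> rfl) (fun x => x.elim) x
  · exact G.map_map (fun k => by rcases k with k | l <;> rfl) (fun x => x.elim) x

theorem segalH_gamF (R : Type) [CommRing R] : G.gamF.SegalH R := by
  intro K L _ _ t
  refine (rz0_square (G.gamF.seg K L) _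
    (G.map (fun k : Empty => some ((Equiv.equivOfIsEmpty Empty (Empty ⊕ Empty)) k))
      (fun x => some (Sum.inr x)))
    (SS.Map.id _)
    (fun p => G.map_bijective (Equiv.equivOfIsEmpty _ _) (Equiv.refl (K ⊕ L)) p)
    (fun p => Function.bijective_id) (fun p x => ?_) t).2
    (G.split R Empty Empty K L t)
  refine Prod.ext ?_ ?_
  · exact G.map_map (fun x => x.elim) (fun k => by rcases k with k | l <;> rfl) x
  · exact G.map_map (fun x => x.elim) (fun k => by rcases k with k | l <;> rfl) x

end MixG

end Vale.Agent.P263.GB
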