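import Vale.Agent.P263.GB.Tel
import Vale.Agent.P263.GB.Phi
import Vale.Agent.P263.GB.MixInv
import Vale.Agent.P263.GB.TFun

/-!
# P263, block G2 (T7): the telescopes of boxes and loops, with their degree

* `telShift a D h hD : Shift (tel a)` : the automorphism `telA a` and the degree `telDeg a D h`;
  `telCompat` : compatibility of `telMap`.
* for `G : MixG` : `G.aF`, `G.aK` (adding the standard box resp. loop on the right),
  `G.telAlpha : tel G.aF → tel G.aK`, the shifts `G.shF`, `G.shK`, their compatibility `G.shC`.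
* `MixG.rz0_telAlpha_of_kil` : **T7, Step 3**.  If (Step 1) the vanishing of the relative homology
  of `G.telAlpha` below degree `n` implies that every relative `n`-cycle is killed by the
  normalisation of the degree (`Kil`), then `G.telAlpha` is a homology isomorphism.
* `MixG.Inv.rz0_tin` : the legs `G.obj Unit Empty → tel G.aK` are homology isomorphisms.
-/

namespace Vale.Agent.P263.GB

open Vale.Agent.P263.S Vale.Agent.P263.E

variable {R : Type} [CommRing R]

section tel

variable {Y W : SS}

/-- the automorphism and the degree on a telescope -/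
def telShift (a : SS.Map Y Y) (D : ∀ p, Y.obj p → ℤ) (h : ∀ p x, D p (a.app x) = D p x + 1)
    (hD : ∀ {p q : ℕ} (f : Op p q) (x : Y.obj q), D p (Y.map f x) = D q x) :
    Shift (tel a) where
  e _ := ⟨(telA a).app, (telS a).app, telS_telA a, telA_telS a⟩
  e_map α x := (telA a).nat α x
  deg {p} x := telDeg a D h p x
  deg_map α x := telDeg_map a D h hD α x
  deg_e x := telDeg_telA a D h x

theorem telShift_e_tin (a : SS.Map Y Y) (D : ∀ p, Y.obj p → ℤ)
    (h : ∀ p x, D p (a.app x) = D p x + 1)
    (hD : ∀ {p q : ℕ} (f : Op p q) (x : Y.obj q), D p (Y.map f x) = D q x) (i : ℕ) {p : ℕ}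
    (x : Y.obj p) : (telShift a D h hD).e p ((tin a i).app x) = (tin a i).app (a.app x) := rfl

/-- the `m`-th power of the automorphism on the `i`-th leg is the `m`-th iterate of `a` -/
theorem telShift_pw_tin (a : SS.Map Y Y) (D : ∀ p, Y.obj p → ℤ)
    (h : ∀ p x, D p (a.app x) = D p x + 1)
    (hD : ∀ {p q : ℕ} (f : Op p q) (x : Y.obj q), D p (Y.map f x) = D q x) (m i : ℕ) {p : ℕ}
    (x : Y.obj p) : ((telShift a D h hD).pw m).app ((tin a i).app x) =
      (tin a i).app ((iterMap a m).app x) := by
  rw [Shift.pw_app]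
  induction m with
  | zero => rfl
  | succ m ih =>
    rw [Nat.cast_add, Nat.cast_one, add_comm (m : ℤ) 1, zpow_one_add, Equiv.Perm.mul_apply, ih,
      telShift_e_tin, iterMap_app, iterMap_app, Function.iterate_succ_apply']

theorem telShift_deg_tin (a : SS.Map Y Y) (D : ∀ p, Y.obj p → ℤ)
    (h : ∀ p x, D p (a.app x) = D p x + 1)
    (hD : ∀ {p q : ℕ} (f : Op p q) (x : Y.obj q), D p (Y.map f x) = D q x) (i : ℕ) {p : ℕ}
    (x : Y.obj p) : (telShift a D h hD).deg ((tin a i).app x) = D p x - i := rfl

/-- `telMap` is compatible with the automorphisms and the degrees -/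
theorem telCompat (a : SS.Map Y Y) (b : SS.Map W W) (f : SS.Map Y W)
    (hf : ∀ {p : ℕ} (x : Y.obj p), f.app (a.app x) = b.app (f.app x))
    (D : ∀ p, Y.obj p → ℤ) (h : ∀ p x, D p (a.app x) = D p x + 1)
    (hD : ∀ {p q : ℕ} (f : Op p q) (x : Y.obj q), D p (Y.map f x) = D q x)
    (D' : ∀ p, W.obj p → ℤ) (h' : ∀ p x, D' p (b.app x) = D' p x + 1)
    (hD' : ∀ {p q : ℕ} (f : Op p q) (x : W.obj q), D' p (W.map f x) = D' q x)
    (hDD : ∀ p x, D' p (f.app x) = D p x) :
    Shift.Compat (telMap a b f hf) (telShift a D h hD) (telShift b D' h' hD') where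
  e {p} x := by
    obtain ⟨i, x, rfl⟩ := exists_tin a x
    show (telMap a b f hf).app ((telA a).app ((tin a i).app x)) =
      (telA b).app ((telMap a b f hf).app ((tin a i).app x))
    rw [telA_tin, telMap_tin, telMap_tin, telA_tin, hf]
  deg {p} x := by
    obtain ⟨i, x, rfl⟩ := exists_tin a x
    show telDeg b D' h' p ((telMap a b f hf).app ((tin a i).app x)) =
      telDeg a D h p ((tin a i).app x)
    rw [telMap_tin, telDeg_tin, telDeg_tin, hDD]

end tel

namespace MixG

variable (G : MixG)

/-- adding the standard box on the right -/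
def aF : SS.Map (G.obj Empty Unit) (G.obj Empty Unit) := G.mulR (G.boxL () 0)

theorem aF_app {p : ℕ} (x : (G.obj Empty Unit).obj p) :
    G.aF.app x = (G.mul Empty Unit).app (x, G.boxL () p) := by
  unfold aF
  rw [G.mulR_app, ← G.boxO_inr, G.dgn_boxO]
  rfl

/-- relabelling is compatible with right multiplication by a vertex -/
theorem map_mulR {K L K' L' : Type} [Finite K] [Finite L] [Finite K'] [Finite L']
    (f : K → Option K') (g : L → Option (K' ⊕ L')) (v : (G.obj K L).obj 0) {p : ℕ}
    (x : (G.obj K L).obj p) :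
    (G.map f g).app ((G.mulR v).app x) = (G.mulR ((G.map f g).app v)).app ((G.map f g).app x) := by
  rw [G.mulR_app, G.mulR_app, G.map_mul, dgn, dgn, (G.map f g).nat]

theorem alpha_boxL : (G.alpha.app Unit).app (G.boxL () 0) = G.boxK () 0 :=
  (G.map_boxO (K := Empty) (L := Unit) (K' := Unit) (L' := Empty) (fun e : Empty => e.elim)
    (fun k : Unit => some (Sum.inl k)) (some (Sum.inr ())) 0).trans rfl

/-- `alpha` is compatible with the additions of the standard box and loop -/
theorem alpha_aF {p : ℕ} (x : (G.obj Empty Unit).obj p) :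
    (G.alpha.app Unit).app (G.aF.app x) = G.aK.app ((G.alpha.app Unit).app x) := by
  have h := G.map_mulR (K := Empty) (L := Unit) (K' := Unit) (L' := Empty)
    (fun e : Empty => e.elim) (fun k : Unit => some (Sum.inl k)) (G.boxL () 0) x
  refine h.trans ?_
  have e : (G.map (K := Empty) (L := Unit) (K' := Unit) (L' := Empty) (fun e : Empty => e.elim)
    (fun k : Unit => some (Sum.inl k))).app (G.boxL () 0) = G.boxK () 0 := G.alpha_boxL
  rw [e]
  rfl

theorem deg_aK (p : ℕ) (x : (G.obj Unit Empty).obj p) : G.deg (G.aK.app x) = G.deg x + 1 := by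
  rw [G.aK_app, G.deg_mul, G.deg_boxK]

/-- the number of boxes -/
def degF (p : ℕ) (x : (G.obj Empty Unit).obj p) : ℤ := G.deg ((G.alpha.app Unit).app x)

theorem degF_map {p q : ℕ} (f : Op p q) (x : (G.obj Empty Unit).obj q) :
    G.degF p ((G.obj Empty Unit).map f x) = G.degF q x :=
  (congrArg G.deg ((G.alpha.app Unit).nat f x)).trans (G.deg_map f _)

theorem degF_aF (p : ℕ) (x : (G.obj Empty Unit).obj p) :
    G.degF p (G.aF.app x) = G.degF p x + 1 := by
  unfold degF
  rw [G.alpha_aF]
  exact G.deg_aK p _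

/-- the map of telescopes -/
def telAlpha : SS.Map (tel G.aF) (tel G.aK) :=
  telMap G.aF G.aK (G.alpha.app Unit) fun x => G.alpha_aF x

/-- automorphism and degree on the telescope of the boxes -/
def shF : Shift (tel G.aF) := telShift G.aF G.degF G.degF_aF fun f x => G.degF_map f x

/-- automorphism and degree on the telescope of the loops -/
def shK : Shift (tel G.aK) :=
  telShift G.aK (fun _ x => G.deg x) G.deg_aK fun f x => G.deg_map f x

/-- `telAlpha` is compatible with the automorphisms and the degrees -/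
theorem shC : Shift.Compat G.telAlpha G.shF G.shK :=
  telCompat G.aF G.aK (G.alpha.app Unit) (fun x => G.alpha_aF x) G.degF G.degF_aF
    (fun f x => G.degF_map f x) (fun _ x => G.deg x) G.deg_aK (fun f x => G.deg_map f x)
    fun _ _ => rfl

/-- **T7, Step 3.** -/
theorem rz0_telAlpha_of_kil
    (h : ∀ n, (∀ j < n, RZ0 (freeMap R G.telAlpha).cx j) →
      ∀ x, (cone (freeMap R G.telAlpha).cx).Cyc n x → G.shC.Kil x) (n : ℕ) :
    RZ0 (freeMap R G.telAlpha).cx n := by
  induction n using Nat.strong_induction_on with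
  | _ n ih => exact G.shC.rz0_of_kil n (h n ih)

/-- the legs of the telescope of the loops are homology isomorphisms -/
theorem Inv.rz0_tin {G : MixG} (I : G.Inv) (i n : ℕ) : RZ0 (freeMap R (tin G.aK i)).cx n :=
  GB.rz0_tin G.aK n (I.rz0_aK n) i

end MixG

end Vale.Agent.P263.GB
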