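import Vale.Agent.P263.GB.Arr
import Vale.Agent.P263.GB.TelShift

/-!
# P263, block G2 (T7, Step 1): the columns

Common definitions for Step 1 of the group completion argument, for `G : MixG`:

* `G.fq : Arr` : boxes → loops (`alpha`), `G.a1` : adding the standard box resp. loop;
* `G.col L : Arr` : `G.obj Empty (Unit ⊕ L) → G.obj Unit L`, the box label `inl ()` is moved to the
  side of the loops; `G.colMap g`, `G.colIn L : fq → col L`, `G.colA L`, `G.colB l`, `G.colE L` :
  adding a box with label `inl ()`, with label `l`, nothing.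
-/

namespace Vale.Agent.P263.GB

open Vale.Agent.P263.S Vale.Agent.P263.E

variable {R : Type} [CommRing R]

/-- iterates commute with maps -/
theorem Arr.it_comm {P Q : Arr} (a : Arr.Hom P P) (b : Arr.Hom Q Q) (h : Arr.Hom P Q)
    (hc : h.comp a = b.comp h) (n : ℕ) : h.comp (Arr.it a n) = (Arr.it b n).comp h := by
  induction n with
  | zero => rfl
  | succ n ih =>
    rw [Arr.it_succ', Arr.it_succ']
    change (h.comp a).comp (Arr.it a n) = b.comp ((Arr.it b n).comp h)
    rw [hc, ← ih]
    rfl

theorem Arr.Sim.it {P : Arr} {a : Arr.Hom P P} (h : Arr.Sim R a (Arr.Hom.id P)) (n : ℕ) :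
    Arr.Sim R (Arr.it a n) (Arr.Hom.id P) := by
  induction n with
  | zero => exact Arr.Sim.refl _
  | succ n ih =>
    rw [Arr.it_succ']
    exact (ih.postcomp a).trans h

/-- the operators on the labels of the box side -/
def xg {L L' : Type} (g : L → Option (Unit ⊕ L')) : Unit ⊕ L → Option (Empty ⊕ (Unit ⊕ L')) :=
  Sum.elim (fun u => some (Sum.inr (Sum.inl u))) (fun l => (g l).map Sum.inr)

/-- moving the label `inl ()` to the side of the loops -/
def gcol (L : Type) : Unit ⊕ L → Option (Unit ⊕ L) :=
  Sum.elim (fun u => some (Sum.inl u)) (fun l => some (Sum.inr l))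

theorem lcomp_xg {L L' : Type} (g : L → Option (Unit ⊕ L')) (y : Unit ⊕ L) :
    lcomp (xg g) (fun e : Empty => (e.elim : Option Unit)) (gcol L') y =
      Sum.elim (fun u => some (Sum.inl u)) g y := by
  rcases y with u | l
  · rfl
  · unfold lcomp xg
    rw [Sum.elim_inr, Sum.elim_inr]
    cases g l with
    | none => rfl
    | some z => rcases z with z | z <;> rfl

theorem lcomp_xg_xg {L L' L'' : Type} (g : L → Option (Unit ⊕ L')) (g' : L' → Option (Unit ⊕ L''))
    (y : Unit ⊕ L) : lcomp (xg g) (fun e : Empty => (e.elim : Option Empty)) (xg g') y =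
      xg (lcomp g some g') y := by
  rcases y with u | l
  · rfl
  · change ((g l).map Sum.inr).bind
      (Sum.elim (fun e : Empty => (e.elim : Option Empty).map Sum.inl) (xg g')) =
      ((g l).bind (Sum.elim (fun k => (some k).map Sum.inl) g')).map Sum.inr
    cases g l with
    | none => rfl
    | some z => rcases z with z | z <;> rfl

namespace MixG

variable (G : MixG)

/-! ### the arrow from boxes to loops -/

/-- boxes → loops -/
def fq : Arr := ⟨G.obj Empty Unit, G.obj Unit Empty, G.alpha.app Unit⟩

/-- adding the standard box resp. loop -/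
def a1 : Arr.Hom G.fq G.fq := ⟨G.aF, G.aK, fun x => G.alpha_aF x⟩

theorem tl_a1_f : (Arr.tl G.a1).f = G.telAlpha := rfl

/-- right multiplication by nothing -/
def rho1 : Arr.Hom G.fq G.fq where
  u := G.mulR (G.emp Empty Unit 0)
  v := G.mulR (G.emp Unit Empty 0)
  comm x := (G.map_mulR _ _ _ x).trans (by rw [G.map_emp]; rfl)

/-- the homotopy from `rho1` to the identity -/
def hfq : Arr.Htp G.fq G.fq where
  KA := G.hR Empty Unit
  KB := G.hR Unit Empty
  comm _ θ x := G.map_hR _ _ θ x

theorem sim_rho1 : Arr.Sim R G.rho1 (Arr.Hom.id G.fq) := by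
  have h0 : G.hfq.e0 = G.rho1 := Arr.Hom.ext'
    (fun p x => (G.hR_c0 Empty Unit x).trans (by
      change _ = (G.mul Empty Unit).app (x, G.dgn (G.emp Empty Unit 0) p)
      rw [G.dgn_emp]))
    (fun p x => (G.hR_c0 Unit Empty x).trans (by
      change _ = (G.mul Unit Empty).app (x, G.dgn (G.emp Unit Empty 0) p)
      rw [G.dgn_emp]))
  have h1 : G.hfq.e1 = Arr.Hom.id G.fq := Arr.Hom.ext' (fun _ x => G.hR_c1 Empty Unit x)
    (fun _ x => G.hR_c1 Unit Empty x)
  rw [← h0, ← h1]
  exact G.hfq.sim'

/-! ### columns -/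

section cols

variable (L : Type) [Finite L] {L' : Type} [Finite L'] {L'' : Type} [Finite L'']

/-- the map of the column -/
def colF : SS.Map (G.obj Empty (Unit ⊕ L)) (G.obj Unit L) :=
  G.map (fun e => e.elim) (gcol L)

/-- the column with box labels `L` -/
def col : Arr := ⟨G.obj Empty (Unit ⊕ L), G.obj Unit L, G.colF L⟩

variable {L}

/-- relabelling -/
def colMap (g : L → Option (Unit ⊕ L')) : Arr.Hom (G.col L) (G.col L') where
  u := G.map (fun e => e.elim) (xg g)
  v := G.map some g
  comm x := (G.map_map (f'' := fun e : Empty => (e.elim : Option Unit))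
      (g'' := Sum.elim (fun u => some (Sum.inl u)) g) (fun e => e.elim) (lcomp_xg g) x).trans
    (G.map_map (f'' := fun e : Empty => (e.elim : Option Unit))
      (g'' := Sum.elim (fun u => some (Sum.inl u)) g) (fun e => e.elim)
      (fun y => by rcases y with u | l <;> rfl) x).symm

theorem colMap_congr {g g' : L → Option (Unit ⊕ L')} (h : ∀ l, g l = g' l) :
    G.colMap g = G.colMap g' := by
  obtain rfl : g = g' := funext h
  rfl

theorem colMap_id : G.colMap (fun l : L => some (Sum.inr l)) = Arr.Hom.id (G.col L) :=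
  Arr.Hom.ext' (fun _ x => G.map_eq_self (fun e => e.elim)
    (fun y => by rcases y with u | l <;> rfl) x)
    (fun _ x => G.map_eq_self (fun _ => rfl) (fun _ => rfl) x)

theorem colMap_comp (g : L → Option (Unit ⊕ L')) (g' : L' → Option (Unit ⊕ L'')) :
    G.colMap (lcomp g some g') = (G.colMap g').comp (G.colMap g) :=
  Arr.Hom.ext' (fun _ x => (G.map_map (fun e => e.elim) (lcomp_xg_xg g g') x).symm)
    (fun _ x => (G.map_map (f := some) (g := g) (f' := some) (g' := g') (f'' := some)
      (g'' := lcomp g some g') (fun _ => rfl) (fun _ => rfl) x).symm)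

variable (L)

/-- the inclusion of the labels -/
def colIn : Arr.Hom G.fq (G.col L) where
  u := G.map (fun e => e.elim) (fun u => some (Sum.inr (Sum.inl u)))
  v := G.map some (fun e => e.elim)
  comm x := (G.map_map (f'' := fun e : Empty => (e.elim : Option Unit))
      (g'' := fun u => some (Sum.inl u)) (fun e => e.elim) (fun _ => rfl) x).trans
    (G.map_map (f'' := fun e : Empty => (e.elim : Option Unit))
      (g'' := fun u => some (Sum.inl u)) (fun e => e.elim) (fun _ => rfl) x).symm

variable {L}

theorem colMap_colIn (g : L → Option (Unit ⊕ L')) : (G.colMap g).comp (G.colIn L) = G.colIn L' :=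
  Arr.Hom.ext' (fun _ x => G.map_map (fun e => e.elim) (fun _ => rfl) x)
    (fun _ x => G.map_map (fun _ => rfl) (fun e => e.elim) x)

/-- adding a vertex on the right -/
def colV (x : (G.obj Empty (Unit ⊕ L)).obj 0) : Arr.Hom (G.col L) (G.col L) where
  u := G.mulR x
  v := G.mulR ((G.colF L).app x)
  comm y := G.map_mulR _ _ x y

theorem colMap_colV (g : L → Option (Unit ⊕ L')) (x : (G.obj Empty (Unit ⊕ L)).obj 0) :
    (G.colMap g).comp (G.colV x) = (G.colV ((G.colMap g).u.app x)).comp (G.colMap g) :=
  Arr.Hom.ext' (fun _ y => G.map_mulR _ _ x y) (fun p y => by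
    have h := G.map_mulR (some : Unit → Option Unit) g ((G.colF L).app x) y
    have e : (G.map (some : Unit → Option Unit) g).app ((G.colF L).app x) =
      (G.colF L').app ((G.colMap g).u.app x) := ((G.colMap g).comm x).symm
    rw [e] at h
    exact h)

variable (L)

/-- adding a box with label `inl ()` -/
def colA : Arr.Hom (G.col L) (G.col L) := G.colV (G.boxO (some (Sum.inr (Sum.inl ()))) 0)

/-- adding nothing -/
def colE : Arr.Hom (G.col L) (G.col L) := G.colV (G.emp Empty (Unit ⊕ L) 0)

variable {L}

/-- adding a box with label `l` -/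
def colB (l : L) : Arr.Hom (G.col L) (G.col L) := G.colV (G.boxO (some (Sum.inr (Sum.inr l))) 0)

theorem colMap_colA (g : L → Option (Unit ⊕ L')) :
    (G.colMap g).comp (G.colA L) = (G.colA L').comp (G.colMap g) := by
  unfold colA
  rw [colMap_colV]
  congr 2
  exact G.map_boxO _ _ _ 0

theorem colMap_colE (g : L → Option (Unit ⊕ L')) :
    (G.colMap g).comp (G.colE L) = (G.colE L').comp (G.colMap g) := by
  unfold colE
  rw [colMap_colV]
  congr 2
  exact G.map_emp _ _ 0

/-- the label `l` becomes `inl ()` -/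
theorem colMap_colB_inl (g : L → Option (Unit ⊕ L')) (l : L) (h : g l = some (Sum.inl ())) :
    (G.colMap g).comp (G.colB l) = (G.colA L').comp (G.colMap g) := by
  unfold colA colB
  rw [colMap_colV]
  congr 2
  refine (G.map_boxO _ _ _ 0).trans ?_
  congr 1
  change (xg g (Sum.inr l)) = _
  change (g l).map Sum.inr = _
  rw [h]
  rfl

/-- the label `l` is dropped -/
theorem colMap_colB_none (g : L → Option (Unit ⊕ L')) (l : L) (h : g l = none) :
    (G.colMap g).comp (G.colB l) = (G.colE L').comp (G.colMap g) := by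
  unfold colE colB
  rw [colMap_colV]
  congr 2
  refine (G.map_boxO _ _ _ 0).trans ?_
  rw [← G.boxO_none]
  congr 1
  change (xg g (Sum.inr l)) = _
  change (g l).map Sum.inr = _
  rw [h]
  rfl

/-- maps `x ↦ v · x` after the inclusion of the labels -/
theorem colIn_mulR (L : Type) [Finite L] (x : (G.obj Empty Unit).obj 0)
    (x' : (G.obj Unit Empty).obj 0) (hx : (G.alpha.app Unit).app x = x') (p : ℕ)
    (y : (G.obj Unit Empty).obj p) :
    (G.colIn L).v.app ((G.mulR x').app y) =
      (G.mulR ((G.colF L).app ((G.colIn L).u.app x))).app ((G.colIn L).v.app y) := by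
  subst hx
  have h := G.map_mulR (some : Unit → Option Unit)
    (fun e : Empty => (e.elim : Option (Unit ⊕ L))) ((G.alpha.app Unit).app x) y
  have e : (G.map (some : Unit → Option Unit) (fun e : Empty => (e.elim : Option (Unit ⊕ L)))).app
    ((G.alpha.app Unit).app x) = (G.colF L).app ((G.colIn L).u.app x) := ((G.colIn L).comm x).symm
  rw [e] at h
  exact h

theorem colIn_a1 : (G.colIn L).comp G.a1 = (G.colA L).comp (G.colIn L) := by
  have e : (G.colIn L).u.app (G.boxL () 0) = G.boxO (some (Sum.inr (Sum.inl ()))) 0 :=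
    G.map_boxO _ _ _ 0
  refine Arr.Hom.ext' (fun p x => ?_) (fun p x => ?_)
  · refine (G.map_mulR _ _ _ x).trans ?_
    exact congrArg (fun v => (G.mulR v).app ((G.colIn L).u.app x)) e
  · refine (G.colIn_mulR L (G.boxL () 0) _ G.alpha_boxL p x).trans ?_
    exact congrArg (fun v => (G.mulR ((G.colF L).app v)).app ((G.colIn L).v.app x)) e

theorem colIn_rho1 : (G.colIn L).comp G.rho1 = (G.colE L).comp (G.colIn L) := by
  have e : (G.colIn L).u.app (G.emp Empty Unit 0) = G.emp Empty (Unit ⊕ L) 0 :=
    G.map_emp _ _ 0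
  refine Arr.Hom.ext' (fun p x => ?_) (fun p x => ?_)
  · refine (G.map_mulR _ _ _ x).trans ?_
    exact congrArg (fun v => (G.mulR v).app ((G.colIn L).u.app x)) e
  · refine (G.colIn_mulR L (G.emp Empty Unit 0) _ (G.map_emp _ _ 0) p x).trans ?_
    exact congrArg (fun v => (G.mulR ((G.colF L).app v)).app ((G.colIn L).v.app x)) e

end cols

end MixG

end Vale.Agent.P263.GB
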