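import Vale.Agent.P263.GB.MixCol

/-!
# P263, block G2 (T7, Step 1): the two faces of the first column

`MixG.kil_of_cor` : let `L` have one element, `L'` none, `g₀` send the label to `inl ()` and `g₁`
drop it.  If the image of a relative `r`-cycle `x` of `G.telAlpha` in the telescope of `col L'` is
the difference of the two faces of a relative `r`-cycle of the telescope of `col L`, up to a
boundary, then `x` is killed by the normalisation of the degree.
-/

namespace Vale.Agent.P263.GB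

open Vale.Agent.P263.S Vale.Agent.P263.E

variable {R : Type} [CommRing R]

namespace MixG

variable (G : MixG)

/-- the powers of the automorphism of the telescope, as maps of arrows -/
def pwH (m : ℤ) : Arr.Hom (Arr.tl G.a1) (Arr.tl G.a1) :=
  ⟨G.shF.pw m, G.shK.pw m, fun x => G.shC.zpow m x⟩

theorem pwH_ch (m : ℤ) (n : ℕ) (z : ((Arr.tl G.a1).C R).C n) :
    ((G.pwH m).ch R).app n z = (G.shC.relPw R m).app n z := rfl

theorem pwH_tlin (m i : ℕ) :
    (G.pwH m).comp (Arr.tlin G.a1 i) = (Arr.tlin G.a1 i).comp (Arr.it G.a1 m) :=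
  Arr.Hom.ext' (fun _ x => telShift_pw_tin G.aF G.degF G.degF_aF (fun f x => G.degF_map f x) m i x)
    (fun _ x => telShift_pw_tin G.aK (fun _ x => G.deg x) G.deg_aK (fun f x => G.deg_map f x) m i x)

section face

variable (L : Type) [Finite L] {L' : Type} [Finite L']

/-- the inclusion of the labels on the telescopes -/
def tlIn : Arr.Hom (Arr.tl G.a1) (Arr.tl (G.colA L)) :=
  Arr.tlMap G.a1 (G.colA L) (G.colIn L) G.colIn_a1

variable {L}

/-- relabelling on the telescopes -/
def tlCol (g : L → Option (Unit ⊕ L')) : Arr.Hom (Arr.tl (G.colA L)) (Arr.tl (G.colA L')) :=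
  Arr.tlMap (G.colA L) (G.colA L') (G.colMap g) (G.colMap_colA g)

theorem colIn_it_a1 (m : ℕ) :
    (G.colIn L).comp (Arr.it G.a1 m) = (Arr.it (G.colA L) m).comp (G.colIn L) :=
  Arr.it_comm _ _ _ G.colIn_a1 m

theorem colIn_it_rho1 (m : ℕ) :
    (G.colIn L).comp (Arr.it G.rho1 m) = (Arr.it (G.colE L) m).comp (G.colIn L) :=
  Arr.it_comm _ _ _ G.colIn_rho1 m

/-- the face which collapses the box with the additional label -/
theorem face_inl (g : L → Option (Unit ⊕ L')) (l : L) (h : g l = some (Sum.inl ())) (i m : ℕ) :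
    (G.tlCol g).comp ((Arr.tlin (G.colA L) i).comp
      ((Arr.it (G.colB l) m).comp (G.colIn L))) =
      (G.tlIn L').comp ((G.pwH m).comp (Arr.tlin G.a1 i)) := by
  have h1 : (G.colMap g).comp ((Arr.it (G.colB l) m).comp (G.colIn L)) =
      (G.colIn L').comp (Arr.it G.a1 m) := by
    change ((G.colMap g).comp (Arr.it (G.colB l) m)).comp (G.colIn L) = _
    rw [Arr.it_comm _ _ _ (G.colMap_colB_inl g l h) m]
    change (Arr.it (G.colA L') m).comp ((G.colMap g).comp (G.colIn L)) = _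
    rw [G.colMap_colIn, G.colIn_it_a1]
  rw [pwH_tlin]
  change (Arr.tlin (G.colA L') i).comp
    ((G.colMap g).comp ((Arr.it (G.colB l) m).comp (G.colIn L))) = _
  rw [h1]
  rfl

/-- the face which drops the box with the additional label -/
theorem face_none (g : L → Option (Unit ⊕ L')) (l : L) (h : g l = none) (i m : ℕ) :
    Arr.Sim R ((G.tlCol g).comp ((Arr.tlin (G.colA L) i).comp
      ((Arr.it (G.colB l) m).comp (G.colIn L))))
      ((G.tlIn L').comp (Arr.tlin G.a1 i)) := by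
  have h1 : (G.colMap g).comp ((Arr.it (G.colB l) m).comp (G.colIn L)) =
      (G.colIn L').comp (Arr.it G.rho1 m) := by
    change ((G.colMap g).comp (Arr.it (G.colB l) m)).comp (G.colIn L) = _
    rw [Arr.it_comm _ _ _ (G.colMap_colB_none g l h) m]
    change (Arr.it (G.colE L') m).comp ((G.colMap g).comp (G.colIn L)) = _
    rw [G.colMap_colIn, G.colIn_it_rho1]
  have h2 : (G.tlCol g).comp ((Arr.tlin (G.colA L) i).comp
      ((Arr.it (G.colB l) m).comp (G.colIn L))) =
      ((G.tlIn L').comp (Arr.tlin G.a1 i)).comp (Arr.it G.rho1 m) := by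
    change (Arr.tlin (G.colA L') i).comp
      ((G.colMap g).comp ((Arr.it (G.colB l) m).comp (G.colIn L))) = _
    rw [h1]
    rfl
  rw [h2]
  exact (G.sim_rho1.it m).postcomp ((G.tlIn L').comp (Arr.tlin G.a1 i))

/-- the difference of the two faces of a relative cycle of the first column -/
theorem faces_eq [Unique L] (r : ℕ) (h : ∀ t < r, RZ0 (freeMap R (Arr.tl G.a1).f).cx t)
    (g₀ g₁ : L → Option (Unit ⊕ L')) (h₀ : g₀ default = some (Sum.inl ()))
    (h₁ : g₁ default = none) (z : ((Arr.tl (G.colA L)).C R).C r)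
    (hz : ((Arr.tl (G.colA L)).C R).Cyc r z) :
    ∃ (w : ((Arr.tl (G.colA L')).C R).C (r + 1)) (ι : Type) (S : Finset ι) (m : ι → ℕ)
      (c : ι → ((Arr.tl G.a1).C R).C r), (∀ k, ((Arr.tl G.a1).C R).Cyc r (c k)) ∧
        ((G.tlCol g₀).ch R).app r z - ((G.tlCol g₁).ch R).app r z =
          ((Arr.tl (G.colA L')).C R).d r w +
            ((G.tlIn L').ch R).app r (∑ k ∈ S, (((G.pwH (m k)).ch R).app r (c k) - c k)) := by
  obtain ⟨w, ι, S, i, m, t, ht, rfl⟩ := G.span_col r h z hz
  have key : ∀ k, ∃ v, ((Arr.tl (G.colA L')).C R).d r v =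
      ((G.tlCol g₁).ch R).app r (((Arr.tlin (G.colA L) (i k)).ch R).app r
        ((((Arr.it (G.colB default) (m k)).comp (G.colIn L)).ch R).app r (t k))) -
      ((G.tlIn L').ch R).app r (((Arr.tlin G.a1 (i k)).ch R).app r (t k)) := by
    intro k
    obtain ⟨v, hv⟩ := G.face_none (R := R) g₁ default h₁ (i k) (m k) r (t k) (ht k)
    refine ⟨v, hv.trans ?_⟩
    rw [Arr.ch_comp, Arr.ch_comp, Arr.ch_comp (G.tlIn L')]
  have key0 : ∀ k, ((G.tlCol g₀).ch R).app r (((Arr.tlin (G.colA L) (i k)).ch R).app r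
        ((((Arr.it (G.colB default) (m k)).comp (G.colIn L)).ch R).app r (t k))) =
      ((G.tlIn L').ch R).app r (((G.pwH (m k)).ch R).app r
        (((Arr.tlin G.a1 (i k)).ch R).app r (t k))) := by
    intro k
    rw [← Arr.ch_comp, ← Arr.ch_comp, ← Arr.ch_comp, ← Arr.ch_comp]
    exact congrArg (fun H : Arr.Hom G.fq (Arr.tl (G.colA L')) => (H.ch R).app r (t k))
      (G.face_inl g₀ default h₀ (i k) (m k))
  choose v hv using key
  refine ⟨((G.tlCol g₀).ch R).app (r + 1) w - ((G.tlCol g₁).ch R).app (r + 1) w - ∑ k ∈ S, v k,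
    ι, S, m, fun k => ((Arr.tlin G.a1 (i k)).ch R).app r (t k),
    fun k => ((Arr.tlin G.a1 (i k)).ch R).cyc (ht k), ?_⟩
  rw [map_add, map_add, map_sub, map_sub, ← Cx.Hom.comm, ← Cx.Hom.comm, map_sum, map_sum,
    map_sum, map_sum]
  simp only [hv, key0, map_sub (((G.tlIn L').ch R).app r)]
  rw [Finset.sum_sub_distrib, Finset.sum_sub_distrib]
  abel

theorem colIn_u_bijective (L' : Type) [Finite L'] [IsEmpty L'] (p : ℕ) :
    Function.Bijective ((G.colIn L').u.app (p := p)) := by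
  have h := G.map_bijective (Equiv.refl Empty) (Equiv.sumEmpty Unit L').symm p
  have e : G.map (fun k => some ((Equiv.refl Empty) k))
      (fun l => (some (Sum.inr ((Equiv.sumEmpty Unit L').symm l)) : Option (Empty ⊕ (Unit ⊕ L')))) =
      (G.colIn L').u := G.map_congr (fun e => e.elim) (fun _ => rfl)
  rwa [e] at h

theorem colIn_v_bijective (L' : Type) [Finite L'] [IsEmpty L'] (p : ℕ) :
    Function.Bijective ((G.colIn L').v.app (p := p)) := by
  have h := G.map_bijective (Equiv.refl Unit) (Equiv.equivOfIsEmpty Empty L') p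
  have e : G.map (fun k => some ((Equiv.refl Unit) k))
      (fun l => (some (Sum.inr ((Equiv.equivOfIsEmpty Empty L') l)) : Option (Unit ⊕ L'))) =
      (G.colIn L').v := G.map_congr (fun _ => rfl) (fun e => e.elim)
  rwa [e] at h

/-- the inclusion of the labels is an isomorphism if there are no additional labels -/
theorem rz0_tlIn_u (L' : Type) [Finite L'] [IsEmpty L'] (n : ℕ) :
    RZ0 (freeMap R (G.tlIn L').u).cx n :=
  Arr.rz0_tlMap_u _ _ _ _ n (Arr.rz0_of_levelwise _ (G.colIn_u_bijective L') n)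

theorem rz0_tlIn_v (L' : Type) [Finite L'] [IsEmpty L'] (n : ℕ) :
    RZ0 (freeMap R (G.tlIn L').v).cx n :=
  Arr.rz0_tlMap_v _ _ _ _ n (Arr.rz0_of_levelwise _ (G.colIn_v_bijective L') n)

/-- `e ^ m c - c` is killed by the normalisation of the degree -/
theorem kil_pwH (m : ℤ) (r : ℕ) (c : ((Arr.tl G.a1).C R).C r) :
    G.shC.Kil (R := R) (n := r) (((G.pwH m).ch R).app r c - c : ((Arr.tl G.a1).C R).C r) :=
  G.shC.kil_pw_sub m c

/-- **The last step of Step 1.** -/
theorem kil_of_cor [Unique L] [IsEmpty L'] (r : ℕ)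
    (h : ∀ t < r, RZ0 (freeMap R G.telAlpha).cx t)
    (g₀ g₁ : L → Option (Unit ⊕ L')) (h₀ : g₀ default = some (Sum.inl ()))
    (h₁ : g₁ default = none) (x : ((Arr.tl G.a1).C R).C r)
    (hx : ((Arr.tl G.a1).C R).Cyc r x) (z : ((Arr.tl (G.colA L)).C R).C r)
    (hz : ((Arr.tl (G.colA L)).C R).Cyc r z) (y : ((Arr.tl (G.colA L')).C R).C (r + 1))
    (hxz : ((G.tlIn L').ch R).app r x = ((G.tlCol g₀).ch R).app r z -
      ((G.tlCol g₁).ch R).app r z + ((Arr.tl (G.colA L')).C R).d r y) :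
    G.shC.Kil (R := R) (n := r) x := by
  obtain ⟨w, ι, S, m, c, hc, H⟩ := G.faces_eq (L := L) (L' := L') r h g₀ g₁ h₀ h₁ z hz
  obtain ⟨v, hv⟩ := Arr.ch_inj (G.tlIn L') (G.rz0_tlIn_u L') (G.rz0_tlIn_v L') r
    (x - ∑ k ∈ S, (((G.pwH (m k)).ch R).app r (c k) - c k))
    (Cx.cyc_sub _ hx (Arr.cyc_sum _ S _ fun k _ =>
      Cx.cyc_sub _ (((G.pwH (m k)).ch R).cyc (hc k)) (hc k)))
    (w + y) (by rw [map_sub, hxz, H, map_add]; abel)
  have e : x = (∑ k ∈ S, (((G.pwH (m k)).ch R).app r (c k) - c k)) +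
      ((Arr.tl G.a1).C R).d r v := by
    rw [hv]
    abel
  exact G.shC.kil_of_sub_eq_d (G.shC.kil_sum S
    (fun k => (((G.pwH (m k)).ch R).app r (c k) - c k : ((Arr.tl G.a1).C R).C r))
    fun k _ => G.kil_pwH (m k) r (c k)) e

end face

end MixG

end Vale.Agent.P263.GB
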