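import Vale.Agent.P263.GB.MixOne
import Vale.Agent.P263.GB.MixCol

/-!
# P263, block G2 (T7, Step 1): the last step

`MixG.kil_of_span` : if `G.T.obj Unit` is acyclic, the relative homology of the telescopes of the
columns vanishes below `r` and the relative `r`-cycles of the telescope of the first column are
spanned by the products `(colB l)^m (colIn t)` (at some stage), then every relative `r`-cycle of
`G.telAlpha` is killed by the normalisation of the degree.
-/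

namespace Vale.Agent.P263.GB

open Vale.Agent.P263.S Vale.Agent.P263.E

variable {R : Type} [CommRing R]

theorem copK_dl_zero : copK Unit (dl 0 0) ((0 : Fin 1), ()) = some (Sum.inl ()) := by
  have h : cut (dl 0 0) 1 = 0 := cut_eq_of_lt_iff _ (Nat.zero_le _) fun x => by
    rw [dl_val]
    have := x.2
    simp
  change (lab (some ()) 0 (cut (dl 0 0) 1)).map _ = _
  rw [h]
  rfl

theorem copK_dl_one : copK Unit (dl 0 1) ((0 : Fin 1), ()) = none := by
  have h : cut (dl 0 1) 1 = 1 := cut_eq_of_lt_iff _ le_rfl fun x => by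
    rw [dl_val]
    have := x.2
    simp
  change (lab (some ()) 0 (cut (dl 0 1) 1)).map _ = _
  rw [h]
  rfl

namespace MixG

variable (G : MixG)

/-- the inclusion of the labels, on the telescopes -/
def inT (L : Type) [Finite L] : Arr.Hom (Arr.tl G.a1) (Arr.tl (G.colA L)) :=
  Arr.tlMap G.a1 (G.colA L) (G.colIn L) G.colIn_a1

theorem colT_zero (i m : ℕ) :
    (G.colT (dl 0 0)).comp ((Arr.tlin (G.colA (Fin 1 × Unit)) i).comp
      ((Arr.it (G.colB ((0 : Fin 1), ())) m).comp (G.colIn (Fin 1 × Unit)))) =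
    (G.inT (Fin 0 × Unit)).comp ((Arr.tlin G.a1 i).comp (Arr.it G.a1 m)) := by
  have h1 : (G.colMap (copK Unit (dl 0 0))).comp (Arr.it (G.colB ((0 : Fin 1), ())) m) =
      (Arr.it (G.colA (Fin 0 × Unit)) m).comp (G.colMap (copK Unit (dl 0 0))) :=
    Arr.it_comm _ _ _ (G.colMap_colB_inl _ _ copK_dl_zero) m
  have h2 : (G.colIn (Fin 0 × Unit)).comp (Arr.it G.a1 m) =
      (Arr.it (G.colA (Fin 0 × Unit)) m).comp (G.colIn (Fin 0 × Unit)) :=
    Arr.it_comm _ _ _ G.colIn_a1 m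
  change (Arr.tlin (G.colA (Fin 0 × Unit)) i).comp (((G.colMap (copK Unit (dl 0 0))).comp
    (Arr.it (G.colB ((0 : Fin 1), ())) m)).comp (G.colIn (Fin 1 × Unit))) =
      (Arr.tlin (G.colA (Fin 0 × Unit)) i).comp ((G.colIn (Fin 0 × Unit)).comp (Arr.it G.a1 m))
  rw [h1, h2]
  change (Arr.tlin (G.colA (Fin 0 × Unit)) i).comp ((Arr.it (G.colA (Fin 0 × Unit)) m).comp
    ((G.colMap (copK Unit (dl 0 0))).comp (G.colIn (Fin 1 × Unit)))) = _
  rw [G.colMap_colIn]

theorem colT_one (i m : ℕ) :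
    (G.colT (dl 0 1)).comp ((Arr.tlin (G.colA (Fin 1 × Unit)) i).comp
      ((Arr.it (G.colB ((0 : Fin 1), ())) m).comp (G.colIn (Fin 1 × Unit)))) =
    (G.inT (Fin 0 × Unit)).comp ((Arr.tlin G.a1 i).comp (Arr.it G.rho1 m)) := by
  have h1 : (G.colMap (copK Unit (dl 0 1))).comp (Arr.it (G.colB ((0 : Fin 1), ())) m) =
      (Arr.it (G.colE (Fin 0 × Unit)) m).comp (G.colMap (copK Unit (dl 0 1))) :=
    Arr.it_comm _ _ _ (G.colMap_colB_none _ _ copK_dl_one) m
  have h2 : (G.colIn (Fin 0 × Unit)).comp (Arr.it G.rho1 m) =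
      (Arr.it (G.colE (Fin 0 × Unit)) m).comp (G.colIn (Fin 0 × Unit)) :=
    Arr.it_comm _ _ _ G.colIn_rho1 m
  change (Arr.tlin (G.colA (Fin 0 × Unit)) i).comp (((G.colMap (copK Unit (dl 0 1))).comp
    (Arr.it (G.colB ((0 : Fin 1), ())) m)).comp (G.colIn (Fin 1 × Unit))) =
      (Arr.tlin (G.colA (Fin 0 × Unit)) i).comp ((G.colIn (Fin 0 × Unit)).comp (Arr.it G.rho1 m))
  rw [h1, h2]
  change (Arr.tlin (G.colA (Fin 0 × Unit)) i).comp ((Arr.it (G.colE (Fin 0 × Unit)) m).comp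
    ((G.colMap (copK Unit (dl 0 1))).comp (G.colIn (Fin 1 × Unit)))) = _
  rw [G.colMap_colIn]

/-- the powers of the automorphism on the legs -/
theorem relPw_tlin (i m r : ℕ) (z : (G.fq.C R).C r) :
    (G.shC.relPw R (m : ℤ)).app r (((Arr.tlin G.a1 i).ch R).app r z) =
      ((Arr.tlin G.a1 i).ch R).app r (((Arr.it G.a1 m).ch R).app r z) := by
  have hF : ∀ (p : ℕ) (c : (free R (G.obj Empty Unit)).obj p),
      (freeMap R (G.shF.pw (m : ℤ))).app p ((freeMap R (tin G.aF i)).app p c) =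
        (freeMap R (tin G.aF i)).app p ((freeMap R (iterMap G.aF m)).app p c) := by
    intro p c
    rw [← freeMap_comp_app, ← freeMap_comp_app]
    exact freeMap_congrA (fun x => telShift_pw_tin G.aF G.degF G.degF_aF
      (fun f x => G.degF_map f x) m i x) c
  have hK : ∀ (p : ℕ) (c : (free R (G.obj Unit Empty)).obj p),
      (freeMap R (G.shK.pw (m : ℤ))).app p ((freeMap R (tin G.aK i)).app p c) =
        (freeMap R (tin G.aK i)).app p ((freeMap R (iterMap G.aK m)).app p c) := by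
    intro p c
    rw [← freeMap_comp_app, ← freeMap_comp_app]
    exact freeMap_congrA (fun x => telShift_pw_tin G.aK (fun _ x => G.deg x) G.deg_aK
      (fun f x => G.deg_map f x) m i x) c
  cases r with
  | zero => exact hK 0 z
  | succ r =>
    obtain ⟨b, a⟩ := z
    exact Prod.ext (hK (r + 1) b) (hF r a)

theorem rz0_inT_u (m : ℕ) : RZ0 (freeMap R (G.inT (Fin 0 × Unit)).u).cx m := by
  refine Arr.rz0_tlMap_u _ _ _ _ m (rz0_of_bijM _ (fun p => ?_) m)
  have hb : Function.Bijective (fun u : Unit => (Sum.inl u : Unit ⊕ (Fin 0 × Unit))) := by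
    refine ⟨fun _ _ _ => rfl, fun y => ?_⟩
    rcases y with u | ⟨i, _⟩
    · exact ⟨u, rfl⟩
    · exact i.elim0
  have h := G.map_bijective (Equiv.refl Empty) (Equiv.ofBijective _ hb) p
  have e : G.map (fun k : Empty => some ((Equiv.refl Empty) k))
      (fun l : Unit => (some (Sum.inr ((Equiv.ofBijective _ hb) l)) :
        Option (Empty ⊕ (Unit ⊕ (Fin 0 × Unit))))) = (G.colIn (Fin 0 × Unit)).u :=
    G.map_congr (fun k => k.elim) (fun _ => rfl)
  rw [e] at h
  exact h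

theorem rz0_inT_v (m : ℕ) : RZ0 (freeMap R (G.inT (Fin 0 × Unit)).v).cx m := by
  refine Arr.rz0_tlMap_v _ _ _ _ m (rz0_of_bijM _ (fun p => ?_) m)
  have h := G.map_bijective (Equiv.refl Unit) (Equiv.equivOfIsEmpty Empty (Fin 0 × Unit)) p
  have e : G.map (fun k : Unit => some ((Equiv.refl Unit) k))
      (fun l : Empty => (some (Sum.inr ((Equiv.equivOfIsEmpty Empty (Fin 0 × Unit)) l)) :
        Option (Unit ⊕ (Fin 0 × Unit)))) = (G.colIn (Fin 0 × Unit)).v :=
    G.map_congr (fun _ => rfl) (fun l => l.elim)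
  rw [e] at h
  exact h

/-- the class of a sum of products `(colB 0)^m (colIn t)` in the column with one label -/
noncomputable def spanW {ι : Type} (r : ℕ) (S : Finset ι) (i m : ι → ℕ) (t : ι → (G.fq.C R).C r) :
    ((Arr.tl (G.colA (Fin 1 × Unit))).C R).C r :=
  ∑ k ∈ S, (((Arr.tlin (G.colA (Fin 1 × Unit)) (i k)).comp
    ((Arr.it (G.colB ((0 : Fin 1), ())) (m k)).comp (G.colIn (Fin 1 × Unit)))).ch R).app r (t k)

theorem ch_sum {P Q : Arr} {ι : Type} (S : Finset ι) (h : ι → Arr.Hom P Q) {W : Arr}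
    (g : Arr.Hom Q W) (r : ℕ) (t : ι → (P.C R).C r) :
    (g.ch R).app r (∑ k ∈ S, ((h k).ch R).app r (t k)) =
      ∑ k ∈ S, ((g.comp (h k)).ch R).app r (t k) := by
  rw [map_sum]
  exact Finset.sum_congr rfl fun k _ => (Arr.ch_comp _ _ r (t k)).symm

theorem colT_spanW_zero {ι : Type} (r : ℕ) (S : Finset ι) (i m : ι → ℕ)
    (t : ι → (G.fq.C R).C r) :
    ((G.colT (dl 0 0)).ch R).app r (G.spanW r S i m t) =
      ((G.inT (Fin 0 × Unit)).ch R).app r
        (∑ k ∈ S, (((Arr.tlin G.a1 (i k)).comp (Arr.it G.a1 (m k))).ch R).app r (t k)) := by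
  unfold spanW
  rw [ch_sum, ch_sum]
  exact Finset.sum_congr rfl fun k _ => by rw [G.colT_zero]

theorem colT_spanW_one {ι : Type} (r : ℕ) (S : Finset ι) (i m : ι → ℕ)
    (t : ι → (G.fq.C R).C r) :
    ((G.colT (dl 0 1)).ch R).app r (G.spanW r S i m t) =
      ((G.inT (Fin 0 × Unit)).ch R).app r
        (∑ k ∈ S, (((Arr.tlin G.a1 (i k)).comp (Arr.it G.rho1 (m k))).ch R).app r (t k)) := by
  unfold spanW
  rw [ch_sum, ch_sum]
  exact Finset.sum_congr rfl fun k _ => by rw [G.colT_one]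

theorem kil_aux {ι : Type} (r : ℕ) (S : Finset ι) (m : ι → ℕ)
    (P c : ι → (cone (freeMap R G.telAlpha).cx).C r)
    (hP : ∀ k, (G.shC.relPw R (m k : ℤ)).app r (c k) = P k)
    (x : (cone (freeMap R G.telAlpha).cx).C r) (u : (cone (freeMap R G.telAlpha).cx).C (r + 1))
    (h : x = ∑ k ∈ S, (P k - c k) + (cone (freeMap R G.telAlpha).cx).d r u) : G.shC.Kil x := by
  refine G.shC.kil_of_sub_eq_d (G.shC.kil_sum S _ fun k _ => ?_) h
  rw [← hP k]
  exact G.shC.kil_pw_sub _ _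

/-- **T7, Step 1, from the statements on the columns.** -/
theorem kil_of_span (hT : ∀ n, RZ0 (freeMap R (SS.toPt (G.T.obj Unit))).cx n) (r : ℕ)
    (h1 : ∀ k, ∀ t < r, RZ0 (freeMap R (Arr.tl (G.colA (Fin k × Unit))).f).cx t)
    (h2 : ∀ w : ((Arr.tl (G.colA (Fin 1 × Unit))).C R).C r,
      ((Arr.tl (G.colA (Fin 1 × Unit))).C R).Cyc r w →
      ∃ (y : ((Arr.tl (G.colA (Fin 1 × Unit))).C R).C (r + 1)) (ι : Type) (S : Finset ι)
        (i m : ι → ℕ) (t : ι → (G.fq.C R).C r), (∀ k, (G.fq.C R).Cyc r (t k)) ∧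
        w = ((Arr.tl (G.colA (Fin 1 × Unit))).C R).d r y + G.spanW r S i m t)
    (x : ((Arr.tl G.a1).C R).C r) (hx : ((Arr.tl G.a1).C R).Cyc r x) :
    G.shC.Kil (n := r) x := by
  obtain ⟨w, hw, y, hy⟩ := G.exists_cor hT r h1 (((G.inT (Fin 0 × Unit)).ch R).app r x)
    (((G.inT (Fin 0 × Unit)).ch R).cyc hx)
  obtain ⟨y', ι, S, i, m, t, ht, rfl⟩ := h2 w hw
  clear hw
  rw [map_add, map_add, Cx.Hom.comm, Cx.Hom.comm, G.colT_spanW_zero, G.colT_spanW_one] at hy
  have hsim : ∀ k, ∃ v : ((Arr.tl G.a1).C R).C (r + 1), ((Arr.tl G.a1).C R).d r v =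
      (((Arr.tlin G.a1 (i k)).comp (Arr.it G.rho1 (m k))).ch R).app r (t k) -
        ((Arr.tlin G.a1 (i k)).ch R).app r (t k) := fun k =>
    ((G.sim_rho1.it (m k)).postcomp (Arr.tlin G.a1 (i k))) r (t k) (ht k)
  choose v hv using hsim
  have hcyc1 : ∀ h : ι → Arr.Hom G.fq (Arr.tl G.a1), ((Arr.tl G.a1).C R).Cyc r
      (∑ k ∈ S, ((h k).ch R).app r (t k)) := fun h =>
    Arr.cyc_sum _ S _ fun k _ => ((h k).ch R).cyc (ht k)
  obtain ⟨u, hu⟩ := Arr.ch_inj (G.inT (Fin 0 × Unit)) G.rz0_inT_u G.rz0_inT_v r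
    (x - (∑ k ∈ S, (((Arr.tlin G.a1 (i k)).comp (Arr.it G.a1 (m k))).ch R).app r (t k) -
      ∑ k ∈ S, (((Arr.tlin G.a1 (i k)).comp (Arr.it G.rho1 (m k))).ch R).app r (t k)))
    (Cx.cyc_sub _ hx (Cx.cyc_sub _ (hcyc1 _) (hcyc1 _)))
    (((G.colT (dl 0 0)).ch R).app (r + 1) y' - ((G.colT (dl 0 1)).ch R).app (r + 1) y' + y) (by
      rw [map_sub, map_sub, hy, map_add, map_sub]
      abel)
  have e2 : ∑ k ∈ S, ((Arr.tl G.a1).C R).d r (v k) =
      ∑ k ∈ S, (((Arr.tlin G.a1 (i k)).comp (Arr.it G.rho1 (m k))).ch R).app r (t k) -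
      ∑ k ∈ S, ((Arr.tlin G.a1 (i k)).ch R).app r (t k) := by
    rw [← Finset.sum_sub_distrib]
    exact Finset.sum_congr rfl fun k _ => hv k
  refine G.kil_aux r S m
    (fun k => (((Arr.tlin G.a1 (i k)).comp (Arr.it G.a1 (m k))).ch R).app r (t k))
    (fun k => ((Arr.tlin G.a1 (i k)).ch R).app r (t k))
    (fun k => (G.relPw_tlin _ _ r (t k)).trans (Arr.ch_comp _ _ r (t k)).symm) x
    (u - ∑ k ∈ S, v k) ?_
  change x = ∑ k ∈ S, ((((Arr.tlin G.a1 (i k)).comp (Arr.it G.a1 (m k))).ch R).app r (t k) -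
    ((Arr.tlin G.a1 (i k)).ch R).app r (t k)) + ((Arr.tl G.a1).C R).d r (u - ∑ k ∈ S, v k)
  rw [Finset.sum_sub_distrib, map_sub, map_sum, hu, e2]
  abel

/-- the only additional label of the first column -/
@[reducible] def uq1 : Unique (Fin 1 × Unit) :=
  ⟨⟨((0 : Fin 1), ())⟩, fun _ => Subsingleton.elim _ _⟩

/-- the cycles of the column with one label are spanned by the products -/
theorem exists_spanW (r : ℕ) (h : ∀ t < r, RZ0 (freeMap R (Arr.tl G.a1).f).cx t)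
    (w : ((Arr.tl (G.colA (Fin 1 × Unit))).C R).C r)
    (hw : ((Arr.tl (G.colA (Fin 1 × Unit))).C R).Cyc r w) :
    ∃ (y : ((Arr.tl (G.colA (Fin 1 × Unit))).C R).C (r + 1)) (ι : Type) (S : Finset ι)
      (i m : ι → ℕ) (t : ι → (G.fq.C R).C r), (∀ k, (G.fq.C R).Cyc r (t k)) ∧
      w = ((Arr.tl (G.colA (Fin 1 × Unit))).C R).d r y + G.spanW r S i m t := by
  let _ := uq1
  obtain ⟨y, ι, S, i, m, t, ht, e⟩ := G.span_col (L := Fin 1 × Unit) r h w hw
  refine ⟨y, ι, S, i, m, t, ht, e.trans ?_⟩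
  unfold spanW
  exact congrArg _ (Finset.sum_congr rfl fun k _ => (Arr.ch_comp _ _ r (t k)).symm)

/-- **T7, Steps 1 and 3.**  If `G.T.obj Unit` is acyclic then the map from the telescope of the
boxes to the telescope of the loops is a homology isomorphism. -/
theorem rz0_telAlpha (hT : ∀ n, RZ0 (freeMap R (SS.toPt (G.T.obj Unit))).cx n) (n : ℕ) :
    RZ0 (freeMap R G.telAlpha).cx n :=
  G.rz0_telAlpha_of_kil (fun r h x hx => G.kil_of_span hT r
    (fun k => G.rz0_col (Fin k × Unit) r h) (G.exists_spanW r h) x hx) n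

end MixG

end Vale.Agent.P263.GB
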