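import Vale.Agent.P263.GB.CorD
import Vale.Agent.P263.GB.MCone2

/-!
# P263, block GB: the relative corner lemma in its cokernel form

* `SMod.MCone.kap_inj` : a cycle of the chain-level mapping cone whose image in the simplicial
  mapping cone is a boundary is a boundary;
* `SSMod.rz0_cor` : for a map `F` of bisimplicial modules whose columns have vanishing relative
  homology below `r`, if the relative homology of the diagonal vanishes in degree `r`, then every
  relative `r`-cycle `x` of column `0` is `d_0 w - d_1 w + d y`, `w` a relative `r`-cycle of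
  column `1`.
-/

namespace Vale.Agent.P263.GB

open Vale.Agent.P263.S

variable {R : Type} [CommRing R]

namespace SMod

theorem MCone.kap_inj_zero {A B : SMod R} (f : Hom A B) (b : B.obj 0) (y : (MCone f).obj 1)
    (h : MCone.mk f 0 (b, 0) = (MCone f).d 0 y) :
    ∃ (b' : B.obj 1) (a : A.obj 0), B.d 0 b' + f.app 0 a = b := by
  obtain ⟨⟨b', e'⟩, rfl⟩ := MCone.mk_surj f 1 y
  rw [MCone.d_mk, ← sub_eq_zero, ← map_sub, Prod.mk_sub_mk, MCone.mk_eq_zero] at h
  obtain ⟨a, ha, _⟩ := h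
  exact ⟨b', a, by rw [ha]; abel⟩

theorem MCone.kap_inj_succ {A B : SMod R} (f : Hom A B) (n : ℕ) (b : B.obj (n + 1))
    (a : A.obj n) (ha : A.cx.Cyc n a) (y : (MCone f).obj (n + 2))
    (h : MCone.mk f (n + 1) (b, -ck A n ((cofI A).app n a)) = (MCone f).d (n + 1) y) :
    ∃ (b' : B.obj (n + 2)) (a' : A.obj (n + 1)),
      B.d (n + 1) b' + f.app (n + 1) a' = b ∧ -(A.d n a') = a := by
  obtain ⟨⟨b', e'⟩, rfl⟩ := MCone.mk_surj f (n + 2) y
  rw [MCone.d_mk, ← sub_eq_zero, ← map_sub, Prod.mk_sub_mk, MCone.mk_eq_zero] at h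
  obtain ⟨a', h1, h2⟩ := h
  refine ⟨b', a', by rw [h1]; abel, ?_⟩
  apply cofI_inj A n
  rw [map_neg, (cofI A).app_d, h2, map_sub, map_neg, (cof A).d_d, sub_zero, neg_neg]
  cases n with
  | zero => exact d_ck_zero A _
  | succ n =>
    have ha' : A.d n a = 0 := ha
    rw [d_ck, ← (cofI A).app_d, ha', map_zero, map_zero, sub_zero]

/-- a cycle of the mapping cone whose image in the simplicial mapping cone is a boundary is a
boundary -/
theorem MCone.kap_inj {A B : SMod R} (f : Hom A B) (n : ℕ) (z : (cone f.cx).C n)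
    (hz : (cone f.cx).Cyc n z) (y : (MCone f).obj (n + 1))
    (h : MCone.kapApp f n z = (MCone f).d n y) : ∃ w, (cone f.cx).d n w = z := by
  cases n with
  | zero =>
    obtain ⟨b', a, hb⟩ := MCone.kap_inj_zero f z y h
    exact ⟨(b', a), hb⟩
  | succ n =>
    obtain ⟨b, a⟩ := z
    have ha : A.cx.Cyc n a := by
      cases n with
      | zero => trivial
      | succ n =>
        have h1 : ((B.d (n + 1) b + f.app (n + 1) a, -(A.d n a)) :
          B.obj (n + 1) × A.obj n) = 0 := hz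
        exact neg_eq_zero.1 (congrArg Prod.snd h1)
    obtain ⟨b', a', h1, h2⟩ := MCone.kap_inj_succ f n b a ha y h
    exact ⟨(b', a'), Prod.ext h1 h2⟩

end SMod

namespace SSMod

variable {V W : SSMod R} (F : Hom V W)

/-- **The relative corner lemma, cokernel form.** -/
theorem rz0_cor (r : ℕ) (h : ∀ k, ∀ t < r, RZ0 (F.app k).cx t) (hd : RZ0 F.diag.cx r)
    (x : (cone (F.app 0).cx).C r) (hx : (cone (F.app 0).cx).Cyc r x) :
    ∃ w : (cone (F.app 1).cx).C r, (cone (F.app 1).cx).Cyc r w ∧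
      ∃ y : (cone (F.app 0).cx).C (r + 1),
        x = (cmap F (dl 0 0)).app r w - (cmap F (dl 0 1)).app r w +
          (cone (F.app 0).cx).d r y := by
  obtain ⟨w, hw, y, hy⟩ := cor r (MCone F)
    (fun k t ht => (SMod.MCone.hz_iff (F.app k) t).2 (h k t ht))
    ((MCone.diag_hz_iff F r).2 hd) (SMod.MCone.kapApp (F.app 0) r x)
    ((SMod.MCone.kap (F.app 0)).cyc hx)
  obtain ⟨w', v, hw', rfl⟩ := SMod.MCone.kap_surj (F.app 1) r w hw
  have e : ∀ i, ((MCone F).map (dl 0 i)).app r (SMod.MCone.kapApp (F.app 1) r w' +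
      (SMod.MCone (F.app 1)).d r v) = SMod.MCone.kapApp (F.app 0) r ((cmap F (dl 0 i)).app r w') +
        (SMod.MCone (F.app 0)).d r (((MCone F).map (dl 0 i)).app (r + 1) v) := by
    intro i
    have e1 : ((MCone F).map (dl 0 i)).app r (SMod.MCone.kapApp (F.app 1) r w') =
        SMod.MCone.kapApp (F.app 0) r ((cmap F (dl 0 i)).app r w') :=
      SMod.MCone.kap_nat (V.map (dl 0 i)) (W.map (dl 0 i)) (fun p x => F.nat (dl 0 i) x) r w'
    rw [map_add, e1, SMod.Hom.app_d]
  rw [e 0, e 1] at hy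
  obtain ⟨u, hu⟩ := SMod.MCone.kap_inj (F.app 0) r
    (x - ((cmap F (dl 0 0)).app r w' - (cmap F (dl 0 1)).app r w'))
    (Cx.cyc_sub _ hx (Cx.cyc_sub _ ((cmap F (dl 0 0)).cyc hw') ((cmap F (dl 0 1)).cyc hw')))
    (((MCone F).map (dl 0 0)).app (r + 1) v - ((MCone F).map (dl 0 1)).app (r + 1) v + y) (by
      rw [map_sub, map_sub, map_add, map_sub, hy]
      abel)
  refine ⟨w', hw', u, ?_⟩
  rw [hu]
  abel

end SSMod

end Vale.Agent.P263.GB
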