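import Vale.Agent.P263.GB.MixCols
import Vale.Agent.P263.GB.RelCor
import Vale.Agent.P263.GB.HtpRZ

/-!
# P263, block G2 (T7, Step 1): the bisimplicial part

For `G : MixG` the bisimplicial sets `G.XB` (columns `G.obj Empty (Unit ⊕ Fin k × Unit)`, the
interval in the labels) and `G.TB` (columns `G.obj Unit (Fin k × Unit)`, diagonal `G.T.obj Unit`).

* `XB_diag_acyc` : the diagonal of `XB` is contractible;
* `rz0_tel_toPt` : telescopes of acyclic simplicial sets are acyclic;
* `rz0_JB` : if `G.T.obj Unit` is acyclic, the map of the diagonals of the telescopes of `XB`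
  and `TB` has vanishing relative homology;
* `exists_cor` : the corner lemma for the telescopes.
-/

namespace Vale.Agent.P263.GB

open Vale.Agent.P263.S Vale.Agent.P263.E

variable {R : Type} [CommRing R]

/-! ### generalities -/

/-- levelwise bijections are homology isomorphisms -/
theorem rz0_of_bijM {X Y : SS} (f : SS.Map X Y) (h : ∀ p, Function.Bijective (f.app (p := p)))
    (n : ℕ) : RZ0 (freeMap R f).cx n := by
  refine (rz0_square (SS.Map.id X) f (SS.Map.id X) f (fun p => Function.bijective_id) h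
    (fun p x => rfl) n).1 ?_
  exact rz0_of_htp (SS.Map.id X) (SS.Map.id X) (HtpRel.refl _) (HtpRel.refl _) n

/-- an endomorphism of an acyclic simplicial set is a homology isomorphism -/
theorem rz0_endo {Y Z : SS} (a : SS.Map Y Z) (hY : ∀ n, RZ0 (freeMap R (SS.toPt Y)).cx n)
    (hZ : ∀ n, RZ0 (freeMap R (SS.toPt Z)).cx n) (n : ℕ) : RZ0 (freeMap R a).cx n :=
  rz0_free_left a (SS.toPt Z) (hY n) (hZ (n + 1))

/-- telescopes of acyclic simplicial sets are acyclic -/
theorem rz0_tel_toPt {Y : SS} (a : SS.Map Y Y) (h : ∀ n, RZ0 (freeMap R (SS.toPt Y)).cx n)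
    (n : ℕ) : RZ0 (freeMap R (SS.toPt (tel a))).cx n :=
  rz0_free_right (tin a 0) (SS.toPt (tel a)) (h n) fun m _ => rz0_tin a m (rz0_endo a h h m) 0

/-! ### telescopes of bisimplicial sets -/

namespace BSS

/-- the telescope of an endomorphism of a bisimplicial set -/
def tel (X : BSS) (a : BSS.Hom X X) : BSS where
  obj k := GB.tel (a.app k)
  map {k l} f := telMap (a.app l) (a.app k) (X.map f) fun x => (a.nat f x).symm
  map_id {k m} z := by
    obtain ⟨i, x, rfl⟩ := exists_tin (a.app k) z
    rw [telMap_tin, X.map_id]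
  map_comp {k l n m} f g z := by
    obtain ⟨i, x, rfl⟩ := exists_tin (a.app n) z
    rw [telMap_tin, telMap_tin, telMap_tin, X.map_comp]

/-- the telescope of the diagonal is the diagonal of the telescope -/
def toTelDiag (X : BSS) (a : BSS.Hom X X) : SS.Map (GB.tel a.diag) (X.tel a).diag where
  app {p} x := (x : TelT ((a.app p).app (p := p)))
  nat {p q} f z := by
    obtain ⟨i, x, rfl⟩ := exists_tin a.diag z
    rfl

theorem toTelDiag_bijective (X : BSS) (a : BSS.Hom X X) (p : ℕ) :
    Function.Bijective ((X.toTelDiag a).app (p := p)) := Function.bijective_id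

theorem rz0_telDiag (X : BSS) (a : BSS.Hom X X)
    (h : ∀ n, RZ0 (freeMap R (SS.toPt X.diag)).cx n) (n : ℕ) :
    RZ0 (freeMap R (SS.toPt (X.tel a).diag)).cx n :=
  rz0_free_right (X.toTelDiag a) (SS.toPt (X.tel a).diag) (rz0_tel_toPt a.diag h n)
    fun m _ => rz0_of_bijM _ (X.toTelDiag_bijective a) m

end BSS

/-! ### the labels of the interval -/

/-- the threshold of a label of the interval -/
def thrM {p : ℕ} : Unit ⊕ (Fin p × Unit) → ℕ := Sum.elim (fun _ => 0) (fun x => x.1.1 + 1)

/-- the label with a given threshold -/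
def labU (p c : ℕ) : Option (Unit ⊕ (Fin p × Unit)) :=
  (lab (some ()) p c).map (Sum.map (fun u => u) (fun j => (j, ())))

theorem labU_thr {p : ℕ} (y : Unit ⊕ (Fin p × Unit)) : labU p (thrM y) = some y := by
  rcases y with u | ⟨i, u⟩
  · rfl
  · change (lab (some ()) p (i.1 + 1)).map _ = _
    rw [lab_succ_of_lt _ i.2]
    rfl

theorem labU_cases (p c : ℕ) : (∃ y : Unit ⊕ (Fin p × Unit), labU p c = some y ∧ thrM y = c) ∨
    (p < c ∧ labU p c = none) := by
  rcases c with _ | c
  · exact Or.inl ⟨Sum.inl (), rfl, rfl⟩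
  · rcases Nat.lt_or_ge c p with h | h
    · refine Or.inl ⟨Sum.inr (⟨c, h⟩, ()), ?_, rfl⟩
      unfold labU
      rw [lab_succ_of_lt _ h]
      rfl
    · refine Or.inr ⟨by omega, ?_⟩
      unfold labU
      rw [lab_of_gt _ (by omega)]
      rfl

theorem labU_bind {q p : ℕ} (F : ℕ → ℕ) (hF : ∀ c, q < c → p < F c) (c : ℕ) :
    ((labU q c).bind fun y => labU p (F (thrM y))) = labU p (F c) := by
  rcases labU_cases q c with ⟨y, h1, h2⟩ | ⟨h1, h2⟩
  · rw [h1, Option.bind_some, h2]
  · rw [h2, Option.bind_none]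
    rcases labU_cases p (F c) with ⟨y, h3, h4⟩ | ⟨_, h4⟩
    · exfalso
      have h5 := hF c h1
      rcases y with u | ⟨i, u⟩
      · change 0 = F c at h4
        omega
      · change i.1 + 1 = F c at h4
        have := i.2
        omega
    · exact h4.symm

/-- the operators on the labels of the interval -/
def uX {p q : ℕ} (α : Op p q) (y : Unit ⊕ (Fin q × Unit)) : Option (Unit ⊕ (Fin p × Unit)) :=
  labU p (cut α (thrM y))

theorem xg_copK {p q : ℕ} (α : Op p q) (y : Unit ⊕ (Fin q × Unit)) :
    xg (copK Unit α) y = ((uX α y).map Sum.inr : Option (Empty ⊕ (Unit ⊕ (Fin p × Unit)))) := by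
  rcases y with u | ⟨i, u⟩
  · change _ = (labU p (cut α 0)).map _
    rw [cut_zero]
    rfl
  · change ((cop (some ()) α i).map (Sum.map (fun _ => u) (fun j => (j, u)))).map Sum.inr =
      (labU p (cut α (i.1 + 1))).map Sum.inr
    rfl

/-- the contraction of the labels of the interval -/
def conX {p : ℕ} (θ : Op p 1) (y : Unit ⊕ (Fin p × Unit)) : Option (Unit ⊕ (Fin p × Unit)) :=
  labU p (max (thrM y) (cut θ 1))

theorem conX_uX {p q : ℕ} (α : Op p q) (θ : Op q 1) (y : Unit ⊕ (Fin q × Unit)) :
    (uX α y).bind (conX (θ.comp α)) = (conX θ y).bind (uX α) := by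
  unfold uX conX
  rw [labU_bind (fun c => max c (cut (θ.comp α) 1)) (fun c hc => lt_max_of_lt_left hc),
    labU_bind (fun c => cut α c) (fun c hc => by rw [cut_top α hc]; exact Nat.lt_succ_self p),
    cut_comp]
  congr 1
  rcases le_total (thrM y) (cut θ 1) with h | h
  · rw [max_eq_right h, max_eq_right (cut_mono α h)]
  · rw [max_eq_left h, max_eq_left (cut_mono α h)]

theorem cutM_c1 (p : ℕ) : cut (c1 p) 1 = 0 :=
  cut_eq_of_lt_iff _ (Nat.zero_le _) fun x => by rw [c1_val]; simp

theorem cutM_c0 (p : ℕ) : cut (c0 p) 1 = p + 1 :=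
  cut_eq_of_lt_iff _ le_rfl fun x => by
    rw [c0_val]
    have := x.2
    simp
    omega

theorem conX_c1 {p : ℕ} (y : Unit ⊕ (Fin p × Unit)) : conX (c1 p) y = some y := by
  unfold conX
  rw [cutM_c1, Nat.max_zero, labU_thr]

theorem conX_c0 {p : ℕ} (y : Unit ⊕ (Fin p × Unit)) : conX (c0 p) y = none := by
  unfold conX
  rw [cutM_c0]
  rcases labU_cases p (max (thrM y) (p + 1)) with ⟨z, h3, h4⟩ | ⟨_, h4⟩
  · exfalso
    have h5 : p + 1 ≤ thrM z := by rw [h4]; exact le_max_right _ _
    rcases z with u | ⟨i, u⟩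
    · change p + 1 ≤ 0 at h5
      omega
    · change p + 1 ≤ i.1 + 1 at h5
      have := i.2
      omega
  · exact h4

namespace MixG

variable (G : MixG)

/-! ### the bisimplicial sets -/

/-- loops and boxes, the circle in the box labels -/
def TB : BSS := G.SG.bss Unit

theorem TB_diag : G.TB.diag = G.T.obj Unit := rfl

/-- boxes only, the interval in the labels -/
def XB : BSS where
  obj k := (G.col (Fin k × Unit)).A
  map α := (G.colMap (copK Unit α)).u
  map_id {k m} x := by
    rw [G.colMap_congr (copK_id Unit), G.colMap_id]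
    rfl
  map_comp f g x := by
    have h : G.colMap (copK Unit (f.comp g)) =
        (G.colMap (copK Unit g)).comp (G.colMap (copK Unit f)) := by
      rw [← G.colMap_comp]
      exact G.colMap_congr fun y => (lcomp_copK Unit f g y).symm
    rw [h]
    rfl

/-- the map of the columns -/
def FB : BSS.Hom G.XB G.TB where
  app k := G.colF (Fin k × Unit)
  nat α x := (G.colMap (copK Unit α)).comm x

theorem colMap_copK_colA {k l : ℕ} (α : Op k l) :
    (G.colMap (copK Unit α)).comp (G.colA _) = (G.colA _).comp (G.colMap (copK Unit α)) :=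
  G.colMap_colA _

/-- adding a box with label `inl ()` -/
def aXB : BSS.Hom G.XB G.XB where
  app k := (G.colA (Fin k × Unit)).u
  nat {k l m} α x := (congrArg (fun h : Arr.Hom (G.col (Fin l × Unit)) (G.col (Fin k × Unit)) =>
    (h.u.app x : (G.col (Fin k × Unit)).A.obj m)) (G.colMap_copK_colA α)).symm

/-- adding a loop -/
def aTB : BSS.Hom G.TB G.TB where
  app k := (G.colA (Fin k × Unit)).v
  nat {k l m} α x := (congrArg (fun h : Arr.Hom (G.col (Fin l × Unit)) (G.col (Fin k × Unit)) =>
    (h.v.app x : (G.col (Fin k × Unit)).B.obj m)) (G.colMap_copK_colA α)).symm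

/-! ### the contraction -/

/-- the contraction of the diagonal of `XB` -/
def conXB : SS.Htp G.XB.diag G.XB.diag where
  h p θ x := (G.gamF.map (conX θ)).app (x : (G.gamF.obj (Unit ⊕ (Fin p × Unit))).obj p)
  nat {p q} α θ x := by
    have e1 : ∀ {m : ℕ} (y : (G.gamF.obj (Unit ⊕ (Fin q × Unit))).obj m),
        (G.colMap (copK Unit α)).u.app y = (G.gamF.map (uX α)).app y := by
      intro m y
      exact congrArg (fun F => SS.Map.app F y) (G.map_congr (fun e => e.elim) (xg_copK α))
    have key : ∀ y : (G.gamF.obj (Unit ⊕ (Fin q × Unit))).obj p,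
        (G.gamF.map (conX (θ.comp α))).app ((G.gamF.map (uX α)).app y) =
          (G.gamF.map (uX α)).app ((G.gamF.map (conX θ)).app y) := by
      intro y
      rw [← G.gamF.map_bind, ← G.gamF.map_bind]
      congr 2
      funext z
      exact conX_uX α θ z
    refine (congrArg (G.gamF.map (conX (θ.comp α))).app
      (e1 ((G.gamF.obj (Unit ⊕ (Fin q × Unit))).map α x))).trans ?_
    refine (key _).trans ?_
    refine (congrArg (G.gamF.map (uX α)).app ((G.gamF.map (conX θ)).nat α x)).trans ?_
    exact (e1 _).symm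

theorem map_none {K L K' L' : Type} [Finite K] [Finite L] [Finite K'] [Finite L'] {p : ℕ}
    (x : (G.obj K L).obj p) : (G.map (fun _ : K => (none : Option K'))
      (fun _ : L => (none : Option (K' ⊕ L')))).app x = G.emp K' L' p := by
  have h := G.map_map (K' := Empty) (L' := Empty) (K'' := K') (L'' := L')
    (f := fun _ : K => none) (g := fun _ : L => none)
    (f' := fun e : Empty => e.elim) (g' := fun e : Empty => e.elim) (f'' := fun _ => none)
    (g'' := fun _ => none) (fun _ => rfl) (fun _ => rfl) x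
  rw [← h, G.eq_emp ((G.map _ _).app x), G.map_emp]

/-- the vertex of the diagonal of `XB` -/
def empXB : SS.Map SS.pt G.XB.diag where
  app {p} _ := G.emp Empty (Unit ⊕ (Fin p × Unit)) p
  nat {p q} α _ := by
    change _ = (G.colMap (copK Unit α)).u.app ((G.obj Empty (Unit ⊕ (Fin q × Unit))).map α
      (G.emp Empty (Unit ⊕ (Fin q × Unit)) q))
    rw [G.emp_map]
    exact (G.map_emp _ _ p).symm

/-- **The diagonal of `XB` is contractible.** -/
theorem XB_diag_acyc (n : ℕ) : RZ0 (freeMap R (SS.toPt G.XB.diag)).cx n := by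
  refine rz0_of_htp (SS.toPt G.XB.diag) G.empXB ⟨G.conXB, Or.inr ⟨?_, ?_⟩⟩ ?_ n
  · refine SS.Map.ext fun p x => ?_
    have key : ∀ x : (G.obj Empty (Unit ⊕ (Fin p × Unit))).obj p,
        (G.gamF.map (conX (c0 p))).app x = G.emp Empty (Unit ⊕ (Fin p × Unit)) p := by
      intro x
      refine Eq.trans ?_ (G.map_none (K' := Empty) (L' := Unit ⊕ (Fin p × Unit)) x)
      have h1 : G.map (fun e : Empty => (e.elim : Option Empty))
          (fun y : Unit ⊕ (Fin p × Unit) => ((conX (c0 p) y).map Sum.inr :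
            Option (Empty ⊕ (Unit ⊕ (Fin p × Unit))))) =
          G.map (fun _ => none) (fun _ => none) :=
        G.map_congr (fun e => e.elim) (fun y => by rw [conX_c0]; rfl)
      exact congrArg (fun F => SS.Map.app F x) h1
    exact key x
  · refine SS.Map.ext fun p x => ?_
    have key : ∀ x : (G.gamF.obj (Unit ⊕ (Fin p × Unit))).obj p,
        (G.gamF.map (conX (c1 p))).app x = x := by
      intro x
      have e : (conX (c1 p) : Unit ⊕ (Fin p × Unit) → _) = some := funext conX_c1
      rw [e, G.gamF.map_some]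
    exact key x
  · have e : (SS.toPt G.XB.diag).comp G.empXB = SS.Map.id SS.pt := SS.Map.ext fun _ _ => rfl
    rw [e]
    exact HtpRel.refl _

/-! ### the telescopes -/

/-- the telescope of the arrow of bisimplicial sets -/
def JB : BSS.Hom (G.XB.tel G.aXB) (G.TB.tel G.aTB) where
  app k := (Arr.tl (G.colA (Fin k × Unit))).f
  nat {k l m} α z := by
    obtain ⟨i, x, rfl⟩ := exists_tin (G.aXB.app l) z
    exact congrArg (tin (G.aTB.app k) i).app ((G.colMap (copK Unit α)).comm x)

/-- if `T` is acyclic then the map of the diagonals of the telescopes is a homology isomorphism -/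
theorem rz0_JB (hT : ∀ n, RZ0 (freeMap R (SS.toPt (G.T.obj Unit))).cx n) (n : ℕ) :
    RZ0 (freeMap R G.JB.diag).cx n :=
  rz0_endo G.JB.diag (G.XB.rz0_telDiag G.aXB G.XB_diag_acyc) (G.TB.rz0_telDiag G.aTB hT) n

/-- the operators on the telescopes of the columns -/
def colT {k l : ℕ} (α : Op k l) :
    Arr.Hom (Arr.tl (G.colA (Fin l × Unit))) (Arr.tl (G.colA (Fin k × Unit))) :=
  Arr.tlMap (G.colA _) (G.colA _) (G.colMap (copK Unit α)) (G.colMap_copK_colA α)

/-- **The corner lemma for the telescopes.** -/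
theorem exists_cor (hT : ∀ n, RZ0 (freeMap R (SS.toPt (G.T.obj Unit))).cx n) (r : ℕ)
    (h : ∀ k, ∀ t < r, RZ0 (freeMap R (Arr.tl (G.colA (Fin k × Unit))).f).cx t)
    (x : ((Arr.tl (G.colA (Fin 0 × Unit))).C R).C r)
    (hx : ((Arr.tl (G.colA (Fin 0 × Unit))).C R).Cyc r x) :
    ∃ w : ((Arr.tl (G.colA (Fin 1 × Unit))).C R).C r,
      ((Arr.tl (G.colA (Fin 1 × Unit))).C R).Cyc r w ∧
      ∃ y : ((Arr.tl (G.colA (Fin 0 × Unit))).C R).C (r + 1),
        x = ((G.colT (dl 0 0)).ch R).app r w - ((G.colT (dl 0 1)).ch R).app r w +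
          ((Arr.tl (G.colA (Fin 0 × Unit))).C R).d r y :=
  SSMod.rz0_cor (G.JB.free R) r h ((G.JB.rz0_diag_iff r).1 (G.rz0_JB hT r)) x hx

end MixG

end Vale.Agent.P263.GB
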