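import Vale.Agent.P263.GB.Whisk
import Vale.Agent.P263.G2.SingSS

/-!
# P263, block G2-2: the diagonals of the bisimplicial sets of whiskered simplices

* `pkDiag y₀ : SS`, `p ↦ C(Δ^p, PK (Fin (p + 1)) y₀)`, `sxDiag Y : SS`, `p ↦ C(Δ^p, C(Δ^p, Y))`,
  `pkToSx : pkDiag y₀ → sxDiag Y` (forget the whiskers), `cstD : sing Y → sxDiag Y` (constants);
  all natural in `(Y, y₀)`.
* `rz0_cstD` : `cstD` is a simplicial homotopy equivalence (restrict to the diagonal of
  `Δ^p × Δ^p`), hence has vanishing relative homology.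
-/

namespace Vale.Agent.P263.GB

open Vale.Agent.P263.S Vale.Agent.P263.E Vale.Agent.P263.G2 unitInterval

/-! ### affine combinations in the simplex -/

section line

variable {ι κ : Type} [Fintype ι] [Fintype κ]

theorem continuous_line₃ {T : Type*} [TopologicalSpace T] {u t : T → stdSimplex ℝ ι} {τ : T → I}
    (hu : Continuous u) (hτ : Continuous τ) (ht : Continuous t) :
    Continuous fun x => line (u x) (τ x) (t x) := by
  refine Continuous.subtype_mk ?_ _
  refine continuous_pi fun i => ?_
  have h1 : Continuous fun x => (t x : ι → ℝ) i :=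
    (continuous_apply i).comp (continuous_subtype_val.comp ht)
  have h2 : Continuous fun x => (u x : ι → ℝ) i :=
    (continuous_apply i).comp (continuous_subtype_val.comp hu)
  have h3 : Continuous fun x => (τ x : ℝ) := continuous_subtype_val.comp hτ
  exact ((continuous_const.sub h3).mul h1).add (h3.mul h2)

theorem map_line (f : ι → κ) (u t : stdSimplex ℝ ι) (τ : I) :
    stdSimplex.map f (line u τ t) = line (stdSimplex.map f u) τ (stdSimplex.map f t) := by
  refine stdSimplex.ext ?_
  rw [stdSimplex.map_coe]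
  have h : (line u τ t : ι → ℝ) = (1 - (τ : ℝ)) • (t : ι → ℝ) + (τ : ℝ) • (u : ι → ℝ) := rfl
  have h' : (line (stdSimplex.map f u) τ (stdSimplex.map f t) : κ → ℝ) =
    (1 - (τ : ℝ)) • (stdSimplex.map f t : κ → ℝ) + (τ : ℝ) • (stdSimplex.map f u : κ → ℝ) := rfl
  rw [h, h', map_add, map_smul, map_smul, stdSimplex.map_coe, stdSimplex.map_coe]

@[simp] theorem line_self (τ : I) (t : stdSimplex ℝ ι) : line t τ t = t := by
  refine stdSimplex.ext (funext fun i => ?_)
  rw [line_apply]
  ring

end line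

/-! ### the diagonals -/

section diag

variable {Y : Type} [TopologicalSpace Y] (y₀ : Y)

/-- the diagonal of `(k, m) ↦ C(Δ^m, PK (Fin (k + 1)) y₀)` -/
noncomputable def pkDiag : SS where
  obj p := C(Dl p, PK (Fin (p + 1)) y₀)
  map f g := (PK.re f).comp (g.comp (dmap f))
  map_id g := by
    show (PK.re (id : _ → _)).comp (g.comp (dmap OrderHom.id)) = g
    rw [PK.re_id, dmap_id]
    rfl
  map_comp f g x := by
    show (PK.re (f ∘ g)).comp (x.comp (dmap (f.comp g))) = _
    rw [PK.re_comp, dmap_comp]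
    rfl

variable (Y) in
/-- the diagonal of `(k, m) ↦ C(Δ^m, C(Δ^k, Y))` -/
noncomputable def sxDiag : SS where
  obj p := C(Dl p, C(Dl p, Y))
  map f g := (sxRe Y f).comp (g.comp (dmap f))
  map_id g := by
    ext t s
    show g (stdSimplex.map id t) (stdSimplex.map id s) = g t s
    rw [stdSimplex.map_id_apply, stdSimplex.map_id_apply]
  map_comp f g x := by
    ext t s
    show x (stdSimplex.map (f ∘ g) t) (stdSimplex.map (f ∘ g) s) =
      x (stdSimplex.map f (stdSimplex.map g t)) (stdSimplex.map f (stdSimplex.map g s))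
    rw [stdSimplex.map_comp_apply, stdSimplex.map_comp_apply]

/-- a simplex of `sxDiag` as a map -/
def sdFun {p : ℕ} (g : (sxDiag Y).obj p) : C(Dl p, C(Dl p, Y)) := g

variable {y₀} in
/-- a simplex of `pkDiag` as a map -/
def pdFun {p : ℕ} (g : (pkDiag y₀).obj p) : C(Dl p, PK (Fin (p + 1)) y₀) := g

theorem sxDiag_ext {p : ℕ} {g h : (sxDiag Y).obj p} (H : ∀ t s, sdFun g t s = sdFun h t s) :
    g = h :=
  ContinuousMap.ext fun t => ContinuousMap.ext fun s => H t s

theorem sxDiag_map_apply {p q : ℕ} (f : Op p q) (g : (sxDiag Y).obj q) (t s : Dl p) :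
    sdFun ((sxDiag Y).map f g) t s = sdFun g (dmap f t) (dmap f s) := rfl

/-- forget the whiskers -/
noncomputable def pkToSx : SS.Map (pkDiag y₀) (sxDiag Y) where
  app g := PK.sx.comp (pdFun g)
  nat _ _ := rfl

variable (Y) in
/-- the constant simplices -/
noncomputable def cstD : SS.Map (sing Y) (sxDiag Y) where
  app c := (constSx _ Y).comp (toC c)
  nat _ _ := rfl

theorem sdFun_cstD {p : ℕ} (c : (sing Y).obj p) (t s : Dl p) :
    sdFun ((cstD Y).app c) t s = toC c t := rfl

/-- restriction to the diagonal of `Δ^p × Δ^p` -/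
noncomputable def diagFun {p : ℕ} (g : (sxDiag Y).obj p) : C(Dl p, Y) where
  toFun t := sdFun g t t
  continuous_toFun := ContinuousEval.continuous_eval.comp
    ((sdFun g).continuous.prodMk continuous_id)

variable (Y) in
/-- restriction to the diagonal of `Δ^p × Δ^p` -/
noncomputable def diagD : SS.Map (sxDiag Y) (sing Y) where
  app g := ofC (diagFun g)
  nat _ _ := rfl

theorem toC_diagD {p : ℕ} (g : (sxDiag Y).obj p) (t : Dl p) :
    toC ((diagD Y).app g) t = sdFun g t t := rfl

theorem diagD_cstD : (diagD Y).comp (cstD Y) = SS.Map.id (sing Y) := rfl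

/-- the homotopy `g(t)((1-c) s + c t)`, `c = chiI χ t` -/
noncomputable def hdFun {p : ℕ} (χ : Op p 1) (g : (sxDiag Y).obj p) : C(Dl p, C(Dl p, Y)) where
  toFun t := ⟨fun s => sdFun g t (line t (chiI χ t) s), (sdFun g t).continuous.comp
    (continuous_line₃ continuous_const continuous_const continuous_id)⟩
  continuous_toFun := by
    refine ContinuousMap.continuous_of_continuous_uncurry _ ?_
    show Continuous fun z : Dl p × Dl p => sdFun g z.1 (line z.1 (chiI χ z.1) z.2)
    exact ContinuousEval.continuous_eval.comp (((sdFun g).continuous.comp continuous_fst).prodMk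
      (continuous_line₃ continuous_fst ((chiI χ).continuous.comp continuous_fst) continuous_snd))

theorem hdFun_apply {p : ℕ} (χ : Op p 1) (g : (sxDiag Y).obj p) (t s : Dl p) :
    hdFun χ g t s = sdFun g t (line t (chiI χ t) s) := rfl

variable (Y) in
/-- the simplicial homotopy from the identity to `cstD ∘ diagD` -/
noncomputable def hD : SS.Htp (sxDiag Y) (sxDiag Y) where
  h _ χ g := hdFun χ g
  nat {p q} f χ g := by
    refine sxDiag_ext fun t s => ?_
    show sdFun g (dmap f t) (dmap f (line t (chiI (χ.comp f) t) s)) =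
      sdFun g (dmap f t) (line (dmap f t) (chiI χ (dmap f t)) (dmap f s))
    rw [chiI_comp, dmap_apply f (line _ _ _), map_line]
    rfl

theorem hD_e0 : (hD Y).e0 = SS.Map.id (sxDiag Y) := by
  refine SS.Map.ext fun p g => sxDiag_ext fun t s => ?_
  show sdFun g t (line t (chiI (c0 p) t) s) = sdFun g t s
  rw [chiI_c0, line_zero]

theorem hD_e1 : (hD Y).e1 = (cstD Y).comp (diagD Y) := by
  refine SS.Map.ext fun p g => sxDiag_ext fun t s => ?_
  show sdFun g t (line t (chiI (c1 p) t) s) = sdFun g t t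
  rw [chiI_c1, line_one]

variable {R : Type} [CommRing R]

/-- **(W3), diagonal form.** -/
theorem rz0_cstD (n : ℕ) : RZ0 (freeMap R (cstD Y)).cx n := by
  refine rz0_of_htp (cstD Y) (diagD Y) ?_ ?_ n
  · rw [diagD_cstD]
    exact HtpRel.refl _
  · exact ⟨hD Y, Or.inl ⟨hD_e0, hD_e1⟩⟩

/-! ### naturality -/

variable {Z : Type} [TopologicalSpace Z] {z₀ : Z}

variable {y₀} in
/-- functoriality of `pkDiag` -/
noncomputable def pkDiagMap (φ : C(Y, Z)) (h : φ y₀ = z₀) : SS.Map (pkDiag y₀) (pkDiag z₀) where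
  app g := (PK.map φ h).comp (pdFun g)
  nat _ _ := rfl

/-- functoriality of `sxDiag` -/
noncomputable def sxDiagMap (φ : C(Y, Z)) : SS.Map (sxDiag Y) (sxDiag Z) where
  app {p} g := (⟨fun x => φ.comp x, ContinuousMap.continuous_postcomp φ⟩ :
    C(C(Dl p, Y), C(Dl p, Z))).comp (sdFun g)
  nat _ _ := rfl

variable {y₀} in
theorem pkToSx_nat (φ : C(Y, Z)) (h : φ y₀ = z₀) :
    (pkToSx z₀).comp (pkDiagMap φ h) = (sxDiagMap φ).comp (pkToSx y₀) := rfl

theorem cstD_nat (φ : C(Y, Z)) : (cstD Z).comp (singMap φ) = (sxDiagMap φ).comp (cstD Y) := rfl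

end diag

end Vale.Agent.P263.GB
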