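import Vale.Agent.P263.GB.BSS
import Vale.Agent.P263.GB.WDiag

/-!
# P263, block G2-2, step (W2), diagonal form

* `SSMod.rz0_diag_of_surj` : a levelwise surjective map of bisimplicial modules all of whose rows
  have vanishing relative homology has a diagonal with vanishing relative homology.
* `rz0_pkToSx` : for `Y` path connected, `pkDiag y₀ → sxDiag Y` has vanishing relative homology in
  all degrees (any commutative ring).
-/

namespace Vale.Agent.P263.GB

open Vale.Agent.P263.S Vale.Agent.P263.E Vale.Agent.P263.G2 unitInterval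

variable {R : Type} [CommRing R]

namespace SSMod

variable {V W : SSMod R}

/-- the kernel of a map -/
abbrev Kr (F : Hom V W) : SSMod R where
  obj k := SMod.Ker (F.app k)
  map {k l} f :=
    { app := fun m => ((V.map f).app m).restrict fun x hx => by
        rw [LinearMap.mem_ker] at *
        rw [F.nat, hx, map_zero]
      nat := fun g x => Subtype.ext ((V.map f).nat g x.1) }
  map_id x := Subtype.ext (V.map_id x.1)
  map_comp f g x := Subtype.ext (V.map_comp f g x.1)

/-- the inclusion of the kernel -/
def krI (F : Hom V W) : Hom (Kr F) V where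
  app k := SMod.kerI (F.app k)
  nat _ _ := rfl

theorem ses_kr (F : Hom V W) (h : ∀ k m, Function.Surjective ((F.app k).app m)) :
    SES (krI F).diag F.diag where
  inj p := (SMod.ses_ker (F.app p) (h p)).inj p
  exact p := (SMod.ses_ker (F.app p) (h p)).exact p
  zero p := (SMod.ses_ker (F.app p) (h p)).zero p
  surj p := h p p

/-- **Relative diagonal lemma** for surjections, rows. -/
theorem rz0_diag_of_surj (F : Hom V W) (h : ∀ k m, Function.Surjective ((F.app k).app m))
    (hr : ∀ m n, RZ0 (F.swap.app m).cx n) (n : ℕ) : RZ0 F.diag.cx n := by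
  cases n with
  | zero => exact rz0_zero_of_surj _ (h 0 0)
  | succ n =>
    rw [(ses_kr F h).cx.rz0_succ_iff]
    refine (Kr F).diag_hz' (n + 1) (fun m t _ => ?_) n (Nat.lt_succ_self n)
    exact (rz0_succ_iff_ker (F.swap.app m) (fun k => h k m) t).1 (hr m (t + 1))

end SSMod

/-! ### the bisimplicial sets of whiskered simplices -/

section

variable {Y : Type} [TopologicalSpace Y] (y₀ : Y)

/-- the bisimplicial set `(k, m) ↦ C(Δ^m, PK (Fin (k + 1)) y₀)` -/
noncomputable def pkB : BSS where
  obj k := sing (PK (Fin (k + 1)) y₀)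
  map f := singMap (PK.re f)
  map_id {k m} x := by
    show (PK.re (id : Fin (k + 1) → Fin (k + 1))).comp (toC x) = toC x
    rw [PK.re_id]
    rfl
  map_comp f g x := by
    show (PK.re (f ∘ g)).comp (toC x) = (PK.re g).comp ((PK.re f).comp (toC x))
    rw [PK.re_comp]
    rfl

variable (Y) in
/-- the bisimplicial set `(k, m) ↦ C(Δ^m, C(Δ^k, Y))` -/
noncomputable def sxB : BSS where
  obj k := sing C(Dl k, Y)
  map f := singMap (sxRe Y f)
  map_id x := by
    refine ContinuousMap.ext fun t => ContinuousMap.ext fun s => ?_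
    show toC x t (stdSimplex.map id s) = toC x t s
    rw [stdSimplex.map_id_apply]
  map_comp f g x := by
    refine ContinuousMap.ext fun t => ContinuousMap.ext fun s => ?_
    show toC x t (stdSimplex.map (f ∘ g) s) =
      toC x t (stdSimplex.map f (stdSimplex.map g s))
    rw [stdSimplex.map_comp_apply]

/-- forget the whiskers -/
noncomputable def pkF : BSS.Hom (pkB y₀) (sxB Y) where
  app _ := singMap PK.sx
  nat _ _ := rfl

theorem pkB_diag : (pkB y₀).diag = pkDiag y₀ := rfl

theorem sxB_diag : (sxB Y).diag = sxDiag Y := rfl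

theorem pkF_diag : (pkF y₀).diag = pkToSx y₀ := rfl

theorem free_surj {X Z : SS} (f : SS.Map X Z) {p : ℕ} (h : Function.Surjective (f.app (p := p))) :
    Function.Surjective ((freeMap R f).app p) := by
  intro x
  induction x using Finsupp.induction_linear with
  | zero => exact ⟨0, map_zero _⟩
  | add x y hx hy =>
    obtain ⟨a, rfl⟩ := hx
    obtain ⟨b, rfl⟩ := hy
    exact ⟨a + b, map_add _ _ _⟩
  | single z r =>
    obtain ⟨w, rfl⟩ := h z
    exact ⟨Finsupp.single w r, freeMap_single f w r⟩

instance (p : ℕ) : ContractibleSpace (Dl p) := by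
  refine (contractible_iff_id_nullhomotopic _).2 ⟨stdSimplex.vertex 0, ⟨⟨⟨fun x =>
    line (stdSimplex.vertex 0) x.1 x.2, continuous_line _⟩, fun t => ?_, fun t => ?_⟩⟩⟩
  · exact line_zero _ _
  · exact line_one _ _

/-- **(W2), diagonal form.** -/
theorem rz0_pkToSx [PathConnectedSpace Y] (n : ℕ) : RZ0 (freeMap R (pkToSx y₀)).cx n := by
  refine ((pkF y₀).rz0_diag_iff (R := R) n).2 ?_
  refine SSMod.rz0_diag_of_surj _ (fun k m => ?_) (fun m n => ?_) n
  · refine free_surj (singMap (PK.sx (ι := Fin (k + 1)) (y₀ := y₀))) (p := m) fun g => ?_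
    have h : ∀ f : C(Dl m, Y), ∃ g : C(Dl m, PY y₀), PY.ev.comp g = f :=
      fun f => PY.exists_lift f
    choose s hs using h
    exact ⟨(wsec s hs).app (p := k) g, rfl⟩
  · exact rz0_sxMap (T := Dl m) (y₀ := y₀) n

end

end Vale.Agent.P263.GB
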