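import Vale.Agent.P263.GB.DCx
import Vale.Agent.P263.GB.Red
import Vale.Agent.P263.GB.PKSing
import Vale.Agent.P263.GB.SingHtp

/-!
# P263, block G2: the double complex of whiskered simplices

* `SSMod.dc` : the double complex of a bisimplicial module, `SSMod.Hom.dc`.
* `cst_tz` : the constant bisimplicial set: `HZ N ⟹ TZ N`.
* `pk_tz` : for `Y` path connected, `H_N(Y) = 0` ⟹ `H_N(Tot (s ↦ C(PK (Fin (s + 1)) y₀))) = 0`.
* `redB`, `redB_tz` : reduced chains.
-/

namespace Vale.Agent.P263.GB

open Vale.Agent.P263.S Vale.Agent.P263.E Vale.Agent.P263.G2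

variable {R : Type} [CommRing R]

/-! ### the double complex of a bisimplicial module -/

namespace SSMod

theorem swap_d (V : SSMod R) (s n : ℕ) (x : (V.obj (s + 1)).obj n) :
    (V.swap.obj n).d s x = ∑ i ∈ Finset.range (s + 2), sn i ((V.map (dl s i)).app n x) :=
  SMod.d_apply (V.swap.obj n) s x

theorem swap_d_comm (V : SSMod R) (s n : ℕ) (x : (V.obj (s + 1)).obj (n + 1)) :
    (V.swap.obj n).d s ((V.obj (s + 1)).d n x) = (V.obj s).d n ((V.swap.obj (n + 1)).d s x) := by
  refine (V.swap_d s n _).trans ?_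
  refine Eq.trans ?_ (congrArg ((V.obj s).d n) (V.swap_d s (n + 1) x)).symm
  rw [map_sum]
  refine Finset.sum_congr rfl fun i _ => ?_
  rw [CosMod.sn_lin]
  exact congrArg (sn i) ((V.map (dl s i)).app_d n x)

/-- the double complex of a bisimplicial module -/
def dc (V : SSMod R) : DC R where
  c s := (V.obj s).cx
  δ s := ⟨fun n => (V.swap.obj n).d s, fun n x => V.swap_d_comm s n x⟩
  δδ s n x := (V.swap.obj n).d_d s x

/-- the map of double complexes -/
def Hom.dc {V W : SSMod R} (F : Hom V W) : DC.Hom V.dc W.dc where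
  f s := (F.app s).cx
  comm s n x := (F.swap.app n).app_d s x

theorem dc_c (V : SSMod R) (s : ℕ) : V.dc.c s = (V.obj s).cx := rfl

theorem dc_row (V : SSMod R) (n : ℕ) : V.dc.row n = (V.swap.obj n).cx := rfl

theorem Hom.dc_f {V W : SSMod R} (F : Hom V W) (s : ℕ) : F.dc.f s = (F.app s).cx := rfl

theorem Hom.dc_row {V W : SSMod R} (F : Hom V W) (n : ℕ) : F.dc.row n = (F.swap.app n).cx := rfl

end SSMod

/-! ### retracts -/

/-- a retract of a double complex with vanishing total homology -/
theorem DC.tz_retract {L D : DC R} (i : DC.Hom L D) (q : DC.Hom D L)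
    (h : ∀ s n x, (q.f s).app n ((i.f s).app n x) = x) {N : ℕ} (hD : D.TZ N) : L.TZ N := by
  intro w hw
  obtain ⟨W, hW⟩ := hD (i.fam w) fun s n hn => by
    rw [i.bd_fam, DC.Hom.fam_apply, hw s n hn, map_zero]
  refine ⟨q.fam W, fun s n hn => ?_⟩
  rw [q.bd_fam, DC.Hom.fam_apply, hW s n hn, DC.Hom.fam_apply, h]

/-! ### the constant bisimplicial set -/

/-- the constant bisimplicial set -/
def cstB (X : SS) : BSS where
  obj _ := X
  map _ := SS.Map.id X
  map_id _ := rfl
  map_comp _ _ _ := rfl

theorem sum_sn {M : Type*} [AddCommGroup M] (k : ℕ) (x : M) :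
    ∑ i ∈ Finset.range k, sn i x = if k % 2 = 1 then x else 0 := by
  induction k with
  | zero => rfl
  | succ k ih =>
    rw [Finset.sum_range_succ, ih]
    rcases Nat.even_or_odd k with hk | hk
    · rw [if_neg (by have := Nat.even_iff.1 hk; omega), if_pos (by have := Nat.even_iff.1 hk; omega),
        zero_add]
      simp [sn, hk]
    · rw [if_pos (Nat.odd_iff.1 hk), if_neg (by have := Nat.odd_iff.1 hk; omega)]
      simp [sn, hk]

theorem cst_δ (X : SS) (s n : ℕ) (x : (free R X).obj n) :
    ((((cstB X).free R).dc.δ s).app n x : (free R X).obj n) = if s % 2 = 1 then x else 0 := by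
  have h2 : ∀ i ∈ Finset.range (s + 2),
      (sn i (show (free R X).obj n from (((cstB X).free R).map (dl s i)).app n x) :
        (free R X).obj n) = sn i x := by
    intro i _
    exact congrArg (sn i) (freeMap_id_app (X := X) x)
  refine (SSMod.swap_d ((cstB X).free R) s n x).trans ((Finset.sum_congr rfl h2).trans ?_)
  rw [sum_sn, Nat.add_mod_right]

/-- the combinatorics of the constant double complex -/
theorem cst_aux (A : Cx R) {N : ℕ} (h : A.HZ N) (w : ℕ → ∀ n, A.C n)
    (hw : ∀ s n, s + n + 1 = N →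
      A.d n (w s (n + 1)) + sn n (if s % 2 = 1 then w (s + 1) n else 0) = 0) :
    ∃ W : ℕ → ∀ n, A.C n, ∀ s n, s + n = N →
      A.d n (W s (n + 1)) + sn n (if s % 2 = 1 then W (s + 1) n else 0) = w s n := by
  have h0 : A.Cyc N (w 0 N) := by
    cases N with
    | zero => trivial
    | succ N =>
      have h1 := hw 0 N (by omega)
      rwa [if_neg (by decide), sn_zero_val, add_zero] at h1
  obtain ⟨y, hy⟩ := h _ h0
  let W : ℕ → ∀ n, A.C n := fun s n => match s with
    | 0 => Function.update (fun _ => 0) (N + 1) y n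
    | s + 1 => if s % 2 = 1 then sn n (w s n) else 0
  refine ⟨W, fun s n hn => ?_⟩
  cases s with
  | zero =>
    obtain rfl : n = N := by omega
    rw [if_neg (by decide), sn_zero_val, add_zero]
    have e : W 0 (n + 1) = y := Function.update_self _ _ _
    rw [e, hy]
  | succ s =>
    rcases Nat.even_or_odd s with hs | hs
    · have hs0 : s % 2 = 0 := Nat.even_iff.1 hs
      have e1 : W (s + 1) (n + 1) = 0 := if_neg (by omega)
      have e2 : W (s + 1 + 1) n = sn n (w (s + 1) n) := if_pos (by omega)
      rw [if_pos (by omega), e1, e2, map_zero, zero_add, DC.sn_invol]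
    · have hs0 : s % 2 = 1 := Nat.odd_iff.1 hs
      have e1 : W (s + 1) (n + 1) = sn (n + 1) (w s (n + 1)) := if_pos hs0
      rw [if_neg (by omega), sn_zero_val, add_zero, e1, DC.d_sn]
      have h1 := hw s n (by omega)
      rw [if_pos hs0] at h1
      rw [eq_neg_of_add_eq_zero_left h1, sn_succ]
      have h3 : sn n (-sn n (w (s + 1) n)) = -(sn n (sn n (w (s + 1) n))) := by
        simp [sn]
      rw [h3, neg_neg, DC.sn_invol]

/-- **The total complex of the constant bisimplicial set.** -/
theorem cst_tz (X : SS) {N : ℕ} (h : (free R X).cx.HZ N) : ((cstB X).free R).dc.TZ N := by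
  -- the entries of the total boundary
  have hb : ∀ (w : ℕ → ∀ n, (free R X).cx.C n) (s n : ℕ),
      (((cstB X).free R).dc.bd w s n : (free R X).cx.C n) =
        (free R X).cx.d n (w s (n + 1)) + sn n (if s % 2 = 1 then w (s + 1) n else 0) :=
    fun w s n => congrArg (fun t : (free R X).cx.C n => (free R X).cx.d n (w s (n + 1)) + sn n t)
      (cst_δ (R := R) X s n (w (s + 1) n))
  intro w hw
  obtain ⟨W, hW⟩ := cst_aux (free R X).cx h w fun s n hn => (hb w s n).symm.trans (hw s n hn)
  exact ⟨W, fun s n hn => (hb W s n).trans (hW s n hn)⟩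

/-! ### whiskered simplices -/

section

variable {Y : Type} [TopologicalSpace Y] (y₀ : Y)

variable (Y) in
/-- the constant simplices -/
noncomputable def cstSxB : BSS.Hom (cstB (sing Y)) (sxB Y) where
  app k := singMap (constSx (Fin (k + 1)) Y)
  nat _ _ := rfl

variable (Y) in
theorem sx_tz {N : ℕ} (h : (free R (sing Y)).cx.HZ N) : ((sxB Y).free R).dc.TZ N :=
  ((cstSxB Y).free R).dc.tz_right_of_cols
    (fun s n _ => rz0_sing (homotopyEquivConst (ι := Fin (s + 1)) Y 0) n) (cst_tz _ h)

/-- **The total complex of whiskered simplices.** -/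
theorem pk_tz [PathConnectedSpace Y] {N : ℕ} (h : (free R (sing Y)).cx.HZ N) :
    ((pkB y₀).free R).dc.TZ N :=
  ((pkF y₀).free R).dc.tz_left_of_rows
    (fun s n _ => rz0_sxMap (T := Dl n) (y₀ := y₀) s) (sx_tz Y h)

end

/-! ### reduced chains -/

/-- the bisimplicial module of reduced chains -/
noncomputable def redB (R : Type) [CommRing R] (X : BSS) : SSMod R where
  obj k := red R (X.obj k)
  map f := redMap R (X.map f)
  map_id x := Subtype.ext ((X.free R).map_id x.1)
  map_comp f g x := Subtype.ext ((X.free R).map_comp f g x.1)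

/-- the inclusion of the reduced chains -/
noncomputable def redBI (R : Type) [CommRing R] (X : BSS) : SSMod.Hom (redB R X) (X.free R) where
  app k := redI R (X.obj k)
  nat _ _ := rfl

/-- the retraction to the reduced chains -/
noncomputable def redBQ (R : Type) [CommRing R] (X : BSS) (b : ∀ k, (X.obj k).obj 0)
    (hb : ∀ {k l : ℕ} (f : Op k l), (X.map f).app (b l) = b k) :
    SSMod.Hom (X.free R) (redB R X) where
  app k := redQ R (b k)
  nat f x := redQ_freeMap (X.map f) _ _ (hb f) x

theorem redB_tz {X : BSS} (b : ∀ k, (X.obj k).obj 0)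
    (hb : ∀ {k l : ℕ} (f : Op k l), (X.map f).app (b l) = b k) {N : ℕ}
    (h : (X.free R).dc.TZ N) : (redB R X).dc.TZ N :=
  DC.tz_retract (redBI R X).dc (redBQ R X b hb).dc (fun s _ x => redQ_redI (b s) x) h

end Vale.Agent.P263.GB
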