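import Vale.Agent.P263.GB.Gam
import Vale.Agent.P263.GB.Low

/-!
# P263, block G2, (PI1): the first homology of `B G (1₊)`

`G : Gam` with `G.Pt`, and a degree `D` on `G (1₊)` (structure `Gam.Deg`: locally constant, additive,
vertices of the same degree are joined by an edge, sums exist).

* `G.mx K α β y` : the simplex of `B G (K₊)` obtained from `y : (G.obj (Fin a × K)).obj b` by
  operators `α` in the circle direction and `β` in the direction of `G`;
* `G.eu u` : the `1`-simplex of `B G (1₊)` given by a vertex `u` of `G (1₊)`;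
* `Deg.span` : every `1`-chain of `B G (1₊)` is a multiple of `eu u` plus a boundary, if `D u = 1`;
* `Deg.coc` : a cocycle with value `D u` on `eu u`; `Deg.eu_ne` : `eu u` is not a boundary.
-/

namespace Vale.Agent.P263.GB

open Vale.Agent.P263.S Vale.Agent.P263.E

variable {R : Type} [CommRing R]

/-! ### 1-chains -/

theorem d_fs_two (Y : SS) (y : Y.obj 2) : (free R Y).d 1 (fs R Y y) =
    fs R Y (Y.map (dl 1 0) y) - fs R Y (Y.map (dl 1 1) y) + fs R Y (Y.map (dl 1 2) y) := by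
  rw [SMod.d_apply]
  simp only [Finset.sum_range_succ, Finset.sum_range_zero, free_map_fs, zero_add]
  simp [sn, sub_eq_add_neg]

namespace Gam

variable (G : Gam) (K : Type) [Finite K]

/-- mixed operators on the diagonal -/
noncomputable def mx {a b p : ℕ} (α : Op p a) (β : Op p b) (y : (G.obj (Fin a × K)).obj b) :
    (G.B.obj K).obj p :=
  (G.map (circK K α)).app ((G.obj (Fin a × K)).map β y)

theorem map_mx {a b p q : ℕ} (θ : Op q p) (α : Op p a) (β : Op p b)
    (y : (G.obj (Fin a × K)).obj b) :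
    (G.B.obj K).map θ (G.mx K α β y) = G.mx K (α.comp θ) (β.comp θ) y := by
  rw [B_map_apply, mx, mx, SS.map_comp, circK_comp, G.map_bind]
  exact congrArg _ ((G.map (circK K α)).nat θ _).symm

/-- a simplex of `B G (K₊)` as a simplex of `G (S¹ ∧ K₊)` -/
def ofB {p : ℕ} (x : (G.B.obj K).obj p) : (G.obj (Fin p × K)).obj p := x

theorem mx_id {p : ℕ} (x : (G.B.obj K).obj p) :
    G.mx K OrderHom.id OrderHom.id (G.ofB K x) = x := by
  rw [mx, SS.map_id, circK_id, G.map_some]
  rfl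

theorem mx_comp_right {a b c p : ℕ} (α : Op p a) (β : Op p b) (γ : Op b c)
    (y : (G.obj (Fin a × K)).obj c) :
    G.mx K α (γ.comp β) y = G.mx K α β ((G.obj (Fin a × K)).map γ y) := by
  rw [mx, mx, SS.map_comp]

variable {K}

/-- a simplex is a base simplex if it comes from the empty set -/
def IsBase {p : ℕ} (x : (G.obj K).obj p) : Prop :=
  ∃ e : (G.obj Empty).obj p, (G.map (fun k : Empty => (k.elim : Option K))).app e = x

variable {G}

theorem IsBase.map {p q : ℕ} {x : (G.obj K).obj q} (h : G.IsBase x) (θ : Op p q) :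
    G.IsBase ((G.obj K).map θ x) := by
  obtain ⟨e, rfl⟩ := h
  exact ⟨(G.obj Empty).map θ e, SS.Map.nat _ _ _⟩

theorem IsBase.push {L : Type} [Finite L] {p : ℕ} {x : (G.obj K).obj p} (h : G.IsBase x)
    (f : K → Option L) : G.IsBase ((G.map f).app x) := by
  obtain ⟨e, rfl⟩ := h
  refine ⟨e, ?_⟩
  rw [← G.map_bind]
  congr 2
  funext k
  exact k.elim

theorem IsBase.unique (hG : G.Pt) {p : ℕ} {x y : (G.obj K).obj p} (hx : G.IsBase x)
    (hy : G.IsBase y) : x = y := by
  obtain ⟨e, rfl⟩ := hx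
  obtain ⟨e', rfl⟩ := hy
  have := hG.sub Empty p
  rw [Subsingleton.elim e e']

theorem exists_isBase (hG : G.Pt) (K : Type) [Finite K] (p : ℕ) :
    ∃ x : (G.obj K).obj p, G.IsBase x := by
  obtain ⟨e⟩ := hG.ne Empty p
  exact ⟨_, e, rfl⟩

/-- dropping all labels -/
theorem isBase_none {L : Type} [Finite L] {p : ℕ} {f : K → Option L} (hf : ∀ k, f k = none)
    (x : (G.obj K).obj p) : G.IsBase ((G.map f).app x) := by
  refine ⟨(G.map (fun _ : K => (none : Option Empty))).app x, ?_⟩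
  rw [← G.map_bind]
  congr 2
  funext k
  rw [hf]
  rfl

/-! ### base simplices of `B G` -/

theorem isBase_mx {a b p : ℕ} {α : Op p a} (hα : ∀ i, circ α i = none) (β : Op p b)
    (y : (G.obj (Fin a × K)).obj b) : G.IsBase (K := Fin p × K) (G.mx K α β y) :=
  isBase_none (fun x => by rw [circK, hα]; rfl) _

theorem isBase_B_map {p q : ℕ} {x : (G.B.obj K).obj q} (h : G.IsBase (K := Fin q × K) x)
    (θ : Op p q) : G.IsBase (K := Fin p × K) ((G.B.obj K).map θ x) :=
  (h.map θ).push (circK K θ)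

/-- the base simplex in degree `1` is a boundary -/
theorem base_bd (hG : G.Pt) {x : (G.B.obj K).obj 1} (hx : G.IsBase (K := Fin 1 × K) x) :
    ∃ w, (free R (G.B.obj K)).d 1 w = fs R (G.B.obj K) x := by
  obtain ⟨y, hy⟩ : ∃ y : (G.B.obj K).obj 2, G.IsBase (K := Fin 2 × K) y :=
    exists_isBase hG (Fin 2 × K) 2
  refine ⟨fs R (G.B.obj K) y, ?_⟩
  have h : ∀ i, (G.B.obj K).map (dl 1 i) y = x := fun i =>
    IsBase.unique hG (K := Fin 1 × K) (isBase_B_map (K := K) hy (dl 1 i)) hx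
  rw [d_fs_two, h, h, h, sub_add_cancel]

/-! ### every 1-simplex is homologous to a vertical degenerate one -/

theorem circ_const {p q : ℕ} {θ : Op p q} (h : ∀ a b, θ a = θ b) (i : Fin q) :
    circ θ i = none := by
  rw [circ_eq_none]
  rcases Nat.lt_or_ge i.1 (θ 0).1 with h1 | h1
  · exact Or.inl h1
  · right
    rw [h (Fin.last p) 0]
    exact h1

theorem sub_vertex_one (hG : G.Pt) (x : (G.obj (Fin 1 × K)).obj 1) :
    ∃ w, (free R (G.B.obj K)).d 1 w =
      fs R (G.B.obj K) (G.mx K (OrderHom.id : Op 1 1) (OrderHom.id : Op 1 1) x) -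
        fs R (G.B.obj K) (G.mx K (OrderHom.id : Op 1 1) (c1 1) x) := by
  have h0 : (sg 1 0).comp (dl 1 0) = (OrderHom.id : Op 1 1) := by
    ext a; fin_cases a <;> rfl
  have h1 : (sg 1 0).comp (dl 1 1) = (OrderHom.id : Op 1 1) := by
    ext a; fin_cases a <;> rfl
  have h2 : (sg 1 0).comp (dl 1 2) = c0 1 := by
    ext a; fin_cases a <;> rfl
  have h3 : (sg 1 1).comp (dl 1 0) = c1 1 := by
    ext a; fin_cases a <;> rfl
  have h4 : (sg 1 1).comp (dl 1 1) = (OrderHom.id : Op 1 1) := by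
    ext a; fin_cases a <;> rfl
  have h5 : (sg 1 1).comp (dl 1 2) = (OrderHom.id : Op 1 1) := by
    ext a; fin_cases a <;> rfl
  have hb : G.IsBase (K := Fin 1 × K) (G.mx K (c0 1) (OrderHom.id : Op 1 1) x) :=
    isBase_mx (circ_const fun a b => by rw [c0_val, c0_val]) _ _
  obtain ⟨w, hw⟩ := base_bd (R := R) hG hb
  refine ⟨-(fs R (G.B.obj K) (G.mx K (sg 1 0) (sg 1 1) x)) + w, ?_⟩
  rw [map_add, map_neg, hw, d_fs_two, map_mx, map_mx, map_mx, h0, h1, h2, h3, h4, h5]
  abel

theorem sub_vertex_zero (hG : G.Pt) (x : (G.obj (Fin 1 × K)).obj 1) :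
    ∃ w, (free R (G.B.obj K)).d 1 w =
      fs R (G.B.obj K) (G.mx K (OrderHom.id : Op 1 1) (OrderHom.id : Op 1 1) x) -
        fs R (G.B.obj K) (G.mx K (OrderHom.id : Op 1 1) (c0 1) x) := by
  have h0 : (sg 1 0).comp (dl 1 0) = (OrderHom.id : Op 1 1) := by
    ext a; fin_cases a <;> rfl
  have h1 : (sg 1 0).comp (dl 1 1) = (OrderHom.id : Op 1 1) := by
    ext a; fin_cases a <;> rfl
  have h2 : (sg 1 0).comp (dl 1 2) = c0 1 := by
    ext a; fin_cases a <;> rfl
  have h3 : (sg 1 1).comp (dl 1 0) = c1 1 := by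
    ext a; fin_cases a <;> rfl
  have h4 : (sg 1 1).comp (dl 1 1) = (OrderHom.id : Op 1 1) := by
    ext a; fin_cases a <;> rfl
  have h5 : (sg 1 1).comp (dl 1 2) = (OrderHom.id : Op 1 1) := by
    ext a; fin_cases a <;> rfl
  have hb : G.IsBase (K := Fin 1 × K) (G.mx K (c1 1) (OrderHom.id : Op 1 1) x) :=
    isBase_mx (circ_const fun a b => by rw [c1_val, c1_val]) _ _
  obtain ⟨w, hw⟩ := base_bd (R := R) hG hb
  refine ⟨-(fs R (G.B.obj K) (G.mx K (sg 1 1) (sg 1 0) x)) + w, ?_⟩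
  rw [map_add, map_neg, hw, d_fs_two, map_mx, map_mx, map_mx, h0, h1, h2, h3, h4, h5]
  abel

/-! ### vertices of `G (1₊)` as `1`-simplices of `B G (1₊)` -/

/-- the pointed bijection from one point to the labels of the `1`-simplex of the circle -/
def lab1 (_ : Unit) : Option (Fin 1 × Unit) := some (0, ())

/-- the fold map to one point -/
def foldL (K : Type) (_ : K) : Option Unit := some ()

/-- the projection to the label `i` of the circle -/
def prL {n : ℕ} (i : Fin n) (k : Fin n × Unit) : Option Unit := if k.1 = i then some () else none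

theorem lab1_fold : (fun k => (foldL (Fin 1 × Unit) k).bind lab1) = some := by
  funext k
  obtain ⟨i, u⟩ := k
  rw [Subsingleton.elim i 0]
  rfl

theorem fold_lab1 : (fun k => (lab1 k).bind (foldL (Fin 1 × Unit))) = some := rfl

variable (G)

/-- a simplex of `G (1₊)` as a simplex of `G (S¹₁)` -/
noncomputable def l1 {p : ℕ} (x : (G.obj Unit).obj p) : (G.obj (Fin 1 × Unit)).obj p :=
  (G.map lab1).app x

/-- a simplex of `G (S¹₁)` as a simplex of `G (1₊)` -/
noncomputable def f1 {p : ℕ} (x : (G.obj (Fin 1 × Unit)).obj p) : (G.obj Unit).obj p :=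
  (G.map (foldL (Fin 1 × Unit))).app x

theorem f1_l1 {p : ℕ} (x : (G.obj Unit).obj p) : G.f1 (G.l1 x) = x := by
  rw [f1, l1, ← G.map_bind, fold_lab1, G.map_some]

theorem l1_f1 {p : ℕ} (x : (G.obj (Fin 1 × Unit)).obj p) : G.l1 (G.f1 x) = x := by
  rw [f1, l1, ← G.map_bind, lab1_fold, G.map_some]

theorem map_l1 {p q : ℕ} (θ : Op p q) (x : (G.obj Unit).obj q) :
    (G.obj (Fin 1 × Unit)).map θ (G.l1 x) = G.l1 ((G.obj Unit).map θ x) :=
  ((G.map lab1).nat θ x).symm

theorem map_f1 {p q : ℕ} (θ : Op p q) (x : (G.obj (Fin 1 × Unit)).obj q) :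
    (G.obj Unit).map θ (G.f1 x) = G.f1 ((G.obj (Fin 1 × Unit)).map θ x) :=
  ((G.map (foldL _)).nat θ x).symm

/-- the `1`-simplex of `B G (1₊)` given by a vertex of `G (1₊)` -/
noncomputable def eu (u : (G.obj Unit).obj 0) : (G.B.obj Unit).obj 1 :=
  G.mx Unit (OrderHom.id : Op 1 1) (cst 1 0) (G.l1 u)

/-- a `1`-simplex of `G (1₊)` as a `1`-simplex of `B G (1₊)` -/
noncomputable def ew (w : (G.obj Unit).obj 1) : (G.B.obj Unit).obj 1 :=
  G.mx Unit (OrderHom.id : Op 1 1) (OrderHom.id : Op 1 1) (G.l1 w)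

theorem exists_ew (x : (G.B.obj Unit).obj 1) : ∃ w, G.ew w = x :=
  ⟨G.f1 (G.ofB Unit x), by rw [ew, l1_f1, mx_id]⟩

variable {G}

theorem ew_sub_one (hG : G.Pt) (w : (G.obj Unit).obj 1) :
    ∃ v, (free R (G.B.obj Unit)).d 1 v = fs R (G.B.obj Unit) (G.ew w) -
      fs R (G.B.obj Unit) (G.eu ((G.obj Unit).map (inc 0) w)) := by
  obtain ⟨v, hv⟩ := sub_vertex_one (R := R) hG (G.l1 w)
  refine ⟨v, hv.trans ?_⟩
  rw [c1_eq, mx_comp_right, map_l1]
  rfl

theorem ew_sub_zero (hG : G.Pt) (w : (G.obj Unit).obj 1) :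
    ∃ v, (free R (G.B.obj Unit)).d 1 v = fs R (G.B.obj Unit) (G.ew w) -
      fs R (G.B.obj Unit) (G.eu ((G.obj Unit).map (cst 0 1) w)) := by
  obtain ⟨v, hv⟩ := sub_vertex_zero (R := R) hG (G.l1 w)
  refine ⟨v, hv.trans ?_⟩
  rw [c0_eq, mx_comp_right, map_l1]
  rfl

/-- joined vertices give homologous `1`-simplices -/
theorem eu_sub_of_edge (hG : G.Pt) (w : (G.obj Unit).obj 1) :
    ∃ v, (free R (G.B.obj Unit)).d 1 v =
      fs R (G.B.obj Unit) (G.eu ((G.obj Unit).map (cst 0 1) w)) -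
      fs R (G.B.obj Unit) (G.eu ((G.obj Unit).map (inc 0) w)) := by
  obtain ⟨v, hv⟩ := ew_sub_one (R := R) hG w
  obtain ⟨v', hv'⟩ := ew_sub_zero (R := R) hG w
  exact ⟨v - v', by rw [map_sub, hv, hv']; abel⟩

/-- the faces of the `2`-simplex of a vertex of `G (S¹₂)` -/
theorem circK_dl_zero : circK Unit (dl 1 0) = fun k => (prL (1 : Fin 2) k).bind lab1 := by
  funext k
  obtain ⟨i, u⟩ := k
  fin_cases i
  · have h : circ (dl 1 0) (0 : Fin 2) = none := by
      rw [circ_eq_none]; left; decide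
    show (circ (dl 1 0) (0 : Fin 2)).map _ = _
    rw [h]; rfl
  · have h : circ (dl 1 0) (1 : Fin 2) = some 0 := by
      rw [circ_eq_some]; decide
    show (circ (dl 1 0) (1 : Fin 2)).map _ = _
    rw [h]; rfl

theorem circK_dl_one : circK Unit (dl 1 1) = fun k => (foldL (Fin 2 × Unit) k).bind lab1 := by
  funext k
  obtain ⟨i, u⟩ := k
  fin_cases i
  · have h : circ (dl 1 1) (0 : Fin 2) = some 0 := by
      rw [circ_eq_some]; decide
    show (circ (dl 1 1) (0 : Fin 2)).map _ = _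
    rw [h]; rfl
  · have h : circ (dl 1 1) (1 : Fin 2) = some 0 := by
      rw [circ_eq_some]; decide
    show (circ (dl 1 1) (1 : Fin 2)).map _ = _
    rw [h]; rfl

theorem circK_dl_two : circK Unit (dl 1 2) = fun k => (prL (0 : Fin 2) k).bind lab1 := by
  funext k
  obtain ⟨i, u⟩ := k
  fin_cases i
  · have h : circ (dl 1 2) (0 : Fin 2) = some 0 := by
      rw [circ_eq_some]; decide
    show (circ (dl 1 2) (0 : Fin 2)).map _ = _
    rw [h]; rfl
  · have h : circ (dl 1 2) (1 : Fin 2) = none := by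
      rw [circ_eq_none]; right; decide
    show (circ (dl 1 2) (1 : Fin 2)).map _ = _
    rw [h]; rfl

theorem mx_push {a : ℕ} {θ : Op 1 a} {f : Fin a × Unit → Option Unit}
    (h : circK Unit θ = fun k => (f k).bind lab1) {b c : ℕ} (β : Op 1 b) (γ : Op b c)
    (y : (G.obj (Fin a × Unit)).obj c) :
    G.mx Unit θ (γ.comp β) y =
      G.mx Unit (OrderHom.id : Op 1 1) β (G.l1 ((G.map f).app ((G.obj _).map γ y))) := by
  rw [mx, mx, h, G.map_bind, circK_id, G.map_some, map_l1, SS.map_comp, SS.Map.nat]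
  rfl

/-- **additivity**: a vertex of `G (S¹₂)` gives a relation -/
theorem eu_add (t : (G.obj (Fin 2 × Unit)).obj 0) :
    ∃ v, (free R (G.B.obj Unit)).d 1 v =
      fs R (G.B.obj Unit) (G.eu ((G.map (prL (0 : Fin 2))).app t)) +
      fs R (G.B.obj Unit) (G.eu ((G.map (prL (1 : Fin 2))).app t)) -
      fs R (G.B.obj Unit) (G.eu ((G.map (foldL (Fin 2 × Unit))).app t)) := by
  refine ⟨fs R (G.B.obj Unit) (G.mx Unit (OrderHom.id : Op 2 2) (cst 2 0) t), ?_⟩
  have e : ∀ i, (OrderHom.id : Op 2 2).comp (dl 1 i) = dl 1 i := fun i => rfl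
  have e' : ∀ i, (cst 2 0).comp (dl 1 i) = (OrderHom.id : Op 0 0).comp (cst 1 0) := fun i => rfl
  rw [d_fs_two, map_mx, map_mx, map_mx, e, e, e, e', e', e', mx_push circK_dl_zero,
    mx_push circK_dl_one, mx_push circK_dl_two, SS.map_id]
  rw [eu, eu, eu]
  abel

/-! ### the degree -/

variable (G)

/-- a degree on `G (1₊)`: locally constant and additive -/
structure Deg where
  /-- the degree -/
  D : ∀ {p : ℕ}, (G.obj Unit).obj p → ℤ
  map : ∀ {p q : ℕ} (θ : Op p q) (x : (G.obj Unit).obj q), D ((G.obj Unit).map θ x) = D x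
  add : ∀ {p : ℕ} (x : (G.obj (Fin 2 × Unit)).obj p),
    D ((G.map (foldL (Fin 2 × Unit))).app x) =
      D ((G.map (prL (0 : Fin 2))).app x) + D ((G.map (prL (1 : Fin 2))).app x)

variable {G}

/-- vertices of the same degree are joined by an edge, sums exist -/
structure Deg.Conn (δ : G.Deg) : Prop where
  edge : ∀ x y : (G.obj Unit).obj 0, δ.D x = δ.D y → ∃ w : (G.obj Unit).obj 1,
    (G.obj Unit).map (cst 0 1) w = x ∧ (G.obj Unit).map (inc 0) w = y
  sum : ∀ x y : (G.obj Unit).obj 0, ∃ t : (G.obj (Fin 2 × Unit)).obj 0,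
    δ.D ((G.map (prL (0 : Fin 2))).app t) = δ.D x ∧
      δ.D ((G.map (prL (1 : Fin 2))).app t) = δ.D y

namespace Deg

variable (δ : G.Deg)

/-- the degree of a base simplex is `0` -/
theorem base (hG : G.Pt) {p : ℕ} {x : (G.obj Unit).obj p} (hx : G.IsBase x) : δ.D x = 0 := by
  obtain ⟨y, hy⟩ := exists_isBase hG (Fin 2 × Unit) p
  have h := δ.add y
  rw [IsBase.unique hG (hy.push _) hx, IsBase.unique hG (hy.push _) hx,
    IsBase.unique hG (hy.push _) hx] at h
  omega

variable (R G)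

/-- `1`-chains of `B G (1₊)` modulo boundaries -/
abbrev Q1 : Type :=
  (free R (G.B.obj Unit)).obj 1 ⧸ LinearMap.range ((free R (G.B.obj Unit)).d 1)

/-- the class of a `1`-simplex -/
noncomputable def qs (x : (G.B.obj Unit).obj 1) : Q1 R G :=
  Submodule.Quotient.mk (fs R (G.B.obj Unit) x)

variable {R G}

theorem qs_eq_of {x y : (G.B.obj Unit).obj 1} (h : ∃ v, (free R (G.B.obj Unit)).d 1 v =
    fs R (G.B.obj Unit) x - fs R (G.B.obj Unit) y) : qs R G x = qs R G y :=
  (Submodule.Quotient.eq _).2 h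

theorem qs_base (hG : G.Pt) {x : (G.B.obj Unit).obj 1} (hx : G.IsBase (K := Fin 1 × Unit) x) :
    qs R G x = 0 := by
  obtain ⟨v, hv⟩ := base_bd (R := R) (K := Unit) hG hx
  exact (Submodule.Quotient.mk_eq_zero _).2 ⟨v, hv⟩

theorem isBase_eu {u : (G.obj Unit).obj 0} (hu : G.IsBase u) :
    G.IsBase (K := Fin 1 × Unit) (G.eu u) :=
  ((hu.push lab1).map _).push _

theorem qs_add (t : (G.obj (Fin 2 × Unit)).obj 0) :
    qs R G (G.eu ((G.map (foldL (Fin 2 × Unit))).app t)) =
      qs R G (G.eu ((G.map (prL (0 : Fin 2))).app t)) +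
        qs R G (G.eu ((G.map (prL (1 : Fin 2))).app t)) := by
  obtain ⟨v, hv⟩ := eu_add (R := R) t
  refine ((Submodule.Quotient.eq _).2 ?_).symm
  exact ⟨v, hv⟩

variable {δ}

theorem Conn.qs_eq (h : δ.Conn) (hG : G.Pt) {x y : (G.obj Unit).obj 0} (hxy : δ.D x = δ.D y) :
    qs R G (G.eu x) = qs R G (G.eu y) := by
  obtain ⟨w, rfl, rfl⟩ := h.edge x y hxy
  exact qs_eq_of (eu_sub_of_edge hG w)

theorem Conn.qs_zero (h : δ.Conn) (hG : G.Pt) {x : (G.obj Unit).obj 0} (hx : δ.D x = 0) :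
    qs R G (G.eu x) = 0 := by
  obtain ⟨b, hb⟩ := exists_isBase hG Unit 0
  rw [h.qs_eq hG (hx.trans (δ.base hG hb).symm), qs_base hG (isBase_eu hb)]

/-- natural degrees -/
theorem Conn.nat_aux (h : δ.Conn) (hG : G.Pt) {u : (G.obj Unit).obj 0} (hu : δ.D u = 1) (n : ℕ) :
    ∃ x : (G.obj Unit).obj 0, δ.D x = n ∧ qs R G (G.eu x) = (n : ℤ) • qs R G (G.eu u) := by
  induction n with
  | zero =>
    obtain ⟨b, hb⟩ := exists_isBase hG Unit 0
    refine ⟨b, by rw [δ.base hG hb]; rfl, ?_⟩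
    rw [qs_base hG (isBase_eu hb)]
    simp
  | succ n ih =>
    obtain ⟨x, hx, hxq⟩ := ih
    obtain ⟨t, h0, h1⟩ := h.sum x u
    refine ⟨(G.map (foldL (Fin 2 × Unit))).app t, ?_, ?_⟩
    · rw [δ.add, h0, h1, hx, hu]; push_cast; ring
    · rw [qs_add, h.qs_eq hG h0, h.qs_eq hG h1, hxq]
      push_cast
      rw [add_smul, one_smul]

/-- **the class of a vertex is its degree times the class of a vertex of degree `1`** -/
theorem Conn.qs_eu (h : δ.Conn) (hG : G.Pt) {u : (G.obj Unit).obj 0} (hu : δ.D u = 1)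
    (q : (G.obj Unit).obj 0) : qs R G (G.eu q) = δ.D q • qs R G (G.eu u) := by
  obtain ⟨n, hn | hn⟩ := (δ.D q).eq_nat_or_neg
  · obtain ⟨x, hx, hxq⟩ := h.nat_aux (R := R) hG hu n
    rw [h.qs_eq hG (hn.trans hx.symm), hxq, hn]
  · obtain ⟨x, hx, hxq⟩ := h.nat_aux (R := R) hG hu n
    obtain ⟨t, h0, h1⟩ := h.sum q x
    have h2 := qs_add (R := R) t
    rw [h.qs_zero hG (by rw [δ.add, h0, h1, hn, hx]; ring), h.qs_eq hG h0, h.qs_eq hG h1,
      hxq] at h2
    rw [hn, neg_smul]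
    exact eq_neg_of_add_eq_zero_left h2.symm

/-- **(PI1) (a)**: every `1`-chain of `B G (1₊)` is a multiple of `eu u` plus a boundary. -/
theorem Conn.span (h : δ.Conn) (hG : G.Pt) {u : (G.obj Unit).obj 0} (hu : δ.D u = 1)
    (z : (free R (G.B.obj Unit)).obj 1) : ∃ (r : R) (v : (free R (G.B.obj Unit)).obj 2),
      z = r • fs R (G.B.obj Unit) (G.eu u) + (free R (G.B.obj Unit)).d 1 v := by
  have key : ∃ r : R, (Submodule.Quotient.mk z : Q1 R G) = r • qs R G (G.eu u) := by
    have hind : ∀ z : (G.B.obj Unit).obj 1 →₀ R, ∃ r : R,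
        (Submodule.Quotient.mk (show (free R (G.B.obj Unit)).obj 1 from z) : Q1 R G) =
          r • qs R G (G.eu u) := by
      intro z
      induction z using Finsupp.induction_linear with
      | zero => exact ⟨0, by rw [zero_smul]; exact Submodule.Quotient.mk_zero _⟩
      | add x y hx hy =>
        obtain ⟨r, hr⟩ := hx
        obtain ⟨s, hs⟩ := hy
        refine ⟨r + s, ?_⟩
        rw [add_smul, ← hr, ← hs]
        rfl
      | single x a =>
        obtain ⟨w, rfl⟩ := G.exists_ew x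
        refine ⟨a * (δ.D ((G.obj Unit).map (inc 0) w) : ℤ), ?_⟩
        have h1 : (Submodule.Quotient.mk (show (free R (G.B.obj Unit)).obj 1 from
            Finsupp.single (G.ew w) a) : Q1 R G) = a • qs R G (G.ew w) := by
          rw [qs, ← Submodule.Quotient.mk_smul]
          congr 1
          show Finsupp.single (G.ew w) a = a • Finsupp.single (G.ew w) (1 : R)
          rw [Finsupp.smul_single, smul_eq_mul, mul_one]
        rw [h1, qs_eq_of (ew_sub_one hG w), h.qs_eu hG hu, mul_smul, Int.cast_smul_eq_zsmul]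
    exact hind z
  obtain ⟨r, hr⟩ := key
  rw [qs, ← Submodule.Quotient.mk_smul, Submodule.Quotient.eq] at hr
  obtain ⟨v, hv⟩ := hr
  exact ⟨r, v, by rw [hv]; abel⟩

variable (δ) (R)

/-- the cocycle `x ↦ D x` on `B G (1₊)`, with values in `R` -/
noncomputable def coc : (free R (G.B.obj Unit)).obj 1 →ₗ[R] R :=
  Finsupp.lsum R fun x : (G.B.obj Unit).obj 1 =>
    LinearMap.toSpanSingleton R R ((δ.D (G.f1 (G.ofB Unit x)) : ℤ) : R)

theorem coc_fs (x : (G.B.obj Unit).obj 1) :
    δ.coc R (fs R (G.B.obj Unit) x) = ((δ.D (G.f1 (G.ofB Unit x)) : ℤ) : R) := by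
  rw [coc, fs]
  erw [Finsupp.lsum_single]
  rw [LinearMap.toSpanSingleton_apply, one_smul]

theorem D_mx {a : ℕ} {θ : Op 1 a} {f : Fin a × Unit → Option Unit}
    (h : circK Unit θ = fun k => (f k).bind lab1) {b : ℕ} (β : Op 1 b)
    (y : (G.obj (Fin a × Unit)).obj b) :
    δ.D (G.f1 (G.ofB Unit (G.mx Unit θ β y))) = δ.D ((G.map f).app y) := by
  have e : G.ofB Unit (G.mx Unit θ β y) = G.l1 ((G.map f).app ((G.obj _).map β y)) := by
    show (G.map (circK Unit θ)).app _ = _
    rw [h, G.map_bind]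
    rfl
  rw [e, f1_l1, SS.Map.nat, δ.map]

/-- **(PI1) (b)**: `D` is a cocycle on `B G (1₊)`. -/
theorem coc_d (v : (free R (G.B.obj Unit)).obj 2) :
    δ.coc R ((free R (G.B.obj Unit)).d 1 v) = 0 := by
  have hind : ∀ v : (G.B.obj Unit).obj 2 →₀ R,
      δ.coc R ((free R (G.B.obj Unit)).d 1 v) = 0 := by
    intro v
    induction v using Finsupp.induction_linear with
    | zero =>
      have h0 : (free R (G.B.obj Unit)).d 1 (0 : (G.B.obj Unit).obj 2 →₀ R) = 0 :=
        map_zero ((free R (G.B.obj Unit)).d 1)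
      rw [h0, map_zero]
    | add x y hx hy =>
      have h0 : (free R (G.B.obj Unit)).d 1 (x + y : (G.B.obj Unit).obj 2 →₀ R) =
        (free R (G.B.obj Unit)).d 1 x + (free R (G.B.obj Unit)).d 1 y :=
        map_add ((free R (G.B.obj Unit)).d 1) x y
      rw [h0, map_add, hx, hy, add_zero]
    | single y a =>
      have h0 : (free R (G.B.obj Unit)).d 1 (Finsupp.single y a) =
          a • (free R (G.B.obj Unit)).d 1 (fs R (G.B.obj Unit) y) := by
        rw [← map_smul]
        congr 1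
        show Finsupp.single y a = a • Finsupp.single y (1 : R)
        rw [Finsupp.smul_single, smul_eq_mul, mul_one]
      have e : ∀ i, (G.B.obj Unit).map (dl 1 i) y =
          G.mx Unit (dl 1 i) (dl 1 i) (G.ofB Unit y) := by
        intro i
        conv_lhs => rw [← G.mx_id Unit y]
        rw [map_mx]
        rfl
      rw [h0, map_smul, d_fs_two, map_add, map_sub, coc_fs, coc_fs, coc_fs, e, e, e,
        δ.D_mx circK_dl_zero, δ.D_mx circK_dl_one, δ.D_mx circK_dl_two, δ.add]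
      push_cast
      rw [smul_eq_mul]
      ring
  exact hind v

theorem coc_eu (u : (G.obj Unit).obj 0) :
    δ.coc R (fs R (G.B.obj Unit) (G.eu u)) = ((δ.D u : ℤ) : R) := by
  rw [coc_fs, eu]
  have h : circK Unit (OrderHom.id : Op 1 1) = fun k => (foldL (Fin 1 × Unit) k).bind lab1 := by
    rw [lab1_fold, circK_id]
  have e : (cst 1 0 : Op 1 0) = (OrderHom.id : Op 0 0).comp (cst 1 0) := rfl
  rw [δ.D_mx h]
  exact congrArg _ (congrArg δ.D (G.f1_l1 u))

/-- **(PI1) (b)**: `eu u` is not a boundary, if `D u = 1`. -/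
theorem eu_ne [Nontrivial R] {u : (G.obj Unit).obj 0} (hu : δ.D u = 1) :
    ¬ ∃ v, (free R (G.B.obj Unit)).d 1 v = fs R (G.B.obj Unit) (G.eu u) := by
  rintro ⟨v, hv⟩
  have h := δ.coc_d R v
  rw [hv, coc_eu, hu] at h
  simp at h

/-- the coefficient in (a) is determined by the class -/
theorem smul_eu_bd {u : (G.obj Unit).obj 0} (hu : δ.D u = 1) {r : R}
    (h : ∃ v, (free R (G.B.obj Unit)).d 1 v = r • fs R (G.B.obj Unit) (G.eu u)) : r = 0 := by
  obtain ⟨v, hv⟩ := h
  have h := δ.coc_d R v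
  rw [hv, map_smul, coc_eu, hu] at h
  simpa using h

end Deg

end Gam

end Vale.Agent.P263.GB
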