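import Vale.Agent.P263.GB.PiOne
import Vale.Agent.P263.GB.IdG

/-!
# P263, block G2, (PI1) in terms of `Gam.unit`

`u₁ = (G.unit e).B.app Unit : S¹ → B G (1₊)`, `S¹ = Gam.Id.B.obj Unit`:

* `unit_B_s1` : the image of the fundamental simplex is `G.eu e`;
* `Deg.Conn.unit_rz0` : `RZ0` of `u₁` in degrees `0`, `1`, if `D e = 1`;
* `Deg.Conn.unit_span`, `Deg.unit_inj`.
-/

namespace Vale.Agent.P263.GB

open Vale.Agent.P263.S Vale.Agent.P263.E

namespace Gam

variable {R : Type} [CommRing R] {G : Gam}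

/-- the fundamental simplex of the circle -/
def s1 : (Gam.Id.B.obj Unit).obj 1 := (some ((0 : Fin 1), ()) : Option (Fin 1 × Unit))

theorem unit_B_s1 (e : (G.obj Unit).obj 0) : ((G.unit e).B.app Unit).app s1 = G.eu e := by
  have h : ((G.unit e).B.app Unit).app s1 =
      (G.map (fun _ : Unit => some ((0 : Fin 1), ()))).app (dg (G.obj Unit) 1 e) := rfl
  rw [h, eu, mx, circK_id, G.map_some, map_l1]
  rfl

theorem unit_fs (e : (G.obj Unit).obj 0) :
    (freeMap R ((G.unit e).B.app Unit)).app 1 (fs R (Gam.Id.B.obj Unit) s1) =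
      fs R (G.B.obj Unit) (G.eu e) := by
  rw [fs, freeMap_single, unit_B_s1]
  rfl

/-- boundaries of `1`-chains of `B G (1₊)` vanish -/
theorem B_d_zero (hG : G.Pt) (z : (free R (G.B.obj Unit)).obj 1) :
    (free R (G.B.obj Unit)).d 0 z = 0 := by
  have hs := hG.B_zero_sub Unit
  rw [d_zero_eq]
  have h : ∀ z : (G.B.obj Unit).obj 1 →₀ R,
      (free R (G.B.obj Unit)).map (inc 0) z - (free R (G.B.obj Unit)).map (cst 0 1) z = 0 := by
    intro z
    induction z using Finsupp.induction_linear with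
    | zero =>
      have h0 : ∀ f : Op 0 1, (free R (G.B.obj Unit)).map f (0 : (G.B.obj Unit).obj 1 →₀ R) = 0 :=
        fun f => map_zero ((free R (G.B.obj Unit)).map f)
      rw [h0, h0, sub_zero]
    | add x y hx hy =>
      have h0 : ∀ f : Op 0 1, (free R (G.B.obj Unit)).map f (x + y : (G.B.obj Unit).obj 1 →₀ R) =
          (free R (G.B.obj Unit)).map f x + (free R (G.B.obj Unit)).map f y :=
        fun f => map_add ((free R (G.B.obj Unit)).map f) x y
      rw [h0, h0, add_sub_add_comm, hx, hy, add_zero]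
    | single x a =>
      rw [free_map_single, free_map_single,
        Subsingleton.elim ((G.B.obj Unit).map (inc 0) x) ((G.B.obj Unit).map (cst 0 1) x)]
      exact sub_self (G := (G.B.obj Unit).obj 0 →₀ R) _
  exact h z

/-- the circle has a single vertex, and `0`-chains of the circle inject -/
theorem unit_app_zero_inj (e : (G.obj Unit).obj 0)
    (a : (free R (Gam.Id.B.obj Unit)).obj 0)
    (h : (freeMap R ((G.unit e).B.app Unit)).app 0 a = 0) : a = 0 := by
  have hs := Gam.Id_pt.B_zero_sub Unit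
  have hinj : Function.Injective (((G.unit e).B.app Unit).app (p := 0)) := fun x y _ =>
    Subsingleton.elim x y
  have := Finsupp.mapDomain_injective (M := R) hinj
  have h2 : Finsupp.mapDomain (((G.unit e).B.app Unit).app (p := 0)) a =
    Finsupp.mapDomain (((G.unit e).B.app Unit).app (p := 0)) 0 := by
    rw [Finsupp.mapDomain_zero]; exact h
  exact this h2

namespace Deg

variable {δ : G.Deg}

/-- every `1`-chain is homologous to the image of a `1`-cycle of the circle -/
theorem Conn.unit_span (h : δ.Conn) (hG : G.Pt) {e : (G.obj Unit).obj 0} (he : δ.D e = 1)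
    (z : (free R (G.B.obj Unit)).obj 1) :
    ∃ (a : (free R (Gam.Id.B.obj Unit)).obj 1) (v : (free R (G.B.obj Unit)).obj 2),
      (free R (Gam.Id.B.obj Unit)).d 0 a = 0 ∧
      (free R (G.B.obj Unit)).d 1 v + (freeMap R ((G.unit e).B.app Unit)).app 1 a = z := by
  obtain ⟨r, v, hv⟩ := h.span hG he z
  refine ⟨r • fs R (Gam.Id.B.obj Unit) s1, v, B_d_zero Gam.Id_pt _, ?_⟩
  rw [map_smul, unit_fs, hv, add_comm]

/-- **`RZ0` of `u₁ : S¹ → B G (1₊)` in degrees `≤ 1`.** -/
theorem Conn.unit_rz0 (h : δ.Conn) (hG : G.Pt) {e : (G.obj Unit).obj 0} (he : δ.D e = 1)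
    (t : ℕ) (ht : t ≤ 1) : RZ0 (freeMap R ((G.unit e).B.app Unit)).cx t := by
  interval_cases t
  · rw [rz0_zero]
    intro b
    have hs := hG.B_zero_sub Unit
    obtain ⟨x0⟩ := Gam.Id_pt.B_zero_ne Unit
    have hb : ∀ b : (G.B.obj Unit).obj 0 →₀ R,
        b = Finsupp.single (((G.unit e).B.app Unit).app x0)
          (b (((G.unit e).B.app Unit).app x0)) := by
      intro b
      ext y
      rw [Subsingleton.elim y (((G.unit e).B.app Unit).app x0), Finsupp.single_eq_same]
    refine ⟨0, (Finsupp.single x0 ((show (G.B.obj Unit).obj 0 →₀ R from b)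
      (((G.unit e).B.app Unit).app x0)) : (Gam.Id.B.obj Unit).obj 0 →₀ R), ?_⟩
    have h1 : (free R (G.B.obj Unit)).cx.d 0 0 = 0 := map_zero _
    rw [h1, zero_add]
    refine Eq.trans ?_ (hb b).symm
    exact freeMap_single _ _ _
  · rw [rz0_succ]
    intro b a _ hba
    have h0 : (free R (G.B.obj Unit)).cx.d 0 b = 0 := B_d_zero hG b
    rw [h0, zero_add] at hba
    obtain ⟨a', v, ha', hv⟩ := h.unit_span (R := R) hG he b
    refine ⟨v, a', hv, ?_⟩
    have ha : a = 0 := unit_app_zero_inj e a hba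
    have h2 : (free R (Gam.Id.B.obj Unit)).cx.d 0 a' = 0 := ha'
    rw [h2, ha, neg_zero]

variable (δ)

/-- **`u₁` is injective on `H₁`**: the image of a multiple of the fundamental cycle is a boundary
only if the multiple is zero. -/
theorem unit_inj {e : (G.obj Unit).obj 0} (he : δ.D e = 1) {r : R}
    (h : ∃ v, (free R (G.B.obj Unit)).d 1 v =
      r • (freeMap R ((G.unit e).B.app Unit)).app 1 (fs R (Gam.Id.B.obj Unit) s1)) : r = 0 := by
  rw [unit_fs] at h
  exact δ.smul_eu_bd R he h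

/-- the cycle `u₁ (s₁)` is not a boundary -/
theorem unit_ne [Nontrivial R] {e : (G.obj Unit).obj 0} (he : δ.D e = 1) :
    ¬ ∃ v, (free R (G.B.obj Unit)).d 1 v =
      (freeMap R ((G.unit e).B.app Unit)).app 1 (fs R (Gam.Id.B.obj Unit) s1) := by
  rw [unit_fs]
  exact δ.eu_ne R he

/-- the first homology of `B G (1₊)` is not zero -/
theorem not_hz_one [Nontrivial R] (hG : G.Pt) {e : (G.obj Unit).obj 0} (he : δ.D e = 1) :
    ¬ (free R (G.B.obj Unit)).cx.HZ 1 := by
  intro h
  obtain ⟨v, hv⟩ := h (fs R (G.B.obj Unit) (G.eu e)) (B_d_zero hG _)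
  exact δ.eu_ne R he ⟨v, hv⟩

end Deg

end Gam

end Vale.Agent.P263.GB
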