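import Vale.Agent.P263.GB.Htp
import Vale.Agent.P263.G2.Chains

/-!
# P263, block G2: the union lemma for relative homology

* `rz0_of_inj_surj` : a chain map which is bijective on homology (elementwise) satisfies `RZ0`.
* `CH R f g` : the maps `f g : X → Y` of simplicial sets agree on cycles up to boundaries (chains
  over `R`); `HtpRel.ch`, `CH.refl/symm/trans/comp/pre`.
* `rz0_of_union` : `U`, `V` increasing unions of `X r`, `Y r`, `F : U → V` a map which restricts
  to `f r : X r → Y r`; if every inclusion `Y r → V` factors up to homology through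
  `g r : Y r → U` and `g r ∘ f r` is homologous to the inclusion `X r → U`, then `RZ0` of `F` in
  all degrees.
* `rz0_of_union_stage` : the same with `g r : Y r → X (r + 1)`.
-/

namespace Vale.Agent.P263.GB

open Vale.Agent.P263.S Vale.Agent.P263.E Vale.Agent.P263.G2

variable {R : Type} [CommRing R]

/-- bijective on homology, elementwise, implies vanishing relative homology -/
theorem Cx.Hom.rz0_of_inj_surj {A B : Cx R} (f : Cx.Hom A B)
    (hs : ∀ n (b : B.C n), B.Cyc n b → ∃ a y, A.Cyc n a ∧ B.d n y + f.app n a = b)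
    (hi : ∀ n (a : A.C n), A.Cyc n a → (∃ y, B.d n y = f.app n a) → ∃ z, A.d n z = a) (n : ℕ) :
    RZ0 f n := by
  cases n with
  | zero =>
    rw [rz0_zero]
    intro b
    obtain ⟨a, y, _, h⟩ := hs 0 b trivial
    exact ⟨y, a, h⟩
  | succ n =>
    rw [rz0_succ]
    intro b a ha hba
    obtain ⟨z, hz⟩ := hi n a ha ⟨-b, by rw [map_neg]; exact (eq_neg_of_add_eq_zero_right hba).symm⟩
    have h2 : B.Cyc (n + 1) (b + f.app (n + 1) z) := by
      rw [Cx.cyc_succ, map_add, ← f.comm, hz]
      exact hba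
    obtain ⟨c, w, hc, hw⟩ := hs (n + 1) _ h2
    refine ⟨w, c - z, ?_, ?_⟩
    · rw [map_sub, ← add_sub_assoc, hw, add_sub_cancel_right]
    · rw [map_sub, hz, (show A.d n c = 0 from hc), zero_sub, neg_neg]

/-- conversely, vanishing relative homology in degree `n` gives surjectivity on `H_n` -/
theorem Cx.Hom.surj_of_rz0 {A B : Cx R} {f : Cx.Hom A B} {n : ℕ} (h : RZ0 f n) (b : B.C n)
    (hb : B.Cyc n b) : ∃ a y, A.Cyc n a ∧ B.d n y + f.app n a = b := by
  cases n with
  | zero =>
    rw [rz0_zero] at h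
    obtain ⟨y, a, h'⟩ := h b
    exact ⟨a, y, trivial, h'⟩
  | succ n =>
    rw [rz0_succ] at h
    obtain ⟨y, a, h', ha⟩ := h b 0 (A.cyc_d n 0 |> fun h => by rwa [map_zero] at h)
      (by rw [map_zero, add_zero]; exact hb)
    exact ⟨a, y, neg_eq_zero.1 ha, h'⟩

/-- vanishing relative homology in degree `n + 1` gives injectivity on `H_n` -/
theorem Cx.Hom.inj_of_rz0 {A B : Cx R} {f : Cx.Hom A B} {n : ℕ} (h : RZ0 f (n + 1)) (a : A.C n)
    (ha : A.Cyc n a) (hf : ∃ y, B.d n y = f.app n a) : ∃ z, A.d n z = a := by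
  rw [rz0_succ] at h
  obtain ⟨y, hy⟩ := hf
  obtain ⟨_, z, _, hz⟩ := h (-y) a ha (by rw [map_neg, hy, neg_add_cancel])
  exact ⟨-z, by rw [map_neg]; exact hz⟩

/-! ### Maps that agree on homology -/

/-- `f` and `g` agree on cycles up to boundaries -/
def CH (R : Type) [CommRing R] {X Y : SS} (f g : SS.Map X Y) : Prop :=
  ∀ (n : ℕ) (x : (free R X).obj n), (free R X).cx.Cyc n x →
    ∃ y : (free R Y).obj (n + 1), (free R Y).d n y = (freeMap R f).app n x - (freeMap R g).app n x

theorem HtpRel.ch {X Y : SS} {f g : SS.Map X Y} (h : HtpRel f g) : CH R f g :=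
  fun _ _ hx => h.exists_d hx

theorem CH.refl {X Y : SS} (f : SS.Map X Y) : CH R f f := fun n x _ =>
  ⟨0, by rw [map_zero, sub_self]⟩

theorem CH.of_eq {X Y : SS} {f g : SS.Map X Y} (h : f = g) : CH R f g := h ▸ CH.refl f

theorem CH.symm {X Y : SS} {f g : SS.Map X Y} (h : CH R f g) : CH R g f := fun n x hx => by
  obtain ⟨y, hy⟩ := h n x hx
  exact ⟨-y, by rw [map_neg, hy, neg_sub]⟩

theorem CH.trans {X Y : SS} {f g k : SS.Map X Y} (h : CH R f g) (h' : CH R g k) : CH R f k :=
  fun n x hx => by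
    obtain ⟨y, hy⟩ := h n x hx
    obtain ⟨z, hz⟩ := h' n x hx
    exact ⟨y + z, by rw [map_add, hy, hz, sub_add_sub_cancel]⟩

theorem CH.comp {X Y Z : SS} (k : SS.Map Y Z) {f g : SS.Map X Y} (h : CH R f g) :
    CH R (k.comp f) (k.comp g) := fun n x hx => by
  obtain ⟨y, hy⟩ := h n x hx
  refine ⟨(freeMap R k).app (n + 1) y, ?_⟩
  rw [← (freeMap R k).app_d, hy, map_sub, freeMap_comp_app, freeMap_comp_app]

theorem CH.pre {X Y Z : SS} {f g : SS.Map Y Z} (h : CH R f g) (k : SS.Map X Y) :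
    CH R (f.comp k) (g.comp k) := fun n x hx => by
  obtain ⟨y, hy⟩ := h n ((freeMap R k).app n x) ((freeMap R k).cx.cyc hx)
  exact ⟨y, by rw [hy, freeMap_comp_app, freeMap_comp_app]⟩

/-- the cycles of the two carriers agree -/
theorem cyc_iff_isCyc {X : SS} {n : ℕ} {x : (free R X).obj n} :
    (free R X).cx.Cyc n x ↔ IsCyc (k := R) (X := X) n x := by
  cases n with
  | zero => exact Iff.rfl
  | succ n => exact Iff.rfl

/-- an injective map reflects cycles -/
theorem cyc_of_inj {X Y : SS} {f : SS.Map X Y} (hf : f.Inj) {n : ℕ} {x : (free R X).obj n}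
    (h : (free R Y).cx.Cyc n ((freeMap R f).app n x)) : (free R X).cx.Cyc n x :=
  cyc_iff_isCyc.2 (IsCyc.of_push hf (cyc_iff_isCyc.1 h))

/-- an injective map is injective on chains -/
theorem freeMap_injective {X Y : SS} {f : SS.Map X Y} (hf : f.Inj) (n : ℕ) :
    Function.Injective ((freeMap R f).app n) :=
  push_injective (k := R) hf n

/-! ### Increasing unions -/

/-- `U` is the increasing union of the `X r` -/
structure IsUnion (U : SS) (X : ℕ → SS) where
  /-- the stage maps -/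
  s : ∀ r, SS.Map (X r) (X (r + 1))
  /-- the inclusions -/
  i : ∀ r, SS.Map (X r) U
  comp : ∀ r, (i (r + 1)).comp (s r) = i r
  inj : ∀ r, (i r).Inj
  surj : ∀ (p : ℕ) (u : U.obj p), ∃ r x, (i r).app x = u

namespace IsUnion

variable {U V : SS} {X Y : ℕ → SS}

/-- every chain comes from a large stage -/
theorem exists_stage (hU : IsUnion U X) {p : ℕ} (z : (free R U).obj p) (N : ℕ) :
    ∃ r, N ≤ r ∧ ∃ y : (free R (X r)).obj p, (freeMap R (hU.i r)).app p y = z :=
  G2.exists_stage (k := R) hU.s hU.i hU.comp (hU.surj p) z N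

/-- **Union lemma.** -/
theorem rz0 (hU : IsUnion U X) (hV : IsUnion V Y) (F : SS.Map U V)
    (f : ∀ r, SS.Map (X r) (Y r)) (hf : ∀ r, F.comp (hU.i r) = (hV.i r).comp (f r))
    (h : ∀ r, ∃ g : SS.Map (Y r) U, CH R (F.comp g) (hV.i r) ∧ CH R (g.comp (f r)) (hU.i r))
    (n : ℕ) : RZ0 (freeMap R F).cx n := by
  refine Cx.Hom.rz0_of_inj_surj (freeMap R F).cx ?_ ?_ n
  · intro n (b : (free R V).obj n) hb
    obtain ⟨r, _, y, hy⟩ := hV.exists_stage b 0
    obtain ⟨g, hg, _⟩ := h r
    have hyc : (free R (Y r)).cx.Cyc n y := by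
      refine cyc_of_inj (hV.inj r) ?_
      rw [hy]; exact hb
    obtain ⟨w, hw⟩ := hg n y hyc
    refine ⟨(freeMap R g).app n y, -w, (freeMap R g).cx.cyc hyc, ?_⟩
    show (free R V).d n (-w) + (freeMap R F).app n ((freeMap R g).app n y) = b
    rw [map_neg, hw, freeMap_comp_app, hy]
    abel
  · intro n (a : (free R U).obj n) ha ⟨(y : (free R V).obj (n + 1)), hy⟩
    replace hy : (free R V).d n y = (freeMap R F).app n a := hy
    obtain ⟨r₁, _, x₁, hx₁⟩ := hU.exists_stage a 0
    obtain ⟨r, hr, y', hy'⟩ := hV.exists_stage y r₁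
    -- move `x₁` up to the stage `r`
    have up : ∀ r' : ℕ, r₁ ≤ r' → ∃ x : (free R (X r')).obj n,
        (freeMap R (hU.i r')).app n x = a := by
      intro r' h'
      induction r', h' using Nat.le_induction with
      | base => exact ⟨x₁, hx₁⟩
      | succ r' _ ih =>
        obtain ⟨x, hx⟩ := ih
        refine ⟨(freeMap R (hU.s r')).app n x, ?_⟩
        rw [← freeMap_comp_app, hU.comp, hx]
    obtain ⟨x, hx⟩ := up r hr
    obtain ⟨g, _, hg⟩ := h r
    have hxc : (free R (X r)).cx.Cyc n x := by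
      refine cyc_of_inj (hU.inj r) ?_
      rw [hx]; exact ha
    have h1 : (free R (Y r)).d n y' = (freeMap R (f r)).app n x := by
      refine freeMap_injective (R := R) (hV.inj r) n ?_
      rw [(freeMap R (hV.i r)).app_d, hy', hy, ← hx, ← freeMap_comp_app, ← freeMap_comp_app, hf]
    obtain ⟨w, hw⟩ := hg n x hxc
    refine ⟨(freeMap R g).app (n + 1) y' - w, ?_⟩
    show (free R U).d n ((freeMap R g).app (n + 1) y' - w) = a
    rw [map_sub, ← (freeMap R g).app_d, h1, hw, freeMap_comp_app, hx]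
    abel

/-- **Union lemma, stagewise form**: homotopy inverses up to the stage maps. -/
theorem rz0_stage (hU : IsUnion U X) (hV : IsUnion V Y) (F : SS.Map U V)
    (f : ∀ r, SS.Map (X r) (Y r)) (hf : ∀ r, F.comp (hU.i r) = (hV.i r).comp (f r))
    (g : ∀ r, SS.Map (Y r) (X (r + 1)))
    (h1 : ∀ r, CH R ((f (r + 1)).comp (g r)) (hV.s r))
    (h2 : ∀ r, CH R ((g r).comp (f r)) (hU.s r)) (n : ℕ) : RZ0 (freeMap R F).cx n := by
  refine rz0 hU hV F f hf (fun r => ⟨(hU.i (r + 1)).comp (g r), ?_, ?_⟩) n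
  · have e := (h1 r).comp (hV.i (r + 1))
    rw [hV.comp] at e
    have e' : F.comp ((hU.i (r + 1)).comp (g r)) =
        (hV.i (r + 1)).comp ((f (r + 1)).comp (g r)) := by
      show (F.comp (hU.i (r + 1))).comp (g r) = ((hV.i (r + 1)).comp (f (r + 1))).comp (g r)
      rw [hf]
    rw [e']; exact e
  · have e := (h2 r).comp (hU.i (r + 1))
    rw [hU.comp] at e
    exact e

end IsUnion

end Vale.Agent.P263.GB
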