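import Vale.Agent.P263.GB.TConn
import Vale.Agent.P263.GB.MixInv
import Vale.Agent.P263.GB.PiOneU
import Vale.Agent.P263.GB.UnionRZ

/-!
# P263, block G2, (PI1) for the functors of `MixG`

* `Gam.HMul` : a product on `G (K₊)`, natural in `K`, with units up to chain-connectedness;
* `Gam.HMul.toDeg` : by the Segal condition, every multiplicative degree is a `Gam.Deg`;
* for `G : MixG`: `G.degQ : G.gamQ.Deg`, `G.degFB : G.gamF.Deg`, `G.degQ_conn`, `G.degFB_conn`,
  `G.unit_rz0_gamQ`, `G.unit_rz0_gamF`, `G.gamQ_not_hz_one`, `G.gamF_not_hz_one`.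
-/

namespace Vale.Agent.P263.GB

open Vale.Agent.P263.S Vale.Agent.P263.E

section crel

variable {R : Type} [CommRing R]

/-- the constant map -/
def cstMx (X : SS) {Y : SS} (y : Y.obj 0) : SS.Map X Y where
  app {p} _ := Y.map (cst p 0) y
  nat {p q} f x := by
    rw [← Y.map_comp]
    rfl

theorem cstMx_app (X : SS) {Y : SS} (y : Y.obj 0) (x : X.obj 0) : (cstMx X y).app x = y := by
  have h : (cst 0 0 : Op 0 0) = OrderHom.id := by
    apply OrderHom.ext
    funext a
    exact Subsingleton.elim (α := Fin 1) _ _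
  show Y.map (cst 0 0) y = y
  rw [h, Y.map_id]

theorem CRel.prod {X Y : SS} {x x' : X.obj 0} {y y' : Y.obj 0} (hx : CRel R X x x')
    (hy : CRel R Y y y') : CRel R (X.prod Y) (x, y) (x', y') := by
  have h1 := hx.map (SS.pair (SS.Map.id X) (cstMx X y))
  have h2 := hy.map (SS.pair (cstMx Y x') (SS.Map.id Y))
  rw [SS.pair_app, SS.pair_app, cstMx_app, cstMx_app] at h1 h2
  exact h1.trans h2

/-- a locally constant function takes the same value on chain-connected vertices -/
theorem CRel.D_eq {X : SS} (D : ∀ {p : ℕ}, X.obj p → ℤ)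
    (hD : ∀ {p q : ℕ} (θ : Op p q) (x : X.obj q), D (X.map θ x) = D x) {x y : X.obj 0}
    (h : CRel ℤ X x y) : D x = D y := by
  obtain ⟨e, he⟩ := h
  let φ : ∀ p : ℕ, (X.obj p →₀ ℤ) →ₗ[ℤ] ℤ := fun p =>
    Finsupp.lsum ℤ fun x : X.obj p => LinearMap.toSpanSingleton ℤ ℤ (D x)
  have h1 : ∀ (p : ℕ) (x : X.obj p) (a : ℤ), φ p (Finsupp.single x a) = a * D x := by
    intro p x a
    show Finsupp.lsum ℤ _ (Finsupp.single x a) = _
    rw [Finsupp.lsum_single, LinearMap.toSpanSingleton_apply, smul_eq_mul]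
  have h2 : ∀ (θ : Op 0 1) (e : X.obj 1 →₀ ℤ), φ 0 ((free ℤ X).map θ e) = φ 1 e := by
    intro θ e
    induction e using Finsupp.induction_linear with
    | zero =>
      have h0 : (free ℤ X).map θ (0 : X.obj 1 →₀ ℤ) = 0 := map_zero ((free ℤ X).map θ)
      rw [h0, map_zero]
      exact (map_zero (φ 1)).symm
    | add a b ha hb =>
      have h0 : (free ℤ X).map θ (a + b : X.obj 1 →₀ ℤ) =
        (free ℤ X).map θ a + (free ℤ X).map θ b := map_add ((free ℤ X).map θ) a b
      rw [h0, map_add]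
      refine (map_add (φ 0) _ _).trans ?_
      rw [ha, hb]
    | single x a =>
      rw [free_map_single]
      refine (h1 0 _ a).trans ?_
      rw [h1, hD]
  have h3 : φ 0 ((free ℤ X).d 0 e) = 0 := by
    rw [SMod.d_zero_apply]
    exact (map_sub (φ 0) _ _).trans (sub_eq_zero.2 ((h2 (dl 0 0) e).trans (h2 (dl 0 1) e).symm))
  rw [he] at h3
  have h4 := (map_sub (φ 0) (fs ℤ X x) (fs ℤ X y)).symm.trans h3
  have h5 : φ 0 (fs ℤ X x) = D x := (h1 0 x 1).trans (one_mul _)
  have h6 : φ 0 (fs ℤ X y) = D y := (h1 0 y 1).trans (one_mul _)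
  exact sub_eq_zero.1 ((congrArg₂ (· - ·) h5 h6).symm.trans h4)

/-- vertices with chain-connected images are chain-connected -/
theorem CRel.of_rz0 {X Y : SS} {f : SS.Map X Y} (h : RZ0 (freeMap R f).cx 1) {x y : X.obj 0}
    (hxy : CRel R Y (f.app x) (f.app y)) : CRel R X x y := by
  obtain ⟨e, he⟩ := hxy
  refine Cx.Hom.inj_of_rz0 h (fs R X x - fs R X y) trivial ⟨e, he.trans ?_⟩
  show _ = (freeMap R f).app 0 (fs R X x - fs R X y)
  rw [map_sub]
  exact (congrArg₂ (· - ·) (freeMap_single f x 1) (freeMap_single f y 1)).symm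

end crel

namespace Gam

/-- a product on the simplicial sets `G (K₊)`, with units up to chain-connectedness -/
structure HMul (G : Gam) where
  /-- the product -/
  mul : ∀ (K : Type) [Finite K], SS.Map ((G.obj K).prod (G.obj K)) (G.obj K)
  /-- the unit -/
  emp : ∀ (K : Type) [Finite K], (G.obj K).obj 0
  isBase : ∀ (K : Type) [Finite K], G.IsBase (emp K)
  map_mul : ∀ {K L : Type} [Finite K] [Finite L] (f : K → Option L) (x y : (G.obj K).obj 0),
    (G.map f).app ((mul K).app (x, y)) = (mul L).app ((G.map f).app x, (G.map f).app y)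
  unR : ∀ x : (G.obj Unit).obj 0, CRel ℤ (G.obj Unit) x ((mul Unit).app (x, emp Unit))
  unL : ∀ x : (G.obj Unit).obj 0, CRel ℤ (G.obj Unit) x ((mul Unit).app (emp Unit, x))

namespace HMul

variable {G : Gam} (μ : G.HMul)

theorem push_emp (hG : G.Pt) {K L : Type} [Finite K] [Finite L] (f : K → Option L) :
    (G.map f).app (μ.emp K) = μ.emp L := IsBase.unique hG ((μ.isBase K).push f) (μ.isBase L)

theorem push_none (hG : G.Pt) {K L : Type} [Finite K] [Finite L] {f : K → Option L}
    (hf : ∀ k, f k = none) (x : (G.obj K).obj 0) : (G.map f).app x = μ.emp L :=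
  IsBase.unique hG (isBase_none hf x) (μ.isBase L)

/-- the inclusion of the label `i` -/
def inL {n : ℕ} (i : Fin n) (_ : Unit) : Option (Fin n × Unit) := some (i, ())

/-- `x` with label `0`, `y` with label `1` -/
def two (x y : (G.obj Unit).obj 0) : (G.obj (Fin 2 × Unit)).obj 0 :=
  (μ.mul (Fin 2 × Unit)).app ((G.map (inL 0)).app x, (G.map (inL 1)).app y)

/-- relabelling after an inclusion, identity on the label -/
theorem map_inL_some {n : ℕ} (i : Fin n) {f : Fin n × Unit → Option Unit}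
    (hf : f (i, ()) = some ()) {p : ℕ} (x : (G.obj Unit).obj p) :
    (G.map f).app ((G.map (inL i)).app x) = x := by
  rw [← G.map_bind]
  have h : (fun k => (inL i k).bind f) = some := by
    funext k
    exact hf
  rw [h, G.map_some]

theorem map_inL_none (hG : G.Pt) {n : ℕ} (i : Fin n) {f : Fin n × Unit → Option Unit}
    (hf : f (i, ()) = none) (x : (G.obj Unit).obj 0) :
    (G.map f).app ((G.map (inL i)).app x) = μ.emp Unit := by
  rw [← G.map_bind]
  exact μ.push_none hG (fun k => hf) x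

theorem fold_two (x y : (G.obj Unit).obj 0) :
    (G.map (foldL (Fin 2 × Unit))).app (μ.two x y) = (μ.mul Unit).app (x, y) := by
  rw [two, μ.map_mul, map_inL_some 0 rfl, map_inL_some 1 rfl]

theorem pr0_two (hG : G.Pt) (x y : (G.obj Unit).obj 0) :
    (G.map (prL (0 : Fin 2))).app (μ.two x y) = (μ.mul Unit).app (x, μ.emp Unit) := by
  rw [two, μ.map_mul, map_inL_some 0 rfl, μ.map_inL_none hG 1 rfl]

theorem pr1_two (hG : G.Pt) (x y : (G.obj Unit).obj 0) :
    (G.map (prL (1 : Fin 2))).app (μ.two x y) = (μ.mul Unit).app (μ.emp Unit, y) := by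
  rw [two, μ.map_mul, map_inL_none μ hG 0 rfl, map_inL_some 1 rfl]

/-- the labels `{0, 1}` as a sum -/
def tw : Fin 2 × Unit ≃ Unit ⊕ Unit where
  toFun k := if k.1 = 0 then Sum.inl () else Sum.inr ()
  invFun s := Sum.elim (fun _ => (0, ())) (fun _ => (1, ())) s
  left_inv k := by
    obtain ⟨i, u⟩ := k
    fin_cases i <;> rfl
  right_inv s := by
    rcases s with u | u <;> rfl

/-- **splitting**: a vertex with two labels is chain-connected to the product of its parts -/
theorem crel_two (hG : G.Pt) (hS : G.SegalH ℤ) (t : (G.obj (Fin 2 × Unit)).obj 0) :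
    CRel ℤ (G.obj (Fin 2 × Unit)) t
      (μ.two ((G.map (prL (0 : Fin 2))).app t) ((G.map (prL (1 : Fin 2))).app t)) := by
  have key : ∀ s : (G.obj (Fin 2 × Unit)).obj 0,
      (G.seg Unit Unit).app ((G.map (fun k => some (tw k))).app s) =
        ((G.map (prL (0 : Fin 2))).app s, (G.map (prL (1 : Fin 2))).app s) := by
    intro s
    refine Prod.ext ?_ ?_
    · refine (G.map_bind _ _ s).symm.trans ?_
      congr 2
      funext k
      obtain ⟨i, u⟩ := k
      fin_cases i <;> rfl
    · refine (G.map_bind _ _ s).symm.trans ?_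
      congr 2
      funext k
      obtain ⟨i, u⟩ := k
      fin_cases i <;> rfl
  have h1 := CRel.prod (μ.unR ((G.map (prL (0 : Fin 2))).app t))
    (μ.unL ((G.map (prL (1 : Fin 2))).app t))
  rw [← μ.pr0_two hG _ ((G.map (prL (1 : Fin 2))).app t),
    ← μ.pr1_two hG ((G.map (prL (0 : Fin 2))).app t), ← key, ← key] at h1
  have h2 := (CRel.of_rz0 (hS Unit Unit 1) h1).map (G.map (fun s => some (tw.symm s)))
  have h3 : ∀ s : (G.obj (Fin 2 × Unit)).obj 0,
      (G.map (fun s => some (tw.symm s))).app ((G.map (fun k => some (tw k))).app s) = s := by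
    intro s
    refine (G.map_bind _ _ s).symm.trans ?_
    have h : (fun k => (some (tw k)).bind fun s => some (tw.symm s)) = some := by
      funext k
      show some (tw.symm (tw k)) = some k
      rw [tw.symm_apply_apply]
    rw [h, G.map_some]
  rwa [h3, h3] at h2

/-- every multiplicative degree is additive -/
theorem add_vertex (hG : G.Pt) (hS : G.SegalH ℤ) (D : ∀ {p : ℕ}, (G.obj Unit).obj p → ℤ)
    (hD : ∀ {p q : ℕ} (θ : Op p q) (x : (G.obj Unit).obj q), D ((G.obj Unit).map θ x) = D x)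
    (hm : ∀ x y : (G.obj Unit).obj 0, D ((μ.mul Unit).app (x, y)) = D x + D y)
    (t : (G.obj (Fin 2 × Unit)).obj 0) :
    D ((G.map (foldL (Fin 2 × Unit))).app t) =
      D ((G.map (prL (0 : Fin 2))).app t) + D ((G.map (prL (1 : Fin 2))).app t) := by
  have h := CRel.D_eq D hD ((μ.crel_two hG hS t).map (G.map (foldL (Fin 2 × Unit))))
  rw [h, μ.fold_two, hm]

/-- **a multiplicative degree is a degree in the sense of (PI1)** -/
def toDeg (hG : G.Pt) (hS : G.SegalH ℤ) (D : ∀ {p : ℕ}, (G.obj Unit).obj p → ℤ)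
    (hD : ∀ {p q : ℕ} (θ : Op p q) (x : (G.obj Unit).obj q), D ((G.obj Unit).map θ x) = D x)
    (hm : ∀ x y : (G.obj Unit).obj 0, D ((μ.mul Unit).app (x, y)) = D x + D y) : G.Deg where
  D := D
  map := hD
  add {p} x := by
    have h := μ.add_vertex hG hS D hD hm ((G.obj _).map (cst 0 p) x)
    rwa [SS.Map.nat, SS.Map.nat, SS.Map.nat, hD, hD, hD] at h

/-- vertices of the same degree are joined by an edge: then the degree is good -/
theorem conn_of (hG : G.Pt) (δ : G.Deg)
    (hm : ∀ x y : (G.obj Unit).obj 0, δ.D ((μ.mul Unit).app (x, y)) = δ.D x + δ.D y)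
    (he : ∀ x y : (G.obj Unit).obj 0, δ.D x = δ.D y → ∃ w : (G.obj Unit).obj 1,
      (G.obj Unit).map (dl 0 0) w = x ∧ (G.obj Unit).map (dl 0 1) w = y) : δ.Conn where
  edge x y h := by
    obtain ⟨w, h0, h1⟩ := he y x h.symm
    have e0 : dl 0 0 = inc 0 := by
      apply OrderHom.ext; funext y; apply Fin.ext; rw [dl_val, inc_val]; simp
    have e1 : dl 0 1 = cst 0 1 := by
      apply OrderHom.ext; funext y; apply Fin.ext; rw [dl_val, cst_apply]; simp
    rw [e0] at h0
    rw [e1] at h1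
    exact ⟨w, h1, h0⟩
  sum x y := by
    have h0 := δ.base hG (μ.isBase Unit)
    refine ⟨μ.two x y, ?_, ?_⟩
    · rw [μ.pr0_two hG, hm, h0, add_zero]
    · rw [μ.pr1_two hG, hm, h0, zero_add]

end HMul

end Gam

namespace MixG

variable (G : MixG)

theorem crel_R {K L : Type} [Finite K] [Finite L] (z : (G.obj K L).obj 0) :
    CRel ℤ (G.obj K L) z ((G.mul K L).app (z, G.emp K L 0)) := by
  have := CRel.of_htp (R := ℤ) (G.hR K L) z
  rwa [G.hR_c0, G.hR_c1] at this

theorem crel_L {K L : Type} [Finite K] [Finite L] (z : (G.obj K L).obj 0) :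
    CRel ℤ (G.obj K L) z ((G.mul K L).app (G.emp K L 0, z)) := by
  have := CRel.of_htp (R := ℤ) (G.hL K L) z
  rwa [G.hL_c0, G.hL_c1] at this

/-- the product on the loops -/
def mulQ : G.gamQ.HMul where
  mul K _ := G.mul K Empty
  emp K _ := G.emp K Empty 0
  isBase _ _ := ⟨G.emp Empty Empty 0, G.map_emp _ _ 0⟩
  map_mul _ x y := G.map_mul _ _ x y
  unR x := G.crel_R (K := Unit) (L := Empty) x
  unL x := G.crel_L (K := Unit) (L := Empty) x

/-- the product on the boxes -/
def mulF : G.gamF.HMul where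
  mul K _ := G.mul Empty K
  emp K _ := G.emp Empty K 0
  isBase _ _ := ⟨G.emp Empty Empty 0, G.map_emp _ _ 0⟩
  map_mul _ x y := G.map_mul _ _ x y
  unR x := G.crel_R (K := Empty) (L := Unit) x
  unL x := G.crel_L (K := Empty) (L := Unit) x

/-- the degree of a configuration of boxes -/
def dB {p : ℕ} (x : (G.gamF.obj Unit).obj p) : ℤ := G.deg ((G.alpha.app Unit).app x)

theorem dB_map {p q : ℕ} (θ : Op p q) (x : (G.gamF.obj Unit).obj q) :
    G.dB ((G.gamF.obj Unit).map θ x) = G.dB x := by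
  have h := (G.alpha.app Unit).nat θ x
  exact (congrArg G.deg h).trans (G.deg_map θ _)

theorem dB_mul {p : ℕ} (x y : (G.obj Empty Unit).obj p) :
    G.dB ((G.mul Empty Unit).app (x, y)) = G.dB x + G.dB y :=
  (congrArg G.deg (G.map_mul _ _ x y)).trans (G.deg_mul _ _)

/-- the degree of a loop -/
def degQ : G.gamQ.Deg :=
  G.mulQ.toDeg G.gamQ_pt (G.segalH_gamQ ℤ) (fun {_} x => G.deg x) (fun θ x => G.deg_map θ x)
    (fun x y => G.deg_mul x y)

/-- the degree of a configuration of boxes -/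
def degFB : G.gamF.Deg :=
  G.mulF.toDeg G.gamF_pt (G.segalH_gamF ℤ) (fun {_} x => G.dB x) (fun θ x => G.dB_map θ x)
    (fun x y => G.dB_mul x y)

theorem degQ_D {p : ℕ} (x : (G.gamQ.obj Unit).obj p) : G.degQ.D x = G.deg x := rfl

theorem degFB_D {p : ℕ} (x : (G.gamF.obj Unit).obj p) :
    G.degFB.D x = G.degQ.D ((G.alpha.app Unit).app x) := rfl

theorem degQ_conn : G.degQ.Conn :=
  G.mulQ.conn_of G.gamQ_pt G.degQ (fun x y => G.deg_mul x y) (fun x y h => G.conn x y h)

theorem degFB_conn : G.degFB.Conn :=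
  G.mulF.conn_of G.gamF_pt G.degFB (fun x y => G.dB_mul x y) (fun x y h => G.connB x y h)

theorem degQ_boxK : G.degQ.D (G.boxK () 0) = 1 := G.deg_boxK 0

theorem alpha_boxL' (p : ℕ) : (G.alpha.app Unit).app (G.boxL () p) = G.boxK () p :=
  G.map_boxO _ _ (some (Sum.inr ())) p

theorem degFB_boxL : G.degFB.D (G.boxL () 0) = 1 :=
  (congrArg G.deg (G.alpha_boxL' 0)).trans (G.deg_boxK 0)

variable {R : Type} [CommRing R]

/-- **(PI1) for the loops** -/
theorem unit_rz0_gamQ (t : ℕ) (ht : t ≤ 1) :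
    RZ0 (freeMap R ((G.gamQ.unit (G.boxK () 0)).B.app Unit)).cx t :=
  G.degQ_conn.unit_rz0 G.gamQ_pt G.degQ_boxK t ht

/-- **(PI1) for the boxes** -/
theorem unit_rz0_gamF (t : ℕ) (ht : t ≤ 1) :
    RZ0 (freeMap R ((G.gamF.unit (G.boxL () 0)).B.app Unit)).cx t :=
  G.degFB_conn.unit_rz0 G.gamF_pt G.degFB_boxL t ht

theorem gamQ_not_hz_one [Nontrivial R] : ¬ (free R (G.gamQ.B.obj Unit)).cx.HZ 1 :=
  G.degQ.not_hz_one G.gamQ_pt G.degQ_boxK

theorem gamF_not_hz_one [Nontrivial R] : ¬ (free R (G.gamF.B.obj Unit)).cx.HZ 1 :=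
  G.degFB.not_hz_one G.gamF_pt G.degFB_boxL

end MixG

end Vale.Agent.P263.GB
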