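import Mathlib.Topology.Compactification.OnePoint.Basic
import Mathlib.Analysis.SpecialFunctions.Trigonometric.Arctan
import Mathlib.Topology.Maps.Proper.Basic
import Mathlib.Topology.UnitInterval
import Mathlib.Analysis.SpecialFunctions.Trigonometric.ArctanDeriv

/-!
# P263: pinch maps of the circle `OnePoint ℝ`

* `loopE : ℝ → OnePoint ℝ` : the standard loop, `∞` outside `(0, 1)`;
* `rho a b : OnePoint ℝ → OnePoint ℝ` : collapses the complement of `(a, b)` and expands `(a, b)`;
* `rhoK (K) k s` : a homotopy from the `k`-th pinch map (`s = 0`) to the identity (`s = 1`).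
-/

open OnePoint Topology Filter

namespace Vale.Agent.P263.GB

/-- the standard loop: `∞` outside `(0, 1)` -/
noncomputable def loopE (u : ℝ) : OnePoint ℝ :=
  if 0 < u ∧ u < 1 then ((Real.tan (Real.pi * (u - 1 / 2)) : ℝ) : OnePoint ℝ) else ∞

/-- the inverse of `loopE` on `(0,1)` -/
noncomputable def loopI (t : ℝ) : ℝ := Real.arctan t / Real.pi + 1 / 2

theorem continuous_loopI : Continuous loopI :=
  (Real.continuous_arctan.div_const _).add continuous_const

theorem loopI_pos (t : ℝ) : 0 < loopI t := by
  have h := Real.neg_pi_div_two_lt_arctan t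
  have hpi := Real.pi_pos
  have : -(1 / 2) < Real.arctan t / Real.pi := by
    rw [lt_div_iff₀ hpi]; linarith
  unfold loopI; linarith

theorem loopI_lt_one (t : ℝ) : loopI t < 1 := by
  have h := Real.arctan_lt_pi_div_two t
  have hpi := Real.pi_pos
  have : Real.arctan t / Real.pi < 1 / 2 := by
    rw [div_lt_iff₀ hpi]; linarith
  unfold loopI; linarith

theorem loopE_of_le {u : ℝ} (h : u ≤ 0) : loopE u = ∞ := by
  rw [loopE, if_neg]; rintro ⟨h1, _⟩; linarith

theorem loopE_of_ge {u : ℝ} (h : 1 ≤ u) : loopE u = ∞ := by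
  rw [loopE, if_neg]; rintro ⟨_, h1⟩; linarith

theorem loopE_zero : loopE 0 = ∞ := loopE_of_le le_rfl

theorem loopE_one : loopE 1 = ∞ := loopE_of_ge le_rfl

theorem loopE_loopI (t : ℝ) : loopE (loopI t) = (t : OnePoint ℝ) := by
  rw [loopE, if_pos ⟨loopI_pos t, loopI_lt_one t⟩]
  congr 1
  have : Real.pi * (loopI t - 1 / 2) = Real.arctan t := by
    unfold loopI
    have hpi := Real.pi_ne_zero
    field_simp
    ring
  rw [this, Real.tan_arctan]

theorem loopI_tan {u : ℝ} (h0 : 0 < u) (h1 : u < 1) :
    loopI (Real.tan (Real.pi * (u - 1 / 2))) = u := by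
  have hpi := Real.pi_pos
  unfold loopI
  rw [Real.arctan_tan (by nlinarith) (by nlinarith)]
  field_simp
  ring

theorem loopE_ne_infty {u : ℝ} (h : loopE u ≠ ∞) : 0 < u ∧ u < 1 := by
  by_contra hu
  exact h (by rw [loopE, if_neg hu])

theorem tendsto_tan_cocompact :
    Tendsto (fun u : ℝ => Real.tan (Real.pi * (u - 1 / 2))) (𝓝[>] 0) (cocompact ℝ) := by
  have h1 : Tendsto (fun u : ℝ => Real.pi * (u - 1 / 2)) (𝓝[>] 0) (𝓝[>] (-(Real.pi / 2))) := by
    refine tendsto_nhdsWithin_of_tendsto_nhds_of_eventually_within _ ?_ ?_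
    · refine Tendsto.mono_left ?_ nhdsWithin_le_nhds
      have : Continuous fun u : ℝ => Real.pi * (u - 1 / 2) := by fun_prop
      have h := this.tendsto 0
      have e : Real.pi * ((0 : ℝ) - 1 / 2) = -(Real.pi / 2) := by ring
      rwa [e] at h
    · filter_upwards [self_mem_nhdsWithin] with u hu
      have hpi := Real.pi_pos
      have : 0 < u := hu
      show -(Real.pi / 2) < Real.pi * (u - 1 / 2)
      nlinarith
  exact (Real.tendsto_tan_neg_pi_div_two.comp h1).mono_right atBot_le_cocompact

theorem tendsto_tan_cocompact' :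
    Tendsto (fun u : ℝ => Real.tan (Real.pi * (u - 1 / 2))) (𝓝[<] 1) (cocompact ℝ) := by
  have h1 : Tendsto (fun u : ℝ => Real.pi * (u - 1 / 2)) (𝓝[<] 1) (𝓝[<] (Real.pi / 2)) := by
    refine tendsto_nhdsWithin_of_tendsto_nhds_of_eventually_within _ ?_ ?_
    · refine Tendsto.mono_left ?_ nhdsWithin_le_nhds
      have : Continuous fun u : ℝ => Real.pi * (u - 1 / 2) := by fun_prop
      have h := this.tendsto 1
      have e : Real.pi * ((1 : ℝ) - 1 / 2) = Real.pi / 2 := by ring
      rwa [e] at h
    · filter_upwards [self_mem_nhdsWithin] with u hu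
      have hpi := Real.pi_pos
      have : u < 1 := hu
      show Real.pi * (u - 1 / 2) < Real.pi / 2
      nlinarith
  exact (Real.tendsto_tan_pi_div_two.comp h1).mono_right atTop_le_cocompact

theorem tendsto_coe_cocompact {α : Type*} {l : Filter α} {f : α → ℝ}
    (h : Tendsto f l (cocompact ℝ)) : Tendsto (fun a => (f a : OnePoint ℝ)) l (𝓝 ∞) := by
  have h2 : Tendsto ((↑) : ℝ → OnePoint ℝ) (coclosedCompact ℝ) (𝓝 ∞) :=
    OnePoint.tendsto_coe_infty
  rw [coclosedCompact_eq_cocompact] at h2
  exact h2.comp h

theorem continuous_loopE : Continuous loopE := by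
  rw [continuous_iff_continuousAt]
  intro u
  rcases lt_trichotomy u 0 with h | h | h
  · refine (continuousAt_const (y := (∞ : OnePoint ℝ))).congr ?_
    filter_upwards [Iio_mem_nhds h] with v hv
    exact (loopE_of_le (le_of_lt hv)).symm
  · subst h
    rw [ContinuousAt, loopE_zero, ← nhdsLE_sup_nhdsGT, tendsto_sup]
    constructor
    · refine (tendsto_const_nhds (x := (∞ : OnePoint ℝ))).congr' ?_
      filter_upwards [self_mem_nhdsWithin] with v hv
      exact (loopE_of_le hv).symm
    · refine (tendsto_coe_cocompact tendsto_tan_cocompact).congr' ?_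
      filter_upwards [Ioo_mem_nhdsGT (zero_lt_one (α := ℝ))] with v hv
      rw [loopE, if_pos (show 0 < v ∧ v < 1 from hv)]
  · rcases lt_trichotomy u 1 with h' | h' | h'
    · have hc : ContinuousAt (fun v : ℝ => Real.tan (Real.pi * (v - 1 / 2))) u := by
        have hpi := Real.pi_pos
        have hcos : Real.cos (Real.pi * (u - 1 / 2)) ≠ 0 :=
          (Real.cos_pos_of_mem_Ioo ⟨by nlinarith, by nlinarith⟩).ne'
        exact (Real.continuousAt_tan.2 hcos).comp
          (f := fun v : ℝ => Real.pi * (v - 1 / 2)) (by fun_prop)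
      refine (OnePoint.continuous_coe.continuousAt.comp hc).congr ?_
      filter_upwards [Ioo_mem_nhds h h'] with v hv
      rw [loopE, if_pos (show 0 < v ∧ v < 1 from hv)]; rfl
    · subst h'
      rw [ContinuousAt, loopE_one, ← nhdsLT_sup_nhdsGE, tendsto_sup]
      constructor
      · refine (tendsto_coe_cocompact tendsto_tan_cocompact').congr' ?_
        filter_upwards [Ioo_mem_nhdsLT (zero_lt_one (α := ℝ))] with v hv
        rw [loopE, if_pos (show 0 < v ∧ v < 1 from hv)]
      · refine (tendsto_const_nhds (x := (∞ : OnePoint ℝ))).congr' ?_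
        filter_upwards [self_mem_nhdsWithin] with v hv
        exact (loopE_of_ge hv).symm
    · refine (continuousAt_const (y := (∞ : OnePoint ℝ))).congr ?_
      filter_upwards [Ioi_mem_nhds h'] with v hv
      exact (loopE_of_ge (le_of_lt hv)).symm

/-- the standard loop on the unit interval -/
noncomputable def loopU : C(unitInterval, OnePoint ℝ) :=
  ⟨fun u => loopE u.1, continuous_loopE.comp continuous_subtype_val⟩

theorem loopU_surjective : Function.Surjective loopU := by
  intro z
  induction z using OnePoint.rec with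
  | infty => exact ⟨0, loopE_zero⟩
  | coe t => exact ⟨⟨loopI t, (loopI_pos t).le, (loopI_lt_one t).le⟩, loopE_loopI t⟩

theorem isQuotientMap_id_loopU (P : Type*) [TopologicalSpace P] :
    IsQuotientMap (Prod.map (id : P → P) loopU) :=
  (isProperMap_id.prodMap loopU.continuous.isProperMap).isClosedMap.isQuotientMap
    (continuous_id.prodMap loopU.continuous)
    (Function.surjective_id.prodMap loopU_surjective)

/-- collapse the complement of the interval `(a, b)` and expand `(a, b)` -/
noncomputable def rho (a b : ℝ) (z : OnePoint ℝ) : OnePoint ℝ :=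
  z.elim ∞ fun t => loopE ((loopI t - a) / (b - a))

@[simp] theorem rho_infty (a b : ℝ) : rho a b ∞ = ∞ := rfl

theorem rho_coe (a b t : ℝ) : rho a b (t : OnePoint ℝ) = loopE ((loopI t - a) / (b - a)) := rfl

theorem rho_loopE {a b u : ℝ} (ha : 0 ≤ a) (hab : a < b) (hb : b ≤ 1) (hu0 : 0 ≤ u)
    (hu1 : u ≤ 1) : rho a b (loopE u) = loopE ((u - a) / (b - a)) := by
  have hba : 0 < b - a := sub_pos.2 hab
  rcases hu0.eq_or_lt with h | h
  · subst h
    rw [loopE_zero, rho_infty, loopE_of_le]
    exact div_nonpos_of_nonpos_of_nonneg (by linarith) hba.le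
  · rcases hu1.eq_or_lt with h' | h'
    · subst h'
      rw [loopE_one, rho_infty, loopE_of_ge]
      rw [le_div_iff₀ hba]; linarith
    · rw [loopE, if_pos ⟨h, h'⟩, rho_coe, loopI_tan h h']

theorem rho_zero_one (z : OnePoint ℝ) : rho 0 1 z = z := by
  induction z using OnePoint.rec with
  | infty => rfl
  | coe t =>
    rw [rho_coe]
    have : (loopI t - 0) / (1 - 0) = loopI t := by ring
    rw [this, loopE_loopI]

/-- if `rho a b t ≠ ∞` then `a < loopI t < b` -/
theorem mem_of_rho_ne_infty {a b t : ℝ} (hab : a < b)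
    (h : rho a b (t : OnePoint ℝ) ≠ ∞) : a < loopI t ∧ loopI t < b := by
  rw [rho_coe] at h
  obtain ⟨h1, h2⟩ := loopE_ne_infty h
  have hba : 0 < b - a := sub_pos.2 hab
  rw [lt_div_iff₀ hba] at h1
  rw [div_lt_iff₀ hba] at h2
  constructor <;> linarith

/-- joint continuity of the pinch maps -/
theorem continuous_rho {P : Type*} [TopologicalSpace P] {a b : P → ℝ} (ha : Continuous a)
    (hb : Continuous b) (ha0 : ∀ p, 0 ≤ a p) (hab : ∀ p, a p < b p) (hb1 : ∀ p, b p ≤ 1) :
    Continuous fun q : P × OnePoint ℝ => rho (a q.1) (b q.1) q.2 := by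
  rw [(isQuotientMap_id_loopU P).continuous_iff]
  have h1 : (fun q : P × OnePoint ℝ => rho (a q.1) (b q.1) q.2) ∘ Prod.map (id : P → P) loopU =
      fun q : P × unitInterval => loopE ((q.2.1 - a q.1) / (b q.1 - a q.1)) := by
    funext q
    exact rho_loopE (ha0 _) (hab _) (hb1 _) q.2.2.1 q.2.2.2
  rw [h1]
  refine continuous_loopE.comp ?_
  refine Continuous.div ?_ ?_ fun q => (sub_pos.2 (hab q.1)).ne'
  · exact (continuous_subtype_val.comp continuous_snd).sub (ha.comp continuous_fst)
  · exact (hb.comp continuous_fst).sub (ha.comp continuous_fst)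

section finite

variable (K : Type*) [Finite K]

/-- the number of the element `k` of a finite type -/
noncomputable def idx (k : K) : ℕ := (Finite.equivFin K k : ℕ)

variable {K}

theorem idx_lt (k : K) : idx K k < Nat.card K := (Finite.equivFin K k).2

theorem idx_injective : Function.Injective (idx K) := fun _ _ h =>
  (Finite.equivFin K).injective (Fin.ext h)

/-- left end of the `k`-th interval at time `s` -/
noncomputable def endL (k : K) (s : unitInterval) : ℝ :=
  (1 - s.1) * (idx K k / Nat.card K)

/-- right end of the `k`-th interval at time `s` -/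
noncomputable def endR (k : K) (s : unitInterval) : ℝ :=
  (1 - s.1) * ((idx K k + 1) / Nat.card K) + s.1

theorem card_pos' (k : K) : (0 : ℝ) < Nat.card K := by
  have : 0 < Nat.card K := lt_of_le_of_lt (Nat.zero_le _) (idx_lt k)
  exact_mod_cast this

theorem endL_nonneg (k : K) (s : unitInterval) : 0 ≤ endL k s :=
  mul_nonneg (sub_nonneg.2 s.2.2) (div_nonneg (Nat.cast_nonneg _) (Nat.cast_nonneg _))

theorem endL_lt_endR (k : K) (s : unitInterval) : endL k s < endR k s := by
  have hc := card_pos' k
  have h1 : (idx K k + 1 : ℝ) / Nat.card K = idx K k / Nat.card K + 1 / Nat.card K := by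
    rw [add_div]
  unfold endL endR
  rw [h1, mul_add]
  have h2 : 0 < (1 - s.1) * (1 / (Nat.card K : ℝ)) + s.1 := by
    rcases s.2.2.eq_or_lt with h | h
    · rw [h]; norm_num
    · have : 0 < (1 - s.1) * (1 / (Nat.card K : ℝ)) :=
        mul_pos (sub_pos.2 h) (div_pos one_pos hc)
      have := s.2.1
      linarith
  linarith

theorem endR_le_one (k : K) (s : unitInterval) : endR k s ≤ 1 := by
  have hc := card_pos' k
  have h1 : (idx K k + 1 : ℝ) / Nat.card K ≤ 1 := by
    rw [div_le_one hc]
    exact_mod_cast Nat.succ_le_of_lt (idx_lt k)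
  have h2 : (1 - s.1) * ((idx K k + 1 : ℝ) / Nat.card K) ≤ (1 - s.1) * 1 :=
    mul_le_mul_of_nonneg_left h1 (sub_nonneg.2 s.2.2)
  unfold endR; linarith

/-- a homotopy from the `k`-th pinch map to the identity -/
noncomputable def rhoK (k : K) (s : unitInterval) (z : OnePoint ℝ) : OnePoint ℝ :=
  rho (endL k s) (endR k s) z

@[simp] theorem rhoK_infty (k : K) (s : unitInterval) : rhoK k s ∞ = ∞ := rfl

theorem rhoK_one (k : K) (z : OnePoint ℝ) : rhoK k 1 z = z := by
  have h1 : endL k 1 = 0 := by simp [endL]
  have h2 : endR k 1 = 1 := by simp [endR]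
  rw [rhoK, h1, h2, rho_zero_one]

theorem continuous_endL (k : K) : Continuous (endL k) :=
  (continuous_const.sub continuous_subtype_val).mul continuous_const

theorem continuous_endR (k : K) : Continuous (endR k) :=
  ((continuous_const.sub continuous_subtype_val).mul continuous_const).add continuous_subtype_val

theorem continuous_rhoK (k : K) :
    Continuous fun q : unitInterval × OnePoint ℝ => rhoK k q.1 q.2 :=
  continuous_rho (continuous_endL k) (continuous_endR k) (endL_nonneg k) (endL_lt_endR k)
    (endR_le_one k)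

/-- at time `0` at most one pinch map is not `∞` at a given point -/
theorem rhoK_zero_unique {k l : K} {z : OnePoint ℝ} (hk : rhoK k 0 z ≠ ∞)
    (hl : rhoK l 0 z ≠ ∞) : k = l := by
  induction z using OnePoint.rec with
  | infty => exact absurd rfl hk
  | coe t =>
    have hc := card_pos' k
    have h1 := mem_of_rho_ne_infty (endL_lt_endR k 0) hk
    have h2 := mem_of_rho_ne_infty (endL_lt_endR l 0) hl
    have eL : ∀ j : K, endL j 0 = idx K j / Nat.card K := fun j => by simp [endL]
    have eR : ∀ j : K, endR j 0 = (idx K j + 1) / Nat.card K := fun j => by simp [endR]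
    rw [eL, eR, div_lt_iff₀ hc, lt_div_iff₀ hc] at h1 h2
    have h3 : (idx K k : ℝ) < idx K l + 1 := by linarith
    have h4 : (idx K l : ℝ) < idx K k + 1 := by linarith
    have h3' : idx K k < idx K l + 1 := by exact_mod_cast h3
    have h4' : idx K l < idx K k + 1 := by exact_mod_cast h4
    exact idx_injective (by omega)

end finite

end Vale.Agent.P263.GB
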