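import Vale.Agent.P263.GR.Part
import Vale.Agent.P263.G2.BoxSS

/-!
# P263, block G2 (range), part 1: powers of partial simplicial sets, the pieces by number of boxes

* `PSS.pow T n` and `pow_acy`.
* `Conf.card_map_le`, `Conf.card_map_eq_iff`.
* `QP T P` : families of labelled configurations (labels in the partial simplicial set `T`, varying
  with the simplicial degree) whose number of boxes satisfies the convex predicate `P`.
* `acy_piece` : the piece with exactly `n` boxes is exact below `n * m` if `ch T` is exact below `m`.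
-/

open Vale.Agent.P263.S Vale.Agent.P263.E

namespace Vale.Agent.P263.GR

theorem opt_get_eq {α : Type} {o : Option α} {y : α} (h : o.isSome) (e : o = some y) :
    o.get h = y := by
  subst e
  rfl

namespace PSS

variable (T : PSS)

open Classical in
/-- the smash power -/
noncomputable def pow (n : ℕ) : PSS where
  obj p := Fin n → T.obj p
  map f x := if h : ∀ i, (T.map f (x i)).isSome then some fun i => (T.map f (x i)).get (h i)
    else none
  map_id {p} x := by
    have h : ∀ i, (T.map (OrderHom.id : Op p p) (x i)).isSome := fun i => by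
      rw [T.map_id]; rfl
    rw [dif_pos h]
    congr 1
    funext i
    exact opt_get_eq _ (T.map_id _)
  map_comp {p q r} f g x := by
    by_cases h : ∀ i, (T.map f (x i)).isSome
    · rw [dif_pos h]
      show _ = (if h' : ∀ i, (T.map g ((T.map f (x i)).get (h i))).isSome then _ else none)
      have e : ∀ i, T.map (f.comp g) (x i) = T.map g ((T.map f (x i)).get (h i)) := by
        intro i
        rw [T.map_comp]
        conv_lhs => rw [← Option.some_get (h i)]
        rfl
      by_cases h' : ∀ i, (T.map g ((T.map f (x i)).get (h i))).isSome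
      · rw [dif_pos h', dif_pos fun i => by rw [e]; exact h' i]
        congr 1
        funext i
        exact opt_get_eq _ ((e i).trans (Option.some_get _).symm)
      · rw [dif_neg h', dif_neg fun h'' => h' fun i => by rw [← e]; exact h'' i]
    · rw [dif_neg h, dif_neg]
      · rfl
      · intro h'
        apply h
        intro i
        have := h' i
        rw [T.map_comp] at this
        cases h1 : T.map f (x i) with
        | none => rw [h1] at this; exact absurd this (by simp)
        | some y => rfl

theorem pow_map_some {n p q : ℕ} (f : Op p q) (x : (T.pow n).obj q) (y : (T.pow n).obj p)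
    (h : ∀ i, T.map f (x i) = some (y i)) : (T.pow n).map f x = some y := by
  classical
  show (if h : ∀ i, (T.map f (x i)).isSome then _ else none) = _
  rw [dif_pos fun i => by rw [h]; rfl]
  congr 1
  funext i
  exact opt_get_eq _ (h i)

theorem pow_map_none {n p q : ℕ} (f : Op p q) (x : (T.pow n).obj q) (i : Fin n)
    (h : T.map f (x i) = none) : (T.pow n).map f x = none := by
  classical
  exact dif_neg fun h' => by
    have := h' i
    rw [h] at this
    exact absurd this (by simp)

/-- either all coordinates survive or one of them dies -/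
theorem pow_cases {n p q : ℕ} (f : Op p q) (x : (T.pow n).obj q) :
    (∃ y : (T.pow n).obj p, ∀ i, T.map f (x i) = some (y i)) ∨ ∃ i, T.map f (x i) = none := by
  by_cases h : ∃ i, T.map f (x i) = none
  · exact Or.inr h
  · left
    rw [not_exists] at h
    have : ∀ i, ∃ y, T.map f (x i) = some y := fun i => Option.ne_none_iff_exists'.1 (h i)
    choose y hy using this
    exact ⟨y, hy⟩

/-- `T^(n+1) = T ∧ T^n` -/
noncomputable def powSucc (n : ℕ) : PMap (T.smash (T.pow n)) (T.pow (n + 1)) where
  app x := Fin.cons x.1 x.2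
  nat {p q} f x := by
    obtain ⟨a, x⟩ := x
    have hm : (T.smash (T.pow n)).map f (a, x) =
      (T.map f a).bind fun a => ((T.pow n).map f x).map fun b => (a, b) := rfl
    rcases T.pow_cases f x with ⟨y, hy⟩ | ⟨i, hi⟩
    · rw [hm, T.pow_map_some f x y hy]
      cases ha : T.map f a with
      | none =>
        exact T.pow_map_none f _ 0 ha
      | some b =>
        refine T.pow_map_some f _ (Fin.cons b y) fun i => ?_
        induction i using Fin.cases with
        | zero => exact ha
        | succ i => exact hy i
    · rw [hm, T.pow_map_none f x i hi, T.pow_map_none f (Fin.cons a x) i.succ hi]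
      cases T.map f a with
      | none => rfl
      | some b => rfl

theorem powSucc_bijective (n p : ℕ) : Function.Bijective ((T.powSucc n).app (p := p)) := by
  constructor
  · rintro ⟨a, x⟩ ⟨b, y⟩ h
    have h' : (Fin.cons a x : Fin (n + 1) → T.obj p) = Fin.cons b y := h
    have h0 := congrFun h' 0
    have h1 : x = y := funext fun i => congrFun h' i.succ
    exact Prod.ext h0 h1
  · intro x
    refine ⟨(x 0, fun i => x i.succ), ?_⟩
    funext i
    induction i using Fin.cases with
    | zero => rfl
    | succ i => rfl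

theorem pow_acy {k : Type} [Field k] {m : ℕ} (h : (ch k T).Acy m) (n : ℕ) :
    (ch k (T.pow n)).Acy (n * m) := by
  induction n with
  | zero => rw [Nat.zero_mul]; exact SMod.acy_zero _
  | succ n ih =>
    have h1 := (T.powSucc n).acy_of_bijective (T.powSucc_bijective n) (smash_acy h ih)
    rwa [show (n + 1) * m = m + n * m by ring]

end PSS

/-- a simplicial set as a partial simplicial set -/
def ofSS (X : SS) : PSS where
  obj := X.obj
  map f x := some (X.map f x)
  map_id x := by rw [X.map_id]
  map_comp f g x := by rw [X.map_comp]; rfl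

end Vale.Agent.P263.GR

namespace Vale.Agent.P263.G2

open Vale.Agent.P263.GR

namespace Conf

variable {K L : Type} {T : Type} [TopologicalSpace T]

open Classical in
/-- the members which survive the relabelling -/
theorem card_map (f : K → Option L) [Nonempty T] (S : Conf K T) :
    (S.map f).pts.card = (S.pts.filter fun x => (f x.2).isSome).card := by
  classical
  symm
  refine Finset.card_bij (fun x hx => (x.1, (f x.2).get (Finset.mem_filter.1 hx).2)) ?_ ?_ ?_
  · intro x hx
    rw [mem_map]
    exact ⟨x.2, (Finset.mem_filter.1 hx).1, (Option.some_get _).symm⟩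
  · intro x hx y hy h
    obtain ⟨t⟩ := ‹Nonempty T›
    have h1 : x.1 = y.1 := (Prod.ext_iff.1 h).1
    exact S.eq_of_fst (Finset.mem_filter.1 hx).1 (Finset.mem_filter.1 hy).1 t (by rw [h1])
  · intro y hy
    rw [mem_map] at hy
    obtain ⟨l, hl, h⟩ := hy
    have hs : (f l).isSome := by rw [h]; rfl
    refine ⟨(y.1, l), Finset.mem_filter.2 ⟨hl, hs⟩, ?_⟩
    refine Prod.ext rfl ?_
    show (f l).get _ = y.2
    exact opt_get_eq _ h

theorem card_map_le (f : K → Option L) [Nonempty T] (S : Conf K T) :
    (S.map f).pts.card ≤ S.pts.card := by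
  classical
  rw [card_map]
  exact Finset.card_filter_le _ _

theorem card_map_eq_iff (f : K → Option L) [Nonempty T] (S : Conf K T) :
    (S.map f).pts.card = S.pts.card ↔ ∀ x ∈ S.pts, (f x.2).isSome := by
  classical
  rw [card_map, Finset.card_filter_eq_iff]

end Conf

theorem OConf.toConf_map {K L : Type} {T : Type} [TopologicalSpace T] {n : ℕ} (x : Fin n → K)
    (y : Fin n → L) (f : K → Option L) (c : OConf (Fin n) T) (h : ∀ i, f (x i) = some (y i)) :
    (c.toConf x).map f = c.toConf y := by
  apply Conf.ext
  ext w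
  rw [Conf.mem_map, OConf.mem_toConf]
  constructor
  · rintro ⟨l, hl, hw⟩
    rw [OConf.mem_toConf] at hl
    obtain ⟨j, hj⟩ := hl
    refine ⟨j, ?_⟩
    have h1 : c.box j = w.1 := congrArg Prod.fst hj
    have h2 : x j = l := congrArg Prod.snd hj
    rw [← h2, h] at hw
    exact Prod.ext h1 (Option.some.inj hw)
  · rintro ⟨j, rfl⟩
    exact ⟨x j, OConf.mem_toConf.2 ⟨j, rfl⟩, h j⟩

theorem OConf.toConf_map_card {K L : Type} {T : Type} [TopologicalSpace T] [Nonempty T] {n : ℕ}
    (x : Fin n → K) (f : K → Option L) (c : OConf (Fin n) T) (i : Fin n) (h : f (x i) = none) :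
    ((c.toConf x).map f).pts.card ≠ n := by
  intro h1
  have h2 : ((c.toConf x).map f).pts.card = (c.toConf x).pts.card :=
    h1.trans ((OConf.card_toConf x c).trans (Fintype.card_fin n)).symm
  have h3 := (Conf.card_map_eq_iff _ _).1 h2 (c.box i, x i) (OConf.mem_toConf.2 ⟨i, rfl⟩)
  rw [h] at h3
  exact absurd h3 (by simp)

/-- families of configurations labelled in the partial simplicial set `T` -/
noncomputable abbrev PF (T : PSS) : SS where
  obj p := Conf (T.obj p) (Dl p)
  map f S := (S.pull (dmap f)).map (T.map f)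
  map_id {p} S := by
    have h : T.map (OrderHom.id : Op p p) = some := funext fun x => T.map_id x
    rw [S.pull_dmap_id, h, Conf.map_some]
  map_comp f g S := by
    have h : T.map (f.comp g) = fun x => (T.map f x).bind (T.map g) :=
      funext fun x => T.map_comp f g x
    rw [Conf.pull_dmap_comp, h, ← Conf.map_map, Conf.map_pull, Conf.map_pull]

theorem PF_map (T : PSS) {p q : ℕ} (f : Op p q) (S : (PF T).obj q) :
    (PF T).map f S = Conf.map (T.map f) (Conf.pull (dmap f) S) := rfl

/-- the number of boxes -/
def cardP {T : PSS} {p : ℕ} (S : (PF T).obj p) : ℕ := (S : Conf (T.obj p) (Dl p)).pts.card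

instance nonemptyDl (p : ℕ) : Nonempty (Dl p) := ⟨stdSimplex.vertex 0⟩

theorem cardP_map_le (T : PSS) {p q : ℕ} (f : Op p q) (S : (PF T).obj q) :
    cardP ((PF T).map f S) ≤ cardP S := by
  exact le_trans (Conf.card_map_le (T.map f) (Conf.pull (dmap f) S))
    (le_of_eq (Conf.card_pull (dmap f) (S : Conf (T.obj q) (Dl q))))

/-- convex predicates -/
structure Cvx (P : ℕ → Prop) : Prop where
  mid : ∀ {a b c : ℕ}, a ≤ b → b ≤ c → P a → P c → P b

open Classical in
/-- the families whose number of boxes satisfies `P` -/
noncomputable abbrev QP (T : PSS) (P : ℕ → Prop) (hP : Cvx P) : PSS where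
  obj p := {S : (PF T).obj p // P (cardP S)}
  map f S := if h : P (cardP ((PF T).map f S.1)) then some ⟨(PF T).map f S.1, h⟩ else none
  map_id {p} S := by
    have h : P (cardP ((PF T).map (OrderHom.id : Op p p) S.1)) := by
      rw [(PF T).map_id]; exact S.2
    rw [dif_pos h]
    congr 1
    exact Subtype.ext ((PF T).map_id S.1)
  map_comp {p q r} f g S := by
    by_cases h : P (cardP ((PF T).map f S.1))
    · rw [dif_pos h]
      show _ = if h' : P (cardP ((PF T).map g ((PF T).map f S.1))) then _ else none
      by_cases h' : P (cardP ((PF T).map g ((PF T).map f S.1)))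
      · rw [dif_pos h', dif_pos (by rw [(PF T).map_comp]; exact h')]
        congr 1
        exact Subtype.ext ((PF T).map_comp f g S.1)
      · rw [dif_neg h', dif_neg (by rw [(PF T).map_comp]; exact h')]
    · rw [dif_neg h]
      refine dif_neg fun h' => ?_
      rw [(PF T).map_comp] at h'
      exact h (hP.mid (cardP_map_le T g _) (cardP_map_le T f _) h' S.2)

section

variable {T : PSS} {P : ℕ → Prop} {hP : Cvx P}

theorem QP_map_pos {p q : ℕ} (f : Op p q) (S : (QP T P hP).obj q)
    (h : P (cardP ((PF T).map f S.1))) :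
    (QP T P hP).map f S = some ⟨(PF T).map f S.1, h⟩ := dif_pos h

theorem QP_map_neg {p q : ℕ} (f : Op p q) (S : (QP T P hP).obj q)
    (h : ¬ P (cardP ((PF T).map f S.1))) : (QP T P hP).map f S = none := dif_neg h

end

theorem cvx_eq (n : ℕ) : Cvx (fun a => a = n) := ⟨fun h1 h2 h3 h4 => by omega⟩

theorem cvx_ge (n : ℕ) : Cvx (fun a => n ≤ a) := ⟨fun h1 h2 h3 h4 => by omega⟩

/-- the piece with exactly `n` boxes -/
noncomputable abbrev Pc (T : PSS) (n : ℕ) : PSS := QP T (fun a => a = n) (cvx_eq n)

/-- ordered boxes with labels -/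
noncomputable abbrev OT (T : PSS) (n : ℕ) : PSS := (ofSS (OF (Fin n))).smash (T.pow n)

theorem OT_map_some {T : PSS} {n p q : ℕ} (f : Op p q) (c : (OF (Fin n)).obj q)
    (x : (T.pow n).obj q) (y : (T.pow n).obj p) (h : ∀ i, T.map f (x i) = some (y i)) :
    (OT T n).map f (c, x) = some ((OF (Fin n)).map f c, y) := by
  show (some ((OF (Fin n)).map f c)).bind (fun a => ((T.pow n).map f x).map fun b => (a, b)) = _
  rw [T.pow_map_some f x y h]
  rfl

theorem OT_map_none {T : PSS} {n p q : ℕ} (f : Op p q) (c : (OF (Fin n)).obj q)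
    (x : (T.pow n).obj q) (i : Fin n) (h : T.map f (x i) = none) :
    (OT T n).map f (c, x) = none := by
  show (some ((OF (Fin n)).map f c)).bind (fun a => ((T.pow n).map f x).map fun b => (a, b)) = _
  rw [T.pow_map_none f x i h]
  rfl

theorem PF_map_toConf {T : PSS} {n p q : ℕ} (f : Op p q) (c : OConf (Fin n) (Dl q))
    (x : Fin n → T.obj q) :
    (PF T).map f (OConf.toConf x c) = Conf.map (T.map f) (OConf.toConf x (c.pull (dmap f))) :=
  congrArg (Conf.map (T.map f)) (OConf.toConf_pull x (dmap f) c).symm

/-- the projection to unordered configurations -/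
noncomputable def toPc (T : PSS) (n : ℕ) : PMap (OT T n) (Pc T n) where
  app {p} z := ⟨OConf.toConf (T := Dl p) z.2 z.1, (OConf.card_toConf z.2 z.1).trans
    (Fintype.card_fin n)⟩
  nat {p q} f z := by
    obtain ⟨c, x⟩ := z
    rcases T.pow_cases f x with ⟨y, hy⟩ | ⟨i, hi⟩
    · rw [OT_map_some f c x y hy]
      have e : (PF T).map f (OConf.toConf (T := Dl q) x c) =
          OConf.toConf (T := Dl p) y ((OF (Fin n)).map f c) :=
        (PF_map_toConf f c x).trans (OConf.toConf_map x y (T.map f) (c.pull (dmap f)) hy)
      refine (QP_map_pos f _ ?_).trans (congrArg some (Subtype.ext e))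
      exact (congrArg cardP e).trans ((OConf.card_toConf _ _).trans (Fintype.card_fin n))
    · rw [OT_map_none f c x i hi]
      refine QP_map_neg f _ fun h => ?_
      exact OConf.toConf_map_card x (T.map f) (OConf.pull (dmap f) c) i hi
        ((congrArg cardP (PF_map_toConf f c x)).symm.trans h)

/-- the permutations act freely -/
noncomputable def permAct (T : PSS) (n : ℕ) : FreeAct (Equiv.Perm (Fin n)) (OT T n) where
  smul e z := ((OF.re (e⁻¹).toEmbedding).app z.1, fun i => z.2 (e⁻¹ i))
  one z := rfl
  mul g h z := by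
    refine Prod.ext ?_ ?_
    · apply OConf.ext
      intro j
      show z.1.box ((g * h)⁻¹ j) = z.1.box (h⁻¹ (g⁻¹ j))
      rw [mul_inv_rev]
      rfl
    · funext j
      show z.2 ((g * h)⁻¹ j) = z.2 (h⁻¹ (g⁻¹ j))
      rw [mul_inv_rev]
      rfl
  free {p} g z h := by
    have h1 : OConf.re (T := Dl p) (g⁻¹).toEmbedding z.1 = z.1 := congrArg Prod.fst h
    have h2 : g⁻¹ = 1 := Equiv.ext fun j => OConf.re_eq_self (T := Dl p) z.1 _ h1 j
    exact inv_eq_one.1 h2
  nat {p q} g f z := by
    obtain ⟨c, x⟩ := z
    rcases T.pow_cases f x with ⟨y, hy⟩ | ⟨i, hi⟩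
    · rw [OT_map_some f c x y hy]
      exact OT_map_some f _ _ (fun i => y (g⁻¹ i)) fun i => hy _
    · rw [OT_map_none f c x i hi]
      refine OT_map_none f _ _ (g i) ?_
      show T.map f (x (g.symm (g i))) = none
      rw [Equiv.symm_apply_apply, hi]

theorem isOrbit_toPc (T : PSS) (n : ℕ) : (permAct T n).IsOrbit (toPc T n) where
  surj p := by
    rintro ⟨S, hS⟩
    obtain ⟨c, x, h⟩ := OConf.exists_toConf (T := Dl p) S hS
    exact ⟨(c, x), Subtype.ext h⟩
  fib {p} z w := by
    obtain ⟨c, x⟩ := z
    obtain ⟨c', x'⟩ := w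
    constructor
    · intro h
      have h' : OConf.toConf (T := Dl p) x c = OConf.toConf (T := Dl p) x' c' :=
        congrArg Subtype.val h
      obtain ⟨e, h1, h2⟩ := OConf.exists_perm h'
      refine ⟨e⁻¹, ?_⟩
      refine Prod.ext ?_ ?_
      · rw [← h1]
        apply OConf.ext
        intro j
        show c.box ((e⁻¹)⁻¹ j) = c.box (e j)
        rw [inv_inv]
      · rw [← h2]
        funext j
        show x ((e⁻¹)⁻¹ j) = x (e j)
        rw [inv_inv]
    · rintro ⟨g, h⟩
      rw [← h]
      apply Subtype.ext
      exact (FN.toConf_re (T := Dl p) x g⁻¹ c).symm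

/-- **The piece with `n` boxes is exact below `n * m`.** -/
theorem acy_piece {k : Type} [Field k] (T : PSS) {m : ℕ} (h : (ch k T).Acy m) (n : ℕ) :
    (ch k (Pc T n)).Acy (n * m) := by
  have h1 : (ch k (OT T n)).Acy (0 + n * m) := smash_acy (SMod.acy_zero _) (T.pow_acy h n)
  rw [Nat.zero_add] at h1
  exact (isOrbit_toPc T n).acy h1

end Vale.Agent.P263.G2
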