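import Vale.Agent.P263.GB.Range1

/-!
# P263, block G2 (range), part 2: all configurations with at least two boxes

`acy_ge_two` : the families of configurations with at least two boxes (relative to those with at
most one) are exact below `2 m` if `ch T` is exact below `m`.
-/

open Vale.Agent.P263.S Vale.Agent.P263.E

namespace Vale.Agent.P263.G2

open Vale.Agent.P263.GR

variable {k : Type} [Field k] (T : PSS)

/-- the configurations with at least two boxes -/
noncomputable abbrev Q2 : PSS := QP T (fun a => 2 ≤ a) (cvx_ge 2)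

variable {T}

/-- the chains supported on at most `b` boxes -/
def Fil (k : Type) [Field k] (T : PSS) (b p : ℕ) : Submodule k ((ch k (Q2 T)).obj p) :=
  Finsupp.supported k k {S : (Q2 T).obj p | cardP S.1 ≤ b}

theorem Fil_le_of {b p : ℕ} {N : Submodule k ((ch k (Q2 T)).obj p)}
    (h : ∀ S : (Q2 T).obj p, cardP S.1 ≤ b → bas k S ∈ N) : Fil k T b p ≤ N := by
  have e : Fil k T b p = Submodule.span k ((fun S : (Q2 T).obj p => bas k S) ''
      {S : (Q2 T).obj p | cardP S.1 ≤ b}) := Finsupp.supported_eq_span_single k _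
  rw [e, Submodule.span_le]
  rintro _ ⟨S, hS, rfl⟩
  exact h S hS

theorem bas_mem_Fil {b p : ℕ} {S : (Q2 T).obj p} (h : cardP S.1 ≤ b) : bas k S ∈ Fil k T b p :=
  Finsupp.single_mem_supported k 1 h

theorem map_mem_Fil {b p q : ℕ} (f : Op p q) {z : (ch k (Q2 T)).obj q} (hz : z ∈ Fil k T b q) :
    (ch k (Q2 T)).map f z ∈ Fil k T b p := by
  have : Fil k T b q ≤ (Fil k T b p).comap ((ch k (Q2 T)).map f) := by
    refine Fil_le_of fun S hS => ?_
    rw [Submodule.mem_comap, map_bas]
    by_cases h : 2 ≤ cardP ((PF T).map f S.1)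
    · rw [QP_map_pos f S h]
      exact bas_mem_Fil (le_trans (cardP_map_le T f S.1) hS)
    · rw [QP_map_neg f S h]
      exact Submodule.zero_mem _
  exact this hz

theorem bd_mem_Fil {b p : ℕ} {z : (ch k (Q2 T)).obj (p + 1)} (hz : z ∈ Fil k T b (p + 1)) :
    (ch k (Q2 T)).bd p z ∈ Fil k T b p := by
  rw [GR.SMod.bd_apply]
  refine Submodule.sum_mem _ fun i _ => ?_
  exact zsmul_mem (map_mem_Fil (dl p i) hz) ((-1 : ℤ) ^ i)

open Classical in
/-- restriction to exactly `b` boxes, on simplices -/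
noncomputable def resO (b : ℕ) {p : ℕ} (S : (Q2 T).obj p) : Option ((Pc T b).obj p) :=
  if h : cardP S.1 = b then some ⟨S.1, h⟩ else none

theorem resO_pos {b p : ℕ} (S : (Q2 T).obj p) (h : cardP S.1 = b) : resO b S = some ⟨S.1, h⟩ :=
  dif_pos h

theorem resO_neg {b p : ℕ} (S : (Q2 T).obj p) (h : ¬ cardP S.1 = b) : resO b S = none :=
  dif_neg h

/-- restriction to exactly `b` boxes -/
noncomputable def res (k : Type) [Field k] (b : ℕ) {p : ℕ} :
    (ch k (Q2 T)).obj p →ₗ[k] (ch k (Pc T b)).obj p := chMap k (resO (T := T) b)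

theorem res_bas {b p : ℕ} (S : (Q2 T).obj p) :
    res k b (bas k S) = optS k (resO b S) := chMap_single _ _

/-- extension by zero -/
noncomputable def ext0 (k : Type) [Field k] {b : ℕ} (hb : 2 ≤ b) {p : ℕ} :
    (ch k (Pc T b)).obj p →ₗ[k] (ch k (Q2 T)).obj p :=
  Finsupp.lmapDomain k k fun S : (Pc T b).obj p => (⟨S.1, by rw [S.2]; exact hb⟩ : (Q2 T).obj p)

theorem ext0_bas {b : ℕ} (hb : 2 ≤ b) {p : ℕ} (S : (Pc T b).obj p) :
    ext0 k hb (bas k S) = bas k (⟨S.1, by rw [S.2]; exact hb⟩ : (Q2 T).obj p) :=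
  Finsupp.mapDomain_single

theorem res_map_bas {b p q : ℕ} (hb : 2 ≤ b) (f : Op p q) (S : (Q2 T).obj q)
    (hS : cardP S.1 ≤ b) :
    ((Q2 T).map f S).bind (resO b) = (resO b S).bind ((Pc T b).map f) := by
  by_cases h1 : cardP S.1 = b
  · rw [resO_pos S h1]
    by_cases h2 : cardP ((PF T).map f S.1) = b
    · have e1 := QP_map_pos (hP := cvx_ge 2) f S (by rw [h2]; exact hb)
      have e2 := QP_map_pos (P := fun a => a = b) (hP := cvx_eq b) f ⟨S.1, h1⟩ h2
      rw [e1]
      exact (resO_pos _ h2).trans e2.symm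
    · have e2 := QP_map_neg (P := fun a => a = b) (hP := cvx_eq b) f ⟨S.1, h1⟩ h2
      refine Eq.trans ?_ e2.symm
      by_cases h3 : 2 ≤ cardP ((PF T).map f S.1)
      · rw [QP_map_pos (hP := cvx_ge 2) f S h3]
        exact resO_neg _ h2
      · rw [QP_map_neg (hP := cvx_ge 2) f S h3]
        rfl
  · rw [resO_neg S h1]
    by_cases h3 : 2 ≤ cardP ((PF T).map f S.1)
    · rw [QP_map_pos (hP := cvx_ge 2) f S h3]
      refine resO_neg _ fun h5 => ?_
      have h4 := cardP_map_le T f S.1
      have h5' : cardP ((PF T).map f S.1) = b := h5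
      omega
    · rw [QP_map_neg (hP := cvx_ge 2) f S h3]
      rfl

theorem res_map {b p q : ℕ} (hb : 2 ≤ b) (f : Op p q) {z : (ch k (Q2 T)).obj q}
    (hz : z ∈ Fil k T b q) :
    res k b ((ch k (Q2 T)).map f z) = (ch k (Pc T b)).map f (res k b z) := by
  have : Fil k T b q ≤ LinearMap.eqLocus ((res k b).comp ((ch k (Q2 T)).map f))
      (((ch k (Pc T b)).map f).comp (res k b)) := by
    refine Fil_le_of fun S hS => ?_
    have h1 : res k b ((ch k (Q2 T)).map f (bas k S)) = optS k (((Q2 T).map f S).bind (resO b)) :=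
      (congrArg (res k b) (map_bas f S)).trans (chMap_optS _ _)
    have h2 : (ch k (Pc T b)).map f (res k b (bas k S)) =
        optS k ((resO b S).bind ((Pc T b).map f)) :=
      (congrArg ((ch k (Pc T b)).map f) (res_bas S)).trans (chMap_optS _ _)
    exact h1.trans ((congrArg (optS k) (res_map_bas hb f S hS)).trans h2.symm)
  exact this hz

theorem res_bd {b p : ℕ} (hb : 2 ≤ b) {z : (ch k (Q2 T)).obj (p + 1)}
    (hz : z ∈ Fil k T b (p + 1)) :
    res k b ((ch k (Q2 T)).bd p z) = (ch k (Pc T b)).bd p (res k b z) := by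
  rw [GR.SMod.bd_apply, GR.SMod.bd_apply, map_sum]
  refine Finset.sum_congr rfl fun i _ => ?_
  rw [CosMod.sn_lin, res_map hb _ hz]

theorem res_ext0 {b : ℕ} (hb : 2 ≤ b) {p : ℕ} (y : (ch k (Pc T b)).obj p) :
    res k b (ext0 k hb y) = y := by
  have : (res k b).comp (ext0 k hb (T := T) (p := p)) = LinearMap.id := by
    refine ch_ext fun S => ?_
    have h1 : res k b (ext0 k hb (bas k S)) =
        optS k (resO b (⟨S.1, by rw [S.2]; exact hb⟩ : (Q2 T).obj p)) :=
      (congrArg (res k b) (ext0_bas hb S)).trans (res_bas _)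
    exact h1.trans (congrArg (optS k) (resO_pos _ S.2))
  exact LinearMap.congr_fun this y

theorem ext0_mem {b : ℕ} (hb : 2 ≤ b) {p : ℕ} (y : (ch k (Pc T b)).obj p) :
    ext0 k hb y ∈ Fil k T b p := by
  have : (⊤ : Submodule k ((ch k (Pc T b)).obj p)) ≤ (Fil k T b p).comap (ext0 k hb) := by
    have e : (⊤ : Submodule k ((ch k (Pc T b)).obj p)) = Submodule.span k
        ((fun S : (Pc T b).obj p => bas k S) '' Set.univ) := by
      have := Finsupp.supported_eq_span_single k (Set.univ : Set ((Pc T b).obj p))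
      rw [Finsupp.supported_univ] at this
      exact this
    rw [e, Submodule.span_le]
    rintro _ ⟨S, -, rfl⟩
    show ext0 k hb (bas k S) ∈ Fil k T b p
    rw [ext0_bas]
    exact bas_mem_Fil (le_of_eq S.2)
  exact this trivial

theorem sub_mem_Fil {b : ℕ} (hb : 2 ≤ b) {p : ℕ} {z : (ch k (Q2 T)).obj p}
    (hz : z ∈ Fil k T b p) : z - ext0 k hb (res k b z) ∈ Fil k T (b - 1) p := by
  have : Fil k T b p ≤ (Fil k T (b - 1) p).comap
      (LinearMap.id - (ext0 k hb).comp (res k b)) := by
    refine Fil_le_of fun S hS => ?_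
    show bas k S - ext0 k hb (res k b (bas k S)) ∈ Fil k T (b - 1) p
    rw [res_bas]
    by_cases h : cardP S.1 = b
    · rw [resO_pos S h]
      have e : ext0 k hb (optS k (some (⟨S.1, h⟩ : (Pc T b).obj p))) = bas k S :=
        ext0_bas hb ⟨S.1, h⟩
      rw [e, sub_self]
      exact Submodule.zero_mem _
    · rw [resO_neg S h]
      have e : ext0 k hb (optS k (none : Option ((Pc T b).obj p))) = 0 := map_zero _
      rw [e, sub_zero]
      exact bas_mem_Fil (by omega)
  exact this hz

theorem Fil_one {b : ℕ} (hb : b < 2) {p : ℕ} {z : (ch k (Q2 T)).obj p} (hz : z ∈ Fil k T b p) :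
    z = 0 := by
  have : Fil k T b p ≤ ⊥ := Fil_le_of fun S hS => by
    have := S.2
    omega
  exact (Submodule.mem_bot k).1 (this hz)

theorem exists_mem_Fil {p : ℕ} (z : (ch k (Q2 T)).obj p) : ∃ b, z ∈ Fil k T b p := by
  classical
  let s : Finset ((Q2 T).obj p) := Finsupp.support z
  refine ⟨s.sup fun S => cardP S.1, ?_⟩
  refine (Finsupp.mem_supported k _).2 fun S hS => ?_
  exact Finset.le_sup (f := fun S : (Q2 T).obj p => cardP S.1) hS

/-- **At least two boxes: exact below `2 m`.** -/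
theorem acy_ge_two {m : ℕ} (h : (ch k T).Acy m) : (ch k (Q2 T)).Acy (2 * m) := by
  intro j hj
  have key : ∀ b : ℕ, ∀ z ∈ Fil k T b j, (ch k (Q2 T)).Cyc j z →
      ∃ w, (ch k (Q2 T)).bd j w = z := by
    intro b
    induction b with
    | zero =>
      intro z hz _
      exact ⟨0, by rw [map_zero, Fil_one (by omega) hz]⟩
    | succ b ih =>
      intro z hz hc
      by_cases hb : 2 ≤ b + 1
      · have hr : (ch k (Pc T (b + 1))).Cyc j (res k (b + 1) z) := by
          cases j with
          | zero => trivial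
          | succ j =>
            rw [GR.SMod.cyc_succ] at *
            rw [← res_bd hb hz, hc, map_zero]
        obtain ⟨y, hy⟩ := acy_piece T h (b + 1) j (lt_of_lt_of_le hj
          (Nat.mul_le_mul_right m hb)) _ hr
        have hw : ext0 k hb y ∈ Fil k T (b + 1) (j + 1) := ext0_mem hb y
        have hz' : z - (ch k (Q2 T)).bd j (ext0 k hb y) ∈ Fil k T (b + 1) j :=
          Submodule.sub_mem _ hz (bd_mem_Fil hw)
        have hr' : res k (b + 1) (z - (ch k (Q2 T)).bd j (ext0 k hb y)) = 0 := by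
          rw [map_sub, res_bd hb hw, res_ext0, hy, sub_self]
        have hz'' := sub_mem_Fil hb hz'
        rw [hr', map_zero, sub_zero] at hz''
        obtain ⟨w, hw'⟩ := ih _ hz'' (hc.sub ((ch k (Q2 T)).cyc_bd j _))
        exact ⟨ext0 k hb y + w, by rw [map_add, hw']; abel⟩
      · exact ⟨0, by rw [map_zero, Fil_one (by omega) hz]⟩
  intro z hz
  obtain ⟨b, hb⟩ := exists_mem_Fil z
  exact key b z hb hz

end Vale.Agent.P263.G2
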