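import Vale.Agent.P263.GB.Range2
import Vale.Agent.P263.GB.Htp
import Vale.Agent.P263.G2.BoxGam

/-!
# P263, block G2 (range), part 3: at most one box

* `Conf.grow u S` : the boxes of a configuration with at most one box, grown to the full box.
* `Conf.lab` : the label of the unique box.
* `XT T`, `Y1 T`, `uY : XT T → Y1 T` (the full box with a given label), `rz0_uY` : this is a
  simplicial homotopy equivalence.
-/

open Vale.Agent.P263.S Vale.Agent.P263.E

namespace Vale.Agent.P263.G2

open Vale.Agent.P263.GR Vale.Agent.P263.GB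

section

variable {K L : Type} {T T' : Type} [TopologicalSpace T] [TopologicalSpace T']

/-- a family of boxes, grown to the full box -/
noncomputable def growB (u : C(T, unitInterval)) (b : C(T, Bx)) : C(T, Bx) :=
  ⟨fun t i => Iv.mix (u t) (b t i) Iv.full, continuous_pi fun i =>
    u.continuous.ivMix ((continuous_apply i).comp b.continuous) continuous_const⟩

theorem growB_apply (u : C(T, unitInterval)) (b : C(T, Bx)) (t : T) (i : ℕ) :
    growB u b t i = Iv.mix (u t) (b t i) Iv.full := rfl

theorem growB_comp (u : C(T, unitInterval)) (b : C(T, Bx)) (g : C(T', T)) :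
    (growB u b).comp g = growB (u.comp g) (b.comp g) := rfl

theorem growB_zero {u : C(T, unitInterval)} (hu : ∀ t, u t = 0) (b : C(T, Bx)) :
    growB u b = b := by
  apply ContinuousMap.ext
  intro t
  funext i
  rw [growB_apply, hu, Iv.mix_zero]

theorem growB_one {u : C(T, unitInterval)} (hu : ∀ t, u t = 1) (b : C(T, Bx)) :
    growB u b = ContinuousMap.const _ (fun _ => Iv.full) := by
  apply ContinuousMap.ext
  intro t
  funext i
  rw [growB_apply, hu, Iv.mix_one]
  rfl

namespace Conf

open Classical in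
/-- the boxes of a configuration with at most one box, grown to the full box -/
noncomputable def grow (u : C(T, unitInterval)) (S : Conf K T) (h : S.pts.card ≤ 1) :
    Conf K T where
  pts := S.pts.image fun x => (growB u x.1, x.2)
  stage := by
    obtain ⟨r, hr⟩ := S.stage
    refine ⟨r, fun x hx t i hi => ?_⟩
    obtain ⟨y, hy, rfl⟩ := Finset.mem_image.1 hx
    show Iv.mix (u t) (y.1 t i) Iv.full = Iv.full
    rw [hr y hy t i hi, Iv.mix_self]
  disj := by
    intro x hx y hy hxy
    obtain ⟨x', hx', rfl⟩ := Finset.mem_image.1 hx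
    obtain ⟨y', hy', rfl⟩ := Finset.mem_image.1 hy
    exact absurd (by rw [Finset.card_le_one.1 h x' hx' y' hy']) hxy

theorem mem_grow {u : C(T, unitInterval)} {S : Conf K T} {h : S.pts.card ≤ 1}
    {y : C(T, Bx) × K} : y ∈ (S.grow u h).pts ↔ ∃ b, (b, y.2) ∈ S.pts ∧ growB u b = y.1 := by
  classical
  show y ∈ S.pts.image _ ↔ _
  rw [Finset.mem_image]
  constructor
  · rintro ⟨x, hx, rfl⟩
    exact ⟨x.1, hx, rfl⟩
  · rintro ⟨b, hb, h⟩
    exact ⟨(b, y.2), hb, Prod.ext h rfl⟩

theorem card_grow (u : C(T, unitInterval)) (S : Conf K T) (h : S.pts.card ≤ 1) :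
    (S.grow u h).pts.card ≤ 1 := by
  classical
  exact le_trans Finset.card_image_le h

theorem grow_pull [Nonempty T] [Nonempty T'] (u : C(T, unitInterval)) (S : Conf K T)
    (h : S.pts.card ≤ 1) (g : C(T', T)) (h' : (S.pull g).pts.card ≤ 1) :
    (S.pull g).grow (u.comp g) h' = (S.grow u h).pull g := by
  apply Conf.ext
  ext y
  rw [mem_grow, mem_pull]
  constructor
  · rintro ⟨b, hb, h1⟩
    rw [mem_pull] at hb
    obtain ⟨c, hc, h2⟩ := hb
    refine ⟨growB u c, mem_grow.2 ⟨c, hc, rfl⟩, ?_⟩
    rw [growB_comp, ← h1]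
    congr 1
  · rintro ⟨c, hc, h1⟩
    rw [mem_grow] at hc
    obtain ⟨b, hb, h2⟩ := hc
    refine ⟨b.comp g, mem_pull.2 ⟨b, hb, rfl⟩, ?_⟩
    rw [← h1, ← growB_comp]
    congr 1

theorem grow_map (u : C(T, unitInterval)) (S : Conf K T)
    (h : S.pts.card ≤ 1) (f : K → Option L) (h' : (S.map f).pts.card ≤ 1) :
    (S.map f).grow u h' = (S.grow u h).map f := by
  apply Conf.ext
  ext y
  rw [mem_grow, mem_map]
  constructor
  · rintro ⟨b, hb, h1⟩
    rw [mem_map] at hb
    obtain ⟨l, hl, h2⟩ := hb
    exact ⟨l, mem_grow.2 ⟨b, hl, h1⟩, h2⟩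
  · rintro ⟨l, hl, h1⟩
    rw [mem_grow] at hl
    obtain ⟨b, hb, h2⟩ := hl
    exact ⟨b, mem_map.2 ⟨l, hb, h1⟩, h2⟩

open Classical in
/-- the label of the unique box -/
noncomputable def lab (S : Conf K T) : Option K :=
  if h : ∃ x, x ∈ S.pts then some h.choose.2 else none

theorem lab_eq_some {S : Conf K T} (h : S.pts.card ≤ 1) {k : K} :
    S.lab = some k ↔ ∃ b, (b, k) ∈ S.pts := by
  classical
  unfold lab
  constructor
  · intro h1
    split_ifs at h1 with h2
    · cases h1
      exact ⟨h2.choose.1, h2.choose_spec⟩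
  · rintro ⟨b, hb⟩
    have h2 : ∃ x, x ∈ S.pts := ⟨_, hb⟩
    rw [dif_pos h2]
    have := Finset.card_le_one.1 h _ h2.choose_spec _ hb
    rw [this]

theorem lab_pull [Nonempty T] [Nonempty T'] (S : Conf K T) (h : S.pts.card ≤ 1)
    (g : C(T', T)) : (S.pull g).lab = S.lab := by
  have h' : (S.pull g).pts.card ≤ 1 := by rw [card_pull]; exact h
  apply Option.ext
  intro k
  show (S.pull g).lab = some k ↔ S.lab = some k
  rw [lab_eq_some h, lab_eq_some h']
  constructor
  · rintro ⟨b, hb⟩
    rw [mem_pull] at hb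
    obtain ⟨c, hc, -⟩ := hb
    exact ⟨c, hc⟩
  · rintro ⟨b, hb⟩
    exact ⟨b.comp g, mem_pull.2 ⟨b, hb, rfl⟩⟩

theorem lab_map [Nonempty T] (S : Conf K T) (h : S.pts.card ≤ 1) (f : K → Option L) :
    (S.map f).lab = S.lab.bind f := by
  have h' : (S.map f).pts.card ≤ 1 := le_trans (card_map_le f S) h
  apply Option.ext
  intro l
  show (S.map f).lab = some l ↔ S.lab.bind f = some l
  rw [lab_eq_some h', Option.bind_eq_some_iff]
  constructor
  · rintro ⟨b, hb⟩
    rw [mem_map] at hb
    obtain ⟨k, hk, h1⟩ := hb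
    exact ⟨k, (lab_eq_some h).2 ⟨b, hk⟩, h1⟩
  · rintro ⟨k, hk, h1⟩
    obtain ⟨b, hb⟩ := (lab_eq_some h).1 hk
    exact ⟨b, mem_map.2 ⟨k, hb, h1⟩⟩

/-- the full box with label `x`, or nothing -/
noncomputable def uno (T : Type) [TopologicalSpace T] (x : Option K) : Conf K T :=
  x.elim empty (unit T)

@[simp] theorem uno_none : (uno T (none : Option K)) = empty := rfl

@[simp] theorem uno_some (k : K) : uno T (some k) = unit T k := rfl

theorem card_uno (x : Option K) : (uno T x).pts.card ≤ 1 := by
  cases x with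
  | none => exact Nat.zero_le _
  | some k => exact le_of_eq (card_unit k)

theorem pull_uno (g : C(T', T)) (x : Option K) : (uno T x).pull g = uno T' x := by
  cases x with
  | none => exact pull_empty g
  | some k => exact pull_unit g k

theorem map_uno (f : K → Option L) (x : Option K) : (uno T x).map f = uno T (x.bind f) := by
  cases x with
  | none => exact map_empty f
  | some k =>
    show (unit T k).map f = uno T (f k)
    cases h : f k with
    | none => exact map_unit_none h
    | some l => exact map_unit_some h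

theorem mem_uno {x : Option K} {y : C(T, Bx) × K} :
    y ∈ (uno T x).pts ↔ x = some y.2 ∧ y.1 = ContinuousMap.const _ (fun _ => Iv.full) := by
  cases x with
  | none =>
    rw [uno_none, pts_empty]
    constructor
    · intro h; exact absurd h (Finset.notMem_empty _)
    · rintro ⟨h, -⟩; cases h
  | some k =>
    rw [uno_some, mem_unit]
    constructor
    · rintro rfl; exact ⟨rfl, rfl⟩
    · rintro ⟨h1, h2⟩
      exact Prod.ext h2 (Option.some.inj h1).symm

theorem lab_uno (x : Option K) : (uno T x).lab = x := by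
  apply Option.ext
  intro k
  show (uno T x).lab = some k ↔ x = some k
  rw [lab_eq_some (card_uno x)]
  constructor
  · rintro ⟨b, hb⟩
    exact (mem_uno.1 hb).1
  · intro h
    exact ⟨_, mem_uno.2 ⟨h, rfl⟩⟩

theorem grow_zero {u : C(T, unitInterval)} (hu : ∀ t, u t = 0) (S : Conf K T)
    (h : S.pts.card ≤ 1) : S.grow u h = S := by
  apply Conf.ext
  ext y
  rw [mem_grow]
  constructor
  · rintro ⟨b, hb, h1⟩
    rw [growB_zero hu] at h1
    rw [h1] at hb
    exact hb
  · intro hy
    exact ⟨y.1, hy, growB_zero hu _⟩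

theorem grow_one {u : C(T, unitInterval)} (hu : ∀ t, u t = 1) (S : Conf K T)
    (h : S.pts.card ≤ 1) : S.grow u h = uno T S.lab := by
  apply Conf.ext
  ext y
  rw [mem_grow, mem_uno, lab_eq_some h]
  constructor
  · rintro ⟨b, hb, h1⟩
    exact ⟨⟨b, hb⟩, by rw [← h1, growB_one hu]⟩
  · rintro ⟨⟨b, hb⟩, h1⟩
    exact ⟨b, hb, by rw [h1, growB_one hu]⟩

end Conf

end

/-! ### the simplicial sets -/

variable (T : PSS)

/-- the partial simplicial set `T` with a base point added -/
abbrev XT : SS where
  obj p := Option (T.obj p)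
  map f x := x.bind (T.map f)
  map_id x := by
    cases x with
    | none => rfl
    | some x => exact T.map_id x
  map_comp f g x := by
    cases x with
    | none => rfl
    | some x => exact T.map_comp f g x

theorem XT_map {p q : ℕ} (f : Op p q) (x : Option (T.obj q)) :
    (XT T).map f x = x.bind (T.map f) := rfl

/-- the full box with a given label, or nothing -/
noncomputable def uT : SS.Map (XT T) (PF T) where
  app {p} x := Conf.uno (Dl p) x
  nat {p q} f x := by
    show Conf.uno (Dl p) ((XT T).map f x) =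
      Conf.map (T.map f) (Conf.pull (dmap f) (Conf.uno (Dl q) x))
    rw [Conf.pull_uno, Conf.map_uno]

theorem uT_app {p : ℕ} (x : Option (T.obj p)) :
    (uT T).app (p := p) x = Conf.uno (Dl p) x := rfl

/-- the configurations with at most one box -/
noncomputable abbrev Y1 : SS where
  obj p := {S : (PF T).obj p // cardP S ≤ 1}
  map f S := ⟨(PF T).map f S.1, le_trans (cardP_map_le T f S.1) S.2⟩
  map_id S := Subtype.ext ((PF T).map_id S.1)
  map_comp f g S := Subtype.ext ((PF T).map_comp f g S.1)

/-- the inclusion -/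
noncomputable def Y1.incl : SS.Map (Y1 T) (PF T) := ⟨fun S => S.1, fun _ _ => rfl⟩

/-- `uT` with values in the configurations with at most one box -/
noncomputable def uY : SS.Map (XT T) (Y1 T) where
  app {p} x := ⟨Conf.uno (Dl p) x, Conf.card_uno _⟩
  nat f x := Subtype.ext ((uT T).nat f x)

theorem incl_uY : (Y1.incl T).comp (uY T) = uT T := rfl

/-- the label -/
noncomputable def l1 : SS.Map (Y1 T) (XT T) where
  app {p} S := Conf.lab (T := Dl p) S.1
  nat {p q} f S := by
    have h1 : Conf.lab (T := Dl p) (Conf.pull (dmap f) S.1) = Conf.lab (T := Dl q) S.1 :=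
      Conf.lab_pull (T := Dl q) S.1 S.2 (dmap f)
    have h2 := Conf.lab_map (T := Dl p) (Conf.pull (dmap f) S.1)
      (by rw [Conf.card_pull]; exact S.2) (T.map f)
    rw [h1] at h2
    exact h2

/-- growing the box -/
noncomputable def gT : SS.Htp (Y1 T) (Y1 T) where
  h p χ S := ⟨Conf.grow (T := Dl p) (chiI χ) S.1 S.2, Conf.card_grow _ _ _⟩
  nat {p q} f χ S := by
    apply Subtype.ext
    have hc : (Conf.pull (dmap f) (S.1 : Conf (T.obj q) (Dl q))).pts.card ≤ 1 := by
      rw [Conf.card_pull]; exact S.2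
    have hu : chiI (χ.comp f) = (chiI χ).comp (dmap f) := chiI_comp χ f
    have h1 := Conf.grow_map (T := Dl p) (chiI (χ.comp f)) (Conf.pull (dmap f) S.1) hc (T.map f)
      (le_trans (cardP_map_le T f S.1) S.2)
    refine h1.trans ?_
    have h2 : Conf.grow (T := Dl p) (chiI (χ.comp f)) (Conf.pull (dmap f) S.1) hc =
        Conf.pull (dmap f) (Conf.grow (T := Dl q) (chiI χ) S.1 S.2) := by
      rw [← Conf.grow_pull (T := Dl q) (chiI χ) S.1 S.2 (dmap f) hc]
      congr 1
    exact congrArg (Conf.map (T.map f)) h2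

theorem gT_e0 : (gT T).e0 = SS.Map.id _ := by
  apply SS.Map.ext
  intro p S
  exact Subtype.ext (Conf.grow_zero (T := Dl p) (fun t => chiI_c0 t) S.1 S.2)

theorem gT_e1 : (gT T).e1 = (uY T).comp (l1 T) := by
  apply SS.Map.ext
  intro p S
  exact Subtype.ext (Conf.grow_one (T := Dl p) (fun t => chiI_c1 t) S.1 S.2)

theorem l1_uY : (l1 T).comp (uY T) = SS.Map.id _ := by
  apply SS.Map.ext
  intro p x
  exact Conf.lab_uno (T := Dl p) (K := T.obj p) x

/-- **At most one box: the full boxes are a deformation retract.** -/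
theorem rz0_uY (R : Type) [CommRing R] (n : ℕ) : RZ0 (freeMap R (uY T)).cx n :=
  rz0_of_htp (uY T) (l1 T) (by rw [l1_uY]; exact HtpRel.refl _)
    ⟨gT T, Or.inl ⟨gT_e0 T, gT_e1 T⟩⟩ n

end Vale.Agent.P263.G2
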