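import Vale.Agent.P263.GB.Range3
import Vale.Agent.P263.GB.SMT
import Vale.Agent.P263.GB.Cone

/-!
# P263, block G2 (range), part 4: full boxes against all configurations

* `rz0_of_ses` : the relative homology of an injection is the homology of the cokernel.
* `rz0_uT` : **if `ch T` is exact below `m`, the map `XT T → PF T` (one full box with a given
  label, or nothing) has vanishing relative homology below `2 m`.**
-/

open Vale.Agent.P263.S Vale.Agent.P263.E

namespace Vale.Agent.P263.G2

open Vale.Agent.P263.GR Vale.Agent.P263.GB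

/-- the relative homology of an injection is the homology of the cokernel -/
theorem rz0_of_ses {R : Type} [CommRing R] {A B C : Cx R} {i : Cx.Hom A B} {r : Cx.Hom B C}
    (h : Cx.SES i r) (n : ℕ) (hC : C.HZ n) : RZ0 i n := by
  cases n with
  | zero =>
    rw [rz0_zero]
    intro b
    obtain ⟨c, hc⟩ := hC (r.app 0 b) trivial
    obtain ⟨b', rfl⟩ := h.surj 1 c
    obtain ⟨a, ha⟩ := h.exact 0 (b - B.d 0 b') (by rw [map_sub, r.comm, hc, sub_self])
    exact ⟨b', a, by rw [ha]; abel⟩
  | succ n =>
    rw [rz0_succ]
    intro b a ha hab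
    have hb : B.d n b = - i.app n a := eq_neg_of_add_eq_zero_left hab
    obtain ⟨c, hc⟩ := hC (r.app (n + 1) b) (by
      rw [Cx.cyc_succ, ← r.comm, hb, map_neg, h.zero, neg_zero])
    obtain ⟨b', rfl⟩ := h.surj (n + 2) c
    obtain ⟨a', ha'⟩ := h.exact (n + 1) (b - B.d (n + 1) b') (by
      rw [map_sub, r.comm, hc, sub_self])
    refine ⟨b', a', by rw [ha']; abel, h.inj n ?_⟩
    rw [map_neg, i.comm, ha', map_sub, B.dd, hb]
    abel

/-- simplicial modules of block `GR` as simplicial modules of block `GB` -/
def toGB {R : Type} [CommRing R] (V : GR.SMod R) : GB.SMod R where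
  obj := V.obj
  grp := V.grp
  mod := V.mod
  map := V.map
  map_id := V.map_id_apply
  map_comp f g x := (V.map_map f g x).symm

theorem hz_of_acy {R : Type} [CommRing R] {V : GR.SMod R} {m : ℕ} (h : V.Acy m) {t : ℕ}
    (ht : t < m) : (toGB V).cx.HZ t := by
  intro x hx
  refine h t ht x ?_
  cases t with
  | zero => trivial
  | succ t => exact hx

variable (k : Type) [Field k] (T : PSS)

/-- the configurations with at least two boxes, the others are dropped -/
noncomputable def twoO {T : PSS} {p : ℕ} (S : (PF T).obj p) : Option ((Q2 T).obj p) :=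
  open Classical in if h : 2 ≤ cardP S then some ⟨S, h⟩ else none

theorem twoO_pos {T : PSS} {p : ℕ} (S : (PF T).obj p) (h : 2 ≤ cardP S) :
    twoO S = some (⟨S, h⟩ : (Q2 T).obj p) := dif_pos h

theorem twoO_neg {T : PSS} {p : ℕ} (S : (PF T).obj p) (h : ¬ 2 ≤ cardP S) : twoO S = none :=
  dif_neg h

theorem twoO_map {T : PSS} {p q : ℕ} (f : Op p q) (S : (PF T).obj q) :
    twoO ((PF T).map f S) = (twoO S).bind ((Q2 T).map f) := by
  by_cases h : 2 ≤ cardP S
  · rw [twoO_pos S h]
    show _ = (Q2 T).map f ⟨S, h⟩
    by_cases h1 : 2 ≤ cardP ((PF T).map f S)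
    · rw [twoO_pos _ h1]
      exact (QP_map_pos (P := fun a => 2 ≤ a) (hP := cvx_ge 2) f ⟨S, h⟩ h1).symm
    · rw [twoO_neg _ h1]
      exact (QP_map_neg (P := fun a => 2 ≤ a) (hP := cvx_ge 2) f ⟨S, h⟩ h1).symm
  · rw [twoO_neg S h, twoO_neg _ fun h1 => h (le_trans h1 (cardP_map_le T f S))]
    rfl

/-- the projection of the chains to the configurations with at least two boxes -/
noncomputable def twoQ : SMod.Hom (free k (PF T)) (toGB (ch k (Q2 T))) where
  app p := (chMap k (twoO (T := T) (p := p)) :
    ((PF T).obj p →₀ k) →ₗ[k] ((Q2 T).obj p →₀ k))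
  nat {p q} f x := by
    have h : (chMap k (twoO (T := T) (p := p))).comp
        (Finsupp.lmapDomain k k ((PF T).map f)) =
        (chMap k ((Q2 T).map f)).comp (chMap k (twoO (T := T) (p := q))) := by
      refine fin_ext fun S => ?_
      rw [LinearMap.comp_apply, LinearMap.comp_apply, Finsupp.lmapDomain_apply,
        Finsupp.mapDomain_single, chMap_single, chMap_single, chMap_optS, twoO_map]
    exact LinearMap.congr_fun h x

theorem twoQ_single {p : ℕ} (S : (PF T).obj p) :
    (twoQ k T).app p (Finsupp.single S 1) = optS k (twoO S) := chMap_single _ _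

theorem twoQ_apply {p : ℕ} (x : (PF T).obj p →₀ k) (S : (Q2 T).obj p) :
    (chMap k (twoO (T := T) (p := p)) x : (Q2 T).obj p →₀ k) S = x S.1 := by
  classical
  have h : (Finsupp.lapply S : ((Q2 T).obj p →₀ k) →ₗ[k] k).comp
      (chMap k (twoO (T := T) (p := p))) = Finsupp.lapply S.1 := by
    refine fin_ext fun S' => ?_
    rw [LinearMap.comp_apply, chMap_single]
    show (optS k (twoO S') : (Q2 T).obj p →₀ k) S = (Finsupp.single S' 1 : (PF T).obj p →₀ k) S.1
    by_cases h : 2 ≤ cardP S'
    · rw [twoO_pos S' h, optS_some, Finsupp.single_apply, Finsupp.single_apply]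
      refine if_congr ?_ rfl rfl
      constructor
      · intro h1; exact congrArg Subtype.val h1
      · intro h1; exact Subtype.ext h1
    · rw [twoO_neg S' h, optS_none, Finsupp.single_apply, if_neg]
      · rfl
      · rintro rfl
        exact h S.2
  exact LinearMap.congr_fun h x

theorem ses_two : SES (freeMap k (Y1.incl T)) (twoQ k T) where
  inj p := Finsupp.mapDomain_injective Subtype.val_injective
  exact p x hx := by
    classical
    let x' : (PF T).obj p →₀ k := x
    have hs : ∀ S ∈ x'.support, cardP S ≤ 1 := by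
      intro S hS
      by_contra hc
      have h2 : 2 ≤ cardP S := by omega
      have h3 := twoQ_apply k T x' ⟨S, h2⟩
      have h4 : (chMap k (twoO (T := T) (p := p)) x' : (Q2 T).obj p →₀ k) = 0 := hx
      rw [h4] at h3
      exact (Finsupp.mem_support_iff.1 hS) h3.symm
    have hr : (↑x'.support : Set ((PF T).obj p)) ⊆ Set.range
        (Subtype.val : {S : (PF T).obj p // cardP S ≤ 1} → (PF T).obj p) := by
      intro S hS
      exact ⟨⟨S, hs S hS⟩, rfl⟩
    refine ⟨(Finsupp.comapDomain Subtype.val x' Subtype.val_injective.injOn :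
      {S : (PF T).obj p // cardP S ≤ 1} →₀ k), ?_⟩
    exact Finsupp.mapDomain_comapDomain _ Subtype.val_injective x' hr
  zero p x := by
    have h : (chMap k (twoO (T := T) (p := p))).comp
        (Finsupp.lmapDomain k k ((Y1.incl T).app (p := p))) = 0 := by
      refine fin_ext fun S => ?_
      rw [LinearMap.comp_apply, Finsupp.lmapDomain_apply,
        Finsupp.mapDomain_single, chMap_single]
      have : twoO ((Y1.incl T).app S) = none := twoO_neg _ (by
        have h := S.2
        have h' : cardP ((Y1.incl T).app S) ≤ 1 := h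
        omega)
      rw [this]
      rfl
    exact LinearMap.congr_fun h x
  surj p y := by
    classical
    let y' : (Q2 T).obj p →₀ k := y
    refine ⟨(Finsupp.mapDomain Subtype.val y' : (PF T).obj p →₀ k), ?_⟩
    have h : (chMap k (twoO (T := T) (p := p))).comp
        (Finsupp.lmapDomain k k (Subtype.val : (Q2 T).obj p → (PF T).obj p)) =
        LinearMap.id := by
      refine fin_ext fun S => ?_
      rw [LinearMap.comp_apply, Finsupp.lmapDomain_apply,
        Finsupp.mapDomain_single, chMap_single, twoO_pos S.1 S.2]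
      rfl
    exact LinearMap.congr_fun h y'

variable {T}

/-- the inclusion of the configurations with at most one box -/
theorem rz0_incl {m : ℕ} (h : (ch k T).Acy m) {t : ℕ} (ht : t < 2 * m) :
    RZ0 (freeMap k (Y1.incl T)).cx t :=
  rz0_of_ses (ses_two k T).cx t (hz_of_acy (acy_ge_two h) ht)

/-- **Full boxes against all configurations.** -/
theorem rz0_uT {m : ℕ} (h : (ch k T).Acy m) {t : ℕ} (ht : t < 2 * m) :
    RZ0 (freeMap k (uT T)).cx t := by
  have e : (freeMap k (uT T)).cx =
      (freeMap k (Y1.incl T)).cx.comp (freeMap k (uY T)).cx := by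
    apply Cx.Hom.ext
    funext n
    apply LinearMap.ext
    intro x
    exact freeMap_comp_app (Y1.incl T) (uY T) x
  rw [e]
  exact rz0_comp _ _ t (rz0_uY T k t) (rz0_incl k h ht)

end Vale.Agent.P263.G2
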