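import Vale.Agent.P263.GB.Range4
import Vale.Agent.P263.GB.IdG
import Vale.Agent.P263.GB.SGam

/-!
# P263, block G2 (range), part 5: the range theorem

`rz0_range` : for a field `k`, a finite set `K` and `t < 2 N`, the map of simplicial sets
`(unit.BN N).app K : (Gam.Id.BN N).obj K → (gamF.BN N).obj K` (that is `S^N ∧ K₊ → B^N F (K₊)`,
`unit` = the full box) has vanishing relative homology in degree `t`.

Proof: levelwise bijections `gamF.BN N → GF (TN N)`, `Gam.Id.BN N → GX (TN N)`, where
`GF T K = PF (T ∧ K₊)`, `GX T K = XT (T ∧ K₊)` and `TN N` is the smash product of `N` circles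
(exact below `N`), and `rz0_uT`.
-/

open Vale.Agent.P263.S Vale.Agent.P263.E

namespace Vale.Agent.P263.G2

open Vale.Agent.P263.GR Vale.Agent.P263.GB

/-! ### the circle and its powers -/

/-- the circle as a partial simplicial set -/
noncomputable def cirP : PSS where
  obj p := Fin p
  map := circ
  map_id := circ_id
  map_comp := circ_comp

/-- a discrete partial simplicial set -/
@[reducible] def dscP (K : Type) : PSS where
  obj _ := K
  map _ := some
  map_id _ := rfl
  map_comp _ _ _ := rfl

theorem acy_cirP (k : Type) [Field k] : (ch k cirP).Acy 1 := by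
  refine GR.SMod.acy_of_subsingleton fun j hj => ?_
  obtain rfl : j = 0 := by omega
  refine ⟨fun x y => ?_⟩
  apply Finsupp.ext
  intro i
  exact Fin.elim0 (show Fin 0 from i)

/-- smash products of circles -/
noncomputable def TN : ℕ → PSS
  | 0 => dscP Unit
  | N + 1 => (TN N).smash cirP

theorem acy_TN (k : Type) [Field k] : ∀ N, (ch k (TN N)).Acy N
  | 0 => GR.SMod.acy_zero _
  | N + 1 => smash_acy (acy_TN k N) (acy_cirP k)

/-- `T ∧ K₊` -/
@[reducible] def smL (T : PSS) (K : Type) : PSS := T.smash (dscP K)

theorem acy_smL (k : Type) [Field k] {T : PSS} {m : ℕ} (h : (ch k T).Acy m) (K : Type) :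
    (ch k (smL T K)).Acy m := smash_acy (b := 0) h (GR.SMod.acy_zero _)

theorem smL_map (T : PSS) (K : Type) {p q : ℕ} (θ : Op p q) (x : T.obj q × K) :
    (smL T K).map θ x = (T.map θ x.1).map fun a => (a, x.2) := by
  show (T.map θ x.1).bind (fun a => (some x.2).map fun b => (a, b)) = _
  cases T.map θ x.1 <;> rfl

theorem smL_snd (T : PSS) {K L : Type} (f : K → Option L) {p q : ℕ} (θ : Op p q) :
    (fun x => ((smL T K).map θ x).bind (sndK (T.obj p) f)) =
      fun x => (sndK (T.obj q) f x).bind ((smL T L).map θ) := by
  funext x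
  rw [smL_map]
  simp only [sndK]
  cases h1 : T.map θ x.1 <;> cases h2 : f x.2 <;> simp [smL_map, sndK, h1, h2]

/-- reassociation -/
def asc (A B K : Type) (x : A × (B × K)) : Option ((A × B) × K) := some ((x.1, x.2.1), x.2.2)

/-- reassociation, inverse -/
def asc' (A B K : Type) (x : (A × B) × K) : Option (A × (B × K)) := some (x.1.1, (x.1.2, x.2))

theorem asc_asc' (A B K : Type) : (fun x => (asc A B K x).bind (asc' A B K)) = some := rfl

theorem asc'_asc (A B K : Type) : (fun x => (asc' A B K x).bind (asc A B K)) = some := rfl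

theorem asc_snd (A B : Type) {K L : Type} (f : K → Option L) :
    (fun x => (sndK A (sndK B f) x).bind (asc A B L)) =
      fun x => (asc A B K x).bind (sndK (A × B) f) := by
  funext x
  obtain ⟨a, b, y⟩ := x
  show (Option.map (fun l => (a, l)) (Option.map (fun l => (b, l)) (f y))).bind _ =
    Option.map (fun l => ((a, b), l)) (f y)
  cases f y <;> rfl

/-- the operators of `(T ∧ S¹) ∧ K₊` and of `B` -/
theorem asc_map (T : PSS) (K : Type) {p q : ℕ} (θ : Op p q) :
    (fun x => (((smL T (Fin q × K)).map θ x).bind (sndK (T.obj p) (circK K θ))).bind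
        (asc (T.obj p) (Fin p) K)) =
      fun x => (asc (T.obj q) (Fin q) K x).bind ((smL (T.smash cirP) K).map θ) := by
  funext x
  obtain ⟨a, i, y⟩ := x
  show _ = (smL (T.smash cirP) K).map θ ((a, i), y)
  rw [smL_map, smL_map]
  show _ = (((T.map θ a).bind fun a' => (circ θ i).map fun j => (a', j))).map fun a' => (a', y)
  cases h1 : T.map θ a with
  | none => rfl
  | some a' =>
    cases h2 : circ θ i with
    | none =>
      show ((Option.map (fun j => (a', j)) (circK K θ (i, y)))).bind _ = _
      have : circK K θ (i, y) = none := by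
        show (circ θ i).map _ = none
        rw [h2]; rfl
      rw [this]
      rfl
    | some j =>
      show ((Option.map (fun j => (a', j)) (circK K θ (i, y)))).bind _ = _
      have : circK K θ (i, y) = some (j, y) := by
        show (circ θ i).map _ = some (j, y)
        rw [h2]; rfl
      rw [this]
      rfl

/-! ### the functors `GF T`, `GX T` -/

/-- `K ↦ PF (T ∧ K₊)` -/
noncomputable def GF (T : PSS) : Gam where
  obj K := PF (smL T K)
  map {K L} _ _ f :=
    { app := fun {p} (S : Conf (T.obj p × K) (Dl p)) => S.map (sndK (T.obj p) f)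
      nat := fun {p q} θ (S : Conf (T.obj q × K) (Dl q)) => by
        show Conf.map (sndK (T.obj p) f) (Conf.map ((smL T K).map θ) (Conf.pull (dmap θ) S)) =
          Conf.map ((smL T L).map θ) (Conf.pull (dmap θ) (Conf.map (sndK (T.obj q) f) S))
        rw [Conf.map_map, ← Conf.map_pull, Conf.map_map, smL_snd] }
  map_some {K} _ p (S : Conf (T.obj p × K) (Dl p)) := by
    show Conf.map (sndK (T.obj p) some) S = S
    rw [sndK_some, Conf.map_some]
  map_bind {K L M} _ _ _ f g p (S : Conf (T.obj p × K) (Dl p)) := by
    show Conf.map (sndK (T.obj p) _) S =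
      Conf.map (sndK (T.obj p) g) (Conf.map (sndK (T.obj p) f) S)
    rw [Conf.map_map, sndK_bind]

/-- `K ↦ XT (T ∧ K₊)` -/
def GX (T : PSS) : Gam where
  obj K := XT (smL T K)
  map {K L} _ _ f :=
    { app := fun {p} (x : Option (T.obj p × K)) => x.bind (sndK (T.obj p) f)
      nat := fun {p q} θ (x : Option (T.obj q × K)) => by
        cases x with
        | none => rfl
        | some x => exact congrFun (smL_snd T f θ) x }
  map_some {K} _ p (x : Option (T.obj p × K)) := by
    cases x <;> rfl
  map_bind {K L M} _ _ _ f g p (x : Option (T.obj p × K)) := by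
    cases x with
    | none => rfl
    | some x => exact congrFun (sndK_bind (T.obj p) f g) x

/-- the full boxes -/
noncomputable def uG (T : PSS) : Gam.Hom (GX T) (GF T) where
  app K _ := uT (smL T K)
  nat {K L} _ _ f p (x : Option (T.obj p × K)) :=
    (Conf.map_uno (T := Dl p) (sndK (T.obj p) f) x).symm

/-- `B (GF T) → GF (T ∧ S¹)` -/
noncomputable def ascF (T : PSS) : Gam.Hom (GF T).B (GF (T.smash cirP)) where
  app K _ :=
    { app := fun {p} (S : Conf (T.obj p × (Fin p × K)) (Dl p)) =>
        S.map (asc (T.obj p) (Fin p) K)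
      nat := fun {p q} θ (S : Conf (T.obj q × (Fin q × K)) (Dl q)) => by
        have h0 : Conf.pull (dmap θ) (Conf.map (asc (T.obj q) (Fin q) K) S) =
            Conf.map (asc (T.obj q) (Fin q) K) (Conf.pull (dmap θ) S) :=
          (Conf.map_pull _ _ _).symm
        have h1 : Conf.map (asc (T.obj p) (Fin p) K) (Conf.map (sndK (T.obj p) (circK K θ))
            (Conf.map ((smL T (Fin q × K)).map θ) (Conf.pull (dmap θ) S))) =
            Conf.map (fun x => (((smL T (Fin q × K)).map θ x).bind
              (sndK (T.obj p) (circK K θ))).bind (asc (T.obj p) (Fin p) K))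
              (Conf.pull (dmap θ) S) := by
          rw [Conf.map_map, Conf.map_map]
          congr 1
          funext x
          exact (Option.bind_assoc _ _ _).symm
        have h2 : Conf.map ((smL (T.smash cirP) K).map θ)
            (Conf.map (asc (T.obj q) (Fin q) K) (Conf.pull (dmap θ) S)) =
            Conf.map (fun x => (asc (T.obj q) (Fin q) K x).bind ((smL (T.smash cirP) K).map θ))
              (Conf.pull (dmap θ) S) := Conf.map_map _ _ _
        exact h1.trans ((congrArg (fun g => Conf.map g (Conf.pull (dmap θ) S))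
          (asc_map T K θ)).trans (h2.symm.trans
            (congrArg (Conf.map ((smL (T.smash cirP) K).map θ)) h0.symm))) }
  nat {K L} _ _ f p (S : Conf (T.obj p × (Fin p × K)) (Dl p)) := by
    show Conf.map (asc (T.obj p) (Fin p) L) (Conf.map (sndK (T.obj p) (sndK (Fin p) f)) S) =
      Conf.map (sndK (T.obj p × Fin p) f) (Conf.map (asc (T.obj p) (Fin p) K) S)
    rw [Conf.map_map, Conf.map_map]
    exact congrArg (fun g => Conf.map g S) (asc_snd (T.obj p) (Fin p) f)

theorem ascF_bijective (T : PSS) (K : Type) [Finite K] (p : ℕ) :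
    Function.Bijective (((ascF T).app K).app (p := p)) := by
  have h1 : ∀ S : Conf (T.obj p × (Fin p × K)) (Dl p),
      Conf.map (asc' (T.obj p) (Fin p) K) (Conf.map (asc (T.obj p) (Fin p) K) S) = S := by
    intro S
    rw [Conf.map_map, asc_asc', Conf.map_some]
  have h2 : ∀ S : Conf ((T.obj p × Fin p) × K) (Dl p),
      Conf.map (asc (T.obj p) (Fin p) K) (Conf.map (asc' (T.obj p) (Fin p) K) S) = S := by
    intro S
    rw [Conf.map_map, asc'_asc, Conf.map_some]
  exact ⟨Function.LeftInverse.injective h1, Function.RightInverse.surjective h2⟩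

/-- `B (GX T) → GX (T ∧ S¹)` -/
noncomputable def ascX (T : PSS) : Gam.Hom (GX T).B (GX (T.smash cirP)) where
  app K _ :=
    { app := fun {p} (x : Option (T.obj p × (Fin p × K))) => x.bind (asc (T.obj p) (Fin p) K)
      nat := fun {p q} θ (x : Option (T.obj q × (Fin q × K))) => by
        cases x with
        | none => rfl
        | some x => exact congrFun (asc_map T K θ) x }
  nat {K L} _ _ f p (x : Option (T.obj p × (Fin p × K))) := by
    cases x with
    | none => rfl
    | some x => exact congrFun (asc_snd (T.obj p) (Fin p) f) x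

theorem ascX_bijective (T : PSS) (K : Type) [Finite K] (p : ℕ) :
    Function.Bijective (((ascX T).app K).app (p := p)) := by
  have h1 : ∀ x : Option (T.obj p × (Fin p × K)),
      (x.bind (asc (T.obj p) (Fin p) K)).bind (asc' (T.obj p) (Fin p) K) = x := by
    intro x
    cases x <;> rfl
  have h2 : ∀ x : Option ((T.obj p × Fin p) × K),
      (x.bind (asc' (T.obj p) (Fin p) K)).bind (asc (T.obj p) (Fin p) K) = x := by
    intro x
    cases x <;> rfl
  exact ⟨Function.LeftInverse.injective
      (g := fun y : Option ((T.obj p × Fin p) × K) => y.bind (asc' (T.obj p) (Fin p) K)) h1,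
    Function.RightInverse.surjective
      (g := fun y : Option ((T.obj p × Fin p) × K) => y.bind (asc' (T.obj p) (Fin p) K)) h2⟩

/-! ### the comparison -/

/-- the full box -/
noncomputable def fullPt : (gamF.obj Unit).obj 0 := boxPt () 0

/-- the map `K₊ → F (K₊)` given by the full box -/
noncomputable def boxU : Gam.Hom Gam.Id gamF := gamF.unit fullPt

theorem boxU_app (K : Type) [Finite K] {p : ℕ} (x : Option K) :
    (boxU.app K).app (Gam.Id.mk p x) = Conf.uno (Dl p) x := by
  show Conf.map (fun _ : Unit => x) (Conf.pull (dmap (cst p 0)) (Conf.unit (Dl 0) ())) = _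
  rw [Conf.pull_unit]
  exact Conf.map_uno (T := Dl p) (fun _ : Unit => x) (some ())

/-- `F → GF (Unit)` -/
noncomputable def baseF : Gam.Hom gamF (GF (TN 0)) where
  app K _ :=
    { app := fun {p} (S : Conf K (Dl p)) => S.map fun y => some ((), y)
      nat := fun {p q} θ (S : Conf K (Dl q)) => by
        show Conf.map (fun y => some ((), y)) (Conf.pull (dmap θ) S) =
          Conf.map ((smL (dscP Unit) K).map θ) (Conf.pull (dmap θ)
            (Conf.map (fun y => some ((), y)) S))
        rw [← Conf.map_pull, Conf.map_map]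
        rfl }
  nat {K L} _ _ f p (S : Conf K (Dl p)) := by
    show Conf.map (fun y => some ((), y)) (Conf.map f S) =
      Conf.map (sndK Unit f) (Conf.map (fun y => some ((), y)) S)
    rw [Conf.map_map, Conf.map_map]
    congr 1
    funext y
    show _ = (f y).map _
    cases f y <;> rfl

/-- `Id → GX (Unit)` -/
noncomputable def baseX : Gam.Hom Gam.Id (GX (TN 0)) where
  app K _ :=
    { app := fun {p} (x : Option K) => x.bind fun y => some ((), y)
      nat := fun {p q} θ (x : Option K) => by
        cases x <;> rfl }
  nat {K L} _ _ f p (x : Option K) := by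
    cases x with
    | none => rfl
    | some y =>
      show (f y).bind _ = (f y).map _
      cases f y <;> rfl

theorem baseF_bijective (K : Type) [Finite K] (p : ℕ) :
    Function.Bijective ((baseF.app K).app (p := p)) := by
  have h1 : ∀ S : Conf K (Dl p),
      Conf.map (fun x : Unit × K => some x.2) (Conf.map (fun y => some ((), y)) S) = S := by
    intro S
    rw [Conf.map_map]
    exact Conf.map_some S
  have h2 : ∀ S : Conf (Unit × K) (Dl p),
      Conf.map (fun y => some ((), y)) (Conf.map (fun x : Unit × K => some x.2) S) = S := by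
    intro S
    rw [Conf.map_map]
    exact Conf.map_some S
  exact ⟨Function.LeftInverse.injective h1, Function.RightInverse.surjective h2⟩

theorem baseX_bijective (K : Type) [Finite K] (p : ℕ) :
    Function.Bijective ((baseX.app K).app (p := p)) := by
  have h1 : ∀ x : Option K,
      (x.bind fun y => some ((), y)).bind (fun x : Unit × K => some x.2) = x := by
    intro x
    cases x <;> rfl
  have h2 : ∀ x : Option (Unit × K),
      (x.bind fun x : Unit × K => some x.2).bind (fun y => some ((), y)) = x := by
    intro x
    cases x <;> rfl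
  exact ⟨Function.LeftInverse.injective
      (g := fun y : Option (Unit × K) => y.bind fun x => some x.2) h1,
    Function.RightInverse.surjective
      (g := fun y : Option (Unit × K) => y.bind fun x => some x.2) h2⟩

/-- the comparison `B^N F → GF (S^N)` -/
noncomputable def cmpF : (N : ℕ) → Gam.Hom (gamF.BN N) (GF (TN N))
  | 0 => baseF
  | N + 1 => (ascF (TN N)).comp (cmpF N).B

/-- the comparison `B^N Id → GX (S^N)` -/
noncomputable def cmpX : (N : ℕ) → Gam.Hom (Gam.Id.BN N) (GX (TN N))
  | 0 => baseX
  | N + 1 => (ascX (TN N)).comp (cmpX N).B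

theorem cmpF_bijective : ∀ (N : ℕ) (K : Type) [Finite K] (p : ℕ),
    Function.Bijective (((cmpF N).app K).app (p := p))
  | 0, K, _, p => baseF_bijective K p
  | N + 1, K, _, p => (ascF_bijective (TN N) K p).comp (cmpF_bijective N (Fin p × K) p)

theorem cmpX_bijective : ∀ (N : ℕ) (K : Type) [Finite K] (p : ℕ),
    Function.Bijective (((cmpX N).app K).app (p := p))
  | 0, K, _, p => baseX_bijective K p
  | N + 1, K, _, p => (ascX_bijective (TN N) K p).comp (cmpX_bijective N (Fin p × K) p)

/-- the square -/
theorem cmp_square : ∀ (N : ℕ) (K : Type) [Finite K] (p : ℕ)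
    (x : ((Gam.Id.BN N).obj K).obj p),
    ((uG (TN N)).app K).app (((cmpX N).app K).app x) =
      ((cmpF N).app K).app (((boxU.BN N).app K).app x)
  | 0, K, _, p, x =>
    (Conf.map_uno (T := Dl p) (fun y : K => some ((), y)) x).symm.trans
      (congrArg (Conf.map fun y : K => some ((), y)) (boxU_app K x).symm)
  | N + 1, K, _, p, x => by
    have ih := cmp_square N (Fin p × K) p x
    have h1 : ((uG (TN (N + 1))).app K).app (((ascX (TN N)).app K).app
        (((cmpX N).app (Fin p × K)).app x)) =
        ((ascF (TN N)).app K).app (((uG (TN N)).app (Fin p × K)).app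
          (((cmpX N).app (Fin p × K)).app x)) :=
      (Conf.map_uno (T := Dl p) (asc ((TN N).obj p) (Fin p) K) _).symm
    exact h1.trans (congrArg ((ascF (TN N)).app K).app ih)

/-- **THE RANGE THEOREM**: `S^N ∧ K₊ → B^N F (K₊)` has vanishing relative homology below `2 N`. -/
theorem rz0_range (k : Type) [Field k] (N : ℕ) (K : Type) [Finite K] {t : ℕ} (ht : t < 2 * N) :
    RZ0 (freeMap k ((boxU.BN N).app K)).cx t :=
  (rz0_square ((boxU.BN N).app K) ((uG (TN N)).app K) ((cmpX N).app K) ((cmpF N).app K)
    (fun p => cmpX_bijective N K p) (fun p => cmpF_bijective N K p)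
    (fun p x => cmp_square N K p x) t).2 (rz0_uT k (acy_smL k (acy_TN k N) K) ht)

end Vale.Agent.P263.G2
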