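import Vale.Agent.P263.GB.SphH

/-!
# P263, block G2: reduced homology of wedges

For a functor `G` with `G (K₊) = K₊ ∧ G (1₊)` (`Gam.Wdg`), the reduced homology of `G (K₊)`
vanishes in degree `n` as soon as the one of `G (1₊)` does; every reduced cycle of `G (K₊)` is the
sum of the reduced cycles with label `k`.  In particular for `S^N ∧ K₊ = (Gam.Id.BN N).obj K`.
-/

namespace Vale.Agent.P263.GB

open Vale.Agent.P263.S Vale.Agent.P263.E

variable {R : Type} [CommRing R]

namespace Gam

/-- the inclusion of the summand `k` -/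
def inK (G : Gam) {K : Type} [Finite K] (k : K) : SS.Map (G.obj Unit) (G.obj K) :=
  G.map fun _ : Unit => some k

open Classical in
/-- the projection to the summand `k` -/
noncomputable def prK' (G : Gam) {K : Type} [Finite K] (k : K) : SS.Map (G.obj K) (G.obj Unit) :=
  G.map fun l : K => if l = k then some () else none

theorem inK_prK {G : Gam} (h : G.Wdg) {K : Type} [Finite K] {p : ℕ} (x : (G.obj K).obj p) :
    (∀ k, (G.inK k).app ((G.prK' k).app x) = bp h.pt K p) ∧ x = bp h.pt K p ∨
      ∃ l, (G.inK l).app ((G.prK' l).app x) = x ∧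
        ∀ k, k ≠ l → (G.inK k).app ((G.prK' k).app x) = bp h.pt K p := by
  classical
  obtain ⟨l, y, rfl⟩ := h.ex K p x
  have e : ∀ k, (G.inK k).app ((G.prK' k).app ((G.map (fun _ : Unit => l)).app y)) =
      (G.map (fun _ : Unit => if l = some k then some k else none)).app y := by
    intro k
    rw [inK, prK', ← G.map_bind, ← G.map_bind]
    congr 2
    funext _
    cases l with
    | none => simp
    | some l =>
      by_cases hl : l = k
      · simp [hl]
      · simp [hl]
  cases l with
  | none =>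
    refine Or.inl ⟨fun k => ?_, none_app h.pt y⟩
    rw [e]
    simp [none_app h.pt]
  | some l =>
    refine Or.inr ⟨l, ?_, fun k hk => ?_⟩
    · rw [e]
      simp
    · rw [e]
      have : ¬ (some l = some k) := fun h' => hk (Option.some.inj h').symm
      simp [this, none_app h.pt]

/-- the decomposition of reduced chains -/
theorem Wdg.sum_eq {G : Gam} (h : G.Wdg) (K : Type) [Fintype K] {p : ℕ}
    (c : (Sp.red R (G.obj K)).obj p) :
    ∑ k, (Sp.redMap R (G.inK k)).app p ((Sp.redMap R (G.prK' k)).app p c) = c := by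
  classical
  have key : ∀ c : (G.obj K).obj p →₀ R,
      ∑ k, (Finsupp.mapDomain (G.inK k).app (Finsupp.mapDomain (G.prK' k).app c) -
        Finsupp.mapDomain (fun _ => bp h.pt K p) c) =
      c - Finsupp.mapDomain (fun _ => bp h.pt K p) c := by
    intro c
    induction c using Finsupp.induction_linear with
    | zero => simp
    | add x y hx hy =>
      simp only [Finsupp.mapDomain_add, add_sub_add_comm, Finset.sum_add_distrib]
      rw [hx, hy]
    | single x r =>
      simp only [Finsupp.mapDomain_single]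
      rcases inK_prK h x with ⟨h1, h2⟩ | ⟨l, h1, h2⟩
      · rw [Finset.sum_eq_zero (fun k _ => by rw [h1, sub_self]), ← h2, sub_self]
      · rw [Finset.sum_eq_single l (fun k _ hk => by rw [h2 k hk, sub_self])
          (fun hl => absurd (Finset.mem_univ l) hl), h1]
  have hb : ∀ c : (G.obj K).obj p →₀ R,
      Finsupp.mapDomain ((SS.toPt (G.obj K)).app (p := p)) c = 0 →
      Finsupp.mapDomain (fun _ => bp h.pt K p) c = 0 := by
    intro c hc
    have e : (fun _ : (G.obj K).obj p => bp h.pt K p) =
        (fun _ : SS.pt.obj p => bp h.pt K p) ∘ ((SS.toPt (G.obj K)).app (p := p)) := rfl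
    rw [e, Finsupp.mapDomain_comp, hc, Finsupp.mapDomain_zero]
  apply Subtype.ext
  have key2 : ∀ c : (G.obj K).obj p →₀ R,
      Finsupp.mapDomain ((SS.toPt (G.obj K)).app (p := p)) c = 0 →
      ∑ k, Finsupp.mapDomain (G.inK k).app (Finsupp.mapDomain (G.prK' k).app c) = c := by
    intro c hc
    have := key c
    simp only [hb c hc, sub_zero] at this
    exact this
  have e : (∑ k, (Sp.redMap R (G.inK k)).app p ((Sp.redMap R (G.prK' k)).app p c)).1 =
      ∑ k, ((Sp.redMap R (G.inK k)).app p ((Sp.redMap R (G.prK' k)).app p c)).1 :=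
    map_sum (LinearMap.ker ((freeMap R (SS.toPt (G.obj K))).app p)).subtype _ _
  rw [e]
  exact key2 c.1 c.2

/-- vanishing of the reduced homology of the wedge -/
theorem Wdg.hz_K {G : Gam} (h : G.Wdg) (K : Type) [Finite K] (n : ℕ)
    (hz : (Sp.red R (G.obj Unit)).cx.HZ n) : (Sp.red R (G.obj K)).cx.HZ n := by
  classical
  have : Fintype K := Fintype.ofFinite K
  intro c hc
  choose w hw using fun k : K =>
    hz ((Sp.redMap R (G.prK' k)).app n c) ((Sp.redMap R (G.prK' k)).cx.cyc hc)
  refine ⟨∑ k, (Sp.redMap R (G.inK k)).cx.app (n + 1) (w k), ?_⟩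
  refine (map_sum ((Sp.red R (G.obj K)).cx.d n) _ _).trans ?_
  refine Eq.trans (Finset.sum_congr rfl fun k _ => ?_) (h.sum_eq K c)
  have := (Sp.redMap R (G.inK k)).cx.comm n (w k)
  rw [hw k] at this
  exact this.symm

end Gam

/-- the reduced homology of `S^N ∧ K₊` vanishes outside degree `N` -/
theorem Sp.red_hz_K (N n : ℕ) (h : n ≠ N) (K : Type) [Finite K] :
    (Sp.red R ((Gam.Id.BN N).obj K)).cx.HZ n :=
  (Gam.Id_wdg.BN N).hz_K K n (Sp.red_hz N n h)

/-- the homology of `S^N ∧ K₊` vanishes in positive degrees different from `N` -/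
theorem Sp.hz_K (N n : ℕ) (hn : 1 ≤ n) (h : n ≠ N) (K : Type) [Finite K] :
    (free R ((Gam.Id.BN N).obj K)).cx.HZ n :=
  (Sp.ses_aug (Gam.bp (Gam.Id_wdg.BN N).pt K)).hz_mid n (Sp.red_hz_K N n h K) (Sp.pt_hz n hn)

end Vale.Agent.P263.GB
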