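import Vale.Agent.P263.GB.SphH

/-!
# P263, block G2: the comparison map from the sphere `S^N` below degree `2N`

* `rz0_of_gen` : a chain map `A → B` over a field; `A` has no homology in degrees `> N`, its
  homology in degree `N ≥ 1` is spanned by one class; `B` has no homology in degrees strictly
  between `N` and `M`, but some in degree `N`; relative homology zero in degrees `≤ N`.  Then the
  relative homology is zero in all degrees `< M`.
* `Gam.rz0_unit_BN` : this for `S^N → B^N G (1₊)`.
-/

namespace Vale.Agent.P263.GB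

open Vale.Agent.P263.S Vale.Agent.P263.E

/-- the glue, on chain complexes -/
theorem rz0_of_gen {k : Type} [Field k] {A B : Cx k} (f : Cx.Hom A B) (N M : ℕ) (hN : 1 ≤ N)
    (hA : ∀ n, N < n → A.HZ n) (hg : Gen A N) (hB : ∀ n, N < n → n < M → B.HZ n)
    (hne : ¬ B.HZ N) (hf : ∀ n ≤ N, RZ0 f n) (n : ℕ) (hn : n < M) : RZ0 f n := by
  rcases Nat.lt_or_ge N n with h | h
  · obtain ⟨n, rfl⟩ : ∃ m, n = m + 1 := ⟨n - 1, by omega⟩
    refine rz0_succ_of f n ?_ ?_
    · intro y hy
      obtain ⟨y', hy'⟩ := hB (n + 1) h hn y hy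
      exact ⟨0, y', map_zero _, by rw [map_zero, add_zero, hy']⟩
    · intro x hx y hy
      rcases Nat.lt_or_ge N n with h' | h'
      · exact hA n h' x hx
      · obtain rfl : n = N := by omega
        obtain ⟨z, hz, hgz⟩ := hg
        obtain ⟨c, w, rfl⟩ := hgz x hx
        by_cases hc : c = 0
        · exact ⟨w, by rw [hc, zero_smul, add_zero]⟩
        · exfalso
          apply hne
          -- `f z` is a boundary
          obtain ⟨v, hv⟩ : ∃ v, B.d n v = f.app n z := by
            refine ⟨c⁻¹ • (y - f.app (n + 1) w), ?_⟩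
            rw [map_smul, map_sub, hy, map_add, f.comm, add_sub_cancel_left, map_smul, smul_smul,
              inv_mul_cancel₀ hc, one_smul]
          intro b hb
          obtain ⟨m, rfl⟩ : ∃ m, n = m + 1 := ⟨n - 1, by omega⟩
          obtain ⟨a, b', ha, hab⟩ := (hf (m + 1) le_rfl).onto_succ b hb
          obtain ⟨c', w', hcw⟩ := hgz a ha
          refine ⟨b' + f.app (m + 1 + 1) w' + c' • v, ?_⟩
          rw [map_add, map_add, map_smul, hv, ← f.comm, ← hab, ← hcw, map_add, map_smul]
          abel
  · exact hf n h

namespace Gam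

/-- **the sphere below degree `2N`** (`M = 2N` in the application) : if `B^N G (1₊)` has no
homology in degrees strictly between `N` and `M`, some homology in degree `N`, and the map from
the sphere has no relative homology in degrees `≤ N`, then it has none in degrees `< M` -/
theorem rz0_unit_BN {k : Type} [Field k] (G : Gam) (e : (G.obj Unit).obj 0) (N M : ℕ)
    (hN : 1 ≤ N) (hB : ∀ n, N < n → n < M → (free k ((G.BN N).obj Unit)).cx.HZ n)
    (hne : ¬ (free k ((G.BN N).obj Unit)).cx.HZ N)
    (hf : ∀ n ≤ N, RZ0 (freeMap k (((G.unit e).BN N).app Unit)).cx n) (n : ℕ) (hn : n < M) :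
    RZ0 (freeMap k (((G.unit e).BN N).app Unit)).cx n :=
  rz0_of_gen _ N M hN (fun n hn => Sp.hz N n (by omega) (by omega)) (Sp.gen N hN) hB hne hf n hn

end Gam

end Vale.Agent.P263.GB
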