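import Vale.Agent.P263.GB.StabM

/-!
# P263, block G2: homological stability for all models of `BΣ_n`

* `stG n : SS.Map (Gam n) (Gam (n + 1))`, `F ↦ {0} ∪ (F + 1)`; `rz0_stG`.
* `exP g` : a permutation of `Fin n` as a permutation of `Fin (n + 1)` fixing `0`.
* `rz0_stab` : let `W → B`, `W' → B'` be the quotients of acyclic simplicial sets by free actions of
  `Perm (Fin n)`, `Perm (Fin (n + 1))`, and `W → W'` an equivariant map covering `st : B → B'`; then
  `RZ0` of `st` in the degrees `j` with `2 j ≤ n`, coefficients `F₂`.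
-/

namespace Vale.Agent.P263.GB

open Vale.Agent.P263.S Vale.Agent.P263.E Vale.Agent.P263.G Vale.Agent.P263.G2
open Vale.Agent.P263.TOP.H Equiv
open Vale.Agent.P263.GC (MN sN)

/-! ### permutations -/

/-- a permutation of `Fin n` as a permutation of `Fin (n + 1)` which fixes `0` -/
def exP {n : ℕ} (g : Perm (Fin n)) : Perm (Fin (n + 1)) := Perm.decomposeFin.symm (0, g)

@[simp] theorem exP_zero {n : ℕ} (g : Perm (Fin n)) : exP g 0 = 0 := by
  simp [exP]

@[simp] theorem exP_succ {n : ℕ} (g : Perm (Fin n)) (x : Fin n) : exP g x.succ = (g x).succ := by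
  simp [exP]

@[simp] theorem exP_inv_zero {n : ℕ} (g : Perm (Fin n)) : (exP g)⁻¹ 0 = 0 := by
  rw [Perm.inv_eq_iff_eq, exP_zero]

@[simp] theorem exP_inv_succ {n : ℕ} (g : Perm (Fin n)) (x : Fin n) :
    (exP g)⁻¹ x.succ = (g⁻¹ x).succ := by
  rw [Perm.inv_eq_iff_eq, exP_succ]
  simp

/-! ### injections -/

/-- adding a new first element -/
def stI {n : ℕ} (e : Fin n ↪ ℕ) : Fin (n + 1) ↪ ℕ where
  toFun := Fin.cons 0 fun x => e x + 1
  inj' := by
    intro x y h
    induction x using Fin.cases with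
    | zero =>
      induction y using Fin.cases with
      | zero => rfl
      | succ y => exact absurd (show (0 : ℕ) = e y + 1 from h) (Nat.succ_ne_zero _).symm
    | succ x =>
      induction y using Fin.cases with
      | zero => exact absurd (show e x + 1 = 0 from h) (Nat.succ_ne_zero _)
      | succ y =>
        have h1 : e x + 1 = e y + 1 := h
        rw [e.injective (Nat.succ_injective h1)]

@[simp] theorem stI_zero {n : ℕ} (e : Fin n ↪ ℕ) : stI e 0 = 0 := rfl

@[simp] theorem stI_succ {n : ℕ} (e : Fin n ↪ ℕ) (x : Fin n) : stI e x.succ = e x + 1 := rfl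

theorem stI_aE {n : ℕ} (g : Perm (Fin n)) (e : Fin n ↪ ℕ) :
    stI (aE n g e) = aE (n + 1) (exP g) (stI e) := by
  ext x
  induction x using Fin.cases with
  | zero => rw [aE_apply, exP_inv_zero, stI_zero, stI_zero]
  | succ x => rw [aE_apply, exP_inv_succ, stI_succ, stI_succ, aE_apply]

/-! ### the stabilisation of `Gam n` -/

/-- adding a new first element to all members -/
def addF {q : ℕ} (F : Finset (Lab q)) : Finset (Lab q) :=
  insert (fun _ => 0) (F.image fun t i => t i + 1)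

theorem mem_addF {q : ℕ} {F : Finset (Lab q)} {t : Lab q} :
    t ∈ addF F ↔ (t = fun _ => 0) ∨ ∃ s ∈ F, (fun i => s i + 1) = t := by
  rw [addF, Finset.mem_insert, Finset.mem_image]

theorem addF_toF {n q : ℕ} (e : Fin (q + 1) → (Fin n ↪ ℕ)) :
    toF (fun i => stI (e i)) = addF (toF e) := by
  ext t
  rw [mem_toF, mem_addF]
  constructor
  · rintro ⟨x, rfl⟩
    induction x using Fin.cases with
    | zero => exact Or.inl rfl
    | succ x => exact Or.inr ⟨vec e x, mem_toF.2 ⟨x, rfl⟩, rfl⟩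
  · rintro (rfl | ⟨s, hs, rfl⟩)
    · exact ⟨0, rfl⟩
    · obtain ⟨x, rfl⟩ := mem_toF.1 hs
      exact ⟨x.succ, rfl⟩

/-- the stabilisation `Gam n → Gam (n + 1)` -/
def stG (n : ℕ) : SS.Map (Gam n) (Gam (n + 1)) where
  app F := ⟨addF F.1, by
    obtain ⟨e, he⟩ := exists_toF F.2.1 F.2.2
    rw [← he, ← addF_toF]
    exact good_toF _, by
    obtain ⟨e, he⟩ := exists_toF F.2.1 F.2.2
    rw [← he, ← addF_toF]
    exact card_toF _⟩
  nat {p q} f F := by
    apply Subtype.ext
    ext t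
    change t ∈ addF (res f F.1) ↔ t ∈ res f (addF F.1)
    rw [mem_addF, mem_res]
    constructor
    · rintro (rfl | ⟨s, hs, rfl⟩)
      · exact ⟨fun _ => 0, mem_addF.2 (Or.inl rfl), rfl⟩
      · obtain ⟨r, hr, rfl⟩ := mem_res.1 hs
        exact ⟨fun i => r i + 1, mem_addF.2 (Or.inr ⟨r, hr, rfl⟩), rfl⟩
    · rintro ⟨s, hs, rfl⟩
      rcases mem_addF.1 hs with rfl | ⟨r, hr, rfl⟩
      · exact Or.inl rfl
      · exact Or.inr ⟨r ∘ f, mem_res.2 ⟨r, hr, rfl⟩, rfl⟩

theorem stG_p (n : ℕ) {q : ℕ} (e : (ES (Fin n ↪ ℕ)).obj q) :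
    (stG n).app ((freeGam n).p.app e) = (freeGam (n + 1)).p.app (fun i => stI (e i)) :=
  Subtype.ext (addF_toF e).symm

/-- the square with `MN` commutes strictly -/
theorem stG_mnToGam (n : ℕ) : (stG n).comp (mnToGam n) = (mnToGam (n + 1)).comp (sN n) := by
  apply SS.Map.ext
  intro p F
  apply Subtype.ext
  ext t
  change t ∈ addF F.1.pts ↔ t ∈ (M.tau p * F.1).pts
  rw [M.mul_pts, Finset.mem_union, mem_addF, Finset.mem_image]
  have h1 : (M.tau p).deg = 1 := M.deg_tau
  rw [h1]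
  refine or_congr ?_ Iff.rfl
  rw [M.tau_pts, Finset.mem_singleton]
  exact Iff.rfl

theorem rz0_mnToGam (k : Type) [CommRing k] (n j : ℕ) : RZ0 (freeMap k (mnToGam n)).cx j :=
  rz0_of_coneContr (fun D => coneContr_mnToGam k n D) j

/-- **Homological stability** for `Gam n`. -/
theorem rz0_stG {n j : ℕ} (hj : 2 * j ≤ n) : RZ0 (freeMap (ZMod 2) (stG n)).cx j :=
  rz0_sq (sN n) (stG n) (mnToGam n) (mnToGam (n + 1)) (CH.of_eq (stG_mnToGam n).symm)
    (rz0_mnToGam _ n) (rz0_mnToGam _ (n + 1)) (rz0_sN hj)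

/-! ### all models -/

section stab

variable {n : ℕ} {W B W' B' : SS}

/-- a map to `Gam n`, with its covering -/
theorem exists_toGam_cover (Q : FreeQ (Perm (Fin n)) W B) (w0 : W.obj 0)
    (hW : ∀ (k : Type) [CommRing k] (p : ℕ), Acyc k W p) :
    ∃ (f : SS.Map B (Gam n)) (u : SS.Map W (ES (Fin n ↪ ℕ))),
      (∀ {p : ℕ} (g : Perm (Fin n)) (w : W.obj p),
        u.app (Q.act g w) = (freeGam n).act g (u.app w)) ∧
      (∀ {p : ℕ} (w : W.obj p), f.app (Q.p.app w) = (freeGam n).p.app (u.app w)) ∧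
      ∀ (k : Type) [CommRing k] (j : ℕ), RZ0 (freeMap k f).cx j := by
  obtain ⟨u, hu⟩ := Q.exists_toES (aE n) (stdE n) (aE_mul n)
  have hu' : ∀ {p : ℕ} (g : Perm (Fin n)) (w : W.obj p),
      u.app (Q.act g w) = (freeGam n).act g (u.app w) := by
    intro p g w
    funext i
    exact hu g w i
  refine ⟨Q.induce (freeGam n) u hu', u, hu', fun w => FreeQ.induce_p Q (freeGam n) u hu' w, ?_⟩
  intro k _ j
  refine rz0_of_coneContr (fun D => ?_) j
  exact coneContr_quot Q (freeGam n) u _ hu'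
    (fun w => FreeQ.induce_p Q (freeGam n) u hu' w)
    (HIso.of_acyc u w0 (fun p _ => hW k p) fun p _ => ES_acyc (stdE n) p)

/-- **Homological stability** for the quotients of acyclic simplicial sets by free actions of the
symmetric groups. -/
theorem rz0_stab (Q : FreeQ (Perm (Fin n)) W B) (Q' : FreeQ (Perm (Fin (n + 1))) W' B')
    (w0 : W.obj 0) (w0' : W'.obj 0)
    (hW : ∀ (k : Type) [CommRing k] (p : ℕ), Acyc k W p)
    (hW' : ∀ (k : Type) [CommRing k] (p : ℕ), Acyc k W' p)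
    (st : SS.Map B B') (stW : SS.Map W W')
    (h1 : ∀ {p : ℕ} (w : W.obj p), st.app (Q.p.app w) = Q'.p.app (stW.app w))
    (h2 : ∀ {p : ℕ} (g : Perm (Fin n)) (w : W.obj p),
      stW.app (Q.act g w) = Q'.act (exP g) (stW.app w))
    {j : ℕ} (hj : 2 * j ≤ n) : RZ0 (freeMap (ZMod 2) st).cx j := by
  obtain ⟨f, u, hu, hf, hfr⟩ := exists_toGam_cover Q w0 hW
  obtain ⟨f', u', hu', hf', hfr'⟩ := exists_toGam_cover Q' w0' hW'
  let vE : SS.Map (ES (Fin n ↪ ℕ)) (ES (Fin (n + 1) ↪ ℕ)) := ⟨fun e i => stI (e i), fun _ _ => rfl⟩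
  have hh : HtpRel (f'.comp st) ((stG n).comp f) := by
    refine htpRel_of_toES Q (freeGam (n + 1)) (aE (n + 1)) (fun _ _ => rfl) exP (u'.comp stW)
      (vE.comp u) ?_ ?_ _ _ ?_ ?_
    · intro p g w
      show u'.app (stW.app (Q.act g w)) = _
      rw [h2, hu']
      rfl
    · intro p g w
      show (fun i => stI (u.app (Q.act g w) i)) = _
      rw [hu]
      funext i
      exact stI_aE g (u.app w i)
    · intro p w
      show f'.app (st.app (Q.p.app w)) = _
      rw [h1, hf']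
      rfl
    · intro p w
      show (stG n).app (f.app (Q.p.app w)) = _
      rw [hf, stG_p]
      rfl
  exact rz0_sq' st (stG n) f f' hh.ch (hfr _) (hfr' _) (rz0_stG hj)

end stab

end Vale.Agent.P263.GB
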