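import Vale.Agent.P263.G.Chain
import Vale.Agent.P263.G.BarM
import Vale.Agent.P263.HS.Final
import Vale.Agent.P263.GB.HtpRZ

/-!
# P263, block G2: homological stability in the chain language

* `RelAc.rz0` : over a field, vanishing of the relative cohomology of an injective map of simplicial
  sets implies `RZ0`.
* `rz0_sN` : `RZ0` of `M(n) → M(n+1)` in degrees `j`, `2 j ≤ n`, coefficients `F₂`.
* `HIso.rz0` : a homology isomorphism up to degree `N` (as in `G.Bar`) satisfies `RZ0` in degrees
  `≤ N + 1`.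
* `FreeQ.htp` : two equivariant maps to `ES S` induce homotopic maps of the orbit spaces.
-/

namespace Vale.Agent.P263.GB

open Vale.Agent.P263.S Vale.Agent.P263.E Vale.Agent.P263.G Vale.Agent.P263.GC

/-! ### duality -/

section dual

variable {k : Type} [Field k] {X Y : SS}

theorem dual_rel_zero {s : SS.Map X Y} (h : RelAc k s 0) (y : (free k Y).obj 0 →ₗ[k] k)
    (h1 : ∀ (b : (free k Y).obj 1) (a : (free k X).obj 0),
      y ((free k Y).d 0 b + (freeMap k s).app 0 a) = 0) : y = 0 := by
  have e : fnc y = 0 := by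
    refine h.zero ?_ ?_
    · rw [CosMod.mem_Z]
      refine fn_ext_evc fun z => ?_
      rw [← evc_d, evc_fnc, evc_zero]
      have := h1 z 0
      rwa [map_zero, add_zero] at this
    · refine fn_ext_evc fun z => ?_
      rw [← evc_map, evc_fnc, evc_zero]
      have := h1 0 z
      rwa [map_zero, zero_add] at this
  have e2 := evc_fnc y
  rw [e] at e2
  refine LinearMap.ext fun z => ?_
  have e3 := LinearMap.congr_fun e2 z
  rw [evc_zero] at e3
  exact e3.symm

theorem dual_rel_succ {s : SS.Map X Y} (hs : s.Inj) {j : ℕ} (h : RelAc k s (j + 1))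
    (y : (free k Y).obj (j + 1) →ₗ[k] k) (x : (free k X).obj j →ₗ[k] k)
    (h1 : ∀ (b : (free k Y).obj (j + 2)) (a : (free k X).obj (j + 1)),
      y ((free k Y).d (j + 1) b + (freeMap k s).app (j + 1) a) + x (-((free k X).d j a)) = 0) :
    ∃ ψ : (free k Y).obj j →ₗ[k] k, ∀ (b : (free k Y).obj (j + 1)) (a : (free k X).obj j),
      y b + x a = ψ ((free k Y).d j b + (freeMap k s).app j a) := by
  have hy : ∀ b, y ((free k Y).d (j + 1) b) = 0 := fun b => by
    have := h1 b 0
    rwa [map_zero, add_zero, map_zero, neg_zero, map_zero, add_zero] at this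
  have hf : ∀ a, y ((freeMap k s).app (j + 1) a) = x ((free k X).d j a) := fun a => by
    have := h1 0 a
    rwa [map_zero, zero_add, map_neg, ← sub_eq_add_neg, sub_eq_zero] at this
  obtain ⟨v, hv⟩ := hs.pull_surjective (R := k) j (fnc x)
  obtain ⟨g, hg, hg0⟩ := h.succ (f := fnc y - (SS.F k Y).d j v) (by
    rw [CosMod.mem_Z, map_sub, CosMod.d_d, sub_zero]
    refine fn_ext_evc fun z => ?_
    rw [← evc_d, evc_fnc, evc_zero]
    exact hy z) (by
    rw [map_sub, Hom.app_d, hv, sub_eq_zero]
    refine fn_ext_evc fun z => ?_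
    rw [← evc_map, evc_fnc, ← evc_d, evc_fnc]
    exact hf z)
  have e : fnc y = (SS.F k Y).d j (v + g) := by
    rw [map_add, hg, add_sub_cancel]
  have e2 : (s.pull (R := k)).app j (v + g) = fnc x := by
    rw [map_add, hv, hg0, add_zero]
  refine ⟨evc (v + g), fun b a => ?_⟩
  rw [map_add, evc_d, ← e, evc_fnc, evc_map, e2, evc_fnc]

/-- **Duality**: over a field, `H^j(Y, X) = 0` implies `H_j(Y, X) = 0`. -/
theorem RelAc.rz0 {s : SS.Map X Y} (hs : s.Inj) {j : ℕ} (h : RelAc k s j) :
    RZ0 (freeMap k s).cx j := by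
  cases j with
  | zero =>
    refine hz_zero_of_dual (A := cone (freeMap k s).cx) fun φ hφ => ?_
    exact dual_rel_zero h φ fun b a => hφ ((b, a) : (free k Y).obj 1 × (free k X).obj 0)
  | succ j =>
    refine hz_succ_of_dual (A := cone (freeMap k s).cx) fun φ hφ => ?_
    have hxy : ∀ (b : (free k Y).obj (j + 1)) (a : (free k X).obj j),
        φ ((b, a) : (free k Y).obj (j + 1) × (free k X).obj j) =
        (φ : (free k Y).obj (j + 1) × (free k X).obj j →ₗ[k] k).comp (LinearMap.inl k _ _) b +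
        (φ : (free k Y).obj (j + 1) × (free k X).obj j →ₗ[k] k).comp (LinearMap.inr k _ _) a := by
      intro b a
      have e : ((b, a) : (free k Y).obj (j + 1) × (free k X).obj j) = (b, 0) + (0, a) := by
        rw [Prod.mk_add_mk, add_zero, zero_add]
      rw [e]
      exact map_add (φ : (free k Y).obj (j + 1) × (free k X).obj j →ₗ[k] k) (b, 0) (0, a)
    obtain ⟨ψ, hψ⟩ := dual_rel_succ hs h _ _ fun b a => (hxy _ _).symm.trans
        (hφ ((b, a) : (free k Y).obj (j + 2) × (free k X).obj (j + 1)))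
    cases j with
    | zero =>
      refine ⟨ψ, ?_⟩
      rintro ⟨b, a⟩
      exact (hxy b a).trans (hψ b a)
    | succ l =>
      refine ⟨(LinearMap.coprod ψ 0 :
        (free k Y).obj (l + 1) × (free k X).obj l →ₗ[k] k), ?_⟩
      rintro ⟨b, a⟩
      refine (hxy b a).trans ((hψ b a).trans ?_)
      exact (add_zero _).symm

end dual

theorem sN_inj (n : ℕ) : (sN n).Inj := by
  intro p F G h
  have h1 := congrArg (iN (n + 1)).app h
  rw [iN_sN, iN_sN] at h1
  exact iN_inj n p h1

/-- **Homological stability**, in homology. -/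
theorem rz0_sN {n j : ℕ} (hj : 2 * j ≤ n) : RZ0 (freeMap (ZMod 2) (sN n)).cx j :=
  RelAc.rz0 (sN_inj n) (HS.relAc_sN hj)

/-! ### `HIso` and `RZ0` -/

section hiso

variable {k : Type} [CommRing k] {X Y : SS}

theorem bd_eq_d (X : SS) (n : ℕ) (c : (free k X).obj (n + 1)) : bd k X n c = (free k X).d n c :=
  rfl

theorem HIso.rz0 {f : SS.Map X Y} {N : ℕ} (h : HIso k f N) {n : ℕ} (hn : n ≤ N + 1) :
    RZ0 (freeMap k f).cx n := by
  cases n with
  | zero =>
    rw [rz0_zero_iff]
    intro b _
    obtain ⟨x, z, hx⟩ := h.surj_zero b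
    exact ⟨x, z, trivial, (add_comm _ _).trans hx⟩
  | succ n =>
    rw [rz0_succ_iff]
    constructor
    · cases n with
      | zero =>
        rintro a - ⟨y, hy⟩
        exact h.inj_zero a y hy
      | succ n =>
        rintro a ha ⟨y, hy⟩
        exact h.inj n (by omega) a y ha hy
    · intro b hb
      obtain ⟨x, z, hx, hxz⟩ := h.surj n (by omega) b hb
      exact ⟨x, z, hx, (add_comm _ _).trans hxz⟩

theorem rz0_of_coneContr {f : SS.Map X Y} (h : ∀ D, Nonempty (ConeContr k f D)) (n : ℕ) :
    RZ0 (freeMap k f).cx n := by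
  obtain ⟨c⟩ := h n
  exact HIso.rz0 c.hIso (Nat.le_succ n)

end hiso

/-! ### homotopies of maps of orbit spaces -/

section orb

variable {G G' : Type} [Group G] [Group G'] {W B B' : SS} {S : Type}

/-- Two maps of orbit spaces induced by maps to `ES S` which are equivariant along the same map of
groups are homotopic. -/
theorem htpRel_of_toES (Q : FreeQ G W B) (Q' : FreeQ G' (ES S) B') (a : G' → S → S)
    (hQ' : ∀ {n : ℕ} (g : G') (e : (ES S).obj n), Q'.act g e = fun i => a g (e i)) (φ : G → G')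
    (u v : SS.Map W (ES S))
    (hu : ∀ {n : ℕ} (g : G) (w : W.obj n), u.app (Q.act g w) = Q'.act (φ g) (u.app w))
    (hv : ∀ {n : ℕ} (g : G) (w : W.obj n), v.app (Q.act g w) = Q'.act (φ g) (v.app w))
    (f f' : SS.Map B B')
    (hf : ∀ {n : ℕ} (w : W.obj n), f.app (Q.p.app w) = Q'.p.app (u.app w))
    (hf' : ∀ {n : ℕ} (w : W.obj n), f'.app (Q.p.app w) = Q'.p.app (v.app w)) : HtpRel f f' := by
  classical
  -- the homotopy upstairs
  let H : ∀ {p : ℕ}, Op p 1 → W.obj p → (ES S).obj p := fun χ w i =>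
    if χ i = 1 then v.app w i else u.app w i
  have hH : ∀ {p : ℕ} (χ : Op p 1) (g : G) (w : W.obj p),
      H χ (Q.act g w) = Q'.act (φ g) (H χ w) := by
    intro p χ g w
    rw [hQ']
    funext i
    show (if χ i = 1 then v.app (Q.act g w) i else u.app (Q.act g w) i) =
      a (φ g) (if χ i = 1 then v.app w i else u.app w i)
    rw [hu, hv, hQ', hQ']
    split_ifs <;> rfl
  have hN : ∀ {p q : ℕ} (b : Op p q) (χ : Op q 1) (w : W.obj q),
      H (χ.comp b) (W.map b w) = (ES S).map b (H χ w) := by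
    intro p q b χ w
    funext i
    show (if χ (b i) = 1 then v.app (W.map b w) i else u.app (W.map b w) i) =
      (if χ (b i) = 1 then v.app w (b i) else u.app w (b i))
    rw [v.nat, u.nat]
    rfl
  have hd : ∀ {p : ℕ} (χ : Op p 1) (w w' : W.obj p), Q.p.app w = Q.p.app w' →
      Q'.p.app (H χ w) = Q'.p.app (H χ w') := by
    intro p χ w w' h
    obtain ⟨g, rfl⟩ := Q.orbit w w' h
    rw [hH, Q'.p_act]
  refine ⟨⟨fun p χ b => Q'.p.app (H χ (Q.surj p b).choose), ?_⟩, Or.inl ⟨?_, ?_⟩⟩
  · intro p q b χ x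
    have h1 := (Q.surj q x).choose_spec
    have h2 := (Q.surj p (B.map b x)).choose_spec
    show Q'.p.app (H (χ.comp b) (Q.surj p (B.map b x)).choose) =
      B'.map b (Q'.p.app (H χ (Q.surj q x).choose))
    rw [← Q'.p.nat, ← hN]
    exact hd _ _ _ (by rw [h2, Q.p.nat, h1])
  · apply SS.Map.ext
    intro p x
    have h1 := (Q.surj p x).choose_spec
    show Q'.p.app (H (c0 p) (Q.surj p x).choose) = f.app x
    conv_rhs => rw [← h1]
    rw [hf]
    refine congrArg (Q'.p.app (p := p)) (funext fun i => ?_)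
    exact if_neg fun h => absurd ((c0_val p i).symm.trans h) (by decide)
  · apply SS.Map.ext
    intro p x
    have h1 := (Q.surj p x).choose_spec
    show Q'.p.app (H (c1 p) (Q.surj p x).choose) = f'.app x
    conv_rhs => rw [← h1]
    rw [hf']
    exact congrArg (Q'.p.app (p := p)) (funext fun i => if_pos (c1_val p i))

end orb

end Vale.Agent.P263.GB
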