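import Vale.Agent.P263.GB.SGam2
import Vale.Agent.P263.GB.TConn

/-!
# P263, block G2-H9: the range of `B^N T(1)`

`PW : SGam`, `(PW.obj p).obj K` = the discrete pointed set with the labels `K ⊕ Fin p × K`
(`P_p ∧ K₊`, `P = Δ¹`), `G.Lam : PW → G.SG` (a label goes to the standard box / standard loop with
this label).

Main result `MixG.T_range`: if `S^N → B^N F(1)` and `S^N → B^N Q(1)` have vanishing relative
homology in degrees `< 2 N`, then `H̃_t(B^N T(1)) = 0` for `t < 2 N`.
-/

namespace Vale.Agent.P263.GB

open Vale.Agent.P263.S Vale.Agent.P263.E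

/-! ### the labels -/

/-- the label with threshold `c` and second component `k` -/
def labK (K : Type) (p : ℕ) (c : ℕ) (k : K) : Option (K ⊕ (Fin p × K)) :=
  (lab (some ()) p c).map (Sum.map (fun _ => k) (fun j => (j, k)))

@[simp] theorem labK_zero (K : Type) (p : ℕ) (k : K) : labK K p 0 k = some (Sum.inl k) := rfl

theorem labK_succ {K : Type} {p c : ℕ} (h : c < p) (k : K) :
    labK K p (c + 1) k = some (Sum.inr (⟨c, h⟩, k)) := by
  unfold labK
  rw [lab_succ_of_lt _ h]
  rfl

theorem labK_of_gt {K : Type} {p c : ℕ} (h : p < c) (k : K) : labK K p c k = none := by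
  unfold labK
  rw [lab_of_gt _ h]
  rfl

theorem copK_eq (K : Type) {p q : ℕ} (α : Op p q) (x : Fin q × K) :
    copK K α x = labK K p (cut α (x.1.1 + 1)) x.2 := rfl

/-- the operator of `α` on all labels -/
def popK (K : Type) {p q : ℕ} (α : Op p q) : K ⊕ (Fin q × K) → Option (K ⊕ (Fin p × K)) :=
  Sum.elim (fun k => some (Sum.inl k)) (copK K α)

/-- relabelling on all labels -/
def relK {K L : Type} (p : ℕ) (f : K → Option L) : K ⊕ (Fin p × K) → Option (L ⊕ (Fin p × L)) :=
  Sum.elim (fun k => (f k).map Sum.inl) (sndR p f)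

theorem labK_bind (K : Type) {p q : ℕ} (α : Op p q) (c : ℕ) (k : K) :
    (labK K q c k).bind (popK K α) = labK K p (cut α c) k := by
  cases c with
  | zero => simp [popK]
  | succ c =>
    rcases Nat.lt_or_ge c q with h | h
    · rw [labK_succ h]; rfl
    · rw [labK_of_gt (show q < c + 1 by omega), cut_top α (by omega),
        labK_of_gt (Nat.lt_succ_self p)]; rfl

theorem labK_bind_relK {K L : Type} (p : ℕ) (f : K → Option L) (c : ℕ) (k : K) :
    (labK K p c k).bind (relK p f) = (f k).bind (labK L p c) := by
  cases c with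
  | zero => cases hf : f k <;> simp [relK, hf]
  | succ c =>
    rcases Nat.lt_or_ge c p with h | h
    · rw [labK_succ h]
      cases hf : f k <;> simp [relK, sndR, hf, labK_succ h]
    · rw [labK_of_gt (show p < c + 1 by omega)]
      cases hf : f k <;> simp [labK_of_gt (show p < c + 1 by omega)]

/-- the threshold of a label -/
def thr {K : Type} {q : ℕ} : K ⊕ (Fin q × K) → ℕ := Sum.elim (fun _ => 0) (fun x => x.1.1 + 1)

/-- the second component of a label -/
def snl {K : Type} {q : ℕ} : K ⊕ (Fin q × K) → K := Sum.elim (fun k => k) (fun x => x.2)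

theorem labK_thr {K : Type} {q : ℕ} (x : K ⊕ (Fin q × K)) : labK K q (thr x) (snl x) = some x := by
  rcases x with k | ⟨i, k⟩
  · rfl
  · exact labK_succ i.2 k

theorem popK_eq {K : Type} {p q : ℕ} (α : Op p q) (x : K ⊕ (Fin q × K)) :
    popK K α x = labK K p (cut α (thr x)) (snl x) := by
  rcases x with k | ⟨i, k⟩
  · show some (Sum.inl k) = labK K p (cut α 0) k
    rw [cut_zero]; rfl
  · rfl

theorem relK_eq {K L : Type} {p : ℕ} (f : K → Option L) (x : K ⊕ (Fin p × K)) :
    relK p f x = (f (snl x)).bind (labK L p (thr x)) := by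
  rw [← labK_bind_relK, labK_thr]; rfl

theorem thr_le {K : Type} {q : ℕ} (x : K ⊕ (Fin q × K)) : thr x ≤ q := by
  rcases x with k | ⟨i, k⟩
  · exact Nat.zero_le q
  · exact i.2

/-! ### the simplicial object `PW` -/

/-- the Gamma set `P_p ∧ K₊` -/
def PWo (p : ℕ) : Gam where
  obj K := Gam.Id.obj (K ⊕ (Fin p × K))
  map f := Gam.Id.map (relK p f)
  map_some {K} _ m x := by
    have h : relK p (some : K → Option K) = some := by
      funext x
      rw [relK_eq]
      exact labK_thr x
    rw [h]
    exact Gam.Id.map_some x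
  map_bind f g _ x := by
    have h : relK p (fun k => (f k).bind g) = fun x => (relK p f x).bind (relK p g) := by
      funext x
      rw [relK_eq, relK_eq]
      cases hf : f (snl x) with
      | none => rfl
      | some l => exact (labK_bind_relK p g (thr x) l).symm
    rw [h]
    exact Gam.Id.map_bind (relK p f) (relK p g) x

/-- **The simplicial Gamma set `P ∧ K₊`.** -/
def PW : SGam where
  obj p := PWo p
  map {p q} α := {
    app := fun K _ => Gam.Id.map (popK K α)
    nat := fun {K L} _ _ f m x => by
      have h : (fun x => (relK q f x).bind (popK L α)) =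
          (fun x => (popK K α x).bind (relK p f)) := by
        funext x
        rw [relK_eq, popK_eq, labK_bind_relK]
        cases hf : f (snl x) with
        | none => rfl
        | some l => exact labK_bind L α (thr x) l
      have h1 := Gam.Id.map_bind (relK q f) (popK L α) x
      have h2 := Gam.Id.map_bind (popK K α) (relK p f) x
      rw [h] at h1
      exact h1.symm.trans h2 }
  map_id {k} K _ m x := by
    have h : popK K (OrderHom.id : Op k k) = some := by
      funext x
      rw [popK_eq, cut_id ((thr_le x).trans (Nat.le_succ k)), labK_thr]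
    show (Gam.Id.map (popK K (OrderHom.id : Op k k))).app x = x
    rw [h]
    exact Gam.Id.map_some x
  map_comp {k l n} f g K _ m x := by
    have h : popK K (f.comp g) = fun x => (popK K f x).bind (popK K g) := by
      funext x
      rw [popK_eq, popK_eq, labK_bind, cut_comp]
    show (Gam.Id.map (popK K (f.comp g))).app x = _
    rw [h]
    exact Gam.Id.map_bind (popK K f) (popK K g) x

/-- the base point of `PW` -/
def ptPW (p : ℕ) : Gam.Hom Gam.pt (PW.obj p) where
  app K _ := { app := fun _ => none, nat := fun _ _ => rfl }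
  nat _ _ _ := rfl

/-- the base point of the diagonal -/
def ptPWd : Gam.Hom Gam.pt PW.diag where
  app K _ := { app := fun _ => none, nat := fun _ _ => rfl }
  nat _ _ _ := rfl

/-! ### the contraction of `PW.diag` -/

/-- `x ↦ min (x, θ)` on the labels -/
def conK {K : Type} {q : ℕ} (θ : Op q 1) (x : K ⊕ (Fin q × K)) : Option (K ⊕ (Fin q × K)) :=
  labK K q (max (thr x) (cut θ 1)) (snl x)

theorem labK_conK {K : Type} {q : ℕ} (θ : Op q 1) (c : ℕ) (k : K) :
    (labK K q c k).bind (conK θ) = labK K q (max c (cut θ 1)) k := by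
  cases c with
  | zero => rfl
  | succ c =>
    rcases Nat.lt_or_ge c q with h | h
    · rw [labK_succ h]; rfl
    · rw [labK_of_gt (show q < c + 1 by omega),
        labK_of_gt (show q < max (c + 1) (cut θ 1) by omega)]; rfl

theorem cut_max {p q : ℕ} (α : Op p q) (a b : ℕ) : cut α (max a b) = max (cut α a) (cut α b) := by
  rcases Nat.le_total a b with h | h
  · rw [max_eq_right h, max_eq_right (cut_mono α h)]
  · rw [max_eq_left h, max_eq_left (cut_mono α h)]

/-- the contraction of `PW.diag` -/
def conPW : Gam.Htp PW.diag PW.diag where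
  h K _ := {
    h := fun q θ x => (Gam.Id.map (conK (K := K) (q := q) θ)).app (p := q) x
    nat := fun {p q} α θ x => by
      have h : (fun x => (popK K α x).bind (conK (θ.comp α))) =
          (fun x => (conK θ x).bind (popK K α)) := by
        funext x
        rw [popK_eq, labK_conK, conK, labK_bind, cut_max, cut_comp]
      have h1 := Gam.Id.map_bind (popK K α) (conK (θ.comp α)) (p := p)
        (x : Option (K ⊕ (Fin q × K)))
      have h2 := Gam.Id.map_bind (conK θ) (popK K α) (p := p) (x : Option (K ⊕ (Fin q × K)))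
      rw [h] at h1
      exact h1.symm.trans h2 }
  nat {K L} _ _ f q θ x := by
    have h : (fun x => (relK q f x).bind (conK θ)) = (fun x => (conK θ x).bind (relK q f)) := by
      funext x
      rw [relK_eq, conK, labK_bind_relK]
      cases hf : f (snl x) with
      | none => rfl
      | some l => exact labK_conK θ (thr x) l
    have h1 := Gam.Id.map_bind (relK q f) (conK θ) (p := q) (x : Option (K ⊕ (Fin q × K)))
    have h2 := Gam.Id.map_bind (conK θ) (relK q f) (p := q) (x : Option (K ⊕ (Fin q × K)))
    rw [h] at h1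
    exact h1.symm.trans h2

theorem cut_c1 (q : ℕ) : cut (c1 q) 1 = 0 :=
  cut_eq_of_lt_iff _ (Nat.zero_le _) fun x => by
    rw [c1_val]; simp

theorem cut_c0 (q : ℕ) : cut (c0 q) 1 = q + 1 :=
  cut_eq_of_lt_iff _ le_rfl fun x => by
    rw [c0_val]
    have := x.2
    simp only [Fin.val_zero, Nat.lt_one_iff, iff_true]
    exact this

theorem conPW_c1 (K : Type) [Finite K] {q : ℕ} (x : (PW.diag.obj K).obj q) :
    (conPW.h K).h q (c1 q) x = x := by
  have h : conK (K := K) (c1 q) = some := by
    funext x
    rw [conK, cut_c1, Nat.max_zero, labK_thr]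
  show (Gam.Id.map (conK (K := K) (q := q) (c1 q))).app (p := q) x = x
  rw [h]
  exact Gam.Id.map_some (p := q) x

theorem conPW_c0 (K : Type) [Finite K] {q : ℕ} (x : (PW.diag.obj K).obj q) :
    (conPW.h K).h q (c0 q) x = (ptPWd.app K).app () := by
  have h : conK (K := K) (c0 q) = fun _ => none := by
    funext x
    rw [conK, cut_c0, labK_of_gt (show q < max (thr x) (q + 1) by omega)]
  show (Gam.Id.map (conK (K := K) (q := q) (c0 q))).app (p := q) x = none
  rw [h]
  show Option.bind (x : Option (K ⊕ (Fin q × K))) (fun _ => none) = none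
  cases (x : Option (K ⊕ (Fin q × K))) <;> rfl

theorem rz0_PWd {R : Type} [CommRing R] (N : ℕ) (K : Type) [Finite K] (t : ℕ) :
    RZ0 (freeMap R ((Gam.ptBN ptPWd N).app K)).cx t :=
  Gam.rz0_ptBN_of_htp ptPWd conPW (fun K _ _ x => conPW_c1 K x) (fun K _ _ x => conPW_c0 K x)
    N K t

/-! ### standard boxes and loops -/

namespace MixG

variable (G : MixG)

/-- **The map `Λ`** : the standard box (or loop) with a given label. -/
def Lam : SGam.Hom PW G.SG where
  app p := {
    app := fun K _ => {
      app := fun {m} x => G.boxO (K := K) (L := Fin p × K) x m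
      nat := fun θ x => (G.boxO_op x θ).symm }
    nat := fun {K L} _ _ f m x => (G.map_boxO f (sndR p f) x m).symm }
  nat {k l} α K _ m x := (G.map_boxO some (copK K α) x m).symm

theorem Lam_app (p : ℕ) (K : Type) [Finite K] {m : ℕ} (x : Option (K ⊕ (Fin p × K))) :
    ((G.Lam.app p).app K).app (p := m) x = G.boxO x m := rfl

/-- the standard boxes -/
def eF : (G.gamF.obj Unit).obj 0 := G.box 0

/-- the standard loops -/
def eQ : (G.gamQ.obj Unit).obj 0 := G.boxO (K := Unit) (L := Empty) (some (Sum.inl ())) 0

theorem dg_boxO {K L : Type} [Finite K] [Finite L] (x : Option (K ⊕ L)) (p : ℕ) :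
    dg (G.obj K L) p (G.boxO x 0) = G.boxO x p := G.boxO_op x (cst p 0)

theorem uF_app (K : Type) [Finite K] {p : ℕ} (x : Option K) :
    ((G.gamF.unit G.eF).app K).app (p := p) x = G.boxO (K := Empty) (x.map Sum.inr) p := by
  show (G.map (fun e : Empty => e.elim) (fun _ : Unit => x.map Sum.inr)).app
    ((G.obj Empty Unit).map (cst p 0) (G.box 0)) = _
  rw [G.box_map]
  exact congrArg (fun F => SS.Map.app F (G.box p)) (G.map_congr (fun k => k.elim) (fun _ => rfl))

theorem uQ_app (K : Type) [Finite K] {p : ℕ} (x : Option K) :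
    ((G.gamQ.unit G.eQ).app K).app (p := p) x = G.boxO (L := Empty) (x.map Sum.inl) p := by
  show (G.map (fun _ : Unit => x) (fun e : Empty => e.elim)).app
    (dg (G.obj Unit Empty) p (G.boxO (some (Sum.inl ())) 0)) = _
  rw [dg_boxO, G.map_boxO]
  rfl

/-! ### the wedge `PW (p + 1) = PW p ∨ Id` -/

theorem sg_dl_last (p : ℕ) : (sg p p).comp (dl p (p + 1)) = (OrderHom.id : Op p p) := by
  apply OrderHom.ext
  funext x
  apply Fin.ext
  have := x.2
  show (sg p p (dl p (p + 1) x)).1 = x.1
  rw [sg_val, dl_val]
  split_ifs <;> omega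

theorem cut_sg_last (p : ℕ) {c : ℕ} (h : c ≤ p) : cut (sg p p) c = c :=
  cut_eq_of_lt_iff _ (by omega) fun x => by
    have := x.2
    rw [sg_val]
    split_ifs <;> omega

theorem cut_dl_last (p : ℕ) {c : ℕ} (h : c ≤ p + 1) : cut (dl p (p + 1)) c = c :=
  cut_eq_of_lt_iff _ h fun x => by
    have := x.2
    rw [dl_val, if_pos (by omega)]

end MixG

/-- the last label -/
def lastK {K : Type} (p : ℕ) : K ⊕ (Fin (p + 1) × K) → Option K :=
  Sum.elim (fun _ => none) (fun x => if x.1 = Fin.last p then some x.2 else none)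

/-- the inclusion of the last label -/
def insK {K : Type} (p : ℕ) (k : K) : Option (K ⊕ (Fin (p + 1) × K)) :=
  some (Sum.inr (Fin.last p, k))

theorem Id_comp {K L M : Type} [Finite K] [Finite L] [Finite M] {f : K → Option L}
    {g : L → Option M} {h : K → Option M} (e : ∀ a, (f a).bind g = h a) {p : ℕ} (x : Option K) :
    (Gam.Id.map g).app (p := p) ((Gam.Id.map f).app (p := p) x) =
      (Gam.Id.map h).app (p := p) x := by
  have h1 := Gam.Id.map_bind f g (p := p) x
  rw [show (fun k => (f k).bind g) = h from funext e] at h1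
  exact h1.symm

theorem Id_some {K : Type} [Finite K] {f : K → Option K} (e : ∀ a, f a = some a) {p : ℕ}
    (x : Option K) : (Gam.Id.map f).app (p := p) x = x := by
  rw [show f = some from funext e]
  exact Gam.Id.map_some (p := p) x

theorem Id_none {K L : Type} [Finite K] [Finite L] {f : K → Option L} (e : ∀ a, f a = none)
    {p : ℕ} (x : Option K) : (Gam.Id.map f).app (p := p) x = (none : Option L) := by
  rw [show f = fun _ => none from funext e]
  show Option.bind x (fun _ => none) = none
  cases x <;> rfl

/-- the last label, as a map -/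
def rLast (p : ℕ) : Gam.Hom (PW.obj (p + 1)) Gam.Id where
  app K _ := Gam.Id.map (lastK p)
  nat {K L} _ _ f m x := by
    refine (Id_comp (h := fun x => (lastK p x).bind f) (fun a => ?_)
      (x : Option (K ⊕ (Fin (p + 1) × K)))).trans (Id_comp (fun _ => rfl) _).symm
    rcases a with k | ⟨i, k⟩
    · show ((f k).map Sum.inl).bind (lastK p) = none
      cases f k <;> rfl
    · show ((f k).map fun l => Sum.inr (i, l)).bind (lastK p) =
        (if i = Fin.last p then some k else none).bind f
      by_cases hi : i = Fin.last p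
      · rw [if_pos hi]
        cases hf : f k with
        | none => simp [hf]
        | some l => simp [hf, lastK, hi]
      · rw [if_neg hi]
        cases hf : f k with
        | none => rfl
        | some l => simp [lastK, hi]

/-- the inclusion of the last label, as a map -/
def iLast (p : ℕ) : Gam.Hom Gam.Id (PW.obj (p + 1)) where
  app K _ := Gam.Id.map (insK p)
  nat {K L} _ _ f m x := by
    refine (Id_comp (h := fun k => (f k).bind (insK p)) (fun a => rfl) (x : Option K)).trans
      (Id_comp (fun a => ?_) _).symm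
    show ((f a).map fun l => Sum.inr (Fin.last p, l)) = (f a).bind (insK p)
    cases f a <;> rfl

/-- the base point of `Id` -/
def ptId : Gam.Hom Gam.pt Gam.Id where
  app K _ := { app := fun _ => none, nat := fun _ _ => rfl }
  nat _ _ _ := rfl

theorem popK_sg (K : Type) (p : ℕ) (x : K ⊕ (Fin p × K)) :
    popK K (sg p p) x = labK K (p + 1) (thr x) (snl x) := by
  rw [popK_eq, MixG.cut_sg_last p (thr_le x)]

theorem popK_dl (K : Type) (p : ℕ) (x : K ⊕ (Fin (p + 1) × K)) :
    popK K (dl p (p + 1)) x = labK K p (thr x) (snl x) := by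
  rw [popK_eq, MixG.cut_dl_last p (thr_le x)]

/-- **`PW (p + 1)` is the wedge of `PW p` and `Id`.** -/
def wdPW (p : ℕ) : Gam.GWd (PW.obj p) Gam.Id (PW.obj (p + 1)) (ptPW p) ptId where
  jA := PW.map (sg p p)
  jB := iLast p
  rA := PW.map (dl p (p + 1))
  rB := rLast p
  rA_jA K _ m x := by
    have h := PW.map_comp (sg p p) (dl p (p + 1)) K x
    rw [MixG.sg_dl_last] at h
    exact h.symm.trans (PW.map_id K x)
  rB_jB K _ m x := by
    refine (Id_comp (h := some) (fun a => ?_) (x : Option K)).trans (Id_some (fun _ => rfl) _)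
    show (if Fin.last p = Fin.last p then some a else none) = some a
    rw [if_pos rfl]
  rA_jB K _ m x := by
    refine (Id_comp (h := fun _ => none) (fun a => ?_) (x : Option K)).trans
      (Id_none (fun _ => rfl) _)
    show popK K (dl p (p + 1)) (Sum.inr (Fin.last p, a)) = none
    rw [popK_dl]
    exact labK_of_gt (Nat.lt_succ_self p) a
  rB_jA K _ m x := by
    refine (Id_comp (h := fun _ => none) (fun a => ?_) (x : Option (K ⊕ (Fin p × K)))).trans
      (Id_none (fun _ => rfl) _)
    rw [popK_sg]
    rcases a with k | ⟨i, k⟩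
    · rfl
    · show (labK K (p + 1) (i.1 + 1) k).bind (lastK p) = none
      rw [labK_succ (show i.1 < p + 1 by omega)]
      show (if (⟨i.1, _⟩ : Fin (p + 1)) = Fin.last p then some k else none) = none
      rw [if_neg]
      intro h
      have := congrArg Fin.val h
      simp at this
      omega
  base K _ m := rfl
  cover K _ m w := by
    have key : ∀ w : Option (K ⊕ (Fin (p + 1) × K)),
        ((w.bind (popK K (dl p (p + 1)))).bind (popK K (sg p p)) = w ∨
          (w.bind (lastK p)).bind (insK p) = w) := by
      intro w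
      rcases w with _ | k | ⟨i, k⟩
      · exact Or.inl rfl
      · exact Or.inl rfl
      · rcases Nat.lt_or_ge i.1 p with hi | hi
        · left
          show ((popK K (dl p (p + 1)) (Sum.inr (i, k))).bind (popK K (sg p p))) = _
          rw [popK_dl]
          show (labK K p (i.1 + 1) k).bind (popK K (sg p p)) = _
          rw [labK_bind, MixG.cut_sg_last p (by omega), labK_succ i.2]
        · right
          have hi' : i = Fin.last p := Fin.ext (by
            have := i.2
            show i.1 = p
            omega)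
          subst hi'
          show (if Fin.last p = Fin.last p then some k else none).bind (insK p) = _
          rw [if_pos rfl]; rfl
    exact key w

/-! ### the boxes with the last label -/

/-- the labels of `M (p + 1)` -/
def lastEquiv (K : Type) (p : ℕ) : Fin (p + 1) × K ≃ (Fin p × K) ⊕ K where
  toFun x := if h : x.1.1 < p then Sum.inl (⟨x.1.1, h⟩, x.2) else Sum.inr x.2
  invFun := Sum.elim (fun y => (y.1.castSucc, y.2)) (fun k => (Fin.last p, k))
  left_inv x := by
    rcases x with ⟨i, k⟩
    by_cases h : i.1 < p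
    · simp [h]
    · have hi : i = Fin.last p := Fin.ext (by
        have := i.2
        show i.1 = p
        omega)
      simp [hi]
  right_inv y := by
    rcases y with ⟨i, k⟩ | k
    · simp
    · simp

theorem lastEquiv_of_lt {K : Type} {p : ℕ} {i : Fin (p + 1)} (h : i.1 < p) (k : K) :
    lastEquiv K p (i, k) = Sum.inl (⟨i.1, h⟩, k) := dif_pos h

theorem lastEquiv_last {K : Type} {p : ℕ} {i : Fin (p + 1)} (h : ¬ i.1 < p) (k : K) :
    lastEquiv K p (i, k) = Sum.inr k := dif_neg h

namespace MixG

variable (G : MixG)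

/-- the boxes with the last label -/
def keepLast (K : Type) (p : ℕ) (x : Fin (p + 1) × K) : Option (Empty ⊕ K) :=
  if x.1 = Fin.last p then some (Sum.inr x.2) else none

/-- keep the boxes with the last label -/
def rG (p : ℕ) : Gam.Hom (G.M (p + 1)) G.gamF where
  app K _ := G.map (K := K) (L := Fin (p + 1) × K) (K' := Empty) (L' := K) (fun _ => none)
    (keepLast K p)
  nat {K L} _ _ f m x := by
    refine (G.map_map (f'' := fun _ => none)
      (g'' := fun x => (f x.2).bind fun l => keepLast L p (x.1, l)) (fun k => ?_)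
      (fun x => ?_) x).trans (G.map_map (K := K) (L := Fin (p + 1) × K) (K' := Empty) (L' := K)
        (f := fun _ => none) (g := keepLast K p) (f' := fun e : Empty => e.elim)
        (g' := fun k => (f k).map Sum.inr) (fun _ => rfl) (fun x => ?_) x).symm
    · cases f k <;> rfl
    · show ((f x.2).map fun l => Sum.inr (x.1, l)).bind _ = _
      cases f x.2 <;> rfl
    · show (keepLast K p x).bind _ = _
      unfold keepLast
      dsimp only
      by_cases hx : x.1 = Fin.last p
      · rw [if_pos hx]
        show (f x.2).map Sum.inr = _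
        cases f x.2 with
        | none => rfl
        | some l => show _ = (if x.1 = Fin.last p then some (Sum.inr l) else none); rw [if_pos hx]; rfl
      · rw [if_neg hx]
        cases f x.2 with
        | none => rfl
        | some l => show _ = (if x.1 = Fin.last p then some (Sum.inr l) else none); rw [if_neg hx]; rfl

/-- **`M (p + 1) → M p × F` is a homology isomorphism.** -/
theorem rz0_last (R : Type) [CommRing R] (p : ℕ) (K : Type) [Finite K] (t : ℕ) :
    RZ0 (freeMap R (SS.pair ((G.SG.map (dl p (p + 1))).app K) ((G.rG p).app K))).cx t := by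
  refine (rz0_square _ _
    (G.map (K := K) (L := Fin (p + 1) × K) (K' := K ⊕ Empty) (L' := (Fin p × K) ⊕ K)
      (fun k => some ((Equiv.sumEmpty K Empty).symm k))
      (fun x => some (Sum.inr (lastEquiv K p x))))
    (SS.Map.id _) (fun q => G.map_bijective (Equiv.sumEmpty K Empty).symm (lastEquiv K p) q)
    (fun _ => Function.bijective_id) (fun q x => ?_) t).2
    (G.split R K Empty (Fin p × K) K t)
  refine Prod.ext ?_ ?_
  · refine G.map_map (fun _ => rfl) (fun x => ?_) x
    rcases x with ⟨i, k⟩
    show (some (Sum.inr (lastEquiv K p (i, k)))).bind _ = labK K p (cut (dl p (p + 1)) (i.1 + 1)) k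
    rw [cut_dl_last p i.2]
    by_cases h : i.1 < p
    · rw [lastEquiv_of_lt h, labK_succ h]; rfl
    · rw [lastEquiv_last h, labK_of_gt (show p < i.1 + 1 by omega)]; rfl
  · refine G.map_map (fun _ => rfl) (fun x => ?_) x
    rcases x with ⟨i, k⟩
    show (some (Sum.inr (lastEquiv K p (i, k)))).bind _ =
      (if i = Fin.last p then some (Sum.inr k) else none)
    by_cases h : i.1 < p
    · rw [lastEquiv_of_lt h, if_neg]
      · rfl
      · intro h'
        have := congrArg Fin.val h'
        simp at this
        omega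
    · have hi : i = Fin.last p := Fin.ext (by
        have := i.2
        show i.1 = p
        omega)
      rw [lastEquiv_last h, if_pos hi]; rfl

/-- the base point of `M p` -/
def ptM (p : ℕ) : Gam.Hom Gam.pt (G.M p) where
  app K _ := {
    app := fun {m} _ => G.emp K (Fin p × K) m
    nat := fun θ _ => (G.emp_map K (Fin p × K) θ).symm }
  nat {K L} _ _ f m _ := (G.map_emp f (sndR p f) m).symm

/-- the base point of `F` -/
def ptF : Gam.Hom Gam.pt G.gamF where
  app K _ := {
    app := fun {m} _ => G.emp Empty K m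
    nat := fun θ _ => (G.emp_map Empty K θ).symm }
  nat {K L} _ _ f m _ := (G.map_emp (fun e : Empty => e.elim) (fun k => (f k).map Sum.inr) m).symm

/-- the inclusion `Id → PW 0` -/
def iZero : Gam.Hom Gam.Id (PW.obj 0) where
  app K _ := Gam.Id.map (fun k => some (Sum.inl k))
  nat {K L} _ _ f m x := by
    refine (Id_comp (h := fun k => (f k).map Sum.inl) (fun a => ?_) (x : Option K)).trans
      (Id_comp (f := fun k : K => some (Sum.inl k)) (g := relK 0 f) (fun a => rfl)
        (x : Option K)).symm
    cases f a <;> rfl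

theorem iZero_bij : iZero.Bij := fun K _ m => by
  constructor
  · intro x y h
    have h' : (x : Option K).bind (fun k => (some (Sum.inl k) : Option (K ⊕ (Fin 0 × K)))) =
        (y : Option K).bind (fun k => some (Sum.inl k)) := h
    rcases (x : Option K) with _ | x <;> rcases (y : Option K) with _ | y
    · rfl
    · simp at h'
    · simp at h'
    · simp at h'
      rw [h']
  · intro y
    rcases (y : Option (K ⊕ (Fin 0 × K))) with _ | k | ⟨i, k⟩
    · exact ⟨(none : Option K), rfl⟩
    · exact ⟨some k, rfl⟩
    · exact i.elim0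

theorem jM_zero_bij : (G.jM 0).Bij := fun K _ m => by
  have h := G.map_bijective (Equiv.refl K) (Equiv.equivOfIsEmpty Empty (Fin 0 × K)) m
  have e : (G.jM 0).app K = G.map (fun k => some ((Equiv.refl K) k))
      (fun l => (some (Sum.inr ((Equiv.equivOfIsEmpty Empty (Fin 0 × K)) l)) :
        Option (K ⊕ (Fin 0 × K)))) := G.map_congr (fun _ => rfl) (fun l => l.elim)
  rw [e]
  exact h

/-- **The columns**: `Λ_p` after `B^N`. -/
theorem rz0_Lam {k : Type} [Field k] (N : ℕ)
    (hF : ∀ t < 2 * N, RZ0 (freeMap k (((G.gamF.unit G.eF).BN N).app Unit)).cx t)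
    (hQ : ∀ t < 2 * N, RZ0 (freeMap k (((G.gamQ.unit G.eQ).BN N).app Unit)).cx t) :
    ∀ p, ∀ t < 2 * N, RZ0 (freeMap k (((G.Lam.app p).BN N).app Unit)).cx t := by
  intro p
  induction p with
  | zero =>
    intro t ht
    refine (rz0_square (((G.gamQ.unit G.eQ).BN N).app Unit) _ ((iZero.BN N).app Unit)
      (((G.jM 0).BN N).app Unit) (fun q => iZero_bij.BN N Unit q)
      (fun q => G.jM_zero_bij.BN N Unit q) (fun q x => ?_) t).1 (hQ t ht)
    refine Gam.sq_BN iZero (G.Lam.app 0) (G.gamQ.unit G.eQ) (G.jM 0) (fun K _ q x => ?_)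
      N Unit q x
    refine Eq.trans ?_ (congrArg ((G.jM 0).app K).app (G.uQ_app K (x : Option K))).symm
    refine Eq.trans ?_ (G.map_boxO some (fun e : Empty => e.elim) _ q).symm
    refine congrArg (fun y => G.boxO y q) ?_
    show ((x : Option K).bind fun k => (some (Sum.inl k) : Option (K ⊕ (Fin 0 × K)))) = _
    rcases (x : Option K) with _ | x <;> rfl
  | succ p ih =>
    intro t ht
    obtain ⟨E, _, _, hrA, hrB⟩ := (wdPW p).wd_BN N Unit
    have h1 := E.rz0 (((G.Lam.app p).BN N).app Unit) (((G.gamF.unit G.eF).BN N).app Unit)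
      ((Gam.ptBN (G.ptM p) N).app Unit) ((Gam.ptBN G.ptF N).app Unit)
      (SS.Map.ext fun q _ => Gam.ptBN_nat (ptPW p) (G.Lam.app p) (G.ptM p)
        (fun K _ m => G.boxO_none m) N Unit q)
      (SS.Map.ext fun q _ => Gam.ptBN_nat ptId (G.gamF.unit G.eF) G.ptF
        (fun K _ m => (G.uF_app K none).trans (G.boxO_none m)) N Unit q)
      (2 * N) N N ih hF
      (fun t ht => (Wdg.rz0_pt _ t).1 (Gam.rz0_ptBN (G.M_pt p) (G.ptM p) N Unit t ht))
      (fun t ht => (Wdg.rz0_pt _ t).1 (Gam.rz0_ptBN G.gamF_pt G.ptF N Unit t ht))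
      (by omega) t ht
    refine rz0_left_ss _ (SS.pair (((G.SG.map (dl p (p + 1))).BN N).app Unit)
      (((G.rG p).BN N).app Unit)) _ (fun q x => ?_) t h1
      (Gam.pair_rz0_BN _ _ (fun K _ t => G.rz0_last k p K t) N Unit (t + 1))
    refine Prod.ext ?_ ?_
    · show _ = (((G.Lam.app p).BN N).app Unit).app (E.rA.app x)
      rw [hrA]
      exact Gam.sq_BN (G.Lam.app (p + 1)) (G.SG.map (dl p (p + 1))) (PW.map (dl p (p + 1)))
        (G.Lam.app p) (fun K _ q x => (G.Lam.nat (dl p (p + 1)) K x).symm) N Unit q x
    · show _ = (((G.gamF.unit G.eF).BN N).app Unit).app (E.rB.app x)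
      rw [hrB]
      refine Gam.sq_BN (G.Lam.app (p + 1)) (G.rG p) (rLast p) (G.gamF.unit G.eF)
        (fun K _ q x => ?_) N Unit q x
      refine Eq.trans ?_ (G.uF_app K ((x : Option (K ⊕ (Fin (p + 1) × K))).bind (lastK p))).symm
      refine (G.map_boxO (fun _ => none) (keepLast K p) (x : Option (K ⊕ (Fin (p + 1) × K)))
        q).trans ?_
      refine congrArg (fun y => G.boxO y q) ?_
      rcases (x : Option (K ⊕ (Fin (p + 1) × K))) with _ | x | ⟨i, x⟩
      · rfl
      · rfl
      · show keepLast K p (i, x) =
          (((some (Sum.inr (i, x)) : Option (K ⊕ (Fin (p + 1) × K))).bind (lastK p)).map Sum.inr)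
        show (if i = Fin.last p then some (Sum.inr x) else none) =
          ((if i = Fin.last p then some x else none).map Sum.inr)
        by_cases hi : i = Fin.last p
        · rw [if_pos hi, if_pos hi]; rfl
        · rw [if_neg hi, if_neg hi]; rfl

/-- the base point of `T` -/
def ptT : Gam.Hom Gam.pt G.T where
  app K _ := {
    app := fun {m} _ => G.emp K (Fin m × K) m
    nat := fun {p q} θ _ => by
      show G.emp K (Fin p × K) p = (G.map some (copK K θ)).app
        ((G.obj K (Fin q × K)).map θ (G.emp K (Fin q × K) q))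
      rw [G.emp_map, G.map_emp] }
  nat {K L} _ _ f m _ := (G.map_emp f (sndR m f) m).symm

/-- **T5, the range of `B^N T(1)`**, in terms of the base point. -/
theorem rz0_ptT {k : Type} [Field k] (N : ℕ)
    (hF : ∀ t < 2 * N, RZ0 (freeMap k (((G.gamF.unit G.eF).BN N).app Unit)).cx t)
    (hQ : ∀ t < 2 * N, RZ0 (freeMap k (((G.gamQ.unit G.eQ).BN N).app Unit)).cx t) (t : ℕ)
    (ht : t < 2 * N) : RZ0 (freeMap k ((Gam.ptBN G.ptT N).app Unit)).cx t := by
  refine rz0_comp_ss ((Gam.ptBN ptPWd N).app Unit) ((G.Lam.diag.BN N).app Unit) _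
    (fun q _ => Gam.ptBN_nat ptPWd G.Lam.diag G.ptT (fun K _ m => G.boxO_none m) N Unit q) t
    (rz0_PWd N Unit t) ?_
  exact G.Lam.rz0_diag_BN N Unit (2 * N) (G.rz0_Lam N hF hQ) t ht

/-- **T5, the range of `B^N T(1)`.** -/
theorem T_range {k : Type} [Field k] (N : ℕ)
    (hF : ∀ t < 2 * N, RZ0 (freeMap k (((G.gamF.unit G.eF).BN N).app Unit)).cx t)
    (hQ : ∀ t < 2 * N, RZ0 (freeMap k (((G.gamQ.unit G.eQ).BN N).app Unit)).cx t) (t : ℕ)
    (ht : t < 2 * N) : (Wdg.rd k ((G.T.BN N).obj Unit)).cx.HZ t :=
  (Wdg.rz0_pt _ t).1 (G.rz0_ptT N hF hQ t ht)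

end MixG

end Vale.Agent.P263.GB
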