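import Mathlib.Logic.Function.Iterate
import Vale.Agent.P263.GB.KerRZ

/-!
# P263, block GB: telescopes of a self map (strict levelwise sequential colimits)

For a self map `a` of a simplicial set `Y`, `tel a : SS` is the levelwise colimit of
`Y → Y → Y → ...` along `a`.  `tin a i : Y → tel a` is the `i`-th leg, `tin a (i + 1) ∘ a = tin a i`.

* `tin_eq_iff`, `exists_tin`; `telMap` (functoriality), `telProd` (levelwise bijective comparison
  with products), `telA` (the automorphism induced by `a`) and its inverse `telS` (the shift),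
  `telDeg` (a locally constant degree);
* chains: `exists_chain`, `chain_eq_zero`; `rz0_telMap` : `RZ0` passes to telescopes;
* `rz0_tin` : if `a` acts as the identity on homology then `tin a i` is a homology isomorphism.
-/

namespace Vale.Agent.P263.GB

open Vale.Agent.P263.S Vale.Agent.P263.E

/-! ### sets -/

section sets

variable {α β : Type}

/-- the relation defining the colimit of `α → α → ...` along `a` -/
def telRel (a : α → α) (x y : ℕ × α) : Prop :=
  ∃ m n, x.1 + m = y.1 + n ∧ a^[m] x.2 = a^[n] y.2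

theorem telRel_equiv (a : α → α) : Equivalence (telRel a) where
  refl _ := ⟨0, 0, rfl, rfl⟩
  symm := by
    rintro x y ⟨m, n, h1, h2⟩
    exact ⟨n, m, h1.symm, h2.symm⟩
  trans := by
    rintro x y z ⟨m, n, h1, h2⟩ ⟨m', n', h3, h4⟩
    refine ⟨m' + m, n + n', by omega, ?_⟩
    rw [Function.iterate_add_apply, h2, ← Function.iterate_add_apply, Nat.add_comm m' n,
      Function.iterate_add_apply, h4, ← Function.iterate_add_apply]

/-- the setoid defining the colimit of `α → α → ...` along `a` -/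
def telSetoid (a : α → α) : Setoid (ℕ × α) := ⟨telRel a, telRel_equiv a⟩

/-- the colimit of `α → α → ...` along `a` -/
def TelT (a : α → α) : Type := Quotient (telSetoid a)

/-- the `i`-th leg -/
def TelT.mk (a : α → α) (i : ℕ) (x : α) : TelT a := Quotient.mk (telSetoid a) (i, x)

theorem TelT.mk_eq_iff (a : α → α) {i j : ℕ} {x y : α} :
    TelT.mk a i x = TelT.mk a j y ↔ ∃ m n, i + m = j + n ∧ a^[m] x = a^[n] y :=
  Quotient.eq (r := telSetoid a)

theorem TelT.exists_mk {a : α → α} (z : TelT a) : ∃ i x, TelT.mk a i x = z := by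
  induction z using Quotient.inductionOn with
  | h z => exact ⟨z.1, z.2, rfl⟩

theorem TelT.mk_succ (a : α → α) (i : ℕ) (x : α) : TelT.mk a (i + 1) (a x) = TelT.mk a i x :=
  (TelT.mk_eq_iff a).2 ⟨0, 1, rfl, rfl⟩

theorem TelT.mk_iter (a : α → α) (i n : ℕ) (x : α) :
    TelT.mk a (i + n) (a^[n] x) = TelT.mk a i x :=
  (TelT.mk_eq_iff a).2 ⟨0, n, rfl, rfl⟩

/-- two elements of the same stage agree in the colimit iff they agree at some later stage -/
theorem TelT.mk_eq_mk (a : α → α) {i : ℕ} {x y : α} :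
    TelT.mk a i x = TelT.mk a i y ↔ ∃ n, a^[n] x = a^[n] y := by
  rw [TelT.mk_eq_iff]
  constructor
  · rintro ⟨m, n, h1, h2⟩
    obtain rfl : m = n := by omega
    exact ⟨m, h2⟩
  · rintro ⟨n, h⟩
    exact ⟨n, n, rfl, h⟩

/-- maps out of the colimit -/
def TelT.lift {a : α → α} (f : ℕ → α → β) (h : ∀ i x, f (i + 1) (a x) = f i x) :
    TelT a → β :=
  Quotient.lift (s := telSetoid a) (fun z => f z.1 z.2) (by
    have h' : ∀ n i x, f (i + n) (a^[n] x) = f i x := by
      intro n
      induction n with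
      | zero => intro i x; rfl
      | succ n ih =>
        intro i x
        rw [Function.iterate_succ_apply', ← Nat.add_assoc, h, ih]
    rintro ⟨i, x⟩ ⟨j, y⟩ ⟨m, n, h1, h2⟩
    show f i x = f j y
    change i + m = j + n at h1
    change a^[m] x = a^[n] y at h2
    rw [← h' m i x, ← h' n j y, h1, h2])

@[simp] theorem TelT.lift_mk {a : α → α} (f : ℕ → α → β) (h : ∀ i x, f (i + 1) (a x) = f i x)
    (i : ℕ) (x : α) : TelT.lift f h (TelT.mk a i x) = f i x := rfl

/-- functoriality of the colimit -/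
def TelT.map {a : α → α} {b : β → β} (f : α → β) (h : ∀ x, f (a x) = b (f x)) :
    TelT a → TelT b :=
  TelT.lift (fun i x => TelT.mk b i (f x)) fun i x => by rw [h, TelT.mk_succ]

@[simp] theorem TelT.map_mk {a : α → α} {b : β → β} (f : α → β) (h : ∀ x, f (a x) = b (f x))
    (i : ℕ) (x : α) : TelT.map f h (TelT.mk a i x) = TelT.mk b i (f x) := rfl

/-- common representatives -/
theorem TelT.exists_mk₂ {a : α → α} {b : β → β} (z : TelT a) (w : TelT b) :
    ∃ i x y, TelT.mk a i x = z ∧ TelT.mk b i y = w := by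
  obtain ⟨i, x, rfl⟩ := z.exists_mk
  obtain ⟨j, y, rfl⟩ := w.exists_mk
  refine ⟨i + j, a^[j] x, b^[i] y, TelT.mk_iter a i j x, ?_⟩
  rw [Nat.add_comm i j]
  exact TelT.mk_iter b j i y

end sets

/-! ### simplicial sets -/

section ss

variable {X Y W Y' : SS}

/-- the `n`-th iterate of a self map -/
def iterMap (a : SS.Map Y Y) (n : ℕ) : SS.Map Y Y where
  app {_} := a.app^[n]
  nat {p q} f x := by
    induction n with
    | zero => rfl
    | succ n ih => rw [Function.iterate_succ_apply', Function.iterate_succ_apply', ih, a.nat]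

@[simp] theorem iterMap_app (a : SS.Map Y Y) (n : ℕ) {p : ℕ} (x : Y.obj p) :
    (iterMap a n).app x = a.app^[n] x := rfl

theorem iterMap_add (a : SS.Map Y Y) (m n : ℕ) {p : ℕ} (x : Y.obj p) :
    (iterMap a (m + n)).app x = (iterMap a m).app ((iterMap a n).app x) :=
  Function.iterate_add_apply _ _ _ _

theorem iterMap_comm (a : SS.Map Y Y) (b : SS.Map W W) (f : SS.Map Y W)
    (h : ∀ {p : ℕ} (x : Y.obj p), f.app (a.app x) = b.app (f.app x)) (n : ℕ) {p : ℕ}
    (x : Y.obj p) : f.app ((iterMap a n).app x) = (iterMap b n).app (f.app x) := by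
  induction n with
  | zero => rfl
  | succ n ih =>
    rw [iterMap_app, iterMap_app, Function.iterate_succ_apply', Function.iterate_succ_apply', h]
    exact congrArg b.app ih

/-- the telescope of a self map -/
def tel (a : SS.Map Y Y) : SS where
  obj p := TelT (a.app (p := p))
  map f := TelT.map (Y.map f) fun x => (a.nat f x).symm
  map_id {p} z := by
    obtain ⟨i, x, rfl⟩ := z.exists_mk
    rw [TelT.map_mk, Y.map_id]
  map_comp f g z := by
    obtain ⟨i, x, rfl⟩ := z.exists_mk
    rw [TelT.map_mk, TelT.map_mk, TelT.map_mk, Y.map_comp]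

/-- the legs of the telescope -/
def tin (a : SS.Map Y Y) (i : ℕ) : SS.Map Y (tel a) where
  app {p} x := TelT.mk (a.app (p := p)) i x
  nat _ _ := rfl

theorem tin_succ (a : SS.Map Y Y) (i : ℕ) {p : ℕ} (x : Y.obj p) :
    (tin a (i + 1)).app (a.app x) = (tin a i).app x := TelT.mk_succ _ _ _

theorem tin_iter (a : SS.Map Y Y) (i n : ℕ) {p : ℕ} (x : Y.obj p) :
    (tin a (i + n)).app ((iterMap a n).app x) = (tin a i).app x := TelT.mk_iter _ _ _ _

theorem tin_eq_iff (a : SS.Map Y Y) {i : ℕ} {p : ℕ} {x y : Y.obj p} :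
    (tin a i).app x = (tin a i).app y ↔ ∃ n, (iterMap a n).app x = (iterMap a n).app y :=
  TelT.mk_eq_mk _

theorem tin_eq_iff' (a : SS.Map Y Y) {i j : ℕ} {p : ℕ} {x y : Y.obj p} :
    (tin a i).app x = (tin a j).app y ↔
      ∃ m n, i + m = j + n ∧ (iterMap a m).app x = (iterMap a n).app y :=
  TelT.mk_eq_iff _

theorem exists_tin (a : SS.Map Y Y) {p : ℕ} (z : (tel a).obj p) : ∃ i x, (tin a i).app x = z :=
  z.exists_mk

/-- maps out of the telescope -/
def telLift (a : SS.Map Y Y) (f : ℕ → SS.Map Y W)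
    (h : ∀ i {p : ℕ} (x : Y.obj p), (f (i + 1)).app (a.app x) = (f i).app x) :
    SS.Map (tel a) W where
  app {_} := TelT.lift (fun i => (f i).app) fun i x => h i x
  nat g z := by
    obtain ⟨i, x, rfl⟩ := z.exists_mk
    exact (f i).nat g x

@[simp] theorem telLift_tin (a : SS.Map Y Y) (f : ℕ → SS.Map Y W)
    (h : ∀ i {p : ℕ} (x : Y.obj p), (f (i + 1)).app (a.app x) = (f i).app x) (i : ℕ) {p : ℕ}
    (x : Y.obj p) : (telLift a f h).app ((tin a i).app x) = (f i).app x := rfl

/-- functoriality -/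
def telMap (a : SS.Map Y Y) (b : SS.Map W W) (f : SS.Map Y W)
    (h : ∀ {p : ℕ} (x : Y.obj p), f.app (a.app x) = b.app (f.app x)) :
    SS.Map (tel a) (tel b) where
  app {_} := TelT.map f.app fun x => h x
  nat g z := by
    obtain ⟨i, x, rfl⟩ := z.exists_mk
    exact congrArg (TelT.mk _ i) (f.nat g x)

@[simp] theorem telMap_tin (a : SS.Map Y Y) (b : SS.Map W W) (f : SS.Map Y W)
    (h : ∀ {p : ℕ} (x : Y.obj p), f.app (a.app x) = b.app (f.app x)) (i : ℕ) {p : ℕ}
    (x : Y.obj p) : (telMap a b f h).app ((tin a i).app x) = (tin b i).app (f.app x) := rfl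

theorem tel_ext {a : SS.Map Y Y} {f g : SS.Map (tel a) W}
    (h : ∀ i {p : ℕ} (x : Y.obj p), f.app ((tin a i).app x) = g.app ((tin a i).app x)) :
    f = g := by
  apply SS.Map.ext
  intro p z
  obtain ⟨i, x, rfl⟩ := exists_tin a z
  exact h i x

/-- the automorphism induced by `a` -/
def telA (a : SS.Map Y Y) : SS.Map (tel a) (tel a) := telMap a a a fun _ => rfl

@[simp] theorem telA_tin (a : SS.Map Y Y) (i : ℕ) {p : ℕ} (x : Y.obj p) :
    (telA a).app ((tin a i).app x) = (tin a i).app (a.app x) := rfl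

/-- the shift -/
def telS (a : SS.Map Y Y) : SS.Map (tel a) (tel a) :=
  telLift a (fun i => tin a (i + 1)) fun i {_} x => tin_succ a (i + 1) x

@[simp] theorem telS_tin (a : SS.Map Y Y) (i : ℕ) {p : ℕ} (x : Y.obj p) :
    (telS a).app ((tin a i).app x) = (tin a (i + 1)).app x := rfl

@[simp] theorem telS_telA (a : SS.Map Y Y) {p : ℕ} (z : (tel a).obj p) :
    (telS a).app ((telA a).app z) = z := by
  obtain ⟨i, x, rfl⟩ := exists_tin a z
  rw [telA_tin, telS_tin, tin_succ]

@[simp] theorem telA_telS (a : SS.Map Y Y) {p : ℕ} (z : (tel a).obj p) :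
    (telA a).app ((telS a).app z) = z := by
  obtain ⟨i, x, rfl⟩ := exists_tin a z
  rw [telS_tin, telA_tin, tin_succ]

/-- the shift is injective -/
theorem telS_injective (a : SS.Map Y Y) (p : ℕ) : Function.Injective ((telS a).app (p := p)) :=
  Function.LeftInverse.injective (telA_telS a)

/-- a degree on the telescope: `deg (tin i x) = deg x - i` -/
def telDeg (a : SS.Map Y Y) (D : ∀ p, Y.obj p → ℤ) (h : ∀ p x, D p (a.app x) = D p x + 1)
    (p : ℕ) : (tel a).obj p → ℤ :=
  TelT.lift (fun i x => D p x - i) fun i x => by rw [h]; push_cast; ring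

@[simp] theorem telDeg_tin (a : SS.Map Y Y) (D : ∀ p, Y.obj p → ℤ)
    (h : ∀ p x, D p (a.app x) = D p x + 1) (i : ℕ) {p : ℕ} (x : Y.obj p) :
    telDeg a D h p ((tin a i).app x) = D p x - i := rfl

theorem telDeg_map (a : SS.Map Y Y) (D : ∀ p, Y.obj p → ℤ)
    (h : ∀ p x, D p (a.app x) = D p x + 1) (hD : ∀ {p q : ℕ} (f : Op p q) (x : Y.obj q),
      D p (Y.map f x) = D q x) {p q : ℕ} (f : Op p q) (z : (tel a).obj q) :
    telDeg a D h p ((tel a).map f z) = telDeg a D h q z := by
  obtain ⟨i, x, rfl⟩ := exists_tin a z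
  rw [← (tin a i).nat, telDeg_tin, telDeg_tin, hD]

theorem telDeg_telA (a : SS.Map Y Y) (D : ∀ p, Y.obj p → ℤ)
    (h : ∀ p x, D p (a.app x) = D p x + 1) {p : ℕ} (z : (tel a).obj p) :
    telDeg a D h p ((telA a).app z) = telDeg a D h p z + 1 := by
  obtain ⟨i, x, rfl⟩ := exists_tin a z
  rw [telA_tin, telDeg_tin, telDeg_tin, h]
  ring

theorem telDeg_telS (a : SS.Map Y Y) (D : ∀ p, Y.obj p → ℤ)
    (h : ∀ p x, D p (a.app x) = D p x + 1) {p : ℕ} (z : (tel a).obj p) :
    telDeg a D h p ((telS a).app z) = telDeg a D h p z - 1 := by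
  obtain ⟨i, x, rfl⟩ := exists_tin a z
  rw [telS_tin, telDeg_tin, telDeg_tin]
  push_cast
  ring

/-! #### products -/

/-- the product of two maps -/
def prodMap {X' : SS} (f : SS.Map X X') (g : SS.Map Y Y') :
    SS.Map (X.prod Y) (X'.prod Y') where
  app z := (f.app z.1, g.app z.2)
  nat h z := by
    change (f.app (X.map h z.1), g.app (Y.map h z.2)) = _
    rw [f.nat, g.nat]
    rfl

@[simp] theorem prodMap_app {X' : SS} (f : SS.Map X X') (g : SS.Map Y Y') {p : ℕ}
    (z : (X.prod Y).obj p) : (prodMap f g).app z = (f.app z.1, g.app z.2) := rfl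

theorem iterMap_prodMap (a : SS.Map X X) (b : SS.Map Y Y) (n : ℕ) {p : ℕ}
    (z : (X.prod Y).obj p) :
    (iterMap (prodMap a b) n).app z = ((iterMap a n).app z.1, (iterMap b n).app z.2) := by
  induction n with
  | zero => rfl
  | succ n ih =>
    rw [iterMap_app, Function.iterate_succ_apply']
    change (prodMap a b).app ((iterMap (prodMap a b) n).app z) = _
    rw [ih, iterMap_app, iterMap_app, iterMap_app, iterMap_app, Function.iterate_succ_apply',
      Function.iterate_succ_apply']
    rfl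

/-- the comparison of the telescope of a product with the product of the telescopes -/
def telProd (a : SS.Map X X) (b : SS.Map Y Y) :
    SS.Map (tel (prodMap a b)) ((tel a).prod (tel b)) :=
  SS.pair (telMap (prodMap a b) a (SS.fst X Y) fun _ => rfl)
    (telMap (prodMap a b) b (SS.snd X Y) fun _ => rfl)

@[simp] theorem telProd_tin (a : SS.Map X X) (b : SS.Map Y Y) (i : ℕ) {p : ℕ}
    (z : (X.prod Y).obj p) :
    (telProd a b).app ((tin (prodMap a b) i).app z) = ((tin a i).app z.1, (tin b i).app z.2) :=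
  rfl

/-- **Telescopes commute with products.** -/
theorem telProd_bijective (a : SS.Map X X) (b : SS.Map Y Y) (p : ℕ) :
    Function.Bijective ((telProd a b).app (p := p)) := by
  constructor
  · intro z w h
    obtain ⟨i, x, y, rfl, rfl⟩ := TelT.exists_mk₂ z w
    have h1 : (tin a i).app x.1 = (tin a i).app y.1 := congrArg Prod.fst h
    have h2 : (tin b i).app x.2 = (tin b i).app y.2 := congrArg Prod.snd h
    obtain ⟨m, hm⟩ := (tin_eq_iff a).1 h1
    obtain ⟨n, hn⟩ := (tin_eq_iff b).1 h2
    have e1 : (iterMap a (n + m)).app x.1 = (iterMap a (n + m)).app y.1 := by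
      rw [iterMap_add, iterMap_add, hm]
    have e2 : (iterMap b (n + m)).app x.2 = (iterMap b (n + m)).app y.2 := by
      rw [Nat.add_comm, iterMap_add, iterMap_add, hn]
    refine (tin_eq_iff (prodMap a b)).2 ⟨n + m, ?_⟩
    rw [iterMap_prodMap, iterMap_prodMap]
    exact Prod.ext e1 e2
  · rintro ⟨z, w⟩
    obtain ⟨i, x, y, rfl, rfl⟩ := TelT.exists_mk₂ z w
    exact ⟨(tin (prodMap a b) i).app (x, y), rfl⟩

end ss

/-! ### chains -/

section chains

variable {R : Type} [CommRing R] {Y W : SS}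

/-- `rz0_zero` for simplicial modules -/
theorem rz0s_zero {A B : SMod R} (f : SMod.Hom A B) :
    RZ0 f.cx 0 ↔ ∀ b : B.obj 0, ∃ (b' : B.obj 1) (a : A.obj 0), B.d 0 b' + f.app 0 a = b :=
  rz0_zero f.cx

/-- `rz0_succ` for simplicial modules -/
theorem rz0s_succ {A B : SMod R} (f : SMod.Hom A B) (n : ℕ) :
    RZ0 f.cx (n + 1) ↔ ∀ (b : B.obj (n + 1)) (a : A.obj n), A.cx.Cyc n a →
      B.d n b + f.app n a = 0 → ∃ (b' : B.obj (n + 2)) (a' : A.obj (n + 1)),
        B.d (n + 1) b' + f.app (n + 1) a' = b ∧ -(A.d n a') = a :=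
  rz0_succ f.cx n

/-- if two functions agree on the support up to the relation of having the same image, then a
chain killed by the first map is killed by the second -/
theorem mapDomain_eq_zero_of {α β γ : Type} (f : α → β) (g : α → γ) (c : α →₀ R)
    (h : ∀ x ∈ c.support, ∀ y ∈ c.support, f x = f y → g x = g y)
    (hc : Finsupp.mapDomain f c = 0) : Finsupp.mapDomain g c = 0 := by
  classical
  by_cases h0 : c.support = ∅
  · rw [Finsupp.support_eq_empty.1 h0, Finsupp.mapDomain_zero]
  · obtain ⟨x0, _⟩ := Finset.nonempty_iff_ne_empty.2 h0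
    let k : β → γ := fun z => if hz : ∃ x ∈ c.support, f x = z then g hz.choose else g x0
    have hk : ∀ x ∈ c.support, g x = k (f x) := by
      intro x hx
      have hz : ∃ x' ∈ c.support, f x' = f x := ⟨x, hx, rfl⟩
      change g x = dite _ _ _
      rw [dif_pos hz]
      exact h x hx _ hz.choose_spec.1 hz.choose_spec.2.symm
    rw [Finsupp.mapDomain_congr (g := fun x => k (f x)) hk,
      show (fun x => k (f x)) = k ∘ f from rfl, Finsupp.mapDomain_comp, hc,
      Finsupp.mapDomain_zero]

variable (a : SS.Map Y Y)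

/-- the `i`-th leg on chains -/
noncomputable abbrev ctin (R : Type) [CommRing R] (a : SS.Map Y Y) (i : ℕ) :
    SMod.Hom (free R Y) (free R (tel a)) := freeMap R (tin a i)

/-- the `n`-th iterate on chains -/
noncomputable abbrev cit (R : Type) [CommRing R] (a : SS.Map Y Y) (n : ℕ) :
    SMod.Hom (free R Y) (free R Y) := freeMap R (iterMap a n)

theorem freeMap_congrA {X Z : SS} {f g : SS.Map X Z} {p : ℕ}
    (h : ∀ x : X.obj p, f.app x = g.app x) (c : (free R X).obj p) :
    (freeMap R f).app p c = (freeMap R g).app p c := by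
  have : ∀ c : X.obj p →₀ R, Finsupp.mapDomain f.app c = Finsupp.mapDomain g.app c := fun c =>
    Finsupp.mapDomain_congr fun x _ => h x
  exact this c

theorem ctin_cit (i n : ℕ) {p : ℕ} (c : (free R Y).obj p) :
    (ctin R a (i + n)).app p ((cit R a n).app p c) = (ctin R a i).app p c := by
  rw [← freeMap_comp_app]
  exact freeMap_congrA (fun x => tin_iter a i n x) c

theorem cit_add (m n : ℕ) {p : ℕ} (c : (free R Y).obj p) :
    (cit R a (m + n)).app p c = (cit R a m).app p ((cit R a n).app p c) := by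
  rw [← freeMap_comp_app]
  exact freeMap_congrA (fun x => iterMap_add a m n x) c

theorem cit_zero {p : ℕ} (c : (free R Y).obj p) : (cit R a 0).app p c = c := by
  exact (freeMap_congrA (g := SS.Map.id Y) (fun x => rfl) c).trans (freeMap_id_app c)

theorem cit_one {p : ℕ} (c : (free R Y).obj p) :
    (cit R a 1).app p c = (freeMap R a).app p c :=
  freeMap_congrA (fun _ => rfl) c

theorem cit_comm (b : SS.Map W W) (f : SS.Map Y W)
    (h : ∀ {p : ℕ} (x : Y.obj p), f.app (a.app x) = b.app (f.app x)) (n : ℕ) {p : ℕ}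
    (c : (free R Y).obj p) :
    (freeMap R f).app p ((cit R a n).app p c) = (cit R b n).app p ((freeMap R f).app p c) := by
  rw [← freeMap_comp_app, ← freeMap_comp_app]
  exact freeMap_congrA (fun x => iterMap_comm a b f h n x) c

/-- every chain of the telescope comes from a stage -/
theorem exists_chain {p : ℕ} (z : (free R (tel a)).obj p) :
    ∃ (i : ℕ) (c : (free R Y).obj p), (ctin R a i).app p c = z := by
  have key : ∀ z : (tel a).obj p →₀ R, ∃ (i : ℕ) (c : Y.obj p →₀ R),
      Finsupp.mapDomain ((tin a i).app (p := p)) c = z := by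
    intro z
    induction z using Finsupp.induction_linear with
    | zero => exact ⟨0, 0, Finsupp.mapDomain_zero⟩
    | single z r =>
      obtain ⟨i, x, rfl⟩ := exists_tin a z
      exact ⟨i, Finsupp.single x r, Finsupp.mapDomain_single⟩
    | add z w hz hw =>
      obtain ⟨i, c, rfl⟩ := hz
      obtain ⟨j, c', rfl⟩ := hw
      refine ⟨i + j, Finsupp.mapDomain (iterMap a j).app c +
        Finsupp.mapDomain (iterMap a i).app c', ?_⟩
      have h1 : Finsupp.mapDomain ((tin a (i + j)).app (p := p))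
          (Finsupp.mapDomain (iterMap a j).app c) = Finsupp.mapDomain (tin a i).app c :=
        ctin_cit a i j c
      have h2 : Finsupp.mapDomain ((tin a (i + j)).app (p := p))
          (Finsupp.mapDomain (iterMap a i).app c') = Finsupp.mapDomain (tin a j).app c' := by
        rw [Nat.add_comm i j]
        exact ctin_cit a j i c'
      rw [Finsupp.mapDomain_add, h1, h2]
  exact key z

/-- a chain of a stage which vanishes in the telescope vanishes at a later stage -/
theorem chain_eq_zero {i : ℕ} {p : ℕ} (c : (free R Y).obj p) (h : (ctin R a i).app p c = 0) :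
    ∃ n, (cit R a n).app p c = 0 := by
  classical
  have key : ∀ c : Y.obj p →₀ R, Finsupp.mapDomain ((tin a i).app (p := p)) c = 0 →
      ∃ n, Finsupp.mapDomain ((iterMap a n).app (p := p)) c = 0 := by
    intro c hc
    have h1 : ∀ z : Y.obj p × Y.obj p, ∃ n, (tin a i).app z.1 = (tin a i).app z.2 →
        ∀ m, n ≤ m → (iterMap a m).app z.1 = (iterMap a m).app z.2 := by
      intro z
      by_cases hz : (tin a i).app z.1 = (tin a i).app z.2
      · obtain ⟨n, hn⟩ := (tin_eq_iff a).1 hz
        refine ⟨n, fun _ m hm => ?_⟩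
        obtain ⟨l, rfl⟩ := Nat.exists_eq_add_of_le' hm
        rw [iterMap_add, iterMap_add, hn]
      · exact ⟨0, fun h => absurd h hz⟩
    choose N hN using h1
    refine ⟨(c.support ×ˢ c.support).sup N, ?_⟩
    refine mapDomain_eq_zero_of _ _ c (fun x hx y hy hxy => ?_) hc
    exact hN (x, y) hxy _ (Finset.le_sup (f := N) (Finset.mem_product.2 ⟨hx, hy⟩))
  exact key c h

/-- every cycle of the telescope comes from a cycle of a stage -/
theorem exists_cyc {n : ℕ} (z : (free R (tel a)).obj n) (hz : (free R (tel a)).cx.Cyc n z) :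
    ∃ (i : ℕ) (c : (free R Y).obj n), (free R Y).cx.Cyc n c ∧ (ctin R a i).app n c = z := by
  obtain ⟨i, c, rfl⟩ := exists_chain a z
  cases n with
  | zero => exact ⟨i, c, trivial, rfl⟩
  | succ n =>
    have h1 : (free R (tel a)).d n ((ctin R a i).app (n + 1) c) = 0 := hz
    rw [← SMod.Hom.app_d] at h1
    obtain ⟨N, hN⟩ := chain_eq_zero a _ h1
    refine ⟨i + N, (cit R a N).app (n + 1) c, ?_, ctin_cit a i N c⟩
    change (free R Y).d n ((cit R a N).app (n + 1) c) = 0
    rw [← SMod.Hom.app_d, hN]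

/-- a cycle of a stage which bounds in the telescope bounds at a later stage -/
theorem exists_bd {n i : ℕ} (c : (free R Y).obj n) (z : (free R (tel a)).obj (n + 1))
    (h : (ctin R a i).app n c = (free R (tel a)).d n z) :
    ∃ (N : ℕ) (w : (free R Y).obj (n + 1)), (cit R a N).app n c = (free R Y).d n w := by
  obtain ⟨j, w, rfl⟩ := exists_chain a z
  have h1 : (ctin R a (i + j)).app n ((cit R a j).app n c - (free R Y).d n
      ((cit R a i).app (n + 1) w)) = 0 := by
    rw [map_sub, ctin_cit, h, SMod.Hom.app_d, Nat.add_comm i j, ctin_cit, sub_self]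
  obtain ⟨M, hM⟩ := chain_eq_zero a _ h1
  refine ⟨M + j, (cit R a (M + i)).app (n + 1) w, ?_⟩
  rw [cit_add, cit_add, ← SMod.Hom.app_d]
  rw [map_sub, sub_eq_zero] at hM
  exact hM

/-- every relative cycle of a map of telescopes comes from a relative cycle of a stage -/
theorem exists_relCyc (b : SS.Map W W) (f : SS.Map Y W)
    (h : ∀ {p : ℕ} (x : Y.obj p), f.app (a.app x) = b.app (f.app x)) {n : ℕ}
    (u : (free R (tel b)).obj (n + 1)) (v : (free R (tel a)).obj n)
    (hv : (free R (tel a)).cx.Cyc n v)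
    (huv : (free R (tel b)).d n u + (freeMap R (telMap a b f h)).app n v = 0) :
    ∃ (i : ℕ) (u₀ : (free R W).obj (n + 1)) (v₀ : (free R Y).obj n),
      (free R Y).cx.Cyc n v₀ ∧ (free R W).d n u₀ + (freeMap R f).app n v₀ = 0 ∧
        (ctin R b i).app (n + 1) u₀ = u ∧ (ctin R a i).app n v₀ = v := by
  obtain ⟨j, v₁, hv₁, rfl⟩ := exists_cyc a v hv
  obtain ⟨k, u₁, rfl⟩ := exists_chain b u
  have hf : ∀ i (c : (free R Y).obj n), (freeMap R (telMap a b f h)).app n
      ((ctin R a i).app n c) = (ctin R b i).app n ((freeMap R f).app n c) := by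
    intro i c
    rw [← freeMap_comp_app, ← freeMap_comp_app]
    exact freeMap_congrA (fun _ => rfl) c
  have h1 : (ctin R b (j + k)).app n ((free R W).d n ((cit R b j).app (n + 1) u₁) +
      (freeMap R f).app n ((cit R a k).app n v₁)) = 0 := by
    rw [map_add, SMod.Hom.app_d, ← hf, ctin_cit, Nat.add_comm j k, ctin_cit]
    exact huv
  obtain ⟨N, hN⟩ := chain_eq_zero b _ h1
  refine ⟨j + k + N, (cit R b (N + j)).app (n + 1) u₁, (cit R a (N + k)).app n v₁,
    (cit R a (N + k)).cx.cyc hv₁, ?_, ?_, ?_⟩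
  · rw [map_add, SMod.Hom.app_d, ← cit_comm a b f h, ← cit_add, ← cit_add] at hN
    exact hN
  · rw [show j + k + N = k + (N + j) by omega, ctin_cit]
  · rw [show j + k + N = j + (N + k) by omega, ctin_cit]

/-- **Relative homology of telescopes**: `RZ0` passes to the telescope. -/
theorem rz0_telMap (b : SS.Map W W) (f : SS.Map Y W)
    (h : ∀ {p : ℕ} (x : Y.obj p), f.app (a.app x) = b.app (f.app x)) (n : ℕ)
    (H : RZ0 (freeMap R f).cx n) : RZ0 (freeMap R (telMap a b f h)).cx n := by
  have hf : ∀ (p i : ℕ) (c : (free R Y).obj p), (freeMap R (telMap a b f h)).app p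
      ((ctin R a i).app p c) = (ctin R b i).app p ((freeMap R f).app p c) := by
    intro p i c
    rw [← freeMap_comp_app, ← freeMap_comp_app]
    exact freeMap_congrA (fun _ => rfl) c
  cases n with
  | zero =>
    rw [rz0s_zero] at *
    intro z
    obtain ⟨i, c, rfl⟩ := exists_chain b z
    obtain ⟨u, v, huv⟩ := H c
    refine ⟨(ctin R b i).app 1 u, (ctin R a i).app 0 v, ?_⟩
    rw [hf, ← SMod.Hom.app_d, ← map_add, huv]
  | succ n =>
    rw [rz0s_succ] at *
    intro u v hv huv
    obtain ⟨i, u₀, v₀, hv₀, h₀, rfl, rfl⟩ := exists_relCyc a b f h u v hv huv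
    obtain ⟨u₁, v₁, h1, h2⟩ := H u₀ v₀ hv₀ h₀
    refine ⟨(ctin R b i).app (n + 2) u₁, (ctin R a i).app (n + 1) v₁, ?_, ?_⟩
    · rw [hf, ← SMod.Hom.app_d, ← map_add, h1]
    · rw [← SMod.Hom.app_d, ← map_neg, h2]

/-- iterates are onto in homology -/
theorem cit_surj {n : ℕ} (hs : ∀ c : (free R Y).obj n, (free R Y).cx.Cyc n c →
      ∃ (x : (free R Y).obj n) (w : (free R Y).obj (n + 1)), (free R Y).cx.Cyc n x ∧
        c = (freeMap R a).app n x + (free R Y).d n w) (N : ℕ) :
    ∀ c : (free R Y).obj n, (free R Y).cx.Cyc n c →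
      ∃ (x : (free R Y).obj n) (w : (free R Y).obj (n + 1)), (free R Y).cx.Cyc n x ∧
        c = (cit R a N).app n x + (free R Y).d n w := by
  induction N with
  | zero => exact fun c hc => ⟨c, 0, hc, by rw [cit_zero, map_zero, add_zero]⟩
  | succ N ih =>
    intro c hc
    obtain ⟨x, w, hx, rfl⟩ := ih c hc
    obtain ⟨y, v, hy, rfl⟩ := hs x hx
    refine ⟨y, (cit R a N).app (n + 1) v + w, hy, ?_⟩
    rw [cit_add, cit_one, map_add, map_add, SMod.Hom.app_d, add_assoc]

/-- iterates are injective in homology -/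
theorem cit_inj {n : ℕ} (hi : ∀ (x : (free R Y).obj n) (w : (free R Y).obj (n + 1)),
      (free R Y).cx.Cyc n x → (freeMap R a).app n x = (free R Y).d n w →
        ∃ w', x = (free R Y).d n w') (N : ℕ) :
    ∀ (x : (free R Y).obj n) (w : (free R Y).obj (n + 1)),
      (free R Y).cx.Cyc n x → (cit R a N).app n x = (free R Y).d n w →
        ∃ w', x = (free R Y).d n w' := by
  induction N with
  | zero => intro x w _ h; rw [cit_zero] at h; exact ⟨w, h⟩
  | succ N ih =>
    intro x w hx h
    rw [cit_add, cit_one] at h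
    obtain ⟨w', hw'⟩ := ih _ w ((freeMap R a).cx.cyc hx) h
    exact hi x w' hx hw'

/-- `RZ0` of the legs, degree `0` -/
theorem rz0_tin_zero (hs : ∀ c : (free R Y).obj 0, ∃ (x : (free R Y).obj 0)
      (w : (free R Y).obj 1), c = (freeMap R a).app 0 x + (free R Y).d 0 w) (i : ℕ) :
    RZ0 (ctin R a i).cx 0 := by
  rw [rz0s_zero]
  intro z
  obtain ⟨j, c, rfl⟩ := exists_chain a z
  obtain ⟨x, w, _, hxw⟩ := cit_surj a (n := 0) (fun c _ => by
    obtain ⟨x, w, h⟩ := hs c
    exact ⟨x, w, trivial, h⟩) j ((cit R a i).app 0 c) trivial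
  refine ⟨(ctin R a (i + j)).app 1 w, x, ?_⟩
  rw [← ctin_cit a i j x, ← SMod.Hom.app_d, ← map_add, add_comm ((free R Y).d 0 w), ← hxw,
    Nat.add_comm i j, ctin_cit]

/-- `RZ0` of the legs, positive degree -/
theorem rz0_tin_succ (n : ℕ)
    (hi : ∀ (x : (free R Y).obj n) (w : (free R Y).obj (n + 1)),
      (free R Y).cx.Cyc n x → (freeMap R a).app n x = (free R Y).d n w →
        ∃ w', x = (free R Y).d n w')
    (hs : ∀ c : (free R Y).obj (n + 1), (free R Y).d n c = 0 →
      ∃ (x : (free R Y).obj (n + 1)) (w : (free R Y).obj (n + 2)), (free R Y).d n x = 0 ∧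
        c = (freeMap R a).app (n + 1) x + (free R Y).d (n + 1) w) (i : ℕ) :
    RZ0 (ctin R a i).cx (n + 1) := by
  rw [rz0s_succ]
  intro b v hv hbv
  -- `v` bounds
  obtain ⟨N, w, hw⟩ := exists_bd a v (-b) (i := i) (by
    rw [map_neg]; exact eq_neg_of_add_eq_zero_right hbv)
  obtain ⟨w', hw'⟩ := cit_inj a hi N v w hv hw
  -- the corrected cycle
  have h1 : (free R (tel a)).d n (b + (ctin R a i).app (n + 1) w') = 0 := by
    rw [map_add, ← SMod.Hom.app_d, ← hw']
    exact hbv
  obtain ⟨j, c, hc, hcb⟩ := exists_cyc a _ (show (free R (tel a)).cx.Cyc (n + 1) _ from h1)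
  obtain ⟨x, u, hx, hxu⟩ := cit_surj a (n := n + 1) hs j ((cit R a i).app (n + 1) c)
    ((cit R a i).cx.cyc hc)
  have hx0 : (free R Y).d n x = 0 := hx
  refine ⟨(ctin R a (i + j)).app (n + 2) u, x - w', ?_, ?_⟩
  · have h2 : (ctin R a j).app (n + 1) c = (ctin R a i).app (n + 1) x +
        (free R (tel a)).d (n + 1) ((ctin R a (i + j)).app (n + 2) u) := by
      rw [← ctin_cit a j i c, Nat.add_comm j i, hxu, map_add, ctin_cit, SMod.Hom.app_d]
    rw [map_sub]
    have h3 : b = (ctin R a j).app (n + 1) c - (ctin R a i).app (n + 1) w' := by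
      rw [hcb]; exact (add_sub_cancel_right _ _).symm
    rw [h3, h2]
    abel
  · rw [map_sub, hx0, hw', zero_sub, neg_neg]

/-- **The legs of the telescope of a homology isomorphism are homology isomorphisms**, degree by
degree. -/
theorem rz0_tin (n : ℕ) (h : RZ0 (freeMap R a).cx n) (i : ℕ) : RZ0 (freeMap R (tin a i)).cx n := by
  cases n with
  | zero =>
    rw [rz0s_zero] at h
    refine rz0_tin_zero a (fun c => ?_) i
    obtain ⟨w, x, hwx⟩ := h c
    exact ⟨x, w, (hwx.symm.trans (add_comm _ _))⟩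
  | succ n =>
    rw [rz0s_succ] at h
    refine rz0_tin_succ a n (fun x w hx hxw => ?_) (fun c hc => ?_) i
    · obtain ⟨_, a', _, h2⟩ := h (-w) x hx (by rw [hxw, map_neg, neg_add_cancel])
      exact ⟨-a', by rw [map_neg]; exact h2.symm⟩
    · obtain ⟨b', a', h1, h2⟩ := h c 0 (by
        cases n with
        | zero => trivial
        | succ n => exact map_zero _) (by rw [hc, map_zero, add_zero])
      exact ⟨a', b', neg_eq_zero.1 h2, h1.symm.trans (add_comm _ _)⟩

/-- **If `a` acts as the identity on homology, the legs of the telescope are homology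
isomorphisms.** -/
theorem rz0_tin_of_id (h : ∀ (n : ℕ) (c : (free R Y).obj n), (free R Y).cx.Cyc n c →
      ∃ w : (free R Y).obj (n + 1), (free R Y).d n w = (freeMap R a).app n c - c) (i n : ℕ) :
    RZ0 (freeMap R (tin a i)).cx n := by
  have hs : ∀ (n : ℕ) (c : (free R Y).obj n), (free R Y).cx.Cyc n c →
      ∃ w, c = (freeMap R a).app n c + (free R Y).d n w := by
    intro n c hc
    obtain ⟨w, hw⟩ := h n c hc
    exact ⟨-w, by rw [map_neg, hw]; abel⟩
  cases n with
  | zero =>
    refine rz0_tin_zero a (fun c => ?_) i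
    obtain ⟨w, hw⟩ := hs 0 c trivial
    exact ⟨c, w, hw⟩
  | succ n =>
    refine rz0_tin_succ a n (fun x w hx hxw => ?_) (fun c hc => ?_) i
    · obtain ⟨w', hw'⟩ := hs n x hx
      exact ⟨w + w', by rw [map_add, ← hxw]; exact hw'⟩
    · obtain ⟨w, hw⟩ := hs (n + 1) c hc
      exact ⟨c, w, hc, hw⟩

end chains

end Vale.Agent.P263.GB
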