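import Vale.Agent.P263.GB.MapTel
import Vale.Agent.P263.GB.TelShift

/-!
# P263, block G2-10: from the telescopes to the components

`isTel_tel` : the telescope of a self map is a sequential colimit.

For `G : MixG`: `G.dF`, `G.dQ` (the degrees as `LC`), `G.alN N : A_N → Q_N` (the collapse on the parts
of degree `N`), `G.trN N v : Q_N → Q_0` (right multiplication with a vertex of degree `-N`),
`G.boxR N v : A_N → Q_0`; all of them are homology isomorphisms in a range.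
-/

open Vale.Agent.P263.S Vale.Agent.P263.E Vale.Agent.P263.G2 Vale.Agent.P263.G

namespace Vale.Agent.P263.GB

theorem itS_const_app {Y : SS} (a : SS.Map Y Y) (n m : ℕ) {p : ℕ} (x : Y.obj p) :
    (itS (fun _ => Y) (fun _ => a) n m).app x = (iterMap a m).app x := by
  induction m with
  | zero => rfl
  | succ m ih =>
    rw [iterMap_app, Function.iterate_succ_apply', ← iterMap_app, ← ih]
    rfl

/-- the telescope of a self map is a sequential colimit -/
def isTel_tel {Y : SS} (a : SS.Map Y Y) : IsTel (fun _ => Y) (fun _ => a) (tel a) where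
  i n := tin a n
  i_s n _ x := tin_succ a n x
  ex t := exists_tin a t
  eq {n _} x y h := by
    obtain ⟨m, hm⟩ := (tin_eq_iff a).1 h
    exact ⟨m, by rw [itS_const_app, itS_const_app, hm]⟩

namespace MixG

variable (G : MixG)

/-- the degree of a loop -/
def dQ : LC (G.obj Unit Empty) where
  deg x := G.deg x
  deg_map f x := G.deg_map f x

/-- the degree of a family of boxes -/
def dF : LC (G.obj Empty Unit) where
  deg x := G.degF _ x
  deg_map f x := G.degF_map f x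

theorem dQ_aK {p : ℕ} (x : (G.obj Unit Empty).obj p) : G.dQ.deg (G.aK.app x) = G.dQ.deg x + 1 :=
  G.deg_aK p x

theorem dF_aF {p : ℕ} (x : (G.obj Empty Unit).obj p) : G.dF.deg (G.aF.app x) = G.dF.deg x + 1 :=
  G.degF_aF p x

theorem alpha_P {m : ℤ} {p : ℕ} (x : (G.obj Empty Unit).obj p) (hx : (G.dF.fib m).P x) :
    (G.dQ.fib m).P ((G.alpha.app Unit).app x) := hx

/-- the collapse on the parts of degree `N` -/
def alN (N : ℕ) : SS.Map (G.dF.fib (N : ℤ)).sub (G.dQ.fib (N : ℤ)).sub :=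
  (G.dF.fib (N : ℤ)).map (G.dQ.fib (N : ℤ)) (G.alpha.app Unit) fun x hx => G.alpha_P x hx

/-- **The collapse `A_N → Q_N` in the stable range.** -/
theorem h_alN {k : Type} [CommRing k] (I : G.Inv) (N j : ℕ)
    (hT : RZ0 (freeMap k G.telAlpha).cx j) (hT' : RZ0 (freeMap k G.telAlpha).cx (j + 1))
    (hs : ∀ n, N ≤ n → HInj k (fibS G.dF G.dF_aF n) j ∧ HSurj k (fibS G.dF G.dF_aF n) j) :
    HInj k (G.alN N) j ∧ HSurj k (G.alN N) j :=
  fib_of_tel (G.alpha.app Unit) (isTel_tel G.aF) G.dF G.dF_aF (isTel_tel G.aK) G.dQ G.dQ_aK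
    (fun _ => rfl) G.telAlpha (fun _ _ _ => rfl) N j (hSurj_of_rz0 hT) (hInj_of_rz0 hT') hs
    ⟨hInj_of_rz0 (I.rz0_aK (j + 1)), hSurj_of_rz0 (I.rz0_aK j)⟩ fun x hx => G.alpha_P x hx

theorem deg_mulR (v : (G.obj Unit Empty).obj 0) {p : ℕ} (x : (G.obj Unit Empty).obj p) :
    G.deg ((G.mulR v).app x) = G.deg x + G.deg v := by
  rw [G.mulR_app, G.deg_mul, dgn, G.deg_map]

theorem mulR_P (v : (G.obj Unit Empty).obj 0) (m l : ℤ) (hv : m + G.deg v = l) {p : ℕ}
    (x : (G.obj Unit Empty).obj p) (hx : (G.dQ.fib m).P x) :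
    (G.dQ.fib l).P ((G.mulR v).app x) := by
  show G.deg ((G.mulR v).app x) = l
  rw [G.deg_mulR, show G.deg x = m from hx, hv]

/-- right multiplication with a vertex of degree `l - m`, on the part of degree `m` -/
def trN (v : (G.obj Unit Empty).obj 0) (m l : ℤ) (hv : m + G.deg v = l) :
    SS.Map (G.dQ.fib m).sub (G.dQ.fib l).sub :=
  (G.dQ.fib m).map (G.dQ.fib l) (G.mulR v) fun x hx => G.mulR_P v m l hv x hx

theorem h_trN {k : Type} [CommRing k] (I : G.Inv) (v : (G.obj Unit Empty).obj 0) (m l : ℤ)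
    (hv : m + G.deg v = l) (j : ℕ) : HInj k (G.trN v m l hv) j ∧ HSurj k (G.trN v m l hv) j := by
  refine ⟨Cl.hInj _ _ (G.mulR v) (fun x hx => G.mulR_P v m l hv x hx)
      (hInj_of_rz0 (I.rz0_mulR v (j + 1))),
    Cl.hSurj _ _ (G.mulR v) (fun x hx => G.mulR_P v m l hv x hx) (fun x hx => ?_)
      (hSurj_of_rz0 (I.rz0_mulR v j))⟩
  have h : G.deg ((G.mulR v).app x) = l := hx
  rw [G.deg_mulR] at h
  show G.deg x = m
  linarith

/-- the boxes followed by the vertex `v` of degree `-N` -/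
def boxR (N : ℕ) (v : (G.obj Unit Empty).obj 0) (hv : (N : ℤ) + G.deg v = 0) :
    SS.Map (G.dF.fib (N : ℤ)).sub (G.dQ.fib 0).sub := (G.trN v N 0 hv).comp (G.alN N)

theorem boxR_coe (N : ℕ) (v : (G.obj Unit Empty).obj 0) (hv : (N : ℤ) + G.deg v = 0) {p : ℕ}
    (x : (G.dF.fib (N : ℤ)).sub.obj p) :
    ((G.boxR N v hv).app x).1 = (G.mulR v).app ((G.alpha.app Unit).app x.1) := rfl

/-- **The map `A_N → Q_0` in the stable range.** -/
theorem h_boxR {k : Type} [CommRing k] (I : G.Inv) (N : ℕ) (v : (G.obj Unit Empty).obj 0)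
    (hv : (N : ℤ) + G.deg v = 0) (j : ℕ)
    (hT : RZ0 (freeMap k G.telAlpha).cx j) (hT' : RZ0 (freeMap k G.telAlpha).cx (j + 1))
    (hs : ∀ n, N ≤ n → HInj k (fibS G.dF G.dF_aF n) j ∧ HSurj k (fibS G.dF G.dF_aF n) j) :
    HInj k (G.boxR N v hv) j ∧ HSurj k (G.boxR N v hv) j := by
  have h1 := G.h_alN I N j hT hT' hs
  have h2 := G.h_trN (k := k) I v N 0 hv j
  exact ⟨hInj_comp h2.1 h1.1, hSurj_comp h2.2 h1.2⟩

theorem isoUpTo_boxR {k : Type} [Field k] (I : G.Inv) (N : ℕ) (v : (G.obj Unit Empty).obj 0)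
    (hv : (N : ℤ) + G.deg v = 0) (D : ℕ) (hT : ∀ j, RZ0 (freeMap k G.telAlpha).cx j)
    (hs : ∀ j ≤ D, ∀ n, N ≤ n →
      HInj k (fibS G.dF G.dF_aF n) j ∧ HSurj k (fibS G.dF G.dF_aF n) j) :
    IsoUpTo k D (G.boxR N v hv) :=
  isoUpTo_of_h (fun j hj => (G.h_boxR I N v hv j (hT j) (hT (j + 1)) (hs j hj)).2)
    fun j hj => (G.h_boxR I N v hv j (hT j) (hT (j + 1)) (hs j hj.le)).1

end MixG

end Vale.Agent.P263.GB
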