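import Vale.Agent.P263.GB.TelConn
import Vale.Agent.P263.G.ZigT

/-!
# P263, block G2-10: the zigzag `A_N → TQ0 ← Q_0` with names

For `G : MixG`: `G.TQ0` is the component of degree `0` of the telescope of
`Q -aK-> Q -aK-> ⋯`, `Q = G.obj Unit Empty`, and `G.telQ0 : IsTel .. G.TQ0`.

* `G.uN N : A_N → TQ0` (`A_N` the part of degree `N` of `G.obj Empty Unit`), `G.v0 : Q_0 → TQ0`;
* `hSurj_uN`, `hInj_uN`, `isoUpTo_uN`, `isoUpTo_v0`, `conn_uN`, `connT_uN`.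
-/

open Vale.Agent.P263.S Vale.Agent.P263.E Vale.Agent.P263.G2 Vale.Agent.P263.G

namespace Vale.Agent.P263.GB

namespace MixG

variable (G : MixG)

/-- the component of degree `0` of the telescope of the boxes -/
def TA0 : SS := (telCl (isTel_tel G.aF) G.dF G.dF_aF).sub

/-- the component of degree `0` of the telescope of the loops -/
def TQ0 : SS := (telCl (isTel_tel G.aK) G.dQ G.dQ_aK).sub

/-- `TA0` is the colimit of the parts of degree `n` -/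
def telA0 : IsTel (fun n : ℕ => (G.dF.fib (n : ℤ)).sub) (fibS G.dF G.dF_aF) G.TA0 :=
  isTel_comp (isTel_tel G.aF) G.dF G.dF_aF

/-- `TQ0` is the colimit of the parts of degree `n` -/
def telQ0 : IsTel (fun n : ℕ => (G.dQ.fib (n : ℤ)).sub) (fibS G.dQ G.dQ_aK) G.TQ0 :=
  isTel_comp (isTel_tel G.aK) G.dQ G.dQ_aK

theorem telAlpha_P {p : ℕ} (x : (tel G.aF).obj p)
    (hx : (telCl (isTel_tel G.aF) G.dF G.dF_aF).P x) :
    (telCl (isTel_tel G.aK) G.dQ G.dQ_aK).P (G.telAlpha.app x) := by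
  obtain ⟨n, y, rfl, hy⟩ := hx
  exact ⟨n, (G.alpha.app Unit).app y, rfl, hy⟩

theorem telAlpha_P' {p : ℕ} (x : (tel G.aF).obj p)
    (hx : (telCl (isTel_tel G.aK) G.dQ G.dQ_aK).P (G.telAlpha.app x)) :
    (telCl (isTel_tel G.aF) G.dF G.dF_aF).P x := by
  obtain ⟨n, y, hy, hd⟩ := hx
  obtain ⟨m, z, rfl⟩ := exists_tin G.aF x
  refine ⟨m, z, rfl, ?_⟩
  have h1 := deg_inv (isTel_tel G.aK) G.dQ G.dQ_aK y ((G.alpha.app Unit).app z) (n := n)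
    (m := m) hy
  show G.dQ.deg ((G.alpha.app Unit).app z) = m
  linarith

/-- the map between the components of degree `0` -/
def f0 : SS.Map G.TA0 G.TQ0 :=
  (telCl (isTel_tel G.aF) G.dF G.dF_aF).map (telCl (isTel_tel G.aK) G.dQ G.dQ_aK) G.telAlpha
    fun x hx => G.telAlpha_P x hx

/-- the boxes of degree `N` in the telescope of the loops -/
def uN (N : ℕ) : SS.Map (G.dF.fib (N : ℤ)).sub G.TQ0 := G.f0.comp (G.telA0.i N)

/-- the loops of degree `0` in the telescope -/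
def v0 : SS.Map (G.dQ.fib 0).sub G.TQ0 := G.telQ0.i 0

/-- on simplices `uN` is the collapse followed by the leg `N` -/
theorem uN_eq (N : ℕ) : G.uN N = (G.telQ0.i N).comp (G.alN N) := rfl

section

variable {k : Type} [CommRing k]

theorem hSurj_f0 {j : ℕ} (hT : RZ0 (freeMap k G.telAlpha).cx j) : HSurj k G.f0 j :=
  Cl.hSurj _ _ G.telAlpha _ (fun x hx => G.telAlpha_P' x hx) (hSurj_of_rz0 hT)

theorem hInj_f0 {j : ℕ} (hT : RZ0 (freeMap k G.telAlpha).cx (j + 1)) : HInj k G.f0 j :=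
  Cl.hInj _ _ G.telAlpha _ (hInj_of_rz0 hT)

theorem hSurj_uN {j N : ℕ} (hT : RZ0 (freeMap k G.telAlpha).cx j)
    (hs : ∀ n, N ≤ n → HSurj k (fibS G.dF G.dF_aF n) j) : HSurj k (G.uN N) j :=
  hSurj_comp (G.hSurj_f0 hT) (G.telA0.hSurj hs)

theorem hInj_uN {j N : ℕ} (hT : RZ0 (freeMap k G.telAlpha).cx (j + 1))
    (hs : ∀ n, N ≤ n → HInj k (fibS G.dF G.dF_aF n) j) : HInj k (G.uN N) j :=
  hInj_comp (G.hInj_f0 hT) (G.telA0.hInj hs)

variable {G}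

theorem Inv.hSurj_fibQ (I : G.Inv) (n j : ℕ) : HSurj k (fibS G.dQ G.dQ_aK n) j := by
  refine Cl.hSurj (G.dQ.fib (n : ℤ)) (G.dQ.fib ((n + 1 : ℕ) : ℤ)) G.aK (fibS_h G.dQ G.dQ_aK n)
    (fun x hx => ?_) (hSurj_of_rz0 (I.rz0_aK j))
  have h3 : G.dQ.deg (G.aK.app x) = ((n + 1 : ℕ) : ℤ) := hx
  rw [dQ_aK] at h3
  push_cast at h3
  show G.dQ.deg x = n
  linarith

theorem Inv.hInj_fibQ (I : G.Inv) (n j : ℕ) : HInj k (fibS G.dQ G.dQ_aK n) j :=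
  Cl.hInj (G.dQ.fib (n : ℤ)) (G.dQ.fib ((n + 1 : ℕ) : ℤ)) G.aK (fibS_h G.dQ G.dQ_aK n)
    (hInj_of_rz0 (I.rz0_aK (j + 1)))

/-- every leg of the telescope of the loops is a homology isomorphism -/
theorem Inv.hSurj_leg (I : G.Inv) (N j : ℕ) : HSurj k (G.telQ0.i N) j :=
  G.telQ0.hSurj fun n _ => I.hSurj_fibQ n j

theorem Inv.hInj_leg (I : G.Inv) (N j : ℕ) : HInj k (G.telQ0.i N) j :=
  G.telQ0.hInj fun n _ => I.hInj_fibQ n j

theorem Inv.hSurj_v0 (I : G.Inv) (j : ℕ) : HSurj k G.v0 j := I.hSurj_leg 0 j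

theorem Inv.hInj_v0 (I : G.Inv) (j : ℕ) : HInj k G.v0 j := I.hInj_leg 0 j

end

section field

variable {k : Type} [Field k] {G}

theorem Inv.isoUpTo_v0 (I : G.Inv) (D : ℕ) : IsoUpTo k D G.v0 :=
  isoUpTo_of_h (fun j _ => I.hSurj_v0 j) fun j _ => I.hInj_v0 j

variable (G)

theorem isoUpTo_uN (hT : ∀ j, RZ0 (freeMap k G.telAlpha).cx j) (D N : ℕ)
    (hs : ∀ j ≤ D, ∀ n, N ≤ n →
      HInj k (fibS G.dF G.dF_aF n) j ∧ HSurj k (fibS G.dF G.dF_aF n) j) :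
    IsoUpTo k D (G.uN N) :=
  isoUpTo_of_h (fun j hj => G.hSurj_uN (hT j) fun n hn => (hs j hj n hn).2)
    fun j hj => G.hInj_uN (hT (j + 1)) fun n hn => (hs j hj.le n hn).1

/-- **The zigzag with its induced map.** -/
theorem connT_uN (I : G.Inv) (hT : ∀ j, RZ0 (freeMap k G.telAlpha).cx j) (D N : ℕ)
    (hs : ∀ j ≤ D, ∀ n, N ≤ n →
      HInj k (fibS G.dF G.dF_aF n) j ∧ HSurj k (fibS G.dF G.dF_aF n) j)
    {th : ∀ n, (SS.F k (G.dQ.fib 0).sub).H n →ₗ[k] (SS.F k (G.dF.fib (N : ℤ)).sub).H n}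
    (hth : ∀ n < D, ∀ z, ((G.uN N).pull (R := k)).mapH n z =
      th n ((G.v0.pull (R := k)).mapH n z)) :
    ConnT k D (G.dF.fib (N : ℤ)).sub (G.dQ.fib 0).sub th :=
  ⟨G.TQ0, G.uN N, G.v0, G.isoUpTo_uN hT D N hs, I.isoUpTo_v0 D, hth⟩

theorem conn_uN (I : G.Inv) (hT : ∀ j, RZ0 (freeMap k G.telAlpha).cx j) (D N : ℕ)
    (hs : ∀ j ≤ D, ∀ n, N ≤ n →
      HInj k (fibS G.dF G.dF_aF n) j ∧ HSurj k (fibS G.dF G.dF_aF n) j) :
    Conn k D (G.dF.fib (N : ℤ)).sub (G.dQ.fib 0).sub :=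
  ⟨G.TQ0, G.uN N, G.v0, G.isoUpTo_uN hT D N hs, I.isoUpTo_v0 D⟩

end field

end MixG

end Vale.Agent.P263.GB
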