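import Vale.Agent.P263.GB.IsTel

/-!
# P263, block G2-10: components of sequential colimits, and the zigzag between components

`Cl X` : a union of components of a simplicial set; `Cl.sub`, `Cl.map`; `LC X` : locally constant
integer functions, `LC.fib D m` their fibres.  `conn_of_tel_comp` : from a homology isomorphism
`colim (A -a-> A -a-> ⋯) → colim (Q -b-> Q -b-> ⋯)`, stability of `A_N → A_{N+1}` and invertibility
of `b` one gets `Conn k D A_N Q_0`.
-/

open Vale.Agent.P263.S Vale.Agent.P263.E Vale.Agent.P263.G2 Vale.Agent.P263.G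

namespace Vale.Agent.P263.GB

/-- a union of components of a simplicial set -/
structure Cl (X : SS) where
  /-- the predicate -/
  P : ∀ {p : ℕ}, X.obj p → Prop
  iff : ∀ {p q : ℕ} (f : Op p q) (x : X.obj q), P (X.map f x) ↔ P x

namespace Cl

variable {X Y : SS}

/-- the sub simplicial set -/
def sub (C : Cl X) : SS where
  obj p := {x : X.obj p // C.P x}
  map f x := ⟨X.map f x.1, (C.iff f x.1).2 x.2⟩
  map_id x := Subtype.ext (X.map_id x.1)
  map_comp f g x := Subtype.ext (X.map_comp f g x.1)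

/-- the inclusion -/
def inc (C : Cl X) : SS.Map C.sub X := ⟨fun x => x.1, fun _ _ => rfl⟩

/-- the simplices of the sub simplicial set -/
def elt (C : Cl X) {p : ℕ} (x : X.obj p) (h : C.P x) : C.sub.obj p := ⟨x, h⟩

@[simp] theorem inc_elt (C : Cl X) {p : ℕ} (x : X.obj p) (h : C.P x) : C.inc.app (C.elt x h) = x :=
  rfl

theorem elt_inc (C : Cl X) {p : ℕ} (x : C.sub.obj p) (h : C.P (C.inc.app x)) :
    C.elt (C.inc.app x) h = x := rfl

theorem inc_P (C : Cl X) {p : ℕ} (x : C.sub.obj p) : C.P (C.inc.app x) := x.2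

theorem inc_inj (C : Cl X) : C.inc.Inj := fun _ _ _ h => Subtype.ext h

/-- the restriction of a map -/
def map (C : Cl X) (C' : Cl Y) (f : SS.Map X Y)
    (h : ∀ {p : ℕ} (x : X.obj p), C.P x → C'.P (f.app x)) : SS.Map C.sub C'.sub where
  app x := ⟨f.app x.1, h x.1 x.2⟩
  nat α x := Subtype.ext (f.nat α x.1)

variable {k : Type} [CommRing k]

open Classical in
/-- the projection on chains -/
noncomputable def pr (k : Type) [CommRing k] (C : Cl X) (p : ℕ) : Chn k X p →ₗ[k] Chn k C.sub p :=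
  Finsupp.lsum k fun x : X.obj p =>
    if h : C.P x then Finsupp.lsingle (C.elt x h) else 0

theorem pr_single (C : Cl X) {p : ℕ} (x : X.obj p) (a : k) (h : C.P x) :
    C.pr k p (Finsupp.single x a) = Finsupp.single (C.elt x h) a := by
  rw [pr, Finsupp.lsum_single, dif_pos h]
  rfl

theorem pr_single_of_not (C : Cl X) {p : ℕ} (x : X.obj p) (a : k) (h : ¬ C.P x) :
    C.pr k p (Finsupp.single x a) = 0 := by
  rw [pr, Finsupp.lsum_single, dif_neg h]
  rfl

theorem pr_inc (C : Cl X) {p : ℕ} (z : Chn k C.sub p) : C.pr k p (push k C.inc p z) = z := by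
  have : (C.pr k p).comp (push k C.inc p) = LinearMap.id := by
    apply chn_hom_ext
    intro x
    rw [LinearMap.comp_apply, push_single, pr_single _ _ _ (C.inc_P x)]
    rfl
  exact DFunLike.congr_fun this z

theorem cb_pr (C : Cl X) {p : ℕ} (z : Chn k X (p + 1)) :
    cb k C.sub p (C.pr k (p + 1) z) = C.pr k p (cb k X p z) := by
  have : (cb k C.sub p).comp (C.pr k (p + 1)) = (C.pr k p).comp (cb k X p) := by
    apply chn_hom_ext
    intro x
    rw [LinearMap.comp_apply, LinearMap.comp_apply]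
    by_cases h : C.P x
    · rw [pr_single _ _ _ h, cb_single, cb_single, map_sum]
      refine Finset.sum_congr rfl fun i _ => ?_
      rw [CosMod.sn_lin, pr_single _ _ _ ((C.iff (dl p i) x).2 h)]
      rfl
    · rw [pr_single_of_not _ _ _ h, map_zero, cb_single, map_sum]
      symm
      refine Finset.sum_eq_zero fun i _ => ?_
      rw [CosMod.sn_lin, pr_single_of_not _ _ _ (fun h' => h ((C.iff (dl p i) x).1 h'))]
      exact smul_zero _
  exact DFunLike.congr_fun this z

theorem IsCyc_pr (C : Cl X) {p : ℕ} {z : Chn k X p} (hz : IsCyc p z) : IsCyc p (C.pr k p z) := by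
  cases p with
  | zero => trivial
  | succ p => rw [isCyc_succ] at *; rw [cb_pr, hz, map_zero]

theorem push_pr (C : Cl X) (C' : Cl Y) (f : SS.Map X Y)
    (h : ∀ {p : ℕ} (x : X.obj p), C.P x → C'.P (f.app x))
    (h' : ∀ {p : ℕ} (x : X.obj p), C'.P (f.app x) → C.P x) {p : ℕ} (z : Chn k X p) :
    push k (C.map C' f h) p (C.pr k p z) = C'.pr k p (push k f p z) := by
  have : (push k (C.map C' f h) p).comp (C.pr k p) = (C'.pr k p).comp (push k f p) := by
    apply chn_hom_ext
    intro x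
    rw [LinearMap.comp_apply, LinearMap.comp_apply, push_single]
    by_cases hx : C.P x
    · rw [pr_single _ _ _ hx, pr_single _ _ _ (h x hx), push_single]
      rfl
    · rw [pr_single_of_not _ _ _ hx, pr_single_of_not _ _ _ (fun h'' => hx (h' x h'')), map_zero]
  exact DFunLike.congr_fun this z

theorem hSurj (C : Cl X) (C' : Cl Y) (f : SS.Map X Y)
    (h : ∀ {p : ℕ} (x : X.obj p), C.P x → C'.P (f.app x))
    (h' : ∀ {p : ℕ} (x : X.obj p), C'.P (f.app x) → C.P x) {p : ℕ} (hf : HSurj k f p) :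
    HSurj k (C.map C' f h) p := by
  intro w hw
  obtain ⟨z, hz, u, hu⟩ := hf (push k C'.inc p w) (hw.push _)
  refine ⟨C.pr k p z, C.IsCyc_pr hz, C'.pr k (p + 1) u, ?_⟩
  rw [cb_pr, hu, map_sub, pr_inc, push_pr C C' f h h']

theorem hInj (C : Cl X) (C' : Cl Y) (f : SS.Map X Y)
    (h : ∀ {p : ℕ} (x : X.obj p), C.P x → C'.P (f.app x)) {p : ℕ} (hf : HInj k f p) :
    HInj k (C.map C' f h) p := by
  intro z hz hb
  obtain ⟨w, hw⟩ := hb
  obtain ⟨u, hu⟩ := hf (push k C.inc p z) (hz.push _) ⟨push k C'.inc (p + 1) w, by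
    rw [push_cb, hw, ← push_comp, ← push_comp]
    rfl⟩
  refine ⟨C.pr k (p + 1) u, ?_⟩
  rw [cb_pr, hu, pr_inc]

end Cl

/-- locally constant functions -/
structure LC (X : SS) where
  /-- the function -/
  deg : ∀ {p : ℕ}, X.obj p → ℤ
  deg_map : ∀ {p q : ℕ} (f : Op p q) (x : X.obj q), deg (X.map f x) = deg x

/-- the fibre of a locally constant function -/
def LC.fib {X : SS} (D : LC X) (m : ℤ) : Cl X where
  P x := D.deg x = m
  iff f x := by rw [D.deg_map]

section tel

variable {A : SS} {a : SS.Map A A} {T : SS} (h : IsTel (fun _ => A) (fun _ => a) T) (D : LC A)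
  (ha : ∀ {p : ℕ} (x : A.obj p), D.deg (a.app x) = D.deg x + 1)

include ha in
theorem deg_itS (n m : ℕ) {p : ℕ} (x : A.obj p) :
    D.deg ((itS (fun _ => A) (fun _ => a) n m).app x) = D.deg x + m := by
  induction m with
  | zero =>
    show D.deg x = _
    simp
  | succ m ih =>
    show D.deg (a.app ((itS (fun _ => A) (fun _ => a) n m).app x)) = _
    rw [ha, ih]
    push_cast
    ring

include ha in
theorem deg_inv_aux {n c p : ℕ} (x y : A.obj p) (e : (h.i n).app x = (h.i (n + c)).app y) :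
    D.deg y = D.deg x + c := by
  have e1 : (h.i (n + c)).app ((itS (fun _ => A) (fun _ => a) n c).app x) = (h.i (n + c)).app y := by
    rw [h.i_it]
    exact e
  obtain ⟨m, hm⟩ := h.eq _ _ e1
  have h1 := deg_itS D ha (n + c) m ((itS (fun _ => A) (fun _ => a) n c).app x)
  have h2 := deg_itS D ha (n + c) m y
  have h3 := deg_itS D ha n c x
  have h4 := congrArg D.deg hm
  have h5 : D.deg ((itS (fun _ => A) (fun _ => a) (n + c) m).app
      ((itS (fun _ => A) (fun _ => a) n c).app x)) =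
      D.deg ((itS (fun _ => A) (fun _ => a) (n + c) m).app y) := h4
  linarith

include ha in
theorem deg_inv {n m p : ℕ} (x y : A.obj p) (e : (h.i n).app x = (h.i m).app y) :
    D.deg y - m = D.deg x - n := by
  rcases Nat.le_total n m with hnm | hnm
  · obtain ⟨c, rfl⟩ := Nat.exists_eq_add_of_le hnm
    have := deg_inv_aux h D ha x y e
    push_cast
    linarith
  · obtain ⟨c, rfl⟩ := Nat.exists_eq_add_of_le hnm
    have := deg_inv_aux h D ha y x e.symm
    push_cast
    linarith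

/-- the component of degree `0` of the telescope -/
def telCl : Cl T where
  P t := ∃ (n : ℕ) (x : A.obj _), (h.i n).app x = t ∧ D.deg x = n
  iff {p q} f t := by
    constructor
    · rintro ⟨n, x, hx, hd⟩
      obtain ⟨m, y, hy⟩ := h.ex t
      refine ⟨m, y, hy, ?_⟩
      have e : (h.i n).app x = (h.i m).app (A.map f y) := by
        rw [hx, ← hy]
        exact ((h.i m).nat f y).symm
      have := deg_inv h D ha x (A.map f y) e
      rw [D.deg_map] at this
      linarith
    · rintro ⟨n, x, hx, hd⟩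
      refine ⟨n, A.map f x, ?_, ?_⟩
      · rw [← hx]
        exact (h.i n).nat f x
      · rw [D.deg_map, hd]

include ha in
theorem fibS_h (n : ℕ) {p : ℕ} (x : A.obj p) (hx : (D.fib (n : ℤ)).P x) :
    (D.fib ((n + 1 : ℕ) : ℤ)).P (a.app x) := by
  show D.deg (a.app x) = _
  rw [ha, show D.deg x = (n : ℤ) from hx]
  push_cast
  rfl

/-- the map between the fibres -/
def fibS (n : ℕ) : SS.Map (D.fib (n : ℤ)).sub (D.fib ((n + 1 : ℕ) : ℤ)).sub :=
  (D.fib (n : ℤ)).map (D.fib ((n + 1 : ℕ) : ℤ)) a (fibS_h D ha n)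

theorem fibS_itS (n m : ℕ) {p : ℕ} (x : (D.fib (n : ℤ)).sub.obj p) :
    ((itS (fun n : ℕ => (D.fib (n : ℤ)).sub) (fibS D ha) n m).app x).1 =
      (itS (fun _ => A) (fun _ => a) n m).app x.1 := by
  induction m with
  | zero => rfl
  | succ m ih => exact congrArg a.app ih

/-- the component of degree `0` is the colimit of the `A_n` -/
def isTel_comp : IsTel (fun n : ℕ => (D.fib (n : ℤ)).sub) (fibS D ha) (telCl h D ha).sub where
  i n := (D.fib (n : ℤ)).map (telCl h D ha) (h.i n) fun x hx => ⟨n, x, rfl, hx⟩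
  i_s n {p} x := Subtype.ext (h.i_s n x.1)
  ex {p} t := by
    obtain ⟨n, x, hx, hd⟩ := t.2
    exact ⟨n, ⟨x, hd⟩, Subtype.ext hx⟩
  eq {n p} x y hxy := by
    obtain ⟨m, hm⟩ := h.eq x.1 y.1 (congrArg Subtype.val hxy)
    refine ⟨m, Subtype.ext ?_⟩
    rw [fibS_itS, fibS_itS]
    exact hm

end tel

/-- **Comparison of components.** -/
theorem conn_of_tel_comp {k : Type} [Field k] {A Q : SS} (α : SS.Map A Q)
    {a : SS.Map A A} {TA : SS} (hA : IsTel (fun _ => A) (fun _ => a) TA) (dA : LC A)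
    (ha : ∀ {p : ℕ} (x : A.obj p), dA.deg (a.app x) = dA.deg x + 1)
    {b : SS.Map Q Q} {TQ : SS} (hQ : IsTel (fun _ => Q) (fun _ => b) TQ) (dQ : LC Q)
    (hb : ∀ {p : ℕ} (x : Q.obj p), dQ.deg (b.app x) = dQ.deg x + 1)
    (hα : ∀ {p : ℕ} (x : A.obj p), dQ.deg (α.app x) = dA.deg x)
    (f : SS.Map TA TQ)
    (hf : ∀ (n : ℕ) {p : ℕ} (x : A.obj p), f.app ((hA.i n).app x) = (hQ.i n).app (α.app x))
    (D N : ℕ) (hfS : ∀ j ≤ D, HSurj k f j) (hfI : ∀ j ≤ D, HInj k f j)
    (hs : ∀ j ≤ D, ∀ n, N ≤ n → HInj k (fibS dA ha n) j ∧ HSurj k (fibS dA ha n) j)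
    (ht : ∀ j ≤ D, HInj k b j ∧ HSurj k b j) :
    Conn k D (dA.fib (N : ℤ)).sub (dQ.fib 0).sub := by
  have h1 : ∀ {p : ℕ} (x : TA.obj p), (telCl hA dA ha).P x → (telCl hQ dQ hb).P (f.app x) := by
    rintro p x ⟨n, y, rfl, hy⟩
    exact ⟨n, α.app y, (hf n y).symm, by rw [hα, hy]⟩
  have h2 : ∀ {p : ℕ} (x : TA.obj p), (telCl hQ dQ hb).P (f.app x) → (telCl hA dA ha).P x := by
    rintro p x ⟨n, y, hy, hd⟩
    obtain ⟨m, z, rfl⟩ := hA.ex x
    refine ⟨m, z, rfl, ?_⟩
    have := deg_inv hQ dQ hb y (α.app z) (by rw [hy, hf])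
    rw [hα] at this
    linarith
  have hc : IsoUpTo k D ((telCl hA dA ha).map (telCl hQ dQ hb) f h1) :=
    isoUpTo_of_h (fun j hj => Cl.hSurj _ _ f h1 h2 (hfS j hj))
      (fun j hj => Cl.hInj _ _ f h1 (hfI j hj.le))
  refine conn_of_tel (isTel_comp hA dA ha) (isTel_comp hQ dQ hb) _ D N hc hs
    (Y := fun n : ℕ => (dQ.fib (n : ℤ)).sub) fun j hj n => ⟨?_, ?_⟩
  · exact Cl.hInj (dQ.fib (n : ℤ)) (dQ.fib ((n + 1 : ℕ) : ℤ)) b (fibS_h dQ hb n) (ht j hj).1
  · refine Cl.hSurj (dQ.fib (n : ℤ)) (dQ.fib ((n + 1 : ℕ) : ℤ)) b (fibS_h dQ hb n)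
      (fun x hx => ?_) (ht j hj).2
    have h3 : dQ.deg (b.app x) = ((n + 1 : ℕ) : ℤ) := hx
    rw [hb] at h3
    push_cast at h3
    show dQ.deg x = n
    linarith

end Vale.Agent.P263.GB
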