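import Vale.Agent.P263.GB.Coinv
import Vale.Agent.P263.GB.BSS
import Vale.Agent.P263.GB.Red

/-!
# P263, block GB: acyclic fibres

* `HRel R f g` : `f` and `g` agree on cycles up to boundaries;
* `SSMod.Ker`, `BSS.outer T` : the bisimplicial set `T` constant in the inner direction;
* `TransData` : a bisimplicial set over `outer T` whose columns are unions of copies of one
  simplicial set `Fib`, the transport along every edge being the identity or one fixed `t` with
  `t ∘ t ∼ id`;
* `TransData.acyclic` : if the diagonal is a mod 2 homology isomorphism in degrees `≤ D`, then the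
  reduced homology of `Fib` vanishes below `D`.
-/

namespace Vale.Agent.P263.GB

open Vale.Agent.P263.S Vale.Agent.P263.E

variable {R : Type} [CommRing R]

/-- `f` and `g` agree on cycles up to boundaries -/
def HRel (R : Type) [CommRing R] {X Y : SS} (f g : SS.Map X Y) : Prop :=
  ∀ (n : ℕ) (x : (free R X).obj n), (free R X).cx.Cyc n x →
    (free R Y).cx.Rel n ((freeMap R f).app n x) ((freeMap R g).app n x)

theorem HtpRel.hrel {X Y : SS} {f g : SS.Map X Y} (h : HtpRel f g) : HRel R f g := fun n x hx => by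
  obtain ⟨w, hw⟩ := h.exists_d hx
  exact ⟨w, hw⟩

namespace HRel

variable {X Y Z : SS} {f g h : SS.Map X Y}

theorem refl (f : SS.Map X Y) : HRel R f f := fun n _ _ => Cx.Rel.refl _ n _

theorem symm (H : HRel R f g) : HRel R g f := fun n x hx => (H n x hx).symm

theorem trans (H : HRel R f g) (H' : HRel R g h) : HRel R f h :=
  fun n x hx => (H n x hx).trans (H' n x hx)

theorem post (H : HRel R f g) (k : SS.Map Y Z) : HRel R (k.comp f) (k.comp g) := fun n x hx => by
  have := (H n x hx).map (freeMap R k).cx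
  have e : ∀ f : SS.Map X Y, (freeMap R (k.comp f)).app n x =
    (freeMap R k).app n ((freeMap R f).app n x) := fun f => freeMap_comp_app k f x
  rw [e, e]
  exact this

theorem pre (H : HRel R f g) (k : SS.Map Z X) : HRel R (f.comp k) (g.comp k) := fun n x hx => by
  have := H n ((freeMap R k).app n x) ((freeMap R k).cx.cyc hx)
  rw [freeMap_comp_app, freeMap_comp_app]
  exact this

end HRel

/-- the kernel of a map of bisimplicial modules -/
abbrev SSMod.Ker {V W : SSMod R} (h : SSMod.Hom V W) : SSMod R where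
  obj k := SMod.Ker (h.app k)
  map {_ _} f :=
    { app := fun m => ((V.map f).app m).restrict fun x hx => by
        rw [LinearMap.mem_ker] at *
        rw [h.nat, hx, map_zero]
      nat := fun g x => Subtype.ext ((V.map f).nat g x.1) }
  map_id x := Subtype.ext (V.map_id x.1)
  map_comp f g x := Subtype.ext (V.map_comp f g x.1)

/-- the diagonal of the kernel is the kernel of the diagonal -/
noncomputable def SSMod.kerDiagIso {V W : SSMod R} (h : SSMod.Hom V W) :
    Cx.Iso (SSMod.Ker h).diag.cx (SMod.Ker h.diag).cx where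
  e n := LinearEquiv.refl R (LinearMap.ker ((h.app n).app n))
  comm n x := by
    have e1 := SMod.d_apply (SSMod.Ker h).diag n x
    have e2 := SMod.d_apply (SMod.Ker h.diag) n x
    exact e1.trans ((Finset.sum_congr rfl fun i _ => rfl).trans e2.symm)

/-- the bisimplicial set `T`, constant in the inner direction -/
def BSS.outer (T : SS) : BSS where
  obj k :=
    { obj := fun _ => T.obj k
      map := fun _ x => x
      map_id := fun _ => rfl
      map_comp := fun _ _ _ => rfl }
  map f := { app := fun x => T.map f x, nat := fun _ _ => rfl }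
  map_id x := T.map_id x
  map_comp f g x := T.map_comp f g x

/-- bisimplicial sets with one type of fibre and a transport of order two -/
structure TransData (R : Type) [CommRing R] (X : BSS) (T : SS) where
  /-- the augmentation -/
  F : BSS.Hom X (BSS.outer T)
  /-- the fibre -/
  Fib : SS
  /-- a vertex of the fibre -/
  f0 : Fib.obj 0
  /-- the inclusion of the fibre -/
  In : SS.Map Fib (X.obj 0)
  /-- the base point -/
  t0 : T.obj 0
  F_In : ∀ {p : ℕ} (x : Fib.obj p), (F.app 0).app (In.app x) = t0
  /-- the projection -/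
  P : SS.Map (X.obj 0) Fib
  P_In : HRel R (P.comp In) (SS.Map.id Fib)
  /-- the transport -/
  t : SS.Map Fib Fib
  t_t : HRel R (t.comp t) (SS.Map.id Fib)
  /-- the edges with transport `t` -/
  c : T.obj 1 → Prop
  /-- the transport on all edges -/
  Th : SS.Map (X.obj 1) Fib
  Th_pos : ∀ {p : ℕ} (x : (X.obj 1).obj p), c ((F.app 1).app x) →
    Th.app x = t.app (P.app ((X.map (dl 0 1)).app x))
  Th_neg : ∀ {p : ℕ} (x : (X.obj 1).obj p), ¬ c ((F.app 1).app x) →
    Th.app x = P.app ((X.map (dl 0 1)).app x)
  P_d : HRel R (P.comp (X.map (dl 0 0))) Th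
  surj : ∀ k p, Function.Surjective ((F.app k).app : (X.obj k).obj p → T.obj k)

namespace TransData

variable {X : BSS} {T : SS} (A : TransData R X T)

/-- the kernel columns -/
noncomputable abbrev V : SSMod R := SSMod.Ker (A.F.free R)

/-- the edge under a simplex of the first column -/
def lab {p : ℕ} (x : (X.obj 1).obj p) : T.obj 1 := (A.F.app 1).app x

theorem lab_map {p q : ℕ} (α : Op p q) (x : (X.obj 1).obj q) :
    A.lab ((X.obj 1).map α x) = A.lab x := (A.F.app 1).nat α x

open Classical in
/-- the basis element of the fibre over an edge in `c` -/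
noncomputable def cutF {p : ℕ} (x : (X.obj 1).obj p) : A.Fib.obj p →₀ R :=
  if A.c (A.lab x) then Finsupp.single (A.P.app ((X.map (dl 0 1)).app x)) (1 : R) else 0

theorem cutF_pos {p : ℕ} {x : (X.obj 1).obj p} (h : A.c (A.lab x)) : A.cutF x =
    Finsupp.single (A.P.app ((X.map (dl 0 1)).app x)) (1 : R) := if_pos h

theorem cutF_neg {p : ℕ} {x : (X.obj 1).obj p} (h : ¬ A.c (A.lab x)) : A.cutF x = 0 := if_neg h

theorem cutF_map {p q : ℕ} (α : Op p q) (x : (X.obj 1).obj q) :
    A.cutF ((X.obj 1).map α x) = Finsupp.mapDomain (A.Fib.map α) (A.cutF x) := by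
  by_cases hc : A.c (A.lab x)
  · rw [A.cutF_pos (by rw [A.lab_map]; exact hc), A.cutF_pos hc, Finsupp.mapDomain_single,
      (X.map (dl 0 1)).nat, A.P.nat]
  · rw [A.cutF_neg (by rw [A.lab_map]; exact hc), A.cutF_neg hc, Finsupp.mapDomain_zero]

/-- the part over the edges in `c`, projected to the fibre -/
noncomputable def cut : SMod.Hom (free R (X.obj 1)) (free R A.Fib) where
  app p := Finsupp.linearCombination R fun x : (X.obj 1).obj p => A.cutF x
  nat {p q} α x := by
    have h : ∀ x : (X.obj 1).obj q →₀ R,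
        Finsupp.linearCombination R (fun x : (X.obj 1).obj p => A.cutF x)
          (Finsupp.mapDomain ((X.obj 1).map α) x) =
        Finsupp.mapDomain (A.Fib.map α)
          (Finsupp.linearCombination R (fun x : (X.obj 1).obj q => A.cutF x) x) := by
      intro x
      induction x using Finsupp.induction_linear with
      | zero => simp
      | add x y hx hy => rw [Finsupp.mapDomain_add, map_add, map_add, Finsupp.mapDomain_add, hx, hy]
      | single x r =>
        rw [Finsupp.mapDomain_single, Finsupp.linearCombination_single,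
          Finsupp.linearCombination_single, Finsupp.mapDomain_smul, A.cutF_map]
    exact h x

theorem cut_single {p : ℕ} (x : (X.obj 1).obj p) (r : R) :
    A.cut.app p (Finsupp.single x r) = r • A.cutF x :=
  Finsupp.linearCombination_single R r x

theorem cut_single_pos {p : ℕ} {x : (X.obj 1).obj p} (h : A.c (A.lab x)) (r : R) :
    A.cut.app p (Finsupp.single x r) =
      Finsupp.single (A.P.app ((X.map (dl 0 1)).app x)) r := by
  rw [cut_single, A.cutF_pos h, Finsupp.smul_single', mul_one]

theorem cut_single_neg {p : ℕ} {x : (X.obj 1).obj p} (h : ¬ A.c (A.lab x)) (r : R) :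
    A.cut.app p (Finsupp.single x r) = 0 := by
  rw [cut_single, A.cutF_neg h]
  exact smul_zero (A := A.Fib.obj p →₀ R) r

/-- the transport minus the identity -/
theorem th_sub {p : ℕ} (y : (free R (X.obj 1)).obj p) :
    (freeMap R A.Th).app p y - (freeMap R (A.P.comp (X.map (dl 0 1)))).app p y =
      (freeMap R A.t).app p (A.cut.app p y) - A.cut.app p y := by
  have h : ∀ y : (X.obj 1).obj p →₀ R,
      (freeMap R A.Th).app p y - (freeMap R (A.P.comp (X.map (dl 0 1)))).app p y =
      (freeMap R A.t).app p (A.cut.app p y) - A.cut.app p y := by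
    intro y
    induction y using Finsupp.induction_linear with
    | zero =>
      have h0 : ∀ {B : SMod R} (k : SMod.Hom (free R (X.obj 1)) B),
        k.app p (0 : (X.obj 1).obj p →₀ R) = 0 := fun k => map_zero (k.app p)
      rw [h0, h0, h0, map_zero]
    | add x y hx hy =>
      have h1 : ∀ {B : SMod R} (k : SMod.Hom (free R (X.obj 1)) B),
        k.app p (x + y : (X.obj 1).obj p →₀ R) = k.app p x + k.app p y := fun k =>
          map_add (k.app p) x y
      rw [h1, h1, h1, map_add, add_sub_add_comm, add_sub_add_comm, hx, hy]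
    | single x r =>
      rw [freeMap_single, freeMap_single]
      by_cases hc : A.c (A.lab x)
      · rw [A.cut_single_pos hc, A.Th_pos x hc, freeMap_single]
        rfl
      · rw [A.cut_single_neg hc, A.Th_neg x hc, map_zero, sub_zero]
        exact sub_self _
  exact h y

/-- the augmentation of the cut chain depends only on the labels -/
theorem cut_aug {p : ℕ} (y : (free R (X.obj 1)).obj p)
    (hy : (freeMap R (A.F.app 1)).app p y = 0) :
    (freeMap R (SS.toPt A.Fib)).app p (A.cut.app p y) = 0 := by
  classical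
  have h : ∀ y : (X.obj 1).obj p →₀ R, (freeMap R (SS.toPt A.Fib)).app p (A.cut.app p y) =
      Finsupp.linearCombination R (fun s : T.obj 1 =>
        if A.c s then Finsupp.single (() : Unit) (1 : R) else 0)
        (Finsupp.mapDomain A.lab y) := by
    intro y
    induction y using Finsupp.induction_linear with
    | zero =>
      have h0 : A.cut.app p (0 : (X.obj 1).obj p →₀ R) = 0 := map_zero (A.cut.app p)
      rw [h0, map_zero, Finsupp.mapDomain_zero, map_zero]
      rfl
    | add x y hx hy =>
      have h1 : A.cut.app p (x + y : (X.obj 1).obj p →₀ R) = A.cut.app p x + A.cut.app p y :=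
        map_add (A.cut.app p) x y
      rw [h1, map_add, Finsupp.mapDomain_add, map_add, hx, hy]
      rfl
    | single x r =>
      rw [Finsupp.mapDomain_single, Finsupp.linearCombination_single]
      by_cases hc : A.c (A.lab x)
      · rw [A.cut_single_pos hc, freeMap_single, if_pos hc, Finsupp.smul_single', mul_one]
        rfl
      · rw [A.cut_single_neg hc, map_zero, if_neg hc, smul_zero]
        rfl
  have h2 : Finsupp.mapDomain A.lab y = 0 := hy
  rw [h y, h2, map_zero]
  rfl

theorem proj_rel {n : ℕ} (x : (free R A.Fib).obj n) (hx : (free R A.Fib).cx.Cyc n x)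
    (y : (free R (X.obj 1)).obj n) (hy : (free R (X.obj 1)).cx.Cyc n y)
    (w : (free R (X.obj 0)).obj (n + 1))
    (h : (freeMap R A.In).app n x = (freeMap R (X.map (dl 0 0))).app n y -
      (freeMap R (X.map (dl 0 1))).app n y + (free R (X.obj 0)).d n w) :
    (free R A.Fib).cx.Rel n x ((freeMap R A.t).app n (A.cut.app n y) - A.cut.app n y) := by
  have e1 : (freeMap R (A.P.comp A.In)).app n x =
      (freeMap R (A.P.comp (X.map (dl 0 0)))).app n y -
      (freeMap R (A.P.comp (X.map (dl 0 1)))).app n y +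
      (free R A.Fib).d n ((freeMap R A.P).app (n + 1) w) := by
    rw [freeMap_comp_app, freeMap_comp_app, freeMap_comp_app, h, map_add, map_sub,
      (freeMap R A.P).app_d]
  obtain ⟨w₁, e2⟩ : ∃ w₁ : (free R A.Fib).obj (n + 1),
      (free R A.Fib).d n w₁ = (freeMap R (A.P.comp A.In)).app n x - x := by
    obtain ⟨w₁, hw₁⟩ := A.P_In n x hx
    exact ⟨w₁, hw₁.trans (congrArg (fun z => (freeMap R (A.P.comp A.In)).app n x - z)
      (freeMap_id_app x))⟩
  obtain ⟨w₂, e3⟩ : ∃ w₂ : (free R A.Fib).obj (n + 1), (free R A.Fib).d n w₂ =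
      (freeMap R (A.P.comp (X.map (dl 0 0)))).app n y - (freeMap R A.Th).app n y :=
    A.P_d n y hy
  refine ⟨(freeMap R A.P).app (n + 1) w + w₂ - w₁, ?_⟩
  change (free R A.Fib).d n _ = _
  rw [map_sub, map_add, e2, e3, e1, ← A.th_sub]
  abel

/-- **The key step**: every reduced cycle of the fibre is `t x₁ - x₁` up to a boundary. -/
theorem step (n : ℕ) (hlow : ∀ k, ∀ t < n, (SMod.Ker (freeMap R (A.F.app k))).cx.HZ t)
    (hd : RZ0 (freeMap R A.F.diag).cx (n + 1)) (x : (free R A.Fib).obj n)
    (hx : (free R A.Fib).cx.Cyc n x) (hx0 : (freeMap R (SS.toPt A.Fib)).app n x = 0) :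
    ∃ x₁ : (free R A.Fib).obj n, (free R A.Fib).cx.Cyc n x₁ ∧
      (freeMap R (SS.toPt A.Fib)).app n x₁ = 0 ∧
      (free R A.Fib).cx.Rel n x ((freeMap R A.t).app n x₁ - x₁) := by
  have hV : A.V.diag.cx.HZ n := by
    refine (SSMod.kerDiagIso (A.F.free R)).hz_iff n |>.2 ?_
    refine (rz0_succ_iff_ker (A.F.free R).diag (fun p => ?_) n).1
      ((A.F.rz0_diag_iff (n + 1)).1 hd)
    exact Finsupp.mapDomain_surjective (A.surj p p)
  -- the image of `x` in the zeroth column
  have hz : (freeMap R (A.F.app 0)).app n ((freeMap R A.In).app n x) = 0 := by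
    rw [← freeMap_comp_app]
    have e : (A.F.app 0).comp A.In = (⟨fun {p} _ => A.t0, fun _ _ => rfl⟩ :
        SS.Map SS.pt ((BSS.outer T).obj 0)).comp (SS.toPt A.Fib) :=
      SS.Map.ext fun p x => A.F_In x
    rw [e, freeMap_comp_app, hx0, map_zero]
  obtain ⟨y, hy, w, hw⟩ := SSMod.coinv n A.V hlow hV ⟨(freeMap R A.In).app n x, hz⟩ (by
    cases n with
    | zero => trivial
    | succ n =>
      apply Subtype.ext
      exact (SMod.kerI (freeMap R (A.F.app 0))).app_d n ⟨_, hz⟩ |>.trans
        ((freeMap R A.In).cx.cyc (n := n + 1) hx))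
  have hyc : (free R (X.obj 1)).cx.Cyc n y.1 :=
    (SMod.kerI (freeMap R (A.F.app 1))).cx.cyc hy
  have hw' : (freeMap R A.In).app n x = (freeMap R (X.map (dl 0 0))).app n y.1 -
      (freeMap R (X.map (dl 0 1))).app n y.1 + (free R (X.obj 0)).d n w.1 :=
    (congrArg Subtype.val hw).trans (congrArg (fun z => (freeMap R (X.map (dl 0 0))).app n y.1 -
      (freeMap R (X.map (dl 0 1))).app n y.1 + z)
      ((SMod.kerI (freeMap R (A.F.app 0))).app_d n w))
  refine ⟨A.cut.app n y.1, A.cut.cx.cyc hyc, A.cut_aug y.1 y.2, ?_⟩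
  exact A.proj_rel x hx y.1 hyc w.1 hw'

/-- **Acyclic fibres.** -/
theorem acyclic (h2 : (2 : R) = 0) (D : ℕ) (hd : ∀ n ≤ D, RZ0 (freeMap R A.F.diag).cx n)
    (hcol : ∀ n, (∀ t < n, (red R A.Fib).cx.HZ t) → ∀ k, ∀ t < n,
      (SMod.Ker (freeMap R (A.F.app k))).cx.HZ t) (n : ℕ) (hn : n + 1 ≤ D) :
    (red R A.Fib).cx.HZ n := by
  induction n using Nat.strong_induction_on with
  | _ n ih =>
    have hlow := hcol n fun t ht => ih t ht (by omega)
    have st := A.step n hlow (hd (n + 1) hn)
    have key : ∀ x : (free R A.Fib).obj n, (free R A.Fib).cx.Cyc n x →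
        (freeMap R (SS.toPt A.Fib)).app n x = 0 → (free R A.Fib).cx.Rel n x 0 := by
      intro x hx hx0
      obtain ⟨x₁, c₁, a₁, w₁, r₁⟩ : ∃ x₁ : (free R A.Fib).obj n, (free R A.Fib).cx.Cyc n x₁ ∧
          (freeMap R (SS.toPt A.Fib)).app n x₁ = 0 ∧ ∃ w : (free R A.Fib).obj (n + 1),
          (free R A.Fib).d n w = x - ((freeMap R A.t).app n x₁ - x₁) := st x hx hx0
      obtain ⟨x₂, c₂, -, w₂, r₂⟩ : ∃ x₂ : (free R A.Fib).obj n, (free R A.Fib).cx.Cyc n x₂ ∧
          (freeMap R (SS.toPt A.Fib)).app n x₂ = 0 ∧ ∃ w : (free R A.Fib).obj (n + 1),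
          (free R A.Fib).d n w = x₁ - ((freeMap R A.t).app n x₂ - x₂) := st x₁ c₁ a₁
      obtain ⟨w₃, r₃⟩ : ∃ w : (free R A.Fib).obj (n + 1), (free R A.Fib).d n w =
          (freeMap R A.t).app n ((freeMap R A.t).app n x₂) - x₂ := by
        obtain ⟨w, hw⟩ := A.t_t n x₂ c₂
        exact ⟨w, hw.trans (congrArg₂ (· - ·) (freeMap_comp_app A.t A.t x₂)
          (freeMap_id_app x₂))⟩
      refine ⟨w₁ + (freeMap R A.t).app (n + 1) w₂ - w₂ + w₃, ?_⟩
      change (free R A.Fib).d n _ = x - 0
      have h2' : ∀ z : (free R A.Fib).obj n, z + z = 0 := by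
        have : ∀ z : A.Fib.obj n →₀ R, z + z = 0 := fun z => by
          rw [← two_smul R z, h2, zero_smul]
        exact this
      rw [map_add, map_sub, map_add, ← (freeMap R A.t).app_d, r₁, r₂, r₃, map_sub, map_sub,
        sub_zero]
      have e : x - ((freeMap R A.t).app n x₁ - x₁) + ((freeMap R A.t).app n x₁ -
          ((freeMap R A.t).app n ((freeMap R A.t).app n x₂) - (freeMap R A.t).app n x₂)) -
          (x₁ - ((freeMap R A.t).app n x₂ - x₂)) +
          ((freeMap R A.t).app n ((freeMap R A.t).app n x₂) - x₂) =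
          x + ((freeMap R A.t).app n x₂ + (freeMap R A.t).app n x₂) - (x₂ + x₂) := by abel
      rw [e, h2', h2', add_zero, sub_zero]
    intro x hx
    have := red_rel (x := x) (y := 0) A.f0 (key x.1 ((redI R A.Fib).cx.cyc hx) x.2)
    exact Cx.rel_zero_iff.1 this

end TransData

end Vale.Agent.P263.GB
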