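import Vale.Agent.P263.GB.Colim
import Vale.Agent.P263.GB.BSS

/-!
# P263, block G2: increasing unions of bisimplicial sets

* `BSeq` : a sequence of bisimplicial sets, `BSeq.colim : BSS`, `BSeq.isUnion_diag` : the diagonal
  of the colimit is the increasing union of the diagonals.
* `IsUnion.desc` : maps out of an increasing union.
* `IsUnion.rz0_of_stages` : a union of maps with vanishing relative homology has vanishing
  relative homology.
-/

namespace Vale.Agent.P263.GB

open Vale.Agent.P263.S Vale.Agent.P263.E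

variable {R : Type} [CommRing R]

/-! ### sequences of bisimplicial sets -/

/-- a sequence of bisimplicial sets -/
structure BSeq where
  /-- the stages -/
  X : ℕ → BSS
  /-- the stage maps -/
  s : ∀ r, BSS.Hom (X r) (X (r + 1))

namespace BSeq

variable (A : BSeq)

/-- the sequence of the `k`-th columns -/
def col (k : ℕ) : Seq where
  X r := (A.X r).obj k
  s r := (A.s r).app k

/-- the colimit -/
def colim : BSS where
  obj k := (A.col k).colim
  map {k l} f := Seq.cmap (A := A.col l) (B := A.col k) (fun r => (A.X r).map f) fun r =>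
    SS.Map.ext fun _ x => ((A.s r).nat f x).symm
  map_id {k m} x := by
    obtain ⟨r, x, rfl⟩ := (A.col k).exists_inc x
    exact congrArg ((A.col k).inc r).app ((A.X r).map_id x)
  map_comp {k l n m} f g x := by
    obtain ⟨r, x, rfl⟩ := (A.col n).exists_inc x
    exact congrArg ((A.col k).inc r).app ((A.X r).map_comp f g x)

/-- the inclusion of a stage, on diagonals -/
def incD (r : ℕ) : SS.Map (A.X r).diag A.colim.diag where
  app {p} x := ((A.col p).inc r).app x
  nat _ _ := rfl

theorem incD_app (r : ℕ) {p : ℕ} (x : ((A.X r).obj p).obj p) :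
    (A.incD r).app (p := p) x = ((A.col p).inc r).app x := rfl

/-- the diagonal of the colimit is the increasing union of the diagonals -/
def isUnionDiag (h : ∀ r k, ((A.s r).app k).Inj) :
    IsUnion A.colim.diag fun r => (A.X r).diag where
  s r := (A.s r).diag
  i r := A.incD r
  comp r := SS.Map.ext fun p x =>
    congrArg (fun f : SS.Map ((A.col p).X r) (A.col p).colim => f.app x) ((A.col p).inc_s r)
  inj r p := (A.col p).inc_inj (fun r => h r p) r p
  surj p u := (A.col p).exists_inc u

theorem isUnionDiag_i (h : ∀ r k, ((A.s r).app k).Inj) (r : ℕ) :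
    (A.isUnionDiag h).i r = A.incD r := rfl

theorem isUnionDiag_s (h : ∀ r k, ((A.s r).app k).Inj) (r : ℕ) :
    (A.isUnionDiag h).s r = (A.s r).diag := rfl

end BSeq

/-! ### maps out of increasing unions -/

namespace IsUnion

variable {U V Z : SS} {X Y : ℕ → SS}

theorem exists_up (hU : IsUnion U X) {p r r' : ℕ} (h : r ≤ r') (x : (X r).obj p) :
    ∃ y : (X r').obj p, (hU.i r').app y = (hU.i r).app x ∧
      ∀ {Z : SS} (f : ∀ r, SS.Map (X r) Z), (∀ r, (f (r + 1)).comp (hU.s r) = f r) →
        (f r').app y = (f r).app x := by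
  induction r', h using Nat.le_induction with
  | base => exact ⟨x, rfl, fun _ _ => rfl⟩
  | succ r' _ ih =>
    obtain ⟨y, hy, hy'⟩ := ih
    refine ⟨(hU.s r').app y, ?_, fun f hf => ?_⟩
    · rw [← SS.Map.comp_app, hU.comp, hy]
    · rw [← SS.Map.comp_app, hf, hy' f hf]

theorem desc_aux (hU : IsUnion U X) (f : ∀ r, SS.Map (X r) Z)
    (hf : ∀ r, (f (r + 1)).comp (hU.s r) = f r) {p r r' : ℕ} (x : (X r).obj p)
    (x' : (X r').obj p) (h : (hU.i r).app x = (hU.i r').app x') :
    (f r).app x = (f r').app x' := by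
  obtain ⟨y, h1, h2⟩ := hU.exists_up (le_max_left r r') x
  obtain ⟨y', h1', h2'⟩ := hU.exists_up (le_max_right r r') x'
  have e : y = y' := hU.inj _ _ (h1.trans (h.trans h1'.symm))
  rw [← h2 f hf, ← h2' f hf, e]

/-- the map out of an increasing union -/
noncomputable def desc (hU : IsUnion U X) (f : ∀ r, SS.Map (X r) Z)
    (hf : ∀ r, (f (r + 1)).comp (hU.s r) = f r) : SS.Map U Z where
  app {p} u := (f (hU.surj p u).choose).app (hU.surj p u).choose_spec.choose
  nat {p q} g u := by
    have h1 := (hU.surj q u).choose_spec.choose_spec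
    have h2 := (hU.surj p (U.map g u)).choose_spec.choose_spec
    rw [← (f _).nat g]
    refine hU.desc_aux f hf _ _ ?_
    rw [h2, (hU.i _).nat, h1]

theorem desc_i_app (hU : IsUnion U X) (f : ∀ r, SS.Map (X r) Z)
    (hf : ∀ r, (f (r + 1)).comp (hU.s r) = f r) {r p : ℕ} (x : (X r).obj p) :
    (hU.desc f hf).app ((hU.i r).app x) = (f r).app x :=
  hU.desc_aux f hf _ _ (hU.surj p ((hU.i r).app x)).choose_spec.choose_spec

theorem desc_i (hU : IsUnion U X) (f : ∀ r, SS.Map (X r) Z)
    (hf : ∀ r, (f (r + 1)).comp (hU.s r) = f r) (r : ℕ) : (hU.desc f hf).comp (hU.i r) = f r :=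
  SS.Map.ext fun _ x => hU.desc_i_app f hf x

theorem hom_ext (hU : IsUnion U X) {f g : SS.Map U Z}
    (h : ∀ r, f.comp (hU.i r) = g.comp (hU.i r)) : f = g := by
  refine SS.Map.ext fun p u => ?_
  obtain ⟨r, x, rfl⟩ := hU.surj p u
  exact congrArg (fun k : SS.Map (X r) Z => k.app x) (h r)

/-- a chain can be moved to a larger stage -/
theorem exists_chain_up (hU : IsUnion U X) {p r r' : ℕ} (h : r ≤ r') (x : (free R (X r)).obj p) :
    ∃ y : (free R (X r')).obj p, (freeMap R (hU.i r')).app p y = (freeMap R (hU.i r)).app p x := by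
  induction r', h using Nat.le_induction with
  | base => exact ⟨x, rfl⟩
  | succ r' _ ih =>
    obtain ⟨y, hy⟩ := ih
    refine ⟨(freeMap R (hU.s r')).app p y, ?_⟩
    rw [← freeMap_comp_app, hU.comp, hy]

/-- **A union of maps with vanishing relative homology has vanishing relative homology.** -/
theorem rz0_of_stages (hU : IsUnion U X) (hV : IsUnion V Y) (F : SS.Map U V)
    (f : ∀ r, SS.Map (X r) (Y r)) (hf : ∀ r, F.comp (hU.i r) = (hV.i r).comp (f r)) (n : ℕ)
    (h : ∀ N, ∃ r, N ≤ r ∧ RZ0 (freeMap R (f r)).cx n) : RZ0 (freeMap R F).cx n := by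
  have hF : ∀ r (p : ℕ) (x : (free R (X r)).obj p),
      (freeMap R F).app p ((freeMap R (hU.i r)).app p x) =
        (freeMap R (hV.i r)).app p ((freeMap R (f r)).app p x) := by
    intro r p x
    rw [← freeMap_comp_app, ← freeMap_comp_app, hf]
  cases n with
  | zero =>
    rw [rz0_zero]
    intro (b : (free R V).obj 0)
    obtain ⟨r₁, _, b₁, hb₁⟩ := hV.exists_stage b 0
    obtain ⟨r, hr, hz⟩ := h r₁
    rw [rz0_zero] at hz
    obtain ⟨b₂, hb₂⟩ := hV.exists_chain_up hr b₁
    obtain ⟨(y : (free R (Y r)).obj 1), (a : (free R (X r)).obj 0), hya⟩ := hz b₂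
    replace hya : (free R (Y r)).d 0 y + (freeMap R (f r)).app 0 a = b₂ := hya
    refine ⟨(freeMap R (hV.i r)).app 1 y, (freeMap R (hU.i r)).app 0 a, ?_⟩
    show (free R V).d 0 ((freeMap R (hV.i r)).app 1 y) +
      (freeMap R F).app 0 ((freeMap R (hU.i r)).app 0 a) = b
    rw [hF, ← (freeMap R (hV.i r)).app_d, ← map_add, hya, hb₂, hb₁]
  | succ n =>
    rw [rz0_succ]
    intro (b : (free R V).obj (n + 1)) (a : (free R U).obj n) ha hba
    replace hba : (free R V).d n b + (freeMap R F).app n a = 0 := hba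
    obtain ⟨r₁, _, b₁, hb₁⟩ := hV.exists_stage b 0
    obtain ⟨r₂, hr₂, a₂, ha₂⟩ := hU.exists_stage a r₁
    obtain ⟨r, hr, hz⟩ := h r₂
    rw [rz0_succ] at hz
    obtain ⟨b₃, hb₃⟩ := hV.exists_chain_up (hr₂.trans hr) b₁
    obtain ⟨a₃, ha₃⟩ := hU.exists_chain_up hr a₂
    rw [hb₁] at hb₃
    rw [ha₂] at ha₃
    have hac : (free R (X r)).cx.Cyc n a₃ := by
      refine cyc_of_inj (hU.inj r) ?_
      rw [ha₃]; exact ha
    have h1 : (free R (Y r)).d n b₃ + (freeMap R (f r)).app n a₃ = 0 := by
      refine freeMap_injective (R := R) (hV.inj r) n ?_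
      rw [map_add, (freeMap R (hV.i r)).app_d, ← hF, hb₃, ha₃, hba, map_zero]
    obtain ⟨(b' : (free R (Y r)).obj (n + 2)), (a' : (free R (X r)).obj (n + 1)), h2, h3⟩ :=
      hz b₃ a₃ hac h1
    replace h2 : (free R (Y r)).d (n + 1) b' + (freeMap R (f r)).app (n + 1) a' = b₃ := h2
    replace h3 : -(free R (X r)).d n a' = a₃ := h3
    refine ⟨(freeMap R (hV.i r)).app (n + 2) b', (freeMap R (hU.i r)).app (n + 1) a', ?_, ?_⟩
    · show (free R V).d (n + 1) ((freeMap R (hV.i r)).app (n + 2) b') +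
        (freeMap R F).app (n + 1) ((freeMap R (hU.i r)).app (n + 1) a') = b
      rw [hF, ← (freeMap R (hV.i r)).app_d, ← map_add, h2, hb₃]
    · show -(free R U).d n ((freeMap R (hU.i r)).app (n + 1) a') = a
      rw [← (freeMap R (hU.i r)).app_d, ← map_neg, h3, ha₃]

end IsUnion

end Vale.Agent.P263.GB
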