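import Vale.Agent.P263.GB.WedgeK
import Vale.Agent.P263.GB.SGam
import Vale.Agent.P263.GB.IdG

/-!
# P263, block GB: wedge against product, for functors on finite pointed sets

* `Wdg.Cov W` : every simplex of `W(K₊ ∨ L₊)` is supported on `K` or on `L`; true for `Gam.Id`,
  stable under `B`, hence true for the spheres `Gam.Id.BN N`.
* `Wdg.gwd` : then `W(K ⊕ L)` is the wedge of `W(K)` and `W(L)`.
* `Wdg.hz_all` : `G` Segal, `H̃_t(G(1₊)) = 0` for `t < c` ⟹ `H̃_t(G(K₊)) = 0` for `t < c`.
* `Wdg.rz0_all` : `u : W → G`, `W` as above, `G` Segal, `H̃_t(G(1₊)) = 0` for `t < c`,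
  `H_t(G(1₊), W(1₊)) = 0` for `t < m`, `m ≤ 2 c` ⟹ `H_t(G(K₊), W(K₊)) = 0` for `t < m`.
-/

namespace Vale.Agent.P263.GB

open Vale.Agent.P263.S Vale.Agent.P263.E

namespace Wdg

variable {R : Type} [CommRing R]

/-! ### base points -/

/-- the base point of `G(K₊)` -/
noncomputable def gb {G : Gam} (hG : G.Pt) (K : Type) [Finite K] : SS.Map SS.pt (G.obj K) where
  app {p} _ := (G.map (fun k : Empty => (k.elim : Option K))).app (hG.ne Empty p).some
  nat {p q} f _ := by
    have := hG.sub Empty p
    show (G.map _).app (hG.ne Empty p).some = (G.obj K).map f ((G.map _).app (hG.ne Empty q).some)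
    rw [← SS.Map.nat]
    congr 1
    exact Subsingleton.elim _ _

variable {G W : Gam} (hG : G.Pt) (hW : W.Pt)

theorem gb_eq (K : Type) [Finite K] {p : ℕ} (e : (G.obj Empty).obj p) :
    (G.map (fun k : Empty => (k.elim : Option K))).app e = bp (gb hG K) p := by
  have := hG.sub Empty p
  rw [Subsingleton.elim e (hG.ne Empty p).some]
  rfl

theorem map_gb {K L : Type} [Finite K] [Finite L] (f : K → Option L) :
    (G.map f).comp (gb hG K) = gb hG L := by
  apply SS.Map.ext
  intro p x
  change (G.map f).app ((G.map _).app _) = _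
  rw [← G.map_bind]
  have : (fun k : Empty => ((k.elim : Option K).bind f : Option L)) = fun k => k.elim :=
    funext fun k => k.elim
  rw [this]
  exact gb_eq hG L _

theorem map_none {K L : Type} [Finite K] [Finite L] (f : K → Option L) (hf : ∀ k, f k = none) :
    G.map f = (gb hG L).comp (SS.toPt (G.obj K)) := by
  apply SS.Map.ext
  intro p x
  have : f = fun k => ((fun _ : K => (none : Option Empty)) k).bind
      (fun k : Empty => (k.elim : Option L)) := funext fun k => (hf k).trans rfl
  rw [this, G.map_bind]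
  exact gb_eq hG L _

theorem app_gb (u : Gam.Hom W G) (K : Type) [Finite K] : (u.app K).comp (gb hW K) = gb hG K := by
  apply SS.Map.ext
  intro p x
  change (u.app K).app ((W.map _).app _) = _
  rw [u.nat]
  exact gb_eq hG K _

theorem map_comp_map {K L M : Type} [Finite K] [Finite L] [Finite M] (f : K → Option L)
    (g : L → Option M) : (G.map g).comp (G.map f) = G.map (fun k => (f k).bind g) := by
  apply SS.Map.ext
  intro p x
  exact (G.map_bind f g x).symm

theorem map_some' (K : Type) [Finite K] : G.map (some : K → Option K) = SS.Map.id _ := by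
  apply SS.Map.ext
  intro p x
  exact G.map_some x

/-! ### coverings -/

open Classical in
/-- keep the labels in `P` -/
noncomputable def keep {M : Type} (P : M → Prop) (m : M) : Option M := if P m then some m else none

/-- every simplex is supported on `P` or on the complement of `P` -/
def Cov (W : Gam) : Prop := ∀ (M : Type) [Finite M] (P : M → Prop) (p : ℕ)
  (w : (W.obj M).obj p), (W.map (keep P)).app w = w ∨ (W.map (keep fun m => ¬ P m)).app w = w

theorem cov_Id : Cov Gam.Id := by
  classical
  intro M _ P p w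
  change Option.bind w (keep P) = w ∨ Option.bind w (keep fun m => ¬ P m) = w
  cases w with
  | none => exact Or.inl rfl
  | some m =>
    by_cases h : P m
    · exact Or.inl (if_pos h)
    · exact Or.inr (if_pos h)

theorem sndK_keep {M : Type} (A : Type) (P : M → Prop) :
    sndK A (keep P) = keep (fun x : A × M => P x.2) := by
  classical
  funext x
  simp only [sndK, keep]
  split_ifs <;> rfl

theorem Cov.B {W : Gam} (h : Cov W) : Cov W.B := by
  intro M _ P p w
  rw [Gam.B_app, Gam.B_app, sndK_keep, sndK_keep]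
  exact h (Fin p × M) (fun x => P x.2) p w

theorem Cov.BN {W : Gam} (h : Cov W) : ∀ N, Cov (W.BN N)
  | 0 => h
  | N + 1 => (Cov.BN h N).B

theorem cov_sphere (N : ℕ) : Cov (Gam.Id.BN N) := cov_Id.BN N

/-- the inclusion of the first summand -/
def inlO {K L : Type} (k : K) : Option (K ⊕ L) := some (Sum.inl k)

/-- the inclusion of the second summand -/
def inrO {K L : Type} (l : L) : Option (K ⊕ L) := some (Sum.inr l)

/-- `W(K ⊕ L)` is the wedge of `W(K)` and `W(L)` -/
noncomputable def gwd (hc : Cov W) (K L : Type) [Finite K] [Finite L] :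
    Wd (W.obj K) (W.obj L) (W.obj (K ⊕ L)) (gb hW K) (gb hW L) where
  jA := W.map inlO
  jB := W.map inrO
  rA := W.map lftO
  rB := W.map rgtO
  rA_jA := (map_comp_map _ _).trans (map_some' K)
  rB_jB := (map_comp_map _ _).trans (map_some' L)
  rA_jB := (map_comp_map _ _).trans (map_none hW _ fun _ => rfl)
  rB_jA := (map_comp_map _ _).trans (map_none hW _ fun _ => rfl)
  base := (map_gb hW _).trans (map_gb hW _).symm
  cover p w := by
    classical
    have h1 : (W.map inlO).app ((W.map (lftO : K ⊕ L → Option K)).app w) =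
        (W.map (keep fun m : K ⊕ L => m.isLeft = true)).app w := by
      rw [← W.map_bind]
      congr 2
      funext m
      rcases m with k | l
      · exact (if_pos rfl).symm
      · exact (if_neg (by simp)).symm
    have h2 : (W.map inrO).app ((W.map (rgtO : K ⊕ L → Option L)).app w) =
        (W.map (keep fun m : K ⊕ L => ¬ m.isLeft = true)).app w := by
      rw [← W.map_bind]
      congr 2
      funext m
      rcases m with k | l
      · exact (if_neg (by simp)).symm
      · exact (if_pos (by simp)).symm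
    rw [h1, h2]
    exact hc (K ⊕ L) _ p w

/-! ### induction over the finite sets -/

/-- a property of finite sets which is invariant under bijections, true for `Empty`, `Unit` and
stable under sums, is true for all finite sets -/
theorem finite_ind (P : (K : Type) → [Finite K] → Prop)
    (he : ∀ (K L : Type) [Finite K] [Finite L], K ≃ L → P K → P L) (h0 : P Empty) (h1 : P Unit)
    (hs : ∀ (K L : Type) [Finite K] [Finite L], P K → P L → P (K ⊕ L)) (K : Type) [Finite K] :
    P K := by
  have key : ∀ n : ℕ, P (Fin n) := by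
    intro n
    induction n with
    | zero => exact he Empty (Fin 0) (Equiv.equivOfIsEmpty _ _) h0
    | succ n ih =>
      exact he (Fin n ⊕ Unit) (Fin (n + 1))
        ((Equiv.sumCongr (Equiv.refl _) (Equiv.ofUnique Unit (Fin 1))).trans
          finSumFinEquiv) (hs _ _ ih h1)
  obtain ⟨n, ⟨e⟩⟩ := Finite.exists_equiv_fin K
  exact he (Fin n) K e.symm (key n)

/-! ### the main statements -/

theorem rz0_equiv (u : Gam.Hom W G) {K L : Type} [Finite K] [Finite L] (e : K ≃ L) (n : ℕ) :
    RZ0 (freeMap R (u.app K)).cx n ↔ RZ0 (freeMap R (u.app L)).cx n :=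
  rz0_square (u.app K) (u.app L) (W.map fun k => some (e k)) (G.map fun k => some (e k))
    (W.map_equiv_bijective e) (G.map_equiv_bijective e) (fun _ x => u.nat _ x) n

/-- the map from the point -/
noncomputable def ptHom (hG : G.Pt) : Gam.Hom Gam.pt G where
  app K _ := gb hG K
  nat {K L} _ _ f p x := by
    change (gb hG L).app _ = ((G.map f).comp (gb hG K)).app x
    rw [map_gb]
    rfl

theorem rz0_iso {X Y : SS} (f : SS.Map X Y) (h : ∀ p, Function.Bijective (f.app (p := p)))
    (n : ℕ) : RZ0 (freeMap R f).cx n :=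
  (rz0_square (R := R) (SS.Map.id X) f (SS.Map.id X) f (fun _ => Function.bijective_id) h
    (fun _ _ => rfl) n).1 (by
      have key : ∀ n (c : (free R X).obj n), (freeMap R (SS.Map.id X)).app n c = c := fun n c =>
        free_ext _ LinearMap.id (fun z => by rw [freeMap_fs]; rfl) c
      cases n with
      | zero =>
        rw [rz0_zero]
        intro b
        exact ⟨0, b, by rw [map_zero, zero_add]; exact key 0 b⟩
      | succ n =>
        rw [rz0_succ]
        intro b a _ hb
        refine ⟨0, b, by rw [map_zero, zero_add]; exact key (n + 1) b, ?_⟩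
        rw [eq_neg_of_add_eq_zero_left hb, neg_neg]
        exact key n a)

theorem rz0_empty (hW : W.Pt) (hG : G.Pt) (u : Gam.Hom W G) (K : Type) [Finite K] [IsEmpty K]
    (n : ℕ) : RZ0 (freeMap R (u.app K)).cx n := by
  refine rz0_iso (u.app K) (fun p => ?_) n
  have h1 := hG.sub K p
  have h2 := hW.sub K p
  obtain ⟨w⟩ := hW.ne K p
  exact ⟨fun x y _ => Subsingleton.elim _ _, fun y => ⟨w, Subsingleton.elim _ _⟩⟩

/-- `H̃_t(G(K₊)) = 0` for `t < c`, all `K`, if this is true for `1₊` -/
theorem hz_all (hG : G.Pt) (hs : G.SegalH R) (c : ℕ)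
    (h : ∀ t < c, (rd R (G.obj Unit)).cx.HZ t) (K : Type) [Finite K] :
    ∀ t < c, (rd R (G.obj K)).cx.HZ t := by
  refine finite_ind (fun K _ => ∀ t < c, (rd R (G.obj K)).cx.HZ t) ?_ ?_ h ?_ K
  · intro K L _ _ e hK t ht
    exact (rz0_pt (gb hG L) t).1 ((rz0_equiv (ptHom hG) e t).1 ((rz0_pt (gb hG K) t).2 (hK t ht)))
  · intro t ht
    exact (rz0_pt (gb hG Empty) t).1
      (rz0_empty (W := Gam.pt) ⟨fun _ _ _ _ => ⟨fun _ _ => rfl⟩, fun _ _ _ _ => ⟨()⟩⟩ hG
        (ptHom hG) Empty t)
  · intro K L _ _ hK hL t ht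
    refine (rz0_pt (gb hG (K ⊕ L)) t).1 ?_
    have h1 : RZ0 (freeMap R ((ax (G.obj K) (gb hG L)).comp (gb hG K))).cx t :=
      (rz0_pt _ t).2 (hz_prod (gb hG K) (gb hG L) c hK hL t ht)
    have e : (ax (G.obj K) (gb hG L)).comp (gb hG K) = (G.seg K L).comp (gb hG (K ⊕ L)) := by
      apply SS.Map.ext
      intro p x
      change (bp (gb hG K) p, bp (gb hG L) p) =
        ((G.map lftO).app (bp (gb hG (K ⊕ L)) p), (G.map rgtO).app (bp (gb hG (K ⊕ L)) p))
      rw [app_bp _ _ _ (map_gb hG lftO), app_bp _ _ _ (map_gb hG rgtO)]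
    rw [e] at h1
    have e2 : (freeMap R ((G.seg K L).comp (gb hG (K ⊕ L)))).cx =
        (freeMap R (G.seg K L)).cx.comp (freeMap R (gb hG (K ⊕ L))).cx := by
      ext p c
      exact freeMap_comp_apply _ _ _ _
    rw [e2] at h1
    exact rz0_left _ _ t h1 (hs K L (t + 1))

/-- **the range lemma**: with field coefficients, if `H̃_t(G(1₊)) = 0` for `t < c` and the
relative homology of `W(1₊) → G(1₊)` vanishes in degrees `< m ≤ 2 c`, then the same is true at
all finite pointed sets. -/
theorem rz0_all {k : Type} [Field k] (hW : W.Pt) (hG : G.Pt) (hc : Cov W) (hs : G.SegalH k)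
    (u : Gam.Hom W G) (c m : ℕ) (hm : m ≤ c + c) (h : ∀ t < c, (rd k (G.obj Unit)).cx.HZ t)
    (hu : ∀ t < m, RZ0 (freeMap k (u.app Unit)).cx t) (K : Type) [Finite K] :
    ∀ t < m, RZ0 (freeMap k (u.app K)).cx t := by
  refine finite_ind (fun K _ => ∀ t < m, RZ0 (freeMap k (u.app K)).cx t) ?_ ?_ hu ?_ K
  · intro K L _ _ e hK t ht
    exact (rz0_equiv u e t).1 (hK t ht)
  · intro t _
    exact rz0_empty hW hG u Empty t
  · intro K L _ _ hK hL t ht
    have h1 := (gwd hW hc K L).rz0 (u.app K) (u.app L) (gb hG K) (gb hG L) (app_gb hG hW u K)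
      (app_gb hG hW u L) m c c hK hL (hz_all hG hs c h K) (hz_all hG hs c h L) hm t ht
    have e : SS.pair ((u.app K).comp (gwd hW hc K L).rA) ((u.app L).comp (gwd hW hc K L).rB) =
        (G.seg K L).comp (u.app (K ⊕ L)) := by
      apply SS.Map.ext
      intro p x
      exact Prod.ext (u.nat lftO x) (u.nat rgtO x)
    rw [e] at h1
    have e2 : (freeMap k ((G.seg K L).comp (u.app (K ⊕ L)))).cx =
        (freeMap k (G.seg K L)).cx.comp (freeMap k (u.app (K ⊕ L))).cx := by
      ext p c
      exact freeMap_comp_apply _ _ _ _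
    rw [e2] at h1
    exact rz0_left _ _ t h1 (hs K L (t + 1))

end Wdg

end Vale.Agent.P263.GB
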