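import Vale.Agent.P263.GB.Htp
import Vale.Agent.P263.G2.PK

/-!
# P263, block G2-2, steps (W2) and (W3): whiskered simplices

`Y` a topological space with base point `y₀`, `T` a topological space (a standard simplex).

* `pkRow T y₀ : SS`, `k ↦ C(T, PK (Fin (k + 1)) y₀)` and `sxRow T Y : SS`,
  `k ↦ C(T, C(Δ^k, Y))`, with the projection `sxMap : pkRow → sxRow` (forget the whiskers).
* (W2) `rz0_sxMap` : for `T` contractible and `Y` path connected, `sxMap` has vanishing relative
  homology in all degrees: a SET section of `C(T, PY) → C(T, Y)` gives a simplicial homotopy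
  equivalence (the whiskers can be changed vertex by vertex).
* (W3) `homotopyEquivConst` : the constant simplices `Y → C(Δ^k, Y)` are a homotopy equivalence.
-/

namespace Vale.Agent.P263.GB

open Vale.Agent.P263.S Vale.Agent.P263.E Vale.Agent.P263.G2 unitInterval

/-! ### the rows -/

section rows

variable (T : Type) [TopologicalSpace T] {Y : Type} [TopologicalSpace Y] (y₀ : Y)

/-- reindexing of simplices -/
noncomputable def sxRe {ι κ : Type} [Fintype ι] [Fintype κ] (Y : Type) [TopologicalSpace Y]
    (f : κ → ι) : C(C(stdSimplex ℝ ι, Y), C(stdSimplex ℝ κ, Y)) where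
  toFun g := g.comp ⟨stdSimplex.map f, stdSimplex.continuous_map f⟩
  continuous_toFun := ContinuousMap.continuous_precomp _

@[simp] theorem sxRe_apply {ι κ : Type} [Fintype ι] [Fintype κ] (f : κ → ι)
    (g : C(stdSimplex ℝ ι, Y)) (t : stdSimplex ℝ κ) :
    sxRe Y f g t = g (stdSimplex.map f t) := rfl

variable (Y) in
/-- the simplicial set `k ↦ C(T, C(Δ^k, Y))` -/
noncomputable def sxRow : SS where
  obj k := C(T, C(stdSimplex ℝ (Fin (k + 1)), Y))
  map f g := (sxRe Y f).comp g
  map_id g := by
    ext t s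
    show g t (stdSimplex.map id s) = g t s
    rw [stdSimplex.map_id_apply]
  map_comp f g x := by
    ext t s
    show x t (stdSimplex.map (fun a => f (g a)) s) = x t (stdSimplex.map f (stdSimplex.map g s))
    rw [stdSimplex.map_comp_apply]
    rfl

/-- the simplicial set `k ↦ C(T, PK (Fin (k + 1)) y₀)` -/
noncomputable def pkRow : SS where
  obj k := C(T, PK (Fin (k + 1)) y₀)
  map f g := (PK.re f).comp g
  map_id g := by
    show (PK.re (id : _ → _)).comp g = g
    rw [PK.re_id]
    rfl
  map_comp f g x := by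
    show (PK.re (f ∘ g)).comp x = (PK.re g).comp ((PK.re f).comp x)
    rw [PK.re_comp]
    rfl

/-- a simplex of `sxRow`, as a map -/
def sxFun {T : Type} [TopologicalSpace T] {Y : Type} [TopologicalSpace Y] {k : ℕ}
    (g : (sxRow T Y).obj k) : C(T, C(stdSimplex ℝ (Fin (k + 1)), Y)) := g

/-- a simplex of `pkRow`, as a map -/
def pkFun {T : Type} [TopologicalSpace T] {Y : Type} [TopologicalSpace Y] {y₀ : Y} {k : ℕ}
    (g : (pkRow T y₀).obj k) : C(T, PK (Fin (k + 1)) y₀) := g

theorem sxRow_map_apply {p q : ℕ} (f : Op p q) (g : (sxRow T Y).obj q) (t : T)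
    (s : stdSimplex ℝ (Fin (p + 1))) :
    sxFun ((sxRow T Y).map f g) t s = sxFun g t (stdSimplex.map f s) := rfl

/-- forget the whiskers -/
noncomputable def sxMap : SS.Map (pkRow T y₀) (sxRow T Y) where
  app {k} g := (PK.sx.comp g : C(T, C(stdSimplex ℝ (Fin (k + 1)), Y)))
  nat _ _ := rfl

variable {T} {y₀}

theorem pkRow_ext {k : ℕ} {g h : (pkRow T y₀).obj k}
    (h1 : PK.sx.comp (pkFun g) = PK.sx.comp (pkFun h))
    (h2 : ∀ a, (PK.pr a).comp (pkFun g) = (PK.pr a).comp (pkFun h)) : g = h := by
  refine ContinuousMap.ext fun t => PK.ext (fun s => ?_) fun a s => ?_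
  · exact congrArg (fun x : C(stdSimplex ℝ (Fin (k + 1)), Y) => x s)
      (congrArg (fun x : C(T, C(stdSimplex ℝ (Fin (k + 1)), Y)) => x t) h1)
  · exact congrArg (fun x : PY y₀ => x.1 s)
      (congrArg (fun x : C(T, PY y₀) => x t) (h2 a))

/-- the vertices of a family of simplices -/
noncomputable def vx {k : ℕ} (g : (sxRow T Y).obj k) (a : Fin (k + 1)) : C(T, Y) where
  toFun t := sxFun g t (stdSimplex.vertex a)
  continuous_toFun := (continuous_eval_const _).comp (sxFun g).continuous

theorem vx_apply {k : ℕ} (g : (sxRow T Y).obj k) (a : Fin (k + 1))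
    (t : T) : vx g a t = sxFun g t (stdSimplex.vertex a) := rfl

theorem vx_map {p q : ℕ} (f : Op p q) (g : (sxRow T Y).obj q) (a : Fin (p + 1)) :
    vx ((sxRow T Y).map f g) a = vx g (f a) := by
  ext t
  rw [vx_apply, vx_apply, sxRow_map_apply, stdSimplex.map_vertex]

open Classical in
/-- replace the whiskers with index in `χ⁻¹(0)` by the chosen ones -/
noncomputable def wmix {k : ℕ} (s : C(T, Y) → C(T, PY y₀)) (hs : ∀ y, PY.ev.comp (s y) = y)
    (χ : Op k 1) (g : (pkRow T y₀).obj k) : (pkRow T y₀).obj k :=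
  PK.lift (PK.sx.comp (pkFun g)) (fun a => if χ a = 1 then (PK.pr a).comp (pkFun g) else
      s (vx ((sxMap T y₀).app g) a))
    fun a t => by
      by_cases h : χ a = 1
      · rw [if_pos h]
        exact PK.ev_pr a _
      · rw [if_neg h]
        exact congrArg (fun x : C(T, Y) => x t) (hs (vx ((sxMap T y₀).app g) a))

theorem sx_wmix {k : ℕ} (s : C(T, Y) → C(T, PY y₀)) (hs : ∀ y, PY.ev.comp (s y) = y)
    (χ : Op k 1) (g : (pkRow T y₀).obj k) :
    PK.sx.comp (pkFun (wmix s hs χ g)) = PK.sx.comp (pkFun g) := rfl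

open Classical in
theorem pr_wmix {k : ℕ} (s : C(T, Y) → C(T, PY y₀)) (hs : ∀ y, PY.ev.comp (s y) = y)
    (χ : Op k 1) (g : (pkRow T y₀).obj k) (a : Fin (k + 1)) :
    (PK.pr a).comp (pkFun (wmix s hs χ g)) =
      if χ a = 1 then (PK.pr a).comp (pkFun g) else s (vx ((sxMap T y₀).app g) a) := rfl

/-- the section of `sxMap` -/
noncomputable def wsec (s : C(T, Y) → C(T, PY y₀)) (hs : ∀ y, PY.ev.comp (s y) = y) :
    SS.Map (sxRow T Y) (pkRow T y₀) where
  app {k} g := PK.lift (sxFun g) (fun a => s (vx g a)) fun a t =>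
    congrArg (fun x : C(T, Y) => x t) (hs (vx g a))
  nat {p q} f g := by
    refine pkRow_ext rfl fun a => ?_
    show s (vx ((sxRow T Y).map f g) a) = s (vx g (f a))
    rw [vx_map]

/-- the homotopy from `section ∘ sxMap` to the identity -/
noncomputable def whtp (s : C(T, Y) → C(T, PY y₀)) (hs : ∀ y, PY.ev.comp (s y) = y) :
    SS.Htp (pkRow T y₀) (pkRow T y₀) where
  h _ χ g := wmix s hs χ g
  nat {p q} f χ g := by
    classical
    refine pkRow_ext rfl fun a => ?_
    rw [pr_wmix]
    show _ = if χ (f a) = 1 then (PK.pr (f a)).comp (pkFun g) else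
      s (vx ((sxMap T y₀).app g) (f a))
    refine if_congr Iff.rfl rfl ?_
    exact congrArg s (vx_map f ((sxMap T y₀).app g) a)

theorem whtp_e1 (s : C(T, Y) → C(T, PY y₀)) (hs : ∀ y, PY.ev.comp (s y) = y) :
    (whtp s hs).e1 = SS.Map.id (pkRow T y₀) := by
  classical
  refine SS.Map.ext fun p g => ?_
  refine pkRow_ext rfl fun a => ?_
  show (PK.pr a).comp (pkFun (wmix s hs (c1 p) g)) = _
  rw [pr_wmix, if_pos (c1_val p a)]
  rfl

theorem whtp_e0 (s : C(T, Y) → C(T, PY y₀)) (hs : ∀ y, PY.ev.comp (s y) = y) :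
    (whtp s hs).e0 = (wsec s hs).comp (sxMap T y₀) := by
  classical
  refine SS.Map.ext fun p g => ?_
  refine pkRow_ext rfl fun a => ?_
  show (PK.pr a).comp (pkFun (wmix s hs (c0 p) g)) = _
  rw [pr_wmix, if_neg (by rw [c0_val]; decide)]
  rfl

variable {R : Type} [CommRing R]

/-- **(W2)** Forgetting the whiskers has vanishing relative homology, row by row. -/
theorem rz0_sxMap [ContractibleSpace T] [PathConnectedSpace Y] (n : ℕ) :
    RZ0 (freeMap R (sxMap T y₀)).cx n := by
  have h : ∀ f : C(T, Y), ∃ g : C(T, PY y₀), PY.ev.comp g = f := fun f => PY.exists_lift f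
  choose s hs using h
  refine rz0_of_htp (sxMap T y₀) (wsec s hs) ⟨whtp s hs, Or.inr ⟨whtp_e0 s hs, whtp_e1 s hs⟩⟩ ?_ n
  have : (sxMap T y₀).comp (wsec s hs) = SS.Map.id (sxRow T Y) := rfl
  rw [this]
  exact HtpRel.refl _

end rows

/-! ### (W3): constant simplices -/

section const

variable {ι : Type} [Fintype ι] {Y : Type} [TopologicalSpace Y]

variable (ι Y) in
/-- the constant simplices -/
noncomputable def constSx : C(Y, C(stdSimplex ℝ ι, Y)) where
  toFun y := ContinuousMap.const _ y
  continuous_toFun := ContinuousMap.continuous_const'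

@[simp] theorem constSx_apply (y : Y) (t : stdSimplex ℝ ι) : constSx ι Y y t = y := rfl

/-- the constant simplices are compatible with reindexing -/
theorem sxRe_constSx {κ : Type} [Fintype κ] (f : κ → ι) (y : Y) : sxRe Y f (constSx ι Y y) = constSx κ Y y :=
  rfl

variable [DecidableEq ι]

/-- the value at a vertex -/
noncomputable def evv (a : ι) : C(C(stdSimplex ℝ ι, Y), Y) where
  toFun g := g (stdSimplex.vertex a)
  continuous_toFun := continuous_eval_const _

/-- the straight line from `t` to the point `u` -/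
noncomputable def line (u : stdSimplex ℝ ι) (τ : I) (t : stdSimplex ℝ ι) : stdSimplex ℝ ι :=
  ⟨fun i => (1 - (τ : ℝ)) * t i + τ * u i, by
    refine ⟨fun i => add_nonneg (mul_nonneg (sub_nonneg.2 τ.2.2) (t.2.1 i))
      (mul_nonneg τ.2.1 (u.2.1 i)), ?_⟩
    have h1 : ∑ i, t i = 1 := t.2.2
    have h2 : ∑ i, u i = 1 := u.2.2
    rw [Finset.sum_add_distrib, ← Finset.mul_sum, ← Finset.mul_sum, h1, h2]
    ring⟩

omit [DecidableEq ι] in
theorem line_apply (u : stdSimplex ℝ ι) (τ : I) (t : stdSimplex ℝ ι) (i : ι) :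
    (line u τ t : ι → ℝ) i = (1 - (τ : ℝ)) * t i + τ * u i := rfl

omit [DecidableEq ι] in
theorem continuous_line (u : stdSimplex ℝ ι) :
    Continuous fun x : I × stdSimplex ℝ ι => line u x.1 x.2 := by
  refine Continuous.subtype_mk ?_ _
  refine continuous_pi fun i => ?_
  have h : Continuous fun x : I × stdSimplex ℝ ι => (x.2 : ι → ℝ) i :=
    (continuous_apply i).comp (continuous_subtype_val.comp continuous_snd)
  fun_prop

omit [DecidableEq ι] in
@[simp] theorem line_zero (u t : stdSimplex ℝ ι) : line u 0 t = t := by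
  refine stdSimplex.ext (funext fun i => ?_)
  rw [line_apply]; simp

omit [DecidableEq ι] in
@[simp] theorem line_one (u t : stdSimplex ℝ ι) : line u 1 t = u := by
  refine stdSimplex.ext (funext fun i => ?_)
  rw [line_apply]; simp

/-- **(W3)** the constant simplices are a homotopy equivalence -/
noncomputable def homotopyEquivConst (Y : Type) [TopologicalSpace Y] (a : ι) :
    ContinuousMap.HomotopyEquiv Y C(stdSimplex ℝ ι, Y) where
  toFun := constSx ι Y
  invFun := evv a
  left_inv := by
    have : (evv a).comp (constSx ι Y) = ContinuousMap.id Y := rfl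
    rw [this]
  right_inv := by
    refine ContinuousMap.Homotopic.symm ⟨⟨⟨fun x => x.2.comp
      ⟨line (stdSimplex.vertex a) x.1, (continuous_line (stdSimplex.vertex a)).comp
        (continuous_const.prodMk continuous_id)⟩, ?_⟩, ?_, ?_⟩⟩
    · refine ContinuousMap.continuous_of_continuous_uncurry _ ?_
      have h1 : Continuous fun z : (I × C(stdSimplex ℝ ι, Y)) × stdSimplex ℝ ι =>
          line (stdSimplex.vertex a) z.1.1 z.2 :=
        (continuous_line (stdSimplex.vertex a)).comp
          ((continuous_fst.comp continuous_fst).prodMk continuous_snd)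
      show Continuous fun z : (I × C(stdSimplex ℝ ι, Y)) × stdSimplex ℝ ι =>
        z.1.2 (line (stdSimplex.vertex a) z.1.1 z.2)
      exact ContinuousEval.continuous_eval.comp ((continuous_snd.comp continuous_fst).prodMk h1)
    · intro g
      refine ContinuousMap.ext fun t => ?_
      show g (line _ 0 t) = g t
      rw [line_zero]
    · intro g
      refine ContinuousMap.ext fun t => ?_
      show g (line _ 1 t) = g (stdSimplex.vertex a)
      rw [line_one]

end const

end Vale.Agent.P263.GB
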